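import Crest.Agent.Lib.Row160.Defs

/-!
Row 160, chunk M9, part A: independence tools (splicing of label configurations).
-/

set_option autoImplicit false

open MeasureTheory Filter Topology

namespace Crest.Agent.Lib.Row160

namespace Br

variable {V : Type*}

instance instProbLab : IsProbabilityMeasure (labM V) := by unfold labM; infer_instance

/-- `F` depends only on the coordinates in `S`. -/
def DepOn {α : Type*} (S : Set (V × ℕ)) (F : Lab V → α) : Prop :=
  ∀ ω ω' : Lab V, (∀ q ∈ S, ω q = ω' q) → F ω = F ω'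

theorem DepOn.mono {α : Type*} {S T : Set (V × ℕ)} {F : Lab V → α} (h : DepOn S F) (hST : S ⊆ T) :
    DepOn T F := fun ω ω' hq => h ω ω' fun q hqS => hq q (hST hqS)

theorem depOn_const {α : Type*} (S : Set (V × ℕ)) (c : α) : DepOn S (fun _ : Lab V => c) :=
  fun _ _ _ => rfl

open Classical in
/-- `ω` on `S`, `ω'` off `S`. -/
noncomputable def splice (S : Set (V × ℕ)) (ω ω' : Lab V) : Lab V := fun q => if q ∈ S then ω q else ω' q

theorem measurable_splice (S : Set (V × ℕ)) :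
    Measurable (fun p : Lab V × Lab V => splice S p.1 p.2) := by
  rw [measurable_pi_iff]
  intro q
  unfold splice
  by_cases hq : q ∈ S
  · simp only [hq, if_true]
    exact (measurable_pi_apply q).comp measurable_fst
  · simp only [hq, if_false]
    exact (measurable_pi_apply q).comp measurable_snd

theorem map_splice (S : Set (V × ℕ)) :
    ((labM V).prod (labM V)).map (fun p : Lab V × Lab V => splice S p.1 p.2) = labM V := by
  classical
  conv_rhs => unfold labM
  apply Measure.eq_infinitePi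
  intro s t ht
  have hms : MeasurableSet (Set.pi (s : Set (V × ℕ)) t) :=
    MeasurableSet.pi s.countable_toSet fun i _ => ht i
  rw [Measure.map_apply (measurable_splice S) hms]
  have e : (fun p : Lab V × Lab V => splice S p.1 p.2) ⁻¹' (Set.pi (s : Set (V × ℕ)) t)
      = (Set.pi ((s.filter (fun q => q ∈ S) : Finset (V × ℕ)) : Set (V × ℕ)) t) ×ˢ
        (Set.pi ((s.filter (fun q => q ∉ S) : Finset (V × ℕ)) : Set (V × ℕ)) t) := by
    ext p
    simp only [Set.mem_preimage, Set.mem_pi, Finset.mem_coe, Set.mem_prod, Finset.mem_filter,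
      splice]
    constructor
    · intro h
      constructor
      · rintro q ⟨hq, hqS⟩
        have := h q hq
        rwa [if_pos hqS] at this
      · rintro q ⟨hq, hqS⟩
        have := h q hq
        rwa [if_neg hqS] at this
    · rintro ⟨h1, h2⟩ q hq
      by_cases hqS : q ∈ S
      · rw [if_pos hqS]; exact h1 q ⟨hq, hqS⟩
      · rw [if_neg hqS]; exact h2 q ⟨hq, hqS⟩
  rw [e, Measure.prod_prod]
  unfold labM
  rw [Measure.infinitePi_pi _ (fun i _ => ht i), Measure.infinitePi_pi _ (fun i _ => ht i)]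
  exact Finset.prod_filter_mul_prod_filter_not s (fun q => q ∈ S) _

theorem splice_eq_left {S : Set (V × ℕ)} (ω ω' : Lab V) : ∀ q ∈ S, splice S ω ω' q = ω q :=
  fun q hq => by unfold splice; rw [if_pos hq]

theorem splice_eq_right {S : Set (V × ℕ)} (ω ω' : Lab V) : ∀ q, q ∉ S → splice S ω ω' q = ω' q :=
  fun q hq => by unfold splice; rw [if_neg hq]

/-- decoupling. -/
theorem integral_diag {S : Set (V × ℕ)} {H : Lab V → Lab V → ℝ}
    (h1 : ∀ ω₁ ω₂ ω' : Lab V, (∀ q ∈ S, ω₁ q = ω₂ q) → H ω₁ ω' = H ω₂ ω')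
    (h2 : ∀ ω ω₁ ω₂ : Lab V, (∀ q, q ∉ S → ω₁ q = ω₂ q) → H ω ω₁ = H ω ω₂)
    (hm : Measurable (fun p : Lab V × Lab V => H p.1 p.2)) (hb : ∃ C, ∀ ω ω', |H ω ω'| ≤ C) :
    ∫ ω, H ω ω ∂(labM V) = ∫ ω, ∫ ω', H ω ω' ∂(labM V) ∂(labM V) := by
  obtain ⟨C, hC⟩ := hb
  have hmd : Measurable (fun ω : Lab V => H ω ω) := hm.comp (measurable_id.prodMk measurable_id)
  have e1 : ∫ ω, H ω ω ∂(labM V) = ∫ p : Lab V × Lab V, H (splice S p.1 p.2) (splice S p.1 p.2)
      ∂((labM V).prod (labM V)) := by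
    conv_lhs => rw [← map_splice S]
    rw [integral_map (measurable_splice S).aemeasurable hmd.aestronglyMeasurable]
  have e2 : ∀ p : Lab V × Lab V, H (splice S p.1 p.2) (splice S p.1 p.2) = H p.1 p.2 := by
    intro p
    rw [h1 _ p.1 _ (splice_eq_left p.1 p.2), h2 _ _ p.2 (splice_eq_right p.1 p.2)]
  rw [e1]
  simp_rw [e2]
  have hint : Integrable (fun p : Lab V × Lab V => H p.1 p.2) ((labM V).prod (labM V)) :=
    Integrable.of_bound hm.aestronglyMeasurable C
      (Eventually.of_forall fun p => by rw [Real.norm_eq_abs]; exact hC p.1 p.2)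
  exact integral_prod _ hint

/-- bounded measurable function of the coordinates in `S`. -/
structure Gd (S : Set (V × ℕ)) (F : Lab V → ℝ) : Prop where
  meas : Measurable F
  dep : DepOn S F
  bdd : ∃ C, ∀ ω, |F ω| ≤ C

theorem Gd.mono {S T : Set (V × ℕ)} {F : Lab V → ℝ} (h : Gd S F) (hST : S ⊆ T) : Gd T F :=
  ⟨h.meas, h.dep.mono hST, h.bdd⟩

theorem gd_const (S : Set (V × ℕ)) (c : ℝ) : Gd S (fun _ : Lab V => c) :=
  ⟨measurable_const, depOn_const S c, |c|, fun _ => le_refl _⟩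

theorem Gd.mul {S : Set (V × ℕ)} {F G : Lab V → ℝ} (hF : Gd S F) (hG : Gd S G) :
    Gd S (fun ω => F ω * G ω) := by
  obtain ⟨C, hC⟩ := hF.bdd
  obtain ⟨C', hC'⟩ := hG.bdd
  refine ⟨hF.meas.mul hG.meas, fun ω ω' h => ?_, C * C', fun ω => ?_⟩
  · show F ω * G ω = F ω' * G ω'
    rw [hF.dep ω ω' h, hG.dep ω ω' h]
  · rw [abs_mul]
    exact mul_le_mul (hC ω) (hC' ω) (abs_nonneg _) ((abs_nonneg _).trans (hC ω))

theorem Gd.add {S : Set (V × ℕ)} {F G : Lab V → ℝ} (hF : Gd S F) (hG : Gd S G) :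
    Gd S (fun ω => F ω + G ω) := by
  obtain ⟨C, hC⟩ := hF.bdd
  obtain ⟨C', hC'⟩ := hG.bdd
  refine ⟨hF.meas.add hG.meas, fun ω ω' h => ?_, C + C', fun ω => ?_⟩
  · show F ω + G ω = F ω' + G ω'
    rw [hF.dep ω ω' h, hG.dep ω ω' h]
  · exact (abs_add_le _ _).trans (add_le_add (hC ω) (hC' ω))

theorem Gd.const_mul {S : Set (V × ℕ)} {F : Lab V → ℝ} (c : ℝ) (hF : Gd S F) :
    Gd S (fun ω => c * F ω) := (gd_const S c).mul hF

/-- composition with a measurable locally bounded function. -/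
theorem Gd.comp {S : Set (V × ℕ)} {F : Lab V → ℝ} (hF : Gd S F) {f : ℝ → ℝ} (hf : Measurable f)
    (hb : ∀ R : ℝ, ∃ C, ∀ x, |x| ≤ R → |f x| ≤ C) : Gd S (fun ω => f (F ω)) := by
  obtain ⟨R, hR⟩ := hF.bdd
  obtain ⟨C, hC⟩ := hb R
  refine ⟨hf.comp hF.meas, fun ω ω' h => ?_, C, fun ω => hC _ (hR ω)⟩
  show f (F ω) = f (F ω')
  rw [hF.dep ω ω' h]

theorem Gd.comp_cont {S : Set (V × ℕ)} {F : Lab V → ℝ} (hF : Gd S F) {f : ℝ → ℝ}
    (hf : Continuous f) : Gd S (fun ω => f (F ω)) := by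
  refine hF.comp hf.measurable fun R => ?_
  obtain ⟨C, hC⟩ := (isCompact_Icc (a := -R) (b := R)).exists_bound_of_continuousOn hf.continuousOn
  exact ⟨C, fun x hx => hC x (abs_le.1 hx)⟩

theorem Gd.pow {S : Set (V × ℕ)} {F : Lab V → ℝ} (hF : Gd S F) (n : ℕ) :
    Gd S (fun ω => F ω ^ n) := hF.comp_cont (continuous_pow n)

theorem Gd.sum {ι : Type*} {S : Set (V × ℕ)} {F : ι → Lab V → ℝ} {T : Finset ι}
    (h : ∀ i ∈ T, Gd S (F i)) : Gd S (fun ω => ∑ i ∈ T, F i ω) := by
  classical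
  induction T using Finset.induction_on with
  | empty => simpa using gd_const S 0
  | insert a T ha ih =>
    have h1 := (h a (Finset.mem_insert_self _ _)).add
      (ih fun i hi => h i (Finset.mem_insert_of_mem hi))
    convert h1 using 2 with ω
    rw [Finset.sum_insert ha]

theorem Gd.prod {ι : Type*} {S : Set (V × ℕ)} {F : ι → Lab V → ℝ} {T : Finset ι}
    (h : ∀ i ∈ T, Gd S (F i)) : Gd S (fun ω => ∏ i ∈ T, F i ω) := by
  classical
  induction T using Finset.induction_on with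
  | empty => simpa using gd_const S 1
  | insert a T ha ih =>
    have h1 := (h a (Finset.mem_insert_self _ _)).mul
      (ih fun i hi => h i (Finset.mem_insert_of_mem hi))
    convert h1 using 2 with ω
    rw [Finset.prod_insert ha]

theorem Gd.integrable {S : Set (V × ℕ)} {F : Lab V → ℝ} (hF : Gd S F) :
    Integrable F (labM V) := by
  obtain ⟨C, hC⟩ := hF.bdd
  exact Integrable.of_bound hF.meas.aestronglyMeasurable C
    (Eventually.of_forall fun ω => by rw [Real.norm_eq_abs]; exact hC ω)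

theorem integral_mul_of_disjoint {S T : Set (V × ℕ)} {F G : Lab V → ℝ} (hF : Gd S F)
    (hG : Gd T G) (hST : Disjoint S T) :
    ∫ ω, F ω * G ω ∂(labM V) = (∫ ω, F ω ∂(labM V)) * ∫ ω, G ω ∂(labM V) := by
  obtain ⟨C, hC⟩ := hF.bdd
  obtain ⟨C', hC'⟩ := hG.bdd
  have := integral_diag (S := S) (H := fun ω ω' => F ω * G ω')
    (fun ω₁ ω₂ ω' h => by show F ω₁ * G ω' = F ω₂ * G ω'; rw [hF.dep ω₁ ω₂ h])
    (fun ω ω₁ ω₂ h => by
      show F ω * G ω₁ = F ω * G ω₂
      rw [hG.dep ω₁ ω₂ fun q hq => h q fun hqS => Set.disjoint_left.1 hST hqS hq])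
    ((hF.meas.comp measurable_fst).mul (hG.meas.comp measurable_snd))
    ⟨C * C', fun ω ω' => by
      rw [abs_mul]
      exact mul_le_mul (hC ω) (hC' ω') (abs_nonneg _) ((abs_nonneg _).trans (hC ω))⟩
  rw [this]
  simp_rw [integral_const_mul, integral_mul_const]

theorem integral_prod_of_disjoint {ι : Type*} {S : ι → Set (V × ℕ)} {F : ι → Lab V → ℝ}
    {T : Finset ι} (h : ∀ i ∈ T, Gd (S i) (F i)) (hd : (T : Set ι).PairwiseDisjoint S) :
    ∫ ω, ∏ i ∈ T, F i ω ∂(labM V) = ∏ i ∈ T, ∫ ω, F i ω ∂(labM V) := by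
  classical
  induction T using Finset.induction_on with
  | empty => simp
  | insert a T ha ih =>
    simp_rw [Finset.prod_insert ha]
    have hG : Gd (⋃ i ∈ T, S i) (fun ω => ∏ i ∈ T, F i ω) :=
      Gd.prod fun i hi => (h i (Finset.mem_insert_of_mem hi)).mono
        (Set.subset_biUnion_of_mem (u := S) hi)
    have hdis : Disjoint (S a) (⋃ i ∈ T, S i) := by
      rw [Set.disjoint_iUnion₂_right]
      intro i hi
      exact hd (by simp) (by simp [hi]) (fun h => ha (h ▸ hi))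
    rw [integral_mul_of_disjoint (h a (Finset.mem_insert_self _ _)) hG hdis,
      ih (fun i hi => h i (Finset.mem_insert_of_mem hi))
        (hd.subset (by simp [Set.subset_insert]))]

end Br

end Crest.Agent.Lib.Row160
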