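import Crest.Agent.Lib.Row160.Defs

/-!
Row 160, M3: real analysis of the edge function.
-/

set_option autoImplicit false

open MeasureTheory Filter Topology

namespace Crest.Agent.Lib.Row160

/-! ### the coefficient `c = 2θ/(1+θ²)` -/

private lemma edge_c_nonneg {θ : ℝ} (h0 : 0 ≤ θ) : 0 ≤ 2 * θ / (1 + θ ^ 2) := by positivity

private lemma edge_c_lt {θ : ℝ} (h1 : θ < 1) : 2 * θ / (1 + θ ^ 2) < 1 := by
  rw [div_lt_one (by positivity)]
  nlinarith [mul_pos (sub_pos.2 h1) (sub_pos.2 h1)]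

private lemma edge_c_le_two {θ : ℝ} (h0 : 0 ≤ θ) : 2 * θ / (1 + θ ^ 2) ≤ 2 * θ := by
  apply div_le_self (by positivity)
  nlinarith [sq_nonneg θ]

private lemma edge_c_sub {θ θ' : ℝ} :
    2 * θ / (1 + θ ^ 2) - 2 * θ' / (1 + θ' ^ 2) =
      2 * (θ - θ') * (1 - θ * θ') / ((1 + θ ^ 2) * (1 + θ' ^ 2)) := by
  rw [div_sub_div _ _ (by positivity) (by positivity)]
  congr 1
  ring

private lemma edge_c_mono {θ θ₁ : ℝ} (h0 : 0 ≤ θ) (h : θ ≤ θ₁) (h1 : θ₁ < 1) :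
    2 * θ / (1 + θ ^ 2) ≤ 2 * θ₁ / (1 + θ₁ ^ 2) := by
  have h2 := @edge_c_sub θ₁ θ
  have h3 : 0 ≤ 2 * (θ₁ - θ) * (1 - θ₁ * θ) / ((1 + θ₁ ^ 2) * (1 + θ ^ 2)) := by
    apply div_nonneg
    · apply mul_nonneg
      · linarith
      · nlinarith
    · positivity
  linarith

/-- discriminant lower bound. -/
private lemma edge_D_ge {c u v : ℝ} (hc0 : 0 ≤ c) (hc1 : c < 1) (hu : |u| ≤ 1) (hv : |v| ≤ 1) :
    (1 - c) ^ 2 ≤ (1 - c * u * v) ^ 2 - c ^ 2 * (1 - u ^ 2) * (1 - v ^ 2) := by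
  have h1 : |u * v| ≤ 1 := by
    rw [abs_mul]
    nlinarith [abs_nonneg u, abs_nonneg v]
  have h1' := abs_le.1 h1
  -- D - (1-c)^2 = 2c(1-c)(1 - uv) + c²(u-v)²
  have h2 : (1 - c * u * v) ^ 2 - c ^ 2 * (1 - u ^ 2) * (1 - v ^ 2) - (1 - c) ^ 2 =
      2 * c * (1 - c) * (1 - u * v) + c ^ 2 * (u - v) ^ 2 := by ring
  have h3 : 0 ≤ 2 * c * (1 - c) * (1 - u * v) := by
    apply mul_nonneg
    · apply mul_nonneg
      · linarith
      · linarith
    · linarith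
  have h4 : 0 ≤ c ^ 2 * (u - v) ^ 2 := by positivity
  linarith

private lemma edge_A_ge {c u v : ℝ} (hc0 : 0 ≤ c) (hu : |u| ≤ 1) (hv : |v| ≤ 1) :
    1 - c ≤ 1 - c * u * v := by
  have h1 : |u * v| ≤ 1 := by
    rw [abs_mul]
    nlinarith [abs_nonneg u, abs_nonneg v]
  have h1' := abs_le.1 h1
  nlinarith

private lemma edge_S_ge {c u v : ℝ} (hc0 : 0 ≤ c) (hc1 : c < 1) (hu : |u| ≤ 1) (hv : |v| ≤ 1) :
    1 - c ≤ √((1 - c * u * v) ^ 2 - c ^ 2 * (1 - u ^ 2) * (1 - v ^ 2)) := by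
  apply Real.le_sqrt_of_sq_le
  exact edge_D_ge hc0 hc1 hu hv

/-- denominator. -/
private noncomputable def edgeDen (c u v : ℝ) : ℝ :=
  (1 - c * u * v) + √((1 - c * u * v) ^ 2 - c ^ 2 * (1 - u ^ 2) * (1 - v ^ 2))

private lemma Ge_eq (θ u v : ℝ) :
    Ge θ u v = (2 * θ / (1 + θ ^ 2)) * (1 - v ^ 2) / edgeDen (2 * θ / (1 + θ ^ 2)) u v := rfl

private lemma edgeDen_ge {c u v : ℝ} (hc0 : 0 ≤ c) (hc1 : c < 1) (hu : |u| ≤ 1) (hv : |v| ≤ 1) :
    2 * (1 - c) ≤ edgeDen c u v := by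
  have h1 := edge_A_ge hc0 hu hv
  have h2 := edge_S_ge hc0 hc1 hu hv
  unfold edgeDen
  linarith

private lemma edgeDen_pos {c u v : ℝ} (hc0 : 0 ≤ c) (hc1 : c < 1) (hu : |u| ≤ 1) (hv : |v| ≤ 1) :
    0 < edgeDen c u v := by
  have := edgeDen_ge hc0 hc1 hu hv
  linarith

private lemma edge_sq_le_one {u : ℝ} (hu : |u| ≤ 1) : u ^ 2 ≤ 1 := by
  rw [sq_le_one_iff_abs_le_one]
  exact hu

theorem Ge_pos {θ u v : ℝ} (h0 : 0 < θ) (h1 : θ < 1) (hu : |u| < 1) (hv : |v| < 1) :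
    0 < Ge θ u v := by
  rw [Ge_eq]
  have hd := edgeDen_pos (edge_c_nonneg h0.le) (edge_c_lt h1) hu.le hv.le
  have hv' : v ^ 2 < 1 := by
    rw [sq_lt_one_iff_abs_lt_one]
    exact hv
  apply div_pos _ hd
  apply mul_pos (by positivity)
  linarith

theorem Ge_nonneg {θ u v : ℝ} (h0 : 0 ≤ θ) (h1 : θ < 1) (hu : |u| ≤ 1) (hv : |v| ≤ 1) :
    0 ≤ Ge θ u v := by
  rw [Ge_eq]
  have hd := edgeDen_pos (edge_c_nonneg h0) (edge_c_lt h1) hu hv
  have hv' := edge_sq_le_one hv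
  apply div_nonneg _ hd.le
  apply mul_nonneg (edge_c_nonneg h0)
  linarith

theorem Ge_le {θ u v : ℝ} (h0 : 0 ≤ θ) (h1 : θ < 1) (hu : |u| ≤ 1) (hv : |v| ≤ 1) :
    Ge θ u v ≤ θ := by
  rw [Ge_eq]
  have hd := edgeDen_pos (edge_c_nonneg h0) (edge_c_lt h1) hu hv
  have hv' := edge_sq_le_one hv
  rw [div_le_iff₀ hd]
  set k : ℝ := 2 / (1 + θ ^ 2) with hk
  have hk0 : 0 < k := by positivity
  have hkθ : k * (1 + θ ^ 2) = 2 := by
    rw [hk]
    field_simp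
  have hc : 2 * θ / (1 + θ ^ 2) = θ * k := by
    rw [hk]
    ring
  rw [hc]
  have h2 : k * (1 - v ^ 2) ≤ edgeDen (θ * k) u v := by
    unfold edgeDen
    have h3 : k * (1 - v ^ 2) - (1 - θ * k * u * v) ≤
        √((1 - θ * k * u * v) ^ 2 - (θ * k) ^ 2 * (1 - u ^ 2) * (1 - v ^ 2)) := by
      apply Real.le_sqrt_of_sq_le
      have h4 : (θ * k) ^ 2 = 2 * k - k ^ 2 := by
        linear_combination k * hkθ
      have h5 : (1 - θ * k * u * v) ^ 2 - (θ * k) ^ 2 * (1 - u ^ 2) * (1 - v ^ 2) -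
          (k * (1 - v ^ 2) - (1 - θ * k * u * v)) ^ 2 =
          (1 - v ^ 2) * (k * v - θ * k * u) ^ 2 := by
        linear_combination (-(1 - v ^ 2)) * h4
      have h6 : 0 ≤ (1 - v ^ 2) * (k * v - θ * k * u) ^ 2 := by
        apply mul_nonneg _ (sq_nonneg _)
        linarith
      linarith
    linarith
  calc θ * k * (1 - v ^ 2) = θ * (k * (1 - v ^ 2)) := by ring
    _ ≤ θ * edgeDen (θ * k) u v := mul_le_mul_of_nonneg_left h2 h0

private lemma edgeDen_symm (c u v : ℝ) : edgeDen c u v = edgeDen c v u := by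
  unfold edgeDen
  have h1 : 1 - c * u * v = 1 - c * v * u := by ring
  have h2 : c ^ 2 * (1 - u ^ 2) * (1 - v ^ 2) = c ^ 2 * (1 - v ^ 2) * (1 - u ^ 2) := by ring
  rw [h1, h2]

/-- symmetry: `(1-u²) G(u,v) = (1-v²) G(v,u)`. -/
theorem Ge_symm (θ u v : ℝ) : (1 - u ^ 2) * Ge θ u v = (1 - v ^ 2) * Ge θ v u := by
  rw [Ge_eq, Ge_eq, edgeDen_symm]
  ring

theorem measurable_Ge (θ : ℝ) : Measurable (fun p : ℝ × ℝ => Ge θ p.1 p.2) := by
  unfold Ge
  fun_prop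

theorem continuousOn_Ge {θ : ℝ} (h0 : 0 ≤ θ) (h1 : θ < 1) :
    ContinuousOn (fun p : ℝ × ℝ => Ge θ p.1 p.2) (Set.Icc (-1) 1 ×ˢ Set.Icc (-1) 1) := by
  have e : (fun p : ℝ × ℝ => Ge θ p.1 p.2) = fun p : ℝ × ℝ =>
      (2 * θ / (1 + θ ^ 2)) * (1 - p.2 ^ 2) / edgeDen (2 * θ / (1 + θ ^ 2)) p.1 p.2 := rfl
  rw [e]
  apply ContinuousOn.div
  · fun_prop
  · unfold edgeDen
    fun_prop
  · rintro ⟨u, v⟩ ⟨hu, hv⟩
    have hu' : |u| ≤ 1 := abs_le.2 hu
    have hv' : |v| ≤ 1 := abs_le.2 hv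
    exact (edgeDen_pos (edge_c_nonneg h0) (edge_c_lt h1) hu' hv').ne'

/-! ### Lipschitz estimates for the denominator -/

private lemma edge_sqrt_lip {δ x y : ℝ} (hδ : 0 < δ) (hx : δ ≤ √x) (hy : δ ≤ √y) :
    |√x - √y| ≤ |x - y| / (2 * δ) := by
  have hx0 : 0 ≤ x := by
    by_contra hc
    push Not at hc
    rw [Real.sqrt_eq_zero_of_nonpos hc.le] at hx
    linarith
  have hy0 : 0 ≤ y := by
    by_contra hc
    push Not at hc
    rw [Real.sqrt_eq_zero_of_nonpos hc.le] at hy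
    linarith
  rw [le_div_iff₀ (by positivity)]
  have h1 : x - y = (√x - √y) * (√x + √y) := by
    have := Real.sq_sqrt hx0
    have := Real.sq_sqrt hy0
    ring_nf
    linarith
  rw [h1, abs_mul]
  apply mul_le_mul_of_nonneg_left _ (abs_nonneg _)
  rw [abs_of_nonneg (by positivity)]
  linarith

/-- difference of denominators: quadratic form of the bound. -/
private lemma edgeDen_sub {c u v u' v' : ℝ} (hc0 : 0 ≤ c) (hc1 : c < 1) (hu : |u| ≤ 1)
    (hv : |v| ≤ 1) (hu' : |u'| ≤ 1) (hv' : |v'| ≤ 1) :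
    |edgeDen c u v - edgeDen c u' v'| ≤
      (3 / (1 - c)) * c * ((|u - u'| + |v - v'|) * (|u| + |v| + |u'| + |v'|)) := by
  have hδ : 0 < 1 - c := by linarith
  set Q := (|u - u'| + |v - v'|) * (|u| + |v| + |u'| + |v'|) with hQ
  have a1 := abs_nonneg (u - u')
  have a2 := abs_nonneg (v - v')
  have a3 := abs_nonneg u
  have a4 := abs_nonneg v
  have a5 := abs_nonneg u'
  have a6 := abs_nonneg v'
  have hQ0 : 0 ≤ Q := by positivity
  have huv : |u * v - u' * v'| ≤ Q := by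
    have e : u * v - u' * v' = (u - u') * v + u' * (v - v') := by ring
    rw [e]
    refine (abs_add_le _ _).trans ?_
    rw [abs_mul, abs_mul]
    nlinarith [mul_nonneg a1 a3, mul_nonneg a1 a4, mul_nonneg a1 a5, mul_nonneg a1 a6,
      mul_nonneg a2 a3, mul_nonneg a2 a4, mul_nonneg a2 a5, mul_nonneg a2 a6]
  have huu : |u ^ 2 - u' ^ 2| ≤ |u - u'| * (|u| + |v| + |u'| + |v'|) := by
    have e : u ^ 2 - u' ^ 2 = (u - u') * (u + u') := by ring
    rw [e, abs_mul]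
    apply mul_le_mul_of_nonneg_left _ a1
    have := abs_add_le u u'
    linarith
  have hvv : |v ^ 2 - v' ^ 2| ≤ |v - v'| * (|u| + |v| + |u'| + |v'|) := by
    have e : v ^ 2 - v' ^ 2 = (v - v') * (v + v') := by ring
    rw [e, abs_mul]
    apply mul_le_mul_of_nonneg_left _ a2
    have := abs_add_le v v'
    linarith
  have hA : |(1 - c * u * v) - (1 - c * u' * v')| ≤ c * Q := by
    have e : (1 - c * u * v) - (1 - c * u' * v') = -(c * (u * v - u' * v')) := by ring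
    rw [e, abs_neg, abs_mul, abs_of_nonneg hc0]
    exact mul_le_mul_of_nonneg_left huv hc0
  have hD : |((1 - c * u * v) ^ 2 - c ^ 2 * (1 - u ^ 2) * (1 - v ^ 2)) -
      ((1 - c * u' * v') ^ 2 - c ^ 2 * (1 - u' ^ 2) * (1 - v' ^ 2))| ≤ 3 * c * Q := by
    have e : ((1 - c * u * v) ^ 2 - c ^ 2 * (1 - u ^ 2) * (1 - v ^ 2)) -
      ((1 - c * u' * v') ^ 2 - c ^ 2 * (1 - u' ^ 2) * (1 - v' ^ 2)) =
      -(2 * (c * (u * v - u' * v'))) + (c ^ 2 * (u ^ 2 - u' ^ 2) + c ^ 2 * (v ^ 2 - v' ^ 2)) := by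
      ring
    rw [e]
    refine (abs_add_le _ _).trans ?_
    have e1 : |-(2 * (c * (u * v - u' * v')))| ≤ 2 * c * Q := by
      rw [abs_neg, abs_mul, abs_mul, abs_two, abs_of_nonneg hc0]
      nlinarith [mul_le_mul_of_nonneg_left huv hc0]
    have e2 : |c ^ 2 * (u ^ 2 - u' ^ 2) + c ^ 2 * (v ^ 2 - v' ^ 2)| ≤ c * Q := by
      refine (abs_add_le _ _).trans ?_
      rw [abs_mul, abs_mul, abs_of_nonneg (sq_nonneg c), ← mul_add]
      have e3 : |u ^ 2 - u' ^ 2| + |v ^ 2 - v' ^ 2| ≤ Q := by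
        rw [hQ, add_mul]
        exact add_le_add huu hvv
      have e4 : c ^ 2 ≤ c := by nlinarith
      calc c ^ 2 * (|u ^ 2 - u' ^ 2| + |v ^ 2 - v' ^ 2|) ≤ c ^ 2 * Q :=
            mul_le_mul_of_nonneg_left e3 (sq_nonneg c)
        _ ≤ c * Q := mul_le_mul_of_nonneg_right e4 hQ0
    linarith
  have hS := edge_sqrt_lip hδ (edge_S_ge hc0 hc1 hu hv) (edge_S_ge hc0 hc1 hu' hv')
  unfold edgeDen
  have e5 : ∀ A S A' S' : ℝ, |A + S - (A' + S')| ≤ |A - A'| + |S - S'| := by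
    intro A S A' S'
    have : A + S - (A' + S') = (A - A') + (S - S') := by ring
    rw [this]
    exact abs_add_le _ _
  refine (e5 _ _ _ _).trans ?_
  have e6 : |√((1 - c * u * v) ^ 2 - c ^ 2 * (1 - u ^ 2) * (1 - v ^ 2)) -
      √((1 - c * u' * v') ^ 2 - c ^ 2 * (1 - u' ^ 2) * (1 - v' ^ 2))| ≤ 3 * c * Q / (2 * (1 - c)) :=
    hS.trans (div_le_div_of_nonneg_right hD (by positivity))
  have e7 : c * Q ≤ c * Q / (1 - c) := by
    rw [le_div_iff₀ hδ]
    have : 0 ≤ c * Q := by positivity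
    nlinarith
  calc _ ≤ c * Q / (1 - c) + 3 * c * Q / (2 * (1 - c)) := add_le_add (hA.trans e7) e6
    _ = (5 / 2) * (c * Q / (1 - c)) := by
        field_simp
        ring
    _ ≤ 3 * (c * Q / (1 - c)) := by
        have : 0 ≤ c * Q / (1 - c) := by positivity
        linarith
    _ = _ := by ring

/-- Lipschitz bound on the closed square, uniform for `θ ≤ θ₁ < 1`. -/
theorem Ge_lip {θ₁ : ℝ} (h1 : θ₁ < 1) : ∃ C : ℝ, 0 < C ∧ ∀ θ u v u' v' : ℝ, 0 ≤ θ → θ ≤ θ₁ →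
    |u| ≤ 1 → |v| ≤ 1 → |u'| ≤ 1 → |v'| ≤ 1 →
    |Ge θ u v - Ge θ u' v'| ≤ C * θ * (|u - u'| + |v - v'|) := by
  set c₁ : ℝ := 2 * θ₁ / (1 + θ₁ ^ 2) with hc₁
  have hc₁1 : c₁ < 1 := edge_c_lt h1
  set δ : ℝ := 1 - c₁ with hδdef
  have hδ : 0 < δ := by linarith
  refine ⟨2 / δ + 6 / δ ^ 3, by positivity, ?_⟩
  intro θ u v u' v' h0 hθ hu hv hu' hv'
  set c : ℝ := 2 * θ / (1 + θ ^ 2) with hc
  have hc0 : 0 ≤ c := edge_c_nonneg h0
  have hcc : c ≤ c₁ := edge_c_mono h0 hθ h1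
  have hc1 : c < 1 := by linarith
  have hc2 : c ≤ 2 * θ := edge_c_le_two h0
  have hδc : δ ≤ 1 - c := by linarith
  rw [Ge_eq, Ge_eq, ← hc]
  have d1 := edgeDen_ge hc0 hc1 hu hv
  have d2 := edgeDen_ge hc0 hc1 hu' hv'
  set E := edgeDen c u v with hE
  set E' := edgeDen c u' v' with hE'
  have hE0 : 2 * δ ≤ E := by linarith
  have hE0' : 2 * δ ≤ E' := by linarith
  set R := |u - u'| + |v - v'| with hR
  have hR0 : 0 ≤ R := by positivity
  have hEE : |E - E'| ≤ (12 / δ) * R := by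
    have h := edgeDen_sub hc0 hc1 hu hv hu' hv'
    refine h.trans ?_
    have h2 : (|u - u'| + |v - v'|) * (|u| + |v| + |u'| + |v'|) ≤ R * 4 := by
      apply mul_le_mul_of_nonneg_left _ hR0
      linarith
    have h3 : 3 / (1 - c) * c ≤ 3 / δ := by
      have h4 : 3 / (1 - c) ≤ 3 / δ := div_le_div_of_nonneg_left (by norm_num) hδ hδc
      calc 3 / (1 - c) * c ≤ 3 / (1 - c) * 1 :=
            mul_le_mul_of_nonneg_left hc1.le (by apply div_nonneg <;> linarith)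
        _ = 3 / (1 - c) := mul_one _
        _ ≤ 3 / δ := h4
    calc 3 / (1 - c) * c * ((|u - u'| + |v - v'|) * (|u| + |v| + |u'| + |v'|))
        ≤ 3 / δ * (R * 4) := mul_le_mul h3 h2 (by positivity) (by positivity)
      _ = (12 / δ) * R := by ring
  have hvv : |v ^ 2 - v' ^ 2| ≤ 2 * R := by
    have e : v ^ 2 - v' ^ 2 = (v - v') * (v + v') := by ring
    rw [e, abs_mul]
    have h2 := abs_add_le v v'
    have h3 := abs_nonneg (u - u')
    have h4 := abs_nonneg (v - v')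
    have h5 : |v + v'| ≤ 2 := by linarith
    nlinarith
  have hN0 : 0 ≤ 1 - v' ^ 2 := by linarith [edge_sq_le_one hv']
  have hN1 : 1 - v' ^ 2 ≤ 1 := by nlinarith [sq_nonneg v']
  have hEpos : 0 < E := by linarith
  have hEpos' : 0 < E' := by linarith
  have key : c * (1 - v ^ 2) / E - c * (1 - v' ^ 2) / E' =
      c * ((-(v ^ 2 - v' ^ 2)) / E + (1 - v' ^ 2) * (-(E - E')) / (E * E')) := by
    field_simp
    ring
  rw [key, abs_mul, abs_of_nonneg hc0]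
  have k1 : |(-(v ^ 2 - v' ^ 2)) / E| ≤ R / δ := by
    rw [abs_div, abs_neg, abs_of_pos hEpos, div_le_div_iff₀ hEpos hδ]
    nlinarith [abs_nonneg (v ^ 2 - v' ^ 2)]
  have k2 : |(1 - v' ^ 2) * (-(E - E')) / (E * E')| ≤ 3 / δ ^ 3 * R := by
    rw [abs_div, abs_mul, abs_neg, abs_of_nonneg hN0, abs_of_pos (mul_pos hEpos hEpos'),
      div_le_iff₀ (mul_pos hEpos hEpos')]
    have h5 : 4 * δ ^ 2 ≤ E * E' := by nlinarith
    calc (1 - v' ^ 2) * |E - E'| ≤ 1 * |E - E'| :=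
          mul_le_mul_of_nonneg_right hN1 (abs_nonneg _)
      _ ≤ (12 / δ) * R := by rw [one_mul]; exact hEE
      _ = 3 / δ ^ 3 * R * (4 * δ ^ 2) := by field_simp; ring
      _ ≤ 3 / δ ^ 3 * R * (E * E') := mul_le_mul_of_nonneg_left h5 (by positivity)
  calc c * |(-(v ^ 2 - v' ^ 2)) / E + (1 - v' ^ 2) * (-(E - E')) / (E * E')|
      ≤ c * (R / δ + 3 / δ ^ 3 * R) :=
        mul_le_mul_of_nonneg_left ((abs_add_le _ _).trans (add_le_add k1 k2)) hc0
    _ ≤ (2 * θ) * (R / δ + 3 / δ ^ 3 * R) := mul_le_mul_of_nonneg_right hc2 (by positivity)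
    _ = (2 / δ + 6 / δ ^ 3) * θ * R := by ring

private lemma edge_log_lip {δ x y : ℝ} (hδ : 0 < δ) (hx : δ ≤ x) (hy : δ ≤ y) :
    |Real.log x - Real.log y| ≤ |x - y| / δ := by
  have hx0 : 0 < x := by linarith
  have hy0 : 0 < y := by linarith
  have aux : ∀ x y : ℝ, δ ≤ x → δ ≤ y → Real.log x - Real.log y ≤ |x - y| / δ := by
    intro x y hx hy
    have hx0 : 0 < x := by linarith
    have hy0 : 0 < y := by linarith
    rw [← Real.log_div hx0.ne' hy0.ne']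
    have h1 := Real.log_le_sub_one_of_pos (div_pos hx0 hy0)
    refine h1.trans ?_
    have h2 : x / y - 1 = (x - y) / y := by field_simp
    rw [h2]
    calc (x - y) / y ≤ |x - y| / y := div_le_div_of_nonneg_right (le_abs_self _) hy0.le
      _ ≤ |x - y| / δ := div_le_div_of_nonneg_left (abs_nonneg _) hδ hy
  rw [abs_le]
  constructor
  · have := aux y x hy hx
    rw [abs_sub_comm] at this
    linarith
  · exact aux x y hx hy

private lemma ell_eq {θ u v : ℝ} (h0 : 0 < θ) (h1 : θ < 1) (hu : |u| < 1) (hv : |v| < 1) :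
    ell θ u v = Real.log (2 / (1 + θ ^ 2)) + Real.log (1 - v ^ 2) -
      Real.log (edgeDen (2 * θ / (1 + θ ^ 2)) u v) := by
  have hd := edgeDen_pos (edge_c_nonneg h0.le) (edge_c_lt h1) hu.le hv.le
  have hv' : v ^ 2 < 1 := by
    rw [sq_lt_one_iff_abs_lt_one]
    exact hv
  unfold ell
  rw [Ge_eq]
  have e : (2 * θ / (1 + θ ^ 2)) * (1 - v ^ 2) / edgeDen (2 * θ / (1 + θ ^ 2)) u v / θ =
      (2 / (1 + θ ^ 2)) * (1 - v ^ 2) / edgeDen (2 * θ / (1 + θ ^ 2)) u v := by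
    field_simp
  rw [e, Real.log_div _ hd.ne', Real.log_mul]
  · positivity
  · linarith
  · apply mul_ne_zero
    · positivity
    · linarith

/-- `ell` is even and smooth on `|u|,|v| ≤ r < 1`. -/
theorem ell_lip {θ₀ θ₁ r : ℝ} (h0 : 0 < θ₀) (h1 : θ₁ < 1) (hr : r < 1) :
    ∃ C : ℝ, 0 < C ∧ ∀ θ u v u' v' : ℝ, θ₀ ≤ θ → θ ≤ θ₁ →
    |u| ≤ r → |v| ≤ r → |u'| ≤ r → |v'| ≤ r →
    |ell θ u v - ell θ u' v'| ≤
      C * (|u - u'| + |v - v'|) * (|u| + |v| + |u'| + |v'|) := by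
  set c₁ : ℝ := 2 * θ₁ / (1 + θ₁ ^ 2) with hc₁
  have hc₁1 : c₁ < 1 := edge_c_lt h1
  set δ : ℝ := 1 - c₁ with hδdef
  have hδ : 0 < δ := by linarith
  by_cases hr0 : 0 ≤ r
  swap
  · refine ⟨1, one_pos, ?_⟩
    intro θ u v u' v' _ _ hu
    exfalso
    linarith [abs_nonneg u]
  have hr2 : 0 < 1 - r ^ 2 := by nlinarith
  refine ⟨1 / (1 - r ^ 2) + 3 / δ ^ 2, by positivity, ?_⟩
  intro θ u v u' v' hθ0 hθ hu hv hu' hv'
  have hθpos : 0 < θ := by linarith
  have hθ1 : θ < 1 := by linarith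
  rw [ell_eq hθpos hθ1 (by linarith) (by linarith), ell_eq hθpos hθ1 (by linarith) (by linarith)]
  set c : ℝ := 2 * θ / (1 + θ ^ 2) with hc
  have hc0 : 0 ≤ c := edge_c_nonneg hθpos.le
  have hcc : c ≤ c₁ := edge_c_mono hθpos.le hθ h1
  have hc1 : c < 1 := by linarith
  have hδc : δ ≤ 1 - c := by linarith
  have d1 := edgeDen_ge hc0 hc1 (by linarith : |u| ≤ 1) (by linarith : |v| ≤ 1)
  have d2 := edgeDen_ge hc0 hc1 (by linarith : |u'| ≤ 1) (by linarith : |v'| ≤ 1)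
  have h := edgeDen_sub hc0 hc1 (by linarith : |u| ≤ 1) (by linarith : |v| ≤ 1)
    (by linarith : |u'| ≤ 1) (by linarith : |v'| ≤ 1)
  set E := edgeDen c u v with hE
  set E' := edgeDen c u' v' with hE'
  set Q := (|u - u'| + |v - v'|) * (|u| + |v| + |u'| + |v'|) with hQ
  have a1 := abs_nonneg (u - u')
  have a2 := abs_nonneg (v - v')
  have a3 := abs_nonneg u
  have a4 := abs_nonneg v
  have a5 := abs_nonneg u'
  have a6 := abs_nonneg v'
  have hQ0 : 0 ≤ Q := by positivity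
  have hvv : |v ^ 2 - v' ^ 2| ≤ Q := by
    have e : v ^ 2 - v' ^ 2 = (v - v') * (v + v') := by ring
    rw [e, abs_mul]
    have h3 := abs_add_le v v'
    have h4 : |v + v'| ≤ |u| + |v| + |u'| + |v'| := by linarith
    calc |v - v'| * |v + v'| ≤ |v - v'| * (|u| + |v| + |u'| + |v'|) :=
          mul_le_mul_of_nonneg_left h4 a2
      _ ≤ Q := by
          rw [hQ]
          apply mul_le_mul_of_nonneg_right _ (by positivity)
          linarith
  have hEpos : 0 < E := by linarith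
  have hEpos' : 0 < E' := by linarith
  have l1 : |Real.log (1 - v ^ 2) - Real.log (1 - v' ^ 2)| ≤ Q / (1 - r ^ 2) := by
    have g1 : 1 - r ^ 2 ≤ 1 - v ^ 2 := by
      have : v ^ 2 ≤ r ^ 2 := by
        rw [← sq_abs v]
        exact pow_le_pow_left₀ (abs_nonneg _) hv 2
      linarith
    have g2 : 1 - r ^ 2 ≤ 1 - v' ^ 2 := by
      have : v' ^ 2 ≤ r ^ 2 := by
        rw [← sq_abs v']
        exact pow_le_pow_left₀ (abs_nonneg _) hv' 2
      linarith
    refine (edge_log_lip hr2 g1 g2).trans ?_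
    apply div_le_div_of_nonneg_right _ hr2.le
    have : 1 - v ^ 2 - (1 - v' ^ 2) = -(v ^ 2 - v' ^ 2) := by ring
    rw [this, abs_neg]
    exact hvv
  have l2 : |Real.log E - Real.log E'| ≤ (3 / δ ^ 2) * Q := by
    refine (edge_log_lip hδ (by linarith) (by linarith)).trans ?_
    have h3 : 3 / (1 - c) * c ≤ 3 / δ := by
      have h4 : 3 / (1 - c) ≤ 3 / δ := div_le_div_of_nonneg_left (by norm_num) hδ hδc
      calc 3 / (1 - c) * c ≤ 3 / (1 - c) * 1 :=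
            mul_le_mul_of_nonneg_left hc1.le (by apply div_nonneg <;> linarith)
        _ = 3 / (1 - c) := mul_one _
        _ ≤ 3 / δ := h4
    rw [div_le_iff₀ hδ]
    calc |E - E'| ≤ 3 / (1 - c) * c * Q := h
      _ ≤ 3 / δ * Q := mul_le_mul_of_nonneg_right h3 hQ0
      _ = 3 / δ ^ 2 * Q * δ := by field_simp
  have e : Real.log (2 / (1 + θ ^ 2)) + Real.log (1 - v ^ 2) - Real.log E -
      (Real.log (2 / (1 + θ ^ 2)) + Real.log (1 - v' ^ 2) - Real.log E') =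
      (Real.log (1 - v ^ 2) - Real.log (1 - v' ^ 2)) + (-(Real.log E - Real.log E')) := by ring
  rw [e]
  refine (abs_add_le _ _).trans ?_
  rw [abs_neg]
  calc _ ≤ Q / (1 - r ^ 2) + (3 / δ ^ 2) * Q := add_le_add l1 l2
    _ = (1 / (1 - r ^ 2) + 3 / δ ^ 2) * (|u - u'| + |v - v'|) * (|u| + |v| + |u'| + |v'|) := by
        rw [hQ]
        ring

set_option maxHeartbeats 1000000 in
theorem ell_theta {θ₀ θ₁ r : ℝ} (h0 : 0 < θ₀) (h1 : θ₁ < 1) (hr : r < 1) :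
    ∃ C : ℝ, 0 < C ∧ ∀ θ θ' u v : ℝ, θ₀ ≤ θ → θ ≤ θ₁ → θ₀ ≤ θ' → θ' ≤ θ₁ →
    |u| ≤ r → |v| ≤ r → |ell θ u v - ell θ' u v| ≤ C * |θ - θ'| := by
  set c₁ : ℝ := 2 * θ₁ / (1 + θ₁ ^ 2) with hc₁
  have hc₁1 : c₁ < 1 := edge_c_lt h1
  set δ : ℝ := 1 - c₁ with hδdef
  have hδ : 0 < δ := by linarith
  by_cases hr0 : 0 ≤ r
  swap
  · refine ⟨1, one_pos, ?_⟩
    intro θ θ' u v _ _ _ _ hu
    exfalso
    linarith [abs_nonneg u]
  refine ⟨2 + (2 + 8 / δ) / δ, by positivity, ?_⟩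
  intro θ θ' u v hθ0 hθ hθ0' hθ' hu hv
  have hθpos : 0 < θ := by linarith
  have hθ1 : θ < 1 := by linarith
  have hθpos' : 0 < θ' := by linarith
  have hθ1' : θ' < 1 := by linarith
  have hu1 : |u| ≤ 1 := by linarith
  have hv1 : |v| ≤ 1 := by linarith
  rw [ell_eq hθpos hθ1 (by linarith) (by linarith), ell_eq hθpos' hθ1' (by linarith) (by linarith)]
  have hcc'' := @edge_c_sub θ θ'
  set c : ℝ := 2 * θ / (1 + θ ^ 2) with hc
  set c' : ℝ := 2 * θ' / (1 + θ' ^ 2) with hc'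
  have hc0 : 0 ≤ c := edge_c_nonneg hθpos.le
  have hcc : c ≤ c₁ := edge_c_mono hθpos.le hθ h1
  have hc1 : c < 1 := by linarith
  have hδc : δ ≤ 1 - c := by linarith
  have hc0' : 0 ≤ c' := edge_c_nonneg hθpos'.le
  have hcc' : c' ≤ c₁ := edge_c_mono hθpos'.le hθ' h1
  have hc1' : c' < 1 := by linarith
  have hδc' : δ ≤ 1 - c' := by linarith
  have d1 := edgeDen_ge hc0 hc1 hu1 hv1
  have d2 := edgeDen_ge hc0' hc1' hu1 hv1
  have hcd : |c - c'| ≤ 2 * |θ - θ'| := by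
    rw [hcc'', abs_div, abs_mul, abs_mul, abs_two,
      abs_of_pos (by positivity : 0 < (1 + θ ^ 2) * (1 + θ' ^ 2)),
      div_le_iff₀ (by positivity)]
    have h3 : |1 - θ * θ'| ≤ 1 := by
      rw [abs_le]
      have h4 : 0 ≤ θ * θ' := by positivity
      have h5 : θ * θ' ≤ 1 := by nlinarith
      constructor <;> linarith
    have h4 : 1 ≤ (1 + θ ^ 2) * (1 + θ' ^ 2) := by nlinarith [sq_nonneg θ, sq_nonneg θ', sq_nonneg (θ * θ')]
    have h5 : 0 ≤ 2 * |θ - θ'| := by positivity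
    calc 2 * |θ - θ'| * |1 - θ * θ'| ≤ 2 * |θ - θ'| * 1 := mul_le_mul_of_nonneg_left h3 h5
      _ ≤ 2 * |θ - θ'| * ((1 + θ ^ 2) * (1 + θ' ^ 2)) := mul_le_mul_of_nonneg_left h4 h5
  have huv : |u * v| ≤ 1 := by
    rw [abs_mul]
    nlinarith [abs_nonneg u, abs_nonneg v]
  -- differences
  have hA : |(1 - c * u * v) - (1 - c' * u * v)| ≤ |c - c'| := by
    have e : (1 - c * u * v) - (1 - c' * u * v) = -((c - c') * (u * v)) := by ring
    rw [e, abs_neg, abs_mul]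
    nlinarith [abs_nonneg (c - c')]
  have hD : |((1 - c * u * v) ^ 2 - c ^ 2 * (1 - u ^ 2) * (1 - v ^ 2)) -
      ((1 - c' * u * v) ^ 2 - c' ^ 2 * (1 - u ^ 2) * (1 - v ^ 2))| ≤ 8 * |c - c'| := by
    have e : ((1 - c * u * v) ^ 2 - c ^ 2 * (1 - u ^ 2) * (1 - v ^ 2)) -
      ((1 - c' * u * v) ^ 2 - c' ^ 2 * (1 - u ^ 2) * (1 - v ^ 2)) =
      (c - c') * (-(2 * (u * v)) + (c + c') * (u ^ 2 + v ^ 2 - 1)) := by ring
    rw [e, abs_mul, mul_comm]
    apply mul_le_mul_of_nonneg_right _ (abs_nonneg _)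
    have hu2 := edge_sq_le_one hu1
    have hv2 := edge_sq_le_one hv1
    have e1 : |(u ^ 2 + v ^ 2 - 1)| ≤ 1 := by
      rw [abs_le]
      constructor <;> nlinarith [sq_nonneg u, sq_nonneg v]
    have e2 : |(c + c') * (u ^ 2 + v ^ 2 - 1)| ≤ 2 := by
      rw [abs_mul, abs_of_nonneg (by linarith : 0 ≤ c + c')]
      nlinarith [abs_nonneg (u ^ 2 + v ^ 2 - 1)]
    have e3 : |-(2 * (u * v))| ≤ 2 := by
      rw [abs_neg, abs_mul, abs_two]
      linarith
    refine (abs_add_le _ _).trans ?_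
    linarith
  have hS := edge_sqrt_lip hδ (hδc.trans (edge_S_ge hc0 hc1 hu1 hv1))
    (hδc'.trans (edge_S_ge hc0' hc1' hu1 hv1))
  have hE : |edgeDen c u v - edgeDen c' u v| ≤ (1 + 4 / δ) * |c - c'| := by
    unfold edgeDen
    have e5 : ∀ A S A' S' : ℝ, |A + S - (A' + S')| ≤ |A - A'| + |S - S'| := by
      intro A S A' S'
      have : A + S - (A' + S') = (A - A') + (S - S') := by ring
      rw [this]
      exact abs_add_le _ _
    refine (e5 _ _ _ _).trans ?_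
    have e6 := hS.trans (div_le_div_of_nonneg_right hD (by positivity))
    calc _ ≤ |c - c'| + 8 * |c - c'| / (2 * δ) := add_le_add hA e6
      _ = (1 + 4 / δ) * |c - c'| := by
          field_simp
          ring
  set E := edgeDen c u v with hEdef
  set E' := edgeDen c' u v with hEdef'
  have l2 : |Real.log E - Real.log E'| ≤ ((2 + 8 / δ) / δ) * |θ - θ'| := by
    refine (edge_log_lip hδ (by linarith) (by linarith)).trans ?_
    rw [div_mul_eq_mul_div]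
    apply div_le_div_of_nonneg_right _ hδ.le
    calc |E - E'| ≤ (1 + 4 / δ) * |c - c'| := hE
      _ ≤ (1 + 4 / δ) * (2 * |θ - θ'|) := mul_le_mul_of_nonneg_left hcd (by positivity)
      _ = (2 + 8 / δ) * |θ - θ'| := by ring
  have l1 : |Real.log (2 / (1 + θ ^ 2)) - Real.log (2 / (1 + θ' ^ 2))| ≤ 2 * |θ - θ'| := by
    rw [Real.log_div (by norm_num) (by positivity), Real.log_div (by norm_num) (by positivity)]
    have e : Real.log 2 - Real.log (1 + θ ^ 2) - (Real.log 2 - Real.log (1 + θ' ^ 2)) =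
        -(Real.log (1 + θ ^ 2) - Real.log (1 + θ' ^ 2)) := by ring
    rw [e, abs_neg]
    refine (edge_log_lip one_pos (by nlinarith [sq_nonneg θ]) (by nlinarith [sq_nonneg θ'])).trans ?_
    rw [div_one]
    have e2 : 1 + θ ^ 2 - (1 + θ' ^ 2) = (θ - θ') * (θ + θ') := by ring
    rw [e2, abs_mul, mul_comm]
    apply mul_le_mul_of_nonneg_right _ (abs_nonneg _)
    rw [abs_of_pos (by linarith)]
    linarith
  have e : Real.log (2 / (1 + θ ^ 2)) + Real.log (1 - v ^ 2) - Real.log E -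
      (Real.log (2 / (1 + θ' ^ 2)) + Real.log (1 - v ^ 2) - Real.log E') =
      (Real.log (2 / (1 + θ ^ 2)) - Real.log (2 / (1 + θ' ^ 2))) +
        (-(Real.log E - Real.log E')) := by ring
  rw [e]
  refine (abs_add_le _ _).trans ?_
  rw [abs_neg]
  calc _ ≤ 2 * |θ - θ'| + ((2 + 8 / δ) / δ) * |θ - θ'| := add_le_add l1 l2
    _ = _ := by ring

private lemma ell_zero {θ : ℝ} (h0 : 0 < θ) (h1 : θ < 1) : ell θ 0 0 = 0 := by
  unfold ell
  have hG : Ge θ 0 0 = θ := by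
    unfold Ge
    have e1 : (1 - 2 * θ / (1 + θ ^ 2) * 0 * 0) ^ 2 - (2 * θ / (1 + θ ^ 2)) ^ 2 * (1 - 0 ^ 2) *
        (1 - 0 ^ 2) = ((1 - θ ^ 2) / (1 + θ ^ 2)) ^ 2 := by
      field_simp
      ring
    rw [e1, Real.sqrt_sq (by apply div_nonneg <;> nlinarith)]
    field_simp
    ring
  rw [hG, div_self h0.ne', Real.log_one]

theorem ell_bound {θ₀ θ₁ r : ℝ} (h0 : 0 < θ₀) (h1 : θ₁ < 1) (hr : r < 1) :
    ∃ C : ℝ, 0 < C ∧ ∀ θ u v : ℝ, θ₀ ≤ θ → θ ≤ θ₁ → |u| ≤ r → |v| ≤ r →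
    |ell θ u v| ≤ C * (u ^ 2 + v ^ 2) := by
  obtain ⟨C, hC, h⟩ := ell_lip h0 h1 hr
  refine ⟨2 * C, by positivity, ?_⟩
  intro θ u v hθ0 hθ hu hv
  have hr0 : 0 ≤ r := (abs_nonneg u).trans hu
  have h2 := h θ u v 0 0 hθ0 hθ hu hv (by simpa using hr0) (by simpa using hr0)
  rw [ell_zero (by linarith) (by linarith)] at h2
  simp only [sub_zero, abs_zero, add_zero] at h2
  refine h2.trans ?_
  have e1 := sq_abs u
  have e2 := sq_abs v
  rw [← e1, ← e2]
  nlinarith [mul_nonneg hC.le (sq_nonneg (|u| - |v|))]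

theorem Ge_eq_exp_ell {θ u v : ℝ} (h0 : 0 < θ) (h1 : θ < 1) (hu : |u| < 1) (hv : |v| < 1) :
    Ge θ u v = θ * Real.exp (ell θ u v) := by
  unfold ell
  rw [Real.exp_log (div_pos (Ge_pos h0 h1 hu hv) h0)]
  field_simp

theorem gg_le {θ M : ℝ} (h0 : 0 ≤ θ) (h1 : θ < 1) (hM : |M| ≤ 1) :
    gg θ M ≤ θ * Real.exp (-(1 - θ ^ 2) * M ^ 2) := by
  unfold gg
  have hM2 := edge_sq_le_one hM
  have hM0 := sq_nonneg M
  have hθ2 : θ ^ 2 < 1 := by nlinarith
  have hd : 0 < 1 - θ ^ 2 * M ^ 2 := by nlinarith [sq_nonneg θ]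
  rw [mul_div_assoc]
  apply mul_le_mul_of_nonneg_left _ h0
  have h2 := Real.add_one_le_exp (-(1 - θ ^ 2) * M ^ 2)
  refine le_trans ?_ h2
  rw [div_le_iff₀ hd]
  nlinarith [mul_nonneg (mul_nonneg (sq_nonneg θ) (sub_nonneg.2 hθ2.le)) (sq_nonneg (M ^ 2)),
    mul_nonneg (mul_nonneg (sub_nonneg.2 hθ2.le) (sq_nonneg θ)) (sq_nonneg (M ^ 2))]

theorem gg_nonneg {θ M : ℝ} (h0 : 0 ≤ θ) (h1 : θ < 1) (hM : |M| ≤ 1) : 0 ≤ gg θ M := by
  unfold gg
  have hM2 := edge_sq_le_one hM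
  have hθ2 : θ ^ 2 < 1 := by nlinarith
  have hd : 0 < 1 - θ ^ 2 * M ^ 2 := by nlinarith [sq_nonneg θ, sq_nonneg M]
  apply div_nonneg _ hd.le
  apply mul_nonneg h0
  linarith

/-! ### message map -/

private lemma abs_theta_tanh_lt {θ : ℝ} (h0 : 0 ≤ θ) (h1 : θ < 1) (h : ℝ) :
    θ * Real.tanh h ∈ Set.Ioo (-1 : ℝ) 1 := by
  have h2 := Real.tanh_lt_one h
  have h3 := Real.neg_one_lt_tanh h
  constructor
  · nlinarith
  · nlinarith

theorem tanh_psi {θ : ℝ} (h0 : 0 ≤ θ) (h1 : θ < 1) (h : ℝ) :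
    Real.tanh (psi θ h) = θ * Real.tanh h := by
  unfold psi
  exact Real.tanh_artanh (abs_theta_tanh_lt h0 h1 h)

private lemma edge_artanh_neg (x : ℝ) : Real.artanh (-x) = -Real.artanh x := by
  unfold Real.artanh
  have h1 : (1 + -x) / (1 - -x) = ((1 + x) / (1 - x))⁻¹ := by
    rw [inv_div]
    congr 1
    ring
  rw [h1, Real.sqrt_inv, Real.log_inv]

theorem psi_neg (θ h : ℝ) : psi θ (-h) = -psi θ h := by
  unfold psi
  rw [Real.tanh_neg, mul_neg, edge_artanh_neg]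

private lemma edge_tanh_strictMono : StrictMono Real.tanh := by
  intro x y hxy
  have hx : Real.tanh x ∈ Set.Ioo (-1 : ℝ) 1 := ⟨Real.neg_one_lt_tanh x, Real.tanh_lt_one x⟩
  have hy : Real.tanh y ∈ Set.Ioo (-1 : ℝ) 1 := ⟨Real.neg_one_lt_tanh y, Real.tanh_lt_one y⟩
  rw [← Real.artanh_lt_artanh_iff hx hy, Real.artanh_tanh, Real.artanh_tanh]
  exact hxy

private lemma edge_hasDerivAt_tanh (x : ℝ) : HasDerivAt Real.tanh (1 - Real.tanh x ^ 2) x := by
  have h1 : HasDerivAt (fun x => Real.sinh x / Real.cosh x)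
      ((Real.cosh x * Real.cosh x - Real.sinh x * Real.sinh x) / Real.cosh x ^ 2) x :=
    (Real.hasDerivAt_sinh x).div (Real.hasDerivAt_cosh x) (Real.cosh_pos x).ne'
  have e : Real.tanh = fun x => Real.sinh x / Real.cosh x := by
    ext y
    exact Real.tanh_eq_sinh_div_cosh y
  have h2 : (Real.cosh x * Real.cosh x - Real.sinh x * Real.sinh x) / Real.cosh x ^ 2 =
      1 - Real.tanh x ^ 2 := by
    rw [Real.tanh_eq_sinh_div_cosh]
    have := (Real.cosh_pos x).ne'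
    field_simp
  rw [h2, ← e] at h1
  exact h1

private lemma edge_tanh_nonneg {h : ℝ} (hh : 0 ≤ h) : 0 ≤ Real.tanh h := by
  have := edge_tanh_strictMono.monotone hh
  simpa using this

/-- concavity estimate: `θ tanh h ≤ tanh (θ h)` for `h ≥ 0`. -/
private lemma edge_theta_tanh_le {θ : ℝ} (h0 : 0 ≤ θ) (h1 : θ ≤ 1) {h : ℝ} (hh : 0 ≤ h) :
    θ * Real.tanh h ≤ Real.tanh (θ * h) := by
  have hder : ∀ x : ℝ, HasDerivAt (fun x => Real.tanh (θ * x) - θ * Real.tanh x)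
      ((1 - Real.tanh (θ * x) ^ 2) * θ - θ * (1 - Real.tanh x ^ 2)) x := by
    intro x
    have h2 : HasDerivAt (fun x => θ * x) θ x := by
      simpa using (hasDerivAt_id x).const_mul θ
    exact ((edge_hasDerivAt_tanh (θ * x)).comp x h2).sub ((edge_hasDerivAt_tanh x).const_mul θ)
  have hmono : MonotoneOn (fun x => Real.tanh (θ * x) - θ * Real.tanh x) (Set.Ici 0) := by
    apply monotoneOn_of_deriv_nonneg (convex_Ici 0)
    · exact fun x _ => (hder x).continuousAt.continuousWithinAt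
    · exact fun x _ => (hder x).differentiableAt.differentiableWithinAt
    · intro x hx
      rw [interior_Ici] at hx
      rw [(hder x).deriv]
      have hx' : 0 < x := hx
      have h3 : Real.tanh (θ * x) ≤ Real.tanh x :=
        edge_tanh_strictMono.monotone (by nlinarith)
      have h4 : 0 ≤ Real.tanh (θ * x) := edge_tanh_nonneg (by positivity)
      have h5 : Real.tanh (θ * x) ^ 2 ≤ Real.tanh x ^ 2 := pow_le_pow_left₀ h4 h3 2
      nlinarith
  have h6 := hmono (Set.mem_Ici.2 le_rfl) (Set.mem_Ici.2 hh) hh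
  simp at h6
  linarith

theorem abs_psi_le {θ : ℝ} (h0 : 0 ≤ θ) (h1 : θ < 1) (h : ℝ) : |psi θ h| ≤ θ * |h| := by
  have key : ∀ h : ℝ, 0 ≤ h → |psi θ h| ≤ θ * |h| := by
    intro h hh
    have h2 : 0 ≤ psi θ h := Real.artanh_nonneg (mul_nonneg h0 (edge_tanh_nonneg hh))
    rw [abs_of_nonneg h2, abs_of_nonneg hh]
    have h3 := edge_theta_tanh_le h0 h1.le hh
    rw [← tanh_psi h0 h1 h] at h3
    exact edge_tanh_strictMono.le_iff_le.1 h3
  rcases le_total 0 h with hh | hh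
  · exact key h hh
  · have := key (-h) (by linarith)
    rw [psi_neg, abs_neg, abs_neg] at this
    exact this

theorem abs_psi_le_artanh {θ : ℝ} (h0 : 0 ≤ θ) (h1 : θ < 1) (h : ℝ) :
    |psi θ h| ≤ Real.artanh θ := by
  have key : ∀ h : ℝ, 0 ≤ h → |psi θ h| ≤ Real.artanh θ := by
    intro h hh
    have h2 : 0 ≤ psi θ h := Real.artanh_nonneg (mul_nonneg h0 (edge_tanh_nonneg hh))
    rw [abs_of_nonneg h2]
    unfold psi
    apply Real.artanh_le_artanh (abs_theta_tanh_lt h0 h1 h).1 h1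
    have := Real.tanh_lt_one h
    nlinarith
  rcases le_total 0 h with hh | hh
  · exact key h hh
  · have := key (-h) (by linarith)
    rw [psi_neg, abs_neg] at this
    exact this

theorem le_abs_psi {θ : ℝ} (h0 : 0 ≤ θ) (h1 : θ < 1) (h : ℝ) :
    θ * |Real.tanh h| ≤ |psi θ h| := by
  have key : ∀ h : ℝ, 0 ≤ h → θ * |Real.tanh h| ≤ |psi θ h| := by
    intro h hh
    have h2 : 0 ≤ psi θ h := Real.artanh_nonneg (mul_nonneg h0 (edge_tanh_nonneg hh))
    rw [abs_of_nonneg h2, abs_of_nonneg (edge_tanh_nonneg hh), ← tanh_psi h0 h1 h]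
    -- `tanh x ≤ x` for `x ≥ 0`
    have hmono : MonotoneOn (fun x => x - Real.tanh x) (Set.Ici 0) := by
      have hder : ∀ x : ℝ, HasDerivAt (fun x => x - Real.tanh x)
          (1 - (1 - Real.tanh x ^ 2)) x := fun x =>
        (hasDerivAt_id x).sub (edge_hasDerivAt_tanh x)
      apply monotoneOn_of_deriv_nonneg (convex_Ici 0)
      · exact fun x _ => (hder x).continuousAt.continuousWithinAt
      · exact fun x _ => (hder x).differentiableAt.differentiableWithinAt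
      · intro x _
        rw [(hder x).deriv]
        nlinarith [sq_nonneg (Real.tanh x)]
    have h6 := hmono (Set.mem_Ici.2 le_rfl) (Set.mem_Ici.2 h2) h2
    simp at h6
    linarith
  rcases le_total 0 h with hh | hh
  · exact key h hh
  · have := key (-h) (by linarith)
    rw [psi_neg, abs_neg, Real.tanh_neg, abs_neg] at this
    exact this

theorem measurable_psi (θ : ℝ) : Measurable (psi θ) := by
  have h1 : Continuous Real.tanh := by
    have : Continuous (fun x => Real.sinh x / Real.cosh x) :=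
      Real.continuous_sinh.div Real.continuous_cosh (fun x => (Real.cosh_pos x).ne')
    have e : Real.tanh = fun x => Real.sinh x / Real.cosh x := by
      ext y
      exact Real.tanh_eq_sinh_div_cosh y
    rw [e]
    exact this
  have h2 : Measurable Real.artanh := by
    unfold Real.artanh
    fun_prop
  unfold psi
  exact h2.comp (measurable_const.mul h1.measurable)

end Crest.Agent.Lib.Row160
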