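import Crest.Agent.Lib.Row160.Defs

/-!
Row 160, chunk M8a: algebra of `star`.
-/

set_option autoImplicit false

open MeasureTheory Filter Topology

namespace Crest.Agent.Lib.Row160

noncomputable section

/-! ### elementary facts on `tanh`, `artanh` -/

theorem continuous_tanh : Continuous Real.tanh := by
  have : Real.tanh = fun x => Real.sinh x / Real.cosh x := by
    funext x; exact Real.tanh_eq_sinh_div_cosh x
  rw [this]
  exact Real.continuous_sinh.div Real.continuous_cosh (fun x => (Real.cosh_pos x).ne')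

theorem measurable_tanh : Measurable Real.tanh := continuous_tanh.measurable

theorem measurable_artanh : Measurable Real.artanh := by
  have : Real.artanh = fun x => Real.log √((1 + x) / (1 - x)) := rfl
  rw [this]
  fun_prop

theorem artanh_neg' (x : ℝ) : Real.artanh (-x) = -Real.artanh x := by
  unfold Real.artanh
  have h : (1 + -x) / (1 - -x) = ((1 + x) / (1 - x))⁻¹ := by
    rw [inv_div]; congr 1; ring
  rw [h, Real.sqrt_inv, Real.log_inv]

theorem Star_measurable_psi (θ : ℝ) : Measurable (psi θ) := by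
  unfold psi
  exact measurable_artanh.comp (measurable_const.mul measurable_tanh)

theorem Star_psi_neg (θ h : ℝ) : psi θ (-h) = -psi θ h := by
  unfold psi; rw [Real.tanh_neg, mul_neg, artanh_neg']

theorem one_add_tanh_pos (x y : ℝ) : 0 < 1 + Real.tanh x * Real.tanh y := by
  have h1 := abs_lt.1 (Real.abs_tanh_lt_one x)
  have h2 := abs_lt.1 (Real.abs_tanh_lt_one y)
  nlinarith

theorem tanh_add' (x y : ℝ) :
    Real.tanh (x + y) = (Real.tanh x + Real.tanh y) / (1 + Real.tanh x * Real.tanh y) := by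
  have h := (one_add_tanh_pos x y).ne'
  rw [eq_div_iff h]
  rw [Real.tanh_eq_sinh_div_cosh, Real.tanh_eq_sinh_div_cosh, Real.tanh_eq_sinh_div_cosh,
    Real.sinh_add, Real.cosh_add]
  have hx := (Real.cosh_pos x).ne'
  have hy := (Real.cosh_pos y).ne'
  have hxy : Real.cosh x * Real.cosh y + Real.sinh x * Real.sinh y ≠ 0 := by
    rw [← Real.cosh_add]; exact (Real.cosh_pos _).ne'
  have hxy' : Real.cosh y * Real.cosh x + Real.sinh x * Real.sinh y ≠ 0 := by
    rw [mul_comm (Real.cosh y)]; exact hxy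
  field_simp

/-! ### symmetric laws -/

theorem SymLaw.ae {B : ℝ} {κ : Measure ℝ} (h : SymLaw B κ) : ∀ᵐ x ∂κ, |x| ≤ B := by
  have h1 : ∀ᵐ x ∂κ, x ∈ Set.Icc (-B) B := by
    rw [ae_iff]
    exact h.2.2
  filter_upwards [h1] with x hx
  exact abs_le.2 ⟨hx.1, hx.2⟩

theorem symLaw_of_ae {B : ℝ} {κ : Measure ℝ} (h1 : IsProbabilityMeasure κ)
    (h2 : κ.map (fun x => -x) = κ) (h3 : ∀ᵐ x ∂κ, |x| ≤ B) : SymLaw B κ := by
  refine ⟨h1, h2, ?_⟩
  have h4 : ∀ᵐ x ∂κ, x ∈ Set.Icc (-B) B := by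
    filter_upwards [h3] with x hx
    exact ⟨(abs_le.1 hx).1, (abs_le.1 hx).2⟩
  exact ae_iff.1 h4

theorem SymLaw.mono {B B' : ℝ} {κ : Measure ℝ} (h : SymLaw B κ) (hB : B ≤ B') : SymLaw B' κ := by
  refine symLaw_of_ae h.1 h.2.1 ?_
  filter_upwards [h.ae] with x hx
  exact hx.trans hB

theorem SymLaw.integrable {B : ℝ} {κ : Measure ℝ} (h : SymLaw B κ) {f : ℝ → ℝ}
    (hf : Measurable f) (hb : ∀ R : ℝ, ∃ C, ∀ x, |x| ≤ R → |f x| ≤ C) : Integrable f κ := by
  have := h.1
  obtain ⟨C, hC⟩ := hb B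
  refine Integrable.of_bound hf.aestronglyMeasurable C ?_
  filter_upwards [h.ae] with x hx
  exact hC x hx

theorem SymLaw.integrable_cont {B : ℝ} {κ : Measure ℝ} (h : SymLaw B κ) {f : ℝ → ℝ}
    (hf : Continuous f) : Integrable f κ := by
  refine h.integrable hf.measurable (fun R => ?_)
  obtain ⟨C, hC⟩ := (isCompact_Icc (a := -R) (b := R)).exists_bound_of_continuousOn hf.continuousOn
  exact ⟨C, fun x hx => hC x ⟨(abs_le.1 hx).1, (abs_le.1 hx).2⟩⟩

theorem SymLaw.integral_neg {B : ℝ} {κ : Measure ℝ} (h : SymLaw B κ) (f : ℝ → ℝ) :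
    ∫ x, f (-x) ∂κ = ∫ x, f x ∂κ := by
  conv_rhs => rw [← h.2.1]
  exact ((MeasurableEquiv.neg ℝ).measurableEmbedding.integral_map f).symm

theorem SymLaw.integral_odd {B : ℝ} {κ : Measure ℝ} (h : SymLaw B κ) {f : ℝ → ℝ}
    (hf : ∀ x, f (-x) = -f x) : ∫ x, f x ∂κ = 0 := by
  have h1 := h.integral_neg f
  simp only [hf] at h1
  rw [MeasureTheory.integral_neg] at h1
  linarith

theorem SymLaw.integral_tanh {B : ℝ} {κ : Measure ℝ} (h : SymLaw B κ) :
    ∫ x, Real.tanh x ∂κ = 0 := h.integral_odd Real.tanh_neg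

theorem SymLaw.ae_prod {B B' : ℝ} {κ κ' : Measure ℝ} (h : SymLaw B κ) (h' : SymLaw B' κ') :
    ∀ᵐ p ∂(κ.prod κ'), |p.1| ≤ B ∧ |p.2| ≤ B' := by
  have := h.1
  have := h'.1
  have h1 : ∀ᵐ p ∂(κ.prod κ'), |p.1| ≤ B := Measure.quasiMeasurePreserving_fst.ae h.ae
  have h2 : ∀ᵐ p ∂(κ.prod κ'), |p.2| ≤ B' := Measure.quasiMeasurePreserving_snd.ae h'.ae
  filter_upwards [h1, h2] with p hp1 hp2 using ⟨hp1, hp2⟩

theorem measurable_dens : Measurable (fun p : ℝ × ℝ =>
    ENNReal.ofReal (1 + Real.tanh p.1 * Real.tanh p.2)) :=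
  (measurable_const.add ((measurable_tanh.comp measurable_fst).mul
    (measurable_tanh.comp measurable_snd))).ennreal_ofReal

theorem tanh_mul_abs_le (x y : ℝ) : |Real.tanh x * Real.tanh y| ≤ 1 := by
  rw [abs_mul]
  exact mul_le_one₀ (Real.abs_tanh_lt_one x).le (abs_nonneg _) (Real.abs_tanh_lt_one y).le

theorem star_ae {B B' : ℝ} {κ κ' : Measure ℝ} (h : SymLaw B κ) (h' : SymLaw B' κ') :
    ∀ᵐ x ∂(star κ κ'), |x| ≤ B + B' := by
  unfold star
  rw [ae_map_iff (by fun_prop) (measurableSet_le (by fun_prop) (by fun_prop))]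
  refine (withDensity_absolutelyContinuous _ _).ae_le ?_
  filter_upwards [h.ae_prod h'] with p hp
  exact (abs_add_le _ _).trans (add_le_add hp.1 hp.2)

theorem integrable_prod_of {B B' : ℝ} {κ κ' : Measure ℝ} (h : SymLaw B κ) (h' : SymLaw B' κ')
    {F : ℝ × ℝ → ℝ} (hF : Measurable F) (C : ℝ)
    (hC : ∀ p : ℝ × ℝ, |p.1| ≤ B → |p.2| ≤ B' → |F p| ≤ C) : Integrable F (κ.prod κ') := by
  have := h.1
  have := h'.1
  refine Integrable.of_bound hF.aestronglyMeasurable C ?_
  filter_upwards [h.ae_prod h'] with p hp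
  exact hC p hp.1 hp.2

/-- integral against `star` (product form) -/
theorem star_integral_prod {B B' : ℝ} {κ κ' : Measure ℝ} (_h : SymLaw B κ) (_h' : SymLaw B' κ')
    {f : ℝ → ℝ} (hf : Measurable f) :
    ∫ x, f x ∂(star κ κ')
      = ∫ p, f (p.1 + p.2) * (1 + Real.tanh p.1 * Real.tanh p.2) ∂(κ.prod κ') := by
  unfold star
  rw [integral_map (by fun_prop) hf.aestronglyMeasurable,
    integral_withDensity_eq_integral_toReal_smul measurable_dens
      (Eventually.of_forall fun p => ENNReal.ofReal_lt_top)]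
  refine integral_congr_ae (Eventually.of_forall fun p => ?_)
  simp only [smul_eq_mul]
  rw [ENNReal.toReal_ofReal (one_add_tanh_pos _ _).le, mul_comm]

theorem star_integrable_aux {B B' : ℝ} {κ κ' : Measure ℝ} (h : SymLaw B κ) (h' : SymLaw B' κ')
    {f : ℝ → ℝ} (hf : Measurable f) (hb : ∀ R : ℝ, ∃ C, ∀ x, |x| ≤ R → |f x| ≤ C) :
    Integrable (fun p : ℝ × ℝ => f (p.1 + p.2) * (1 + Real.tanh p.1 * Real.tanh p.2))
      (κ.prod κ') := by
  obtain ⟨C, hC⟩ := hb (B + B')
  have hm : Measurable (fun p : ℝ × ℝ => f (p.1 + p.2) * (1 + Real.tanh p.1 * Real.tanh p.2)) :=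
    (hf.comp (measurable_fst.add measurable_snd)).mul
      (measurable_const.add ((measurable_tanh.comp measurable_fst).mul
        (measurable_tanh.comp measurable_snd)))
  refine integrable_prod_of h h' hm (C * 2) (fun p hp1 hp2 => ?_)
  rw [abs_mul]
  have h1 : |f (p.1 + p.2)| ≤ C := hC _ ((abs_add_le _ _).trans (add_le_add hp1 hp2))
  have h2 : |1 + Real.tanh p.1 * Real.tanh p.2| ≤ 2 := by
    have := tanh_mul_abs_le p.1 p.2
    calc |1 + Real.tanh p.1 * Real.tanh p.2| ≤ |1| + |Real.tanh p.1 * Real.tanh p.2| :=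
          abs_add_le _ _
      _ ≤ 2 := by rw [abs_one]; linarith
  exact mul_le_mul h1 h2 (abs_nonneg _) ((abs_nonneg _).trans h1)

theorem star_integral {B B' : ℝ} {κ κ' : Measure ℝ} (h : SymLaw B κ) (h' : SymLaw B' κ')
    {f : ℝ → ℝ} (hf : Measurable f) (hb : ∀ R : ℝ, ∃ C, ∀ x, |x| ≤ R → |f x| ≤ C) :
    ∫ x, f x ∂(star κ κ') = ∫ x, ∫ y, f (x + y) * (1 + Real.tanh x * Real.tanh y) ∂κ' ∂κ := by
  have := h.1
  have := h'.1
  rw [star_integral_prod h h' hf, integral_prod _ (star_integrable_aux h h' hf hb)]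

theorem SymLaw.star {B B' : ℝ} {κ κ' : Measure ℝ} (h : SymLaw B κ) (h' : SymLaw B' κ') :
    SymLaw (B + B') (star κ κ') := by
  have := h.1
  have := h'.1
  refine symLaw_of_ae ⟨?_⟩ ?_ (star_ae h h')
  · -- total mass
    have hadd : Measurable (fun p : ℝ × ℝ => p.1 + p.2) := by fun_prop
    unfold Row160.star
    rw [Measure.map_apply hadd MeasurableSet.univ, Set.preimage_univ,
      withDensity_apply _ MeasurableSet.univ, Measure.restrict_univ,
      ← ofReal_integral_eq_lintegral_ofReal]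
    · have hint : Integrable (fun p : ℝ × ℝ => Real.tanh p.1 * Real.tanh p.2) (κ.prod κ') :=
        integrable_prod_of h h' ((measurable_tanh.comp measurable_fst).mul
          (measurable_tanh.comp measurable_snd)) 1 (fun p _ _ => tanh_mul_abs_le _ _)
      rw [integral_add (integrable_const _) hint, integral_prod_mul, h.integral_tanh, zero_mul]
      simp
    · have hint : Integrable (fun p : ℝ × ℝ => Real.tanh p.1 * Real.tanh p.2) (κ.prod κ') :=
        integrable_prod_of h h' ((measurable_tanh.comp measurable_fst).mul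
          (measurable_tanh.comp measurable_snd)) 1 (fun p _ _ => tanh_mul_abs_le _ _)
      exact (integrable_const _).add hint
    · exact Eventually.of_forall fun p => (one_add_tanh_pos _ _).le
  · -- symmetry
    set ρ : ℝ × ℝ → ENNReal := fun p => ENNReal.ofReal (1 + Real.tanh p.1 * Real.tanh p.2) with hρ
    have hadd : Measurable (fun p : ℝ × ℝ => p.1 + p.2) := by fun_prop
    have hneg2 : (κ.prod κ').map (Prod.map (fun x : ℝ => -x) (fun x : ℝ => -x)) = κ.prod κ' := by
      rw [← Measure.map_prod_map _ _ measurable_neg measurable_neg, h.2.1, h'.2.1]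
    have hmp : MeasurePreserving (Prod.map (fun x : ℝ => -x) (fun x : ℝ => -x)) (κ.prod κ')
        (κ.prod κ') := ⟨measurable_neg.prodMap measurable_neg, hneg2⟩
    have hme : MeasurableEmbedding (Prod.map (fun x : ℝ => -x) (fun x : ℝ => -x)) :=
      (MeasurableEquiv.neg ℝ).measurableEmbedding.prodMap (MeasurableEquiv.neg ℝ).measurableEmbedding
    unfold Row160.star
    rw [Measure.map_map measurable_neg hadd]
    ext s hs
    rw [Measure.map_apply (measurable_neg.comp hadd) hs, Measure.map_apply hadd hs,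
      withDensity_apply _ ((measurable_neg.comp hadd) hs), withDensity_apply _ (hadd hs)]
    have h3 := hmp.setLIntegral_comp_preimage_emb hme ρ ((fun p : ℝ × ℝ => p.1 + p.2) ⁻¹' s)
    rw [← h3]
    have hset : (Prod.map (fun x : ℝ => -x) (fun x : ℝ => -x)) ⁻¹'
        ((fun p : ℝ × ℝ => p.1 + p.2) ⁻¹' s)
        = ((fun x : ℝ => -x) ∘ fun p : ℝ × ℝ => p.1 + p.2) ⁻¹' s := by
      ext p
      simp only [Set.mem_preimage, Prod.map_fst, Prod.map_snd, Function.comp_apply]
      rw [neg_add]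
    rw [hset]
    refine lintegral_congr fun p => ?_
    simp only [hρ, Prod.map_fst, Prod.map_snd, Real.tanh_neg]
    congr 1; ring

theorem locBdd_of_continuous {f : ℝ → ℝ} (hf : Continuous f) :
    ∀ R : ℝ, ∃ C, ∀ x, |x| ≤ R → |f x| ≤ C := by
  intro R
  obtain ⟨C, hC⟩ := (isCompact_Icc (a := -R) (b := R)).exists_bound_of_continuousOn hf.continuousOn
  exact ⟨C, fun x hx => hC x ⟨(abs_le.1 hx).1, (abs_le.1 hx).2⟩⟩

/-- `F(λ) = ∫ (1 + tanh h) e^{λ h}` is multiplicative. -/
theorem star_mgf {B B' : ℝ} {κ κ' : Measure ℝ} (h : SymLaw B κ) (h' : SymLaw B' κ') (l : ℝ) :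
    ∫ x, (1 + Real.tanh x) * Real.exp (l * x) ∂(star κ κ') =
      (∫ x, (1 + Real.tanh x) * Real.exp (l * x) ∂κ) *
        ∫ x, (1 + Real.tanh x) * Real.exp (l * x) ∂κ' := by
  have hc : Continuous (fun x => (1 + Real.tanh x) * Real.exp (l * x)) := by
    have := continuous_tanh
    fun_prop
  rw [star_integral h h' hc.measurable (locBdd_of_continuous hc)]
  rw [← integral_mul_const]
  refine integral_congr_ae (Eventually.of_forall fun x => ?_)
  simp only
  rw [← integral_const_mul]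
  refine integral_congr_ae (Eventually.of_forall fun y => ?_)
  simp only
  rw [tanh_add', show l * (x + y) = l * x + l * y by ring, Real.exp_add]
  have := (one_add_tanh_pos x y).ne'
  field_simp
  ring

/-- symmetrised form of the information of `star` -/
theorem qq_star_eq {B B' : ℝ} {κ κ' : Measure ℝ} (h : SymLaw B κ) (h' : SymLaw B' κ') :
    qq (star κ κ') = ∫ p, (Real.tanh p.1 ^ 2 + Real.tanh p.2 ^ 2
      - 2 * Real.tanh p.1 ^ 2 * Real.tanh p.2 ^ 2)
        / (1 - Real.tanh p.1 ^ 2 * Real.tanh p.2 ^ 2) ∂(κ.prod κ') := by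
  have := h.1
  have := h'.1
  have hm : Measurable (fun x => Real.tanh x ^ 2) := measurable_tanh.pow_const 2
  have hloc := locBdd_of_continuous (continuous_tanh.pow 2)
  unfold qq
  have e1 := star_integral_prod h h' hm
  have i1 := star_integrable_aux h h' hm hloc
  set F : ℝ × ℝ → ℝ := fun p => Real.tanh (p.1 + p.2) ^ 2 * (1 + Real.tanh p.1 * Real.tanh p.2)
    with hF
  -- reflection of the second coordinate
  have hmp : MeasurePreserving (Prod.map (fun x : ℝ => x) (fun x : ℝ => -x)) (κ.prod κ')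
      (κ.prod κ') := by
    refine ⟨measurable_id.prodMap measurable_neg, ?_⟩
    have := Measure.map_prod_map κ κ' (measurable_id (α := ℝ)) (measurable_neg (G := ℝ))
    rw [Measure.map_id] at this
    rw [show (fun x : ℝ => x) = id from rfl, ← this, h'.2.1]
  have hme : MeasurableEmbedding (Prod.map (fun x : ℝ => x) (fun x : ℝ => -x)) :=
    MeasurableEmbedding.id.prodMap (MeasurableEquiv.neg ℝ).measurableEmbedding
  have e2 : ∫ p, F (Prod.map (fun x : ℝ => x) (fun x : ℝ => -x) p) ∂(κ.prod κ')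
      = ∫ p, F p ∂(κ.prod κ') := hmp.integral_comp hme F
  have i2 : Integrable (fun p => F (Prod.map (fun x : ℝ => x) (fun x : ℝ => -x) p))
      (κ.prod κ') := hmp.integrable_comp_of_integrable i1
  have e3 : ∫ x, Real.tanh x ^ 2 ∂(star κ κ')
      = ∫ p, (F p + F (Prod.map (fun x : ℝ => x) (fun x : ℝ => -x) p)) / 2 ∂(κ.prod κ') := by
    rw [integral_div, integral_add i1 i2, e2, e1]; ring
  rw [e3]
  refine integral_congr_ae (Eventually.of_forall fun p => ?_)
  simp only [hF, Prod.map_fst, Prod.map_snd]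
  rw [tanh_add', tanh_add', Real.tanh_neg]
  have h1 := (one_add_tanh_pos p.1 p.2).ne'
  have h2 : 1 + Real.tanh p.1 * -Real.tanh p.2 ≠ 0 := by
    have := (one_add_tanh_pos p.1 (-p.2)).ne'
    rwa [Real.tanh_neg] at this
  have h3 : 1 - Real.tanh p.1 ^ 2 * Real.tanh p.2 ^ 2 ≠ 0 := by
    have : 1 - Real.tanh p.1 ^ 2 * Real.tanh p.2 ^ 2
      = (1 + Real.tanh p.1 * Real.tanh p.2) * (1 + Real.tanh p.1 * -Real.tanh p.2) := by ring
    rw [this]; exact mul_ne_zero h1 h2
  generalize Real.tanh p.1 = a at *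
  generalize Real.tanh p.2 = c at *
  have h4 : 1 - a * c ≠ 0 := by
    intro h; apply h2; rw [mul_neg, ← sub_eq_add_neg]; exact h
  rw [show 1 + a * -c = 1 - a * c by ring,
    show 1 - a ^ 2 * c ^ 2 = (1 + a * c) * (1 - a * c) by ring]
  field_simp
  ring

theorem tsq_bounds (x : ℝ) : 0 ≤ Real.tanh x ^ 2 ∧ Real.tanh x ^ 2 < 1 :=
  ⟨sq_nonneg _, Real.tanh_sq_lt_one x⟩

theorem tsq_integrable {B : ℝ} {κ : Measure ℝ} (h : SymLaw B κ) :
    Integrable (fun x => Real.tanh x ^ 2) κ := h.integrable_cont (continuous_tanh.pow 2)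

theorem frac_integrable {B B' : ℝ} {κ κ' : Measure ℝ} (h : SymLaw B κ) (h' : SymLaw B' κ') :
    Integrable (fun p : ℝ × ℝ => (Real.tanh p.1 ^ 2 + Real.tanh p.2 ^ 2
      - 2 * Real.tanh p.1 ^ 2 * Real.tanh p.2 ^ 2)
        / (1 - Real.tanh p.1 ^ 2 * Real.tanh p.2 ^ 2)) (κ.prod κ') := by
  have hm1 : Measurable (fun p : ℝ × ℝ => Real.tanh p.1) := measurable_tanh.comp measurable_fst
  have hm2 : Measurable (fun p : ℝ × ℝ => Real.tanh p.2) := measurable_tanh.comp measurable_snd
  refine integrable_prod_of h h' (by fun_prop) 2 (fun p _ _ => ?_)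
  obtain ⟨h1, h2⟩ := tsq_bounds p.1
  obtain ⟨h3, h4⟩ := tsq_bounds p.2
  set a := Real.tanh p.1 ^ 2
  set c := Real.tanh p.2 ^ 2
  have h5 : 0 < 1 - a * c := by nlinarith
  rw [abs_of_nonneg (div_nonneg (by nlinarith) h5.le), div_le_iff₀ h5]
  nlinarith [mul_nonneg h1 h3, mul_nonneg (sub_nonneg.2 h2.le) (sub_nonneg.2 h4.le)]

theorem qq_prod {B B' : ℝ} {κ κ' : Measure ℝ} (h : SymLaw B κ) (h' : SymLaw B' κ')
    (u v w : ℝ) :
    ∫ p, (u * Real.tanh p.1 ^ 2 + v * Real.tanh p.2 ^ 2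
      + w * (Real.tanh p.1 ^ 2 * Real.tanh p.2 ^ 2)) ∂(κ.prod κ')
      = u * qq κ + v * qq κ' + w * (qq κ * qq κ') := by
  have := h.1
  have := h'.1
  have i1 : Integrable (fun p : ℝ × ℝ => Real.tanh p.1 ^ 2) (κ.prod κ') :=
    (tsq_integrable h).comp_fst κ'
  have i2 : Integrable (fun p : ℝ × ℝ => Real.tanh p.2 ^ 2) (κ.prod κ') :=
    (tsq_integrable h').comp_snd κ
  have i3 : Integrable (fun p : ℝ × ℝ => Real.tanh p.1 ^ 2 * Real.tanh p.2 ^ 2) (κ.prod κ') :=
    (tsq_integrable h).mul_prod (tsq_integrable h')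
  have i12 : Integrable (fun p : ℝ × ℝ => u * Real.tanh p.1 ^ 2 + v * Real.tanh p.2 ^ 2)
      (κ.prod κ') := (i1.const_mul u).add (i2.const_mul v)
  rw [integral_add i12 (i3.const_mul w),
    integral_add (i1.const_mul u) (i2.const_mul v), integral_const_mul, integral_const_mul,
    integral_const_mul]
  have e1 : ∫ p : ℝ × ℝ, Real.tanh p.1 ^ 2 ∂(κ.prod κ') = qq κ := by
    rw [integral_prod _ i1]; simp [qq]
  have e2 : ∫ p : ℝ × ℝ, Real.tanh p.2 ^ 2 ∂(κ.prod κ') = qq κ' := by
    rw [integral_prod _ i2]; simp [qq]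
  have e3 : ∫ p : ℝ × ℝ, Real.tanh p.1 ^ 2 * Real.tanh p.2 ^ 2 ∂(κ.prod κ') = qq κ * qq κ' :=
    integral_prod_mul (fun x => Real.tanh x ^ 2) (fun x => Real.tanh x ^ 2)
  rw [e1, e2, e3]

theorem poly_integrable {B B' : ℝ} {κ κ' : Measure ℝ} (h : SymLaw B κ) (h' : SymLaw B' κ')
    (u v w : ℝ) : Integrable (fun p : ℝ × ℝ => (u * Real.tanh p.1 ^ 2 + v * Real.tanh p.2 ^ 2
      + w * (Real.tanh p.1 ^ 2 * Real.tanh p.2 ^ 2))) (κ.prod κ') := by
  have := h.1
  have := h'.1
  have i1 : Integrable (fun p : ℝ × ℝ => Real.tanh p.1 ^ 2) (κ.prod κ') :=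
    (tsq_integrable h).comp_fst κ'
  have i2 : Integrable (fun p : ℝ × ℝ => Real.tanh p.2 ^ 2) (κ.prod κ') :=
    (tsq_integrable h').comp_snd κ
  have i3 : Integrable (fun p : ℝ × ℝ => Real.tanh p.1 ^ 2 * Real.tanh p.2 ^ 2) (κ.prod κ') :=
    (tsq_integrable h).mul_prod (tsq_integrable h')
  exact ((i1.const_mul u).add (i2.const_mul v)).add (i3.const_mul w)

theorem qq_star_ge {B B' : ℝ} {κ κ' : Measure ℝ} (h : SymLaw B κ) (h' : SymLaw B' κ') :
    qq κ + qq κ' - 2 * qq κ * qq κ' ≤ qq (star κ κ') := by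
  rw [qq_star_eq h h']
  have e := qq_prod h h' 1 1 (-2)
  have e' : qq κ + qq κ' - 2 * qq κ * qq κ' = 1 * qq κ + 1 * qq κ' + -2 * (qq κ * qq κ') := by ring
  rw [e', ← e]
  refine integral_mono (poly_integrable h h' _ _ _) (frac_integrable h h') (fun p => ?_)
  simp only
  obtain ⟨h1, h2⟩ := tsq_bounds p.1
  obtain ⟨h3, h4⟩ := tsq_bounds p.2
  set a := Real.tanh p.1 ^ 2
  set c := Real.tanh p.2 ^ 2
  have h5 : 0 < 1 - a * c := by nlinarith
  rw [le_div_iff₀ h5]
  have h6 : 0 ≤ a + c - 2 * a * c := by nlinarith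
  nlinarith [mul_nonneg h6 (mul_nonneg h1 h3)]

theorem qq_star_le {B B' : ℝ} {κ κ' : Measure ℝ} (h : SymLaw B κ) (h' : SymLaw B' κ') :
    qq (star κ κ') ≤ qq κ + qq κ' - qq κ * qq κ' := by
  rw [qq_star_eq h h']
  have e := qq_prod h h' 1 1 (-1)
  have e' : qq κ + qq κ' - qq κ * qq κ' = 1 * qq κ + 1 * qq κ' + -1 * (qq κ * qq κ') := by ring
  rw [e', ← e]
  refine integral_mono (frac_integrable h h') (poly_integrable h h' _ _ _) (fun p => ?_)
  simp only
  obtain ⟨h1, h2⟩ := tsq_bounds p.1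
  obtain ⟨h3, h4⟩ := tsq_bounds p.2
  set a := Real.tanh p.1 ^ 2
  set c := Real.tanh p.2 ^ 2
  have h5 : 0 < 1 - a * c := by nlinarith
  rw [div_le_iff₀ h5]
  have h6 : 0 ≤ a * c * ((1 - a) * (1 - c)) :=
    mul_nonneg (mul_nonneg h1 h3) (mul_nonneg (by linarith) (by linarith))
  nlinarith

theorem qq_le_star_left {B B' : ℝ} {κ κ' : Measure ℝ} (h : SymLaw B κ) (h' : SymLaw B' κ') :
    qq κ ≤ qq (star κ κ') := by
  rw [qq_star_eq h h']
  have e := qq_prod h h' 1 0 0
  have e' : qq κ = 1 * qq κ + 0 * qq κ' + 0 * (qq κ * qq κ') := by ring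
  rw [e', ← e]
  refine integral_mono (poly_integrable h h' _ _ _) (frac_integrable h h') (fun p => ?_)
  simp only
  obtain ⟨h1, h2⟩ := tsq_bounds p.1
  obtain ⟨h3, h4⟩ := tsq_bounds p.2
  set a := Real.tanh p.1 ^ 2
  set c := Real.tanh p.2 ^ 2
  have h5 : 0 < 1 - a * c := by nlinarith
  rw [le_div_iff₀ h5]
  nlinarith [mul_nonneg h3 (sq_nonneg (1 - a))]

theorem qq_le_star_right {B B' : ℝ} {κ κ' : Measure ℝ} (h : SymLaw B κ) (h' : SymLaw B' κ') :
    qq κ' ≤ qq (star κ κ') := by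
  rw [qq_star_eq h h']
  have e := qq_prod h h' 0 1 0
  have e' : qq κ' = 0 * qq κ + 1 * qq κ' + 0 * (qq κ * qq κ') := by ring
  rw [e', ← e]
  refine integral_mono (poly_integrable h h' _ _ _) (frac_integrable h h') (fun p => ?_)
  simp only
  obtain ⟨h1, h2⟩ := tsq_bounds p.1
  obtain ⟨h3, h4⟩ := tsq_bounds p.2
  set a := Real.tanh p.1 ^ 2
  set c := Real.tanh p.2 ^ 2
  have h5 : 0 < 1 - a * c := by nlinarith
  rw [le_div_iff₀ h5]
  nlinarith [mul_nonneg h1 (sq_nonneg (1 - c))]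

theorem qq_nonneg (κ : Measure ℝ) : 0 ≤ qq κ := integral_nonneg fun _ => sq_nonneg _

theorem qq_le_one {B : ℝ} {κ : Measure ℝ} (h : SymLaw B κ) : qq κ ≤ 1 := by
  have := h.1
  calc qq κ ≤ ∫ _, (1 : ℝ) ∂κ :=
        integral_mono (tsq_integrable h) (integrable_const _) (fun x => (tsq_bounds x).2.le)
    _ = 1 := by simp

theorem Star_abs_psi_le {θ : ℝ} (h0 : 0 ≤ θ) (h1 : θ < 1) (x : ℝ) : |psi θ x| ≤ Real.artanh θ := by
  have ht := abs_lt.1 (Real.abs_tanh_lt_one x)
  unfold psi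
  have hm : |θ * Real.tanh x| ≤ θ := by
    rw [abs_mul, abs_of_nonneg h0]
    exact mul_le_of_le_one_right h0 (Real.abs_tanh_lt_one x).le
  have hm' := abs_le.1 hm
  rw [abs_le]
  constructor
  · rw [← artanh_neg']
    exact Real.artanh_le_artanh (by linarith) (by linarith) hm'.1
  · exact Real.artanh_le_artanh (by linarith) h1 hm'.2

theorem SymLaw.map_psi {B : ℝ} {κ : Measure ℝ} (h : SymLaw B κ) {θ : ℝ} (h0 : 0 ≤ θ)
    (h1 : θ < 1) : SymLaw (Real.artanh θ) (κ.map (psi θ)) := by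
  have := h.1
  refine symLaw_of_ae (Measure.isProbabilityMeasure_map (Star_measurable_psi θ).aemeasurable) ?_ ?_
  · rw [Measure.map_map measurable_neg (Star_measurable_psi θ)]
    have : (fun x : ℝ => -x) ∘ psi θ = psi θ ∘ fun x : ℝ => -x := by
      funext x; simp only [Function.comp_apply, Star_psi_neg]
    rw [this, ← Measure.map_map (Star_measurable_psi θ) measurable_neg, h.2.1]
  · rw [ae_map_iff (Star_measurable_psi θ).aemeasurable (measurableSet_le (by fun_prop) (by fun_prop))]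
    exact Eventually.of_forall fun x => Star_abs_psi_le h0 h1 x

theorem symLaw_dirac : SymLaw 0 (Measure.dirac 0) := by
  refine symLaw_of_ae inferInstance ?_ ?_
  · rw [Measure.map_dirac' measurable_neg, neg_zero]
  · rw [ae_dirac_iff (measurableSet_le (by fun_prop) (by fun_prop))]
    simp

theorem SymLaw.starpow {B : ℝ} {κ : Measure ℝ} (h : SymLaw B κ) (n : ℕ) :
    SymLaw (n * B) (starpow κ n) := by
  induction n with
  | zero => simpa [Row160.starpow] using symLaw_dirac
  | succ n ih =>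
    have h1 := h.star ih
    have h2 : B + n * B = ((n + 1 : ℕ) : ℝ) * B := by push_cast; ring
    rw [h2] at h1
    exact h1

theorem qq_map_psi {B : ℝ} {κ : Measure ℝ} (_h : SymLaw B κ) {θ : ℝ} (h0 : 0 ≤ θ)
    (h1 : θ < 1) : qq (κ.map (psi θ)) = θ ^ 2 * qq κ := by
  unfold qq
  rw [integral_map (Star_measurable_psi θ).aemeasurable
    (measurable_tanh.pow_const 2).aestronglyMeasurable, ← integral_const_mul]
  refine integral_congr_ae (Eventually.of_forall fun x => ?_)
  simp only [psi]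
  have ht := abs_lt.1 (Real.abs_tanh_lt_one x)
  rw [Real.tanh_artanh ⟨by nlinarith, by nlinarith⟩]
  ring

theorem star_dirac_left {B : ℝ} {κ : Measure ℝ} (h : SymLaw B κ) :
    star (Measure.dirac 0) κ = κ := by
  have := h.1
  unfold star
  rw [Measure.dirac_prod]
  have hd : (Measure.map (Prod.mk (0 : ℝ)) κ).withDensity
      (fun p => ENNReal.ofReal (1 + Real.tanh p.1 * Real.tanh p.2))
      = Measure.map (Prod.mk (0 : ℝ)) κ := by
    conv_rhs => rw [← withDensity_one (μ := Measure.map (Prod.mk (0 : ℝ)) κ)]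
    refine withDensity_congr_ae ?_
    have hms : MeasurableSet {p : ℝ × ℝ | ENNReal.ofReal (1 + Real.tanh p.1 * Real.tanh p.2)
        = (1 : ℝ × ℝ → ENNReal) p} := measurableSet_eq_fun measurable_dens measurable_const
    refine (ae_map_iff (by fun_prop) hms).2 (Eventually.of_forall fun x => ?_)
    simp [Real.tanh_zero]
  rw [hd, Measure.map_map (by fun_prop) (by fun_prop)]
  have : (fun p : ℝ × ℝ => p.1 + p.2) ∘ Prod.mk (0 : ℝ) = id := by
    funext x; simp
  rw [this, Measure.map_id]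

/-! ### the own observations -/

theorem measurable_nuf (s : ℝ) : Measurable (fun l : L1 =>
    if (l.1 : ℝ) < s then Real.artanh ((l.1 : ℝ) * zt l.2) else 0) := by
  refine Measurable.ite ?_ ?_ measurable_const
  · exact measurableSet_lt (measurable_subtype_coe.comp measurable_fst) measurable_const
  · refine measurable_artanh.comp ?_
    refine (measurable_subtype_coe.comp measurable_fst).mul ?_
    unfold zt
    exact (measurable_const.mul (measurable_subtype_coe.comp measurable_snd)).sub measurable_const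

theorem zt_mem (z : unitInterval) : |zt z| ≤ 1 := by
  unfold zt
  rw [abs_le]
  constructor <;> linarith [z.2.1, z.2.2]

theorem zt_symm (z : unitInterval) : zt (unitInterval.symm z) = -zt z := by
  unfold zt; rw [unitInterval.coe_symm_eq]; ring

theorem symLaw_nu {s : ℝ} (hs : 0 ≤ s) (hs' : s ≤ 1 / 2) :
    SymLaw (Real.artanh s) (nu s) := by
  unfold nu
  refine symLaw_of_ae (Measure.isProbabilityMeasure_map (measurable_nuf s).aemeasurable) ?_ ?_
  · rw [Measure.map_map measurable_neg (measurable_nuf s)]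
    have hmp : MeasurePreserving (Prod.map (id : unitInterval → unitInterval) unitInterval.symm)
        (volume : Measure L1) volume :=
      (MeasurePreserving.id volume).prod unitInterval.measurePreserving_symm
    have hcomp : (fun x : ℝ => -x) ∘ (fun l : L1 =>
        if (l.1 : ℝ) < s then Real.artanh ((l.1 : ℝ) * zt l.2) else 0)
        = (fun l : L1 => if (l.1 : ℝ) < s then Real.artanh ((l.1 : ℝ) * zt l.2) else 0)
          ∘ Prod.map (id : unitInterval → unitInterval) unitInterval.symm := by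
      funext l
      simp only [Function.comp_apply, Prod.map_fst, Prod.map_snd, id, zt_symm]
      split_ifs
      · rw [mul_neg, artanh_neg']
      · simp
    rw [hcomp, ← Measure.map_map (measurable_nuf s) hmp.measurable, hmp.map_eq]
  · rw [ae_map_iff (measurable_nuf s).aemeasurable (measurableSet_le (by fun_prop) (by fun_prop))]
    refine Eventually.of_forall fun l => ?_
    split_ifs with h
    · have h1 : |(l.1 : ℝ) * zt l.2| ≤ s := by
        rw [abs_mul, abs_of_nonneg l.1.2.1]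
        have := zt_mem l.2
        nlinarith [l.1.2.1, abs_nonneg (zt l.2)]
      have h2 := abs_le.1 h1
      rw [abs_le]
      constructor
      · rw [← artanh_neg']
        exact Real.artanh_le_artanh (by linarith) (by linarith) h2.1
      · exact Real.artanh_le_artanh (by linarith) (by linarith) h2.2
    · rw [abs_zero]; exact Real.artanh_nonneg hs

theorem integral_unit (f : ℝ → ℝ) :
    ∫ u : unitInterval, f u = ∫ u in (0 : ℝ)..1, f u := by
  rw [intervalIntegral.integral_of_le zero_le_one, ← integral_Icc_eq_integral_Ioc,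
    ← integral_subtype_comap measurableSet_Icc]
  rfl

theorem qq_nu {s : ℝ} (hs : 0 ≤ s) (hs' : s ≤ 1 / 2) : qq (nu s) = s ^ 3 / 9 := by
  unfold qq nu
  rw [integral_map (measurable_nuf s).aemeasurable
    (measurable_tanh.pow_const 2).aestronglyMeasurable]
  have h1 : ∀ l : L1, Real.tanh (if (l.1 : ℝ) < s then Real.artanh ((l.1 : ℝ) * zt l.2) else 0) ^ 2
      = (if (l.1 : ℝ) < s then (l.1 : ℝ) ^ 2 else 0) * (zt l.2) ^ 2 := by
    intro l
    split_ifs with h
    · have h2 : |(l.1 : ℝ) * zt l.2| < 1 := by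
        rw [abs_mul, abs_of_nonneg l.1.2.1]
        have := zt_mem l.2
        nlinarith [l.1.2.1, abs_nonneg (zt l.2)]
      rw [Real.tanh_artanh ⟨(abs_lt.1 h2).1, (abs_lt.1 h2).2⟩]; ring
    · simp [Real.tanh_zero]
  simp only [h1]
  have h3 : ∫ l : L1, (if (l.1 : ℝ) < s then (l.1 : ℝ) ^ 2 else 0) * (zt l.2) ^ 2
      = (∫ u : unitInterval, if (u : ℝ) < s then (u : ℝ) ^ 2 else 0) *
        ∫ z : unitInterval, (zt z) ^ 2 :=
    integral_prod_mul (fun u : unitInterval => if (u : ℝ) < s then (u : ℝ) ^ 2 else 0)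
      (fun z : unitInterval => (zt z) ^ 2)
  rw [h3, integral_unit (fun u => if u < s then u ^ 2 else 0)]
  have h4 : ∫ z : unitInterval, (zt z) ^ 2 = 1 / 3 := by
    unfold zt
    rw [integral_unit (fun z => (2 * z - 1) ^ 2)]
    have : ∀ z ∈ Set.uIcc (0 : ℝ) 1, HasDerivAt (fun z : ℝ => (2 * z - 1) ^ 3 / 6)
        ((2 * z - 1) ^ 2) z := by
      intro z _
      have h := ((((hasDerivAt_id z).const_mul 2).sub_const 1).pow 3).div_const 6
      refine h.congr_deriv ?_
      simp; ring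
    rw [intervalIntegral.integral_eq_sub_of_hasDerivAt this (by
      apply Continuous.intervalIntegrable; fun_prop)]
    norm_num
  have h5 : ∫ u in (0 : ℝ)..1, (if u < s then u ^ 2 else 0) = s ^ 3 / 3 := by
    have hi1 : IntervalIntegrable (fun u : ℝ => if u < s then u ^ 2 else 0) volume 0 s := by
      have : Set.EqOn (fun u : ℝ => u ^ 2) (fun u : ℝ => if u < s then u ^ 2 else 0)
          (Set.uIoo 0 s) := by
        intro u hu
        rw [Set.uIoo_of_le hs] at hu
        simp only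
        rw [if_pos hu.2]
      refine IntervalIntegrable.congr_uIoo ?_ this
      apply Continuous.intervalIntegrable; fun_prop
    have hi2 : IntervalIntegrable (fun u : ℝ => if u < s then u ^ 2 else 0) volume s 1 := by
      have : Set.EqOn (fun _ : ℝ => (0 : ℝ)) (fun u : ℝ => if u < s then u ^ 2 else 0)
          (Set.uIoo s 1) := by
        intro u hu
        rw [Set.uIoo_of_le (by linarith)] at hu
        simp only
        rw [if_neg (not_lt.2 hu.1.le)]
      refine IntervalIntegrable.congr_uIoo ?_ this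
      apply Continuous.intervalIntegrable; fun_prop
    rw [← intervalIntegral.integral_add_adjacent_intervals hi1 hi2]
    have e1 : ∫ u in (0 : ℝ)..s, (if u < s then u ^ 2 else 0) = ∫ u in (0 : ℝ)..s, u ^ 2 := by
      refine intervalIntegral.integral_congr_ae ?_
      have hne : ∀ᵐ u : ℝ, u ≠ s := by
        simp [ae_iff, measure_singleton]
      filter_upwards [hne] with u hu hu2
      rw [Set.uIoc_of_le hs] at hu2
      rw [if_pos (lt_of_le_of_ne hu2.2 hu)]
    have e2 : ∫ u in s..(1 : ℝ), (if u < s then u ^ 2 else 0) = 0 := by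
      rw [intervalIntegral.integral_congr (g := fun _ => (0 : ℝ))]
      · simp
      · intro u hu
        rw [Set.uIcc_of_le (by linarith)] at hu
        simp only
        rw [if_neg (not_lt.2 hu.1)]
    rw [e1, e2, integral_pow]
    norm_num
  rw [h4, h5]; ring

theorem symLaw_own (k : ℕ) {s : ℝ} (hs : 0 ≤ s) (hs' : s ≤ 1 / 2) :
    SymLaw ((k + 1) * Real.artanh (1 / 2)) (own k s) := by
  have h1 := ((symLaw_nu (s := 1 / 2) (by norm_num) le_rfl).starpow k).star (symLaw_nu hs hs')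
  refine h1.mono ?_
  have := Real.artanh_le_artanh (x := s) (y := 1 / 2) (by linarith) (by norm_num) hs'
  linarith

theorem own_zero {s : ℝ} (hs : 0 ≤ s) (hs' : s ≤ 1 / 2) : own 0 s = nu s :=
  star_dirac_left (symLaw_nu hs hs')

/-- after at least one complete round there is a constant amount of information. -/
theorem qq_own_ge {k : ℕ} (hk : 1 ≤ k) {s : ℝ} (hs : 0 ≤ s) (hs' : s ≤ 1 / 2) :
    1 / 72 ≤ qq (own k s) := by
  have h1 := symLaw_nu (s := 1 / 2) (by norm_num) le_rfl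
  have h2 := qq_le_star_left (h1.starpow k) (symLaw_nu hs hs')
  obtain ⟨j, rfl⟩ : ∃ j, k = j + 1 := ⟨k - 1, by omega⟩
  have h3 := qq_le_star_left h1 (h1.starpow j)
  have h4 := qq_nu (s := 1 / 2) (by norm_num) le_rfl
  have h5 : qq (nu (1 / 2)) = 1 / 72 := by rw [h4]; norm_num
  calc (1 : ℝ) / 72 = qq (nu (1 / 2)) := h5.symm
    _ ≤ qq (starpow (nu (1 / 2)) (j + 1)) := h3
    _ ≤ _ := h2

theorem SymLaw.kap {B : ℝ} {κ : Measure ℝ} (h : SymLaw B κ) {θ : ℝ} (h0 : 0 ≤ θ)
    (h1 : θ < 1) (b n : ℕ) : SymLaw (B + b * Real.artanh θ) (kap κ θ b n) := by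
  induction n with
  | zero =>
    refine h.mono ?_
    have := Real.artanh_nonneg h0
    have hb : (0 : ℝ) ≤ b := Nat.cast_nonneg b
    nlinarith [mul_nonneg hb this]
  | succ n ih => exact h.star ((ih.map_psi h0 h1).starpow b)

theorem SymLaw.rootLaw {B : ℝ} {κ : Measure ℝ} (h : SymLaw B κ) {θ : ℝ} (h0 : 0 ≤ θ)
    (h1 : θ < 1) (b n : ℕ) :
    SymLaw (B + (b + 1) * Real.artanh θ) (rootLaw κ θ b n) := by
  have h2 := h.star (((h.kap h0 h1 b n).map_psi h0 h1).starpow (b + 1))
  have h3 : B + ((b + 1 : ℕ) : ℝ) * Real.artanh θ = B + (b + 1) * Real.artanh θ := by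
    push_cast; ring
  rw [h3] at h2
  exact h2

end

end Crest.Agent.Lib.Row160
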