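import Crest.Agent.Lib.Row160.BridgeA
import Crest.Agent.Lib.Row160.Star
import Crest.Agent.Lib.Row160.EdgeFun

/-!
Row 160, chunk M9, part B: planted laws and `star`.
-/

set_option autoImplicit false

open MeasureTheory Filter Topology

namespace Crest.Agent.Lib.Row160

namespace Br

variable {V : Type*}

theorem tanh_add' (x y : ℝ) :
    Real.tanh (x + y) * (1 + Real.tanh x * Real.tanh y) = Real.tanh x + Real.tanh y := by
  have hx := (Real.cosh_pos x).ne'
  have hy := (Real.cosh_pos y).ne'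
  have hxy := (Real.cosh_pos (x + y)).ne'
  rw [Real.tanh_eq_sinh_div_cosh, Real.tanh_eq_sinh_div_cosh, Real.tanh_eq_sinh_div_cosh]
  field_simp
  rw [Real.sinh_add, Real.cosh_add]
  ring

theorem abs_tanh_lt (x : ℝ) : |Real.tanh x| < 1 := abs_lt.2 ⟨Real.neg_one_lt_tanh x, Real.tanh_lt_one x⟩

theorem continuous_tanh : Continuous Real.tanh := by
  have : Real.tanh = fun x => Real.sinh x / Real.cosh x := by
    funext x; exact Real.tanh_eq_sinh_div_cosh x
  rw [this]
  exact Real.continuous_sinh.div Real.continuous_cosh fun x => (Real.cosh_pos x).ne'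

theorem SymLaw.prob {B : ℝ} {κ : Measure ℝ} (h : SymLaw B κ) : IsProbabilityMeasure κ := h.1

/-- planted law: `h` has law `(1 + σ tanh x) dκ` under the density `L`. -/
structure LawOf (S : Set (V × ℕ)) (σ : ℝ) (κ : Measure ℝ) (h L : Lab V → ℝ) : Prop where
  gh : Gd S h
  gL : Gd S L
  law : ∀ f : ℝ → ℝ, Measurable f → (∃ C, ∀ x, |f x| ≤ C) →
    ∫ ω, f (h ω) * L ω ∂(labM V) = ∫ x, f x * (1 + σ * Real.tanh x) ∂κ

theorem LawOf.star {S₁ S₂ S : Set (V × ℕ)} {σ B₁ B₂ : ℝ} (hσ : σ = 1 ∨ σ = -1) {κ₁ κ₂ : Measure ℝ}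
    {h₁ L₁ h₂ L₂ : Lab V → ℝ} (H₁ : LawOf S₁ σ κ₁ h₁ L₁) (H₂ : LawOf S₂ σ κ₂ h₂ L₂)
    (s₁ : SymLaw B₁ κ₁) (s₂ : SymLaw B₂ κ₂) (hd : Disjoint S₁ S₂) (hS₁ : S₁ ⊆ S) (hS₂ : S₂ ⊆ S) :
    LawOf S σ (Row160.star κ₁ κ₂) (fun ω => h₁ ω + h₂ ω) (fun ω => L₁ ω * L₂ ω) := by
  have := s₁.1
  have := s₂.1
  refine ⟨(H₁.gh.mono hS₁).add (H₂.gh.mono hS₂), (H₁.gL.mono hS₁).mul (H₂.gL.mono hS₂),
    fun f hf hb => ?_⟩
  obtain ⟨C, hC⟩ := hb
  obtain ⟨C₁, hC₁⟩ := H₁.gL.bdd
  obtain ⟨C₂, hC₂⟩ := H₂.gL.bdd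
  have hσ1 : |σ| = 1 := by rcases hσ with h | h <;> rw [h] <;> norm_num
  have hσsq : σ * σ = 1 := by rcases hσ with h | h <;> rw [h] <;> norm_num
  have h0C : 0 ≤ C := (abs_nonneg _).trans (hC 0)
  have hdiag := integral_diag (S := S₁)
    (H := fun ω ω' => f (h₁ ω + h₂ ω') * (L₁ ω * L₂ ω'))
    (fun ω₁ ω₂ ω' h => by
      show f (h₁ ω₁ + h₂ ω') * (L₁ ω₁ * L₂ ω') = f (h₁ ω₂ + h₂ ω') * (L₁ ω₂ * L₂ ω')
      rw [H₁.gh.dep ω₁ ω₂ h, H₁.gL.dep ω₁ ω₂ h])
    (fun ω ω₁ ω₂ h => by
      show f (h₁ ω + h₂ ω₁) * (L₁ ω * L₂ ω₁) = f (h₁ ω + h₂ ω₂) * (L₁ ω * L₂ ω₂)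
      have h' : ∀ q ∈ S₂, ω₁ q = ω₂ q := fun q hq => h q fun hqS => Set.disjoint_left.1 hd hqS hq
      rw [H₂.gh.dep ω₁ ω₂ h', H₂.gL.dep ω₁ ω₂ h'])
    ((hf.comp ((H₁.gh.meas.comp measurable_fst).add (H₂.gh.meas.comp measurable_snd))).mul
      ((H₁.gL.meas.comp measurable_fst).mul (H₂.gL.meas.comp measurable_snd)))
    ⟨C * (C₁ * C₂), fun ω ω' => by
      rw [abs_mul, abs_mul]
      refine mul_le_mul (hC _) ?_ (by positivity) h0C
      exact mul_le_mul (hC₁ ω) (hC₂ ω') (abs_nonneg _) ((abs_nonneg _).trans (hC₁ ω))⟩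
  rw [hdiag]
  -- inner integral
  have hinner : ∀ ω, ∫ ω', f (h₁ ω + h₂ ω') * (L₁ ω * L₂ ω') ∂(labM V)
      = (∫ y, f (h₁ ω + y) * (1 + σ * Real.tanh y) ∂κ₂) * L₁ ω := by
    intro ω
    have := H₂.law (fun y => f (h₁ ω + y)) (hf.comp (measurable_const_add _))
      ⟨C, fun x => hC _⟩
    rw [← this, ← integral_mul_const]
    congr 1
    funext ω'
    ring
  simp_rw [hinner]
  have hmeas2 : Measurable (fun p : ℝ × ℝ => f (p.1 + p.2) * (1 + σ * Real.tanh p.2)) :=
    (hf.comp (measurable_fst.add measurable_snd)).mul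
      (measurable_const.add (measurable_const.mul (continuous_tanh.measurable.comp measurable_snd)))
  have h1t : ∀ y : ℝ, |1 + σ * Real.tanh y| ≤ 2 := by
    intro y
    calc |1 + σ * Real.tanh y| ≤ |1| + |σ * Real.tanh y| := abs_add_le _ _
      _ ≤ 1 + 1 := by
          rw [abs_one, abs_mul, hσ1, one_mul]
          linarith [(abs_tanh_lt y).le]
      _ = 2 := by norm_num
  have hlaw1 := H₁.law (fun x => ∫ y, f (x + y) * (1 + σ * Real.tanh y) ∂κ₂)
    (hmeas2.stronglyMeasurable.integral_prod_right.measurable)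
    ⟨C * 2, fun x => by
      rw [← Real.norm_eq_abs]
      refine (norm_integral_le_of_norm_le_const (C := C * 2) (Eventually.of_forall fun y => ?_)).trans ?_
      · rw [norm_mul, Real.norm_eq_abs, Real.norm_eq_abs]
        exact mul_le_mul (hC _) (h1t y) (abs_nonneg _) h0C
      · simp⟩
  rw [hlaw1]
  have hst := star_integral s₁ s₂ (f := fun x => f x * (1 + σ * Real.tanh x))
    (hf.mul (measurable_const.add (measurable_const.mul continuous_tanh.measurable)))
    (fun R => ⟨C * 2, fun x _ => by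
      rw [abs_mul]; exact mul_le_mul (hC _) (h1t x) (abs_nonneg _) h0C⟩)
  rw [hst]
  congr 1
  funext x
  rw [← integral_mul_const]
  congr 1
  funext y
  have h5 := tanh_add' x y
  have h6 : (1 + σ * Real.tanh (x + y)) * (1 + Real.tanh x * Real.tanh y)
      = (1 + σ * Real.tanh y) * (1 + σ * Real.tanh x) := by
    calc (1 + σ * Real.tanh (x + y)) * (1 + Real.tanh x * Real.tanh y)
        = 1 + Real.tanh x * Real.tanh y
          + σ * (Real.tanh (x + y) * (1 + Real.tanh x * Real.tanh y)) := by ring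
      _ = 1 + (σ * σ) * (Real.tanh x * Real.tanh y) + σ * (Real.tanh x + Real.tanh y) := by
          rw [h5, hσsq]; ring
      _ = _ := by ring
  calc _ = f (x + y) * ((1 + σ * Real.tanh y) * (1 + σ * Real.tanh x)) := by ring
    _ = f (x + y) * ((1 + σ * Real.tanh (x + y)) * (1 + Real.tanh x * Real.tanh y)) := by rw [h6]
    _ = _ := by ring

theorem LawOf.mono {S T : Set (V × ℕ)} {σ : ℝ} {κ : Measure ℝ} {h L : Lab V → ℝ}
    (H : LawOf S σ κ h L) (hST : S ⊆ T) : LawOf T σ κ h L :=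
  ⟨H.gh.mono hST, H.gL.mono hST, H.law⟩

theorem lawOf_zero (S : Set (V × ℕ)) (σ : ℝ) :
    LawOf S σ (Measure.dirac 0) (fun _ => 0) (fun _ => 1) := by
  refine ⟨gd_const _ _, gd_const _ _, fun f hf hb => ?_⟩
  rw [integral_dirac]
  simp

/-- independent family with the same law. -/
theorem LawOf.starpow {ι : Type*} {S : ι → Set (V × ℕ)} {σ B : ℝ} (hσ : σ = 1 ∨ σ = -1)
    {κ : Measure ℝ} (sκ : SymLaw B κ) {h L : ι → Lab V → ℝ} {T : Finset ι}
    (H : ∀ i ∈ T, LawOf (S i) σ κ (h i) (L i)) (hd : (T : Set ι).PairwiseDisjoint S) :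
    LawOf (⋃ i ∈ T, S i) σ (Row160.starpow κ T.card) (fun ω => ∑ i ∈ T, h i ω)
      (fun ω => ∏ i ∈ T, L i ω) := by
  classical
  induction T using Finset.induction_on with
  | empty => simpa [Row160.starpow] using lawOf_zero _ σ
  | insert a T ha ih =>
    simp_rw [Finset.sum_insert ha, Finset.prod_insert ha]
    rw [Finset.card_insert_of_notMem ha]
    have h1 := ih (fun i hi => H i (Finset.mem_insert_of_mem hi))
      (hd.subset (by simp [Set.subset_insert]))
    have hdis : Disjoint (S a) (⋃ i ∈ T, S i) := by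
      rw [Set.disjoint_iUnion₂_right]
      intro i hi
      exact hd (by simp) (by simp [hi]) (fun h => ha (h ▸ hi))
    exact LawOf.star hσ (H a (Finset.mem_insert_self _ _)) h1 sκ (SymLaw.starpow sκ T.card) hdis
      (Set.subset_biUnion_of_mem (u := S) (Finset.mem_insert_self _ _))
      (Set.biUnion_mono (fun i hi => Finset.mem_insert_of_mem hi) fun i _ => le_refl _)

/-- extension to locally bounded test functions. -/
theorem LawOf.law' {S : Set (V × ℕ)} {σ B : ℝ} {κ : Measure ℝ} {h L : Lab V → ℝ}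
    (H : LawOf S σ κ h L) (sκ : SymLaw B κ) {f : ℝ → ℝ} (hf : Measurable f)
    (hb : ∀ R : ℝ, ∃ C, ∀ x, |x| ≤ R → |f x| ≤ C) :
    ∫ ω, f (h ω) * L ω ∂(labM V) = ∫ x, f x * (1 + σ * Real.tanh x) ∂κ := by
  obtain ⟨B', hB'⟩ := H.gh.bdd
  obtain ⟨R, hR⟩ : ∃ R, R = max B B' := ⟨_, rfl⟩
  obtain ⟨C, hC⟩ := hb R
  have hms : MeasurableSet (Set.Icc (-R) R) := measurableSet_Icc
  have h1 := H.law ((Set.Icc (-R) R).indicator f) (hf.indicator hms) ⟨max C 0, fun x => by
    by_cases hx : x ∈ Set.Icc (-R) R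
    · rw [Set.indicator_of_mem hx]
      exact (hC x (abs_le.2 hx)).trans (le_max_left _ _)
    · rw [Set.indicator_of_notMem hx, abs_zero]
      exact le_max_right _ _⟩
  have e1 : ∀ ω, (Set.Icc (-R) R).indicator f (h ω) = f (h ω) := fun ω => by
    rw [Set.indicator_of_mem]
    exact abs_le.1 ((hB' ω).trans (hR ▸ le_max_right _ _))
  simp_rw [e1] at h1
  rw [h1]
  apply integral_congr_ae
  have h3 : ∀ᵐ x ∂κ, x ∈ Set.Icc (-B) B := by
    rw [ae_iff]
    exact sκ.2.2
  filter_upwards [h3] with x hx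
  rw [Set.indicator_of_mem]
  have : B ≤ R := hR ▸ le_max_left _ _
  exact ⟨by linarith [hx.1], by linarith [hx.2]⟩

/-- symmetric laws integrate `tanh` to zero. -/
theorem SymLaw.integral_tanh {B : ℝ} {κ : Measure ℝ} (h : SymLaw B κ) :
    ∫ x, Real.tanh x ∂κ = 0 := by
  have h1 : ∫ x, Real.tanh x ∂κ = ∫ x, Real.tanh (-x) ∂κ := by
    conv_lhs => rw [← h.2.1]
    rw [integral_map measurable_neg.aemeasurable continuous_tanh.aestronglyMeasurable]
  simp_rw [Real.tanh_neg, integral_neg] at h1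
  linarith

theorem SymLaw.integrable_tanh {B : ℝ} {κ : Measure ℝ} (h : SymLaw B κ) :
    Integrable Real.tanh κ := by
  have := h.1
  exact Integrable.of_bound continuous_tanh.aestronglyMeasurable 1
    (Eventually.of_forall fun x => by rw [Real.norm_eq_abs]; exact (abs_tanh_lt x).le)

theorem LawOf.mass {S : Set (V × ℕ)} {σ B : ℝ} {κ : Measure ℝ} {h L : Lab V → ℝ}
    (H : LawOf S σ κ h L) (sκ : SymLaw B κ) : ∫ ω, L ω ∂(labM V) = 1 := by
  have := sκ.1
  have h1 := H.law (fun _ => 1) measurable_const ⟨1, fun x => by norm_num⟩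
  simp only [one_mul] at h1
  rw [h1, integral_add (integrable_const _) ((SymLaw.integrable_tanh sκ).const_mul σ),
    integral_const_mul, SymLaw.integral_tanh sκ]
  simp

/-- mixture over the spin of the child and message map. -/
theorem LawOf.mix {S : Set (V × ℕ)} {σ B θ : ℝ} (h0 : 0 ≤ θ) (h1 : θ < 1) {κ : Measure ℝ}
    {h L L' : Lab V → ℝ} (H : LawOf S 1 κ h L) (H' : LawOf S (-1) κ h L') (sκ : SymLaw B κ) :
    LawOf S σ (κ.map (psi θ)) (fun ω => psi θ (h ω))
      (fun ω => ((1 + θ * σ) / 2) * L ω + ((1 - θ * σ) / 2) * L' ω) := by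
  have := sκ.1
  have hpsi : Measurable (psi θ) := measurable_psi θ
  refine ⟨H.gh.comp hpsi fun R => ⟨Real.artanh θ, fun x _ => abs_psi_le_artanh h0 h1 x⟩,
    (H.gL.const_mul _).add (H'.gL.const_mul _), fun f hf hb => ?_⟩
  obtain ⟨C, hC⟩ := hb
  have e1 := H.law (fun x => f (psi θ x)) (hf.comp hpsi) ⟨C, fun x => hC _⟩
  have e2 := H'.law (fun x => f (psi θ x)) (hf.comp hpsi) ⟨C, fun x => hC _⟩
  have hfpsi : Measurable (fun x => f (psi θ x)) := hf.comp hpsi
  have gf : Gd S (fun ω => f (psi θ (h ω))) := H.gh.comp hfpsi fun R => ⟨C, fun x _ => hC _⟩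
  rw [integral_map hpsi.aemeasurable]
  · have e3 : ∀ ω, f (psi θ (h ω)) * (((1 + θ * σ) / 2) * L ω + ((1 - θ * σ) / 2) * L' ω)
        = ((1 + θ * σ) / 2) * (f (psi θ (h ω)) * L ω)
          + ((1 - θ * σ) / 2) * (f (psi θ (h ω)) * L' ω) := fun ω => by ring
    simp_rw [e3]
    rw [integral_add ((gf.mul H.gL).integrable.const_mul _)
      ((gf.mul H'.gL).integrable.const_mul _), integral_const_mul, integral_const_mul, e1, e2,
      ← integral_const_mul, ← integral_const_mul, ← integral_add]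
    · congr 1
      funext x
      rw [tanh_psi h0 h1]
      ring
    · refine Integrable.const_mul (Integrable.of_bound (C := C * 2) ?_
        (Eventually.of_forall fun x => ?_)) _
      · exact (hfpsi.mul (measurable_const.add
          (measurable_const.mul continuous_tanh.measurable))).aestronglyMeasurable
      · rw [norm_mul, Real.norm_eq_abs, Real.norm_eq_abs]
        refine mul_le_mul (hC _) ?_ (abs_nonneg _) ((abs_nonneg _).trans (hC 0))
        have := abs_lt.1 (abs_tanh_lt x)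
        rw [abs_le]; constructor <;> linarith
    · refine Integrable.const_mul (Integrable.of_bound (C := C * 2) ?_
        (Eventually.of_forall fun x => ?_)) _
      · exact (hfpsi.mul (measurable_const.add
          (measurable_const.mul continuous_tanh.measurable))).aestronglyMeasurable
      · rw [norm_mul, Real.norm_eq_abs, Real.norm_eq_abs]
        refine mul_le_mul (hC _) ?_ (abs_nonneg _) ((abs_nonneg _).trans (hC 0))
        have := abs_lt.1 (abs_tanh_lt x)
        rw [abs_le]; constructor <;> linarith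
  · exact (hf.mul (measurable_const.add
      (measurable_const.mul continuous_tanh.measurable))).aestronglyMeasurable

/-! ### the own observations -/

theorem abs_zt_le' (z : unitInterval) : |zt z| ≤ 1 := by
  unfold zt
  have h1 := z.2.1
  have h2 := z.2.2
  rw [abs_le]; constructor <;> linarith

theorem abs_Tf_le (l : L1) : |Tf l| ≤ (l.1 : ℝ) := by
  unfold Tf
  rw [abs_mul, abs_of_nonneg l.1.2.1]
  calc (l.1 : ℝ) * |zt l.2| ≤ (l.1 : ℝ) * 1 :=
        mul_le_mul_of_nonneg_left (abs_zt_le' _) l.1.2.1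
    _ = _ := mul_one _

theorem abs_Tf_le_one (l : L1) : |Tf l| ≤ 1 := (abs_Tf_le l).trans l.1.2.2

theorem measurable_zt : Measurable zt := by
  unfold zt
  exact (measurable_const.mul measurable_subtype_coe).sub measurable_const

theorem measurable_Tf : Measurable Tf := by
  unfold Tf
  exact (measurable_subtype_coe.comp measurable_fst).mul (measurable_zt.comp measurable_snd)

theorem measurable_artanh : Measurable Real.artanh := by
  have : Real.artanh = fun x => Real.log (√((1 + x) / (1 - x))) := by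
    funext x; rfl
  rw [this]
  fun_prop

/-- the field brought by one label. -/
noncomputable def fq (t : ℝ) (l : L1) : ℝ := if (l.1 : ℝ) < t then Real.artanh (Tf l) else 0

/-- the likelihood of one label. -/
noncomputable def lq (t σ : ℝ) (l : L1) : ℝ := if (l.1 : ℝ) < t then 1 + σ * Tf l else 1

theorem measurable_fq (t : ℝ) : Measurable (fq t) := by
  unfold fq
  exact Measurable.ite (measurableSet_lt (measurable_subtype_coe.comp measurable_fst)
    measurable_const) (measurable_artanh.comp measurable_Tf) measurable_const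

theorem measurable_lq (t σ : ℝ) : Measurable (lq t σ) := by
  unfold lq
  exact Measurable.ite (measurableSet_lt (measurable_subtype_coe.comp measurable_fst)
    measurable_const) (measurable_const.add (measurable_const.mul measurable_Tf)) measurable_const

theorem abs_fq_le {t : ℝ} (ht : t ≤ 1 / 2) (l : L1) : |fq t l| ≤ Real.artanh (1 / 2) := by
  unfold fq
  split_ifs with h
  · have h1 : |Tf l| ≤ 1 / 2 := (abs_Tf_le l).trans (h.le.trans ht)
    have h2 := abs_le.1 h1
    rw [abs_le]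
    constructor
    · have h3 : -Real.artanh (1 / 2) = Real.artanh (-(1 / 2)) := by
        have := Real.artanh_tanh (-(Real.artanh (1 / 2)))
        rw [Real.tanh_neg, Real.tanh_artanh (by constructor <;> norm_num)] at this
        exact this.symm
      rw [h3]
      exact Real.artanh_le_artanh (by norm_num) (by linarith) h2.1
    · exact Real.artanh_le_artanh (by linarith) (by norm_num) h2.2
  · rw [abs_zero]
    exact Real.artanh_nonneg (by norm_num)

theorem lq_eq {t : ℝ} (ht : t ≤ 1 / 2) (σ : ℝ) (l : L1) : lq t σ l = 1 + σ * Real.tanh (fq t l) := by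
  unfold lq fq
  split_ifs with h
  · have h1 : |Tf l| ≤ 1 / 2 := (abs_Tf_le l).trans (h.le.trans ht)
    have h2 := abs_le.1 h1
    rw [Real.tanh_artanh ⟨by linarith, by linarith⟩]
  · rw [Real.tanh_zero, mul_zero, add_zero]

theorem abs_lq_le (t : ℝ) {σ : ℝ} (hσ : |σ| ≤ 1) (l : L1) : |lq t σ l| ≤ 2 := by
  unfold lq
  split_ifs
  · calc |1 + σ * Tf l| ≤ |1| + |σ * Tf l| := abs_add_le _ _
      _ ≤ 1 + 1 * 1 := by
          rw [abs_one, abs_mul]
          gcongr
          exact abs_Tf_le_one l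
      _ = 2 := by norm_num
  · norm_num

theorem lq_nonneg (t : ℝ) {σ : ℝ} (hσ : |σ| ≤ 1) (l : L1) : 0 ≤ lq t σ l := by
  unfold lq
  split_ifs
  · have : |σ * Tf l| ≤ 1 := by
      rw [abs_mul]
      exact mul_le_one₀ hσ (abs_nonneg _) (abs_Tf_le_one l)
    linarith [(abs_le.1 this).1]
  · norm_num

theorem map_eval (q : V × ℕ) : (labM V).map (fun ω : Lab V => ω q) = volume :=
  (measurePreserving_eval_infinitePi (fun _ : V × ℕ => (volume : Measure L1)) q).map_eq

theorem lawOf_coord (q : V × ℕ) {t σ : ℝ} (hσ : |σ| ≤ 1) (ht : t ≤ 1 / 2) :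
    LawOf {q} σ (nu t) (fun ω => fq t (ω q)) (fun ω => lq t σ (ω q)) := by
  have hq : Measurable (fun ω : Lab V => ω q) := measurable_pi_apply q
  refine ⟨⟨(measurable_fq t).comp hq, fun ω ω' h => ?_, _, fun ω => abs_fq_le ht _⟩,
    ⟨(measurable_lq t σ).comp hq, fun ω ω' h => ?_, 2, fun ω => abs_lq_le t hσ _⟩,
    fun f hf hb => ?_⟩
  · show fq t (ω q) = fq t (ω' q)
    rw [h q rfl]
  · show lq t σ (ω q) = lq t σ (ω' q)
    rw [h q rfl]
  · have e1 : nu t = (volume : Measure L1).map (fq t) := rfl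
    rw [e1, integral_map (measurable_fq t).aemeasurable]
    · have e2 : ∀ l : L1, f (fq t l) * (1 + σ * Real.tanh (fq t l)) = f (fq t l) * lq t σ l :=
        fun l => by rw [lq_eq ht]
      simp_rw [e2]
      have hm : Measurable (fun l : L1 => f (fq t l) * lq t σ l) :=
        (hf.comp (measurable_fq t)).mul (measurable_lq t σ)
      rw [← map_eval q, integral_map hq.aemeasurable hm.aestronglyMeasurable]
    · exact (hf.mul (measurable_const.add
        (measurable_const.mul continuous_tanh.measurable))).aestronglyMeasurable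

/-- coordinates of the vertices in `W`, rounds `≤ k`. -/
def cd (k : ℕ) (W : Set V) : Set (V × ℕ) := {q | q.1 ∈ W ∧ q.2 ≤ k}

theorem cd_mono (k : ℕ) {W W' : Set V} (h : W ⊆ W') : cd k W ⊆ cd k W' :=
  fun _ hq => ⟨h hq.1, hq.2⟩

theorem cd_disjoint (k : ℕ) {W W' : Set V} (h : Disjoint W W') : Disjoint (cd k W) (cd k W') := by
  rw [Set.disjoint_left] at h ⊢
  exact fun q hq hq' => h hq.1 hq'.1

theorem lawOf_own (k : ℕ) {s σ : ℝ} (hσ : σ = 1 ∨ σ = -1) (hs : 0 ≤ s) (hs' : s ≤ 1 / 2) (v : V) :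
    LawOf (cd k {v}) σ (own k s) (fun ω => free k s ω v) (fun ω => lik k s ω v σ) := by
  have hσ1 : |σ| ≤ 1 := by rcases hσ with h | h <;> rw [h] <;> norm_num
  have h1 : LawOf (⋃ j ∈ Finset.range k, {(v, j)}) σ (Row160.starpow (nu (1 / 2)) k)
      (fun ω : Lab V => ∑ j ∈ Finset.range k, fq (1 / 2) (ω (v, j)))
      (fun ω => ∏ j ∈ Finset.range k, lq (1 / 2) σ (ω (v, j))) := by
    have := LawOf.starpow (S := fun j : ℕ => ({(v, j)} : Set (V × ℕ))) hσ
      (symLaw_nu (s := 1 / 2) (by norm_num) (le_refl _))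
      (h := fun j ω => fq (1 / 2) (ω (v, j))) (L := fun j ω => lq (1 / 2) σ (ω (v, j)))
      (T := Finset.range k) (fun j _ => lawOf_coord (v, j) hσ1 (le_refl _))
      (fun i _ j _ hij => by
        simp only [Function.onFun, Set.disjoint_singleton, ne_eq, Prod.mk.injEq, true_and]
        exact hij)
    rwa [Finset.card_range] at this
  have h2 := lawOf_coord (V := V) (v, k) hσ1 hs'
  exact LawOf.star hσ h1 h2 (SymLaw.starpow (symLaw_nu (s := 1 / 2) (by norm_num) (le_refl _)) k)
    (symLaw_nu hs hs')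
    (by
      rw [Set.disjoint_singleton_right]
      simp only [Finset.mem_range, Set.mem_iUnion, Set.mem_singleton_iff, Prod.mk.injEq, true_and,
        exists_prop, not_exists, not_and]
      intro j hj h
      omega)
    (by
      intro q hq
      simp only [Finset.mem_range, Set.mem_iUnion, Set.mem_singleton_iff, exists_prop] at hq
      obtain ⟨j, hj, rfl⟩ := hq
      exact ⟨rfl, hj.le⟩)
    (by
      intro q hq
      rw [Set.mem_singleton_iff] at hq
      rw [hq]
      exact ⟨rfl, le_refl _⟩)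

end Br

end Crest.Agent.Lib.Row160
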