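import Crest.Agent.Lib.Row160.TreeAut

/-!
M6a: tree metric basics.
-/

set_option autoImplicit false

namespace Crest.Agent.Lib.Row160

open SimpleGraph

section tree
variable {V : Type*} {G : SimpleGraph V}

theorem dist_adj_cases (hT : G.IsTree) {p q : V} (h : G.Adj p q) (w : V) :
    G.dist p w = G.dist q w + 1 ∨ G.dist q w = G.dist p w + 1 := by
  rw [dist_comm (u := p), dist_comm (u := q)]
  exact dist_succ_of_adj hT w h

/-- the only edge between the two sides of the edge `pq` is `pq` itself. -/
theorem edge_between_sides (hT : G.IsTree) {p q u v : V} (h : G.Adj p q) (huv : G.Adj u v)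
    (hu : G.dist q u = G.dist p u + 1) (hv : G.dist p v = G.dist q v + 1) : u = p ∧ v = q := by
  have h1 := hT.connected.dist_triangle (u := p) (v := u) (w := v)
  have h2 := hT.connected.dist_triangle (u := q) (v := v) (w := u)
  have h3 : G.dist u v = 1 := dist_eq_one_iff_adj.2 huv
  have h4 : G.dist v u = 1 := dist_eq_one_iff_adj.2 huv.symm
  have h5 : G.dist p u = G.dist q v := by omega
  rcases eq_or_ne v q with hvq | hvq
  · subst hvq
    have : G.dist p u = 0 := by rw [h5]; exact dist_self
    exact ⟨((hT.connected.dist_eq_zero_iff).1 this).symm, rfl⟩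
  · exfalso
    obtain ⟨w, hw, hwd⟩ := exists_parent hT q hvq
    have h6 := hT.connected.dist_triangle (u := p) (v := q) (w := w)
    have h7 := hT.connected.dist_triangle (u := p) (v := w) (w := v)
    have h8 : G.dist p q = 1 := dist_eq_one_iff_adj.2 h
    have h9 : G.dist w v = 1 := dist_eq_one_iff_adj.2 hw
    have h10 : w = u := parent_unique hT p hw huv (by omega) (by omega)
    subst h10
    omega

/-- a vertex `y ≠ z` has exactly one neighbour closer to `z`. -/
theorem existsUnique_parent (hT : G.IsTree) {z y : V} (h : y ≠ z) :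
    ∃! w, G.Adj y w ∧ G.dist z y = G.dist z w + 1 := by
  obtain ⟨u, hu, hd⟩ := exists_parent hT z h
  refine ⟨u, ⟨hu.symm, hd⟩, ?_⟩
  rintro w ⟨hw, hwd⟩
  exact parent_unique hT z hw.symm hu hwd hd

/-- if `y` is a neighbour of `z`, its other neighbours are at distance 2 of `z`, etc. -/
theorem dist_child (hT : G.IsTree) {z y c w : V} (hc : G.Adj y c) (hne : c ≠ w)
    (hw : G.Adj y w) (hzw : G.dist z y = G.dist z w + 1) : G.dist z c = G.dist z y + 1 := by
  rcases dist_succ_of_adj hT z hc with h | h
  · exact absurd (parent_unique hT z hc.symm hw.symm h hzw) hne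
  · exact h

theorem IsGeo.mono {k l : ℕ} {p : ℕ → V} (hp : IsGeo G k p) (h : l ≤ k) : IsGeo G l p :=
  ⟨fun i hi => hp.1 i (by omega), fun i hi => hp.2 i (by omega)⟩

theorem IsGeo.reverse {k : ℕ} {p : ℕ → V} (hp : IsGeo G k p) :
    IsGeo G k (fun i => p (k - i)) := by
  refine ⟨fun i hi => ?_, fun i hi h => ?_⟩
  · have h1 := (hp.1 (k - (i + 1)) (by omega)).symm
    have h2 : k - (i + 1) + 1 = k - i := by omega
    rw [h2] at h1
    exact h1
  · have h1 := hp.2 (k - (i + 2)) (by omega)
    have h2 : k - (i + 2) + 2 = k - i := by omega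
    rw [h2] at h1
    exact h1 h.symm

theorem IsGeo.dist_eq (hT : G.IsTree) {k : ℕ} {p : ℕ → V} (hp : IsGeo G k p) {i j : ℕ}
    (hij : i ≤ j) (hj : j ≤ k) : G.dist (p i) (p j) = j - i := by
  have hq : IsGeo G (k - i) (fun t => p (i + t)) := by
    refine ⟨fun t ht => ?_, fun t ht => ?_⟩
    · exact hp.1 (i + t) (by omega)
    · exact hp.2 (i + t) (by omega)
  have h1 := hq.dist_zero hT (j - i) (by omega)
  simp only [add_zero] at h1
  rwa [Nat.add_sub_cancel' hij] at h1

/-- every vertex at distance `k` is the endpoint of a geodesic, unique up to index `k`. -/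
theorem exists_isGeo (hT : G.IsTree) (u v : V) :
    ∃ p : ℕ → V, IsGeo G (G.dist u v) p ∧ p 0 = u ∧ p (G.dist u v) = v := by
  obtain ⟨p, hp0, hpn, hadj, hdist⟩ := exists_geodesic hT u v
  refine ⟨p, ⟨hadj, fun i hi h => ?_⟩, hp0, hpn⟩
  have h1 := hdist i (by omega)
  have h2 := hdist (i + 2) hi
  rw [← h, h1] at h2
  omega

theorem IsGeo.unique (hT : G.IsTree) {k : ℕ} {p p' : ℕ → V} (hp : IsGeo G k p)
    (hp' : IsGeo G k p') (h0 : p 0 = p' 0) (hk : p k = p' k) {i : ℕ} (hi : i ≤ k) :
    p i = p' i := by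
  suffices h : ∀ j ≤ k, p (k - j) = p' (k - j) by
    have := h (k - i) (by omega)
    rwa [Nat.sub_sub_self hi] at this
  intro j
  induction j with
  | zero => intro _; simpa using hk
  | succ j ih =>
    intro hj
    have ih' := ih (by omega)
    have e : k - j = k - (j + 1) + 1 := by omega
    have a1 := hp.1 (k - (j + 1)) (by omega)
    have a2 := hp'.1 (k - (j + 1)) (by omega)
    rw [e] at ih'
    rw [← ih'] at a2
    have d1 := hp.dist_zero hT (k - (j + 1)) (by omega)
    have d2 := hp.dist_zero hT (k - (j + 1) + 1) (by omega)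
    have d3 := hp'.dist_zero hT (k - (j + 1)) (by omega)
    rw [← h0] at d3
    exact parent_unique hT (p 0) a1 a2 (by omega) (by omega)

/-- betweenness. -/
theorem IsGeo.mem_of_between (hT : G.IsTree) {k : ℕ} {p : ℕ → V} (hp : IsGeo G k p) {w : V}
    (h : G.dist (p 0) w + G.dist w (p k) = k) : p (G.dist (p 0) w) = w := by
  induction hb : G.dist w (p k) generalizing w with
  | zero =>
    have h1 : w = p k := (hT.connected.dist_eq_zero_iff).1 hb
    subst h1
    rw [hp.dist_zero hT k le_rfl]
  | succ b ih =>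
    have hne : w ≠ p k := by
      rintro rfl
      rw [dist_self] at hb
      omega
    obtain ⟨u, hu, hud⟩ := exists_parent hT (p k) hne
    rw [dist_comm (u := p k) (v := w), dist_comm (u := p k) (v := u)] at hud
    have t1 := hT.connected.dist_triangle (u := p 0) (v := u) (w := p k)
    rw [hp.dist_zero hT k le_rfl] at t1
    have t2 := hT.connected.dist_triangle (u := p 0) (v := w) (w := u)
    have t3 : G.dist w u = 1 := dist_eq_one_iff_adj.2 hu.symm
    have e1 : G.dist (p 0) u = G.dist (p 0) w + 1 := by omega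
    have h1 := ih (w := u) (by omega) (by omega)
    rw [e1] at h1
    have a1 := hp.1 (G.dist (p 0) w) (by omega)
    rw [h1] at a1
    have d1 := hp.dist_zero hT (G.dist (p 0) w) (by omega)
    exact parent_unique hT (p 0) a1 hu.symm (by omega) (by omega)

variable [G.LocallyFinite]

theorem finite_ball (hT : G.IsTree) (v : V) (n : ℕ) :
    {w | G.dist v w ≤ n}.Finite := by
  have h : {w | G.dist v w ≤ n} = ⋃ k ∈ Set.Iic n, {w | G.dist v w = k} := by
    ext w
    simp
  rw [h]
  exact (Set.finite_Iic n).biUnion (fun k _ => finite_sphere hT v k)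

theorem mem_ball (hT : G.IsTree) {v w : V} {n : ℕ} :
    w ∈ ball G v n ↔ G.dist v w ≤ n := by
  unfold ball
  rw [dif_pos (finite_ball hT v n)]
  simp

theorem mem_Tn (hT : G.IsTree) {n : ℕ} {z y w : V} :
    w ∈ Tn G n z y ↔ G.dist y w ≤ n ∧ G.dist z w = G.dist y w + 1 := by
  unfold Tn
  rw [Finset.mem_filter, mem_ball hT]

open Classical in
/-- recursive structure of rooted subtrees: `T_{n+1}(y)` is `y` plus the disjoint union of the
`T_n(c)`, `c` child of `y`. -/
theorem Tn_succ (hT : G.IsTree) (n : ℕ) {z y : V} (h : G.Adj z y) :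
    Tn G (n + 1) z y = insert y (((G.neighborFinset y).erase z).biUnion (fun c => Tn G n y c)) := by
  ext w
  rw [mem_Tn hT, Finset.mem_insert, Finset.mem_biUnion]
  simp only [Finset.mem_erase, mem_neighborFinset, mem_Tn hT]
  constructor
  · rintro ⟨h1, h2⟩
    rcases eq_or_ne y w with hyw | hyw
    · exact Or.inl hyw.symm
    · right
      obtain ⟨c, hc, hcd⟩ := exists_parent hT w hyw
      rw [dist_comm (u := w) (v := y), dist_comm (u := w) (v := c)] at hcd
      refine ⟨c, ⟨?_, hc.symm⟩, by omega, hcd⟩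
      rintro rfl
      omega
  · rintro (rfl | ⟨c, ⟨hcz, hyc⟩, h1, h2⟩)
    · rw [dist_self, dist_eq_one_iff_adj.2 h]
      exact ⟨by omega, rfl⟩
    · refine ⟨by omega, ?_⟩
      have := dist_child hT (z := w) h.symm (Ne.symm hcz) hyc
        (by rw [dist_comm (u := w) (v := y), dist_comm (u := w) (v := c)]; exact h2)
      rw [dist_comm (u := z), dist_comm (u := y)]
      exact this

theorem Tn_zero (hT : G.IsTree) {z y : V} (h : G.Adj z y) :
    Tn G 0 z y = {y} := by
  ext w
  rw [mem_Tn hT, Finset.mem_singleton]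
  constructor
  · rintro ⟨h1, -⟩
    exact ((hT.connected.dist_eq_zero_iff).1 (Nat.le_zero.1 h1)).symm
  · rintro rfl
    rw [dist_self, dist_eq_one_iff_adj.2 h]
    exact ⟨le_rfl, rfl⟩

theorem Tn_pairwiseDisjoint (hT : G.IsTree) (n : ℕ) (y : V) :
    (↑(G.neighborFinset y) : Set V).PairwiseDisjoint (fun c => Tn G n y c) := by
  intro c hc c' hc' hne
  simp only [Function.onFun]
  rw [Finset.disjoint_left]
  intro w hw hw'
  rw [mem_Tn hT] at hw hw'
  rw [SetLike.mem_coe, mem_neighborFinset] at hc hc'
  refine hne (parent_unique hT w hc.symm hc'.symm ?_ ?_)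
  · rw [dist_comm (u := w), dist_comm (u := w)]; exact hw.2
  · rw [dist_comm (u := w), dist_comm (u := w)]; exact hw'.2

theorem Tn_root_notMem (hT : G.IsTree) (n : ℕ) {y c : V} (_h : G.Adj y c) :
    y ∉ Tn G n y c := by
  rw [mem_Tn hT, dist_self]
  rintro ⟨-, h⟩
  omega

omit [G.LocallyFinite] in
/-- balls are convex. -/
theorem dist_le_max_of_between (hT : G.IsTree) {a b w : V}
    (hw : G.dist a w + G.dist w b = G.dist a b) (v : V) :
    G.dist v w ≤ max (G.dist v a) (G.dist v b) := by
  obtain ⟨p, hp, hp0, hpk⟩ := exists_isGeo hT a b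
  have h1 : p (G.dist a w) = w := by
    have := hp.mem_of_between hT (w := w) (by rw [hp0, hpk]; exact hw)
    rwa [hp0] at this
  obtain ⟨i, hi, h2, h3⟩ := hp.exists_turn hT v
  rw [hp0] at h2
  rcases le_total (G.dist a w) i with h4 | h4
  · have := h2 _ h4
    rw [h1] at this
    omega
  · have e1 := h3 _ h4 (by omega)
    have e2 := h3 (G.dist a b) hi le_rfl
    rw [h1] at e1
    rw [hpk] at e2
    omega

theorem conv_ball (hT : G.IsTree) (v : V) (n : ℕ) : Conv G (ball G v n) := by
  intro a ha b hb w hw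
  rw [mem_ball hT] at *
  have := dist_le_max_of_between hT hw v
  omega

theorem conv_Tn (hT : G.IsTree) (n : ℕ) {z y : V} (h : G.Adj z y) :
    Conv G (Tn G n z y) := by
  intro a ha b hb w hw
  rw [mem_Tn hT] at *
  have h1 := dist_le_max_of_between hT hw y
  refine ⟨by omega, ?_⟩
  -- otherwise `w` is on the other side
  rcases dist_adj_cases hT h w with h2 | h2
  · exact h2
  · exfalso
    obtain ⟨p, hp, hp0, hpk⟩ := exists_isGeo hT a b
    have h3 : p (G.dist a w) = w := by
      have := hp.mem_of_between hT (w := w) (by rw [hp0, hpk]; exact hw)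
      rwa [hp0] at this
    obtain ⟨i, hi, h4, h5⟩ := hp.exists_turn hT y
    obtain ⟨j, hj, h6, h7⟩ := hp.exists_turn hT z
    rw [hp0] at h4 h6
    have e1 := h4 i le_rfl
    have e2 := h5 _ hi le_rfl
    have e3 := h6 j le_rfl
    have e4 := h7 _ hj le_rfl
    rw [hpk] at e2 e4
    -- `d(y,·)` and `d(z,·)` agree up to `1` at both ends so the turning points agree
    have hij : i = j := by omega
    subst hij
    rcases le_total (G.dist a w) i with h8 | h8
    · have f1 := h4 _ h8
      have f2 := h6 _ h8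
      rw [h3] at f1 f2
      omega
    · have f1 := h5 _ h8 (by omega)
      have f2 := h7 _ h8 (by omega)
      rw [h3] at f1 f2
      omega

theorem ball_map (hT : G.IsTree) (g : G ≃g G) (v : V) (n : ℕ) :
    (ball G v n).map g.toEquiv.toEmbedding = ball G (g v) n := by
  ext w
  rw [Finset.mem_map_equiv, mem_ball hT, mem_ball hT]
  have h1 := iso_dist hT.connected g v (g.symm w)
  rw [g.apply_symm_apply] at h1
  have h2 : g.toEquiv.symm w = g.symm w := rfl
  rw [h1, h2]

end tree

end Crest.Agent.Lib.Row160
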