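import Crest.Agent.Lib.Row160.BridgeB
import Crest.Agent.Lib.Row160.TreeMetric

/-!
Row 160, chunk M9, part C: splitting of the hidden density along the tree.
-/

set_option autoImplicit false

open MeasureTheory Filter Topology

namespace Crest.Agent.Lib.Row160

namespace Br

variable {V : Type*} {G : SimpleGraph V}

/-! ### splitting windows along one edge -/

open Classical in
theorem sum_powerset_union {W₁ W₂ : Finset V} (hd : Disjoint W₁ W₂) (F : Finset V → ℝ) :
    ∑ A ∈ (W₁ ∪ W₂).powerset, F A = ∑ A₁ ∈ W₁.powerset, ∑ A₂ ∈ W₂.powerset, F (A₁ ∪ A₂) := by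
  rw [← Finset.sum_product']
  symm
  refine Finset.sum_bij' (fun p _ => p.1 ∪ p.2) (fun A _ => (A ∩ W₁, A ∩ W₂)) ?_ ?_ ?_ ?_ ?_
  · rintro ⟨A₁, A₂⟩ h
    rw [Finset.mem_product, Finset.mem_powerset, Finset.mem_powerset] at h
    exact Finset.mem_powerset.2 (Finset.union_subset_union h.1 h.2)
  · intro A _
    rw [Finset.mem_product, Finset.mem_powerset, Finset.mem_powerset]
    exact ⟨Finset.inter_subset_right, Finset.inter_subset_right⟩
  · rintro ⟨A₁, A₂⟩ h
    rw [Finset.mem_product, Finset.mem_powerset, Finset.mem_powerset] at h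
    rw [Finset.disjoint_left] at hd
    ext v
    · simp only [Finset.mem_inter, Finset.mem_union]
      constructor
      · rintro ⟨h1 | h1, h2⟩
        · exact h1
        · exact absurd (h.2 h1) (hd h2)
      · exact fun h1 => ⟨Or.inl h1, h.1 h1⟩
    · simp only [Finset.mem_inter, Finset.mem_union]
      constructor
      · rintro ⟨h1 | h1, h2⟩
        · exact absurd h2 (hd (h.1 h1))
        · exact h1
      · exact fun h1 => ⟨Or.inr h1, h.2 h1⟩
  · intro A hA
    rw [Finset.mem_powerset] at hA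
    ext v
    simp only [Finset.mem_inter, Finset.mem_union]
    constructor
    · rintro (h | h) <;> exact h.1
    · intro h
      rcases Finset.mem_union.1 (hA h) with h1 | h1
      · exact Or.inl ⟨h, h1⟩
      · exact Or.inr ⟨h, h1⟩
  · intro p _
    rfl

open Classical in
/-- the edge factor. -/
noncomputable def ef (θ : ℝ) (A : Finset V) (e : Sym2 V) : ℝ :=
  if (Sym2.map (fun v => decide (v ∈ A)) e).IsDiag then 1 + θ else 1 - θ

open Classical in
theorem ef_mk (θ : ℝ) (A : Finset V) (u v : V) : ef θ A s(u, v) = 1 + θ * (sp A u * sp A v) := by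
  unfold ef sp
  rw [Sym2.map_mk]
  simp only [Sym2.mk_isDiag_iff]
  by_cases hu : u ∈ A <;> by_cases hv : v ∈ A <;> simp [hu, hv] <;> ring

open Classical in
theorem ef_congr (θ : ℝ) {A B : Finset V} {e : Sym2 V} (h : ∀ v ∈ e, (v ∈ A ↔ v ∈ B)) :
    ef θ A e = ef θ B e := by
  induction e using Sym2.ind with
  | _ u v =>
    rw [ef_mk, ef_mk]
    have hu := h u (Sym2.mem_mk_left u v)
    have hv := h v (Sym2.mem_mk_right u v)
    unfold sp
    simp only [hu, hv]

open Classical in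
theorem wt_zero (θ : ℝ) (W A : Finset V) : wt G θ W (fun _ => 0) A =
    (∏ e ∈ W.sym2 with e ∈ G.edgeSet, ef θ A e) * ∏ _v ∈ W, (1 / 2 : ℝ) := by
  unfold wt ef
  simp only [zero_mul, Real.exp_zero]

theorem sp_union_left {A₁ A₂ W₂ : Finset V} [DecidableEq V] (h2 : A₂ ⊆ W₂) {v : V} (hv : v ∉ W₂) :
    sp (A₁ ∪ A₂) v = sp A₁ v := by
  unfold sp
  have : v ∈ A₁ ∪ A₂ ↔ v ∈ A₁ := by
    rw [Finset.mem_union]
    exact or_iff_left fun h => hv (h2 h)
  by_cases h : v ∈ A₁
  · rw [if_pos (this.2 h), if_pos h]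
  · rw [if_neg (fun h' => h (this.1 h')), if_neg h]

theorem sp_union_right {A₁ A₂ W₁ : Finset V} [DecidableEq V] (h1 : A₁ ⊆ W₁) {v : V} (hv : v ∉ W₁) :
    sp (A₁ ∪ A₂) v = sp A₂ v := by
  unfold sp
  have : v ∈ A₁ ∪ A₂ ↔ v ∈ A₂ := by
    rw [Finset.mem_union]
    exact or_iff_right fun h => hv (h1 h)
  by_cases h : v ∈ A₂
  · rw [if_pos (this.2 h), if_pos h]
  · rw [if_neg (fun h' => h (this.1 h')), if_neg h]

open Classical in
theorem wt_union {W₁ W₂ : Finset V} (hd : Disjoint W₁ W₂) {p q : V} (hp : p ∈ W₁) (hq : q ∈ W₂)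
    (hpq : G.Adj p q) (hE : ∀ u ∈ W₁, ∀ v ∈ W₂, G.Adj u v → u = p ∧ v = q) (θ : ℝ)
    {A₁ A₂ : Finset V} (h1 : A₁ ⊆ W₁) (h2 : A₂ ⊆ W₂) :
    wt G θ (W₁ ∪ W₂) (fun _ => 0) (A₁ ∪ A₂) =
      wt G θ W₁ (fun _ => 0) A₁ * wt G θ W₂ (fun _ => 0) A₂ * (1 + θ * (sp A₁ p * sp A₂ q)) := by
  rw [wt_zero, wt_zero, wt_zero, Finset.prod_union hd]
  have hd' := Finset.disjoint_left.1 hd
  have hE1 : (W₁ ∪ W₂).sym2.filter (fun e => e ∈ G.edgeSet)
      = insert s(p, q) (W₁.sym2.filter (fun e => e ∈ G.edgeSet) ∪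
          W₂.sym2.filter (fun e => e ∈ G.edgeSet)) := by
    ext e
    induction e using Sym2.ind with
    | _ u v =>
      simp only [Finset.mem_filter, Finset.mk_mem_sym2_iff, Finset.mem_union, Finset.mem_insert,
        SimpleGraph.mem_edgeSet, Sym2.eq_iff]
      constructor
      · rintro ⟨⟨hu | hu, hv | hv⟩, he⟩
        · exact Or.inr (Or.inl ⟨⟨hu, hv⟩, he⟩)
        · exact Or.inl (Or.inl (hE u hu v hv he))
        · obtain ⟨e1, e2⟩ := hE v hv u hu he.symm
          exact Or.inl (Or.inr ⟨e2, e1⟩)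
        · exact Or.inr (Or.inr ⟨⟨hu, hv⟩, he⟩)
      · rintro ((⟨rfl, rfl⟩ | ⟨rfl, rfl⟩) | (⟨⟨hu, hv⟩, he⟩ | ⟨⟨hu, hv⟩, he⟩))
        · exact ⟨⟨Or.inl hp, Or.inr hq⟩, hpq⟩
        · exact ⟨⟨Or.inr hq, Or.inl hp⟩, hpq.symm⟩
        · exact ⟨⟨Or.inl hu, Or.inl hv⟩, he⟩
        · exact ⟨⟨Or.inr hu, Or.inr hv⟩, he⟩
  have hn1 : s(p, q) ∉ W₁.sym2.filter (fun e => e ∈ G.edgeSet) ∪
          W₂.sym2.filter (fun e => e ∈ G.edgeSet) := by
    simp only [Finset.mem_filter, Finset.mk_mem_sym2_iff, Finset.mem_union]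
    rintro (h | h)
    · exact hd' h.1.2 hq
    · exact hd' hp h.1.1
  have hdd : Disjoint (W₁.sym2.filter (fun e => e ∈ G.edgeSet))
      (W₂.sym2.filter (fun e => e ∈ G.edgeSet)) := by
    rw [Finset.disjoint_left]
    intro e
    induction e using Sym2.ind with
    | _ u v =>
      simp only [Finset.mem_filter, Finset.mk_mem_sym2_iff]
      intro h h'
      exact hd' h.1.1 h'.1.1
  rw [hE1, Finset.prod_insert hn1, Finset.prod_union hdd, ef_mk,
    sp_union_left h2 (hd' hp), sp_union_right h1 (fun h => hd' h hq)]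
  have e1 : ∏ e ∈ W₁.sym2.filter (fun e => e ∈ G.edgeSet), ef θ (A₁ ∪ A₂) e
      = ∏ e ∈ W₁.sym2.filter (fun e => e ∈ G.edgeSet), ef θ A₁ e := by
    refine Finset.prod_congr rfl fun e he => ef_congr θ fun v hv => ?_
    rw [Finset.mem_filter, Finset.mem_sym2_iff] at he
    rw [Finset.mem_union]
    exact or_iff_left fun h => hd' (he.1 v hv) (h2 h)
  have e2 : ∏ e ∈ W₂.sym2.filter (fun e => e ∈ G.edgeSet), ef θ (A₁ ∪ A₂) e
      = ∏ e ∈ W₂.sym2.filter (fun e => e ∈ G.edgeSet), ef θ A₂ e := by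
    refine Finset.prod_congr rfl fun e he => ef_congr θ fun v hv => ?_
    rw [Finset.mem_filter, Finset.mem_sym2_iff] at he
    rw [Finset.mem_union]
    exact or_iff_right fun h => hd' (h1 h) (he.1 v hv)
  rw [e1, e2]
  ring

/-- partition function with vertex weights `φ` and a function `g` of the spin of `y`. -/
noncomputable def RR (G : SimpleGraph V) (θ : ℝ) (W : Finset V) (y : V) (φ : V → ℝ → ℝ)
    (g : ℝ → ℝ) : ℝ :=
  ∑ A ∈ W.powerset, wt G θ W (fun _ => 0) A * (∏ v ∈ W, φ v (sp A v)) * g (sp A y)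

theorem Lw_eq_RR (θ : ℝ) (W : Finset V) (k : ℕ) (s : ℝ) (ω : Lab V) (y : V) :
    Lw G θ W k s ω = RR G θ W y (fun v σ => lik k s ω v σ) (fun _ => 1) := by
  unfold Lw RR
  simp

theorem RR_add (θ : ℝ) (W : Finset V) (y : V) (φ : V → ℝ → ℝ) (g g' : ℝ → ℝ) :
    RR G θ W y φ (fun σ => g σ + g' σ) = RR G θ W y φ g + RR G θ W y φ g' := by
  unfold RR
  rw [← Finset.sum_add_distrib]
  exact Finset.sum_congr rfl fun A _ => by ring

theorem RR_mul (θ : ℝ) (W : Finset V) (y : V) (φ : V → ℝ → ℝ) (g : ℝ → ℝ) (c : ℝ) :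
    RR G θ W y φ (fun σ => c * g σ) = c * RR G θ W y φ g := by
  unfold RR
  rw [Finset.mul_sum]
  exact Finset.sum_congr rfl fun A _ => by ring

open Classical in
theorem RR_union {W₁ W₂ : Finset V} (hd : Disjoint W₁ W₂) {p q : V} (hp : p ∈ W₁) (hq : q ∈ W₂)
    (hpq : G.Adj p q) (hE : ∀ u ∈ W₁, ∀ v ∈ W₂, G.Adj u v → u = p ∧ v = q) (θ : ℝ)
    (φ : V → ℝ → ℝ) (g : ℝ → ℝ) :
    RR G θ (W₁ ∪ W₂) p φ g =
      RR G θ W₁ p φ (fun σ => g σ * RR G θ W₂ q φ (fun τ => 1 + θ * (σ * τ))) := by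
  have hd' := Finset.disjoint_left.1 hd
  unfold RR
  rw [sum_powerset_union hd]
  refine Finset.sum_congr rfl fun A₁ hA₁ => ?_
  rw [Finset.mem_powerset] at hA₁
  simp only [Finset.mul_sum]
  refine Finset.sum_congr rfl fun A₂ hA₂ => ?_
  rw [Finset.mem_powerset] at hA₂
  rw [wt_union hd hp hq hpq hE θ hA₁ hA₂, Finset.prod_union hd,
    sp_union_left hA₂ (hd' hp)]
  have e1 : ∏ v ∈ W₁, φ v (sp (A₁ ∪ A₂) v) = ∏ v ∈ W₁, φ v (sp A₁ v) :=
    Finset.prod_congr rfl fun v hv => by rw [sp_union_left hA₂ (hd' hv)]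
  have e2 : ∏ v ∈ W₂, φ v (sp (A₁ ∪ A₂) v) = ∏ v ∈ W₂, φ v (sp A₂ v) :=
    Finset.prod_congr rfl fun v hv => by rw [sp_union_right hA₁ (fun h => hd' h hv)]
  rw [e1, e2]
  ring

open Classical in
theorem RR_singleton (θ : ℝ) (y : V) (φ : V → ℝ → ℝ) (g : ℝ → ℝ) :
    RR G θ {y} y φ g = (φ y 1 * g 1 + φ y (-1) * g (-1)) / 2 := by
  unfold RR
  have hE : ({y} : Finset V).sym2.filter (fun e => e ∈ G.edgeSet) = ∅ := by
    ext e
    induction e using Sym2.ind with
    | _ u v =>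
      simp only [Finset.mem_filter, Finset.mk_mem_sym2_iff, Finset.mem_singleton,
        SimpleGraph.mem_edgeSet, Finset.notMem_empty, iff_false, not_and]
      rintro ⟨rfl, rfl⟩ h
      exact G.irrefl h
  have h0 : ({y} : Finset V).powerset = {∅, {y}} := by
    ext A
    simp only [Finset.mem_powerset, Finset.subset_singleton_iff, Finset.mem_insert,
      Finset.mem_singleton]
  rw [h0, Finset.sum_pair (by
    intro h
    have := Finset.mem_singleton_self y
    rw [← h] at this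
    exact absurd this (Finset.notMem_empty y))]
  simp only [wt_zero, hE, Finset.prod_empty, Finset.prod_singleton]
  have s1 : sp (∅ : Finset V) y = -1 := by unfold sp; simp
  have s2 : sp ({y} : Finset V) y = 1 := by unfold sp; simp
  rw [s1, s2]
  ring

/-! ### rooted subtrees -/

/-- mixture over the spin of the child. -/
noncomputable def mixL (G : SimpleGraph V) [G.LocallyFinite] (θ : ℝ) (k : ℕ) (s : ℝ) (n : ℕ)
    (σ : ℝ) (y c : V) (ω : Lab V) : ℝ :=
  ((1 + θ * σ) / 2) * Lr G θ k s ω n 1 y c + ((1 - θ * σ) / 2) * Lr G θ k s ω n (-1) y c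

open Classical in
theorem Lr_succ [G.LocallyFinite] (θ : ℝ) (k : ℕ) (s : ℝ) (n : ℕ) (σ : ℝ) (z y : V) (ω : Lab V) :
    Lr G θ k s ω (n + 1) σ z y =
      lik k s ω y σ * ∏ c ∈ (G.neighborFinset y).erase z, mixL G θ k s n σ y c ω := rfl

/-- a neighbour of `y` other than the parent is on the other side. -/
theorem dist_other_side (hT : G.IsTree) {y c c' u : V} (hc : G.Adj y c) (hc' : G.Adj y c')
    (hne : c ≠ c') (hu : G.dist y u = G.dist c' u + 1) : G.dist c u = G.dist y u + 1 := by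
  have h1 : G.dist u y = G.dist u c' + 1 := by
    rw [G.dist_comm, hu, G.dist_comm]
  have := dist_child hT (z := u) hc hne hc' h1
  rw [G.dist_comm, this, G.dist_comm]

theorem self_mem_Tn [G.LocallyFinite] (hT : G.IsTree) (n : ℕ) {z y : V} (h : G.Adj z y) :
    y ∈ Tn G n z y := by
  rw [mem_Tn hT]
  rw [SimpleGraph.dist_self]
  exact ⟨Nat.zero_le _, by rw [SimpleGraph.dist_eq_one_iff_adj.2 h]⟩

open Classical in
/-- the window consisting of `y` and the subtrees of the children in `S`. -/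
theorem RR_children [G.LocallyFinite] (hT : G.IsTree) (θ : ℝ) (k : ℕ) (s : ℝ) (n : ℕ) (y : V)
    (ω : Lab V)
    (ih : ∀ c, G.Adj y c → ∀ g : ℝ → ℝ, RR G θ (Tn G n y c) c (fun v σ => lik k s ω v σ) g =
      (g 1 * Lr G θ k s ω n 1 y c + g (-1) * Lr G θ k s ω n (-1) y c) / 2)
    (S : Finset V) (hS : ∀ c ∈ S, G.Adj y c) (g : ℝ → ℝ) :
    RR G θ (insert y (S.biUnion (fun c => Tn G n y c))) y (fun v σ => lik k s ω v σ) g =
      (g 1 * (lik k s ω y 1 * ∏ c ∈ S, mixL G θ k s n 1 y c ω) +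
        g (-1) * (lik k s ω y (-1) * ∏ c ∈ S, mixL G θ k s n (-1) y c ω)) / 2 := by
  induction S using Finset.induction_on generalizing g with
  | empty =>
    simp only [Finset.biUnion_empty, Finset.prod_empty, mul_one]
    rw [show (insert y (∅ : Finset V)) = {y} from rfl, RR_singleton]
    ring
  | insert c S hc ihS =>
    have hyc : G.Adj y c := hS c (Finset.mem_insert_self _ _)
    have hS' : ∀ c ∈ S, G.Adj y c := fun c' hc' => hS c' (Finset.mem_insert_of_mem hc')
    have e1 : insert y ((insert c S).biUnion (fun c => Tn G n y c))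
        = insert y (S.biUnion (fun c => Tn G n y c)) ∪ Tn G n y c := by
      rw [Finset.biUnion_insert, Finset.insert_union, Finset.union_comm (Tn G n y c)]
    -- the sides
    have side1 : ∀ u ∈ insert y (S.biUnion (fun c => Tn G n y c)),
        G.dist c u = G.dist y u + 1 := by
      intro u hu
      rw [Finset.mem_insert, Finset.mem_biUnion] at hu
      rcases hu with rfl | ⟨c', hc', hu⟩
      · rw [SimpleGraph.dist_self, G.dist_comm, SimpleGraph.dist_eq_one_iff_adj.2 hyc]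
      · rw [mem_Tn hT] at hu
        exact dist_other_side hT hyc (hS' c' hc') (fun h => hc (h ▸ hc')) hu.2
    have side2 : ∀ v ∈ Tn G n y c, G.dist y v = G.dist c v + 1 := by
      intro v hv
      rw [mem_Tn hT] at hv
      exact hv.2
    have hdis : Disjoint (insert y (S.biUnion (fun c => Tn G n y c))) (Tn G n y c) := by
      rw [Finset.disjoint_left]
      intro u h1 h2
      have := side1 u h1
      have := side2 u h2
      omega
    rw [e1, RR_union hdis (Finset.mem_insert_self _ _) (self_mem_Tn hT n hyc) hyc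
      (fun u hu v hv huv => edge_between_sides hT hyc huv (side1 u hu) (side2 v hv)),
      ihS hS', ih c hyc, ih c hyc]
    rw [Finset.prod_insert hc, Finset.prod_insert hc]
    unfold mixL
    ring

open Classical in
theorem RR_Tn [G.LocallyFinite] (hT : G.IsTree) (θ : ℝ) (k : ℕ) (s : ℝ) (n : ℕ) (ω : Lab V) :
    ∀ {z y : V}, G.Adj z y → ∀ g : ℝ → ℝ,
    RR G θ (Tn G n z y) y (fun v σ => lik k s ω v σ) g =
      (g 1 * Lr G θ k s ω n 1 z y + g (-1) * Lr G θ k s ω n (-1) z y) / 2 := by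
  induction n with
  | zero =>
    intro z y h g
    rw [Tn_zero hT h, RR_singleton]
    show _ = (g 1 * lik k s ω y 1 + g (-1) * lik k s ω y (-1)) / 2
    ring
  | succ n ih =>
    intro z y h g
    rw [Tn_succ hT n h, RR_children hT θ k s n y ω (fun c hc g => ih hc g) _
      (fun c hc => (SimpleGraph.mem_neighborFinset _ _ _).1 (Finset.mem_of_mem_erase hc)) g]
    rw [Lr_succ, Lr_succ]

open Classical in
theorem ball_succ_eq [G.LocallyFinite] (hT : G.IsTree) (n : ℕ) (y : V) :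
    ball G y (n + 1) = insert y ((G.neighborFinset y).biUnion (fun c => Tn G n y c)) := by
  ext w
  rw [mem_ball hT, Finset.mem_insert, Finset.mem_biUnion]
  constructor
  · intro h
    by_cases hw : w = y
    · exact Or.inl hw
    · right
      obtain ⟨c, hc, -⟩ := existsUnique_parent hT (z := w) (y := y) (fun h => hw h.symm)
      refine ⟨c, (SimpleGraph.mem_neighborFinset _ _ _).2 hc.1, ?_⟩
      rw [mem_Tn hT]
      have h1 : G.dist y w = G.dist c w + 1 := by
        rw [G.dist_comm, hc.2, G.dist_comm]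
      exact ⟨by omega, h1⟩
  · rintro (rfl | ⟨c, _, hw⟩)
    · rw [SimpleGraph.dist_self]; exact Nat.zero_le _
    · rw [mem_Tn hT] at hw
      omega

end Br

/-- the planted densities sum to the hidden density; both spins at the root. -/
theorem Lw_Tn {V : Type*} {G : SimpleGraph V} [G.LocallyFinite] (hT : G.IsTree) {θ : ℝ}
    (_h0 : 0 ≤ θ) (_h1 : θ < 1) (k : ℕ) (s : ℝ) (n : ℕ)
    {z y : V} (h : G.Adj z y) (ω : Lab V) :
    Lw G θ (Tn G n z y) k s ω =
      (Lr G θ k s ω n 1 z y + Lr G θ k s ω n (-1) z y) / 2 := by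
  rw [Br.Lw_eq_RR θ _ k s ω y, Br.RR_Tn hT θ k s n ω h]
  ring

end Crest.Agent.Lib.Row160
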