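import Crest.Agent.Lib.Row160.BridgeC
import Crest.Agent.Lib.Row160.TreeWin

/-!
Row 160, chunk M9, part D: planted laws of the cavity fields.
-/

set_option autoImplicit false

open MeasureTheory Filter Topology

namespace Crest.Agent.Lib.Row160

namespace Br

variable {V : Type*} {G : SimpleGraph V}

theorem sp_cases (A : Finset V) (v : V) : sp A v = 1 ∨ sp A v = -1 := by
  unfold sp; split_ifs <;> simp

theorem gd_lik (k : ℕ) {s : ℝ} (hs : 0 ≤ s) (hs' : s ≤ 1 / 2) (v : V) {σ : ℝ}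
    (hσ : σ = 1 ∨ σ = -1) : Gd (cd k {v}) (fun ω => lik k s ω v σ) :=
  (lawOf_own k hσ hs hs' v).gL

theorem integral_lik (k : ℕ) {s : ℝ} (hs : 0 ≤ s) (hs' : s ≤ 1 / 2) (v : V) {σ : ℝ}
    (hσ : σ = 1 ∨ σ = -1) : ∫ ω, lik k s ω v σ ∂(labM V) = 1 :=
  (lawOf_own k hσ hs hs' v).mass (symLaw_own k hs hs')

theorem cd_singleton_disjoint (k : ℕ) {W : Finset V} :
    (W : Set V).PairwiseDisjoint (fun v => cd k ({v} : Set V)) := by
  intro v _ w _ hvw
  exact cd_disjoint k (Set.disjoint_singleton.2 hvw)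

theorem gd_RR (θ : ℝ) (W : Finset V) (z : V) (k : ℕ) {s : ℝ} (hs : 0 ≤ s) (hs' : s ≤ 1 / 2)
    (g : ℝ → ℝ) : Gd (cd k (W : Set V)) (fun ω => RR G θ W z (fun v σ => lik k s ω v σ) g) := by
  unfold RR
  refine Gd.sum fun A _ => ?_
  refine ((gd_const _ _).mul (Gd.prod fun v hv => ?_)).mul (gd_const _ _)
  exact (gd_lik k hs hs' v (sp_cases A v)).mono (cd_mono k (by simpa using hv))

theorem integral_RR (θ : ℝ) (W : Finset V) (z : V) (k : ℕ) {s : ℝ} (hs : 0 ≤ s) (hs' : s ≤ 1 / 2)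
    (g : ℝ → ℝ) : ∫ ω, RR G θ W z (fun v σ => lik k s ω v σ) g ∂(labM V) =
      ∑ A ∈ W.powerset, wt G θ W (fun _ => 0) A * g (sp A z) := by
  unfold RR
  have hgd : ∀ A : Finset V, Gd (cd k (W : Set V)) (fun ω => wt G θ W (fun _ => 0) A *
      (∏ v ∈ W, lik k s ω v (sp A v)) * g (sp A z)) := fun A =>
    ((gd_const _ _).mul (Gd.prod fun v hv =>
      (gd_lik k hs hs' v (sp_cases A v)).mono (cd_mono k (by simpa using hv)))).mul (gd_const _ _)
  rw [integral_finsetSum _ fun A _ => (hgd A).integrable]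
  refine Finset.sum_congr rfl fun A _ => ?_
  rw [integral_mul_const, integral_const_mul,
    integral_prod_of_disjoint (S := fun v => cd k ({v} : Set V))
      (fun v _ => gd_lik k hs hs' v (sp_cases A v)) (cd_singleton_disjoint k)]
  rw [Finset.prod_eq_one fun v _ => integral_lik k hs hs' v (sp_cases A v), mul_one]

open Classical in
/-- spin flip symmetry. -/
theorem wt_compl (θ : ℝ) {W A : Finset V} :
    wt G θ W (fun _ => 0) (W \ A) = wt G θ W (fun _ => 0) A := by
  rw [wt_zero, wt_zero]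
  congr 1
  refine Finset.prod_congr rfl fun e he => ?_
  rw [Finset.mem_filter] at he
  induction e using Sym2.ind with
  | _ u v =>
    rw [Finset.mk_mem_sym2_iff] at he
    rw [ef_mk, ef_mk]
    have h1 : ∀ w ∈ W, sp (W \ A) w = - sp A w := by
      intro w hw
      unfold sp
      by_cases h : w ∈ A
      · rw [if_neg (by simp [h]), if_pos h]
      · rw [if_pos (by simp [h, hw]), if_neg h]; norm_num
    rw [h1 u he.1.1, h1 v he.1.2]
    ring

open Classical in
theorem sum_wt_sp (θ : ℝ) {W : Finset V} {z : V} (hz : z ∈ W) :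
    ∑ A ∈ W.powerset, wt G θ W (fun _ => 0) A * sp A z = 0 := by
  have h1 : ∑ A ∈ W.powerset, wt G θ W (fun _ => 0) A * sp A z
      = ∑ A ∈ W.powerset, wt G θ W (fun _ => 0) (W \ A) * sp (W \ A) z := by
    refine Finset.sum_bij' (fun A _ => W \ A) (fun A _ => W \ A) ?_ ?_ ?_ ?_ ?_
    · intro A _; exact Finset.mem_powerset.2 Finset.sdiff_subset
    · intro A _; exact Finset.mem_powerset.2 Finset.sdiff_subset
    · intro A hA; exact Finset.sdiff_sdiff_eq_self (Finset.mem_powerset.1 hA)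
    · intro A hA; exact Finset.sdiff_sdiff_eq_self (Finset.mem_powerset.1 hA)
    · intro A hA
      rw [Finset.sdiff_sdiff_eq_self (Finset.mem_powerset.1 hA)]
  have h2 : ∀ A : Finset V, wt G θ W (fun _ => 0) (W \ A) * sp (W \ A) z
      = - (wt G θ W (fun _ => 0) A * sp A z) := by
    intro A
    rw [wt_compl]
    have : sp (W \ A) z = - sp A z := by
      unfold sp
      by_cases h : z ∈ A
      · rw [if_neg (by simp [h]), if_pos h]
      · rw [if_pos (by simp [h, hz]), if_neg h]; norm_num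
    rw [this]; ring
  simp_rw [h2, Finset.sum_neg_distrib] at h1
  linarith

theorem sum_wt (hT : G.IsTree) {θ : ℝ} (h0 : 0 ≤ θ) (h1 : θ < 1) (W : Finset V) :
    ∑ A ∈ W.powerset, wt G θ W (fun _ => 0) A = 1 := Zw_zero hT h0 h1 W

/-! ### law of the cavity fields -/

/-- the cavity field of the free process. -/
noncomputable def hc (G : SimpleGraph V) (θ : ℝ) (k : ℕ) (s : ℝ) (n : ℕ) (z y : V) (ω : Lab V) :
    ℝ := Real.artanh (mg G θ (Tn G n z y) (free k s ω) y)

open Classical in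
theorem mg_singleton (θ : ℝ) (y : V) (x : V → ℝ) : mg G θ {y} x y = Real.tanh (x y) := by
  unfold mg av Zw
  have hE : ({y} : Finset V).sym2.filter (fun e => e ∈ G.edgeSet) = ∅ := by
    ext e
    induction e using Sym2.ind with
    | _ u v =>
      simp only [Finset.mem_filter, Finset.mk_mem_sym2_iff, Finset.mem_singleton,
        SimpleGraph.mem_edgeSet, Finset.notMem_empty, iff_false, not_and]
      rintro ⟨rfl, rfl⟩ h
      exact G.irrefl h
  have h0 : ({y} : Finset V).powerset = {∅, {y}} := by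
    ext A
    simp only [Finset.mem_powerset, Finset.subset_singleton_iff, Finset.mem_insert,
      Finset.mem_singleton]
  have hne : (∅ : Finset V) ≠ {y} := by
    intro h
    have := Finset.mem_singleton_self y
    rw [← h] at this
    exact absurd this (Finset.notMem_empty y)
  have s1 : sp (∅ : Finset V) y = -1 := by unfold sp; simp
  have s2 : sp ({y} : Finset V) y = 1 := by unfold sp; simp
  have w1 : wt G θ {y} x ∅ = Real.exp (-x y) / 2 := by
    unfold wt
    rw [hE, Finset.prod_empty, Finset.prod_singleton, s1, one_mul]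
    congr 2; ring
  have w2 : wt G θ {y} x {y} = Real.exp (x y) / 2 := by
    unfold wt
    rw [hE, Finset.prod_empty, Finset.prod_singleton, s2, one_mul]
    congr 2; ring
  rw [h0, Finset.sum_pair hne, Finset.sum_pair hne]
  beta_reduce
  rw [s1, s2, w1, w2, Real.tanh_eq_sinh_div_cosh, Real.sinh_eq, Real.cosh_eq]
  have : 0 < Real.exp (x y) + Real.exp (-x y) := by positivity
  field_simp
  ring

section locfin

variable [G.LocallyFinite] {d : ℕ}

theorem hc_zero (hT : G.IsTree) (θ : ℝ) (k : ℕ) (s : ℝ) {z y : V} (h : G.Adj z y) (ω : Lab V) :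
    hc G θ k s 0 z y ω = free k s ω y := by
  unfold hc
  rw [Tn_zero hT h, mg_singleton, Real.artanh_tanh]

open Classical in
theorem hc_succ (hT : G.IsTree) {θ : ℝ} (h0 : 0 ≤ θ) (h1 : θ < 1) (k : ℕ) (s : ℝ) (n : ℕ)
    {z y : V} (h : G.Adj z y) (ω : Lab V) :
    hc G θ k s (n + 1) z y ω = free k s ω y +
      ∑ c ∈ (G.neighborFinset y).erase z, psi θ (hc G θ k s n y c ω) := by
  unfold hc
  rw [mg_Tn_succ hT h0 h1 n h, Real.artanh_tanh]

open Classical in
theorem mg_Tn_eq_tanh (hT : G.IsTree) {θ : ℝ} (h0 : 0 ≤ θ) (h1 : θ < 1) (n : ℕ)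
    {z y : V} (h : G.Adj z y) (x : V → ℝ) :
    mg G θ (Tn G n z y) x y = Real.tanh (Real.artanh (mg G θ (Tn G n z y) x y)) := by
  cases n with
  | zero => rw [Tn_zero hT h, mg_singleton, Real.artanh_tanh]
  | succ n => rw [mg_Tn_succ hT h0 h1 n h, Real.artanh_tanh]

open Classical in
theorem card_children (hreg : G.IsRegularOfDegree d) {z y : V} (h : G.Adj z y) :
    ((G.neighborFinset y).erase z).card = d - 1 := by
  rw [Finset.card_erase_of_mem ((SimpleGraph.mem_neighborFinset _ _ _).2 h.symm)]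
  congr 1
  exact hreg y

theorem cd_Tn_disjoint (hT : G.IsTree) (k n : ℕ) (y : V) :
    ((G.neighborFinset y : Finset V) : Set V).PairwiseDisjoint
      (fun c => cd k (Tn G n y c : Set V)) := by
  intro c hc c' hc' hne
  have := Tn_pairwiseDisjoint hT n y hc hc' hne
  exact cd_disjoint k (Finset.disjoint_coe.2 this)

theorem cd_root_disjoint (hT : G.IsTree) (k n : ℕ) {y c : V} (h : G.Adj y c) :
    Disjoint (cd k ({y} : Set V)) (cd k (Tn G n y c : Set V)) := by
  apply cd_disjoint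
  rw [Set.disjoint_singleton_left]
  exact fun h' => Tn_root_notMem hT n h (Finset.mem_coe.1 h')

open Classical in
/-- the law of the field of `y` together with the messages of the children in `S`. -/
theorem lawOf_children (hT : G.IsTree) {θ : ℝ} (h0 : 0 ≤ θ) (h1 : θ < 1) (k : ℕ) {s : ℝ}
    (hs : 0 ≤ s) (hs' : s ≤ 1 / 2) (n b : ℕ) (y : V) {σ : ℝ} (hσ : σ = 1 ∨ σ = -1)
    (ih : ∀ c, G.Adj y c → ∀ {σ : ℝ}, (σ = 1 ∨ σ = -1) → LawOf (cd k (Tn G n y c : Set V)) σ
      (kap (own k s) θ b n) (hc G θ k s n y c) (fun ω => Lr G θ k s ω n σ y c))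
    (S : Finset V) (hS : ∀ c ∈ S, G.Adj y c) :
    LawOf (cd k (insert y (S.biUnion (fun c => Tn G n y c)) : Finset V)) σ
      (Row160.star (own k s) (Row160.starpow ((kap (own k s) θ b n).map (psi θ)) S.card))
      (fun ω => free k s ω y + ∑ c ∈ S, psi θ (hc G θ k s n y c ω))
      (fun ω => lik k s ω y σ * ∏ c ∈ S, mixL G θ k s n σ y c ω) := by
  have sk := SymLaw.kap (symLaw_own k hs hs') h0 h1 b n
  have sk' := SymLaw.map_psi sk h0 h1
  have hchild : ∀ c ∈ S, LawOf (cd k (Tn G n y c : Set V)) σ ((kap (own k s) θ b n).map (psi θ))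
      (fun ω => psi θ (hc G θ k s n y c ω)) (fun ω => mixL G θ k s n σ y c ω) := fun c hc =>
    LawOf.mix h0 h1 (ih c (hS c hc) (Or.inl rfl)) (ih c (hS c hc) (Or.inr rfl)) sk
  have hsum := LawOf.starpow hσ sk' hchild
    ((cd_Tn_disjoint hT k n y).subset fun c hc => by
      rw [Finset.mem_coe, SimpleGraph.mem_neighborFinset]; exact hS c hc)
  refine LawOf.star hσ (lawOf_own k hσ hs hs' y) hsum (symLaw_own k hs hs')
    (SymLaw.starpow sk' S.card) ?_ ?_ ?_
  · rw [Set.disjoint_iUnion₂_right]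
    exact fun c hc => cd_root_disjoint hT k n (hS c hc)
  · apply cd_mono
    simp
  · rw [Set.iUnion₂_subset_iff]
    intro c hc
    apply cd_mono
    intro w hw
    rw [Finset.mem_coe, Finset.mem_insert, Finset.mem_biUnion]
    exact Or.inr ⟨c, hc, hw⟩

open Classical in
theorem lawOf_cavity (hT : G.IsTree) (hreg : G.IsRegularOfDegree d) {θ : ℝ} (h0 : 0 ≤ θ)
    (h1 : θ < 1) (k : ℕ) {s : ℝ} (hs : 0 ≤ s) (hs' : s ≤ 1 / 2) (n : ℕ) :
    ∀ {z y : V}, G.Adj z y → ∀ {σ : ℝ}, (σ = 1 ∨ σ = -1) →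
      LawOf (cd k (Tn G n z y : Set V)) σ (kap (own k s) θ (d - 1) n) (hc G θ k s n z y)
        (fun ω => Lr G θ k s ω n σ z y) := by
  induction n with
  | zero =>
    intro z y h σ hσ
    have h2 := lawOf_own k hσ hs hs' y
    have e1 : hc G θ k s 0 z y = fun ω => free k s ω y := by
      funext ω; exact hc_zero hT θ k s h ω
    rw [e1, Tn_zero hT h]
    have e2 : ((({y} : Finset V)) : Set V) = {y} := by simp
    rw [e2]
    exact h2
  | succ n ih =>
    intro z y h σ hσ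
    have h2 := lawOf_children hT h0 h1 k hs hs' n (d - 1) y hσ (fun c hc σ hσ => ih hc hσ)
      ((G.neighborFinset y).erase z)
      (fun c hc => (SimpleGraph.mem_neighborFinset _ _ _).1 (Finset.mem_of_mem_erase hc))
    rw [card_children hreg h] at h2
    have e1 : hc G θ k s (n + 1) z y = fun ω => free k s ω y +
        ∑ c ∈ (G.neighborFinset y).erase z, psi θ (hc G θ k s n y c ω) := by
      funext ω; exact hc_succ hT h0 h1 k s n h ω
    rw [e1, Tn_succ hT n h]
    exact h2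

theorem gd_Lr (hT : G.IsTree) (hreg : G.IsRegularOfDegree d) {θ : ℝ} (h0 : 0 ≤ θ)
    (h1 : θ < 1) (k : ℕ) {s : ℝ} (hs : 0 ≤ s) (hs' : s ≤ 1 / 2) (n : ℕ) {z y : V} (h : G.Adj z y)
    {σ : ℝ} (hσ : σ = 1 ∨ σ = -1) :
    Gd (cd k (Tn G n z y : Set V)) (fun ω => Lr G θ k s ω n σ z y) :=
  (lawOf_cavity hT hreg h0 h1 k hs hs' n h hσ).gL

theorem gd_hc (hT : G.IsTree) (hreg : G.IsRegularOfDegree d) {θ : ℝ} (h0 : 0 ≤ θ)
    (h1 : θ < 1) (k : ℕ) {s : ℝ} (hs : 0 ≤ s) (hs' : s ≤ 1 / 2) (n : ℕ) {z y : V} (h : G.Adj z y) :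
    Gd (cd k (Tn G n z y : Set V)) (hc G θ k s n z y) :=
  (lawOf_cavity hT hreg h0 h1 k hs hs' n h (Or.inl rfl)).gh

theorem integral_Lr (hT : G.IsTree) (hreg : G.IsRegularOfDegree d) {θ : ℝ} (h0 : 0 ≤ θ)
    (h1 : θ < 1) (k : ℕ) {s : ℝ} (hs : 0 ≤ s) (hs' : s ≤ 1 / 2) (n : ℕ) {z y : V} (h : G.Adj z y)
    {σ : ℝ} (hσ : σ = 1 ∨ σ = -1) : ∫ ω, Lr G θ k s ω n σ z y ∂(labM V) = 1 :=
  (lawOf_cavity hT hreg h0 h1 k hs hs' n h hσ).mass
    (SymLaw.kap (symLaw_own k hs hs') h0 h1 (d - 1) n)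

end locfin

end Br

section
variable {V : Type*} {G : SimpleGraph V} [G.LocallyFinite] {d : ℕ}

/-- law of the cavity field of a rooted subtree under the planted measure. -/
theorem law_cavity (hT : G.IsTree) (_hd : 3 ≤ d) (hreg : G.IsRegularOfDegree d) {θ : ℝ}
    (h0 : 0 ≤ θ) (h1 : θ < 1) (k : ℕ) {s : ℝ} (hs : 0 ≤ s) (hs' : s ≤ 1 / 2) (n : ℕ) {z y : V}
    (h : G.Adj z y) {σ : ℝ} (hσ : σ = 1 ∨ σ = -1) {f : ℝ → ℝ} (hf : Measurable f)
    (hb : ∀ R : ℝ, ∃ C, ∀ x, |x| ≤ R → |f x| ≤ C) :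
    ∫ ω, f (Real.artanh (mg G θ (Tn G n z y) (free k s ω) y)) * Lr G θ k s ω n σ z y ∂(labM V) =
      ∫ x, f x * (1 + σ * Real.tanh x) ∂(kap (own k s) θ (d - 1) n) :=
  (Br.lawOf_cavity hT hreg h0 h1 k hs hs' n h hσ).law'
    (SymLaw.kap (symLaw_own k hs hs') h0 h1 (d - 1) n) hf hb

/-- in a larger window, the observations in the subtree have the hidden law of the subtree. -/
theorem integral_mul_Lw_subtree (hT : G.IsTree) {θ : ℝ} (h0 : 0 ≤ θ) (h1 : θ < 1) (k : ℕ)
    {s : ℝ} (hs : 0 ≤ s) (hs' : s ≤ 1 / 2) (n : ℕ)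
    {z y : V} (h : G.Adj z y) (W : Finset V) (_hW : Conv G W) (hzW : z ∈ W)
    (hWT : Tn G n z y = W.filter (fun w => G.dist z w = G.dist y w + 1))
    {F : Lab V → ℝ} (hF : Measurable F) (hb : ∃ C, ∀ ω, |F ω| ≤ C)
    (hloc : ∀ ω ω' : Lab V, (∀ v ∈ Tn G n z y, ∀ j ≤ k, ω (v, j) = ω' (v, j)) → F ω = F ω') :
    ∫ ω, F ω * Lw G θ W k s ω ∂(labM V) =
      ∫ ω, F ω * ((Lr G θ k s ω n 1 z y + Lr G θ k s ω n (-1) z y) / 2) ∂(labM V) := by
  classical
  obtain ⟨W₁, hW₁⟩ : ∃ W₁, W₁ = W.filter (fun w => G.dist y w = G.dist z w + 1) := ⟨_, rfl⟩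
  have hWu : W = W₁ ∪ Tn G n z y := by
    rw [hW₁, hWT]
    ext w
    simp only [Finset.mem_union, Finset.mem_filter]
    constructor
    · intro hw
      rcases dist_adj_cases hT h w with h' | h'
      · exact Or.inr ⟨hw, h'⟩
      · exact Or.inl ⟨hw, h'⟩
    · rintro (h' | h') <;> exact h'.1
  have side1 : ∀ u ∈ W₁, G.dist y u = G.dist z u + 1 := fun u hu => by
    rw [hW₁, Finset.mem_filter] at hu; exact hu.2
  have side2 : ∀ v ∈ Tn G n z y, G.dist z v = G.dist y v + 1 := fun v hv => by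
    rw [mem_Tn hT] at hv; exact hv.2
  have hdis : Disjoint W₁ (Tn G n z y) := by
    rw [Finset.disjoint_left]
    intro u h1 h2
    have := side1 u h1
    have := side2 u h2
    omega
  have hz1 : z ∈ W₁ := by
    rw [hW₁, Finset.mem_filter]
    refine ⟨hzW, ?_⟩
    rw [SimpleGraph.dist_self, G.dist_comm, SimpleGraph.dist_eq_one_iff_adj.2 h]
  have hLw : ∀ ω, Lw G θ W k s ω =
      ((Lr G θ k s ω n 1 z y + Lr G θ k s ω n (-1) z y) / 2) *
        Br.RR G θ W₁ z (fun v σ => lik k s ω v σ) (fun _ => 1) +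
      (θ * (Lr G θ k s ω n 1 z y - Lr G θ k s ω n (-1) z y) / 2) *
        Br.RR G θ W₁ z (fun v σ => lik k s ω v σ) (fun σ => σ) := by
    intro ω
    rw [Br.Lw_eq_RR θ W k s ω z, hWu, Br.RR_union hdis hz1 (Br.self_mem_Tn hT n h) h
      (fun u hu v hv huv => edge_between_sides hT h huv (side1 u hu) (side2 v hv)),
      ← Br.RR_mul, ← Br.RR_mul, ← Br.RR_add]
    congr 1
    funext σ
    rw [Br.RR_Tn hT θ k s n ω h]
    ring
  -- the functions of the subtree
  have gF : Br.Gd (Br.cd k (Tn G n z y : Set V)) F :=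
    ⟨hF, fun ω ω' h => hloc ω ω' fun v hv j hj => h (v, j) ⟨hv, hj⟩, hb⟩
  have gL : ∀ (m : ℕ) {a b : V}, G.Adj a b → ∀ {σ : ℝ}, (σ = 1 ∨ σ = -1) →
      Br.Gd (Br.cd k (Tn G m a b : Set V)) (fun ω => Lr G θ k s ω m σ a b) := by
    intro m
    induction m with
    | zero =>
      intro a b hab σ hσ
      rw [Tn_zero hT hab]
      have e2 : ((({b} : Finset V)) : Set V) = {b} := by simp
      rw [e2]
      exact Br.gd_lik k hs hs' b hσ
    | succ m ih =>
      intro a b hab σ hσ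
      rw [Tn_succ hT m hab]
      refine ((Br.gd_lik k hs hs' b hσ).mono (Br.cd_mono k (by simp))).mul (Br.Gd.prod fun c hc => ?_)
      have hbc : G.Adj b c :=
        (SimpleGraph.mem_neighborFinset _ _ _).1 (Finset.mem_of_mem_erase hc)
      have hsub : Br.cd k (Tn G m b c : Set V) ⊆ Br.cd k
          ((insert b (((G.neighborFinset b).erase a).biUnion (fun c => Tn G m b c)) : Finset V) :
            Set V) := by
        apply Br.cd_mono
        intro w hw
        rw [Finset.mem_coe, Finset.mem_insert, Finset.mem_biUnion]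
        exact Or.inr ⟨c, hc, hw⟩
      exact (((ih hbc (Or.inl rfl)).const_mul _).add ((ih hbc (Or.inr rfl)).const_mul _)).mono hsub
  have g1 := gL n h (σ := 1) (Or.inl rfl)
  have g2 := gL n h (σ := -1) (Or.inr rfl)
  have gA : Br.Gd (Br.cd k (Tn G n z y : Set V))
      (fun ω => F ω * ((Lr G θ k s ω n 1 z y + Lr G θ k s ω n (-1) z y) / 2)) := by
    refine gF.mul ?_
    have := (g1.add g2).const_mul (1 / 2)
    convert this using 2 with ω
    ring
  have gB : Br.Gd (Br.cd k (Tn G n z y : Set V))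
      (fun ω => F ω * (θ * (Lr G θ k s ω n 1 z y - Lr G θ k s ω n (-1) z y) / 2)) := by
    refine gF.mul ?_
    have := ((g1.const_mul (θ / 2)).add (g2.const_mul (-(θ / 2))))
    convert this using 2 with ω
    ring
  have hd' : Disjoint (Br.cd k (Tn G n z y : Set V)) (Br.cd k (W₁ : Set V)) :=
    Br.cd_disjoint k (Finset.disjoint_coe.2 hdis.symm)
  have r1 := Br.gd_RR (G := G) θ W₁ z k hs hs' (fun _ => 1)
  have r2 := Br.gd_RR (G := G) θ W₁ z k hs hs' (fun σ => σ)
  have hsplit : ∀ ω, F ω * Lw G θ W k s ω =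
      (F ω * ((Lr G θ k s ω n 1 z y + Lr G θ k s ω n (-1) z y) / 2)) *
        Br.RR G θ W₁ z (fun v σ => lik k s ω v σ) (fun _ => 1) +
      (F ω * (θ * (Lr G θ k s ω n 1 z y - Lr G θ k s ω n (-1) z y) / 2)) *
        Br.RR G θ W₁ z (fun v σ => lik k s ω v σ) (fun σ => σ) := by
    intro ω
    rw [hLw ω]; ring
  simp_rw [hsplit]
  rw [integral_add, Br.integral_mul_of_disjoint gA r1 hd', Br.integral_mul_of_disjoint gB r2 hd',
    Br.integral_RR θ W₁ z k hs hs', Br.integral_RR θ W₁ z k hs hs', Br.sum_wt_sp θ hz1]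
  · simp only [mul_one, mul_zero, add_zero]
    rw [Br.sum_wt hT h0 h1 W₁, mul_one]
  · exact ((gA.mono Set.subset_union_left).mul (r1.mono Set.subset_union_right)).integrable
  · exact ((gB.mono Set.subset_union_left).mul (r2.mono Set.subset_union_right)).integrable

end

end Crest.Agent.Lib.Row160
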