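import Crest.Agent.Lib.Row160.Star

/-!
Row 160, chunk M8b: two-sided bounds of the information.
-/

set_option autoImplicit false

open MeasureTheory Filter Topology

namespace Crest.Agent.Lib.Row160

noncomputable section

theorem qs_sq {s : ℝ} (hs : 0 ≤ s) : qs s ^ 2 = s ^ 3 := by
  unfold qs; exact Real.sq_sqrt (by positivity)

theorem qs_nonneg (s : ℝ) : 0 ≤ qs s := Real.sqrt_nonneg _

theorem qs_pos {s : ℝ} (hs : 0 < s) : 0 < qs s := Real.sqrt_pos.2 (by positivity)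

theorem qs_le_half {s : ℝ} (hs : 0 ≤ s) (hs' : s ≤ 1 / 2) : qs s ≤ 3 / 8 := by
  unfold qs
  rw [Real.sqrt_le_left (by norm_num)]
  have : s ^ 3 ≤ (1 / 2) ^ 3 := pow_le_pow_left₀ hs hs' 3
  nlinarith

theorem qq_dirac : qq (Measure.dirac 0) = 0 := by
  unfold qq
  rw [integral_dirac, Real.tanh_zero]; norm_num

/-- upper bound for the iterated combination -/
theorem qq_starpow_le {B : ℝ} {κ : Measure ℝ} (h : SymLaw B κ) (n : ℕ) :
    qq (starpow κ n) ≤ 1 - (1 - qq κ) ^ n := by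
  induction n with
  | zero => show qq (Measure.dirac 0) ≤ _; rw [qq_dirac]; simp
  | succ n ih =>
    have h1 := qq_star_le h (h.starpow n)
    have h2 := qq_le_one h
    have h3 : (1 - qq κ) * (1 - qq κ) ^ n ≤ (1 - qq κ) * (1 - qq (starpow κ n)) :=
      mul_le_mul_of_nonneg_left (by linarith) (by linarith)
    have h4 : (1 - qq κ) ^ (n + 1) = (1 - qq κ) * (1 - qq κ) ^ n := by ring
    show qq (star κ (starpow κ n)) ≤ _
    rw [h4]
    nlinarith

/-- lower bound for the iterated combination -/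
theorem qq_starpow_ge {B : ℝ} {κ : Measure ℝ} (h : SymLaw B κ) (h2 : qq κ ≤ 1 / 2) (n : ℕ) :
    1 - 2 * qq (starpow κ n) ≤ (1 - 2 * qq κ) ^ n := by
  induction n with
  | zero => show 1 - 2 * qq (Measure.dirac 0) ≤ _; rw [qq_dirac]; simp
  | succ n ih =>
    have h1 := qq_star_ge h (h.starpow n)
    have h3 : (1 - 2 * qq κ) * (1 - 2 * qq (starpow κ n)) ≤ (1 - 2 * qq κ) * (1 - 2 * qq κ) ^ n :=
      mul_le_mul_of_nonneg_left ih (by linarith)
    have h4 : (1 - 2 * qq κ) ^ (n + 1) = (1 - 2 * qq κ) * (1 - 2 * qq κ) ^ n := by ring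
    show 1 - 2 * qq (star κ (starpow κ n)) ≤ _
    rw [h4]
    nlinarith

theorem pow_ge_aux {b : ℕ} (hb : 2 ≤ b) {x : ℝ} (_h0 : 0 ≤ x) (h1 : x ≤ 1) :
    1 - b * x + x ^ 2 ≤ (1 - x) ^ b := by
  obtain ⟨j, rfl⟩ : ∃ j, b = j + 2 := ⟨b - 2, by omega⟩
  have h2 : 1 - (j : ℝ) * x ≤ (1 - x) ^ j := by
    have := one_add_mul_le_pow (show (-2 : ℝ) ≤ -x by linarith) j
    calc 1 - (j : ℝ) * x = 1 + (j : ℝ) * -x := by ring
      _ ≤ (1 + -x) ^ j := this
      _ = (1 - x) ^ j := by ring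
  have hj : (0 : ℝ) ≤ j := Nat.cast_nonneg j
  have h3 : (1 - x) ^ 2 * (1 - (j : ℝ) * x) ≤ (1 - x) ^ 2 * (1 - x) ^ j :=
    mul_le_mul_of_nonneg_left h2 (sq_nonneg _)
  have h4 : (1 - x) ^ (j + 2) = (1 - x) ^ 2 * (1 - x) ^ j := by ring
  rw [h4]
  push_cast
  have h5 : 0 ≤ (j : ℝ) * x ^ 2 * (2 - x) := by
    have : 0 ≤ 2 - x := by linarith
    positivity
  nlinarith

theorem pow_le_aux {x : ℝ} (h0 : 0 ≤ x) (h1 : x ≤ 1) (b : ℕ) :
    (1 - x) ^ b ≤ 1 - b * x + (b * x) ^ 2 / 2 := by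
  induction b with
  | zero => simp
  | succ n ih =>
    have h3 : (1 - x) * (1 - x) ^ n ≤ (1 - x) * (1 - n * x + (n * x) ^ 2 / 2) :=
      mul_le_mul_of_nonneg_left ih (by linarith)
    have h4 : (1 - x) ^ (n + 1) = (1 - x) * (1 - x) ^ n := by ring
    rw [h4]
    push_cast
    have hn : (0 : ℝ) ≤ n := Nat.cast_nonneg n
    have h5 : 0 ≤ x * (n * x) ^ 2 := by positivity
    nlinarith

theorem theta_lt_one {b : ℕ} (hb : 2 ≤ b) {θ : ℝ} (h0 : 0 ≤ θ) (h : b * θ ^ 2 ≤ 1) : θ < 1 := by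
  have hb' : (2 : ℝ) ≤ b := by exact_mod_cast hb
  by_contra hcon
  rw [not_lt] at hcon
  have h1 : 1 ≤ θ ^ 2 := by nlinarith
  nlinarith

theorem qq_kap_le {b : ℕ} (hb : 2 ≤ b) : ∃ C : ℝ, 0 < C ∧ ∀ (θ s : ℝ) (n : ℕ), 0 ≤ θ →
    b * θ ^ 2 ≤ 1 → 0 ≤ s → s ≤ 1 / 2 → qq (kap (own 0 s) θ b n) ≤ C * qs s := by
  have hb' : (2 : ℝ) ≤ b := by exact_mod_cast hb
  refine ⟨b, by positivity, fun θ s n h0 hθ hs hs' => ?_⟩
  have h1 := theta_lt_one hb h0 hθ
  have hown := symLaw_own 0 hs hs'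
  have hq0 := qs_nonneg s
  have hq1 := qs_le_half hs hs'
  have hqown : qq (own 0 s) = qs s ^ 2 / 9 := by
    rw [own_zero hs hs', qq_nu hs hs', qs_sq hs]
  induction n with
  | zero =>
    show qq (own 0 s) ≤ _
    rw [hqown]; nlinarith
  | succ n ih =>
    have hk := hown.kap h0 h1 b n
    have hm := hk.map_psi h0 h1
    have hQ0 := qq_nonneg (kap (own 0 s) θ b n)
    have hQ1 := qq_le_one hk
    set Q := qq (kap (own 0 s) θ b n) with hQ
    set q := qs s with hq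
    have hx : qq ((kap (own 0 s) θ b n).map (psi θ)) = θ ^ 2 * Q := qq_map_psi hk h0 h1
    have hsp := qq_starpow_le hm b
    rw [hx] at hsp
    have hst := qq_star_le hown (hm.starpow b)
    have hθ2 : θ ^ 2 ≤ 1 / 2 := by nlinarith [sq_nonneg θ]
    have hx0 : 0 ≤ θ ^ 2 * Q := by positivity
    have hx1 : θ ^ 2 * Q ≤ 1 := by nlinarith
    have hp := pow_ge_aux hb hx0 hx1
    set x := θ ^ 2 * Q with hxdef
    have hR0 := qq_nonneg (starpow ((kap (own 0 s) θ b n).map (psi θ)) b)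
    have ht0 := qq_nonneg (own 0 s)
    show qq (star (own 0 s) (starpow ((kap (own 0 s) θ b n).map (psi θ)) b)) ≤ _
    have e1 : qq (star (own 0 s) (starpow ((kap (own 0 s) θ b n).map (psi θ)) b))
        ≤ q ^ 2 / 9 + (b * x - x ^ 2) := by
      have : 0 ≤ qq (own 0 s) * qq (starpow ((kap (own 0 s) θ b n).map (psi θ)) b) :=
        mul_nonneg ht0 hR0
      rw [hqown] at hst this
      linarith
    refine e1.trans ?_
    -- `b x ≤ Q ≤ min 1 (b q)`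
    have hbx : b * x ≤ Q := by
      rw [hxdef]
      calc (b : ℝ) * (θ ^ 2 * Q) = (b * θ ^ 2) * Q := by ring
        _ ≤ 1 * Q := mul_le_mul_of_nonneg_right hθ hQ0
        _ = Q := one_mul Q
    have hxq : x ≤ q := by
      have : b * x ≤ b * q := hbx.trans ih
      exact le_of_mul_le_mul_left this (by positivity)
    nlinarith [mul_nonneg (sub_nonneg.2 hxq) (by linarith : (0:ℝ) ≤ b - x - q)]

theorem num_aux {q Q' R : ℝ} (hq0 : 0 ≤ q) (hq1 : q ≤ 3 / 8) (hQ'0 : 0 ≤ Q')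
    (hQ'q : Q' ≤ 1 / 40 * q) (hR : (1 - q) * Q' - Q' ^ 2 ≤ R) :
    Q' + q ^ 2 / 18 ≤ q ^ 2 / 9 + R - 2 * (q ^ 2 / 9) * R := by
  have hq2 : 0 ≤ 1 - 2 * (q ^ 2 / 9) := by nlinarith
  have e2 : (1 - 2 * (q ^ 2 / 9)) * ((1 - q) * Q' - Q' ^ 2) ≤ (1 - 2 * (q ^ 2 / 9)) * R :=
    mul_le_mul_of_nonneg_left hR hq2
  have e3 : Q' - 2 * q * Q' - Q' ^ 2 ≤ (1 - 2 * (q ^ 2 / 9)) * ((1 - q) * Q' - Q' ^ 2) := by
    have f1 : 0 ≤ q * Q' * (1 - 2 * q / 9) := by
      have : 0 ≤ 1 - 2 * q / 9 := by linarith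
      positivity
    have f2 : 0 ≤ q ^ 2 * (q * Q') := by positivity
    have f3 : 0 ≤ q ^ 2 * Q' ^ 2 := by positivity
    have f4 : (1 - 2 * (q ^ 2 / 9)) * ((1 - q) * Q' - Q' ^ 2) - (Q' - 2 * q * Q' - Q' ^ 2)
        = q * Q' * (1 - 2 * q / 9) + 2 / 9 * (q ^ 2 * (q * Q')) + 2 / 9 * (q ^ 2 * Q' ^ 2) := by
      ring
    linarith
  have e4 : 2 * q * Q' + Q' ^ 2 ≤ q ^ 2 / 18 := by
    have f1 : 2 * q * Q' ≤ 2 * q * (1 / 40 * q) := mul_le_mul_of_nonneg_left hQ'q (by positivity)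
    have f2 : Q' ^ 2 ≤ (1 / 40 * q) ^ 2 := pow_le_pow_left₀ hQ'0 hQ'q 2
    have f3 : 0 ≤ q ^ 2 := sq_nonneg q
    have f4 : 2 * q * (1 / 40 * q) + (1 / 40 * q) ^ 2 = 81 / 1600 * q ^ 2 := by ring
    linarith
  have e5 : (1 - 2 * (q ^ 2 / 9)) * R = R - 2 * (q ^ 2 / 9) * R := by ring
  linarith

theorem qq_kap_ge {b : ℕ} (hb : 2 ≤ b) : ∃ c : ℝ, 0 < c ∧ ∀ s : ℝ, 0 < s → s ≤ 1 / 2 →
    ∃ n₀ : ℕ, ∀ (θ : ℝ) (n : ℕ), n₀ ≤ n → 0 ≤ θ → b * θ ^ 2 ≤ 1 → 1 - b * θ ^ 2 ≤ qs s →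
    c * qs s ≤ qq (kap (own 0 s) θ b n) := by
  have hb' : (2 : ℝ) ≤ b := by exact_mod_cast hb
  refine ⟨1 / 40, by norm_num, fun s hs hs' => ?_⟩
  have hq0 := qs_pos hs
  have hq1 := qs_le_half hs.le hs'
  have hown := symLaw_own 0 hs.le hs'
  have hqown : qq (own 0 s) = qs s ^ 2 / 9 := by
    rw [own_zero hs.le hs', qq_nu hs.le hs', qs_sq hs.le]
  set q := qs s with hq
  obtain ⟨n₀, hn₀⟩ := exists_nat_ge (1 / q)
  refine ⟨n₀, fun θ n hn h0 hθ hg => ?_⟩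
  have h1 := theta_lt_one hb h0 hθ
  have key : ∀ n : ℕ, min (1 / 40 * q) (n * (q ^ 2 / 18)) ≤ qq (kap (own 0 s) θ b n) := by
    intro n
    induction n with
    | zero =>
      refine (min_le_right _ _).trans ?_
      simp only [Nat.cast_zero, zero_mul]
      exact qq_nonneg _
    | succ n ih =>
      have hk := hown.kap h0 h1 b n
      have hm := hk.map_psi h0 h1
      have hQ0 := qq_nonneg (kap (own 0 s) θ b n)
      have hQ1 := qq_le_one hk
      have hx : qq ((kap (own 0 s) θ b n).map (psi θ)) = θ ^ 2 * qq (kap (own 0 s) θ b n) :=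
        qq_map_psi hk h0 h1
      set Q := qq (kap (own 0 s) θ b n) with hQ
      have hθ2 : θ ^ 2 ≤ 1 / 2 := by nlinarith [sq_nonneg θ]
      have hsp := qq_starpow_ge hm (by rw [hx]; nlinarith) b
      rw [hx] at hsp
      have hst := qq_star_ge hown (hm.starpow b)
      set R := qq (starpow ((kap (own 0 s) θ b n).map (psi θ)) b) with hR
      show _ ≤ qq (star (own 0 s) (starpow ((kap (own 0 s) θ b n).map (psi θ)) b))
      refine le_trans ?_ hst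
      -- monotonicity in `Q`
      set Q' := min (1 / 40 * q) Q with hQ'
      have hQ'0 : 0 ≤ Q' := le_min (by positivity) hQ0
      have hQ'Q : Q' ≤ Q := min_le_right _ _
      have hQ'q : Q' ≤ 1 / 40 * q := min_le_left _ _
      have hx0 : 0 ≤ θ ^ 2 * Q' := by positivity
      have hxx : θ ^ 2 * Q' ≤ θ ^ 2 * Q := mul_le_mul_of_nonneg_left hQ'Q (sq_nonneg _)
      have hx1 : 2 * (θ ^ 2 * Q) ≤ 1 := by nlinarith
      have hpow : (1 - 2 * (θ ^ 2 * Q)) ^ b ≤ (1 - 2 * (θ ^ 2 * Q')) ^ b :=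
        pow_le_pow_left₀ (by linarith) (by linarith) b
      have hp := pow_le_aux (x := 2 * (θ ^ 2 * Q')) (by linarith) (by linarith) b
      -- `y = b θ² Q'`
      set y := b * θ ^ 2 * Q' with hy
      have hy1 : y ≤ Q' := by
        calc y = (b * θ ^ 2) * Q' := rfl
          _ ≤ 1 * Q' := mul_le_mul_of_nonneg_right hθ hQ'0
          _ = Q' := one_mul _
      have hy0 : 0 ≤ y := by positivity
      have hy2 : (1 - q) * Q' ≤ y := mul_le_mul_of_nonneg_right (by linarith) hQ'0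
      have hRy : y - y ^ 2 ≤ R := by
        have e1 : (b : ℝ) * (2 * (θ ^ 2 * Q')) = 2 * y := by rw [hy]; ring
        rw [e1] at hp
        linarith
      have hRy2 : (1 - q) * Q' - Q' ^ 2 ≤ R := by nlinarith
      rw [hqown]
      have hR0 : 0 ≤ R := qq_nonneg _
      -- bound below by `Q' + q²/18`
      have hgoal1 : Q' + q ^ 2 / 18 ≤ q ^ 2 / 9 + R - 2 * (q ^ 2 / 9) * R :=
        num_aux hq0.le hq1 hQ'0 hQ'q hRy2
      refine le_trans ?_ hgoal1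
      have hq18 : 0 ≤ q ^ 2 / 18 := by positivity
      have ih' : min (1 / 40 * q) (n * (q ^ 2 / 18)) ≤ Q' := le_min (min_le_left _ _) ih
      rcases le_total (1 / 40 * q) (n * (q ^ 2 / 18)) with hc | hc
      · rw [min_eq_left hc] at ih'
        exact (min_le_left _ _).trans (by linarith)
      · rw [min_eq_right hc] at ih'
        refine (min_le_right _ _).trans ?_
        push_cast
        linarith
  refine le_trans (le_min le_rfl ?_) (key n)
  have hn' : (1 / q : ℝ) ≤ n := hn₀.trans (by exact_mod_cast hn)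
  have : 1 / q * (q ^ 2 / 18) ≤ n * (q ^ 2 / 18) := mul_le_mul_of_nonneg_right hn' (by positivity)
  have e : 1 / q * (q ^ 2 / 18) = q / 18 := by field_simp
  rw [e] at this
  linarith

theorem qq_kap_ge_own {B : ℝ} {κ : Measure ℝ} (h : SymLaw B κ) {θ : ℝ} (h0 : 0 ≤ θ)
    (h1 : θ < 1) (b n : ℕ) : qq κ ≤ qq (kap κ θ b n) := by
  cases n with
  | zero => exact le_rfl
  | succ n => exact qq_le_star_left h (((h.kap h0 h1 b n).map_psi h0 h1).starpow b)

end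

end Crest.Agent.Lib.Row160
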