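import Crest.Agent.Lib.Row160.Star
import Crest.Agent.Lib.Row160.Info

/-!
Row 160 (S0241), chunk M8c: exponential moments of the density evolution.
-/

set_option autoImplicit false
open MeasureTheory Filter Topology

namespace Crest.Agent.Lib.Row160




/-! scalar inequalities -/

theorem em_sinh_cosh {t h : ℝ} (h0 : 0 ≤ t) (h1 : t ≤ 1) (hh : 0 ≤ h) :
    t * Real.sinh h * Real.cosh (t * h) ≤ Real.sinh (t * h) * Real.cosh h := by
  have hd : ∀ x : ℝ, HasDerivAt (fun x => Real.sinh (t * x) * Real.cosh x - t * Real.sinh x * Real.cosh (t * x))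
      ((1 - t ^ 2) * (Real.sinh (t * x) * Real.sinh x)) x := by
    intro x
    have e1 : HasDerivAt (fun x => t * x) t x := by simpa using (hasDerivAt_id x).const_mul t
    have e2 := (e1.sinh.mul (Real.hasDerivAt_cosh x)).sub (((Real.hasDerivAt_sinh x).const_mul t).mul e1.cosh)
    refine e2.congr_deriv ?_
    ring
  have hm : MonotoneOn (fun x => Real.sinh (t * x) * Real.cosh x - t * Real.sinh x * Real.cosh (t * x)) (Set.Ici 0) := by
    refine monotoneOn_of_deriv_nonneg (convex_Ici 0) (fun x _ => (hd x).continuousAt.continuousWithinAt)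
      (fun x _ => (hd x).differentiableAt.differentiableWithinAt) ?_
    intro x hx
    rw [interior_Ici] at hx
    rw [(hd x).deriv]
    have hx' : (0:ℝ) ≤ x := le_of_lt hx
    have e3 : 0 ≤ Real.sinh (t * x) := Real.sinh_nonneg_iff.2 (mul_nonneg h0 hx')
    have e4 : 0 ≤ Real.sinh x := Real.sinh_nonneg_iff.2 hx'
    have e5 : 0 ≤ 1 - t ^ 2 := by nlinarith
    positivity
  have := hm (Set.mem_Ici.2 le_rfl) (Set.mem_Ici.2 hh) hh
  simp only [mul_zero, Real.sinh_zero, zero_mul, sub_zero] at this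
  linarith

theorem em_tanh_mul {t h : ℝ} (h0 : 0 ≤ t) (h1 : t ≤ 1) (hh : 0 ≤ h) :
    t * Real.tanh h ≤ Real.tanh (t * h) := by
  rw [Real.tanh_eq_sinh_div_cosh, Real.tanh_eq_sinh_div_cosh, ← mul_div_assoc,
    div_le_div_iff₀ (Real.cosh_pos _) (Real.cosh_pos _)]
  exact em_sinh_cosh h0 h1 hh

theorem em_tanh_nonneg {h : ℝ} (hh : 0 ≤ h) : 0 ≤ Real.tanh h := by
  rw [Real.tanh_eq_sinh_div_cosh]
  exact div_nonneg (Real.sinh_nonneg_iff.2 hh) (Real.cosh_pos _).le

theorem em_tanh_le {h : ℝ} (hh : 0 ≤ h) : Real.tanh h ≤ h := by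
  have hd : ∀ x : ℝ, HasDerivAt (fun x => x * Real.cosh x - Real.sinh x) (x * Real.sinh x) x := by
    intro x
    have e2 := ((hasDerivAt_id x).mul (Real.hasDerivAt_cosh x)).sub (Real.hasDerivAt_sinh x)
    refine e2.congr_deriv ?_
    simp
  have hm : MonotoneOn (fun x => x * Real.cosh x - Real.sinh x) (Set.Ici 0) := by
    refine monotoneOn_of_deriv_nonneg (convex_Ici 0) (fun x _ => (hd x).continuousAt.continuousWithinAt)
      (fun x _ => (hd x).differentiableAt.differentiableWithinAt) ?_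
    intro x hx
    rw [interior_Ici] at hx
    rw [(hd x).deriv]
    have hx' : (0:ℝ) ≤ x := le_of_lt hx
    have e4 : 0 ≤ Real.sinh x := Real.sinh_nonneg_iff.2 hx'
    positivity
  have := hm (Set.mem_Ici.2 le_rfl) (Set.mem_Ici.2 hh) hh
  simp only [Real.sinh_zero, zero_mul, sub_zero] at this
  rw [Real.tanh_eq_sinh_div_cosh, div_le_iff₀ (Real.cosh_pos _)]
  linarith

theorem em_tanh_mem (x : ℝ) : Real.tanh x ∈ Set.Ioo (-1 : ℝ) 1 := ⟨Real.neg_one_lt_tanh x, Real.tanh_lt_one x⟩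

theorem em_mul_tanh_mem {t : ℝ} (h0 : 0 ≤ t) (h1 : t ≤ 1) (x : ℝ) : t * Real.tanh x ∈ Set.Ioo (-1 : ℝ) 1 := by
  have h2 := Real.neg_one_lt_tanh x
  have h3 := Real.tanh_lt_one x
  constructor <;> nlinarith

theorem em_tanh_psi {t : ℝ} (h0 : 0 ≤ t) (h1 : t ≤ 1) (x : ℝ) : Real.tanh (psi t x) = t * Real.tanh x :=
  Real.tanh_artanh (em_mul_tanh_mem h0 h1 x)

theorem em_psi_neg (t x : ℝ) : psi t (-x) = - psi t x := by
  unfold psi Real.artanh
  rw [Real.tanh_neg, mul_neg, ← sub_eq_add_neg, sub_neg_eq_add, ← Real.log_inv, ← Real.sqrt_inv, inv_div]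

theorem em_psi_nonneg {t x : ℝ} (h0 : 0 ≤ t) (hx : 0 ≤ x) : 0 ≤ psi t x :=
  Real.artanh_nonneg (mul_nonneg h0 (em_tanh_nonneg hx))

theorem em_psi_le {t x : ℝ} (h0 : 0 ≤ t) (h1 : t ≤ 1) (hx : 0 ≤ x) : psi t x ≤ t * x := by
  unfold psi
  rw [← Real.artanh_tanh (t * x)]
  exact Real.artanh_le_artanh (em_mul_tanh_mem h0 h1 x).1 (Real.tanh_lt_one _) (em_tanh_mul h0 h1 hx)

theorem em_abs_psi_le {t : ℝ} (h0 : 0 ≤ t) (h1 : t ≤ 1) (x : ℝ) : |psi t x| ≤ t * |x| := by
  rcases le_total 0 x with hx | hx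
  · rw [abs_of_nonneg (em_psi_nonneg h0 hx), abs_of_nonneg hx]
    exact em_psi_le h0 h1 hx
  · have h2 : psi t x = - psi t (-x) := by rw [em_psi_neg, neg_neg]
    have hx' : 0 ≤ -x := by linarith
    rw [h2, abs_neg, abs_of_nonneg (em_psi_nonneg h0 hx'), abs_of_nonpos hx]
    exact em_psi_le h0 h1 hx'

theorem em_abs_tanh_le (x : ℝ) : |Real.tanh x| ≤ |x| := by
  rcases le_total 0 x with hx | hx
  · rw [abs_of_nonneg (em_tanh_nonneg hx), abs_of_nonneg hx]
    exact em_tanh_le hx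
  · have hx' : 0 ≤ -x := by linarith
    have h2 : Real.tanh x = - Real.tanh (-x) := by rw [Real.tanh_neg, neg_neg]
    rw [h2, abs_neg, abs_of_nonneg (em_tanh_nonneg hx'), abs_of_nonpos hx]
    exact em_tanh_le hx'

/-- `h² ≤ D tanh² h` for `|h| ≤ R`. -/
theorem em_sq_le_tanh {R : ℝ} (hR : 0 < R) {h : ℝ} (hh : |h| ≤ R) :
    h ^ 2 ≤ (R / Real.tanh R) ^ 2 * Real.tanh h ^ 2 := by
  have hT : 0 < Real.tanh R := by
    rw [Real.tanh_eq_sinh_div_cosh]
    exact div_pos (Real.sinh_pos_iff.2 hR) (Real.cosh_pos _)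
  have key : ∀ x, 0 ≤ x → x ≤ R → x ≤ R / Real.tanh R * Real.tanh x := by
    intro x hx hxR
    have h1 := em_tanh_mul (t := x / R) (h := R) (by positivity) (by rw [div_le_one hR]; exact hxR) hR.le
    rw [div_mul_cancel₀ _ hR.ne'] at h1
    rw [div_mul_eq_mul_div, le_div_iff₀ hT]
    have h2 := mul_le_mul_of_nonneg_left h1 hR.le
    calc x * Real.tanh R = R * (x / R * Real.tanh R) := by field_simp
      _ ≤ R * Real.tanh x := h2
  rcases le_total 0 h with h0 | h0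
  · rw [abs_of_nonneg h0] at hh
    have := key h h0 hh
    rw [← mul_pow]
    exact pow_le_pow_left₀ h0 this 2
  · rw [abs_of_nonpos h0] at hh
    have := key (-h) (by linarith) hh
    rw [Real.tanh_neg] at this
    have h3 := pow_le_pow_left₀ (by linarith : 0 ≤ -h) this 2
    calc h ^ 2 = (-h) ^ 2 := by ring
      _ ≤ _ := h3
      _ = _ := by ring

/-- `cosh` fourth order remainder. -/
noncomputable def em_c4 (u : ℝ) : ℝ := Real.cosh u - 1 - u ^ 2 / 2

theorem em_c4_nonneg (u : ℝ) : 0 ≤ em_c4 u := by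
  have h := Real.hasSum_cosh u
  have h2 := sum_le_hasSum (Finset.range 2) (fun i _ => by
    rw [pow_mul]; positivity) h
  simp [Finset.sum_range_succ] at h2
  unfold em_c4
  linarith

theorem em_pow_le_cosh (u : ℝ) (p : ℕ) : u ^ (2 * p) ≤ ((2 * p).factorial : ℝ) * Real.cosh u := by
  have h := Real.hasSum_cosh u
  have h2 := le_hasSum h p (fun i _ => by rw [pow_mul]; positivity)
  rw [div_le_iff₀ (by positivity)] at h2
  linarith

theorem em_cosh_mul {t u : ℝ} (h0 : 0 ≤ t) (h1 : t ≤ 1) :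
    Real.cosh (t * u) ≤ 1 + t ^ 2 * u ^ 2 / 2 + t ^ 4 * em_c4 u := by
  have h := ((Real.hasSum_cosh u).mul_left (t ^ 4)).sub (Real.hasSum_cosh (t * u))
  have h2 := sum_le_hasSum (Finset.range 2) (fun i hi => ?_) h
  · simp [Finset.sum_range_succ] at h2
    unfold em_c4
    nlinarith
  · rw [Finset.mem_range, not_lt] at hi
    have e1 : (t * u) ^ (2 * i) ≤ t ^ 4 * u ^ (2 * i) := by
      rw [mul_pow]
      refine mul_le_mul_of_nonneg_right (pow_le_pow_of_le_one h0 h1 (by omega)) ?_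
      rw [pow_mul]; positivity
    rw [← mul_div_assoc, ← sub_div]
    refine div_nonneg (by linarith) (by positivity)

theorem em_sinh_mul {t u : ℝ} (h0 : 0 ≤ t) (h1 : t ^ 2 ≤ 1 / 2) :
    (t * u) * Real.sinh (t * u) ≤ t ^ 2 * u ^ 2 + em_c4 u := by
  have hc := (hasSum_nat_add_iff' 1).2 (Real.hasSum_cosh u)
  have hs := (Real.hasSum_sinh (t * u)).mul_left (t * u)
  have h := hc.sub hs
  have h2 := sum_le_hasSum (Finset.range 1) (fun i hi => ?_) h
  · simp at h2
    unfold em_c4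
    nlinarith
  · have e0 : (t * u) * ((t * u) ^ (2 * i + 1) / ((2 * i + 1).factorial : ℝ)) = (t * u) ^ (2 * (i + 1)) / ((2 * i + 1).factorial : ℝ) := by
      rw [← mul_div_assoc]
      congr 1
      ring
    have e1 : ((2 * (i + 1)).factorial : ℝ) = (2 * (i + 1) : ℝ) * ((2 * i + 1).factorial : ℝ) := by
      rw [show 2 * (i + 1) = (2 * i + 1) + 1 by ring, Nat.factorial_succ]
      push_cast
      ring
    have e2 : (2 * ((i : ℝ) + 1)) * t ^ (2 * (i + 1)) ≤ 1 := by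
      have e3 : t ^ (2 * (i + 1)) ≤ (1 / 2 : ℝ) ^ (i + 1) := by
        rw [pow_mul]
        exact pow_le_pow_left₀ (by positivity) h1 _
      have e4 : ((i : ℝ) + 1) ≤ 2 ^ i := by
        have : i + 1 ≤ 2 ^ i := Nat.lt_two_pow_self
        exact_mod_cast this
      calc (2 * ((i : ℝ) + 1)) * t ^ (2 * (i + 1)) ≤ (2 * 2 ^ i) * (1 / 2 : ℝ) ^ (i + 1) := by
            gcongr
        _ = 1 := by
            rw [one_div, inv_pow, pow_succ]
            field_simp
    rw [e0, e1, sub_nonneg, mul_pow]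
    have hf : (0 : ℝ) < ((2 * i + 1).factorial : ℝ) := by positivity
    have hu : (0 : ℝ) ≤ u ^ (2 * (i + 1)) := by rw [pow_mul]; positivity
    rw [div_le_div_iff₀ hf (by positivity)]
    have := mul_le_mul_of_nonneg_right e2 (mul_nonneg hu hf.le)
    calc t ^ (2 * (i + 1)) * u ^ (2 * (i + 1)) * (2 * ((i:ℝ) + 1) * ((2 * i + 1).factorial : ℝ))
        = (2 * ((i : ℝ) + 1)) * t ^ (2 * (i + 1)) * (u ^ (2 * (i + 1)) * ((2 * i + 1).factorial : ℝ)) := by ring
      _ ≤ 1 * (u ^ (2 * (i + 1)) * ((2 * i + 1).factorial : ℝ)) := this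
      _ = _ := by ring


/-! measure part -/

theorem em_ae {B : ℝ} {κ : Measure ℝ} (h : SymLaw B κ) : ∀ᵐ x ∂κ, x ∈ Set.Icc (-B) B := by
  rw [ae_iff]
  exact h.2.2

theorem em_integrable {B : ℝ} {κ : Measure ℝ} (h : SymLaw B κ) {f : ℝ → ℝ} (hf : Continuous f) :
    Integrable f κ := by
  have := h.1
  obtain ⟨C, hC⟩ := (isCompact_Icc (a := -B) (b := B)).exists_bound_of_continuousOn hf.continuousOn
  refine Integrable.of_bound hf.aestronglyMeasurable C ?_
  filter_upwards [em_ae h] with x hx using hC x hx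

theorem em_cont_tanh : Continuous Real.tanh := by
  have : Real.tanh = fun x => Real.sinh x / Real.cosh x := funext Real.tanh_eq_sinh_div_cosh
  rw [this]
  exact Real.continuous_sinh.div Real.continuous_cosh fun x => (Real.cosh_pos x).ne'

theorem em_cont_c4 : Continuous em_c4 := by
  unfold em_c4
  fun_prop

theorem em_meas_psi (t : ℝ) : Measurable (psi t) := by
  unfold psi Real.artanh
  have := em_cont_tanh.measurable
  fun_prop

/-- `F(l) = ∫ (1 + tanh h) e^{l h}`. -/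
noncomputable def em_F (l : ℝ) (κ : Measure ℝ) : ℝ := ∫ x, (1 + Real.tanh x) * Real.exp (l * x) ∂κ

theorem em_F_eq {B : ℝ} {κ : Measure ℝ} (h : SymLaw B κ) (l : ℝ) :
    em_F l κ = ∫ x, (Real.cosh (l * x) + Real.tanh x * Real.sinh (l * x)) ∂κ := by
  have hc := em_cont_tanh
  have hg : Continuous (fun x => (1 + Real.tanh x) * Real.exp (l * x)) := by fun_prop
  have hg' : Continuous (fun x => (1 + Real.tanh (-x)) * Real.exp (l * (-x))) := by fun_prop
  have h1 : em_F l κ = ∫ x, (1 + Real.tanh (-x)) * Real.exp (l * (-x)) ∂κ := by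
    unfold em_F
    conv_lhs => rw [← h.2.1]
    rw [integral_map measurable_neg.aemeasurable hg.aestronglyMeasurable]
  have h2 : em_F l κ + em_F l κ = 2 * ∫ x, (Real.cosh (l * x) + Real.tanh x * Real.sinh (l * x)) ∂κ := by
    conv_lhs => rw [h1]
    conv_lhs => enter [1]; rw [← h1]; unfold em_F
    rw [← integral_add (em_integrable h hg) (em_integrable h hg'), ← integral_const_mul]
    congr 1
    funext x
    rw [Real.tanh_neg, Real.cosh_eq, Real.sinh_eq, mul_neg]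
    ring
  linarith

theorem em_le_F {B : ℝ} {κ : Measure ℝ} (h : SymLaw B κ) {l : ℝ} (hl : 0 ≤ l) :
    ∫ x, Real.cosh (l * x) ∂κ ≤ em_F l κ := by
  have hc := em_cont_tanh
  rw [em_F_eq h]
  refine integral_mono (em_integrable h (by fun_prop)) (em_integrable h (by fun_prop)) fun x => ?_
  have h1 : 0 ≤ Real.tanh x * Real.sinh (l * x) := by
    rcases le_total 0 x with hx | hx
    · exact mul_nonneg (em_tanh_nonneg hx) (Real.sinh_nonneg_iff.2 (mul_nonneg hl hx))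
    · have h2 : Real.tanh x = - Real.tanh (-x) := by rw [Real.tanh_neg, neg_neg]
      have h3 : Real.tanh x ≤ 0 := by
        rw [h2]
        have := em_tanh_nonneg (h := -x) (by linarith)
        linarith
      exact mul_nonneg_of_nonpos_of_nonpos h3 (Real.sinh_nonpos_iff.2 (mul_nonpos_of_nonneg_of_nonpos hl hx))
  simp only
  linarith

theorem em_c4_le_F {B : ℝ} {κ : Measure ℝ} (h : SymLaw B κ) {l : ℝ} (hl : 0 ≤ l) :
    1 + ∫ x, em_c4 (l * x) ∂κ ≤ em_F l κ := by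
  have hc := em_cont_c4
  have := h.1
  refine le_trans ?_ (em_le_F h hl)
  have h1 : (1 : ℝ) + ∫ x, em_c4 (l * x) ∂κ = ∫ x, (1 + em_c4 (l * x)) ∂κ := by
    rw [integral_add (em_integrable h (by fun_prop)) (em_integrable h (by fun_prop))]
    simp
  rw [h1]
  refine integral_mono (em_integrable h (by fun_prop)) (em_integrable h (by fun_prop)) fun x => ?_
  unfold em_c4
  simp only
  nlinarith [sq_nonneg (l * x)]

theorem em_F_dirac (l : ℝ) : em_F l (Measure.dirac 0) = 1 := by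
  unfold em_F
  rw [integral_dirac]
  simp

theorem em_F_starpow {B : ℝ} {κ : Measure ℝ} (h : SymLaw B κ) (l : ℝ) (n : ℕ) :
    em_F l (starpow κ n) = em_F l κ ^ n := by
  induction n with
  | zero => rw [pow_zero]; exact em_F_dirac l
  | succ n ih =>
    have : em_F l (starpow κ (n + 1)) = em_F l κ * em_F l (starpow κ n) := star_mgf h (h.starpow n) l
    rw [this, ih, pow_succ']

theorem em_F_psi_le {B : ℝ} {κ : Measure ℝ} (h : SymLaw B κ) {t l : ℝ} (h0 : 0 ≤ t) (h1 : t < 1)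
    (h2 : t ^ 2 ≤ 1 / 2) (hl : 0 < l) :
    em_F l (κ.map (psi t)) ≤ 1 + (t ^ 2 / 2 + t ^ 2 / l) * l ^ 2 * (∫ x, x ^ 2 ∂κ)
      + (t ^ 4 + 1 / l) * ∫ x, em_c4 (l * x) ∂κ := by
  have := h.1
  have hc := em_cont_tanh
  have hc4 := em_cont_c4
  have hG : Continuous (fun x => Real.cosh (l * x) + Real.tanh x * Real.sinh (l * x)) := by fun_prop
  have hm := em_meas_psi t
  rw [em_F_eq (h.map_psi h0 h1), integral_map hm.aemeasurable hG.aestronglyMeasurable]
  have hint := (integrable_map_measure hG.aestronglyMeasurable hm.aemeasurable).1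
    (em_integrable (h.map_psi h0 h1) hG)
  have hrhs : 1 + (t ^ 2 / 2 + t ^ 2 / l) * l ^ 2 * (∫ x, x ^ 2 ∂κ)
      + (t ^ 4 + 1 / l) * ∫ x, em_c4 (l * x) ∂κ
      = ∫ x, (1 + (t ^ 2 / 2 + t ^ 2 / l) * l ^ 2 * x ^ 2 + (t ^ 4 + 1 / l) * em_c4 (l * x)) ∂κ := by
    rw [integral_add (em_integrable h (by fun_prop)) (em_integrable h (by fun_prop)),
      integral_add (em_integrable h (by fun_prop)) (em_integrable h (by fun_prop)),
      integral_const_mul, integral_const_mul]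
    simp
  rw [hrhs]
  refine integral_mono hint (em_integrable h (by fun_prop)) fun x => ?_
  simp only [em_tanh_psi h0 h1.le]
  have e1 : Real.cosh (l * psi t x) ≤ 1 + t ^ 2 * (l * x) ^ 2 / 2 + t ^ 4 * em_c4 (l * x) := by
    refine le_trans ?_ (em_cosh_mul h0 h1.le)
    rw [Real.cosh_le_cosh, abs_mul, abs_mul, abs_mul, abs_of_pos hl, abs_of_nonneg h0]
    have := em_abs_psi_le h0 h1.le x
    nlinarith
  have e2 : t * Real.tanh x * Real.sinh (l * psi t x) ≤ 1 / l * (t ^ 2 * (l * x) ^ 2 + em_c4 (l * x)) := by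
    have key : ∀ y : ℝ, 0 ≤ y → t * Real.tanh y * Real.sinh (l * psi t y) ≤ 1 / l * (t ^ 2 * (l * y) ^ 2 + em_c4 (l * y)) := by
      intro y hy
      have f1 := em_sinh_mul (u := l * y) h0 h2
      have f2 : Real.sinh (l * psi t y) ≤ Real.sinh (t * (l * y)) := by
        rw [Real.sinh_le_sinh]
        have := em_psi_le h0 h1.le hy
        nlinarith
      have f3 : 0 ≤ Real.sinh (l * psi t y) := Real.sinh_nonneg_iff.2 (mul_nonneg hl.le (em_psi_nonneg h0 hy))
      calc t * Real.tanh y * Real.sinh (l * psi t y) ≤ t * y * Real.sinh (t * (l * y)) := by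
            refine mul_le_mul (mul_le_mul_of_nonneg_left (em_tanh_le hy) h0) f2 f3 (mul_nonneg h0 hy)
        _ = 1 / l * ((t * (l * y)) * Real.sinh (t * (l * y))) := by field_simp
        _ ≤ _ := mul_le_mul_of_nonneg_left f1 (by positivity)
    rcases le_total 0 x with hx | hx
    · exact key x hx
    · have := key (-x) (by linarith)
      rw [Real.tanh_neg, em_psi_neg, mul_neg, mul_neg, Real.sinh_neg, mul_neg] at this
      have e3 : em_c4 (-(l * x)) = em_c4 (l * x) := by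
        unfold em_c4; rw [Real.cosh_neg, neg_sq]
      have e4 : l * -x = -(l * x) := by ring
      rw [e4, e3, neg_sq] at this
      linarith
  calc Real.cosh (l * psi t x) + t * Real.tanh x * Real.sinh (l * psi t x)
      ≤ (1 + t ^ 2 * (l * x) ^ 2 / 2 + t ^ 4 * em_c4 (l * x)) + 1 / l * (t ^ 2 * (l * x) ^ 2 + em_c4 (l * x)) :=
        add_le_add e1 e2
    _ = _ := by ring

/-! the recursion -/

theorem em_tanh_one : (1 : ℝ) / 2 ≤ Real.tanh 1 := by
  rw [Real.tanh_eq, le_div_iff₀ (by positivity)]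
  have h1 := Real.exp_one_gt_d9
  have h2 : Real.exp (-1) * Real.exp 1 = 1 := by rw [← Real.exp_add]; simp
  have h3 : 0 < Real.exp (-1) := Real.exp_pos _
  nlinarith

theorem em_artanh_le {s : ℝ} (hs : 0 ≤ s) (hs' : s ≤ 1 / 2) : Real.artanh s ≤ 2 * s := by
  have h1 := em_tanh_mul (t := 2 * s) (h := 1) (by linarith) (by linarith) (by norm_num)
  rw [mul_one] at h1
  have h2 : s ≤ Real.tanh (2 * s) := by
    have := mul_le_mul_of_nonneg_left em_tanh_one (by linarith : 0 ≤ 2 * s)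
    linarith
  rw [← Real.artanh_tanh (2 * s)]
  exact Real.artanh_le_artanh (by linarith) (Real.tanh_lt_one _) h2

theorem em_cosh_le {u : ℝ} (hu : u ^ 2 ≤ 1) : Real.cosh u ≤ 1 + u ^ 2 := by
  have h1 := Real.cosh_le_exp_half_sq u
  have h2 : |u ^ 2 / 2| ≤ 1 := by rw [abs_of_nonneg (by positivity)]; linarith
  have h3 := Real.abs_exp_sub_one_sub_id_le h2
  rw [abs_le] at h3
  nlinarith [h3.2, sq_nonneg u]

theorem em_own_F {s l K : ℝ} (hs : 0 < s) (hs' : s ≤ 1 / 2) (hl : 1 ≤ l) (hK : l ^ 2 * s ^ 2 ≤ K)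
    (hK' : K ≤ 1 / 4) : em_F l (own 0 s) ≤ 1 + 12 * K := by
  have hsym : SymLaw (Real.artanh s) (own 0 s) := by
    rw [own_zero hs.le hs']; exact symLaw_nu hs.le hs'
  have := hsym.1
  have hc := em_cont_tanh
  rw [em_F_eq hsym]
  have h1 : ∀ᵐ x ∂(own 0 s), Real.cosh (l * x) + Real.tanh x * Real.sinh (l * x) ≤ 1 + 12 * K := by
    filter_upwards [em_ae hsym] with x hx
    have hx2 : |x| ≤ 2 * s := (abs_le.2 hx).trans (em_artanh_le hs.le hs')
    have hx3 : x ^ 2 ≤ 4 * s ^ 2 := by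
      have := pow_le_pow_left₀ (abs_nonneg x) hx2 2
      rw [sq_abs] at this
      linarith
    have hu : (l * x) ^ 2 ≤ 4 * K := by
      have := mul_le_mul_of_nonneg_left hx3 (sq_nonneg l)
      nlinarith
    have e1 := em_cosh_le (u := l * x) (by linarith)
    have e2 : Real.tanh x * Real.sinh (l * x) ≤ 2 * (l * x) ^ 2 := by
      have key : ∀ y : ℝ, 0 ≤ y → (l * y) ^ 2 ≤ 1 → Real.tanh y * Real.sinh (l * y) ≤ 2 * (l * y) ^ 2 := by
        intro y hy hy1
        have f1 := em_cosh_le hy1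
        have f2 : Real.sinh (l * y) ≤ (l * y) * Real.cosh (l * y) := by
          have := em_tanh_le (h := l * y) (by positivity)
          rw [Real.tanh_eq_sinh_div_cosh, div_le_iff₀ (Real.cosh_pos _)] at this
          exact this
        have f3 : 0 ≤ l * y := by positivity
        have f4 : Real.sinh (l * y) ≤ 2 * (l * y) := by nlinarith
        have f5 : 0 ≤ Real.sinh (l * y) := Real.sinh_nonneg_iff.2 f3
        calc Real.tanh y * Real.sinh (l * y) ≤ (l * y) * (2 * (l * y)) := by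
              refine mul_le_mul ?_ f4 f5 f3
              have := em_tanh_le hy
              nlinarith
          _ = 2 * (l * y) ^ 2 := by ring
      rcases le_total 0 x with h0 | h0
      · exact key x h0 (by linarith)
      · have := key (-x) (by linarith) (by rw [mul_neg, neg_sq]; linarith)
        rw [Real.tanh_neg, mul_neg, Real.sinh_neg, neg_sq] at this
        linarith
    linarith
  have h2 := integral_mono_ae (em_integrable hsym (f := fun x => Real.cosh (l * x) + Real.tanh x * Real.sinh (l * x)) (by fun_prop))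
    (integrable_const (1 + 12 * K)) h1
  simpa using h2

theorem em_qs_pos {s : ℝ} (hs : 0 < s) : 0 < qs s := by
  unfold qs; positivity

theorem em_sq_le_qs {s : ℝ} (hs : 0 < s) (hs' : s ≤ 1 / 2) : s ^ 2 ≤ qs s := by
  unfold qs
  apply Real.le_sqrt_of_sq_le
  have : s ^ 4 ≤ s ^ 3 := pow_le_pow_of_le_one hs.le (by linarith) (by norm_num)
  nlinarith

theorem em_theta {b : ℕ} (hb : 2 ≤ b) {t : ℝ} (h0 : 0 ≤ t) (h : b * t ^ 2 ≤ 1) :
    t ^ 2 ≤ 1 / 2 ∧ t ≤ 3 / 4 := by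
  have hb' : (2 : ℝ) ≤ b := by exact_mod_cast hb
  have h1 : t ^ 2 ≤ 1 / 2 := by nlinarith [sq_nonneg t]
  refine ⟨h1, ?_⟩
  nlinarith

/-- bound of the support. -/
noncomputable def em_B (b : ℕ) : ℝ := Real.artanh (1 / 2) + (b + 1) * Real.artanh (3 / 4)

theorem em_B_pos (b : ℕ) : 0 < em_B b := by
  unfold em_B
  have h1 : 0 < Real.artanh (1 / 2) := Real.artanh_pos (by norm_num)
  have h2 : 0 < Real.artanh (3 / 4) := Real.artanh_pos (by norm_num)
  positivity

theorem em_supp_kap {b : ℕ} (hb : 2 ≤ b) {t s : ℝ} (h0 : 0 ≤ t) (h : b * t ^ 2 ≤ 1) (hs : 0 < s)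
    (hs' : s ≤ 1 / 2) (n : ℕ) : ∃ B, B ≤ em_B b ∧ SymLaw B (kap (own 0 s) t b n) := by
  have h1 := em_theta hb h0 h
  refine ⟨_, ?_, (symLaw_own 0 hs.le hs').kap h0 (by linarith [h1.2]) b n⟩
  have h2 : Real.artanh t ≤ Real.artanh (3 / 4) := Real.artanh_le_artanh (by linarith) (by norm_num) h1.2
  have h3 : 0 < Real.artanh (3 / 4) := Real.artanh_pos (by norm_num)
  have hb' : (0 : ℝ) ≤ b := by positivity
  unfold em_B
  push_cast
  nlinarith

theorem em_supp_root {b : ℕ} (hb : 2 ≤ b) {t s : ℝ} (h0 : 0 ≤ t) (h : b * t ^ 2 ≤ 1) (hs : 0 < s)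
    (hs' : s ≤ 1 / 2) (n : ℕ) : ∃ B, B ≤ em_B b ∧ SymLaw B (rootLaw (own 0 s) t b n) := by
  have h1 := em_theta hb h0 h
  refine ⟨_, ?_, (symLaw_own 0 hs.le hs').rootLaw h0 (by linarith [h1.2]) b n⟩
  have h2 : Real.artanh t ≤ Real.artanh (3 / 4) := Real.artanh_le_artanh (by linarith) (by norm_num) h1.2
  have h3 : 0 < Real.artanh (3 / 4) := Real.artanh_pos (by norm_num)
  have hb' : (0 : ℝ) ≤ b := by positivity
  unfold em_B
  push_cast
  nlinarith

theorem em_second {b : ℕ} (hb : 2 ≤ b) : ∃ C : ℝ, 0 < C ∧ ∀ (θ s : ℝ) (n : ℕ), 0 ≤ θ →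
    b * θ ^ 2 ≤ 1 → 0 < s → s ≤ 1 / 2 → ∫ x, x ^ 2 ∂(kap (own 0 s) θ b n) ≤ C * qs s := by
  obtain ⟨C, hC, hq⟩ := qq_kap_le hb
  have hR := em_B_pos b
  refine ⟨(em_B b / Real.tanh (em_B b)) ^ 2 * C, ?_, ?_⟩
  · have hT : 0 < Real.tanh (em_B b) := by
      rw [Real.tanh_eq_sinh_div_cosh]
      exact div_pos (Real.sinh_pos_iff.2 hR) (Real.cosh_pos _)
    positivity
  · intro θ s n h0 h1 hs hs'
    obtain ⟨B, hB, hsym⟩ := em_supp_kap hb h0 h1 hs hs' n
    have := hsym.1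
    have hc := em_cont_tanh
    have h2 : ∫ x, x ^ 2 ∂(kap (own 0 s) θ b n) ≤ ∫ x, (em_B b / Real.tanh (em_B b)) ^ 2 * Real.tanh x ^ 2 ∂(kap (own 0 s) θ b n) := by
      refine integral_mono_ae (em_integrable hsym (by fun_prop)) (em_integrable hsym (by fun_prop)) ?_
      filter_upwards [em_ae hsym] with x hx
      exact em_sq_le_tanh hR ((abs_le.2 hx).trans hB)
    rw [integral_const_mul] at h2
    calc _ ≤ _ := h2
      _ = (em_B b / Real.tanh (em_B b)) ^ 2 * qq (kap (own 0 s) θ b n) := rfl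
      _ ≤ (em_B b / Real.tanh (em_B b)) ^ 2 * (C * qs s) := mul_le_mul_of_nonneg_left (hq θ s n h0 h1 hs.le hs') (by positivity)
      _ = _ := by ring

theorem em_one_le_F {B : ℝ} {κ : Measure ℝ} (h : SymLaw B κ) {l : ℝ} (hl : 0 ≤ l) : 1 ≤ em_F l κ := by
  have h1 := em_c4_le_F h hl
  have h2 : 0 ≤ ∫ x, em_c4 (l * x) ∂κ := integral_nonneg fun x => em_c4_nonneg _
  linarith

theorem em_main {b : ℕ} (hb : 2 ≤ b) : ∃ K : ℝ, 0 < K ∧ ∀ (θ s l : ℝ), 0 ≤ θ → b * θ ^ 2 ≤ 1 →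
    0 < s → s ≤ 1 / 2 → l ^ 2 * qs s = K → 4 * b ≤ l →
    (∀ n, em_F l (kap (own 0 s) θ b n) ≤ 11 / 10) ∧ (∀ n, em_F l (rootLaw (own 0 s) θ b n) ≤ 2) := by
  obtain ⟨C, hC, hm2⟩ := em_second hb
  have hb' : (2 : ℝ) ≤ b := by exact_mod_cast hb
  refine ⟨1 / (100 * (12 + 3 / 2 * C)), by positivity, ?_⟩
  intro θ s l h0 h1 hs hs' hl hbl
  set K := 1 / (100 * (12 + 3 / 2 * C)) with hK
  have hKp : 0 < K := by positivity
  have hK1 : 12 * K + 3 / 2 * C * K = 1 / 100 := by rw [hK]; field_simp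
  have hK2 : K ≤ 1 / 1200 := by nlinarith
  have hl1 : 1 ≤ l := by linarith
  have hl0 : 0 < l := by linarith
  obtain ⟨ht2, ht3⟩ := em_theta hb h0 h1
  have hqs := em_qs_pos hs
  have hown : em_F l (own 0 s) ≤ 1 + 12 * K := by
    refine em_own_F hs hs' hl1 ?_ (by linarith)
    rw [← hl]
    exact mul_le_mul_of_nonneg_left (em_sq_le_qs hs hs') (by positivity)
  have hown' : em_F l (own 0 s) ≤ Real.exp (12 * K) := by
    refine hown.trans ?_
    have := Real.add_one_le_exp (12 * K)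
    linarith
  have hown1 : 1 ≤ em_F l (own 0 s) := em_one_le_F (symLaw_own 0 hs.le hs') hl0.le
  -- one step
  have hstep : ∀ n, em_F l (kap (own 0 s) θ b n) ≤ 11 / 10 → ∃ E : ℝ, 0 ≤ E ∧ b * E ≤ 3 / 2 * C * K + 3 / 40 ∧
      em_F l ((kap (own 0 s) θ b n).map (psi θ)) ≤ Real.exp E := by
    intro n hn
    obtain ⟨B, _, hsym⟩ := em_supp_kap hb h0 h1 hs hs' n
    have hr0 : 0 ≤ ∫ x, em_c4 (l * x) ∂(kap (own 0 s) θ b n) := integral_nonneg fun x => em_c4_nonneg _
    have hr1 := em_c4_le_F hsym hl0.le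
    have hm0 : 0 ≤ ∫ x, x ^ 2 ∂(kap (own 0 s) θ b n) := integral_nonneg fun x => sq_nonneg _
    have hm1 := hm2 θ s n h0 h1 hs hs'
    have hF := em_F_psi_le hsym h0 (by linarith : θ < 1) ht2 hl0
    set r := ∫ x, em_c4 (l * x) ∂(kap (own 0 s) θ b n) with hr
    set m := ∫ x, x ^ 2 ∂(kap (own 0 s) θ b n) with hm
    refine ⟨(θ ^ 2 / 2 + θ ^ 2 / l) * l ^ 2 * m + (θ ^ 4 + 1 / l) * r, by positivity, ?_, ?_⟩
    · have hr2 : r ≤ 1 / 10 := by linarith
      have e1 : l ^ 2 * m ≤ C * K := by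
        rw [← hl]
        calc l ^ 2 * m ≤ l ^ 2 * (C * qs s) := mul_le_mul_of_nonneg_left hm1 (by positivity)
          _ = _ := by ring
      have e1' : 0 ≤ l ^ 2 * m := by positivity
      have hinv : 1 / l ≤ 1 := by rw [div_le_one hl0]; exact hl1
      have hinv0 : 0 < 1 / l := by positivity
      have e2 : b * (θ ^ 2 / 2 + θ ^ 2 / l) ≤ 3 / 2 := by
        have : b * (θ ^ 2 / 2 + θ ^ 2 / l) = (b * θ ^ 2) * (1 / 2 + 1 / l) := by ring
        rw [this]
        nlinarith [sq_nonneg θ]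
      have e2' : 0 ≤ b * (θ ^ 2 / 2 + θ ^ 2 / l) := by positivity
      have e3 : b * (θ ^ 4 + 1 / l) ≤ 3 / 4 := by
        have f1 : b * θ ^ 4 ≤ 1 / 2 := by
          have : b * θ ^ 4 = (b * θ ^ 2) * θ ^ 2 := by ring
          rw [this]
          nlinarith [sq_nonneg θ]
        have f2 : b * (1 / l) ≤ 1 / 4 := by
          rw [mul_one_div, div_le_iff₀ hl0]
          linarith
        linarith
      calc b * ((θ ^ 2 / 2 + θ ^ 2 / l) * l ^ 2 * m + (θ ^ 4 + 1 / l) * r)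
          = (b * (θ ^ 2 / 2 + θ ^ 2 / l)) * (l ^ 2 * m) + (b * (θ ^ 4 + 1 / l)) * r := by ring
        _ ≤ 3 / 2 * (C * K) + 3 / 4 * (1 / 10) := by
            refine add_le_add (mul_le_mul e2 e1 e1' (by norm_num)) (mul_le_mul e3 hr2 hr0 (by norm_num))
        _ = _ := by ring
    · refine hF.trans ?_
      have := Real.add_one_le_exp ((θ ^ 2 / 2 + θ ^ 2 / l) * l ^ 2 * m + (θ ^ 4 + 1 / l) * r)
      linarith
  have hmapsym : ∀ n, SymLaw (Real.artanh θ) ((kap (own 0 s) θ b n).map (psi θ)) := by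
    intro n
    obtain ⟨B, _, hsym⟩ := em_supp_kap hb h0 h1 hs hs' n
    exact hsym.map_psi h0 (by linarith)
  have hexp : ∀ x : ℝ, x < 1 → Real.exp x ≤ 1 / (1 - x) := by
    intro x hx
    rw [le_div_iff₀ (by linarith)]
    have h2 := Real.add_one_le_exp (-x)
    have h3 : Real.exp x * Real.exp (-x) = 1 := by rw [← Real.exp_add]; simp
    nlinarith [Real.exp_pos x]
  have hkap : ∀ n, em_F l (kap (own 0 s) θ b n) ≤ 11 / 10 := by
    intro n
    induction n with
    | zero =>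
      change em_F l (own 0 s) ≤ 11 / 10
      linarith
    | succ n ih =>
      obtain ⟨E, hE0, hE1, hE2⟩ := hstep n ih
      have e1 : em_F l (kap (own 0 s) θ b (n + 1)) =
          em_F l (own 0 s) * em_F l ((kap (own 0 s) θ b n).map (psi θ)) ^ b := by
        rw [← em_F_starpow (hmapsym n) l b]
        exact star_mgf (symLaw_own 0 hs.le hs') ((hmapsym n).starpow b) l
      rw [e1]
      have e2 : 1 ≤ em_F l ((kap (own 0 s) θ b n).map (psi θ)) := em_one_le_F (hmapsym n) hl0.le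
      calc em_F l (own 0 s) * em_F l ((kap (own 0 s) θ b n).map (psi θ)) ^ b
          ≤ Real.exp (12 * K) * Real.exp E ^ b := by
            refine mul_le_mul hown' (pow_le_pow_left₀ (by linarith) hE2 _) (by positivity) (by positivity)
        _ = Real.exp (12 * K + b * E) := by rw [← Real.exp_nat_mul, ← Real.exp_add]
        _ ≤ Real.exp (17 / 200) := by
            rw [Real.exp_le_exp]
            linarith
        _ ≤ 1 / (1 - 17 / 200) := hexp _ (by norm_num)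
        _ ≤ 11 / 10 := by norm_num
  refine ⟨hkap, fun n => ?_⟩
  obtain ⟨E, hE0, hE1, hE2⟩ := hstep n (hkap n)
  have e1 : em_F l (rootLaw (own 0 s) θ b n) =
      em_F l (own 0 s) * em_F l ((kap (own 0 s) θ b n).map (psi θ)) ^ (b + 1) := by
    rw [← em_F_starpow (hmapsym n) l (b + 1)]
    exact star_mgf (symLaw_own 0 hs.le hs') ((hmapsym n).starpow (b + 1)) l
  rw [e1]
  have e2 : 1 ≤ em_F l ((kap (own 0 s) θ b n).map (psi θ)) := em_one_le_F (hmapsym n) hl0.le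
  calc em_F l (own 0 s) * em_F l ((kap (own 0 s) θ b n).map (psi θ)) ^ (b + 1)
      ≤ Real.exp (12 * K) * Real.exp E ^ (b + 1) := by
        refine mul_le_mul hown' (pow_le_pow_left₀ (by linarith) hE2 _) (by positivity) (by positivity)
    _ = Real.exp (12 * K + ((b + 1 : ℕ) : ℝ) * E) := by rw [← Real.exp_nat_mul, ← Real.exp_add]
    _ ≤ Real.exp (18 / 100) := by
        rw [Real.exp_le_exp]
        push_cast
        nlinarith
    _ ≤ 1 / (1 - 18 / 100) := hexp _ (by norm_num)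
    _ ≤ 2 := by norm_num

theorem em_moment_of_F {B : ℝ} {κ : Measure ℝ} (h : SymLaw B κ) {l : ℝ} (hl : 0 < l)
    (hF : em_F l κ ≤ 2) (p : ℕ) : ∫ x, x ^ (2 * p) ∂κ ≤ 2 * ((2 * p).factorial : ℝ) / (l ^ 2) ^ p := by
  have h1 := (em_le_F h hl.le).trans hF
  have h2 : ∫ x, x ^ (2 * p) ∂κ ≤ ∫ x, ((2 * p).factorial : ℝ) / (l ^ 2) ^ p * Real.cosh (l * x) ∂κ := by
    refine integral_mono (em_integrable h (by fun_prop)) (em_integrable h (by fun_prop)) fun x => ?_
    have h3 := em_pow_le_cosh (l * x) p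
    simp only
    rw [div_mul_eq_mul_div, le_div_iff₀ (by positivity)]
    calc x ^ (2 * p) * (l ^ 2) ^ p = (l * x) ^ (2 * p) := by rw [mul_pow, pow_mul l]; ring
      _ ≤ _ := h3
  rw [integral_const_mul] at h2
  calc _ ≤ _ := h2
    _ ≤ ((2 * p).factorial : ℝ) / (l ^ 2) ^ p * 2 := mul_le_mul_of_nonneg_left h1 (by positivity)
    _ = _ := by ring

theorem em_final {b : ℕ} (hb : 2 ≤ b) {K : ℝ} (hK : 0 < K) (p : ℕ) {B s : ℝ} {κ : Measure ℝ}
    (h : SymLaw B κ) (hB : B ≤ em_B b) (hs : 0 < s)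
    (hF : ∀ l : ℝ, l ^ 2 * qs s = K → 4 * b ≤ l → em_F l κ ≤ 2) :
    ∫ x, x ^ (2 * p) ∂κ ≤ (2 * ((2 * p).factorial : ℝ) / K ^ p + em_B b ^ (2 * p) * (16 * b ^ 2 / K) ^ p) * qs s ^ p := by
  have hqs := em_qs_pos hs
  have hBp := em_B_pos b
  have hb' : (2 : ℝ) ≤ b := by exact_mod_cast hb
  have := h.1
  by_cases hsm : 16 * (b : ℝ) ^ 2 * qs s ≤ K
  · have hl2 : (√(K / qs s)) ^ 2 = K / qs s := Real.sq_sqrt (by positivity)
    have h1 : (√(K / qs s)) ^ 2 * qs s = K := by rw [hl2]; field_simp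
    have h2 : 4 * (b : ℝ) ≤ √(K / qs s) := by
      apply Real.le_sqrt_of_sq_le
      rw [le_div_iff₀ hqs]
      linarith
    have h3 := em_moment_of_F h (l := √(K / qs s)) (by positivity) (hF _ h1 h2) p
    rw [hl2] at h3
    refine h3.trans ?_
    have h4 : 2 * ((2 * p).factorial : ℝ) / (K / qs s) ^ p = 2 * ((2 * p).factorial : ℝ) / K ^ p * qs s ^ p := by
      rw [div_pow]
      field_simp
    rw [h4, add_mul]
    have : 0 ≤ em_B b ^ (2 * p) * (16 * (b : ℝ) ^ 2 / K) ^ p * qs s ^ p := by positivity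
    linarith
  · push Not at hsm
    have h1 : ∫ x, x ^ (2 * p) ∂κ ≤ em_B b ^ (2 * p) := by
      have h2 : ∀ᵐ x ∂κ, x ^ (2 * p) ≤ em_B b ^ (2 * p) := by
        filter_upwards [em_ae h] with x hx
        have h3 : |x| ≤ em_B b := (abs_le.2 hx).trans hB
        calc x ^ (2 * p) = |x| ^ (2 * p) := by rw [pow_mul, pow_mul, sq_abs]
          _ ≤ _ := pow_le_pow_left₀ (abs_nonneg _) h3 _
      have h4 := integral_mono_ae (em_integrable h (f := fun x => x ^ (2 * p)) (by fun_prop)) (integrable_const _) h2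
      simpa using h4
    refine h1.trans ?_
    have h2 : 1 ≤ (16 * (b : ℝ) ^ 2 / K * qs s) ^ p := by
      refine one_le_pow₀ ?_
      rw [div_mul_eq_mul_div, one_le_div hK]
      exact hsm.le
    rw [mul_pow] at h2
    have h3 : 0 < em_B b ^ (2 * p) := by positivity
    have h4 : 0 ≤ 2 * ((2 * p).factorial : ℝ) / K ^ p * qs s ^ p := by positivity
    calc em_B b ^ (2 * p) = em_B b ^ (2 * p) * 1 := (mul_one _).symm
      _ ≤ em_B b ^ (2 * p) * ((16 * (b : ℝ) ^ 2 / K) ^ p * qs s ^ p) := mul_le_mul_of_nonneg_left h2 h3.le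
      _ ≤ _ := by linarith

theorem moments_kap {b : ℕ} (hb : 2 ≤ b) (p : ℕ) : ∃ C : ℝ, 0 < C ∧ ∀ (θ s : ℝ) (n : ℕ), 0 ≤ θ →
    b * θ ^ 2 ≤ 1 → 0 < s → s ≤ 1 / 2 →
    ∫ h, h ^ (2 * p) ∂(kap (own 0 s) θ b n) ≤ C * qs s ^ p := by
  obtain ⟨K, hK, hmain⟩ := em_main hb
  have hBp := em_B_pos b
  refine ⟨2 * ((2 * p).factorial : ℝ) / K ^ p + em_B b ^ (2 * p) * (16 * b ^ 2 / K) ^ p, by positivity, ?_⟩
  intro θ s n h0 h1 hs hs'
  obtain ⟨B, hB, hsym⟩ := em_supp_kap hb h0 h1 hs hs' n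
  refine em_final hb hK p hsym hB hs fun l hl hbl => ?_
  have := (hmain θ s l h0 h1 hs hs' hl hbl).1 n
  linarith

theorem moments_rootLaw {b : ℕ} (hb : 2 ≤ b) (p : ℕ) : ∃ C : ℝ, 0 < C ∧ ∀ (θ s : ℝ) (n : ℕ),
    0 ≤ θ → b * θ ^ 2 ≤ 1 → 0 < s → s ≤ 1 / 2 →
    ∫ h, h ^ (2 * p) ∂(rootLaw (own 0 s) θ b n) ≤ C * qs s ^ p := by
  obtain ⟨K, hK, hmain⟩ := em_main hb
  have hBp := em_B_pos b
  refine ⟨2 * ((2 * p).factorial : ℝ) / K ^ p + em_B b ^ (2 * p) * (16 * b ^ 2 / K) ^ p, by positivity, ?_⟩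
  intro θ s n h0 h1 hs hs'
  obtain ⟨B, hB, hsym⟩ := em_supp_root hb h0 h1 hs hs' n
  exact em_final hb hK p hsym hB hs fun l hl hbl => (hmain θ s l h0 h1 hs hs' hl hbl).2 n

end Crest.Agent.Lib.Row160
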