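import Mathlib
import Crest.Prelude.Def_Labels
import Crest.Prelude.Def_TreeIsing

/-!
Shared definitions for row 160 (S0241).
-/

set_option autoImplicit false

open MeasureTheory Filter Topology

namespace Crest.Agent.Lib.Row160

noncomputable section

/-- one label: a pair `(U, z)` of independent uniforms. -/
abbrev L1 : Type := unitInterval × unitInterval

/-- label configurations: one label for each vertex and each round. -/
abbrev Lab (V : Type*) : Type _ := V × ℕ → L1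

/-- the law of the labels. -/
def labM (V : Type*) : Measure (Lab V) :=
  Measure.infinitePi (fun _ : V × ℕ => (volume : Measure L1))

/-- labels of one round. -/
def rnd {V : Type*} (k : ℕ) (ω : Lab V) : V → L1 := fun v => ω (v, k)

/-! ### one step -/

/-- the solution `Y ∈ [-1,1]` of `Y + κ (Y² - 1)/2 = ζ`: it has density `(1 + κ y)/2` when `ζ` is
uniform in `[-1,1]`. -/
def Yq (κ ζ : ℝ) : ℝ := (κ + 2 * ζ) / (1 + √(1 + κ ^ 2 + 2 * κ * ζ))

/-- `z ∈ [0,1]` to `ζ ∈ [-1,1]`. -/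
def zt (z : unitInterval) : ℝ := 2 * (z : ℝ) - 1

/-- the observed value `T = a Y` when the current mean is `m`. -/
def Tq (a m : ℝ) (z : unitInterval) : ℝ := a * Yq (a * m) (zt z)

/-- `γ = T / (1 + m T)`. -/
def gam (a m : ℝ) (z : unitInterval) : ℝ := Tq a m z / (1 + m * Tq a m z)

/-! ### finite windows -/

open Classical in
/-- spin: `1` on `A`, `-1` off `A`. -/
def sp {V : Type*} (A : Finset V) (v : V) : ℝ := if v ∈ A then 1 else -1

open Classical in
/-- Gibbs weight of the spin configuration `A ⊆ W` in the window `W` with field `x`. -/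
def wt {V : Type*} (G : SimpleGraph V) (θ : ℝ) (W : Finset V) (x : V → ℝ) (A : Finset V) : ℝ :=
  (∏ e ∈ W.sym2 with e ∈ G.edgeSet,
    (if (Sym2.map (fun v => decide (v ∈ A)) e).IsDiag then 1 + θ else 1 - θ)) *
  ∏ v ∈ W, (Real.exp (x v * sp A v) / 2)

/-- partition function (equal to `1` at `x = 0` for a forest). -/
def Zw {V : Type*} (G : SimpleGraph V) (θ : ℝ) (W : Finset V) (x : V → ℝ) : ℝ :=
  ∑ A ∈ W.powerset, wt G θ W x A

/-- Gibbs average. -/
def av {V : Type*} (G : SimpleGraph V) (θ : ℝ) (W : Finset V) (x : V → ℝ)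
    (f : Finset V → ℝ) : ℝ :=
  (∑ A ∈ W.powerset, wt G θ W x A * f A) / Zw G θ W x

/-- magnetisation. -/
def mg {V : Type*} (G : SimpleGraph V) (θ : ℝ) (W : Finset V) (x : V → ℝ) (v : V) : ℝ :=
  av G θ W x (fun A => sp A v)

/-- covariance. -/
def cv {V : Type*} (G : SimpleGraph V) (θ : ℝ) (W : Finset V) (x : V → ℝ) (u v : V) : ℝ :=
  av G θ W x (fun A => sp A u * sp A v) - mg G θ W x u * mg G θ W x v

/-! ### one round -/

open Classical in
/-- iterates of the increments of one round. -/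
def incr {V : Type*} (G : SimpleGraph V) (θ : ℝ) (W : Finset V) (x₀ : V → ℝ) (ω : V → L1) :
    ℕ → V → ℝ
  | 0 => fun _ => 0
  | (n + 1) => fun v => Real.artanh (Tq ((ω v).1 : ℝ)
      (mg G θ W (fun w => x₀ w + if w ∈ W ∧ (ω w).1 < (ω v).1 then incr G θ W x₀ ω n w else 0) v)
      (ω v).2)

open Classical in
/-- the field at time `s` of a round started from the field `x₀`. -/
def fld {V : Type*} (G : SimpleGraph V) (θ : ℝ) (W : Finset V) (x₀ : V → ℝ) (ω : V → L1)
    (s : ℝ) : V → ℝ :=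
  fun w => x₀ w + if w ∈ W ∧ ((ω w).1 : ℝ) < s then incr G θ W x₀ ω W.card w else 0

/-! ### the process -/

/-- field at the beginning of round `k`. -/
def X {V : Type*} (G : SimpleGraph V) (θ : ℝ) (W : Finset V) (ω : Lab V) : ℕ → V → ℝ
  | 0 => fun _ => 0
  | (k + 1) => fld G θ W (X G θ W ω k) (rnd k ω) (1 / 2)

/-- field at time `s` of round `k`. -/
def P {V : Type*} (G : SimpleGraph V) (θ : ℝ) (W : Finset V) (k : ℕ) (s : ℝ) (ω : Lab V) :
    V → ℝ :=
  fld G θ W (X G θ W ω k) (rnd k ω) s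

/-- magnetisation process. -/
def M {V : Type*} (G : SimpleGraph V) (θ : ℝ) (W : Finset V) (k : ℕ) (s : ℝ) (v : V)
    (ω : Lab V) : ℝ :=
  mg G θ W (P G θ W k s ω) v

/-- covariance process. -/
def K {V : Type*} (G : SimpleGraph V) (θ : ℝ) (W : Finset V) (k : ℕ) (s : ℝ) (u v : V)
    (ω : Lab V) : ℝ :=
  cv G θ W (P G θ W k s ω) u v

open Classical in
/-- ball of radius `n` (empty if infinite). -/
def ball {V : Type*} (G : SimpleGraph V) (v : V) (n : ℕ) : Finset V :=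
  if h : {w | G.dist v w ≤ n}.Finite then h.toFinset else ∅

/-- infinite volume magnetisation process. -/
def Mi {V : Type*} (G : SimpleGraph V) (θ : ℝ) (k : ℕ) (s : ℝ) (v : V) (ω : Lab V) : ℝ :=
  limsup (fun n => M G θ (ball G v n) k s v ω) atTop

/-! ### edge function -/

/-- `G_θ(u,v)`: regression coefficient of an edge with magnetisations `u`, `v`. -/
def Ge (θ u v : ℝ) : ℝ :=
  (2 * θ / (1 + θ ^ 2)) * (1 - v ^ 2) /
    ((1 - (2 * θ / (1 + θ ^ 2)) * u * v) +
      √((1 - (2 * θ / (1 + θ ^ 2)) * u * v) ^ 2 -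
        (2 * θ / (1 + θ ^ 2)) ^ 2 * (1 - u ^ 2) * (1 - v ^ 2)))

/-- `ℓ_θ = log (G_θ / θ)`. -/
def ell (θ u v : ℝ) : ℝ := Real.log (Ge θ u v / θ)

/-- regression coefficient as a function of the cavity magnetisation of the far vertex. -/
def gg (θ M : ℝ) : ℝ := θ * (1 - M ^ 2) / (1 - θ ^ 2 * M ^ 2)

/-- message map. -/
def psi (θ h : ℝ) : ℝ := Real.artanh (θ * Real.tanh h)

/-! ### geodesics (non-backtracking paths) -/

/-- `p 0, ..., p k` is a non-backtracking path. -/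
def IsGeo {V : Type*} (G : SimpleGraph V) (k : ℕ) (p : ℕ → V) : Prop :=
  (∀ i, i < k → G.Adj (p i) (p (i + 1))) ∧ ∀ i, i + 2 ≤ k → p i ≠ p (i + 2)

/-- covariance along a path as a function of the magnetisations. -/
def Kp {V : Type*} (θ : ℝ) (m : V → ℝ) (p : ℕ → V) (k : ℕ) : ℝ :=
  (1 - m (p 0) ^ 2) * ∏ i ∈ Finset.range k, Ge θ (m (p i)) (m (p (i + 1)))

open Classical in
/-- `Zp θ lam m L z y`: average over the non-backtracking extensions `z, y, c₁, ..., c_L` of the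
edge `(z,y)` of `∏ (G_θ(m_{c_{i-1}}, m_{c_i})/θ)^(2 lam)`; `b = d - 1`. -/
def Zp {V : Type*} (G : SimpleGraph V) [G.LocallyFinite] (b : ℕ) (θ : ℝ) (lam : ℕ) (m : V → ℝ) :
    ℕ → V → V → ℝ
  | 0 => fun _ _ => 1
  | (L + 1) => fun z y => (1 / (b : ℝ)) * ∑ c ∈ (G.neighborFinset y).erase z,
      (Ge θ (m y) (m c) / θ) ^ (2 * lam) * Zp G b θ lam m L y c

/-- rooted subtree of depth `n` at `y`, away from its neighbour `z`. -/
def Tn {V : Type*} (G : SimpleGraph V) (n : ℕ) (z y : V) : Finset V :=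
  open Classical in (ball G y n).filter (fun w => G.dist z w = G.dist y w + 1)

/-- finite convex window. -/
def Conv {V : Type*} (G : SimpleGraph V) (W : Finset V) : Prop :=
  ∀ u ∈ W, ∀ v ∈ W, ∀ w, G.dist u w + G.dist w v = G.dist u v → w ∈ W

/-! ### abstract density evolution -/

/-- combination of two conditionally independent observations with field laws `κ`, `κ'`. -/
def star (κ κ' : Measure ℝ) : Measure ℝ :=
  ((κ.prod κ').withDensity
    (fun p => ENNReal.ofReal (1 + Real.tanh p.1 * Real.tanh p.2))).map (fun p => p.1 + p.2)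

/-- iterated combination. -/
def starpow (κ : Measure ℝ) : ℕ → Measure ℝ
  | 0 => Measure.dirac 0
  | (n + 1) => star κ (starpow κ n)

/-- law of the field brought by one visit, annealed over `U`, time cutoff `s`. -/
def nu (s : ℝ) : Measure ℝ :=
  (volume : Measure L1).map
    (fun l => if (l.1 : ℝ) < s then Real.artanh ((l.1 : ℝ) * zt l.2) else 0)

/-- law of the total own field at time `s` of round `k`. -/
def own (k : ℕ) (s : ℝ) : Measure ℝ := star (starpow (nu (1 / 2)) k) (nu s)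

/-- density evolution: law (under the symmetric base measure) of the cavity field of a rooted
subtree of depth `n`. -/
def kap (κ₀ : Measure ℝ) (θ : ℝ) (b : ℕ) : ℕ → Measure ℝ
  | 0 => κ₀
  | (n + 1) => star κ₀ (starpow ((kap κ₀ θ b n).map (psi θ)) b)

/-! ### free fields and hidden law -/

/-- observed value `T` of the free (uniform) process. -/
def Tf (l : L1) : ℝ := (l.1 : ℝ) * zt l.2

/-- total free field at time `s` of round `k`. -/
def free {V : Type*} (k : ℕ) (s : ℝ) (ω : Lab V) (v : V) : ℝ :=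
  (∑ j ∈ Finset.range k, if ((ω (v, j)).1 : ℝ) < 1 / 2 then Real.artanh (Tf (ω (v, j))) else 0) +
    if ((ω (v, k)).1 : ℝ) < s then Real.artanh (Tf (ω (v, k))) else 0

/-- likelihood of spin `σ` at `v` given the own observations up to time `s` of round `k`. -/
def lik {V : Type*} (k : ℕ) (s : ℝ) (ω : Lab V) (v : V) (σ : ℝ) : ℝ :=
  (∏ j ∈ Finset.range k, if ((ω (v, j)).1 : ℝ) < 1 / 2 then 1 + σ * Tf (ω (v, j)) else 1) *
    if ((ω (v, k)).1 : ℝ) < s then 1 + σ * Tf (ω (v, k)) else 1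

/-- hidden Ising density of the observations in the window `W`. -/
def Lw {V : Type*} (G : SimpleGraph V) (θ : ℝ) (W : Finset V) (k : ℕ) (s : ℝ) (ω : Lab V) : ℝ :=
  ∑ A ∈ W.powerset, wt G θ W (fun _ => 0) A * ∏ v ∈ W, lik k s ω v (sp A v)

/-! ### equivariant functions -/

/-- relabelling by an automorphism. -/
def act {V : Type*} {G : SimpleGraph V} (g : G ≃g G) (ω : Lab V) : Lab V :=
  fun q => ω (g q.1, q.2)

/-- equivariant vertex function. -/
def Eqv1 {V : Type*} (G : SimpleGraph V) (F : V → Lab V → ℝ) : Prop :=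
  ∀ (g : G ≃g G) (v : V) (ω : Lab V), F (g v) ω = F v (act g ω)

/-- equivariant function of ordered pairs. -/
def Eqv2 {V : Type*} (G : SimpleGraph V) (F : V → V → Lab V → ℝ) : Prop :=
  ∀ (g : G ≃g G) (u v : V) (ω : Lab V), F (g u) (g v) ω = F u v (act g ω)

/-- depends on finitely many coordinates. -/
def FinDep {V : Type*} (f : Lab V → ℝ) : Prop :=
  ∃ B : Finset (V × ℕ), ∀ ω ω' : Lab V, (∀ q ∈ B, ω q = ω' q) → f ω = f ω'

/-- rate of convergence of the windows. -/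
def WinRate {V : Type*} (G : SimpleGraph V) (θ : ℝ) (k : ℕ) (C ρ : ℝ) : Prop :=
  0 < C ∧ 0 < ρ ∧ ρ < 1 ∧ ∀ (W W' : Finset V) (v : V) (n : ℕ) (s : ℝ), Conv G W → Conv G W' →
    W ⊆ W' → (∀ w, G.dist v w ≤ n → w ∈ W) → 0 ≤ s → s ≤ 1 / 2 →
    ∫ ω, (M G θ W k s v ω - M G θ W' k s v ω) ^ 2 ∂(labM V) ≤ C * ρ ^ n

/-- uniform bound `|m| ≤ r_k < 1` in round `k`. -/
def rk (d k : ℕ) (θ : ℝ) : ℝ :=
  Real.tanh ((k + 1) * Real.artanh (1 / 2) + d * Real.artanh θ)

/-- limits of equivariant block factors (vertices). -/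
def BlockLim1 {V : Type*} (G : SimpleGraph V) (m : V → Lab V → ℝ) : Prop :=
  Eqv1 G m ∧ (∀ v, Measurable (m v)) ∧ (∃ C, ∀ v ω, |m v ω| ≤ C) ∧
  ∀ ε : ℝ, 0 < ε → ∃ m' : V → Lab V → ℝ, Eqv1 G m' ∧ (∀ v, Measurable (m' v)) ∧
    (∃ C, ∀ v ω, |m' v ω| ≤ C) ∧ (∀ v, FinDep (m' v)) ∧
    ∀ v, ∫ ω, (m v ω - m' v ω) ^ 2 ∂(labM V) ≤ ε

/-- limits of equivariant block factors (pairs). -/
def BlockLim2 {V : Type*} (G : SimpleGraph V) (Y : V → V → Lab V → ℝ) : Prop :=
  Eqv2 G Y ∧ (∀ u v, Measurable (Y u v)) ∧ (∃ C, ∀ u v ω, |Y u v ω| ≤ C) ∧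
  ∀ ε : ℝ, 0 < ε → ∃ Y' : V → V → Lab V → ℝ, Eqv2 G Y' ∧ (∀ u v, Measurable (Y' u v)) ∧
    (∃ C, ∀ u v ω, |Y' u v ω| ≤ C) ∧ (∀ u v, FinDep (Y' u v)) ∧
    ∀ u v, G.Adj u v → ∫ ω, (Y u v ω - Y' u v ω) ^ 2 ∂(labM V) ≤ ε

/-- law of fields: symmetric probability measure with support in `[-B,B]`. -/
def SymLaw (B : ℝ) (κ : Measure ℝ) : Prop :=
  IsProbabilityMeasure κ ∧ κ.map (fun x => -x) = κ ∧ κ (Set.Icc (-B) B)ᶜ = 0

/-- information `E tanh² h`. -/
def qq (κ : Measure ℝ) : ℝ := ∫ h, Real.tanh h ^ 2 ∂κ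

/-- the scale `q(s) = s^{3/2}` of the information at time `s` of round `0`. -/
def qs (s : ℝ) : ℝ := √(s ^ 3)

/-- law of the field at the centre of a ball of radius `n + 1`. -/
def rootLaw (κ₀ : Measure ℝ) (θ : ℝ) (b n : ℕ) : Measure ℝ :=
  star κ₀ (starpow ((kap κ₀ θ b n).map (psi θ)) (b + 1))

open Classical in
/-- planted density of the observations in the rooted subtree `Tn G n z y` given spin `σ` at `y`. -/
def Lr {V : Type*} (G : SimpleGraph V) [G.LocallyFinite] (θ : ℝ) (k : ℕ) (s : ℝ) (ω : Lab V) :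
    ℕ → ℝ → V → V → ℝ
  | 0 => fun σ _ y => lik k s ω y σ
  | (n + 1) => fun σ z y => lik k s ω y σ * ∏ c ∈ (G.neighborFinset y).erase z,
      (((1 + θ * σ) / 2) * Lr G θ k s ω n 1 y c + ((1 - θ * σ) / 2) * Lr G θ k s ω n (-1) y c)

end

end Crest.Agent.Lib.Row160
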