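import Mathlib
import Crest.Agent.Lib.Row160.Defs

/-!
Row 160, chunk M4b: product measure lemmas (resampling coordinates, products of independent factors).
-/

set_option autoImplicit false

open MeasureTheory Filter Topology MeasureTheory.Measure

namespace Crest.Agent.Lib.Row160.LawAux

noncomputable section

/-- resampling one coordinate -/
theorem mp_update {ι : Type*} [DecidableEq ι] {X : ι → Type*} [∀ i, MeasurableSpace (X i)]
    (μ : ∀ i, Measure (X i)) [∀ i, IsProbabilityMeasure (μ i)] (q : ι) :
    MeasurePreserving (fun p : (∀ i, X i) × X q => Function.update p.1 q p.2)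
      ((infinitePi μ).prod (μ q)) (infinitePi μ) := by
  refine ⟨measurable_update', ?_⟩
  refine eq_infinitePi _ fun s t ht => ?_
  rw [Measure.map_apply measurable_update' (.pi s.countable_toSet fun _ _ => ht _)]
  have hpre : (fun p : (∀ i, X i) × X q => Function.update p.1 q p.2) ⁻¹' ((s : Set ι).pi t) =
      (((s.erase q : Finset ι) : Set ι).pi t) ×ˢ (if q ∈ s then t q else Set.univ) := by
    ext p
    simp only [Set.mem_preimage, Set.mem_pi, Finset.mem_coe, Set.mem_prod, Finset.mem_erase]
    constructor
    · intro h
      refine ⟨fun i hi => ?_, ?_⟩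
      · have := h i hi.2
        rwa [Function.update_of_ne hi.1] at this
      · split_ifs with hq
        · have := h q hq
          rwa [Function.update_self] at this
        · trivial
    · rintro ⟨h1, h2⟩ i hi
      by_cases hiq : i = q
      · subst hiq
        rw [if_pos hi] at h2
        rwa [Function.update_self]
      · rw [Function.update_of_ne hiq]
        exact h1 i ⟨hiq, hi⟩
  rw [hpre, Measure.prod_prod, infinitePi_pi _ (fun i _ => ht i)]
  split_ifs with hq
  · exact Finset.prod_erase_mul _ _ hq
  · rw [measure_univ, mul_one, Finset.erase_eq_of_notMem hq]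

theorem univ_mem_square {ι : Type*} {X : Type*} [MeasurableSpace X] :
    (Set.univ : Set (ι → X)) ∈ squareCylinders (fun _ : ι => {s : Set X | MeasurableSet s}) := by
  refine ⟨∅, fun _ => Set.univ, ?_, ?_⟩
  · intro i _
    exact MeasurableSet.univ
  · simp

/-- spanning sets -/
def spanSq {ι : Type*} {X : Type*} [MeasurableSpace X] (μ : Measure (ι → X))
    [IsProbabilityMeasure μ] :
    μ.FiniteSpanningSetsIn (squareCylinders (fun _ : ι => {s : Set X | MeasurableSet s})) where
  set _ := Set.univ
  set_mem _ := univ_mem_square
  finite _ := by simp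
  spanning := Set.iUnion_const _

/-- unzipping -/
theorem map_unzip {ι X Y : Type*} [MeasurableSpace X] [MeasurableSpace Y] (μ : Measure X)
    (ν : Measure Y) [IsProbabilityMeasure μ] [IsProbabilityMeasure ν] :
    (infinitePi (fun _ : ι => μ.prod ν)).map (fun f => ((fun i => (f i).1), (fun i => (f i).2))) =
      (infinitePi (fun _ : ι => μ)).prod (infinitePi (fun _ : ι => ν)) := by
  classical
  have hmeas : Measurable (fun f : ι → X × Y => (((fun i => (f i).1), (fun i => (f i).2)) :
      (ι → X) × (ι → Y))) := by fun_prop
  symm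
  refine Measure.prod_eq_generateFrom (C := squareCylinders fun _ : ι => {s : Set X | MeasurableSet s})
    (D := squareCylinders fun _ : ι => {s : Set Y | MeasurableSet s}) ?_ ?_ ?_ ?_ ?_ ?_ ?_
  · exact generateFrom_squareCylinders
  · exact generateFrom_squareCylinders
  · exact isPiSystem_squareCylinders (fun _ => MeasurableSpace.isPiSystem_measurableSet)
      (fun _ => MeasurableSet.univ)
  · exact isPiSystem_squareCylinders (fun _ => MeasurableSpace.isPiSystem_measurableSet)
      (fun _ => MeasurableSet.univ)
  · exact spanSq _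
  · exact spanSq _
  · rintro A ⟨s, t, ht, rfl⟩ B ⟨s', t', ht', rfl⟩
    have ht0 : ∀ i, MeasurableSet (t i) := fun i => ht i (Set.mem_univ _)
    have ht0' : ∀ i, MeasurableSet (t' i) := fun i => ht' i (Set.mem_univ _)
    rw [Measure.map_apply hmeas ((MeasurableSet.pi s.countable_toSet fun _ _ => ht0 _).prod
      (MeasurableSet.pi s'.countable_toSet fun _ _ => ht0' _))]
    have hpre : (fun f : ι → X × Y => (((fun i => (f i).1), (fun i => (f i).2)) :
      (ι → X) × (ι → Y))) ⁻¹' ((s : Set ι).pi t ×ˢ (s' : Set ι).pi t') =
      ((s ∪ s' : Finset ι) : Set ι).pi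
        (fun i => (if i ∈ s then t i else Set.univ) ×ˢ (if i ∈ s' then t' i else Set.univ)) := by
      ext f
      simp only [Set.mem_preimage, Set.mem_prod, Set.mem_pi, Finset.mem_coe, Finset.mem_union]
      constructor
      · rintro ⟨h1, h2⟩ i _
        constructor
        · split_ifs with h
          · exact h1 i h
          · trivial
        · split_ifs with h
          · exact h2 i h
          · trivial
      · intro h
        refine ⟨fun i hi => ?_, fun i hi => ?_⟩
        · have := (h i (Or.inl hi)).1
          rwa [if_pos hi] at this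
        · have := (h i (Or.inr hi)).2
          rwa [if_pos hi] at this
    rw [hpre, infinitePi_pi _ (fun i _ => ?_), infinitePi_pi _ (fun i _ => ht0 i),
      infinitePi_pi _ (fun i _ => ht0' i)]
    · simp only [Measure.prod_prod, Finset.prod_mul_distrib]
      congr 1
      · rw [← Finset.prod_subset (Finset.subset_union_left (s₁ := s) (s₂ := s'))]
        · exact Finset.prod_congr rfl fun i hi => by rw [if_pos hi]
        · intro i _ hi
          rw [if_neg hi, measure_univ]
      · rw [← Finset.prod_subset (Finset.subset_union_right (s₁ := s) (s₂ := s'))]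
        · exact Finset.prod_congr rfl fun i hi => by rw [if_pos hi]
        · intro i _ hi
          rw [if_neg hi, measure_univ]
    · refine MeasurableSet.prod ?_ ?_
      · split_ifs
        · exact ht0 i
        · exact MeasurableSet.univ
      · split_ifs
        · exact ht0' i
        · exact MeasurableSet.univ

/-- zipping -/
theorem map_zip {ι X Y : Type*} [MeasurableSpace X] [MeasurableSpace Y] (μ : Measure X)
    (ν : Measure Y) [IsProbabilityMeasure μ] [IsProbabilityMeasure ν] :
    ((infinitePi (fun _ : ι => μ)).prod (infinitePi (fun _ : ι => ν))).map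
      (fun p => fun i => (p.1 i, p.2 i)) = infinitePi (fun _ : ι => μ.prod ν) := by
  rw [← map_unzip, Measure.map_map (by fun_prop) (by fun_prop)]
  exact Measure.map_id

/-- law of the labels of one round -/
def lam (V : Type*) : Measure (V → L1) := infinitePi (fun _ : V => (volume : Measure L1))

instance (V : Type*) : IsProbabilityMeasure (lam V) := by unfold lam; infer_instance
instance (V : Type*) : IsProbabilityMeasure (labM V) := by unfold labM; infer_instance

/-- `U` of the first, `z` of the second -/
def mix {V : Type*} (η η' : V → L1) : V → L1 := fun v => ((η v).1, (η' v).2)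

theorem measurable_mix {V : Type*} : Measurable (fun p : (V → L1) × (V → L1) => mix p.1 p.2) := by
  unfold mix
  fun_prop

theorem mp_mix (V : Type*) : MeasurePreserving (fun p : (V → L1) × (V → L1) => mix p.1 p.2)
    ((lam V).prod (lam V)) (lam V) := by
  refine ⟨measurable_mix, ?_⟩
  have h : (fun p : (V → L1) × (V → L1) => mix p.1 p.2) =
      (fun f : V → L1 × L1 => fun i => ((f i).1.1, (f i).2.2)) ∘
      (fun p : (V → L1) × (V → L1) => fun i => (p.1 i, p.2 i)) := rfl
  rw [h, ← Measure.map_map (by fun_prop) (by fun_prop), lam, map_zip]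
  refine (infinitePi_map_pi (fun _ : V => (volume : Measure L1).prod (volume : Measure L1))
    (f := fun (_ : V) (q : L1 × L1) => ((q.1.1, q.2.2) : L1)) (fun i => by fun_prop)).trans ?_
  congr 1
  funext _
  -- law of one component
  have h1 : MeasurePreserving (Prod.fst : L1 → unitInterval) volume volume :=
    measurePreserving_fst
  have h2 : MeasurePreserving (Prod.snd : L1 → unitInterval) volume volume :=
    measurePreserving_snd
  have h3 := h1.prod h2
  exact h3.map_eq

/-- Fubini for bounded functions through a measure preserving map. -/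
theorem integral_mp {A B C : Type*} [MeasurableSpace A] [MeasurableSpace B] [MeasurableSpace C]
    {μ : Measure A} {ν : Measure B} {ρ : Measure C} [IsProbabilityMeasure μ]
    [IsProbabilityMeasure ν] {φ : A × B → C} (hφ : MeasurePreserving φ (μ.prod ν) ρ)
    {f : C → ℝ} (hf : Measurable f) {K : ℝ} (hb : ∀ x, |f x| ≤ K) :
    ∫ x, f x ∂ρ = ∫ a, ∫ b, f (φ (a, b)) ∂ν ∂μ := by
  rw [← hφ.map_eq, integral_map hφ.measurable.aemeasurable hf.aestronglyMeasurable]
  rw [integral_prod]
  refine Integrable.of_bound (hf.comp hφ.measurable).aestronglyMeasurable K ?_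
  exact Eventually.of_forall fun x => by rw [Real.norm_eq_abs]; exact hb _

/-- bounded measurable functions are integrable -/
theorem integrable_bdd {A : Type*} [MeasurableSpace A] {μ : Measure A} [IsProbabilityMeasure μ]
    {f : A → ℝ} (hf : Measurable f) {K : ℝ} (hb : ∀ x, |f x| ≤ K) : Integrable f μ :=
  Integrable.of_bound hf.aestronglyMeasurable K
    (Eventually.of_forall fun x => by rw [Real.norm_eq_abs]; exact hb _)

/-- replace the labels of round `k` -/
def rep {V : Type*} (k : ℕ) (ω : Lab V) (η : V → L1) : Lab V :=
  fun q => if q.2 = k then η q.1 else ω q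

theorem measurable_rep {V : Type*} (k : ℕ) :
    Measurable (fun p : Lab V × (V → L1) => rep k p.1 p.2) := by
  unfold rep
  refine measurable_pi_lambda _ fun q => ?_
  by_cases hq : q.2 = k
  · simp only [hq, if_true]; fun_prop
  · simp only [hq, if_false]; fun_prop

/-- replacing round `k` by an independent copy -/
theorem mp_rep {V : Type*} (k : ℕ) :
    MeasurePreserving (fun p : Lab V × (V → L1) => rep k p.1 p.2) ((labM V).prod (lam V))
      (labM V) := by
  classical
  refine ⟨measurable_rep k, ?_⟩
  refine eq_infinitePi _ fun s t ht => ?_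
  rw [Measure.map_apply (measurable_rep k) (.pi s.countable_toSet fun _ _ => ht _)]
  have hpre : (fun p : Lab V × (V → L1) => rep k p.1 p.2) ⁻¹' ((s : Set (V × ℕ)).pi t) =
      (((s.filter (fun q => q.2 ≠ k) : Finset (V × ℕ)) : Set (V × ℕ)).pi t) ×ˢ
      ((((s.filter (fun q => q.2 = k)).image Prod.fst : Finset V) : Set V).pi (fun v => t (v, k))) := by
    ext p
    simp only [Set.mem_preimage, Set.mem_pi, Finset.mem_coe, Set.mem_prod, Finset.mem_filter,
      Finset.mem_image]
    constructor
    · intro h
      refine ⟨fun q hq => ?_, ?_⟩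
      · have := h q hq.1
        rwa [rep, if_neg hq.2] at this
      · rintro v ⟨⟨v', j⟩, ⟨h1, h2⟩, rfl⟩
        simp only at h2
        subst h2
        have := h _ h1
        rwa [rep, if_pos rfl] at this
    · rintro ⟨h1, h2⟩ q hq
      by_cases hqk : q.2 = k
      · rw [rep, if_pos hqk]
        have := h2 q.1 ⟨q, ⟨hq, hqk⟩, rfl⟩
        rwa [← hqk] at this
      · rw [rep, if_neg hqk]
        exact h1 q ⟨hq, hqk⟩
  rw [hpre, Measure.prod_prod, labM, lam, infinitePi_pi _ (fun i _ => ht i),
    infinitePi_pi _ (fun i _ => ht _)]
  rw [Finset.prod_image, ← Finset.prod_filter_mul_prod_filter_not s (fun q => q.2 = k), mul_comm]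
  · congr 1
    refine Finset.prod_congr rfl fun q hq => ?_
    have := (Finset.mem_filter.1 hq).2
    rw [← this]
  · intro q hq q' hq' h
    have h1 := (Finset.mem_filter.1 hq).2
    have h2 := (Finset.mem_filter.1 hq').2
    exact Prod.ext h (h1.trans h2.symm)

/-- product of independent factors -/
theorem integral_prod_infinitePi {ι : Type*} {X : ι → Type*} [∀ i, MeasurableSpace (X i)]
    (μ : ∀ i, Measure (X i)) [∀ i, IsProbabilityMeasure (μ i)] (s : Finset ι)
    (g : ∀ i, X i → ℝ) (hg : ∀ i, Measurable (g i)) :
    ∫ x, ∏ i ∈ s, g i (x i) ∂(infinitePi μ) = ∏ i ∈ s, ∫ x, g i x ∂(μ i) := by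
  have h1 := integral_restrict_infinitePi (μ := μ) (s := s)
    (f := fun y : (∀ i : s, X i) => ∏ i : s, g i (y i)) (by
      refine Measurable.aestronglyMeasurable ?_
      refine Finset.measurable_prod _ fun i _ => ?_
      exact (hg i).comp (measurable_pi_apply i))
  have h2 := integral_fintype_prod_eq_prod (𝕜 := ℝ) (μ := fun i : s => μ i) (fun i : s => g i)
  rw [h2, Finset.prod_coe_sort s (fun i => ∫ x, g i x ∂(μ i))] at h1
  rw [← h1]
  congr 1
  funext x
  rw [← Finset.prod_coe_sort s (fun i => g i (x i))]
  rfl

end

end Crest.Agent.Lib.Row160.LawAux
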