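import Crest.Agent.Lib.Row160.Defs

/-!
Row 160, M1: one step (quantile map).
-/

set_option autoImplicit false

open MeasureTheory Filter Topology

namespace Crest.Agent.Lib.Row160

private lemma oneStep_D_nonneg {κ ζ : ℝ} (hκ : |κ| ≤ 1 / 2) (hζ : |ζ| ≤ 1) :
    0 ≤ 1 + κ ^ 2 + 2 * κ * ζ := by
  have h1 := abs_le.1 hκ
  have h2 := abs_le.1 hζ
  nlinarith [mul_nonneg (sub_nonneg.2 h2.2) (sq_nonneg κ), sq_nonneg (κ + ζ), sq_nonneg ζ,
    mul_self_nonneg (1 - ζ), mul_self_nonneg (1 + ζ), sq_nonneg (κ + ζ),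
    mul_nonneg (sub_nonneg.2 h2.2) (by linarith : (0 : ℝ) ≤ 1 + ζ)]

theorem Yq_eq {κ ζ : ℝ} (hκ : |κ| ≤ 1 / 2) (hζ : |ζ| ≤ 1) :
    Yq κ ζ + κ * (Yq κ ζ ^ 2 - 1) / 2 = ζ := by
  have hD := oneStep_D_nonneg hκ hζ
  have hr := Real.sq_sqrt hD
  have hr0 := Real.sqrt_nonneg (1 + κ ^ 2 + 2 * κ * ζ)
  unfold Yq
  set r := √(1 + κ ^ 2 + 2 * κ * ζ) with hrdef
  have h1 : (1 + r) ≠ 0 := by positivity
  field_simp
  linear_combination (-(κ + 2 * ζ)) * hr

theorem abs_Yq_le {κ ζ : ℝ} (hκ : |κ| ≤ 1 / 2) (hζ : |ζ| ≤ 1) : |Yq κ ζ| ≤ 1 := by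
  have hD := oneStep_D_nonneg hκ hζ
  have hr := Real.sq_sqrt hD
  have hr0 := Real.sqrt_nonneg (1 + κ ^ 2 + 2 * κ * ζ)
  have h1 := abs_le.1 hκ
  have h2 := abs_le.1 hζ
  unfold Yq
  set r := √(1 + κ ^ 2 + 2 * κ * ζ) with hrdef
  have hp : 0 < 1 + r := by positivity
  rw [abs_div, abs_of_pos hp, div_le_one hp, abs_le]
  constructor
  · by_contra hc
    push Not at hc
    have h3 : r < -(κ + 2 * ζ) - 1 := by linarith
    have h4 : r ^ 2 < (-(κ + 2 * ζ) - 1) ^ 2 := by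
      apply pow_lt_pow_left₀ h3 hr0 (by norm_num)
    nlinarith [mul_nonneg (by linarith : (0 : ℝ) ≤ ζ + 1) (by linarith : (0 : ℝ) ≤ -(4 * ζ + 2 * κ))]
  · by_contra hc
    push Not at hc
    have h3 : r < (κ + 2 * ζ) - 1 := by linarith
    have h4 : r ^ 2 < ((κ + 2 * ζ) - 1) ^ 2 := by
      apply pow_lt_pow_left₀ h3 hr0 (by norm_num)
    nlinarith [mul_nonneg (by linarith : (0 : ℝ) ≤ 1 - ζ) (by linarith : (0 : ℝ) ≤ (4 * ζ + 2 * κ))]

theorem abs_zt_le (z : unitInterval) : |zt z| ≤ 1 := by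
  have := z.2
  unfold zt
  rw [abs_le]
  constructor <;> linarith [this.1, this.2]

private lemma oneStep_kappa {a m : ℝ} (ha : 0 ≤ a) (ha' : a ≤ 1 / 2) (hm : |m| ≤ 1) :
    |a * m| ≤ 1 / 2 := by
  rw [abs_mul, abs_of_nonneg ha]
  nlinarith [abs_nonneg m]

theorem abs_Tq_le {a m : ℝ} (ha : 0 ≤ a) (ha' : a ≤ 1 / 2) (hm : |m| ≤ 1) (z : unitInterval) :
    |Tq a m z| ≤ a := by
  unfold Tq
  rw [abs_mul, abs_of_nonneg ha]
  have := abs_Yq_le (oneStep_kappa ha ha' hm) (abs_zt_le z)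
  nlinarith [abs_nonneg (Yq (a * m) (zt z))]

private lemma oneStep_unit_integral (f : ℝ → ℝ) :
    ∫ z : unitInterval, f (z : ℝ) = ∫ x in Set.Icc (0 : ℝ) 1, f x := by
  exact integral_subtype_comap measurableSet_Icc f

private lemma oneStep_inj {κ y y' : ℝ} (hκ : |κ| ≤ 1 / 2) (hy : |y| ≤ 1) (hy' : |y'| ≤ 1)
    (h : y + κ * (y ^ 2 - 1) / 2 = y' + κ * (y' ^ 2 - 1) / 2) : y = y' := by
  have h1 : (y - y') * (1 + κ * (y + y') / 2) = 0 := by linear_combination h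
  rcases mul_eq_zero.1 h1 with h2 | h2
  · linarith
  · exfalso
    have h3 : |κ * (y + y') / 2| ≤ 1 / 2 := by
      rw [abs_div, abs_mul, abs_two]
      have := abs_add_le y y'
      nlinarith [abs_nonneg κ, abs_nonneg (y + y')]
    have := (abs_le.1 h3).1
    linarith

private lemma oneStep_phi_range {κ y : ℝ} (hκ : |κ| ≤ 1 / 2) (hy : |y| ≤ 1) :
    |y + κ * (y ^ 2 - 1) / 2| ≤ 1 := by
  have h1 := abs_le.1 hκ
  have h2 := abs_le.1 hy
  rw [abs_le]
  constructor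
  · nlinarith [mul_nonneg (by linarith : (0 : ℝ) ≤ 1 + y) (by linarith : (0 : ℝ) ≤ 1 - y)]
  · nlinarith [mul_nonneg (by linarith : (0 : ℝ) ≤ 1 + y) (by linarith : (0 : ℝ) ≤ 1 - y)]

private lemma oneStep_Yq_phi {κ y : ℝ} (hκ : |κ| ≤ 1 / 2) (hy : |y| ≤ 1) :
    Yq κ (y + κ * (y ^ 2 - 1) / 2) = y :=
  oneStep_inj hκ (abs_Yq_le hκ (oneStep_phi_range hκ hy)) hy
    (Yq_eq hκ (oneStep_phi_range hκ hy))

private lemma oneStep_Yq_integral {κ : ℝ} (hκ : |κ| ≤ 1 / 2) (F : ℝ → ℝ) :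
    ∫ z : unitInterval, F (Yq κ (zt z)) = ∫ z : unitInterval, F (zt z) * (1 + κ * zt z) := by
  have e1 : ∫ z : unitInterval, F (Yq κ (zt z)) =
      ∫ x in Set.Icc (0 : ℝ) 1, F (Yq κ (2 * x - 1)) :=
    oneStep_unit_integral (fun x => F (Yq κ (2 * x - 1)))
  have e2 : ∫ z : unitInterval, F (zt z) * (1 + κ * zt z) =
      ∫ x in Set.Icc (0 : ℝ) 1, F (2 * x - 1) * (1 + κ * (2 * x - 1)) :=
    oneStep_unit_integral (fun x => F (2 * x - 1) * (1 + κ * (2 * x - 1)))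
  rw [e1, e2]
  set φ : ℝ → ℝ := fun x => ((2 * x - 1) + κ * ((2 * x - 1) ^ 2 - 1) / 2 + 1) / 2 with hφ
  have habs : ∀ x ∈ Set.Icc (0 : ℝ) 1, |2 * x - 1| ≤ 1 := by
    intro x hx
    rw [abs_le]
    constructor <;> linarith [hx.1, hx.2]
  have himg : φ '' (Set.Icc (0 : ℝ) 1) = Set.Icc (0 : ℝ) 1 := by
    ext x
    constructor
    · rintro ⟨y, hy, rfl⟩
      have := abs_le.1 (oneStep_phi_range hκ (habs y hy))
      simp only [hφ]
      constructor <;> linarith [this.1, this.2]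
    · intro hx
      have h1 := abs_le.1 (abs_Yq_le hκ (habs x hx))
      refine ⟨(Yq κ (2 * x - 1) + 1) / 2, ⟨by linarith, by linarith⟩, ?_⟩
      have h2 := Yq_eq hκ (habs x hx)
      simp only [hφ]
      have h3 : 2 * ((Yq κ (2 * x - 1) + 1) / 2) - 1 = Yq κ (2 * x - 1) := by ring
      rw [h3, h2]
      ring
  have hinj : Set.InjOn φ (Set.Icc (0 : ℝ) 1) := by
    intro x hx y hy hxy
    have h1 := oneStep_inj hκ (habs x hx) (habs y hy) (by simp only [hφ] at hxy; linarith)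
    linarith
  have hder : ∀ x ∈ Set.Icc (0 : ℝ) 1,
      HasDerivWithinAt φ (1 + κ * (2 * x - 1)) (Set.Icc (0 : ℝ) 1) x := by
    intro x _
    apply HasDerivAt.hasDerivWithinAt
    have h1 : HasDerivAt (fun x : ℝ => 2 * x - 1) 2 x := by
      simpa using ((hasDerivAt_id x).const_mul 2).sub_const 1
    have h2 := (((h1.pow 2).sub_const 1).const_mul κ).div_const 2
    have h3 := ((h1.add h2).add_const 1).div_const 2
    refine HasDerivAt.congr_deriv h3 ?_
    norm_num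
    ring
  have key := integral_image_eq_integral_abs_deriv_smul measurableSet_Icc hder hinj
    (fun x => F (Yq κ (2 * x - 1)))
  rw [himg] at key
  rw [key]
  apply setIntegral_congr_fun measurableSet_Icc
  intro x hx
  have h1 : 2 * φ x - 1 = (2 * x - 1) + κ * ((2 * x - 1) ^ 2 - 1) / 2 := by
    simp only [hφ]
    ring
  have h2 := oneStep_Yq_phi hκ (habs x hx)
  have h3 : 0 ≤ 1 + κ * (2 * x - 1) := by
    have h4 : |κ * (2 * x - 1)| ≤ 1 / 2 := by
      rw [abs_mul]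
      nlinarith [abs_nonneg κ, abs_nonneg (2 * x - 1), habs x hx]
    linarith [(abs_le.1 h4).1]
  simp only [smul_eq_mul]
  rw [h1, h2, abs_of_nonneg h3, mul_comm]

theorem Yq_integral {κ : ℝ} (hκ : |κ| ≤ 1 / 2) {F : ℝ → ℝ} (hF : Measurable F)
    (hb : ∃ C, ∀ x, |F x| ≤ C) :
    ∫ z : unitInterval, F (Yq κ (zt z)) = ∫ z : unitInterval, F (zt z) * (1 + κ * zt z) :=
  oneStep_Yq_integral hκ F

private lemma oneStep_Tq_integral {a m : ℝ} (ha : 0 ≤ a) (ha' : a ≤ 1 / 2) (hm : |m| ≤ 1)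
    (F : ℝ → ℝ) :
    ∫ z : unitInterval, F (Tq a m z) =
      ∫ z : unitInterval, F (a * zt z) * (1 + m * (a * zt z)) := by
  have h := oneStep_Yq_integral (oneStep_kappa ha ha' hm) (fun x => F (a * x))
  unfold Tq
  rw [h]
  congr 1
  ext z
  ring

theorem Tq_integral {a m : ℝ} (ha : 0 ≤ a) (ha' : a ≤ 1 / 2) (hm : |m| ≤ 1) {F : ℝ → ℝ}
    (hF : Measurable F) (hb : ∃ C, ∀ x, |F x| ≤ C) :
    ∫ z : unitInterval, F (Tq a m z) = ∫ z : unitInterval, F (a * zt z) * (1 + m * (a * zt z)) :=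
  oneStep_Tq_integral ha ha' hm F

private lemma oneStep_den {a m T : ℝ} (ha' : a ≤ 1 / 2) (hm : |m| ≤ 1) (hT : |T| ≤ a) :
    1 / 2 ≤ 1 + m * T := by
  have h : |m * T| ≤ 1 / 2 := by
    rw [abs_mul]
    nlinarith [abs_nonneg m, abs_nonneg T]
  linarith [(abs_le.1 h).1]

theorem abs_gam_le {a m : ℝ} (ha : 0 ≤ a) (ha' : a ≤ 1 / 2) (hm : |m| ≤ 1) (z : unitInterval) :
    |gam a m z| ≤ 2 * a := by
  have hT := abs_Tq_le ha ha' hm z
  have hd := oneStep_den ha' hm hT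
  unfold gam
  have hp : 0 < 1 + m * Tq a m z := by linarith
  rw [abs_div, abs_of_pos hp, div_le_iff₀ hp]
  nlinarith

theorem gam_integral {a m : ℝ} (ha : 0 ≤ a) (ha' : a ≤ 1 / 2) (hm : |m| ≤ 1) :
    ∫ z : unitInterval, gam a m z = 0 := by
  have h := oneStep_Tq_integral ha ha' hm (fun T => T / (1 + m * T))
  unfold gam
  rw [h]
  have h1 : ∀ z : unitInterval, a * zt z / (1 + m * (a * zt z)) * (1 + m * (a * zt z)) =
      a * zt z := by
    intro z
    have hT : |a * zt z| ≤ a := by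
      rw [abs_mul, abs_of_nonneg ha]
      nlinarith [abs_zt_le z, abs_nonneg (zt z)]
    have hd := oneStep_den ha' hm hT
    have hp : (1 + m * (a * zt z)) ≠ 0 := by linarith
    exact div_mul_cancel₀ _ hp
  simp_rw [h1]
  rw [integral_const_mul]
  have h2 : ∫ z : unitInterval, zt z = 0 := by
    have e : ∫ z : unitInterval, zt z = ∫ x in Set.Icc (0 : ℝ) 1, (2 * x - 1) :=
      oneStep_unit_integral (fun x => 2 * x - 1)
    rw [e, integral_Icc_eq_integral_Ioc, ← intervalIntegral.integral_of_le (by norm_num)]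
    rw [intervalIntegral.integral_sub, intervalIntegral.integral_const_mul, integral_id]
    · norm_num
    · exact (continuous_const.mul continuous_id).intervalIntegrable _ _
    · exact continuous_const.intervalIntegrable _ _
  rw [h2, mul_zero]

theorem gam_lip {a m m' : ℝ} (ha : 0 ≤ a) (ha' : a ≤ 1 / 2) (hm : |m| ≤ 1) (hm' : |m'| ≤ 1)
    (z : unitInterval) : |gam a m z - gam a m' z| ≤ 8 * a ^ 2 * |m - m'| := by
  have hk := oneStep_kappa ha ha' hm
  have hk' := oneStep_kappa ha ha' hm'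
  have hz := abs_zt_le z
  have hY := abs_Yq_le hk hz
  have hY' := abs_Yq_le hk' hz
  have eY := Yq_eq hk hz
  have eY' := Yq_eq hk' hz
  have hT := abs_Tq_le ha ha' hm z
  have hT' := abs_Tq_le ha ha' hm' z
  have hd := oneStep_den ha' hm hT
  have hd' := oneStep_den ha' hm' hT'
  unfold gam
  unfold Tq at *
  set Y := Yq (a * m) (zt z) with hYdef
  set Y' := Yq (a * m') (zt z) with hYdef'
  -- difference of the `Y`s
  have h1 : (Y - Y') * (1 + a * m * (Y + Y') / 2) = a * (m' - m) * (Y' ^ 2 - 1) / 2 := by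
    linear_combination eY - eY'
  have h2 : 1 / 2 ≤ 1 + a * m * (Y + Y') / 2 := by
    have h3 : |a * m * (Y + Y') / 2| ≤ 1 / 2 := by
      rw [abs_div, abs_mul, abs_two]
      have := abs_add_le Y Y'
      nlinarith [abs_nonneg (a * m), abs_nonneg (Y + Y')]
    linarith [(abs_le.1 h3).1]
  have h4 : |Y - Y'| ≤ a * |m - m'| := by
    have h5 : |Y - Y'| * (1 + a * m * (Y + Y') / 2) = a * |m' - m| * (1 - Y' ^ 2) / 2 := by
      have h6 : |(Y - Y') * (1 + a * m * (Y + Y') / 2)| = |a * (m' - m) * (Y' ^ 2 - 1) / 2| := by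
        rw [h1]
      rw [abs_mul, abs_of_pos (by linarith : 0 < 1 + a * m * (Y + Y') / 2), abs_div, abs_mul,
        abs_mul, abs_of_nonneg ha, abs_two] at h6
      rw [h6]
      have h7 : |Y' ^ 2 - 1| = 1 - Y' ^ 2 := by
        rw [abs_of_nonpos]
        · ring
        · have := sq_le_one_iff_abs_le_one Y' |>.2 hY'
          linarith
      rw [h7]
    have h8 : 0 ≤ Y' ^ 2 := sq_nonneg _
    have h9 : |m' - m| = |m - m'| := abs_sub_comm _ _
    rw [h9] at h5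
    have h10 : 0 ≤ a * |m - m'| := mul_nonneg ha (abs_nonneg _)
    nlinarith [abs_nonneg (Y - Y')]
  have hp : 0 < 1 + m * (a * Y) := by linarith
  have hp' : 0 < 1 + m' * (a * Y') := by linarith
  have h11 : a * Y / (1 + m * (a * Y)) - a * Y' / (1 + m' * (a * Y')) =
      a * ((Y - Y') + a * Y * Y' * (m' - m)) / ((1 + m * (a * Y)) * (1 + m' * (a * Y'))) := by
    rw [div_sub_div _ _ hp.ne' hp'.ne']
    congr 1
    ring
  rw [h11, abs_div, abs_of_pos (mul_pos hp hp'), div_le_iff₀ (mul_pos hp hp'), abs_mul,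
    abs_of_nonneg ha]
  have h12 : |(Y - Y') + a * Y * Y' * (m' - m)| ≤ 2 * (a * |m - m'|) := by
    refine (abs_add_le _ _).trans ?_
    have h13 : |a * Y * Y' * (m' - m)| ≤ a * |m - m'| := by
      rw [abs_mul, abs_mul, abs_mul, abs_of_nonneg ha, abs_sub_comm m' m]
      have h14 : |Y| * |Y'| ≤ 1 := by nlinarith [abs_nonneg Y, abs_nonneg Y']
      have h15 : 0 ≤ a * |m - m'| := mul_nonneg ha (abs_nonneg _)
      nlinarith
    linarith
  have h16 : 1 / 4 ≤ (1 + m * (a * Y)) * (1 + m' * (a * Y')) := by nlinarith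
  have h17 : 0 ≤ a * |m - m'| := mul_nonneg ha (abs_nonneg _)
  calc a * |(Y - Y') + a * Y * Y' * (m' - m)| ≤ a * (2 * (a * |m - m'|)) :=
        mul_le_mul_of_nonneg_left h12 ha
    _ = 8 * a ^ 2 * |m - m'| * (1 / 4) := by ring
    _ ≤ 8 * a ^ 2 * |m - m'| * ((1 + m * (a * Y)) * (1 + m' * (a * Y'))) := by
        apply mul_le_mul_of_nonneg_left h16
        positivity

private lemma oneStep_measurable_Yq : Measurable (fun p : ℝ × ℝ => Yq p.1 p.2) := by
  unfold Yq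
  fun_prop

theorem measurable_Tq : Measurable (fun p : (ℝ × ℝ) × unitInterval => Tq p.1.1 p.1.2 p.2) := by
  unfold Tq
  have h1 : Measurable (fun p : (ℝ × ℝ) × unitInterval => (p.1.1 * p.1.2, zt p.2)) := by
    unfold zt
    fun_prop
  exact (measurable_fst.fst).mul (oneStep_measurable_Yq.comp h1)

theorem measurable_gam : Measurable (fun p : (ℝ × ℝ) × unitInterval => gam p.1.1 p.1.2 p.2) := by
  unfold gam
  exact measurable_Tq.div (measurable_const.add ((measurable_fst.snd).mul measurable_Tq))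

end Crest.Agent.Lib.Row160
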