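import Crest.Agent.Lib.Row160.Defs

/-!
Row 160, M2a: finite Ising windows, general part.
-/

set_option autoImplicit false
open MeasureTheory Filter Topology

namespace Crest.Agent.Lib.Row160

section M2a
variable {V : Type*} (G : SimpleGraph V)

theorem Win_sp_sq (A : Finset V) (v : V) : sp A v * sp A v = 1 := by
  unfold sp; split_ifs <;> norm_num

theorem Win_abs_sp (A : Finset V) (v : V) : |sp A v| = 1 := by
  unfold sp; split_ifs <;> norm_num

theorem wt_pos {θ : ℝ} (h0 : 0 ≤ θ) (h1 : θ < 1) (W : Finset V) (x : V → ℝ) (A : Finset V) :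
    0 < wt G θ W x A := by
  unfold wt
  refine mul_pos (Finset.prod_pos fun e _ => ?_) (Finset.prod_pos fun v _ => by positivity)
  split_ifs <;> linarith

theorem Zw_pos {θ : ℝ} (h0 : 0 ≤ θ) (h1 : θ < 1) (W : Finset V) (x : V → ℝ) :
    0 < Zw G θ W x :=
  Finset.sum_pos (fun A _ => wt_pos G h0 h1 W x A) ⟨∅, by simp⟩

/-- the Gibbs weight depends only on the field on `W`. -/
theorem wt_congr {θ : ℝ} (W : Finset V) {x y : V → ℝ} (h : ∀ v ∈ W, x v = y v) (A : Finset V) :
    wt G θ W x A = wt G θ W y A := by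
  unfold wt
  congr 1
  exact Finset.prod_congr rfl fun v hv => by rw [h v hv]

theorem Win_Zw_congr {θ : ℝ} (W : Finset V) {x y : V → ℝ} (h : ∀ v ∈ W, x v = y v) :
    Zw G θ W x = Zw G θ W y :=
  Finset.sum_congr rfl fun A _ => wt_congr G W h A

theorem Win_av_congr {θ : ℝ} (W : Finset V) {x y : V → ℝ} (h : ∀ v ∈ W, x v = y v)
    (f : Finset V → ℝ) : av G θ W x f = av G θ W y f := by
  unfold av
  rw [Win_Zw_congr G W h]
  congr 1
  exact Finset.sum_congr rfl fun A _ => by rw [wt_congr G W h A]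

theorem mg_congr {θ : ℝ} (W : Finset V) {x y : V → ℝ} (h : ∀ v ∈ W, x v = y v) (o : V) :
    mg G θ W x o = mg G θ W y o := Win_av_congr G W h _

/-! ### Gibbs averages -/

theorem Win_av_const {θ : ℝ} (h0 : 0 ≤ θ) (h1 : θ < 1) (W : Finset V) (x : V → ℝ) (c : ℝ) :
    av G θ W x (fun _ => c) = c := by
  unfold av
  rw [← Finset.sum_mul]
  exact mul_div_cancel_left₀ c (Zw_pos G h0 h1 W x).ne'

theorem Win_av_add {θ : ℝ} (W : Finset V) (x : V → ℝ) (f g : Finset V → ℝ) :
    av G θ W x (fun A => f A + g A) = av G θ W x f + av G θ W x g := by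
  unfold av
  rw [← add_div, ← Finset.sum_add_distrib]
  congr 1
  exact Finset.sum_congr rfl fun A _ => by ring

theorem Win_av_sub {θ : ℝ} (W : Finset V) (x : V → ℝ) (f g : Finset V → ℝ) :
    av G θ W x (fun A => f A - g A) = av G θ W x f - av G θ W x g := by
  unfold av
  rw [← sub_div, ← Finset.sum_sub_distrib]
  congr 1
  exact Finset.sum_congr rfl fun A _ => by ring

theorem Win_av_const_mul {θ : ℝ} (W : Finset V) (x : V → ℝ) (c : ℝ) (f : Finset V → ℝ) :
    av G θ W x (fun A => c * f A) = c * av G θ W x f := by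
  unfold av
  rw [← mul_div_assoc, Finset.mul_sum]
  congr 1
  exact Finset.sum_congr rfl fun A _ => by ring

theorem Win_av_sum {θ : ℝ} (W : Finset V) (x : V → ℝ) {ι : Type*} (s : Finset ι)
    (f : ι → Finset V → ℝ) :
    av G θ W x (fun A => ∑ i ∈ s, f i A) = ∑ i ∈ s, av G θ W x (f i) := by
  unfold av
  rw [← Finset.sum_div]
  congr 1
  rw [Finset.sum_comm]
  exact Finset.sum_congr rfl fun A _ => by rw [Finset.mul_sum]

theorem Win_av_mono' {θ : ℝ} (h0 : 0 ≤ θ) (h1 : θ < 1) (W : Finset V) (x : V → ℝ)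
    {f g : Finset V → ℝ} (h : ∀ A ∈ W.powerset, f A ≤ g A) :
    av G θ W x f ≤ av G θ W x g := by
  unfold av
  refine div_le_div_of_nonneg_right (Finset.sum_le_sum fun A hA => ?_) (Zw_pos G h0 h1 W x).le
  exact mul_le_mul_of_nonneg_left (h A hA) (wt_pos G h0 h1 W x A).le

theorem Win_av_mono {θ : ℝ} (h0 : 0 ≤ θ) (h1 : θ < 1) (W : Finset V) (x : V → ℝ)
    {f g : Finset V → ℝ} (h : ∀ A, f A ≤ g A) :
    av G θ W x f ≤ av G θ W x g := Win_av_mono' G h0 h1 W x fun A _ => h A

theorem Win_av_congr_fun {θ : ℝ} (W : Finset V) (x : V → ℝ)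
    {f g : Finset V → ℝ} (h : ∀ A ∈ W.powerset, f A = g A) :
    av G θ W x f = av G θ W x g := by
  unfold av
  congr 1
  exact Finset.sum_congr rfl fun A hA => by rw [h A hA]

theorem Win_abs_av_le {θ : ℝ} (h0 : 0 ≤ θ) (h1 : θ < 1) (W : Finset V) (x : V → ℝ)
    (f : Finset V → ℝ) : |av G θ W x f| ≤ av G θ W x (fun A => |f A|) := by
  rw [abs_le]
  constructor
  · have := Win_av_mono G h0 h1 W x (f := fun A => -1 * |f A|) (g := f)
      (fun A => by have := neg_abs_le (f A); linarith)
    rw [Win_av_const_mul] at this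
    linarith
  · exact Win_av_mono G h0 h1 W x fun A => le_abs_self _

theorem abs_mg_le {θ : ℝ} (h0 : 0 ≤ θ) (h1 : θ < 1) (W : Finset V) (x : V → ℝ) (v : V) :
    |mg G θ W x v| ≤ 1 := by
  refine (Win_abs_av_le G h0 h1 W x _).trans ?_
  rw [← Win_av_const G h0 h1 W x 1]
  exact Win_av_mono G h0 h1 W x fun A => (Win_abs_sp A v).le

theorem Win_exp_artanh {T : ℝ} (hT : |T| < 1) {s : ℝ} (hs : s = 1 ∨ s = -1) :
    Real.exp (Real.artanh T * s) * √(1 - T ^ 2) = 1 + s * T := by
  have hT' : T ∈ Set.Ioo (-1 : ℝ) 1 := abs_lt.mp hT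
  have h1 : 0 < 1 - T ^ 2 := by nlinarith [hT'.1, hT'.2]
  have h2 : √(1 - T ^ 2) ≠ 0 := (Real.sqrt_pos.mpr h1).ne'
  rcases hs with rfl | rfl
  · rw [mul_one, ← Real.cosh_add_sinh, Real.cosh_artanh hT', Real.sinh_artanh hT']
    field_simp
  · rw [mul_neg_one, ← Real.cosh_sub_sinh, Real.cosh_artanh hT', Real.sinh_artanh hT']
    field_simp
    ring

theorem Win_sp_eq (A : Finset V) (v : V) : sp A v = 1 ∨ sp A v = -1 := by
  unfold sp; split_ifs <;> simp

open Classical in
theorem wt_update {θ : ℝ} (W : Finset V) (x : V → ℝ) {u : V} (hu : u ∈ W) {T : ℝ} (hT : |T| < 1)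
    (A : Finset V) :
    wt G θ W (Function.update x u (x u + Real.artanh T)) A * √(1 - T ^ 2) =
      wt G θ W x A * (1 + sp A u * T) := by
  have h1 : ∏ v ∈ W, (Real.exp (Function.update x u (x u + Real.artanh T) v * sp A v) / 2) =
      (∏ v ∈ W, (Real.exp (x v * sp A v) / 2)) * Real.exp (Real.artanh T * sp A u) := by
    have h2 : ∀ v ∈ W, Real.exp (Function.update x u (x u + Real.artanh T) v * sp A v) / 2 =
        (Real.exp (x v * sp A v) / 2) *
          (if v = u then Real.exp (Real.artanh T * sp A u) else 1) := by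
      intro v _
      by_cases hv : v = u
      · subst hv
        rw [if_pos rfl, Function.update_self, add_mul, Real.exp_add]
        ring
      · rw [if_neg hv, Function.update_of_ne hv, mul_one]
    rw [Finset.prod_congr rfl h2, Finset.prod_mul_distrib, Finset.prod_ite_eq', if_pos hu]
  unfold wt
  rw [h1, ← Win_exp_artanh hT (Win_sp_eq A u)]
  ring

open Classical in
theorem Zw_update {θ : ℝ} (h0 : 0 ≤ θ) (h1 : θ < 1) (W : Finset V) (x : V → ℝ) {u : V}
    (hu : u ∈ W) {T : ℝ} (hT : |T| < 1) :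
    Zw G θ W (Function.update x u (x u + Real.artanh T)) * √(1 - T ^ 2) =
      Zw G θ W x * (1 + mg G θ W x u * T) := by
  have hZ := (Zw_pos G h0 h1 W x).ne'
  have h2 : Zw G θ W (Function.update x u (x u + Real.artanh T)) * √(1 - T ^ 2) =
      ∑ A ∈ W.powerset, wt G θ W x A * (1 + sp A u * T) := by
    unfold Zw
    rw [Finset.sum_mul]
    exact Finset.sum_congr rfl fun A _ => wt_update G W x hu hT A
  rw [h2]
  unfold mg av
  have h3 : ∑ A ∈ W.powerset, wt G θ W x A * (1 + sp A u * T) =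
      Zw G θ W x + (∑ A ∈ W.powerset, wt G θ W x A * sp A u) * T := by
    unfold Zw
    rw [Finset.sum_mul, ← Finset.sum_add_distrib]
    exact Finset.sum_congr rfl fun A _ => by ring
  rw [h3]
  field_simp

theorem Win_one_add_mul_pos {m T : ℝ} (hm : |m| ≤ 1) (hT : |T| < 1) : 0 < 1 + m * T := by
  have h1 : |m * T| < 1 := by
    rw [abs_mul]
    calc |m| * |T| ≤ 1 * |T| := mul_le_mul_of_nonneg_right hm (abs_nonneg _)
      _ < 1 := by linarith
  have := (abs_lt.mp h1).1
  linarith

open Classical in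
theorem Win_av_update {θ : ℝ} (h0 : 0 ≤ θ) (h1 : θ < 1) (W : Finset V) (x : V → ℝ) {u : V}
    (hu : u ∈ W) {T : ℝ} (hT : |T| < 1) (f : Finset V → ℝ) :
    av G θ W (Function.update x u (x u + Real.artanh T)) f * (1 + mg G θ W x u * T) =
      av G θ W x f + T * av G θ W x (fun A => sp A u * f A) := by
  have hZ := Zw_pos G h0 h1 W x
  have hZ' := Zw_pos G h0 h1 W (Function.update x u (x u + Real.artanh T))
  have hT' : T ∈ Set.Ioo (-1 : ℝ) 1 := abs_lt.mp hT
  have h2 : 0 < √(1 - T ^ 2) := Real.sqrt_pos.mpr (by nlinarith [hT'.1, hT'.2])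
  have hZu := Zw_update G h0 h1 W x hu hT
  have h3 : (∑ A ∈ W.powerset, wt G θ W (Function.update x u (x u + Real.artanh T)) A * f A) *
      √(1 - T ^ 2) = ∑ A ∈ W.powerset, wt G θ W x A * f A +
        T * ∑ A ∈ W.powerset, wt G θ W x A * (sp A u * f A) := by
    rw [Finset.sum_mul, Finset.mul_sum, ← Finset.sum_add_distrib]
    refine Finset.sum_congr rfl fun A _ => ?_
    have := wt_update G (θ := θ) W x hu hT A
    calc _ = (wt G θ W (Function.update x u (x u + Real.artanh T)) A * √(1 - T ^ 2)) * f A := by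
          ring
      _ = _ := by rw [this]; ring
  have h4 : av G θ W x f + T * av G θ W x (fun A => sp A u * f A) =
      (∑ A ∈ W.powerset, wt G θ W x A * f A +
        T * ∑ A ∈ W.powerset, wt G θ W x A * (sp A u * f A)) / Zw G θ W x := by
    unfold av
    rw [add_div, mul_div_assoc]
  rw [h4, ← h3]
  unfold av
  rw [eq_div_iff hZ.ne', div_mul_eq_mul_div, div_mul_eq_mul_div, div_eq_iff hZ'.ne']
  calc _ = (∑ A ∈ W.powerset, wt G θ W (Function.update x u (x u + Real.artanh T)) A * f A) *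
        (Zw G θ W x * (1 + mg G θ W x u * T)) := by ring
    _ = _ := by rw [← hZu]; ring

open Classical in
theorem mg_update {θ : ℝ} (h0 : 0 ≤ θ) (h1 : θ < 1) (W : Finset V) (x : V → ℝ) {u : V}
    (hu : u ∈ W) (o : V) {T : ℝ} (hT : |T| < 1) :
    mg G θ W (Function.update x u (x u + Real.artanh T)) o =
      mg G θ W x o + cv G θ W x o u * (T / (1 + mg G θ W x u * T)) := by
  have hp := Win_one_add_mul_pos (abs_mg_le G h0 h1 W x u) hT
  have h2 := Win_av_update G h0 h1 W x hu hT (fun A => sp A o)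
  have h3 : av G θ W x (fun A => sp A u * sp A o) =
      cv G θ W x o u + mg G θ W x o * mg G θ W x u := by
    unfold cv
    have : (fun A : Finset V => sp A u * sp A o) = fun A => sp A o * sp A u := by
      funext A; ring
    rw [this]; ring
  rw [h3] at h2
  have h4 : av G θ W (Function.update x u (x u + Real.artanh T)) (fun A => sp A o) =
      mg G θ W (Function.update x u (x u + Real.artanh T)) o := rfl
  have h5 : av G θ W x (fun A => sp A o) = mg G θ W x o := rfl
  rw [h4, h5] at h2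
  have h6 : mg G θ W (Function.update x u (x u + Real.artanh T)) o =
      (mg G θ W x o + T * (cv G θ W x o u + mg G θ W x o * mg G θ W x u)) /
        (1 + mg G θ W x u * T) := by
    rw [eq_div_iff hp.ne', h2]
  rw [h6, div_eq_iff hp.ne', add_mul, mul_assoc, div_mul_cancel₀ _ hp.ne']
  ring

theorem cv_comm {θ : ℝ} (W : Finset V) (x : V → ℝ) (u v : V) :
    cv G θ W x u v = cv G θ W x v u := by
  unfold cv
  have : (fun A : Finset V => sp A u * sp A v) = fun A => sp A v * sp A u := by
    funext A; ring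
  rw [this]; ring

theorem cv_self {θ : ℝ} (h0 : 0 ≤ θ) (h1 : θ < 1) (W : Finset V) (x : V → ℝ) (u : V) :
    cv G θ W x u u = 1 - mg G θ W x u ^ 2 := by
  unfold cv
  have : (fun A : Finset V => sp A u * sp A u) = fun _ => 1 := by
    funext A; exact Win_sp_sq A u
  rw [this, Win_av_const G h0 h1]; ring

theorem Win_cv_eq {θ : ℝ} (h0 : 0 ≤ θ) (h1 : θ < 1) (W : Finset V) (x : V → ℝ) (u v : V) :
    cv G θ W x u v =
      av G θ W x (fun A => (sp A u - mg G θ W x u) * (sp A v - mg G θ W x v)) := by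
  have h2 : (fun A : Finset V => (sp A u - mg G θ W x u) * (sp A v - mg G θ W x v)) =
      fun A => (sp A u * sp A v) - ((mg G θ W x v * sp A u + mg G θ W x u * sp A v) -
        mg G θ W x u * mg G θ W x v) := by
    funext A; ring
  rw [h2, Win_av_sub, Win_av_sub, Win_av_add, Win_av_const_mul, Win_av_const_mul,
    Win_av_const G h0 h1]
  unfold cv
  change _ = _ - (mg G θ W x v * mg G θ W x u + mg G θ W x u * mg G θ W x v - _)
  ring

theorem Win_var {θ : ℝ} (h0 : 0 ≤ θ) (h1 : θ < 1) (W : Finset V) (x : V → ℝ) (u : V) :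
    av G θ W x (fun A => (sp A u - mg G θ W x u) ^ 2) = 1 - mg G θ W x u ^ 2 := by
  rw [← cv_self G h0 h1, Win_cv_eq G h0 h1]
  congr 1
  funext A; ring

theorem abs_cv_le {θ : ℝ} (h0 : 0 ≤ θ) (h1 : θ < 1) (W : Finset V) (x : V → ℝ) (u v : V) :
    |cv G θ W x u v| ≤ 1 := by
  rw [Win_cv_eq G h0 h1]
  refine (Win_abs_av_le G h0 h1 W x _).trans ?_
  have h2 : av G θ W x (fun A => |(sp A u - mg G θ W x u) * (sp A v - mg G θ W x v)|) ≤
      av G θ W x (fun A => (1 / 2) * ((sp A u - mg G θ W x u) ^ 2 +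
        (sp A v - mg G θ W x v) ^ 2)) := by
    refine Win_av_mono G h0 h1 W x fun A => ?_
    rw [abs_mul]
    nlinarith [sq_abs (sp A u - mg G θ W x u), sq_abs (sp A v - mg G θ W x v),
      sq_nonneg (|sp A u - mg G θ W x u| - |sp A v - mg G θ W x v|)]
  refine h2.trans ?_
  rw [Win_av_const_mul, Win_av_add, Win_var G h0 h1, Win_var G h0 h1]
  nlinarith [sq_nonneg (mg G θ W x u), sq_nonneg (mg G θ W x v)]

theorem Win_sp_of_notMem {W A : Finset V} (hA : A ∈ W.powerset) {u : V} (hu : u ∉ W) :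
    sp A u = -1 := by
  unfold sp
  rw [if_neg (fun h => hu (Finset.mem_powerset.mp hA h))]

theorem Win_mg_of_notMem {θ : ℝ} (h0 : 0 ≤ θ) (h1 : θ < 1) (W : Finset V) (x : V → ℝ) {u : V}
    (hu : u ∉ W) : mg G θ W x u = -1 := by
  unfold mg
  rw [Win_av_congr_fun G W x (g := fun _ => -1) (fun A hA => Win_sp_of_notMem hA hu),
    Win_av_const G h0 h1]

theorem cv_eq_zero {θ : ℝ} (h0 : 0 ≤ θ) (h1 : θ < 1) (W : Finset V) (x : V → ℝ) (o : V) {u : V}
    (hu : u ∉ W) : cv G θ W x o u = 0 := by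
  unfold cv
  rw [Win_mg_of_notMem G h0 h1 W x hu,
    Win_av_congr_fun G W x (g := fun A => -1 * sp A o)
      (fun A hA => by rw [Win_sp_of_notMem hA hu]; ring), Win_av_const_mul]
  change -1 * mg G θ W x o - mg G θ W x o * -1 = 0
  ring

open Classical in
theorem Win_wt_map (θ : ℝ) (g : G ≃g G) (W : Finset V) (x : V → ℝ) (A : Finset V) :
    wt G θ (W.map g.toEquiv.toEmbedding) x (A.map g.toEquiv.toEmbedding) =
      wt G θ W (fun w => x (g w)) A := by
  have hmem : ∀ v, g v ∈ A.map g.toEquiv.toEmbedding ↔ v ∈ A :=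
    fun v => Finset.mem_map' g.toEquiv.toEmbedding
  have hsp : ∀ v, sp (A.map g.toEquiv.toEmbedding) (g v) = sp A v := by
    intro v
    unfold sp
    simp only [hmem]
  unfold wt
  congr 1
  · rw [Finset.sym2_map, Finset.filter_map, Finset.prod_map]
    refine Finset.prod_congr ?_ ?_
    · ext e
      simp only [Finset.mem_filter, and_congr_right_iff, Function.comp]
      intro _
      induction e using Sym2.ind with
      | _ a b =>
        have := g.map_adj_iff (v := a) (w := b)
        simpa [Function.Embedding.sym2Map] using this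
    · intro e _
      have h : Sym2.map (fun v => decide (v ∈ A.map g.toEquiv.toEmbedding))
          (g.toEquiv.toEmbedding.sym2Map e) = Sym2.map (fun v => decide (v ∈ A)) e := by
        change Sym2.map _ (Sym2.map g.toEquiv.toEmbedding e) = _
        rw [Sym2.map_map]
        refine Sym2.map_congr fun w _ => ?_
        change decide (g w ∈ A.map g.toEquiv.toEmbedding) = _
        simp only [hmem]
      rw [h]
  · rw [Finset.prod_map]
    refine Finset.prod_congr rfl fun v _ => ?_
    have := hsp v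
    change Real.exp (x (g v) * sp (A.map g.toEquiv.toEmbedding) (g v)) / 2 = _
    rw [this]

theorem Win_sum_powerset_map (g : G ≃g G) (W : Finset V) (F : Finset V → ℝ) :
    ∑ A ∈ (W.map g.toEquiv.toEmbedding).powerset, F A =
      ∑ A ∈ W.powerset, F (A.map g.toEquiv.toEmbedding) := by
  symm
  refine Finset.sum_bij (fun A _ => A.map g.toEquiv.toEmbedding) ?_ ?_ ?_ ?_
  · intro A hA
    rw [Finset.mem_powerset] at hA ⊢
    exact Finset.map_subset_map.mpr hA
  · intro A _ B _ h
    exact Finset.map_injective _ h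
  · intro B hB
    rw [Finset.mem_powerset, Finset.subset_map_iff] at hB
    obtain ⟨A, hA, rfl⟩ := hB
    exact ⟨A, Finset.mem_powerset.mpr hA, rfl⟩
  · intro A _
    rfl

/-- equivariance under graph automorphisms. -/
theorem mg_map (θ : ℝ) (g : G ≃g G) (W : Finset V) (x : V → ℝ) (v : V) :
    mg G θ (W.map g.toEquiv.toEmbedding) x (g v) = mg G θ W (fun w => x (g w)) v := by
  have hsp : ∀ A : Finset V, sp (A.map g.toEquiv.toEmbedding) (g v) = sp A v := by
    intro A
    have hmem : g v ∈ A.map g.toEquiv.toEmbedding ↔ v ∈ A :=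
      Finset.mem_map' g.toEquiv.toEmbedding
    unfold sp
    by_cases hv : v ∈ A
    · rw [if_pos hv, if_pos (hmem.mpr hv)]
    · rw [if_neg hv, if_neg (fun h => hv (hmem.mp h))]
  unfold mg av Zw
  rw [Win_sum_powerset_map, Win_sum_powerset_map]
  congr 1
  · refine Finset.sum_congr rfl fun A _ => ?_
    have h := hsp A
    beta_reduce
    rw [Win_wt_map]
    exact congrArg _ h
  · exact Finset.sum_congr rfl fun A _ => by rw [Win_wt_map]

theorem Win_continuous_wt {θ : ℝ} (W : Finset V) (A : Finset V) :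
    Continuous (fun x : V → ℝ => wt G θ W x A) := by
  unfold wt
  refine continuous_const.mul (continuous_finsetProd _ fun v _ => ?_)
  exact (Real.continuous_exp.comp ((continuous_apply v).mul continuous_const)).div_const 2

theorem Win_continuous_av {θ : ℝ} (h0 : 0 ≤ θ) (h1 : θ < 1) (W : Finset V)
    (f : Finset V → ℝ) : Continuous (fun x : V → ℝ => av G θ W x f) := by
  unfold av
  refine Continuous.div ?_ ?_ fun x => (Zw_pos G h0 h1 W x).ne'
  · exact continuous_finsetSum _ fun A _ => (Win_continuous_wt G W A).mul continuous_const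
  · exact continuous_finsetSum _ fun A _ => Win_continuous_wt G W A

theorem continuous_mg {θ : ℝ} (h0 : 0 ≤ θ) (h1 : θ < 1) (W : Finset V) (v : V) :
    Continuous (fun x : V → ℝ => mg G θ W x v) := Win_continuous_av G h0 h1 W _

theorem continuous_cv {θ : ℝ} (h0 : 0 ≤ θ) (h1 : θ < 1) (W : Finset V) (u v : V) :
    Continuous (fun x : V → ℝ => cv G θ W x u v) := by
  unfold cv
  exact (Win_continuous_av G h0 h1 W _).sub
    ((continuous_mg G h0 h1 W u).mul (continuous_mg G h0 h1 W v))

theorem Win_tanh_eq (C : ℝ) :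
    Real.tanh C = (Real.exp (2 * C) - 1) / (Real.exp (2 * C) + 1) := by
  have h1 : Real.exp (2 * C) = Real.exp C * Real.exp C := by rw [← Real.exp_add]; ring_nf
  have h2 : Real.exp (-C) = (Real.exp C)⁻¹ := Real.exp_neg C
  have h3 := Real.exp_pos C
  rw [Real.tanh_eq_sinh_div_cosh, Real.sinh_eq, Real.cosh_eq, h1, h2]
  field_simp

theorem Win_exp_two_artanh {θ : ℝ} (h0 : 0 ≤ θ) (h1 : θ < 1) :
    Real.exp (2 * Real.artanh θ) = (1 + θ) / (1 - θ) := by
  have h2 : θ ∈ Set.Ioo (-1 : ℝ) 1 := ⟨by linarith, h1⟩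
  have h3 : (0 : ℝ) ≤ (1 + θ) / (1 - θ) := div_nonneg (by linarith) (by linarith)
  have h4 : Real.exp (2 * Real.artanh θ) = Real.exp (Real.artanh θ) * Real.exp (Real.artanh θ) := by
    rw [← Real.exp_add]; ring_nf
  rw [h4, Real.exp_artanh h2, Real.mul_self_sqrt h3]

open Classical in
/-- changing the spin at `v` changes the weight by a bounded factor. -/
theorem Win_wt_le [G.LocallyFinite] {θ : ℝ} (h0 : 0 ≤ θ) (h1 : θ < 1) (W : Finset V)
    (x : V → ℝ) {B : ℝ} {v : V} (hv : v ∈ W) (hx : |x v| ≤ B) {D : ℕ} (hD : G.degree v ≤ D)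
    {A A' : Finset V} (hA : ∀ w, w ≠ v → (w ∈ A' ↔ w ∈ A)) :
    wt G θ W x A' ≤ Real.exp (2 * (B + D * Real.artanh θ)) * wt G θ W x A := by
  set r : ℝ := (1 + θ) / (1 - θ) with hr
  have hr1 : 1 ≤ r := by rw [hr, le_div_iff₀ (by linarith)]; linarith
  have hB : 0 ≤ B := (abs_nonneg _).trans hx
  have hexp : Real.exp (2 * (B + D * Real.artanh θ)) = r ^ D * Real.exp (2 * B) := by
    rw [hr, ← Win_exp_two_artanh h0 h1, ← Real.exp_nat_mul, ← Real.exp_add]
    ring_nf
  have hfield : ∏ w ∈ W, (Real.exp (x w * sp A' w) / 2) ≤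
      (∏ w ∈ W, (Real.exp (x w * sp A w) / 2)) * Real.exp (2 * B) := by
    have h3 : (∏ w ∈ W, (Real.exp (x w * sp A w) / 2)) * Real.exp (2 * B) =
        ∏ w ∈ W, (Real.exp (x w * sp A w) / 2) * (if w = v then Real.exp (2 * B) else 1) := by
      rw [Finset.prod_mul_distrib, Finset.prod_ite_eq', if_pos hv]
    rw [h3]
    refine Finset.prod_le_prod (fun w _ => by positivity) fun w _ => ?_
    by_cases hw : w = v
    · subst hw
      rw [if_pos rfl, div_mul_eq_mul_div, ← Real.exp_add]
      refine div_le_div_of_nonneg_right (Real.exp_le_exp.mpr ?_) (by norm_num)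
      have hx' := abs_le.mp hx
      rcases Win_sp_eq A' w with h | h <;> rcases Win_sp_eq A w with h' | h' <;> rw [h, h'] <;>
        nlinarith [hx'.1, hx'.2]
    · rw [if_neg hw, mul_one]
      have : sp A' w = sp A w := by
        unfold sp
        simp only [hA w hw]
      rw [this]
  have hedge : (∏ e ∈ W.sym2 with e ∈ G.edgeSet,
      (if (Sym2.map (fun v => decide (v ∈ A')) e).IsDiag then 1 + θ else 1 - θ)) ≤
      (∏ e ∈ W.sym2 with e ∈ G.edgeSet,
        (if (Sym2.map (fun v => decide (v ∈ A)) e).IsDiag then 1 + θ else 1 - θ)) * r ^ D := by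
    have hfac : ∀ (C : Finset V) (e : Sym2 V), 1 - θ ≤
        (if (Sym2.map (fun v => decide (v ∈ C)) e).IsDiag then 1 + θ else 1 - θ) ∧
        (if (Sym2.map (fun v => decide (v ∈ C)) e).IsDiag then 1 + θ else 1 - θ) ≤ 1 + θ := by
      intro C e
      split_ifs <;> constructor <;> linarith
    have h4 : ∏ e ∈ W.sym2 with e ∈ G.edgeSet, (if v ∈ e then r else 1) ≤ r ^ D := by
      rw [Finset.prod_ite, Finset.prod_const, Finset.prod_const_one, mul_one]
      refine pow_le_pow_right₀ hr1 (le_trans ?_ hD)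
      rw [← SimpleGraph.card_incidenceFinset_eq_degree]
      refine Finset.card_le_card fun e he => ?_
      simp only [Finset.mem_filter] at he
      rw [SimpleGraph.mem_incidenceFinset]
      exact ⟨he.1.2, he.2⟩
    refine le_trans ?_ (mul_le_mul_of_nonneg_left h4 (Finset.prod_nonneg fun e _ =>
      le_trans (by linarith) (hfac A e).1))
    rw [← Finset.prod_mul_distrib]
    refine Finset.prod_le_prod (fun e _ => le_trans (by linarith) (hfac A' e).1) fun e _ => ?_
    by_cases hve : v ∈ e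
    · rw [if_pos hve]
      calc _ ≤ 1 + θ := (hfac A' e).2
        _ = (1 - θ) * r := by rw [hr, mul_div_cancel₀ _ (by linarith : (1 - θ) ≠ 0)]
        _ ≤ _ := mul_le_mul_of_nonneg_right (hfac A e).1 (by linarith)
    · rw [if_neg hve, mul_one]
      have : Sym2.map (fun v => decide (v ∈ A')) e = Sym2.map (fun v => decide (v ∈ A)) e := by
        refine Sym2.map_congr fun w hw => ?_
        have hwv : w ≠ v := fun h => hve (h ▸ hw)
        simp only [hA w hwv]
      rw [this]
  unfold wt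
  rw [hexp]
  have hE0 : 0 ≤ ∏ e ∈ W.sym2 with e ∈ G.edgeSet,
        (if (Sym2.map (fun v => decide (v ∈ A)) e).IsDiag then 1 + θ else 1 - θ) :=
    Finset.prod_nonneg fun e _ => by split_ifs <;> linarith
  calc _ ≤ ((∏ e ∈ W.sym2 with e ∈ G.edgeSet,
        (if (Sym2.map (fun v => decide (v ∈ A)) e).IsDiag then 1 + θ else 1 - θ)) * r ^ D) *
        ((∏ w ∈ W, (Real.exp (x w * sp A w) / 2)) * Real.exp (2 * B)) :=
        mul_le_mul hedge hfield (Finset.prod_nonneg fun w _ => by positivity)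
          (mul_nonneg hE0 (pow_nonneg (by linarith) _))
    _ = _ := by ring

/-- magnetisations are bounded away from `±1` for bounded fields (`D` bounds the degree). -/
theorem abs_mg_le_tanh [G.LocallyFinite] {θ : ℝ} (h0 : 0 ≤ θ) (h1 : θ < 1) (W : Finset V)
    (x : V → ℝ) {B : ℝ} {v : V} (hv : v ∈ W) (hx : |x v| ≤ B) {D : ℕ} (hD : G.degree v ≤ D) :
    |mg G θ W x v| ≤ Real.tanh (B + D * Real.artanh θ) := by
  classical
  set C := B + D * Real.artanh θ with hC
  set t := Real.tanh C with ht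
  have hpair : ∀ a b : ℝ, a ≤ Real.exp (2 * C) * b → b ≤ Real.exp (2 * C) * a →
      |a - b| ≤ t * (a + b) := by
    intro a b hab hba
    have hE : 0 < Real.exp (2 * C) + 1 := by positivity
    rw [ht, Win_tanh_eq, div_mul_eq_mul_div, le_div_iff₀ hE]
    rcases abs_cases (a - b) with ⟨h, _⟩ | ⟨h, _⟩ <;> rw [h] <;> nlinarith
  have hW : W = insert v (W.erase v) := (Finset.insert_erase hv).symm
  have hsum : ∀ F : Finset V → ℝ, ∑ A ∈ W.powerset, F A =
      ∑ A ∈ (W.erase v).powerset, (F (insert v A) + F A) := by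
    intro F
    conv_lhs => rw [hW]
    rw [Finset.sum_powerset_insert (Finset.notMem_erase v W), Finset.sum_add_distrib, add_comm]
  have hZ := Zw_pos G h0 h1 W x
  unfold mg av
  rw [abs_div, abs_of_pos hZ, div_le_iff₀ hZ]
  unfold Zw
  rw [hsum, hsum, Finset.mul_sum]
  refine (Finset.abs_sum_le_sum_abs _ _).trans (Finset.sum_le_sum fun A hA => ?_)
  have hvA : v ∉ A := fun h => Finset.notMem_erase v W (Finset.mem_powerset.mp hA h)
  have hs1 : sp (insert v A) v = 1 := by unfold sp; rw [if_pos (Finset.mem_insert_self v A)]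
  have hs2 : sp A v = -1 := by unfold sp; rw [if_neg hvA]
  have hAA : ∀ w, w ≠ v → (w ∈ insert v A ↔ w ∈ A) := by
    intro w hw
    simp [hw]
  have := hpair _ _ (Win_wt_le G h0 h1 W x hv hx hD hAA)
    (Win_wt_le G h0 h1 W x hv hx hD (fun w hw => (hAA w hw).symm))
  beta_reduce
  rw [hs1, hs2]
  calc _ = |wt G θ W x (insert v A) - wt G θ W x A| := by ring_nf
    _ ≤ _ := this

/-- product approximation of the law of the spins in `S`. -/
theorem av_prod_approx {θ : ℝ} (h0 : 0 ≤ θ) (h1 : θ < 1) (W : Finset V) (x : V → ℝ)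
    (S : Finset V) (η : V → Bool) :
    |av G θ W x (fun A => ∏ v ∈ S, (1 + (if η v then 1 else -1) * sp A v) / 2) -
      ∏ v ∈ S, (1 + (if η v then 1 else -1) * mg G θ W x v) / 2| ≤
      ∑ v ∈ S, (1 - mg G θ W x v ^ 2) := by
  classical
  set e : V → ℝ := fun v => if η v then 1 else -1 with he
  have he1 : ∀ v, e v = 1 ∨ e v = -1 := by
    intro v; simp only [he]; split_ifs <;> simp
  have hX0 : ∀ (A : Finset V) v, (1 + e v * sp A v) / 2 = 0 ∨ (1 + e v * sp A v) / 2 = 1 := by
    intro A v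
    rcases he1 v with h | h <;> rcases Win_sp_eq A v with h' | h' <;> rw [h, h'] <;> norm_num
  have hp : ∀ v, 0 ≤ (1 + e v * mg G θ W x v) / 2 ∧ (1 + e v * mg G θ W x v) / 2 ≤ 1 := by
    intro v
    have := abs_le.mp (abs_mg_le G h0 h1 W x v)
    rcases he1 v with h | h <;> rw [h] <;> constructor <;> linarith [this.1, this.2]
  have key : ∀ (A : Finset V) (S : Finset V),
      |∏ v ∈ S, (1 + e v * sp A v) / 2 - ∏ v ∈ S, (1 + e v * mg G θ W x v) / 2| ≤
        ∑ v ∈ S, |(1 + e v * sp A v) / 2 - (1 + e v * mg G θ W x v) / 2| := by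
    intro A S
    induction S using Finset.induction_on with
    | empty => simp
    | insert a S ha ih =>
      rw [Finset.prod_insert ha, Finset.prod_insert ha, Finset.sum_insert ha]
      set P := ∏ v ∈ S, (1 + e v * sp A v) / 2 with hP
      set Q := ∏ v ∈ S, (1 + e v * mg G θ W x v) / 2 with hQ
      have hP0 : 0 ≤ P := Finset.prod_nonneg fun v _ => by
        rcases hX0 A v with h | h <;> rw [h] <;> norm_num
      have hP1 : P ≤ 1 := Finset.prod_le_one
        (fun v _ => by rcases hX0 A v with h | h <;> rw [h] <;> norm_num)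
        (fun v _ => by rcases hX0 A v with h | h <;> rw [h] <;> norm_num)
      set a1 := (1 + e a * sp A a) / 2
      set b1 := (1 + e a * mg G θ W x a) / 2 with hb1
      have hb := hp a
      rw [← hb1] at hb
      have : a1 * P - b1 * Q = (a1 - b1) * P + b1 * (P - Q) := by ring
      rw [this]
      calc |(a1 - b1) * P + b1 * (P - Q)| ≤ |(a1 - b1) * P| + |b1 * (P - Q)| := abs_add_le _ _
        _ = |a1 - b1| * P + b1 * |P - Q| := by
            rw [abs_mul, abs_mul, abs_of_nonneg hP0, abs_of_nonneg hb.1]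
        _ ≤ |a1 - b1| * 1 + 1 * |P - Q| := by
            gcongr
            exact hb.2
        _ ≤ _ := by linarith
  have h2 : av G θ W x (fun A => ∏ v ∈ S, (1 + e v * sp A v) / 2) -
      ∏ v ∈ S, (1 + e v * mg G θ W x v) / 2 =
      av G θ W x (fun A => ∏ v ∈ S, (1 + e v * sp A v) / 2 -
        ∏ v ∈ S, (1 + e v * mg G θ W x v) / 2) := by
    rw [Win_av_sub, Win_av_const G h0 h1]
  change |av G θ W x (fun A => ∏ v ∈ S, (1 + e v * sp A v) / 2) -
      ∏ v ∈ S, (1 + e v * mg G θ W x v) / 2| ≤ _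
  rw [h2]
  refine (Win_abs_av_le G h0 h1 W x _).trans ?_
  refine (Win_av_mono G h0 h1 W x fun A => key A S).trans ?_
  rw [Win_av_sum]
  refine Finset.sum_le_sum fun v _ => ?_
  -- `E|X - p| = 2 p (1 - p) = (1 - m²)/2`
  have h3 : ∀ A : Finset V, |(1 + e v * sp A v) / 2 - (1 + e v * mg G θ W x v) / 2| =
      (1 / 2) * (1 - mg G θ W x v * sp A v) := by
    intro A
    have hm := abs_le.mp (abs_mg_le G h0 h1 W x v)
    have h4 : (1 + e v * sp A v) / 2 - (1 + e v * mg G θ W x v) / 2 =
        e v * (sp A v - mg G θ W x v) / 2 := by ring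
    rw [h4, abs_div, abs_mul]
    have h5 : |e v| = 1 := by rcases he1 v with h | h <;> rw [h] <;> norm_num
    rw [h5]
    rcases Win_sp_eq A v with h' | h' <;> rw [h']
    · rw [abs_of_nonneg (by linarith [hm.2])]
      norm_num
      ring
    · rw [abs_of_nonpos (by linarith [hm.1])]
      norm_num
      ring
  have h4 : av G θ W x (fun A => |(1 + e v * sp A v) / 2 - (1 + e v * mg G θ W x v) / 2|) =
      (1 / 2) * (1 - mg G θ W x v ^ 2) := by
    have : (fun A : Finset V => |(1 + e v * sp A v) / 2 - (1 + e v * mg G θ W x v) / 2|) =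
        fun A => (1 / 2) * (1 - mg G θ W x v * sp A v) := funext h3
    rw [this, Win_av_const_mul, Win_av_sub, Win_av_const G h0 h1, Win_av_const_mul]
    change 1 / 2 * (1 - mg G θ W x v * mg G θ W x v) = _
    ring
  rw [h4]
  have hm := abs_le.mp (abs_mg_le G h0 h1 W x v)
  nlinarith [hm.1, hm.2]

end M2a

end Crest.Agent.Lib.Row160
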