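import Crest.Agent.Lib.Row160.OneStep
import Crest.Agent.Lib.Row160.Win

/-!
Row 160, M4a: the process, structural facts.
-/

set_option autoImplicit false
set_option linter.unusedVariables false

open MeasureTheory Filter Topology

namespace Crest.Agent.Lib.Row160

section M4a
variable {V : Type*} (G : SimpleGraph V)

instance : IsProbabilityMeasure (labM V) := by unfold labM; infer_instance

open Classical in
/-- the iteration has stabilised. -/
theorem Process_incr_stable (θ : ℝ) (W : Finset V) (x₀ : V → ℝ) (ω : V → L1) :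
    ∀ (r : ℕ) (v : V), (W.filter (fun w => (ω w).1 < (ω v).1)).card ≤ r →
    ∀ n m : ℕ, r < n → r < m → incr G θ W x₀ ω n v = incr G θ W x₀ ω m v := by
  intro r
  induction r using Nat.strong_induction_on with
  | _ r ih =>
    intro v hv n m hn hm
    obtain ⟨n', rfl⟩ : ∃ n', n = n' + 1 := ⟨n - 1, by omega⟩
    obtain ⟨m', rfl⟩ : ∃ m', m = m' + 1 := ⟨m - 1, by omega⟩
    simp only [incr]
    congr 2
    apply mg_congr
    intro w hw
    by_cases h : (ω w).1 < (ω v).1
    · have hlt : (W.filter (fun u => (ω u).1 < (ω w).1)).card <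
          (W.filter (fun u => (ω u).1 < (ω v).1)).card := by
        apply Finset.card_lt_card
        constructor
        · intro u hu
          rw [Finset.mem_filter] at hu ⊢
          exact ⟨hu.1, hu.2.trans h⟩
        · intro hsub
          have hw' : w ∈ W.filter (fun u => (ω u).1 < (ω v).1) := by
            rw [Finset.mem_filter]
            exact ⟨hw, h⟩
          have := hsub hw'
          rw [Finset.mem_filter] at this
          exact lt_irrefl _ this.2
      rw [if_pos ⟨hw, h⟩, if_pos ⟨hw, h⟩]
      congr 1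
      exact ih _ (lt_of_lt_of_le hlt hv) w le_rfl n' m' (by omega) (by omega)
    · rw [if_neg (fun h' => h h'.2), if_neg (fun h' => h h'.2)]

open Classical in
theorem Process_incr_card (θ : ℝ) (W : Finset V) (x₀ : V → ℝ) (ω : V → L1) {w : V} (hw : w ∈ W) :
    incr G θ W x₀ ω W.card w = Real.artanh (Tq ((ω w).1 : ℝ)
      (mg G θ W (fld G θ W x₀ ω ((ω w).1 : ℝ)) w) (ω w).2) := by
  have hlt : (W.filter (fun u => (ω u).1 < (ω w).1)).card < W.card := by
    apply Finset.card_lt_card
    constructor
    · exact Finset.filter_subset _ _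
    · intro hsub
      have := hsub hw
      rw [Finset.mem_filter] at this
      exact lt_irrefl _ this.2
  rw [Process_incr_stable G θ W x₀ ω _ w le_rfl W.card (W.card + 1) hlt (by omega)]
  simp only [incr]
  congr 2

open Classical in
/-- fixed point equation. -/
theorem fld_eq (θ : ℝ) (W : Finset V) (x₀ : V → ℝ) (ω : V → L1) (s : ℝ) (w : V) :
    fld G θ W x₀ ω s w = x₀ w + if w ∈ W ∧ ((ω w).1 : ℝ) < s then
      Real.artanh (Tq ((ω w).1 : ℝ) (mg G θ W (fld G θ W x₀ ω ((ω w).1 : ℝ)) w) (ω w).2) else 0 := by
  by_cases h : w ∈ W ∧ ((ω w).1 : ℝ) < s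
  · rw [if_pos h, ← Process_incr_card G θ W x₀ ω h.1]
    unfold fld
    rw [if_pos h]
  · rw [if_neg h]
    unfold fld
    rw [if_neg h]

/-- the increments agree if all labels of vertices visited before time `s` agree. -/
theorem Process_incr_congr (θ : ℝ) (W : Finset V) {x₀ x₀' : V → ℝ} {ω ω' : V → L1} (s : ℝ)
    (hx : ∀ w ∈ W, x₀ w = x₀' w)
    (hω : ∀ w ∈ W, ((ω w).1 : ℝ) < s ∨ ((ω' w).1 : ℝ) < s → ω w = ω' w) (n : ℕ) :
    ∀ w ∈ W, ((ω w).1 : ℝ) < s → incr G θ W x₀ ω n w = incr G θ W x₀' ω' n w := by
  classical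
  induction n with
  | zero => intro w _ _; rfl
  | succ n ih =>
    intro w hw hs
    have hww := hω w hw (Or.inl hs)
    simp only [incr]
    rw [← hww]
    congr 2
    apply mg_congr
    intro u hu
    rw [hx u hu]
    congr 1
    by_cases h : (ω u).1 < (ω w).1
    · have hus : ((ω u).1 : ℝ) < s := lt_trans (by exact_mod_cast h) hs
      have huu := hω u hu (Or.inl hus)
      rw [if_pos ⟨hu, h⟩, if_pos ⟨hu, by rw [← huu]; exact h⟩]
      exact ih u hu hus
    · rw [if_neg (fun h' => h h'.2), if_neg]
      rintro ⟨_, h'⟩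
      have hus : ((ω' u).1 : ℝ) < s := lt_trans (by exact_mod_cast h') hs
      have huu := hω u hu (Or.inr hus)
      rw [← huu] at h'
      exact h h'

theorem Process_fld_congr (θ : ℝ) (W : Finset V) {x₀ x₀' : V → ℝ} {ω ω' : V → L1} (s : ℝ)
    (hx : ∀ w ∈ W, x₀ w = x₀' w)
    (hω : ∀ w ∈ W, ((ω w).1 : ℝ) < s ∨ ((ω' w).1 : ℝ) < s → ω w = ω' w) {w : V} (hw : w ∈ W) :
    fld G θ W x₀ ω s w = fld G θ W x₀' ω' s w := by
  classical
  unfold fld
  rw [hx w hw]
  congr 1
  by_cases h : ((ω w).1 : ℝ) < s
  · have hww := hω w hw (Or.inl h)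
    rw [if_pos ⟨hw, h⟩, if_pos ⟨hw, by rw [← hww]; exact h⟩]
    exact Process_incr_congr G θ W s hx hω _ w hw h
  · rw [if_neg (fun h' => h h'.2), if_neg]
    rintro ⟨_, h'⟩
    have hww := hω w hw (Or.inr h')
    rw [← hww] at h'
    exact h h'

/-- outside of the window the field does not change. -/
theorem Process_fld_notMem (θ : ℝ) (W : Finset V) (x₀ : V → ℝ) (ω : V → L1) (s : ℝ) {w : V}
    (hw : w ∉ W) : fld G θ W x₀ ω s w = x₀ w := by
  unfold fld
  rw [if_neg (fun h => hw h.1), add_zero]

open Classical in
/-- if `U_v ≥ s` then the field at time `s` does not depend on the label of `v`. -/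
theorem fld_update (θ : ℝ) (W : Finset V) (x₀ : V → ℝ) (ω : V → L1) (s : ℝ) (v : V) (l : L1)
    (h : s ≤ ((ω v).1 : ℝ)) (h' : s ≤ (l.1 : ℝ)) :
    fld G θ W x₀ (Function.update ω v l) s = fld G θ W x₀ ω s := by
  funext w
  by_cases hw : w ∈ W
  · apply Process_fld_congr G θ W s (fun _ _ => rfl) _ hw
    intro u _ hu
    by_cases huv : u = v
    · subst huv
      exfalso
      simp only [Function.update_self] at hu
      rcases hu with hu | hu <;> linarith
    · rw [Function.update_of_ne huv]
  · rw [Process_fld_notMem G θ W x₀ _ s hw, Process_fld_notMem G θ W x₀ _ s hw]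

open Classical in
/-- one visit: if `v ∈ W` is the only vertex of `W` with `r ≤ U < s` then the field at time `s` is
obtained by the visit of `v`. -/
theorem fld_step (θ : ℝ) (W : Finset V) (x₀ : V → ℝ) (ω : V → L1) {s r : ℝ} {v : V} (hv : v ∈ W)
    (hr : ((ω v).1 : ℝ) = r) (hrs : r < s)
    (honly : ∀ w ∈ W, r ≤ ((ω w).1 : ℝ) → ((ω w).1 : ℝ) < s → w = v) :
    fld G θ W x₀ ω s = Function.update (fld G θ W x₀ ω r) v
      (fld G θ W x₀ ω r v +
        Real.artanh (Tq r (mg G θ W (fld G θ W x₀ ω r) v) (ω v).2)) := by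
  funext w
  by_cases hwv : w = v
  · subst hwv
    rw [Function.update_self, fld_eq G θ W x₀ ω s, if_pos ⟨hv, by rw [hr]; exact hrs⟩, hr]
    congr 1
    unfold fld
    rw [if_neg, add_zero]
    rintro ⟨_, h⟩
    rw [hr] at h
    exact lt_irrefl _ h
  · rw [Function.update_of_ne hwv]
    unfold fld
    congr 1
    by_cases h : w ∈ W ∧ ((ω w).1 : ℝ) < r
    · rw [if_pos h, if_pos ⟨h.1, h.2.trans hrs⟩]
    · rw [if_neg h, if_neg]
      rintro ⟨h1, h2⟩
      have h3 : r ≤ ((ω w).1 : ℝ) := by
        by_contra hc
        exact h ⟨h1, not_le.1 hc⟩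
      exact hwv (honly w h1 h3 h2)

/-- no visit between `r` and `s`. -/
theorem fld_const (θ : ℝ) (W : Finset V) (x₀ : V → ℝ) (ω : V → L1) {s r : ℝ} (hrs : r ≤ s)
    (hno : ∀ w ∈ W, ¬ (r ≤ ((ω w).1 : ℝ) ∧ ((ω w).1 : ℝ) < s)) :
    fld G θ W x₀ ω s = fld G θ W x₀ ω r := by
  classical
  funext w
  unfold fld
  congr 1
  by_cases h : w ∈ W ∧ ((ω w).1 : ℝ) < r
  · rw [if_pos h, if_pos ⟨h.1, h.2.trans_le hrs⟩]
  · rw [if_neg h, if_neg]
    rintro ⟨h1, h2⟩
    have h3 : r ≤ ((ω w).1 : ℝ) := by
      by_contra hc
      exact h ⟨h1, not_le.1 hc⟩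
    exact hno w h1 ⟨h3, h2⟩

theorem fld_zero (θ : ℝ) (W : Finset V) (x₀ : V → ℝ) (ω : V → L1) {s : ℝ} (hs : s ≤ 0) :
    fld G θ W x₀ ω s = x₀ := by
  funext w
  unfold fld
  rw [if_neg, add_zero]
  rintro ⟨_, h⟩
  have := (ω w).1.2.1
  linarith

/-- the field depends only on the labels and the initial field in `W`. -/
theorem fld_congr (θ : ℝ) (W : Finset V) {x₀ x₀' : V → ℝ} {ω ω' : V → L1} (s : ℝ)
    (hx : ∀ w ∈ W, x₀ w = x₀' w) (hω : ∀ w ∈ W, ω w = ω' w) {w : V} (hw : w ∈ W) :
    fld G θ W x₀ ω s w = fld G θ W x₀' ω' s w :=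
  Process_fld_congr G θ W s hx (fun w hw _ => hω w hw) hw

theorem Process_measurable_artanh : Measurable Real.artanh := by
  unfold Real.artanh
  fun_prop

theorem Process_measurable_wt (θ : ℝ) (W : Finset V) (A : Finset V) :
    Measurable (fun x : V → ℝ => wt G θ W x A) := by
  unfold wt
  apply Measurable.const_mul
  apply Finset.measurable_fun_prod
  intro v _
  fun_prop

theorem Process_measurable_av (θ : ℝ) (W : Finset V) (f : Finset V → ℝ) :
    Measurable (fun x : V → ℝ => av G θ W x f) := by
  unfold av Zw
  apply Measurable.div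
  · apply Finset.measurable_fun_sum
    intro A _
    exact (Process_measurable_wt G θ W A).mul_const _
  · apply Finset.measurable_fun_sum
    intro A _
    exact Process_measurable_wt G θ W A

theorem Process_measurable_mg (θ : ℝ) (W : Finset V) (v : V) :
    Measurable (fun x : V → ℝ => mg G θ W x v) := by
  unfold mg
  exact Process_measurable_av G θ W _

theorem Process_measurable_cv (θ : ℝ) (W : Finset V) (u v : V) :
    Measurable (fun x : V → ℝ => cv G θ W x u v) := by
  unfold cv
  exact (Process_measurable_av G θ W _).sub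
    ((Process_measurable_mg G θ W u).mul (Process_measurable_mg G θ W v))

theorem Process_measurable_incr (θ : ℝ) (W : Finset V) (n : ℕ) (v : V) :
    Measurable (fun p : (V → ℝ) × (V → L1) => incr G θ W p.1 p.2 n v) := by
  classical
  induction n generalizing v with
  | zero => exact measurable_const
  | succ n ih =>
    simp only [incr]
    apply Process_measurable_artanh.comp
    have h1 : Measurable (fun p : (V → ℝ) × (V → L1) => (((((p.2 v).1 : unitInterval) : ℝ),
        mg G θ W (fun w => p.1 w + if w ∈ W ∧ (p.2 w).1 < (p.2 v).1 then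
          incr G θ W p.1 p.2 n w else 0) v), (p.2 v).2)) := by
      apply Measurable.prodMk
      · apply Measurable.prodMk
        · exact measurable_subtype_coe.comp (measurable_fst.comp
            ((measurable_pi_apply v).comp measurable_snd))
        · apply (Process_measurable_mg G θ W v).comp
          apply measurable_pi_lambda
          intro w
          apply Measurable.add
          · exact (measurable_pi_apply w).comp measurable_fst
          · by_cases hw : w ∈ W
            · simp only [hw, true_and]
              apply Measurable.ite _ (ih w) measurable_const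
              apply measurableSet_lt
              · exact measurable_fst.comp ((measurable_pi_apply w).comp measurable_snd)
              · exact measurable_fst.comp ((measurable_pi_apply v).comp measurable_snd)
            · simp only [hw, false_and, if_false]
              exact measurable_const
      · exact measurable_snd.comp ((measurable_pi_apply v).comp measurable_snd)
    exact measurable_Tq.comp h1

theorem Process_measurable_fld (θ : ℝ) (W : Finset V) :
    Measurable (fun p : ((V → ℝ) × (V → L1)) × ℝ => fld G θ W p.1.1 p.1.2 p.2) := by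
  classical
  apply measurable_pi_lambda
  intro w
  unfold fld
  apply Measurable.add
  · exact (measurable_pi_apply w).comp (measurable_fst.comp measurable_fst)
  · by_cases hw : w ∈ W
    · simp only [hw, true_and]
      apply Measurable.ite _ _ measurable_const
      · apply measurableSet_lt
        · exact measurable_subtype_coe.comp (measurable_fst.comp
            ((measurable_pi_apply w).comp (measurable_snd.comp measurable_fst)))
        · exact measurable_snd
      · exact (Process_measurable_incr G θ W W.card w).comp measurable_fst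
    · simp only [hw, false_and, if_false]
      exact measurable_const

theorem measurable_fld {θ : ℝ} (h0 : 0 ≤ θ) (h1 : θ < 1) (W : Finset V) :
    Measurable (fun p : ((V → ℝ) × (V → L1)) × ℝ => fld G θ W p.1.1 p.1.2 p.2) :=
  Process_measurable_fld G θ W

theorem Process_measurable_rnd (k : ℕ) : Measurable (rnd k : Lab V → V → L1) := by
  unfold rnd
  apply measurable_pi_lambda
  intro v
  exact measurable_pi_apply _

theorem Process_measurable_X (θ : ℝ) (W : Finset V) (k : ℕ) :
    Measurable (fun ω : Lab V => X G θ W ω k) := by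
  induction k with
  | zero => exact measurable_const
  | succ k ih =>
    simp only [X]
    exact (Process_measurable_fld G θ W).comp
      ((ih.prodMk (Process_measurable_rnd k)).prodMk measurable_const)

theorem measurable_P {θ : ℝ} (h0 : 0 ≤ θ) (h1 : θ < 1) (W : Finset V) (k : ℕ) :
    Measurable (fun p : ℝ × Lab V => P G θ W k p.1 p.2) := by
  unfold P
  exact (Process_measurable_fld G θ W).comp
    ((((Process_measurable_X G θ W k).comp measurable_snd).prodMk
      ((Process_measurable_rnd k).comp measurable_snd)).prodMk measurable_fst)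

theorem measurable_M {θ : ℝ} (h0 : 0 ≤ θ) (h1 : θ < 1) (W : Finset V) (k : ℕ) (v : V) :
    Measurable (fun p : ℝ × Lab V => M G θ W k p.1 v p.2) := by
  unfold M
  exact (Process_measurable_mg G θ W v).comp (measurable_P G h0 h1 W k)

theorem Process_measurable_K {θ : ℝ} (h0 : 0 ≤ θ) (h1 : θ < 1) (W : Finset V) (k : ℕ) (u v : V) :
    Measurable (fun p : ℝ × Lab V => K G θ W k p.1 u v p.2) := by
  unfold K
  exact (Process_measurable_cv G θ W u v).comp (measurable_P G h0 h1 W k)

theorem Process_artanh_le {T : ℝ} (hT : |T| ≤ 1 / 2) : |Real.artanh T| ≤ Real.artanh (1 / 2) := by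
  have h := abs_le.1 hT
  rw [abs_le]
  constructor
  · have h1 : Real.artanh (-(1 / 2)) ≤ Real.artanh T :=
      Real.artanh_le_artanh (by norm_num) (by linarith) (by linarith)
    have h2 : Real.artanh (-(1 / 2)) = -Real.artanh (1 / 2) := by
      have h3 : Real.tanh (-Real.artanh (1 / 2)) = -(1 / 2) := by
        rw [Real.tanh_neg, Real.tanh_artanh (by constructor <;> norm_num)]
      rw [← h3, Real.artanh_tanh]
    linarith
  · exact Real.artanh_le_artanh (by linarith) (by norm_num) (by linarith)

theorem Process_abs_fld_sub_le {θ : ℝ} (h0 : 0 ≤ θ) (h1 : θ < 1) (W : Finset V) (x₀ : V → ℝ)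
    (ω : V → L1) {s : ℝ} (hs' : s ≤ 1 / 2) (w : V) :
    |fld G θ W x₀ ω s w - x₀ w| ≤ Real.artanh (1 / 2) := by
  classical
  rw [fld_eq G θ W x₀ ω s w, add_sub_cancel_left]
  by_cases h : w ∈ W ∧ ((ω w).1 : ℝ) < s
  · rw [if_pos h]
    apply Process_artanh_le
    have hU : ((ω w).1 : ℝ) ≤ 1 / 2 := by linarith [h.2]
    exact (abs_Tq_le (ω w).1.2.1 hU (abs_mg_le G h0 h1 W _ _) _).trans hU
  · rw [if_neg h, abs_zero]
    exact Real.artanh_nonneg (by norm_num)

theorem Process_abs_X_le {θ : ℝ} (h0 : 0 ≤ θ) (h1 : θ < 1) (W : Finset V) (k : ℕ)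
    (ω : Lab V) (v : V) : |X G θ W ω k v| ≤ k * Real.artanh (1 / 2) := by
  induction k with
  | zero => simp [X]
  | succ k ih =>
    simp only [X]
    have h := Process_abs_fld_sub_le G h0 h1 W (X G θ W ω k) (rnd k ω) (s := 1 / 2) le_rfl v
    have h2 := abs_add_le (fld G θ W (X G θ W ω k) (rnd k ω) (1 / 2) v - X G θ W ω k v)
      (X G θ W ω k v)
    rw [sub_add_cancel] at h2
    push_cast
    linarith

/-- bounded fields. -/
theorem abs_P_le {θ : ℝ} (h0 : 0 ≤ θ) (h1 : θ < 1) (W : Finset V) (k : ℕ) {s : ℝ} (hs : 0 ≤ s)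
    (hs' : s ≤ 1 / 2) (ω : Lab V) (v : V) : |P G θ W k s ω v| ≤ (k + 1) * Real.artanh (1 / 2) := by
  unfold P
  have h := Process_abs_fld_sub_le G h0 h1 W (X G θ W ω k) (rnd k ω) hs' v
  have h2 := abs_add_le (fld G θ W (X G θ W ω k) (rnd k ω) s v - X G θ W ω k v)
    (X G θ W ω k v)
  rw [sub_add_cancel] at h2
  have h3 := Process_abs_X_le G h0 h1 W k ω v
  linarith

theorem P_succ_zero (θ : ℝ) (W : Finset V) (k : ℕ) (ω : Lab V) :
    P G θ W (k + 1) 0 ω = P G θ W k (1 / 2) ω := by
  unfold P
  rw [fld_zero G θ W _ _ le_rfl]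
  rfl

theorem Process_incr_map (θ : ℝ) (g : G ≃g G) (W : Finset V) (x₀ : V → ℝ) (ω : V → L1) (n : ℕ)
    (v : V) : incr G θ (W.map g.toEquiv.toEmbedding) x₀ ω n (g v) =
      incr G θ W (fun w => x₀ (g w)) (fun w => ω (g w)) n v := by
  classical
  induction n generalizing v with
  | zero => rfl
  | succ n ih =>
    simp only [incr]
    rw [mg_map]
    congr 2
    apply congrArg (fun y => mg G θ W y v)
    funext w
    have hmem : g w ∈ W.map g.toEquiv.toEmbedding ↔ w ∈ W := by
      rw [Finset.mem_map]
      constructor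
      · rintro ⟨a, ha, hae⟩
        have : a = w := g.toEquiv.injective hae
        rwa [← this]
      · intro h
        exact ⟨w, h, rfl⟩
    simp only [hmem, ih]

theorem Process_fld_map (θ : ℝ) (g : G ≃g G) (W : Finset V) (x₀ : V → ℝ) (ω : V → L1) (s : ℝ)
    (v : V) : fld G θ (W.map g.toEquiv.toEmbedding) x₀ ω s (g v) =
      fld G θ W (fun w => x₀ (g w)) (fun w => ω (g w)) s v := by
  classical
  have hmem : g v ∈ W.map g.toEquiv.toEmbedding ↔ v ∈ W := by
    rw [Finset.mem_map]
    constructor
    · rintro ⟨a, ha, hae⟩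
      have : a = v := g.toEquiv.injective hae
      rwa [← this]
    · intro h
      exact ⟨v, h, rfl⟩
  simp only [fld, hmem, Process_incr_map, Finset.card_map]

theorem Process_X_map (θ : ℝ) (g : G ≃g G) (W : Finset V) (ω : Lab V) (k : ℕ) (v : V) :
    X G θ (W.map g.toEquiv.toEmbedding) ω k (g v) = X G θ W (act g ω) k v := by
  induction k generalizing v with
  | zero => rfl
  | succ k ih =>
    simp only [X]
    rw [Process_fld_map]
    simp only [ih]
    rfl

theorem Process_P_map (θ : ℝ) (g : G ≃g G) (W : Finset V) (k : ℕ) (s : ℝ) (ω : Lab V) (v : V) :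
    P G θ (W.map g.toEquiv.toEmbedding) k s ω (g v) = P G θ W k s (act g ω) v := by
  simp only [P]
  rw [Process_fld_map]
  simp only [Process_X_map]
  rfl

/-- equivariance of windows processes. -/
theorem M_map (θ : ℝ) (g : G ≃g G) (W : Finset V) (k : ℕ) (s : ℝ) (v : V) (ω : Lab V) :
    M G θ (W.map g.toEquiv.toEmbedding) k s (g v) ω = M G θ W k s v (act g ω) := by
  simp only [M]
  rw [mg_map]
  simp only [Process_P_map]

theorem Process_X_congr (θ : ℝ) (W : Finset V) (k : ℕ) {ω ω' : Lab V}
    (h : ∀ v ∈ W, ∀ j < k, ω (v, j) = ω' (v, j)) {w : V} (hw : w ∈ W) :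
    X G θ W ω k w = X G θ W ω' k w := by
  induction k generalizing w with
  | zero => rfl
  | succ k ih =>
    simp only [X]
    apply fld_congr G θ W _ _ _ hw
    · intro u hu
      exact ih (fun v hv j hj => h v hv j (by omega)) hu
    · intro u hu
      exact h u hu k (by omega)

/-- the labels of round `k+1, ...` are not used in round `k`. -/
theorem P_congr (θ : ℝ) (W : Finset V) (k : ℕ) (s : ℝ) {ω ω' : Lab V}
    (h : ∀ v ∈ W, ∀ j ≤ k, ω (v, j) = ω' (v, j)) {w : V} (hw : w ∈ W) :
    P G θ W k s ω w = P G θ W k s ω' w := by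
  simp only [P]
  apply fld_congr G θ W _ _ _ hw
  · intro u hu
    exact Process_X_congr G θ W k (fun v hv j hj => h v hv j hj.le) hu
  · intro u hu
    exact h u hu k le_rfl

theorem finDep_M (θ : ℝ) (W : Finset V) (k : ℕ) (s : ℝ) {v : V} (hv : v ∈ W) :
    FinDep (fun ω => M G θ W k s v ω) := by
  classical
  refine ⟨W ×ˢ Finset.range (k + 1), ?_⟩
  intro ω ω' h
  simp only [M]
  apply mg_congr
  intro w hw
  apply P_congr G θ W k s _ hw
  intro u hu j hj
  apply h
  rw [Finset.mem_product, Finset.mem_range]
  exact ⟨hu, by simpa using Nat.lt_succ_of_le hj⟩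

/-- reindexing preserves a product measure. -/
theorem Process_measurePreserving_reindex {ι : Type*} (e : ι ≃ ι) :
    MeasurePreserving (fun (ω : ι → L1) (q : ι) => ω (e q))
      (Measure.infinitePi (fun _ : ι => (volume : Measure L1)))
      (Measure.infinitePi (fun _ : ι => (volume : Measure L1))) := by
  classical
  have hm : Measurable (fun (ω : ι → L1) (q : ι) => ω (e q)) := by
    apply measurable_pi_lambda
    intro q
    exact measurable_pi_apply _
  refine ⟨hm, ?_⟩
  apply Measure.eq_infinitePi
  intro s t ht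
  rw [Measure.map_apply hm (MeasurableSet.pi s.countable_toSet (fun i _ => ht i))]
  have hpre : (fun (ω : ι → L1) (q : ι) => ω (e q)) ⁻¹' (Set.pi (↑s) t) =
      Set.pi (↑(s.map e.toEmbedding)) (fun i => t (e.symm i)) := by
    ext ω
    simp only [Set.mem_preimage, Set.mem_pi, Finset.mem_coe, Finset.mem_map]
    constructor
    · rintro h i ⟨a, ha, rfl⟩
      have h2 := h a ha
      have h3 : e.symm (e.toEmbedding a) = a := e.symm_apply_apply a
      rw [h3]
      exact h2
    · intro h a ha
      have h2 := h (e a) ⟨a, ha, rfl⟩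
      have h3 : e.symm (e a) = a := e.symm_apply_apply a
      rw [h3] at h2
      exact h2
  rw [hpre, Measure.infinitePi_pi _ (fun i _ => ht _), Finset.prod_map]
  apply Finset.prod_congr rfl
  intro a _
  have h3 : e.symm (e.toEmbedding a) = a := e.symm_apply_apply a
  rw [h3]

/-- `act` preserves the law of the labels. -/
theorem measurePreserving_act (g : G ≃g G) :
    MeasurePreserving (act g : Lab V → Lab V) (labM V) (labM V) := by
  have h := Process_measurePreserving_reindex (ι := V × ℕ)
    (Equiv.prodCongr g.toEquiv (Equiv.refl ℕ))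
  exact h

/-- resampling one coordinate, general index set. -/
theorem Process_measurePreserving_update {ι : Type*} [DecidableEq ι] (q : ι) :
    MeasurePreserving (fun p : (ι → L1) × L1 => Function.update p.1 q p.2)
      ((Measure.infinitePi (fun _ : ι => (volume : Measure L1))).prod volume)
      (Measure.infinitePi (fun _ : ι => (volume : Measure L1))) := by
  have hm : Measurable (fun p : (ι → L1) × L1 => Function.update p.1 q p.2) := by
    apply measurable_pi_lambda
    intro i
    by_cases hi : i = q
    · subst hi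
      simp only [Function.update_self]
      exact measurable_snd
    · simp only [Function.update_of_ne hi]
      exact (measurable_pi_apply i).comp measurable_fst
  refine ⟨hm, ?_⟩
  apply Measure.eq_infinitePi
  intro s t ht
  rw [Measure.map_apply hm (MeasurableSet.pi s.countable_toSet (fun i _ => ht i))]
  by_cases hq : q ∈ s
  · have hpre : (fun p : (ι → L1) × L1 => Function.update p.1 q p.2) ⁻¹' (Set.pi (↑s) t) =
        (Set.pi (↑(s.erase q)) t) ×ˢ (t q) := by
      ext p
      simp only [Set.mem_preimage, Set.mem_pi, Finset.mem_coe, Set.mem_prod, Finset.mem_erase]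
      constructor
      · intro h
        refine ⟨fun i hi => ?_, ?_⟩
        · have := h i hi.2
          rwa [Function.update_of_ne hi.1] at this
        · have := h q hq
          rwa [Function.update_self] at this
      · rintro ⟨h1, h2⟩ i hi
        by_cases hiq : i = q
        · subst hiq
          rw [Function.update_self]
          exact h2
        · rw [Function.update_of_ne hiq]
          exact h1 i ⟨hiq, hi⟩
    rw [hpre, Measure.prod_prod, Measure.infinitePi_pi _ (fun i _ => ht _), mul_comm]
    exact Finset.mul_prod_erase s (fun i => volume (t i)) hq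
  · have hpre : (fun p : (ι → L1) × L1 => Function.update p.1 q p.2) ⁻¹' (Set.pi (↑s) t) =
        (Set.pi (↑s) t) ×ˢ Set.univ := by
      ext p
      simp only [Set.mem_preimage, Set.mem_pi, Finset.mem_coe, Set.mem_prod, Set.mem_univ,
        and_true]
      constructor
      · intro h i hi
        have := h i hi
        have hne : i ≠ q := by
          rintro rfl
          exact hq hi
        rwa [Function.update_of_ne hne] at this
      · intro h i hi
        have hne : i ≠ q := by
          rintro rfl
          exact hq hi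
        rw [Function.update_of_ne hne]
        exact h i hi
    rw [hpre, Measure.prod_prod, Measure.infinitePi_pi _ (fun i _ => ht _), measure_univ, mul_one]

open Classical in
/-- resampling one coordinate. -/
theorem measurePreserving_update (q : V × ℕ) :
    MeasurePreserving (fun p : Lab V × L1 => Function.update p.1 q p.2)
      ((labM V).prod volume) (labM V) :=
  Process_measurePreserving_update q

end M4a

end Crest.Agent.Lib.Row160
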