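import Mathlib
import Crest.Agent.Lib.Row160.Defs
import Crest.Agent.Lib.Row160.OneStep
import Crest.Agent.Lib.Row160.Win
import Crest.Agent.Lib.Row160.LawMeas
import Crest.Agent.Lib.Row160.Process

/-!
Row 160, chunk M4b: the exact law of the fields.
-/

set_option autoImplicit false

open MeasureTheory Filter Topology MeasureTheory.Measure

namespace Crest.Agent.Lib.Row160

open LawAux

namespace LawAux

/-! ### bounded measurable local functions -/

theorem measurable_artanh : Measurable Real.artanh := by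
  unfold Real.artanh
  fun_prop

theorem measurable_zt : Measurable zt := by
  unfold zt
  fun_prop

theorem measurable_Tf : Measurable Tf := by
  unfold Tf
  have := measurable_zt
  fun_prop

theorem abs_Tf_le (l : L1) : |Tf l| ≤ (l.1 : ℝ) := by
  rw [Tf, abs_mul, abs_of_nonneg l.1.2.1]
  exact mul_le_of_le_one_right l.1.2.1 (abs_zt_le l.2)

variable {V : Type*}

/-- free field of one round -/
noncomputable def fr1 (s : ℝ) (η : V → L1) (v : V) : ℝ :=
  if ((η v).1 : ℝ) < s then Real.artanh (Tf (η v)) else 0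

/-- likelihood of one round -/
noncomputable def lk1 (s : ℝ) (η : V → L1) (v : V) (σ : ℝ) : ℝ :=
  if ((η v).1 : ℝ) < s then 1 + σ * Tf (η v) else 1

/-- normalisation of one round -/
noncomputable def cc1 (s : ℝ) (η : V → L1) (v : V) : ℝ :=
  if ((η v).1 : ℝ) < s then √(1 - Tf (η v) ^ 2) else 1

theorem lk1_eq {s : ℝ} (hs : s ≤ 1 / 2) (η : V → L1) (v : V) {σ : ℝ} (hσ : σ = 1 ∨ σ = -1) :
    lk1 s η v σ = Real.exp (fr1 s η v * σ) * cc1 s η v := by
  unfold lk1 fr1 cc1
  split_ifs with h
  · rw [Win_exp_artanh _ hσ]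
    exact lt_of_le_of_lt (abs_Tf_le _) (by linarith)
  · simp

theorem abs_lk1_le (s : ℝ) (η : V → L1) (v : V) {σ : ℝ} (hσ : σ = 1 ∨ σ = -1) :
    |lk1 s η v σ| ≤ 2 := by
  unfold lk1
  split_ifs with h
  · have h1 := abs_Tf_le (η v)
    have h2 := (η v).1.2.2
    have h3 : |σ * Tf (η v)| ≤ 1 := by
      rw [abs_mul]
      rcases hσ with rfl | rfl <;> simp <;> linarith
    have := abs_le.1 h3
    rw [abs_le]; constructor <;> linarith
  · norm_num

theorem measurable_fr1 (s : ℝ) : Measurable (fun η : V → L1 => fr1 s η) := by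
  refine measurable_pi_lambda _ fun v => ?_
  unfold fr1
  refine Measurable.ite ?_ ?_ measurable_const
  · exact measurableSet_lt (by fun_prop) measurable_const
  · have h1 := measurable_artanh
    have h2 := measurable_Tf
    fun_prop

theorem measurable_lk1 (s : ℝ) (v : V) (σ : ℝ) : Measurable (fun η : V → L1 => lk1 s η v σ) := by
  unfold lk1
  refine Measurable.ite ?_ ?_ measurable_const
  · exact measurableSet_lt (by fun_prop) measurable_const
  · have h2 := measurable_Tf
    fun_prop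

variable (G : SimpleGraph V)

theorem measurable_wt (θ : ℝ) (W : Finset V) (A : Finset V) :
    Measurable (fun x : V → ℝ => wt G θ W x A) := by
  unfold wt
  refine Measurable.const_mul (Finset.measurable_prod _ fun v _ => ?_) _
  fun_prop

theorem measurable_av (θ : ℝ) (W : Finset V) (f : Finset V → ℝ) :
    Measurable (fun x : V → ℝ => av G θ W x f) := by
  unfold av Zw
  refine Measurable.div ?_ ?_
  · exact Finset.measurable_sum _ fun A _ => (measurable_wt G θ W A).mul_const _
  · exact Finset.measurable_sum _ fun A _ => measurable_wt G θ W A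

theorem measurable_mg (θ : ℝ) (W : Finset V) (v : V) :
    Measurable (fun x : V → ℝ => mg G θ W x v) := measurable_av G θ W _

/-- exponential tilting -/
theorem tilt (θ : ℝ) (W : Finset V) (x h c : V → ℝ) (L : V → ℝ → ℝ)
    (hL : ∀ v ∈ W, ∀ σ : ℝ, (σ = 1 ∨ σ = -1) → L v σ = Real.exp (h v * σ) * c v)
    (f : Finset V → ℝ) :
    ∑ A ∈ W.powerset, wt G θ W x A * (∏ v ∈ W, L v (sp A v)) * f A =
      (∏ v ∈ W, c v) * ∑ A ∈ W.powerset, wt G θ W (fun w => x w + h w) A * f A := by
  rw [Finset.mul_sum]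
  refine Finset.sum_congr rfl fun A _ => ?_
  have h1 : ∏ v ∈ W, L v (sp A v) = (∏ v ∈ W, Real.exp (h v * sp A v)) * ∏ v ∈ W, c v := by
    rw [← Finset.prod_mul_distrib]
    exact Finset.prod_congr rfl fun v hv => hL v hv _ (Win_sp_eq A v)
  have h2 : wt G θ W (fun w => x w + h w) A = wt G θ W x A * ∏ v ∈ W, Real.exp (h v * sp A v) := by
    unfold wt
    rw [mul_assoc, ← Finset.prod_mul_distrib]
    congr 1
    refine Finset.prod_congr rfl fun v _ => ?_
    rw [add_mul, Real.exp_add]; ring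
  rw [h1, h2]; ring

/-- density of the observations of one round -/
noncomputable def R1 (θ : ℝ) (W : Finset V) (x₀ : V → ℝ) (s : ℝ) (η : V → L1) : ℝ :=
  (∑ A ∈ W.powerset, wt G θ W x₀ A * ∏ v ∈ W, lk1 s η v (sp A v)) / Zw G θ W x₀

theorem measurable_R1 (θ : ℝ) (W : Finset V) (s : ℝ) :
    Measurable (fun p : (V → ℝ) × (V → L1) => R1 G θ W p.1 s p.2) := by
  unfold R1 Zw
  refine Measurable.div ?_ ?_
  · refine Finset.measurable_sum _ fun A _ => Measurable.mul ?_ ?_
    · exact (measurable_wt G θ W A).comp measurable_fst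
    · refine Finset.measurable_prod _ fun v _ => ?_
      exact (measurable_lk1 s v _).comp measurable_snd
  · exact Finset.measurable_sum _ fun A _ => (measurable_wt G θ W A).comp measurable_fst

theorem abs_R1_le {θ : ℝ} (h0 : 0 ≤ θ) (h1 : θ < 1) (W : Finset V) (x₀ : V → ℝ) (s : ℝ)
    (η : V → L1) : |R1 G θ W x₀ s η| ≤ 2 ^ W.card := by
  unfold R1
  rw [abs_div, abs_of_pos (Zw_pos G h0 h1 W x₀), div_le_iff₀ (Zw_pos G h0 h1 W x₀), Zw,
    Finset.mul_sum]
  refine (Finset.abs_sum_le_sum_abs _ _).trans (Finset.sum_le_sum fun A _ => ?_)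
  rw [abs_mul, abs_of_pos (wt_pos G h0 h1 W x₀ A), mul_comm]
  refine mul_le_mul_of_nonneg_right ?_ (wt_pos G h0 h1 W x₀ A).le
  rw [Finset.abs_prod]
  refine (Finset.prod_le_prod (fun v _ => abs_nonneg _) fun v _ =>
    abs_lk1_le s η v (Win_sp_eq A v)).trans ?_
  rw [Finset.prod_const]

/-- the effect of the averaging of one visit -/
noncomputable def Ft [DecidableEq V] (θ : ℝ) (W : Finset V) (F : (V → ℝ) → ℝ) (v : V) (r : ℝ)
    (y : V → ℝ) : ℝ :=
  ∫ b : unitInterval, F (Function.update y v (y v + Real.artanh (r * zt b))) *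
    (1 + mg G θ W y v * (r * zt b))

theorem Ft_measurable [DecidableEq V] (θ : ℝ) (W : Finset V) {F : (V → ℝ) → ℝ} (hF : Measurable F)
    (v : V) (r : ℝ) : Measurable (Ft G θ W F v r) := by
  unfold Ft
  have h : Measurable (fun p : (V → ℝ) × unitInterval =>
      F (Function.update p.1 v (p.1 v + Real.artanh (r * zt p.2))) *
      (1 + mg G θ W p.1 v * (r * zt p.2))) := by
    have h1 : Measurable (fun p : (V → ℝ) × unitInterval =>
        Function.update p.1 v (p.1 v + Real.artanh (r * zt p.2))) := by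
      have h2 := measurable_artanh
      have h3 := measurable_zt
      exact (measurable_update' (a := v)).comp (measurable_fst.prodMk (by fun_prop))
    refine (hF.comp h1).mul ?_
    have h2 : Measurable (fun p : (V → ℝ) × unitInterval => mg G θ W p.1 v) :=
      (measurable_mg G θ W v).comp measurable_fst
    have h3 := measurable_zt
    refine measurable_const.add (h2.mul ?_)
    fun_prop
  exact (h.stronglyMeasurable.integral_prod_right (ν := (volume : Measure unitInterval))).measurable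

theorem Ft_bdd [DecidableEq V] {θ : ℝ} (h0 : 0 ≤ θ) (h1 : θ < 1) (W : Finset V)
    {F : (V → ℝ) → ℝ} {K : ℝ} (hK : ∀ x, |F x| ≤ K) (v : V) {r : ℝ} (hr : 0 ≤ r) (hr' : r ≤ 1)
    (y : V → ℝ) : |Ft G θ W F v r y| ≤ K * 2 := by
  have hK0 : 0 ≤ K := (abs_nonneg _).trans (hK y)
  unfold Ft
  have := norm_integral_le_of_norm_le_const (μ := (volume : Measure unitInterval))
    (f := fun b => F (Function.update y v (y v + Real.artanh (r * zt b))) *
    (1 + mg G θ W y v * (r * zt b))) (C := K * 2) (Eventually.of_forall fun b => by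
      rw [Real.norm_eq_abs, abs_mul]
      refine mul_le_mul (hK _) ?_ (abs_nonneg _) hK0
      have h2 : |mg G θ W y v * (r * zt b)| ≤ 1 := by
        rw [abs_mul, abs_mul, abs_of_nonneg hr]
        have := abs_mg_le G h0 h1 W y v
        have := abs_zt_le b
        have h3 : r * |zt b| ≤ 1 := by nlinarith [abs_nonneg (zt b)]
        have h4 : 0 ≤ r * |zt b| := by positivity
        nlinarith [abs_nonneg (mg G θ W y v)]
      have := abs_le.1 h2
      rw [abs_le]; constructor <;> linarith)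
  simpa using this

theorem Ft_local [DecidableEq V] (θ : ℝ) (W : Finset V) {F : (V → ℝ) → ℝ}
    (hloc : ∀ x y : V → ℝ, (∀ v ∈ W, x v = y v) → F x = F y) {v : V} (hv : v ∈ W) (r : ℝ)
    (x y : V → ℝ) (h : ∀ v ∈ W, x v = y v) : Ft G θ W F v r x = Ft G θ W F v r y := by
  unfold Ft
  congr 1
  funext b
  rw [mg_congr G W h v, h v hv]
  congr 1
  refine hloc _ _ fun w hw => ?_
  by_cases hwv : w = v
  · subst hwv; rw [Function.update_self, Function.update_self]
  · rw [Function.update_of_ne hwv, Function.update_of_ne hwv, h w hw]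

theorem integral_snd_L1 (g : unitInterval → ℝ) (hg : Measurable g) :
    ∫ l : L1, g l.2 = ∫ b : unitInterval, g b := by
  have h2 : MeasurePreserving (Prod.snd : L1 → unitInterval) volume volume :=
    measurePreserving_snd
  rw [← h2.map_eq, integral_map h2.measurable.aemeasurable hg.aestronglyMeasurable]

/-- the key algebraic identity for one visit -/
theorem R1_step [DecidableEq V] {θ : ℝ} (h0 : 0 ≤ θ) (h1 : θ < 1) (W : Finset V) (x₀ : V → ℝ)
    {s r : ℝ} (hrs : r < s) (hs' : s ≤ 1 / 2) (η : V → L1) {v : V} (hv : v ∈ W)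
    (hr : ((η v).1 : ℝ) = r)
    (honly : ∀ w ∈ W, r ≤ ((η w).1 : ℝ) → ((η w).1 : ℝ) < s → w = v) :
    R1 G θ W x₀ s η = R1 G θ W x₀ r η *
      (1 + mg G θ W (fun w => x₀ w + fr1 r η w) v * (r * zt (η v).2)) := by
  have hZ := Zw_pos G h0 h1 W x₀
  have hr' : r ≤ 1 / 2 := by linarith
  have ht1 := tilt G θ W x₀ (fr1 r η) (cc1 r η) (lk1 r η) (fun w _ σ hσ => lk1_eq hr' η w hσ)
    (fun _ => 1)
  have ht2 := tilt G θ W x₀ (fr1 r η) (cc1 r η) (lk1 r η) (fun w _ σ hσ => lk1_eq hr' η w hσ)
    (fun A => sp A v)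
  simp only [mul_one] at ht1
  have hlk : ∀ A : Finset V, ∏ w ∈ W, lk1 s η w (sp A w) =
      (∏ w ∈ W, lk1 r η w (sp A w)) * (1 + sp A v * (r * zt (η v).2)) := by
    intro A
    rw [← Finset.mul_prod_erase W _ hv, ← Finset.mul_prod_erase W (fun w => lk1 r η w (sp A w)) hv]
    have e1 : lk1 s η v (sp A v) = 1 + sp A v * (r * zt (η v).2) := by
      rw [lk1, if_pos (by rw [hr]; exact hrs), Tf, hr]
    have e2 : lk1 r η v (sp A v) = 1 := by
      rw [lk1, if_neg (by rw [hr]; exact lt_irrefl _)]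
    have e3 : ∏ w ∈ W.erase v, lk1 s η w (sp A w) = ∏ w ∈ W.erase v, lk1 r η w (sp A w) := by
      refine Finset.prod_congr rfl fun w hw => ?_
      have hw' := Finset.mem_erase.1 hw
      unfold lk1
      by_cases h : ((η w).1 : ℝ) < r
      · rw [if_pos h, if_pos (h.trans hrs)]
      · rw [if_neg h, if_neg]
        intro h2
        exact hw'.1 (honly w hw'.2 (not_lt.1 h) h2)
    rw [e1, e2, e3]; ring
  have hZ2 := Zw_pos G h0 h1 W (fun w => x₀ w + fr1 r η w)
  unfold R1
  rw [div_mul_eq_mul_div]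
  congr 1
  simp only [hlk]
  rw [show (∑ A ∈ W.powerset, wt G θ W x₀ A * ((∏ w ∈ W, lk1 r η w (sp A w)) *
      (1 + sp A v * (r * zt (η v).2)))) =
      (∑ A ∈ W.powerset, wt G θ W x₀ A * ∏ w ∈ W, lk1 r η w (sp A w)) +
      (r * zt (η v).2) * ∑ A ∈ W.powerset, wt G θ W x₀ A * (∏ w ∈ W, lk1 r η w (sp A w)) * sp A v by
    rw [Finset.mul_sum, ← Finset.sum_add_distrib]
    exact Finset.sum_congr rfl fun A _ => by ring]
  rw [ht1, ht2, mg, av]
  have hZ3 : (∑ A ∈ W.powerset, wt G θ W (fun w => x₀ w + fr1 r η w) A) =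
    Zw G θ W (fun w => x₀ w + fr1 r η w) := rfl
  rw [hZ3]
  field_simp

theorem fr1_step {W : Finset V} (x₀ : V → ℝ) [DecidableEq V]
    {s r : ℝ} (hrs : r < s) (η : V → L1) {v : V}
    (hr : ((η v).1 : ℝ) = r)
    (honly : ∀ w ∈ W, r ≤ ((η w).1 : ℝ) → ((η w).1 : ℝ) < s → w = v) :
    ∀ w ∈ W, x₀ w + fr1 s η w = Function.update (fun w => x₀ w + fr1 r η w) v
      ((fun w => x₀ w + fr1 r η w) v + Real.artanh (r * zt (η v).2)) w := by
  intro w hw
  by_cases hwv : w = v
  · subst hwv
    rw [Function.update_self]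
    simp only [fr1]
    rw [if_pos (by rw [hr]; exact hrs), if_neg (by rw [hr]; exact lt_irrefl _), Tf, hr, add_zero]
  · rw [Function.update_of_ne hwv]
    simp only [fr1]
    by_cases h : ((η w).1 : ℝ) < r
    · rw [if_pos h, if_pos (h.trans hrs)]
    · rw [if_neg h, if_neg]
      intro h2
      exact hwv (honly w hw (not_lt.1 h) h2)

theorem meas_lhs {T : Type*} [MeasurableSpace T] {θ : ℝ} (h0 : 0 ≤ θ) (h1 : θ < 1) (W : Finset V)
    (x₀ : V → ℝ) (s : ℝ) {F : (V → ℝ) → ℝ} (hF : Measurable F) {g : T → V → L1}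
    (hg : Measurable g) : Measurable (fun t => F (fld G θ W x₀ (g t) s)) := by
  have h2 : Measurable (fun t => (((x₀, g t), s) : ((V → ℝ) × (V → L1)) × ℝ)) :=
    (measurable_const.prodMk hg).prodMk measurable_const
  have h3 := (measurable_fld G h0 h1 W).comp h2
  exact hF.comp h3

theorem meas_rhs {T : Type*} [MeasurableSpace T] (θ : ℝ) (W : Finset V)
    (x₀ : V → ℝ) (s : ℝ) {F : (V → ℝ) → ℝ} (hF : Measurable F) {g : T → V → L1}
    (hg : Measurable g) : Measurable (fun t => F (fun w => x₀ w + fr1 s (g t) w) *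
      R1 G θ W x₀ s (g t)) := by
  have h4 : Measurable (fun t => fr1 s (g t)) := (measurable_fr1 s).comp hg
  have h5 : Measurable (fun t => (fun w => x₀ w + fr1 s (g t) w)) := by
    refine measurable_pi_lambda _ fun w => ?_
    have h6 : Measurable (fun t => fr1 s (g t) w) := (measurable_pi_apply w).comp h4
    exact h6.const_add _
  have h8 : Measurable (fun t => ((x₀, g t) : (V → ℝ) × (V → L1))) :=
    measurable_const.prodMk hg
  have h7 := (measurable_R1 G θ W s).comp h8
  exact (hF.comp h5).mul h7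

set_option maxHeartbeats 1000000 in
/-- one round, for fixed times -/
theorem one_round_fixed {θ : ℝ} (h0 : 0 ≤ θ) (h1 : θ < 1) (W : Finset V) (x₀ : V → ℝ)
    (η : V → L1) (hinj : ∀ v ∈ W, ∀ w ∈ W, ((η v).1 : ℝ) = (η w).1 → v = w) (n : ℕ) :
    ∀ (s : ℝ), 0 ≤ s → s ≤ 1 / 2 → (W.filter (fun v => ((η v).1 : ℝ) < s)).card = n →
    ∀ (F : (V → ℝ) → ℝ) (K : ℝ), Measurable F → (∀ x, |F x| ≤ K) →
    (∀ x y : V → ℝ, (∀ v ∈ W, x v = y v) → F x = F y) →
    ∫ η', F (fld G θ W x₀ (mix η η') s) ∂(lam V) =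
      ∫ η', F (fun w => x₀ w + fr1 s (mix η η') w) * R1 G θ W x₀ s (mix η η') ∂(lam V) := by
  classical
  induction n with
  | zero =>
    intro s hs hs' hn F K hF hK hloc
    have hno : ∀ w ∈ W, ¬ ((η w).1 : ℝ) < s := by
      intro w hw h
      have : w ∈ W.filter (fun v => ((η v).1 : ℝ) < s) := Finset.mem_filter.2 ⟨hw, h⟩
      rw [Finset.card_eq_zero.1 hn] at this
      exact absurd this (Finset.notMem_empty _)
    refine integral_congr_ae (Eventually.of_forall fun η' => ?_)
    simp only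
    have e1 : fld G θ W x₀ (mix η η') s = x₀ := by
      rw [fld_const G θ W x₀ (mix η η') (s := s) (r := 0) hs
        (fun w hw h => hno w hw h.2), fld_zero G θ W x₀ _ le_rfl]
    have e2 : F (fun w => x₀ w + fr1 s (mix η η') w) = F x₀ := by
      refine hloc _ _ fun w hw => ?_
      have hw' : ¬ ((mix η η' w).1 : ℝ) < s := hno w hw
      rw [fr1, if_neg hw', add_zero]
    have e3 : R1 G θ W x₀ s (mix η η') = 1 := by
      unfold R1
      rw [div_eq_one_iff_eq (Zw_pos G h0 h1 W x₀).ne', Zw]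
      refine Finset.sum_congr rfl fun A _ => ?_
      rw [Finset.prod_eq_one, mul_one]
      intro w hw
      have hw' : ¬ ((mix η η' w).1 : ℝ) < s := hno w hw
      rw [lk1, if_neg hw']
    rw [e1, e2, e3, mul_one]
  | succ n ih =>
    intro s hs hs' hn F K hF hK hloc
    have hne : (W.filter (fun v => ((η v).1 : ℝ) < s)).Nonempty := by
      rw [← Finset.card_pos]; omega
    obtain ⟨v, hv, hmax⟩ := Finset.exists_max_image _ (fun v => ((η v).1 : ℝ)) hne
    have hvW := (Finset.mem_filter.1 hv).1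
    have hvs := (Finset.mem_filter.1 hv).2
    set r : ℝ := ((η v).1 : ℝ) with hr
    have hr0 : 0 ≤ r := (η v).1.2.1
    have hr2 : r ≤ 1 / 2 := by linarith
    have honly : ∀ w ∈ W, r ≤ ((η w).1 : ℝ) → ((η w).1 : ℝ) < s → w = v := by
      intro w hw h1 h2
      have := hmax w (Finset.mem_filter.2 ⟨hw, h2⟩)
      exact hinj w hw v hvW (le_antisymm this h1)
    have hcard : (W.filter (fun w => ((η w).1 : ℝ) < r)).card = n := by
      have : W.filter (fun w => ((η w).1 : ℝ) < r) = (W.filter (fun w => ((η w).1 : ℝ) < s)).erase v := by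
        ext w
        simp only [Finset.mem_filter, Finset.mem_erase]
        constructor
        · rintro ⟨h1, h2⟩
          refine ⟨fun h => ?_, h1, h2.trans hvs⟩
          rw [h] at h2
          exact lt_irrefl _ h2
        · rintro ⟨h1, h2, h3⟩
          refine ⟨h2, lt_of_not_ge fun h4 => h1 (honly w h2 h4 h3)⟩
      rw [this, Finset.card_erase_of_mem hv, hn]; rfl
    have hK0 : 0 ≤ K := (abs_nonneg _).trans (hK x₀)
    have hIH := ih r hr0 hr2 hcard (Ft G θ W F v r) (K * 2) (Ft_measurable G θ W hF v r)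
      (fun y => Ft_bdd G h0 h1 W hK v hr0 (by linarith) y)
      (fun x y h => Ft_local G θ W hloc hvW r x y h)
    have hmix : Measurable (fun η' : V → L1 => mix η η') :=
      (measurable_mix (V := V)).comp (measurable_const.prodMk measurable_id)
    -- the update of the mixed configuration
    have hmixu : ∀ (η' : V → L1) (l : L1), mix η (Function.update η' v l) =
        Function.update (mix η η') v ((η v).1, l.2) := by
      intro η' l
      funext w
      by_cases hwv : w = v
      · subst hwv; simp [mix]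
      · simp [mix, Function.update_of_ne hwv]
    have hfix : ∀ (η' : V → L1) (l : L1),
        fld G θ W x₀ (Function.update (mix η η') v ((η v).1, l.2)) r = fld G θ W x₀ (mix η η') r :=
      fun η' l => fld_update G θ W x₀ (mix η η') r v _ le_rfl le_rfl
    -- left hand side
    have hL : ∫ η', F (fld G θ W x₀ (mix η η') s) ∂(lam V) =
        ∫ η', Ft G θ W F v r (fld G θ W x₀ (mix η η') r) ∂(lam V) := by
      have hm : Measurable (fun η' : V → L1 => F (fld G θ W x₀ (mix η η') s)) := by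
        exact meas_lhs G h0 h1 W x₀ s hF hmix
      have h := integral_mp (mp_update (fun _ : V => (volume : Measure L1)) v) hm (fun x => hK _)
      rw [lam, h]
      congr 1
      funext η'
      have hone : ∀ l : L1, F (fld G θ W x₀ (mix η (Function.update η' v l)) s) =
          F (Function.update (fld G θ W x₀ (mix η η') r) v (fld G θ W x₀ (mix η η') r v +
            Real.artanh (Tq r (mg G θ W (fld G θ W x₀ (mix η η') r) v) l.2))) := by
        intro l
        rw [hmixu]
        have hst := fld_step G θ W x₀ (Function.update (mix η η') v ((η v).1, l.2)) (s := s) (r := r)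
          hvW (by rw [Function.update_self]) hvs (by
            intro w hw h1 h2
            by_cases hwv : w = v
            · exact hwv
            · rw [Function.update_of_ne hwv] at h1 h2
              exact honly w hw h1 h2)
        rw [hst, hfix, Function.update_self]
      simp only [hone]
      have hmm : Measurable (fun t : ℝ => F (Function.update (fld G θ W x₀ (mix η η') r) v
          (fld G θ W x₀ (mix η η') r v + Real.artanh t))) := by
        refine hF.comp ((measurable_update' (a := v)).comp (measurable_const.prodMk ?_))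
        exact measurable_const.add measurable_artanh
      have hint := Tq_integral hr0 hr2 (abs_mg_le G h0 h1 W (fld G θ W x₀ (mix η η') r) v) hmm
        ⟨K, fun x => hK _⟩
      rw [Ft, ← hint]
      refine integral_snd_L1 (fun b => F (Function.update (fld G θ W x₀ (mix η η') r) v
        (fld G θ W x₀ (mix η η') r v +
          Real.artanh (Tq r (mg G θ W (fld G θ W x₀ (mix η η') r) v) b)))) ?_
      have h3 : Measurable (fun b : unitInterval =>
          Tq r (mg G θ W (fld G θ W x₀ (mix η η') r) v) b) := by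
        have h4 : Measurable (fun b : unitInterval =>
          (((r, mg G θ W (fld G θ W x₀ (mix η η') r) v), b) : (ℝ × ℝ) × unitInterval)) :=
          measurable_const.prodMk measurable_id
        exact measurable_Tq.comp h4
      exact hmm.comp h3
    rw [hL, hIH]
    -- right hand side
    symm
    have hm := meas_rhs G θ W x₀ s hF hmix
    have h := integral_mp (mp_update (fun _ : V => (volume : Measure L1)) v) hm (K := K * 2 ^ W.card)
      (fun η' => by
        rw [abs_mul]
        exact mul_le_mul (hK _) (abs_R1_le G h0 h1 W x₀ s _) (abs_nonneg _) hK0)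
    rw [lam, h]
    congr 1
    funext η'
    have hy : ∀ l : L1, (fun w => x₀ w + fr1 r (mix η (Function.update η' v l)) w) =
        fun w => x₀ w + fr1 r (mix η η') w := by
      intro l
      funext w
      by_cases hwv : w = v
      · subst hwv
        have e : ∀ η'', fr1 r (mix η η'') w = 0 := fun η'' => by
          rw [fr1, if_neg]; exact lt_irrefl _
        rw [e, e]
      · rw [hmixu]
        simp only [fr1, Function.update_of_ne hwv]
    have hR : ∀ l : L1, R1 G θ W x₀ r (mix η (Function.update η' v l)) =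
        R1 G θ W x₀ r (mix η η') := by
      intro l
      unfold R1
      congr 1
      refine Finset.sum_congr rfl fun A _ => ?_
      congr 1
      refine Finset.prod_congr rfl fun w _ => ?_
      by_cases hwv : w = v
      · subst hwv
        have e : ∀ η'', lk1 r (mix η η'') w (sp A w) = 1 := fun η'' => by
          rw [lk1, if_neg]; exact lt_irrefl _
        rw [e, e]
      · rw [hmixu]
        simp only [lk1, Function.update_of_ne hwv]
    have hone : ∀ l : L1, F (fun w => x₀ w + fr1 s (mix η (Function.update η' v l)) w) *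
        R1 G θ W x₀ s (mix η (Function.update η' v l)) =
        R1 G θ W x₀ r (mix η η') * (F (Function.update (fun w => x₀ w + fr1 r (mix η η') w) v
          ((fun w => x₀ w + fr1 r (mix η η') w) v + Real.artanh (r * zt l.2))) *
          (1 + mg G θ W (fun w => x₀ w + fr1 r (mix η η') w) v * (r * zt l.2))) := by
      intro l
      have hv2 : (mix η (Function.update η' v l) v).2 = l.2 := by
        rw [hmixu, Function.update_self]
      have e1 := R1_step G h0 h1 W x₀ hvs hs' (mix η (Function.update η' v l)) hvW rfl honly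
      have e2 : F (fun w => x₀ w + fr1 s (mix η (Function.update η' v l)) w) =
          F (Function.update (fun w => x₀ w + fr1 r (mix η η') w) v
          ((fun w => x₀ w + fr1 r (mix η η') w) v + Real.artanh (r * zt l.2))) := by
        refine hloc _ _ fun w hw => ?_
        have := fr1_step x₀ hvs (mix η (Function.update η' v l)) rfl honly w hw
        rw [this, hv2]
        have hy' := hy l
        simp only [funext_iff] at hy'
        by_cases hwv : w = v
        · subst hwv
          rw [Function.update_self, Function.update_self]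
          simp only
          rw [hy']
        · rw [Function.update_of_ne hwv, Function.update_of_ne hwv, hy']
      rw [e1, e2, hR, hy, hv2]
      ring
    simp only [hone]
    rw [integral_const_mul]
    rw [mul_comm]
    congr 1
    refine integral_snd_L1 (fun b => F (Function.update (fun w => x₀ w + fr1 r (mix η η') w) v
      ((fun w => x₀ w + fr1 r (mix η η') w) v + Real.artanh (r * zt b))) *
      (1 + mg G θ W (fun w => x₀ w + fr1 r (mix η η') w) v * (r * zt b))) ?_
    have h2 := measurable_artanh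
    have h3 := measurable_zt
    refine Measurable.mul (hF.comp ((measurable_update' (a := v)).comp
      (measurable_const.prodMk (by fun_prop)))) (by fun_prop)

theorem ae_ne {v w : V} (hvw : v ≠ w) :
    ∀ᵐ η ∂(lam V), ((η v).1 : ℝ) ≠ ((η w).1 : ℝ) := by
  classical
  have hmeas : MeasurableSet {η : V → L1 | ((η v).1 : ℝ) = ((η w).1 : ℝ)} :=
    measurableSet_eq_fun (by fun_prop) (by fun_prop)
  rw [ae_iff]
  have hset : {η : V → L1 | ¬ ((η v).1 : ℝ) ≠ ((η w).1 : ℝ)} =
      {η : V → L1 | ((η v).1 : ℝ) = ((η w).1 : ℝ)} := by ext; simp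
  rw [hset]
  have hp := mp_update (fun _ : V => (volume : Measure L1)) v
  rw [lam, ← hp.measure_preimage hmeas.nullMeasurableSet, Measure.measure_prod_null
    (hp.measurable hmeas)]
  refine Eventually.of_forall fun η => ?_
  have : (Prod.mk η ⁻¹' ((fun p : (V → L1) × L1 => Function.update p.1 v p.2) ⁻¹'
      {η : V → L1 | ((η v).1 : ℝ) = ((η w).1 : ℝ)})) = {(η w).1} ×ˢ Set.univ := by
    ext l
    simp only [Set.mem_preimage, Set.mem_ofPred_eq, Function.update_self,
      Function.update_of_ne hvw.symm, Set.mem_prod, Set.mem_singleton_iff, Set.mem_univ, and_true]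
    exact ⟨fun h => Subtype.ext h, fun h => by rw [h]⟩
  show (volume : Measure L1) (Prod.mk η ⁻¹' ((fun p : (V → L1) × L1 => Function.update p.1 v p.2) ⁻¹'
      {η : V → L1 | ((η v).1 : ℝ) = ((η w).1 : ℝ)})) = 0
  rw [this]
  show (volume : Measure (unitInterval × unitInterval)) _ = 0
  rw [Measure.volume_eq_prod, Measure.prod_prod]
  simp

theorem ae_inj (W : Finset V) :
    ∀ᵐ η ∂(lam V), ∀ v ∈ W, ∀ w ∈ W, ((η v).1 : ℝ) = ((η w).1 : ℝ) → v = w := by
  have h : ∀ v ∈ W, ∀ w ∈ W, ∀ᵐ η ∂(lam V), ((η v).1 : ℝ) = ((η w).1 : ℝ) → v = w := by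
    intro v _ w _
    by_cases hvw : v = w
    · exact Eventually.of_forall fun _ _ => hvw
    · filter_upwards [ae_ne hvw] with η hη h
      exact absurd h hη
  have h2 : ∀ v ∈ W, ∀ᵐ η ∂(lam V), ∀ w ∈ W, ((η v).1 : ℝ) = ((η w).1 : ℝ) → v = w :=
    fun v hv => (Finset.eventually_all W).2 (h v hv)
  exact (Finset.eventually_all W).2 h2

end LawAux

/-- law of one round started from an arbitrary field -/
theorem round_law {V : Type*} (G : SimpleGraph V) {θ : ℝ} (h0 : 0 ≤ θ) (h1 : θ < 1) (W : Finset V)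
    (x₀ : V → ℝ) {s : ℝ} (hs : 0 ≤ s) (hs' : s ≤ 1 / 2) {F : (V → ℝ) → ℝ} (hF : Measurable F)
    (hb : ∃ C, ∀ x, |F x| ≤ C) (hloc : ∀ x y : V → ℝ, (∀ v ∈ W, x v = y v) → F x = F y) :
    ∫ η, F (fld G θ W x₀ η s) ∂(lam V) =
      ∫ η, F (fun w => x₀ w + fr1 s η w) * R1 G θ W x₀ s η ∂(lam V) := by
  obtain ⟨K, hK⟩ := hb
  have hK0 : 0 ≤ K := (abs_nonneg _).trans (hK x₀)
  rw [integral_mp (mp_mix V) (meas_lhs G h0 h1 W x₀ s hF (g := fun η => η) measurable_id)
      (fun x => hK _),
    integral_mp (mp_mix V) (meas_rhs G θ W x₀ s hF (g := fun η => η) measurable_id)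
      (K := K * 2 ^ W.card)
      (fun η' => by
        rw [abs_mul]
        exact mul_le_mul (hK _) (abs_R1_le G h0 h1 W x₀ s _) (abs_nonneg _) hK0)]
  refine integral_congr_ae ?_
  filter_upwards [ae_inj W] with η hη
  exact one_round_fixed G h0 h1 W x₀ η hη _ s hs hs' rfl F K hF hK hloc

namespace LawAux

theorem zt_symm (z : unitInterval) : zt (unitInterval.symm z) = -zt z := by
  simp only [zt, unitInterval.coe_symm_eq]; ring

theorem integral_zt : ∫ z : unitInterval, zt z = 0 := by
  have h : ∫ z : unitInterval, zt z = ∫ z : unitInterval, zt (unitInterval.symm z) := by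
    conv_lhs => rw [← unitInterval.measurePreserving_symm.map_eq]
    rw [integral_map unitInterval.measurePreserving_symm.measurable.aemeasurable
      measurable_zt.aestronglyMeasurable]
  simp only [zt_symm, integral_neg] at h
  linarith

/-- the mean of a likelihood factor -/
theorem integral_fac (t σ : ℝ) :
    ∫ l : L1, (if ((l.1 : ℝ)) < t then 1 + σ * Tf l else 1) = 1 := by
  have hm : Measurable (fun l : L1 => (if ((l.1 : ℝ)) < t then 1 + σ * Tf l else (1 : ℝ))) := by
    refine Measurable.ite (measurableSet_lt (by fun_prop) measurable_const) ?_ measurable_const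
    have := measurable_Tf
    fun_prop
  have hb : ∀ l : L1, |(if ((l.1 : ℝ)) < t then 1 + σ * Tf l else (1 : ℝ))| ≤ 1 + |σ| := by
    intro l
    split_ifs
    · have h1 := abs_Tf_le l
      have h2 := l.1.2.2
      calc |1 + σ * Tf l| ≤ |(1 : ℝ)| + |σ * Tf l| := abs_add_le _ _
        _ ≤ 1 + |σ| := by
          rw [abs_one, abs_mul]
          have : |σ| * |Tf l| ≤ |σ| * 1 := mul_le_mul_of_nonneg_left (h1.trans h2) (abs_nonneg _)
          linarith
    · simp
  show ∫ l : unitInterval × unitInterval, _ ∂(volume : Measure (unitInterval × unitInterval)) = 1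
  rw [Measure.volume_eq_prod, integral_prod _ (integrable_bdd hm hb)]
  have h : ∀ x : unitInterval, (∫ y : unitInterval, (if (x : ℝ) < t then 1 + σ * Tf (x, y) else (1 : ℝ))) = 1 := by
    intro x
    split_ifs
    · have h2 : ∀ y : unitInterval, 1 + σ * Tf (x, y) = 1 + (σ * x) * zt y := by
        intro y; rw [Tf]; ring
      simp only [h2]
      rw [integral_add (integrable_const _) ?_, integral_const_mul, integral_zt]
      · simp
      · exact (integrable_bdd measurable_zt abs_zt_le).const_mul _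
    · simp
  simp only [h]
  simp

/-! ### several rounds -/

variable {V : Type*}

/-- normalisation -/
noncomputable def clik (k : ℕ) (s : ℝ) (ω : Lab V) (v : V) : ℝ :=
  (∏ j ∈ Finset.range k, if ((ω (v, j)).1 : ℝ) < 1 / 2 then √(1 - Tf (ω (v, j)) ^ 2) else 1) *
    if ((ω (v, k)).1 : ℝ) < s then √(1 - Tf (ω (v, k)) ^ 2) else 1

theorem fac_eq {t : ℝ} (ht : t ≤ 1 / 2) (l : L1) {σ : ℝ} (hσ : σ = 1 ∨ σ = -1) :
    (if ((l.1 : ℝ)) < t then 1 + σ * Tf l else 1) =
      Real.exp ((if ((l.1 : ℝ)) < t then Real.artanh (Tf l) else 0) * σ) *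
        (if ((l.1 : ℝ)) < t then √(1 - Tf l ^ 2) else 1) := by
  split_ifs with h
  · rw [Win_exp_artanh _ hσ]
    exact lt_of_le_of_lt (abs_Tf_le _) (by linarith)
  · simp

theorem lik_eq {s : ℝ} (hs : s ≤ 1 / 2) (k : ℕ) (ω : Lab V) (v : V) {σ : ℝ} (hσ : σ = 1 ∨ σ = -1) :
    lik k s ω v σ = Real.exp (free k s ω v * σ) * clik k s ω v := by
  unfold lik free clik
  rw [fac_eq hs _ hσ, add_mul, Real.exp_add, Finset.sum_mul, Real.exp_sum]
  rw [Finset.prod_congr rfl (fun j _ => fac_eq le_rfl (ω (v, j)) hσ), Finset.prod_mul_distrib]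
  ring

theorem lik_succ_rep (k : ℕ) (s : ℝ) (ω : Lab V) (η : V → L1) (v : V) (σ : ℝ) :
    lik (k + 1) s (rep (k + 1) ω η) v σ = lik k (1 / 2) ω v σ * lk1 s η v σ := by
  unfold lik lk1
  have h : ∀ j ∈ Finset.range (k + 1), (if ((rep (k + 1) ω η (v, j)).1 : ℝ) < 1 / 2 then
      1 + σ * Tf (rep (k + 1) ω η (v, j)) else 1) =
      if ((ω (v, j)).1 : ℝ) < 1 / 2 then 1 + σ * Tf (ω (v, j)) else 1 := by
    intro j hj
    have : rep (k + 1) ω η (v, j) = ω (v, j) := by
      rw [rep, if_neg]
      have := Finset.mem_range.1 hj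
      simp only; omega
    rw [this]
  rw [Finset.prod_congr rfl h, Finset.prod_range_succ]
  have h2 : rep (k + 1) ω η (v, k + 1) = η v := by simp [rep]
  rw [h2]

theorem free_succ_rep (k : ℕ) (s : ℝ) (ω : Lab V) (η : V → L1) :
    free (k + 1) s (rep (k + 1) ω η) = fun v => free k (1 / 2) ω v + fr1 s η v := by
  funext v
  unfold free fr1
  have h : ∀ j ∈ Finset.range (k + 1), (if ((rep (k + 1) ω η (v, j)).1 : ℝ) < 1 / 2 then
      Real.artanh (Tf (rep (k + 1) ω η (v, j))) else 0) =
      if ((ω (v, j)).1 : ℝ) < 1 / 2 then Real.artanh (Tf (ω (v, j))) else 0 := by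
    intro j hj
    have : rep (k + 1) ω η (v, j) = ω (v, j) := by
      rw [rep, if_neg]
      have := Finset.mem_range.1 hj
      simp only; omega
    rw [this]
  rw [Finset.sum_congr rfl h, Finset.sum_range_succ]
  have h2 : rep (k + 1) ω η (v, k + 1) = η v := by simp [rep]
  rw [h2]

theorem lik_zero_rep (s : ℝ) (ω : Lab V) (η : V → L1) (v : V) (σ : ℝ) :
    lik 0 s (rep 0 ω η) v σ = lk1 s η v σ := by
  simp [lik, lk1, rep]

theorem free_zero_rep (s : ℝ) (ω : Lab V) (η : V → L1) :
    free 0 s (rep 0 ω η) = fr1 s η := by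
  funext v
  simp [free, fr1, rep]

variable (G : SimpleGraph V)

theorem rnd_rep_ne {k j : ℕ} (h : j ≠ k) (ω : Lab V) (η : V → L1) :
    rnd j (rep k ω η) = rnd j ω := by
  funext v
  simp [rnd, rep, h]

theorem rnd_rep (k : ℕ) (ω : Lab V) (η : V → L1) : rnd k (rep k ω η) = η := by
  funext v
  simp [rnd, rep]

theorem X_rep (θ : ℝ) (W : Finset V) (k : ℕ) (ω : Lab V) (η : V → L1) (j : ℕ) (hj : j ≤ k) :
    X G θ W (rep k ω η) j = X G θ W ω j := by
  induction j with
  | zero => rfl
  | succ j ih =>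
    show fld G θ W (X G θ W (rep k ω η) j) (rnd j (rep k ω η)) (1 / 2) =
      fld G θ W (X G θ W ω j) (rnd j ω) (1 / 2)
    rw [ih (by omega), rnd_rep_ne (by omega)]

theorem P_rep (θ : ℝ) (W : Finset V) (k : ℕ) (s : ℝ) (ω : Lab V) (η : V → L1) :
    P G θ W k s (rep k ω η) = fld G θ W (X G θ W ω k) η s := by
  unfold P
  rw [X_rep G θ W k ω η k le_rfl, rnd_rep]

theorem abs_lik_le (k : ℕ) (s : ℝ) (ω : Lab V) (v : V) {σ : ℝ} (hσ : σ = 1 ∨ σ = -1) :
    |lik k s ω v σ| ≤ 2 ^ (k + 1) := by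
  have hone : ∀ (t : ℝ) (l : L1), |(if ((l.1 : ℝ)) < t then 1 + σ * Tf l else (1 : ℝ))| ≤ 2 :=
    fun t l => abs_lk1_le t (fun _ : Unit => l) () hσ
  unfold lik
  rw [abs_mul, Finset.abs_prod, pow_succ]
  refine mul_le_mul ?_ (hone _ _) (abs_nonneg _) (by positivity)
  refine (Finset.prod_le_prod (fun j _ => abs_nonneg _) fun j _ => hone _ _).trans ?_
  rw [Finset.prod_const, Finset.card_range]

theorem measurable_fac (t σ : ℝ) : Measurable (fun l : L1 => (if ((l.1 : ℝ)) < t then 1 + σ * Tf l else (1 : ℝ))) := by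
  refine Measurable.ite (measurableSet_lt (by fun_prop) measurable_const) ?_ measurable_const
  have := measurable_Tf
  fun_prop

theorem measurable_lik (k : ℕ) (s : ℝ) (v : V) (σ : ℝ) :
    Measurable (fun ω : Lab V => lik k s ω v σ) := by
  unfold lik
  refine Measurable.mul (Finset.measurable_prod _ fun j _ => ?_) ?_
  · exact (measurable_fac (1 / 2) σ).comp (measurable_pi_apply (v, j))
  · exact (measurable_fac s σ).comp (measurable_pi_apply (v, k))

theorem measurable_free (k : ℕ) (s : ℝ) : Measurable (fun ω : Lab V => free k s ω) := by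
  have hone : ∀ t : ℝ, Measurable (fun l : L1 => (if ((l.1 : ℝ)) < t then Real.artanh (Tf l) else (0 : ℝ))) := by
    intro t
    refine Measurable.ite (measurableSet_lt (by fun_prop) measurable_const) ?_ measurable_const
    exact measurable_artanh.comp measurable_Tf
  refine measurable_pi_lambda _ fun v => ?_
  unfold free
  refine Measurable.add (Finset.measurable_sum _ fun j _ => ?_) ?_
  · exact (hone (1 / 2)).comp (measurable_pi_apply (v, j))
  · exact (hone s).comp (measurable_pi_apply (v, k))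

theorem measurable_Lw (θ : ℝ) (W : Finset V) (k : ℕ) (s : ℝ) :
    Measurable (fun ω : Lab V => Lw G θ W k s ω) := by
  unfold Lw
  refine Finset.measurable_sum _ fun A _ => Measurable.const_mul ?_ _
  exact Finset.measurable_prod _ fun v _ => measurable_lik k s v _

theorem abs_Lw_le {θ : ℝ} (h0 : 0 ≤ θ) (h1 : θ < 1) (W : Finset V) (k : ℕ) (s : ℝ) (ω : Lab V) :
    |Lw G θ W k s ω| ≤ (2 ^ (k + 1)) ^ W.card * Zw G θ W (fun _ => 0) := by
  unfold Lw Zw
  rw [Finset.mul_sum]
  refine (Finset.abs_sum_le_sum_abs _ _).trans (Finset.sum_le_sum fun A _ => ?_)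
  rw [abs_mul, abs_of_pos (wt_pos G h0 h1 W _ A), mul_comm]
  refine mul_le_mul_of_nonneg_right ?_ (wt_pos G h0 h1 W _ A).le
  rw [Finset.abs_prod]
  refine (Finset.prod_le_prod (fun v _ => abs_nonneg _) fun v _ =>
    abs_lik_le k s ω v (Win_sp_eq A v)).trans ?_
  rw [Finset.prod_const]

/-- expectation over one round -/
noncomputable def Gt (θ : ℝ) (W : Finset V) (F : (V → ℝ) → ℝ) (s : ℝ) (x : V → ℝ) : ℝ :=
  ∫ η, F (fun w => x w + fr1 s η w) * R1 G θ W x s η ∂(lam V)

theorem measurable_Gt_aux (θ : ℝ) (W : Finset V) {F : (V → ℝ) → ℝ} (hF : Measurable F) (s : ℝ) :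
    Measurable (fun p : (V → ℝ) × (V → L1) => F (fun w => p.1 w + fr1 s p.2 w) *
      R1 G θ W p.1 s p.2) := by
  have h4 : Measurable (fun p : (V → ℝ) × (V → L1) => fr1 s p.2) :=
    (measurable_fr1 s).comp measurable_snd
  have h5 : Measurable (fun p : (V → ℝ) × (V → L1) => (fun w => p.1 w + fr1 s p.2 w)) := by
    refine measurable_pi_lambda _ fun w => ?_
    have h6 : Measurable (fun p : (V → ℝ) × (V → L1) => fr1 s p.2 w) :=
      (measurable_pi_apply w).comp h4
    have h7 : Measurable (fun p : (V → ℝ) × (V → L1) => p.1 w) :=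
      (measurable_pi_apply w).comp measurable_fst
    exact h7.add h6
  exact (hF.comp h5).mul (measurable_R1 G θ W s)

theorem Gt_measurable (θ : ℝ) (W : Finset V) {F : (V → ℝ) → ℝ} (hF : Measurable F) (s : ℝ) :
    Measurable (Gt G θ W F s) :=
  ((measurable_Gt_aux G θ W hF s).stronglyMeasurable.integral_prod_right (ν := lam V)).measurable

theorem Gt_bdd {θ : ℝ} (h0 : 0 ≤ θ) (h1 : θ < 1) (W : Finset V) {F : (V → ℝ) → ℝ} {K : ℝ}
    (hK : ∀ x, |F x| ≤ K) (s : ℝ) (x : V → ℝ) : |Gt G θ W F s x| ≤ K * 2 ^ W.card := by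
  have hK0 : 0 ≤ K := (abs_nonneg _).trans (hK x)
  unfold Gt
  have := norm_integral_le_of_norm_le_const (μ := lam V)
    (f := fun η => F (fun w => x w + fr1 s η w) * R1 G θ W x s η) (C := K * 2 ^ W.card)
    (Eventually.of_forall fun η => by
      rw [Real.norm_eq_abs, abs_mul]
      exact mul_le_mul (hK _) (abs_R1_le G h0 h1 W x s _) (abs_nonneg _) hK0)
  simpa using this

theorem R1_local (θ : ℝ) (W : Finset V) (s : ℝ) (η : V → L1) {x y : V → ℝ}
    (h : ∀ v ∈ W, x v = y v) : R1 G θ W x s η = R1 G θ W y s η := by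
  unfold R1
  rw [Win_Zw_congr G W h]
  congr 1
  exact Finset.sum_congr rfl fun A _ => by rw [wt_congr G W h]

theorem Gt_local (θ : ℝ) (W : Finset V) {F : (V → ℝ) → ℝ}
    (hloc : ∀ x y : V → ℝ, (∀ v ∈ W, x v = y v) → F x = F y) (s : ℝ)
    (x y : V → ℝ) (h : ∀ v ∈ W, x v = y v) : Gt G θ W F s x = Gt G θ W F s y := by
  unfold Gt
  congr 1
  funext η
  rw [R1_local G θ W s η h]
  congr 1
  exact hloc _ _ fun v hv => by rw [h v hv]

/-- combination of the densities of two successive rounds -/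
theorem R1_mul_Lw {θ : ℝ} (h0 : 0 ≤ θ) (h1 : θ < 1) (W : Finset V) (k : ℕ) (s : ℝ) (ω : Lab V)
    (η : V → L1) :
    R1 G θ W (free k (1 / 2) ω) s η * Lw G θ W k (1 / 2) ω = Lw G θ W (k + 1) s (rep (k + 1) ω η) := by
  have hZ := Zw_pos G h0 h1 W (free k (1 / 2) ω)
  have t1 := tilt G θ W (fun _ => 0) (free k (1 / 2) ω) (clik k (1 / 2) ω)
    (fun v σ => lik k (1 / 2) ω v σ) (fun v _ σ hσ => lik_eq le_rfl k ω v hσ) (fun _ => 1)
  have t2 := tilt G θ W (fun _ => 0) (free k (1 / 2) ω) (clik k (1 / 2) ω)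
    (fun v σ => lik k (1 / 2) ω v σ) (fun v _ σ hσ => lik_eq le_rfl k ω v hσ)
    (fun A => ∏ v ∈ W, lk1 s η v (sp A v))
  simp only [mul_one, zero_add] at t1 t2
  have e1 : Lw G θ W k (1 / 2) ω = (∏ v ∈ W, clik k (1 / 2) ω v) * Zw G θ W (free k (1 / 2) ω) := t1
  have e2 : Lw G θ W (k + 1) s (rep (k + 1) ω η) =
      (∏ v ∈ W, clik k (1 / 2) ω v) * ∑ A ∈ W.powerset, wt G θ W (free k (1 / 2) ω) A *
        ∏ v ∈ W, lk1 s η v (sp A v) := by
    rw [← t2]
    unfold Lw
    refine Finset.sum_congr rfl fun A _ => ?_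
    simp only [lik_succ_rep, Finset.prod_mul_distrib]
    ring
  rw [e1, e2, R1]
  field_simp

theorem measurable_X {θ : ℝ} (h0 : 0 ≤ θ) (h1 : θ < 1) (W : Finset V) (k : ℕ) :
    Measurable (fun ω : Lab V => X G θ W ω k) := by
  cases k with
  | zero => exact measurable_const
  | succ k =>
    have h := measurable_P G h0 h1 W k
    have h2 : Measurable (fun ω : Lab V => (((1 / 2 : ℝ), ω) : ℝ × Lab V)) :=
      measurable_const.prodMk measurable_id
    exact h.comp h2

end LawAux

/-- EXACT LAW: the fields visited by the process are distributed as the hidden Ising observations. -/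
theorem law_P {V : Type*} (G : SimpleGraph V) {θ : ℝ} (h0 : 0 ≤ θ) (h1 : θ < 1) (W : Finset V)
    (hZ : Zw G θ W (fun _ => 0) = 1)
    (k : ℕ) {s : ℝ} (hs : 0 ≤ s) (hs' : s ≤ 1 / 2) {F : (V → ℝ) → ℝ} (hF : Measurable F)
    (hb : ∃ C, ∀ x, |F x| ≤ C) (hloc : ∀ x y : V → ℝ, (∀ v ∈ W, x v = y v) → F x = F y) :
    ∫ ω, F (P G θ W k s ω) ∂(labM V) = ∫ ω, F (free k s ω) * Lw G θ W k s ω ∂(labM V) := by
  have main : ∀ (k : ℕ) (s : ℝ), 0 ≤ s → s ≤ 1 / 2 → ∀ (F : (V → ℝ) → ℝ) (K : ℝ), Measurable F →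
      (∀ x, |F x| ≤ K) → (∀ x y : V → ℝ, (∀ v ∈ W, x v = y v) → F x = F y) →
      ∫ ω, F (P G θ W k s ω) ∂(labM V) = ∫ ω, F (free k s ω) * Lw G θ W k s ω ∂(labM V) := by
    intro k
    induction k with
    | zero =>
      intro s hs hs' F K hF hK hloc
      have hK0 : 0 ≤ K := (abs_nonneg _).trans (hK (fun _ => 0))
      have hmP : Measurable (fun ω : Lab V => F (P G θ W 0 s ω)) := by
        have h2 : Measurable (fun ω : Lab V => ((s, ω) : ℝ × Lab V)) :=
          measurable_const.prodMk measurable_id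
        exact hF.comp ((measurable_P G h0 h1 W 0).comp h2)
      have hmR : Measurable (fun ω : Lab V => F (free 0 s ω) * Lw G θ W 0 s ω) :=
        (hF.comp (measurable_free 0 s)).mul (measurable_Lw G θ W 0 s)
      rw [integral_mp (mp_rep 0) hmP (fun x => hK _), integral_mp (mp_rep 0) hmR
        (K := K * ((2 ^ (0 + 1)) ^ W.card * Zw G θ W (fun _ => 0))) (fun x => by
          rw [abs_mul]
          exact mul_le_mul (hK _) (abs_Lw_le G h0 h1 W 0 s _) (abs_nonneg _) hK0)]
      congr 1
      funext ω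
      simp only [P_rep, free_zero_rep]
      rw [show X G θ W ω 0 = fun _ => 0 from rfl]
      rw [round_law G h0 h1 W _ hs hs' hF ⟨K, hK⟩ hloc]
      congr 1
      funext η
      have e1 : R1 G θ W (fun _ => 0) s η = Lw G θ W 0 s (rep 0 ω η) := by
        unfold R1 Lw
        rw [hZ, div_one]
        simp only [lik_zero_rep]
      rw [e1]
      simp only [zero_add]
    | succ k ih =>
      intro s hs hs' F K hF hK hloc
      have hK0 : 0 ≤ K := (abs_nonneg _).trans (hK (fun _ => 0))
      have hmP : Measurable (fun ω : Lab V => F (P G θ W (k + 1) s ω)) := by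
        have h2 : Measurable (fun ω : Lab V => ((s, ω) : ℝ × Lab V)) :=
          measurable_const.prodMk measurable_id
        exact hF.comp ((measurable_P G h0 h1 W (k + 1)).comp h2)
      have hmR : Measurable (fun ω : Lab V => F (free (k + 1) s ω) * Lw G θ W (k + 1) s ω) :=
        (hF.comp (measurable_free (k + 1) s)).mul (measurable_Lw G θ W (k + 1) s)
      rw [integral_mp (mp_rep (k + 1)) hmP (fun x => hK _), integral_mp (mp_rep (k + 1)) hmR
        (K := K * ((2 ^ (k + 1 + 1)) ^ W.card * Zw G θ W (fun _ => 0))) (fun x => by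
          rw [abs_mul]
          exact mul_le_mul (hK _) (abs_Lw_le G h0 h1 W (k + 1) s _) (abs_nonneg _) hK0)]
      have e1 : ∀ ω : Lab V, (∫ η, F (P G θ W (k + 1) s (rep (k + 1) ω η)) ∂(lam V)) =
          Gt G θ W F s (P G θ W k (1 / 2) ω) := by
        intro ω
        simp only [P_rep]
        rw [round_law G h0 h1 W _ hs hs' hF ⟨K, hK⟩ hloc]
        rfl
      simp only [e1]
      rw [ih (1 / 2) (by norm_num) le_rfl (Gt G θ W F s) (K * 2 ^ W.card)
        (Gt_measurable G θ W hF s) (fun x => Gt_bdd G h0 h1 W hK s x) (Gt_local G θ W hloc s)]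
      congr 1
      funext ω
      rw [Gt, ← integral_mul_const]
      congr 1
      funext η
      rw [mul_assoc, R1_mul_Lw G h0 h1, free_succ_rep]
  obtain ⟨K, hK⟩ := hb
  exact main k s hs hs' F K hF hK hloc

namespace LawAux

variable {V : Type*} (G : SimpleGraph V)

/-- products of likelihoods over the window are normalised -/
theorem integral_prod_lik (W : Finset V) (k : ℕ) (s : ℝ) (σ : V → ℝ) :
    ∫ ω, ∏ v ∈ W, lik k s ω v (σ v) ∂(labM V) = 1 := by
  let g : V × ℕ → L1 → ℝ := fun q l => if ((l.1 : ℝ)) < (if q.2 < k then 1 / 2 else s)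
    then 1 + σ q.1 * Tf l else 1
  have hg : ∀ (ω : Lab V), ∏ v ∈ W, lik k s ω v (σ v) =
      ∏ q ∈ W ×ˢ Finset.range (k + 1), g q (ω q) := by
    intro ω
    rw [Finset.prod_product]
    refine Finset.prod_congr rfl fun v _ => ?_
    rw [Finset.prod_range_succ, lik]
    congr 1
    · refine Finset.prod_congr rfl fun j hj => ?_
      simp only [g]
      rw [if_pos (Finset.mem_range.1 hj)]
    · simp [g]
  simp only [hg]
  rw [labM, integral_prod_infinitePi (fun _ : V × ℕ => (volume : Measure L1)) _ g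
    (fun q => measurable_fac _ _)]
  refine Finset.prod_eq_one fun q _ => ?_
  exact integral_fac _ _

end LawAux

/-- `E P(τ_S = η | obs) = P(τ_S = η)` -/
theorem integral_av {V : Type*} (G : SimpleGraph V) {θ : ℝ} (h0 : 0 ≤ θ) (h1 : θ < 1)
    (W : Finset V) (hZ : Zw G θ W (fun _ => 0) = 1) (k : ℕ) {s : ℝ} (hs : 0 ≤ s) (hs' : s ≤ 1 / 2)
    (f : Finset V → ℝ) :
    ∫ ω, av G θ W (P G θ W k s ω) f ∂(labM V) = av G θ W (fun _ => 0) f := by
  have hbd : ∃ C, ∀ x, |av G θ W x f| ≤ C := by
    refine ⟨∑ A ∈ W.powerset, |f A|, fun x => ?_⟩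
    have hZx := Zw_pos G h0 h1 W x
    rw [av, abs_div, abs_of_pos hZx, div_le_iff₀ hZx]
    refine (Finset.abs_sum_le_sum_abs _ _).trans ?_
    rw [Finset.sum_mul]
    refine Finset.sum_le_sum fun A hA => ?_
    rw [abs_mul, abs_of_pos (wt_pos G h0 h1 W x A), mul_comm]
    refine mul_le_mul_of_nonneg_left ?_ (abs_nonneg _)
    exact Finset.single_le_sum (f := fun A => wt G θ W x A) (fun B _ => (wt_pos G h0 h1 W x B).le) hA
  rw [law_P G h0 h1 W hZ k hs hs' (F := fun x => av G θ W x f) (measurable_av G θ W f) hbd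
    (fun x y h => Win_av_congr G W h f)]
  have e : ∀ ω : Lab V, av G θ W (free k s ω) f * Lw G θ W k s ω =
      ∑ A ∈ W.powerset, (wt G θ W (fun _ => 0) A * f A) * ∏ v ∈ W, lik k s ω v (sp A v) := by
    intro ω
    have hZx := Zw_pos G h0 h1 W (free k s ω)
    have t1 := tilt G θ W (fun _ => 0) (free k s ω) (clik k s ω)
      (fun v σ => lik k s ω v σ) (fun v _ σ hσ => lik_eq hs' k ω v hσ) (fun _ => 1)
    have t2 := tilt G θ W (fun _ => 0) (free k s ω) (clik k s ω)
      (fun v σ => lik k s ω v σ) (fun v _ σ hσ => lik_eq hs' k ω v hσ) f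
    simp only [mul_one, zero_add] at t1 t2
    have e1 : Lw G θ W k s ω = (∏ v ∈ W, clik k s ω v) * Zw G θ W (free k s ω) := t1
    rw [e1, av]
    rw [show (∑ A ∈ W.powerset, (wt G θ W (fun _ => 0) A * f A) * ∏ v ∈ W, lik k s ω v (sp A v)) =
      ∑ A ∈ W.powerset, wt G θ W (fun _ => 0) A * (∏ v ∈ W, lik k s ω v (sp A v)) * f A from
      Finset.sum_congr rfl fun A _ => by ring, t2]
    field_simp
  simp only [e]
  rw [integral_finsetSum]
  · simp only [integral_const_mul, integral_prod_lik, mul_one]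
    rw [av, hZ, div_one]
  · intro A _
    refine Integrable.const_mul ?_ _
    refine integrable_bdd (Finset.measurable_prod _ fun v _ => measurable_lik k s v _)
      (K := (2 ^ (k + 1)) ^ W.card) fun ω => ?_
    rw [Finset.abs_prod]
    refine (Finset.prod_le_prod (fun v _ => abs_nonneg _) fun v _ =>
      abs_lik_le k s ω v (Win_sp_eq A v)).trans ?_
    rw [Finset.prod_const]

namespace LawAux

variable {V : Type*} (G : SimpleGraph V)

theorem integral_prod_lk1 (W : Finset V) (s : ℝ) (σ : V → ℝ) :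
    ∫ η, ∏ v ∈ W, lk1 s η v (σ v) ∂(lam V) = 1 := by
  have h := integral_prod_infinitePi (fun _ : V => (volume : Measure L1)) W
    (fun v l => if ((l.1 : ℝ)) < s then 1 + σ v * Tf l else 1) (fun v => measurable_fac s (σ v))
  simp only [integral_fac, Finset.prod_const_one] at h
  exact h

end LawAux

/-- one round preserves the Gibbs averages in mean, for any initial field -/
theorem round_av {V : Type*} (G : SimpleGraph V) {θ : ℝ} (h0 : 0 ≤ θ) (h1 : θ < 1)
    (W : Finset V) (x₀ : V → ℝ) {s : ℝ} (hs : 0 ≤ s) (hs' : s ≤ 1 / 2) (f : Finset V → ℝ) :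
    ∫ η, av G θ W (fld G θ W x₀ η s) f ∂(lam V) = av G θ W x₀ f := by
  have hbd : ∃ C, ∀ x, |av G θ W x f| ≤ C := by
    refine ⟨∑ A ∈ W.powerset, |f A|, fun x => ?_⟩
    have hZx := Zw_pos G h0 h1 W x
    rw [av, abs_div, abs_of_pos hZx, div_le_iff₀ hZx]
    refine (Finset.abs_sum_le_sum_abs _ _).trans ?_
    rw [Finset.sum_mul]
    refine Finset.sum_le_sum fun A hA => ?_
    rw [abs_mul, abs_of_pos (wt_pos G h0 h1 W x A), mul_comm]
    refine mul_le_mul_of_nonneg_left ?_ (abs_nonneg _)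
    exact Finset.single_le_sum (f := fun A => wt G θ W x A) (fun B _ => (wt_pos G h0 h1 W x B).le) hA
  rw [round_law G h0 h1 W x₀ hs hs' (F := fun x => av G θ W x f) (measurable_av G θ W f) hbd
    (fun x y h => Win_av_congr G W h f)]
  have hZ0 := Zw_pos G h0 h1 W x₀
  have e : ∀ η : V → L1, av G θ W (fun w => x₀ w + fr1 s η w) f * R1 G θ W x₀ s η =
      ∑ A ∈ W.powerset, (wt G θ W x₀ A * f A / Zw G θ W x₀) * ∏ v ∈ W, lk1 s η v (sp A v) := by
    intro η
    have hZx := Zw_pos G h0 h1 W (fun w => x₀ w + fr1 s η w)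
    have t1 := tilt G θ W x₀ (fr1 s η) (cc1 s η) (lk1 s η)
      (fun v _ σ hσ => lk1_eq hs' η v hσ) (fun _ => 1)
    have t2 := tilt G θ W x₀ (fr1 s η) (cc1 s η) (lk1 s η)
      (fun v _ σ hσ => lk1_eq hs' η v hσ) f
    simp only [mul_one] at t1
    have e1 : R1 G θ W x₀ s η = (∏ v ∈ W, cc1 s η v) * Zw G θ W (fun w => x₀ w + fr1 s η w) /
        Zw G θ W x₀ := by rw [R1, t1]; rfl
    rw [e1, av]
    rw [show (∑ A ∈ W.powerset, (wt G θ W x₀ A * f A / Zw G θ W x₀) *
        ∏ v ∈ W, lk1 s η v (sp A v)) =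
      (∑ A ∈ W.powerset, wt G θ W x₀ A * (∏ v ∈ W, lk1 s η v (sp A v)) * f A) / Zw G θ W x₀ by
      rw [Finset.sum_div]
      exact Finset.sum_congr rfl fun A _ => by ring, t2]
    field_simp
  simp only [e]
  rw [integral_finsetSum]
  · simp only [integral_const_mul, integral_prod_lk1, mul_one]
    rw [av, Finset.sum_div]
  · intro A _
    refine Integrable.const_mul ?_ _
    refine integrable_bdd (Finset.measurable_prod _ fun v _ => measurable_lk1 s v _)
      (K := 2 ^ W.card) fun ω => ?_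
    rw [Finset.abs_prod]
    refine (Finset.prod_le_prod (fun v _ => abs_nonneg _) fun v _ =>
      abs_lk1_le s ω v (Win_sp_eq A v)).trans ?_
    rw [Finset.prod_const]

/-- the magnetisation is a martingale over one round -/
theorem round_mean {V : Type*} (G : SimpleGraph V) {θ : ℝ} (h0 : 0 ≤ θ) (h1 : θ < 1)
    (W : Finset V) (x₀ : V → ℝ) {s : ℝ} (hs : 0 ≤ s) (hs' : s ≤ 1 / 2) (v : V) :
    ∫ η, mg G θ W (fld G θ W x₀ η s) v ∂(Measure.infinitePi (fun _ : V => (volume : Measure L1))) =
      mg G θ W x₀ v :=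
  round_av G h0 h1 W x₀ hs hs' _

namespace LawAux

/-- mean square root overlap of one label -/
noncomputable def co (t : ℝ) : ℝ := ∫ l : L1, (if ((l.1 : ℝ)) < t then √(1 - Tf l ^ 2) else 1)

theorem co_int_bounds (t : ℝ) (l : L1) : 0 ≤ (if ((l.1 : ℝ)) < t then √(1 - Tf l ^ 2) else 1) ∧
    (if ((l.1 : ℝ)) < t then √(1 - Tf l ^ 2) else 1) ≤ 1 := by
  split_ifs
  · exact ⟨Real.sqrt_nonneg _, Real.sqrt_le_one.2 (by nlinarith [sq_nonneg (Tf l)])⟩
  · exact ⟨zero_le_one, le_rfl⟩

theorem measurable_co_int (t : ℝ) :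
    Measurable (fun l : L1 => (if ((l.1 : ℝ)) < t then √(1 - Tf l ^ 2) else (1 : ℝ))) := by
  refine Measurable.ite (measurableSet_lt (by fun_prop) measurable_const) ?_ measurable_const
  have := measurable_Tf
  fun_prop

theorem co_integrable (t : ℝ) :
    Integrable (fun l : L1 => (if ((l.1 : ℝ)) < t then √(1 - Tf l ^ 2) else (1 : ℝ))) :=
  integrable_bdd (measurable_co_int t) (K := 1) (fun l => by
    rw [abs_of_nonneg (co_int_bounds t l).1]; exact (co_int_bounds t l).2)

theorem co_le_one (t : ℝ) : co t ≤ 1 := by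
  have h := integral_mono (co_integrable t) (integrable_const (1 : ℝ))
    (fun l => (co_int_bounds t l).2)
  simpa [co] using h

theorem co_nonneg (t : ℝ) : 0 ≤ co t := integral_nonneg fun l => (co_int_bounds t l).1

theorem co_half_pos : 0 < co (1 / 2) := by
  have h := integral_mono (μ := (volume : Measure L1)) (integrable_const (1 / 2 : ℝ))
    (co_integrable (1 / 2)) (fun l => by
      simp only
      split_ifs with h
      · apply Real.le_sqrt_of_sq_le
        have h1 := abs_Tf_le l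
        have h2 : |Tf l| ≤ 1 / 2 := by linarith
        have h3 := sq_abs (Tf l)
        nlinarith [abs_nonneg (Tf l)]
      · norm_num)
  simp only [integral_const, probReal_univ, smul_eq_mul, one_mul] at h
  have : (0 : ℝ) < 1 / 2 := by norm_num
  exact lt_of_lt_of_le this h

theorem co_half_lt : co (1 / 2) < 1 := by
  have hint : Integrable (fun l : L1 => 1 - (if ((l.1 : ℝ)) < 1 / 2 then √(1 - Tf l ^ 2) else (1 : ℝ))) :=
    (integrable_const _).sub (co_integrable _)
  have hpos : 0 < ∫ l : L1, (1 - (if ((l.1 : ℝ)) < 1 / 2 then √(1 - Tf l ^ 2) else (1 : ℝ))) := by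
    rw [integral_pos_iff_support_of_nonneg (fun l => by
      have := (co_int_bounds (1 / 2) l).2
      simp only [Pi.zero_apply]; linarith) hint]
    let a : unitInterval := ⟨1 / 8, by norm_num, by norm_num⟩
    let b : unitInterval := ⟨1 / 4, by norm_num, by norm_num⟩
    let c : unitInterval := ⟨3 / 4, by norm_num, by norm_num⟩
    let d : unitInterval := ⟨1, by norm_num, by norm_num⟩
    have hsub : Set.Icc a b ×ˢ Set.Icc c d ⊆ Function.support (fun l : L1 => 1 -
        (if ((l.1 : ℝ)) < 1 / 2 then √(1 - Tf l ^ 2) else (1 : ℝ))) := by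
      rintro l ⟨⟨h1, h2⟩, ⟨h3, _⟩⟩
      rw [Function.mem_support]
      have h1' : (1 / 8 : ℝ) ≤ l.1 := h1
      have h2' : (l.1 : ℝ) ≤ 1 / 4 := h2
      have h3' : (3 / 4 : ℝ) ≤ l.2 := h3
      rw [if_pos (by linarith)]
      have hT : 0 < Tf l := by
        rw [Tf, zt]
        have : (0 : ℝ) < l.1 := by linarith
        have h5 : 0 < 2 * (l.2 : ℝ) - 1 := by linarith
        positivity
      have : √(1 - Tf l ^ 2) < 1 := by
        rw [Real.sqrt_lt' one_pos]
        nlinarith
      linarith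
    refine lt_of_lt_of_le ?_ (measure_mono hsub)
    show 0 < (volume : Measure (unitInterval × unitInterval)) _
    rw [Measure.volume_eq_prod, Measure.prod_prod, unitInterval.volume_Icc, unitInterval.volume_Icc]
    refine ENNReal.mul_pos ?_ ?_
    · simp only [a, b]
      norm_num
    · simp only [c, d]
      norm_num
  rw [integral_sub (integrable_const _) (co_integrable _)] at hpos
  simp only [integral_const, probReal_univ, smul_eq_mul, one_mul] at hpos
  have : co (1 / 2) = ∫ l : L1, (if ((l.1 : ℝ)) < 1 / 2 then √(1 - Tf l ^ 2) else (1 : ℝ)) := rfl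
  rw [this]
  linarith

theorem clik_nonneg {V : Type*} (k : ℕ) (s : ℝ) (ω : Lab V) (v : V) : 0 ≤ clik k s ω v := by
  unfold clik
  refine mul_nonneg (Finset.prod_nonneg fun j _ => ?_) ?_
  · split_ifs
    · exact Real.sqrt_nonneg _
    · exact zero_le_one
  · split_ifs
    · exact Real.sqrt_nonneg _
    · exact zero_le_one

theorem aux_ineq {a b p q : ℝ} (ha : 0 ≤ a) (hb : 0 ≤ b) (hp : 0 ≤ p) (hq : 0 ≤ q) :
    4 * (a ^ 2 * p ^ 2) * (b ^ 2 * q ^ 2) ≤
      (a * b) * (p ^ 2 + q ^ 2) * (a ^ 2 * p ^ 2 + b ^ 2 * q ^ 2) := by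
  have h1 : 2 * (p * q) ≤ p ^ 2 + q ^ 2 := by nlinarith [sq_nonneg (p - q)]
  have h2 : 2 * ((a * p) * (b * q)) ≤ (a * p) ^ 2 + (b * q) ^ 2 := by
    nlinarith [sq_nonneg (a * p - b * q)]
  have h3 : 2 * (p * q) * (2 * ((a * p) * (b * q))) ≤
      (p ^ 2 + q ^ 2) * ((a * p) ^ 2 + (b * q) ^ 2) :=
    mul_le_mul h1 h2 (by positivity) (by positivity)
  have h4 : 0 ≤ a * b := mul_nonneg ha hb
  have h5 := mul_le_mul_of_nonneg_left h3 h4
  nlinarith [h5]

theorem aux_ineq2 {l₁ l₂ Q₁ Q₂ : ℝ} (h1 : 0 ≤ l₁) (h2 : 0 ≤ l₂) (h3 : 0 ≤ Q₁) (h4 : 0 ≤ Q₂) :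
    4 * (l₁ * Q₁) * (l₂ * Q₂) ≤ √(l₁ * l₂) * (Q₁ + Q₂) * (l₁ * Q₁ + l₂ * Q₂) := by
  have h := aux_ineq (Real.sqrt_nonneg l₁) (Real.sqrt_nonneg l₂) (Real.sqrt_nonneg Q₁)
    (Real.sqrt_nonneg Q₂)
  rw [Real.sq_sqrt h1, Real.sq_sqrt h2, Real.sq_sqrt h3, Real.sq_sqrt h4] at h
  rw [Real.sqrt_mul h1]
  exact h

/-- pointwise bound of the conditional variance by the own overlap -/
theorem var_le {V : Type*} [DecidableEq V] (G : SimpleGraph V) {θ : ℝ} (h0 : 0 ≤ θ) (h1 : θ < 1)
    (W : Finset V) (k : ℕ) {s : ℝ} (hs' : s ≤ 1 / 2) {v : V} (hv : v ∈ W) (ω : Lab V) :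
    (1 - mg G θ W (free k s ω) v ^ 2) * Lw G θ W k s ω ≤
      ∑ A ∈ W.powerset, wt G θ W (fun _ => 0) A *
        (clik k s ω v * ∏ w ∈ W.erase v, lik k s ω w (sp A w)) := by
  have hpos : ∀ (w : V) (σ : ℝ), (σ = 1 ∨ σ = -1) → 0 ≤ lik k s ω w σ := fun w σ hσ => by
    rw [lik_eq hs' k ω w hσ]
    exact mul_nonneg (Real.exp_pos _).le (clik_nonneg k s ω w)
  have t1 := tilt G θ W (fun _ => 0) (free k s ω) (clik k s ω)
    (fun v σ => lik k s ω v σ) (fun v _ σ hσ => lik_eq hs' k ω v hσ) (fun _ => 1)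
  have t2 := tilt G θ W (fun _ => 0) (free k s ω) (clik k s ω)
    (fun v σ => lik k s ω v σ) (fun v _ σ hσ => lik_eq hs' k ω v hσ) (fun A => sp A v)
  simp only [mul_one, zero_add] at t1 t2
  have hZx := Zw_pos G h0 h1 W (free k s ω)
  -- the two halves
  set q : Finset V → ℝ := fun A => wt G θ W (fun _ => 0) A * ∏ w ∈ W.erase v, lik k s ω w (sp A w)
    with hq
  set Q₁ : ℝ := ∑ A ∈ W.powerset, q A * ((1 + sp A v) / 2) with hQ1
  set Q₂ : ℝ := ∑ A ∈ W.powerset, q A * ((1 - sp A v) / 2) with hQ2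
  have hq0 : ∀ A, 0 ≤ q A := fun A => mul_nonneg (wt_pos G h0 h1 W _ A).le
    (Finset.prod_nonneg fun w _ => hpos w _ (Win_sp_eq A w))
  have hQ1n : 0 ≤ Q₁ := Finset.sum_nonneg fun A _ => mul_nonneg (hq0 A) (by
    rcases Win_sp_eq A v with h | h <;> rw [h] <;> norm_num)
  have hQ2n : 0 ≤ Q₂ := Finset.sum_nonneg fun A _ => mul_nonneg (hq0 A) (by
    rcases Win_sp_eq A v with h | h <;> rw [h] <;> norm_num)
  set l₁ := lik k s ω v 1 with hl1
  set l₂ := lik k s ω v (-1) with hl2
  have hprod : ∀ A : Finset V, ∏ w ∈ W, lik k s ω w (sp A w) =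
      (l₁ * ((1 + sp A v) / 2) + l₂ * ((1 - sp A v) / 2)) * ∏ w ∈ W.erase v, lik k s ω w (sp A w) := by
    intro A
    rw [← Finset.mul_prod_erase W _ hv]
    congr 1
    rcases Win_sp_eq A v with h | h
    · rw [h]; norm_num; rfl
    · rw [h]; norm_num; rfl
  have hL : Lw G θ W k s ω = l₁ * Q₁ + l₂ * Q₂ := by
    unfold Lw
    rw [hQ1, hQ2, Finset.mul_sum, Finset.mul_sum, ← Finset.sum_add_distrib]
    refine Finset.sum_congr rfl fun A _ => ?_
    rw [hprod, hq]; ring
  have hM : mg G θ W (free k s ω) v * Lw G θ W k s ω = l₁ * Q₁ - l₂ * Q₂ := by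
    have e1 : Lw G θ W k s ω = (∏ v ∈ W, clik k s ω v) * Zw G θ W (free k s ω) := t1
    have e2 : mg G θ W (free k s ω) v * Lw G θ W k s ω =
        ∑ A ∈ W.powerset, wt G θ W (fun _ => 0) A * (∏ v ∈ W, lik k s ω v (sp A v)) * sp A v := by
      rw [t2, e1, mg, av]; field_simp
    rw [e2, hQ1, hQ2, Finset.mul_sum, Finset.mul_sum, ← Finset.sum_sub_distrib]
    refine Finset.sum_congr rfl fun A _ => ?_
    rw [hprod, hq]
    rcases Win_sp_eq A v with h | h <;> rw [h] <;> ring
  have hcl : √(l₁ * l₂) = clik k s ω v := by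
    rw [hl1, hl2, lik_eq hs' k ω v (Or.inl rfl), lik_eq hs' k ω v (Or.inr rfl)]
    have : Real.exp (free k s ω v * 1) * clik k s ω v * (Real.exp (free k s ω v * -1) * clik k s ω v)
        = (clik k s ω v) ^ 2 := by
      have : Real.exp (free k s ω v * 1) * Real.exp (free k s ω v * -1) = 1 := by
        rw [← Real.exp_add]; simp
      linear_combination (clik k s ω v) ^ 2 * this
    rw [this, Real.sqrt_sq (clik_nonneg k s ω v)]
  have hR : ∑ A ∈ W.powerset, wt G θ W (fun _ => 0) A *
        (clik k s ω v * ∏ w ∈ W.erase v, lik k s ω w (sp A w)) = √(l₁ * l₂) * (Q₁ + Q₂) := by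
    rw [hcl, hQ1, hQ2, ← Finset.sum_add_distrib, Finset.mul_sum]
    refine Finset.sum_congr rfl fun A _ => ?_
    rw [hq]; ring
  rw [hR]
  have hLn : 0 ≤ Lw G θ W k s ω := by
    rw [hL]
    exact add_nonneg (mul_nonneg (hpos v 1 (Or.inl rfl)) hQ1n)
      (mul_nonneg (hpos v (-1) (Or.inr rfl)) hQ2n)
  have hmain := aux_ineq2 (hpos v 1 (Or.inl rfl)) (hpos v (-1) (Or.inr rfl)) hQ1n hQ2n
  rcases hLn.eq_or_lt with hL0 | hLpos
  · rw [← hL0, mul_zero]
    exact mul_nonneg (Real.sqrt_nonneg _) (add_nonneg hQ1n hQ2n)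
  · refine le_of_mul_le_mul_right ?_ hLpos
    have : (1 - mg G θ W (free k s ω) v ^ 2) * Lw G θ W k s ω * Lw G θ W k s ω =
        4 * (l₁ * Q₁) * (l₂ * Q₂) := by
      have : (1 - mg G θ W (free k s ω) v ^ 2) * Lw G θ W k s ω * Lw G θ W k s ω =
        Lw G θ W k s ω ^ 2 - (mg G θ W (free k s ω) v * Lw G θ W k s ω) ^ 2 := by ring
      rw [this, hM, hL]; ring
    rw [this]
    calc 4 * (l₁ * Q₁) * (l₂ * Q₂) ≤ √(l₁ * l₂) * (Q₁ + Q₂) * (l₁ * Q₁ + l₂ * Q₂) := hmain
      _ = √(l₁ * l₂) * (Q₁ + Q₂) * Lw G θ W k s ω := by rw [hL]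

theorem integral_clik_prod {V : Type*} [DecidableEq V] (W : Finset V) (k : ℕ) (s : ℝ) {v : V}
    (hv : v ∈ W) (σ : V → ℝ) :
    ∫ ω, clik k s ω v * ∏ w ∈ W.erase v, lik k s ω w (σ w) ∂(labM V) = co (1 / 2) ^ k * co s := by
  let g : V × ℕ → L1 → ℝ := fun q l => if q.1 = v then
    (if ((l.1 : ℝ)) < (if q.2 < k then 1 / 2 else s) then √(1 - Tf l ^ 2) else 1) else
    (if ((l.1 : ℝ)) < (if q.2 < k then 1 / 2 else s) then 1 + σ q.1 * Tf l else 1)
  have hg : ∀ (ω : Lab V), clik k s ω v * ∏ w ∈ W.erase v, lik k s ω w (σ w) =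
      ∏ q ∈ W ×ˢ Finset.range (k + 1), g q (ω q) := by
    intro ω
    rw [Finset.prod_product, ← Finset.mul_prod_erase W _ hv]
    congr 1
    · rw [Finset.prod_range_succ, clik]
      congr 1
      · refine Finset.prod_congr rfl fun j hj => ?_
        simp only [g]
        rw [if_pos (Finset.mem_range.1 hj)]
        simp
      · simp [g]
    · refine Finset.prod_congr rfl fun w hw => ?_
      have hwv := (Finset.mem_erase.1 hw).1
      rw [Finset.prod_range_succ, lik]
      congr 1
      · refine Finset.prod_congr rfl fun j hj => ?_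
        simp only [g]
        rw [if_pos (Finset.mem_range.1 hj), if_neg hwv]
      · simp [g, hwv]
  simp only [hg]
  rw [labM, integral_prod_infinitePi (fun _ : V × ℕ => (volume : Measure L1)) _ g
    (fun q => by
      simp only [g]
      by_cases hq : q.1 = v
      · simp only [hq, if_true]
        exact measurable_co_int _
      · simp only [hq, if_false]
        exact measurable_fac _ _)]
  rw [Finset.prod_product, ← Finset.mul_prod_erase W _ hv]
  have e1 : ∏ w ∈ W.erase v, ∏ j ∈ Finset.range (k + 1), ∫ x, g (w, j) x = 1 := by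
    refine Finset.prod_eq_one fun w hw => Finset.prod_eq_one fun j _ => ?_
    have hwv := (Finset.mem_erase.1 hw).1
    simp only [g, hwv, if_false]
    exact integral_fac _ _
  rw [e1, mul_one, Finset.prod_range_succ]
  congr 1
  · rw [← Finset.card_range k, ← Finset.prod_const, Finset.card_range]
    refine Finset.prod_congr rfl fun j hj => ?_
    simp only [g]
    rw [if_pos (Finset.mem_range.1 hj)]
    simp only [if_true]
    rfl
  · simp only [g, lt_irrefl, if_false, if_true]
    rfl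

end LawAux

/-- the magnetisation is nearly `±1` after many rounds, uniformly in the window. -/
theorem integral_one_sub_sq_le : ∃ c : ℝ, 0 < c ∧ c < 1 ∧ ∀ (V : Type*) (G : SimpleGraph V)
    (θ : ℝ) (W : Finset V) (k : ℕ) (s : ℝ) (v : V), 0 ≤ θ → θ < 1 → Zw G θ W (fun _ => 0) = 1 →
    0 ≤ s → s ≤ 1 / 2 → v ∈ W →
    ∫ ω, (1 - M G θ W k s v ω ^ 2) ∂(labM V) ≤ c ^ k := by
  classical
  refine ⟨co (1 / 2), co_half_pos, co_half_lt, ?_⟩
  intro V G θ W k s v h0 h1 hZ hs hs' hv
  have hF : Measurable (fun x : V → ℝ => 1 - mg G θ W x v ^ 2) := by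
    have := measurable_mg G θ W v
    fun_prop
  have hFb : ∀ x : V → ℝ, |1 - mg G θ W x v ^ 2| ≤ 1 := by
    intro x
    have h2 := abs_mg_le G h0 h1 W x v
    have h3 := sq_abs (mg G θ W x v)
    rw [abs_le]
    constructor <;> nlinarith [abs_nonneg (mg G θ W x v)]
  have h := law_P G h0 h1 W hZ k hs hs' hF ⟨1, hFb⟩ (fun x y hxy => by rw [mg_congr G W hxy v])
  have e : ∫ ω, (1 - M G θ W k s v ω ^ 2) ∂(labM V) =
      ∫ ω, (1 - mg G θ W (free k s ω) v ^ 2) * Lw G θ W k s ω ∂(labM V) := h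
  rw [e]
  have hint : ∀ A ∈ W.powerset, Integrable (fun ω : Lab V => wt G θ W (fun _ => 0) A *
      (clik k s ω v * ∏ w ∈ W.erase v, lik k s ω w (sp A w))) (labM V) := by
    intro A _
    refine Integrable.const_mul ?_ _
    have hcm : Measurable (fun ω : Lab V => clik k s ω v) := by
      unfold clik
      refine Measurable.mul (Finset.measurable_prod _ fun j _ => ?_) ?_
      · exact (measurable_co_int (1 / 2)).comp (measurable_pi_apply (v, j))
      · exact (measurable_co_int s).comp (measurable_pi_apply (v, k))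
    have hcb : ∀ ω : Lab V, |clik k s ω v| ≤ 1 := by
      intro ω
      rw [abs_of_nonneg (clik_nonneg k s ω v)]
      unfold clik
      refine mul_le_one₀ (Finset.prod_le_one (fun j _ => (co_int_bounds _ _).1)
        fun j _ => (co_int_bounds _ _).2) (co_int_bounds _ _).1 (co_int_bounds _ _).2
    refine integrable_bdd (hcm.mul (Finset.measurable_prod _ fun w _ => measurable_lik k s w _))
      (K := 1 * (2 ^ (k + 1)) ^ (W.erase v).card) fun ω => ?_
    rw [abs_mul]
    refine mul_le_mul (hcb ω) ?_ (abs_nonneg _) zero_le_one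
    rw [Finset.abs_prod]
    refine (Finset.prod_le_prod (fun v _ => abs_nonneg _) fun v _ =>
      abs_lik_le k s ω v (Win_sp_eq A v)).trans ?_
    rw [Finset.prod_const]
  have hle : ∫ ω, (1 - mg G θ W (free k s ω) v ^ 2) * Lw G θ W k s ω ∂(labM V) ≤
      ∫ ω, ∑ A ∈ W.powerset, wt G θ W (fun _ => 0) A *
        (clik k s ω v * ∏ w ∈ W.erase v, lik k s ω w (sp A w)) ∂(labM V) := by
    refine integral_mono ?_ (integrable_finsetSum _ hint) (fun ω => var_le G h0 h1 W k hs' hv ω)
    refine integrable_bdd ((hF.comp (measurable_free k s)).mul (measurable_Lw G θ W k s))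
      (K := 1 * ((2 ^ (k + 1)) ^ W.card * Zw G θ W (fun _ => 0))) fun ω => ?_
    rw [abs_mul]
    exact mul_le_mul (hFb _) (abs_Lw_le G h0 h1 W k s ω) (abs_nonneg _) zero_le_one
  refine hle.trans ?_
  rw [integral_finsetSum _ hint]
  simp only [integral_const_mul, integral_clik_prod W k s hv]
  rw [← Finset.sum_mul]
  have hZ' : ∑ A ∈ W.powerset, wt G θ W (fun _ => 0) A = 1 := hZ
  rw [hZ', one_mul]
  exact mul_le_of_le_one_right (pow_nonneg (co_nonneg _) k) (co_le_one s)

end Crest.Agent.Lib.Row160
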