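import Crest.Agent.Lib.Row160.IsomBase

/-!
Row 160, M4c: pair isometry.
-/

set_option autoImplicit false
set_option linter.unusedVariables false

open MeasureTheory Filter Topology

namespace Crest.Agent.Lib.Row160

noncomputable section

section sys
variable {ι V : Type*} (G : SimpleGraph V)

/-- field at time `t`, general index set. -/
def Isom_f (θ : ℝ) (W : Finset V) (j : V → ι) (x₀ : (ι → L1) → V → ℝ) (t : ℝ) (ω : ι → L1) :
    V → ℝ :=
  fld G θ W (x₀ ω) (fun v => ω (j v)) t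

theorem Isom_f_update [DecidableEq ι] {θ : ℝ} {W : Finset V} {j : V → ι}
    (hj : Function.Injective j) {x₀ : (ι → L1) → V → ℝ}
    (hx : ∀ ω v l, x₀ (Function.update ω (j v) l) = x₀ ω) {t : ℝ} {ω : ι → L1} {u : V} {l : L1}
    (h : t ≤ ((ω (j u)).1 : ℝ)) (h' : t ≤ (l.1 : ℝ)) :
    Isom_f G θ W j x₀ t (Function.update ω (j u) l) = Isom_f G θ W j x₀ t ω := by
  classical
  unfold Isom_f
  rw [hx]
  have h1 : (fun v => Function.update ω (j u) l (j v)) = Function.update (fun v => ω (j v)) u l := by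
    funext v
    by_cases hv : v = u
    · subst hv
      simp
    · rw [Function.update_of_ne hv, Function.update_of_ne (hj.ne hv)]
  rw [h1]
  exact fld_update G θ W (x₀ ω) _ t u l h h'

theorem Isom_step {θ : ℝ} (h0 : 0 ≤ θ) (h1 : θ < 1) {W : Finset V} {j : V → ι}
    (x₀ : (ι → L1) → V → ℝ) (ω : ι → L1) (v o : V) {s : ℝ} (hs : s ≤ 1 / 2)
    (hlt : ((ω (j v)).1 : ℝ) < s)
    (honly : ∀ w ∈ W, ((ω (j v)).1 : ℝ) ≤ ((ω (j w)).1 : ℝ) → ((ω (j w)).1 : ℝ) < s → w = v) :
    mg G θ W (Isom_f G θ W j x₀ s ω) o =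
      mg G θ W (Isom_f G θ W j x₀ ((ω (j v)).1 : ℝ) ω) o +
      cv G θ W (Isom_f G θ W j x₀ ((ω (j v)).1 : ℝ) ω) o v *
        gam ((ω (j v)).1 : ℝ) (mg G θ W (Isom_f G θ W j x₀ ((ω (j v)).1 : ℝ) ω) v)
          (ω (j v)).2 := by
  classical
  by_cases hv : v ∈ W
  · have h2 := fld_step G θ W (x₀ ω) (fun v => ω (j v)) (s := s) (r := ((ω (j v)).1 : ℝ)) hv rfl
      hlt honly
    have hU0 : 0 ≤ ((ω (j v)).1 : ℝ) := (ω (j v)).1.2.1
    have hT := abs_Tq_le hU0 (hlt.le.trans hs)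
      (abs_mg_le G h0 h1 W (fld G θ W (x₀ ω) (fun v => ω (j v)) ((ω (j v)).1 : ℝ)) v) (ω (j v)).2
    have hT' : |Tq ((ω (j v)).1 : ℝ)
      (mg G θ W (fld G θ W (x₀ ω) (fun v => ω (j v)) ((ω (j v)).1 : ℝ)) v) (ω (j v)).2| < 1 := by
      linarith
    have h3 := mg_update G h0 h1 W (fld G θ W (x₀ ω) (fun v => ω (j v)) ((ω (j v)).1 : ℝ)) hv o hT'
    unfold Isom_f
    rw [h2, h3]
    rfl
  · have h2 := fld_const G θ W (x₀ ω) (fun v => ω (j v)) (s := s) (r := ((ω (j v)).1 : ℝ)) hlt.le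
      (fun w hw h => hv (honly w hw h.1 h.2 ▸ hw))
    unfold Isom_f
    rw [h2, cv_eq_zero G h0 h1 W _ o hv, zero_mul, add_zero]

theorem Isom_measurable_f (θ : ℝ) (W : Finset V) (j : V → ι) {x₀ : (ι → L1) → V → ℝ}
    (hx : Measurable x₀) :
    Measurable (fun p : ℝ × (ι → L1) => Isom_f G θ W j x₀ p.1 p.2) := by
  unfold Isom_f
  have h : Measurable (fun ω : ι → L1 => (fun v => ω (j v))) := by
    apply measurable_pi_lambda
    intro v
    exact measurable_pi_apply _
  exact (Process_measurable_fld G θ W).comp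
    (((hx.comp measurable_snd).prodMk (h.comp measurable_snd)).prodMk measurable_fst)

/-- martingale property of one round. -/
theorem Isom_mart [DecidableEq ι] {θ : ℝ} (h0 : 0 ≤ θ) (h1 : θ < 1) (W : Finset V) {j : V → ι}
    (hj : Function.Injective j) {x₀ : (ι → L1) → V → ℝ} (hxm : Measurable x₀)
    (hx : ∀ ω v l, x₀ (Function.update ω (j v) l) = x₀ ω) {c : (ι → L1) → ℝ} (hc : Measurable c)
    {Cc : ℝ} (hcb : ∀ ω, |c ω| ≤ Cc) {r s : ℝ} (hr : 0 ≤ r) (hrs : r ≤ s) (hs : s ≤ 1 / 2)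
    (hcinv : ∀ ω (u : V) (l : L1), r ≤ ((ω (j u)).1 : ℝ) → r ≤ (l.1 : ℝ) →
      c (Function.update ω (j u) l) = c ω) (o : V) :
    ∫ ω, mg G θ W (Isom_f G θ W j x₀ s ω) o * c ω ∂(Isom_mu ι) =
      ∫ ω, mg G θ W (Isom_f G θ W j x₀ r ω) o * c ω ∂(Isom_mu ι) := by
  have hm : Measurable (fun p : ℝ × (ι → L1) => Isom_f G θ W j x₀ p.1 p.2) :=
    Isom_measurable_f G θ W j hxm
  have hCc : 0 ≤ Cc := (abs_nonneg _).trans (hcb (fun _ => Isom_l1))
  have hgam : ∀ (u : V) (t : ℝ) (z : unitInterval) (ω : ι → L1), r ≤ t → t ≤ s →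
      |gam t (mg G θ W (Isom_f G θ W j x₀ t ω) u) z| ≤ 1 := by
    intro u t z ω h2 h3
    have := abs_gam_le (hr.trans h2) (h3.trans hs)
      (abs_mg_le G h0 h1 W (Isom_f G θ W j x₀ t ω) u) z
    linarith
  have hKg : ∀ (u : V) (t : ℝ) (z : unitInterval) (ω : ι → L1), r ≤ t → t ≤ s →
      |cv G θ W (Isom_f G θ W j x₀ t ω) o u *
        gam t (mg G θ W (Isom_f G θ W j x₀ t ω) u) z| ≤ 1 := by
    intro u t z ω h2 h3
    rw [abs_mul]
    have h4 := hgam u t z ω h2 h3
    have h5 := abs_cv_le G h0 h1 W (Isom_f G θ W j x₀ t ω) o u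
    calc _ ≤ 1 * 1 := mul_le_mul h5 h4 (abs_nonneg _) zero_le_one
      _ = 1 := one_mul 1
  have hmz : Measurable (fun p : (ℝ × unitInterval) × (ι → L1) => (p.1.1, p.2)) :=
    (measurable_fst.comp measurable_fst).prodMk measurable_snd
  have hform := Isom_formula j hj W
    (fun t ω => mg G θ W (Isom_f G θ W j x₀ t ω) o * c ω)
    (fun u t z ω => (mg G θ W (Isom_f G θ W j x₀ t ω) o +
      cv G θ W (Isom_f G θ W j x₀ t ω) o u *
        gam t (mg G θ W (Isom_f G θ W j x₀ t ω) u) z) * c ω) (2 * Cc) hr hrs (by linarith)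
    (((Process_measurable_mg G θ W o).comp hm).mul (hc.comp measurable_snd))
    (by
      intro t ω h2 h3
      rw [abs_mul]
      have h4 := abs_mg_le G h0 h1 W (Isom_f G θ W j x₀ t ω) o
      have := hcb ω
      nlinarith [abs_nonneg (c ω)])
    (by
      intro u
      apply Measurable.mul _ (hc.comp measurable_snd)
      apply Measurable.add
      · exact (Process_measurable_mg G θ W o).comp (hm.comp hmz)
      · apply Measurable.mul
        · exact (Process_measurable_cv G θ W o u).comp (hm.comp hmz)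
        · exact measurable_gam.comp (((measurable_fst.comp measurable_fst).prodMk
            ((Process_measurable_mg G θ W u).comp (hm.comp hmz))).prodMk
            (measurable_snd.comp measurable_fst)))
    (by
      intro u t z ω h2 h3
      rw [abs_mul]
      have h4 := abs_mg_le G h0 h1 W (Isom_f G θ W j x₀ t ω) o
      have h5 := hKg u t z ω h2 h3
      have h6 := abs_add_le (mg G θ W (Isom_f G θ W j x₀ t ω) o)
        (cv G θ W (Isom_f G θ W j x₀ t ω) o u *
        gam t (mg G θ W (Isom_f G θ W j x₀ t ω) u) z)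
      have := hcb ω
      exact mul_le_mul (by linarith) this (abs_nonneg _) (by norm_num))
    (by
      intro ω t s' h2 h3 h4 h5
      have h6 : Isom_f G θ W j x₀ s' ω = Isom_f G θ W j x₀ t ω :=
        fld_const G θ W (x₀ ω) (fun v => ω (j v)) h3 h5
      rw [h6])
    (by
      intro ω v hv s' h2 h3 h4 h5
      rw [Isom_step G h0 h1 x₀ ω v o (h4.trans hs) h3 h5])
    (by
      intro u t ω l h2 h3 h4 h5
      rw [Isom_f_update G hj hx h4 h5, hcinv ω u l (h2.trans h4) (h2.trans h5)])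
    (by
      intro u t z ω l h2 h3 h4 h5
      rw [Isom_f_update G hj hx h4 h5, hcinv ω u l (h2.trans h4) (h2.trans h5)])
  rw [hform]
  have hz : ∀ u ∈ W, ∫ t in r..s, ∫ ω, (∫ z,
      ((mg G θ W (Isom_f G θ W j x₀ t (Function.update ω (j u) Isom_l1)) o +
      cv G θ W (Isom_f G θ W j x₀ t (Function.update ω (j u) Isom_l1)) o u *
        gam t (mg G θ W (Isom_f G θ W j x₀ t (Function.update ω (j u) Isom_l1)) u) z) *
          c (Function.update ω (j u) Isom_l1) -
      mg G θ W (Isom_f G θ W j x₀ t (Function.update ω (j u) Isom_l1)) o *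
          c (Function.update ω (j u) Isom_l1))) ∂(Isom_mu ι) = 0 := by
    intro u _
    apply intervalIntegral.integral_zero_ae
    filter_upwards with t ht
    rw [Set.uIoc_of_le hrs] at ht
    rw [integral_eq_zero_of_ae]
    filter_upwards with ω
    generalize Function.update ω (j u) Isom_l1 = ω'
    have h2 : ∀ z : unitInterval, ((mg G θ W (Isom_f G θ W j x₀ t ω') o +
      cv G θ W (Isom_f G θ W j x₀ t ω') o u *
        gam t (mg G θ W (Isom_f G θ W j x₀ t ω') u) z) * c ω' -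
      mg G θ W (Isom_f G θ W j x₀ t ω') o * c ω') =
      (cv G θ W (Isom_f G θ W j x₀ t ω') o u * c ω') *
        gam t (mg G θ W (Isom_f G θ W j x₀ t ω') u) z := by
      intro z
      ring
    simp only [h2]
    rw [integral_const_mul, gam_integral (hr.trans ht.1.le) (ht.2.trans hs)
      (abs_mg_le G h0 h1 W _ u), mul_zero]
    rfl
  rw [Finset.sum_eq_zero hz, add_zero]

/-- the one-visit estimate. -/
theorem Isom_visit {t m m' K K' D : ℝ} (ht : 0 ≤ t) (ht' : t ≤ 1 / 2) (hm : |m| ≤ 1)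
    (hm' : |m'| ≤ 1) :
    0 ≤ ∫ z : unitInterval, ((D + (K * gam t m z - K' * gam t m' z)) ^ 2 - D ^ 2) ∧
    ∫ z : unitInterval, ((D + (K * gam t m z - K' * gam t m' z)) ^ 2 - D ^ 2) ≤
      8 * t ^ 2 * (K - K') ^ 2 + 128 * t ^ 4 * (K' ^ 2 * (m - m') ^ 2) := by
  have hgm : ∀ m : ℝ, Measurable (fun z : unitInterval => gam t m z) := by
    intro m
    exact measurable_gam.comp ((measurable_const.prodMk measurable_const).prodMk measurable_id)
  have hgb : ∀ m : ℝ, |m| ≤ 1 → ∀ z : unitInterval, |gam t m z| ≤ 1 := by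
    intro m hm z
    have := abs_gam_le ht ht' hm z
    linarith
  have hgi : ∀ m : ℝ, |m| ≤ 1 → Integrable (fun z : unitInterval => gam t m z) := by
    intro m hm
    apply Integrable.of_bound (hgm m).aestronglyMeasurable 1
    filter_upwards with z
    exact hgb m hm z
  have hδi : Integrable (fun z : unitInterval => K * gam t m z - K' * gam t m' z) :=
    ((hgi m hm).const_mul K).sub ((hgi m' hm').const_mul K')
  have hδm : Measurable (fun z : unitInterval => K * gam t m z - K' * gam t m' z) :=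
    ((hgm m).const_mul K).sub ((hgm m').const_mul K')
  have hδ2 : Integrable (fun z : unitInterval => (K * gam t m z - K' * gam t m' z) ^ 2) := by
    apply Integrable.of_bound (hδm.pow_const 2).aestronglyMeasurable ((|K| + |K'|) ^ 2)
    filter_upwards with z
    rw [Real.norm_eq_abs, abs_pow]
    apply pow_le_pow_left₀ (abs_nonneg _)
    have h1 := hgb m hm z
    have h2 := hgb m' hm' z
    calc |K * gam t m z - K' * gam t m' z| ≤ |K * gam t m z| + |K' * gam t m' z| := abs_sub _ _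
      _ = |K| * |gam t m z| + |K'| * |gam t m' z| := by rw [abs_mul, abs_mul]
      _ ≤ |K| * 1 + |K'| * 1 := by
        apply add_le_add
        · exact mul_le_mul_of_nonneg_left h1 (abs_nonneg _)
        · exact mul_le_mul_of_nonneg_left h2 (abs_nonneg _)
      _ = |K| + |K'| := by ring
  have e1 : ∀ z : unitInterval, ((D + (K * gam t m z - K' * gam t m' z)) ^ 2 - D ^ 2) =
      (2 * D) * (K * gam t m z - K' * gam t m' z) + (K * gam t m z - K' * gam t m' z) ^ 2 := by
    intro z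
    ring
  have e2 : ∫ z : unitInterval, ((D + (K * gam t m z - K' * gam t m' z)) ^ 2 - D ^ 2) =
      ∫ z : unitInterval, (K * gam t m z - K' * gam t m' z) ^ 2 := by
    simp only [e1]
    rw [integral_add (hδi.const_mul _) hδ2, integral_const_mul,
      integral_sub ((hgi m hm).const_mul K) ((hgi m' hm').const_mul K'), integral_const_mul,
      integral_const_mul, gam_integral ht ht' hm, gam_integral ht ht' hm']
    ring
  rw [e2]
  refine ⟨integral_nonneg (fun z => sq_nonneg _), ?_⟩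
  have hle : ∀ z : unitInterval, (K * gam t m z - K' * gam t m' z) ^ 2 ≤
      8 * t ^ 2 * (K - K') ^ 2 + 128 * t ^ 4 * (K' ^ 2 * (m - m') ^ 2) := by
    intro z
    have h1 := abs_gam_le ht ht' hm z
    have h2 := gam_lip ht ht' hm hm' z
    have h3 : (gam t m z) ^ 2 ≤ (2 * t) ^ 2 := by
      rw [← sq_abs]
      exact pow_le_pow_left₀ (abs_nonneg _) h1 2
    have h4 : (gam t m z - gam t m' z) ^ 2 ≤ (8 * t ^ 2 * |m - m'|) ^ 2 := by
      rw [← sq_abs]
      exact pow_le_pow_left₀ (abs_nonneg _) h2 2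
    have h5 : (8 * t ^ 2 * |m - m'|) ^ 2 = 64 * t ^ 4 * (m - m') ^ 2 := by
      rw [mul_pow, sq_abs]
      ring
    rw [h5] at h4
    have h6 : (K * gam t m z - K' * gam t m' z) ^ 2 ≤
        2 * ((K - K') ^ 2 * (gam t m z) ^ 2) + 2 * (K' ^ 2 * (gam t m z - gam t m' z) ^ 2) := by
      nlinarith [sq_nonneg ((K - K') * gam t m z - K' * (gam t m z - gam t m' z))]
    have h7 := mul_le_mul_of_nonneg_left h3 (sq_nonneg (K - K'))
    have h8 := mul_le_mul_of_nonneg_left h4 (sq_nonneg K')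
    nlinarith
  calc ∫ z : unitInterval, (K * gam t m z - K' * gam t m' z) ^ 2 ≤
      ∫ z : unitInterval, (8 * t ^ 2 * (K - K') ^ 2 + 128 * t ^ 4 * (K' ^ 2 * (m - m') ^ 2)) :=
        integral_mono hδ2 (integrable_const _) hle
    _ = _ := by simp

theorem Isom_general [DecidableEq ι] {θ θ' : ℝ} (h0 : 0 ≤ θ) (h1 : θ < 1) (h0' : 0 ≤ θ')
    (h1' : θ' < 1) (W W' A : Finset V) (hWA : W ⊆ A) (hWA' : W' ⊆ A) {j : V → ι}
    (hj : Function.Injective j) {x₀ x₀' : (ι → L1) → V → ℝ} (hxm : Measurable x₀)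
    (hxm' : Measurable x₀')
    (hx : ∀ ω v l, x₀ (Function.update ω (j v) l) = x₀ ω)
    (hx' : ∀ ω v l, x₀' (Function.update ω (j v) l) = x₀' ω)
    {c : (ι → L1) → ℝ} (hc : Measurable c)
    {Cc : ℝ} (hcb : ∀ ω, |c ω| ≤ Cc) {r s : ℝ} (hr : 0 ≤ r) (hrs : r ≤ s) (hs : s ≤ 1 / 2)
    (hcinv : ∀ ω (u : V) (l : L1), r ≤ ((ω (j u)).1 : ℝ) → r ≤ (l.1 : ℝ) →
      c (Function.update ω (j u) l) = c ω) (o : V) :
    ∫ ω, (mg G θ W (Isom_f G θ W j x₀ s ω) o - mg G θ' W' (Isom_f G θ' W' j x₀' s ω) o - c ω) ^ 2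
      ∂(Isom_mu ι) ≤
    ∫ ω, (mg G θ W (Isom_f G θ W j x₀ r ω) o - mg G θ' W' (Isom_f G θ' W' j x₀' r ω) o - c ω) ^ 2
      ∂(Isom_mu ι) +
    ∫ t in r..s, ∑ u ∈ A,
      (1000 * t ^ 2 * ∫ ω, (cv G θ W (Isom_f G θ W j x₀ t ω) o u -
        cv G θ' W' (Isom_f G θ' W' j x₀' t ω) o u) ^ 2 ∂(Isom_mu ι) +
      1000 * t ^ 4 * ∫ ω, cv G θ' W' (Isom_f G θ' W' j x₀' t ω) o u ^ 2 *
        (mg G θ W (Isom_f G θ W j x₀ t ω) u - mg G θ' W' (Isom_f G θ' W' j x₀' t ω) u) ^ 2
        ∂(Isom_mu ι)) := by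
  have hm : Measurable (fun p : ℝ × (ι → L1) => Isom_f G θ W j x₀ p.1 p.2) :=
    Isom_measurable_f G θ W j hxm
  have hm' : Measurable (fun p : ℝ × (ι → L1) => Isom_f G θ' W' j x₀' p.1 p.2) :=
    Isom_measurable_f G θ' W' j hxm'
  have hCc : 0 ≤ Cc := (abs_nonneg _).trans (hcb (fun _ => Isom_l1))
  -- abbreviations
  set m : ℝ → (ι → L1) → V → ℝ := fun t ω v => mg G θ W (Isom_f G θ W j x₀ t ω) v with hmdef
  set m' : ℝ → (ι → L1) → V → ℝ := fun t ω v => mg G θ' W' (Isom_f G θ' W' j x₀' t ω) v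
    with hmdef'
  set k : ℝ → (ι → L1) → V → ℝ := fun t ω v => cv G θ W (Isom_f G θ W j x₀ t ω) o v with hkdef
  set k' : ℝ → (ι → L1) → V → ℝ := fun t ω v => cv G θ' W' (Isom_f G θ' W' j x₀' t ω) o v
    with hkdef'
  have hmb : ∀ t ω v, |m t ω v| ≤ 1 := fun t ω v => abs_mg_le G h0 h1 W _ v
  have hmb' : ∀ t ω v, |m' t ω v| ≤ 1 := fun t ω v => abs_mg_le G h0' h1' W' _ v
  have hkb : ∀ t ω v, |k t ω v| ≤ 1 := fun t ω v => abs_cv_le G h0 h1 W _ o v
  have hkb' : ∀ t ω v, |k' t ω v| ≤ 1 := fun t ω v => abs_cv_le G h0' h1' W' _ o v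
  have hmm : ∀ v, Measurable (fun p : ℝ × (ι → L1) => m p.1 p.2 v) := fun v =>
    (Process_measurable_mg G θ W v).comp hm
  have hmm' : ∀ v, Measurable (fun p : ℝ × (ι → L1) => m' p.1 p.2 v) := fun v =>
    (Process_measurable_mg G θ' W' v).comp hm'
  have hkm : ∀ v, Measurable (fun p : ℝ × (ι → L1) => k p.1 p.2 v) := fun v =>
    (Process_measurable_cv G θ W o v).comp hm
  have hkm' : ∀ v, Measurable (fun p : ℝ × (ι → L1) => k' p.1 p.2 v) := fun v =>
    (Process_measurable_cv G θ' W' o v).comp hm'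
  have hinv : ∀ (u : V) t ω (l : L1), t ≤ ((ω (j u)).1 : ℝ) → t ≤ (l.1 : ℝ) → ∀ v,
      m t (Function.update ω (j u) l) v = m t ω v := by
    intro u t ω l h2 h3 v
    simp only [hmdef]
    rw [Isom_f_update G hj hx h2 h3]
  have hinv' : ∀ (u : V) t ω (l : L1), t ≤ ((ω (j u)).1 : ℝ) → t ≤ (l.1 : ℝ) → ∀ v,
      m' t (Function.update ω (j u) l) v = m' t ω v := by
    intro u t ω l h2 h3 v
    simp only [hmdef']
    rw [Isom_f_update G hj hx' h2 h3]
  have hinvk : ∀ (u : V) t ω (l : L1), t ≤ ((ω (j u)).1 : ℝ) → t ≤ (l.1 : ℝ) → ∀ v,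
      k t (Function.update ω (j u) l) v = k t ω v := by
    intro u t ω l h2 h3 v
    simp only [hkdef]
    rw [Isom_f_update G hj hx h2 h3]
  have hinvk' : ∀ (u : V) t ω (l : L1), t ≤ ((ω (j u)).1 : ℝ) → t ≤ (l.1 : ℝ) → ∀ v,
      k' t (Function.update ω (j u) l) v = k' t ω v := by
    intro u t ω l h2 h3 v
    simp only [hkdef']
    rw [Isom_f_update G hj hx' h2 h3]
  have hgb : ∀ (t : ℝ) (x : ℝ) (z : unitInterval), r ≤ t → t ≤ s → |x| ≤ 1 → |gam t x z| ≤ 1 := by
    intro t x z h2 h3 hx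
    have := abs_gam_le (hr.trans h2) (h3.trans hs) hx z
    linarith
  have hδb : ∀ (u : V) (t : ℝ) (z : unitInterval) (ω : ι → L1), r ≤ t → t ≤ s →
      |k t ω u * gam t (m t ω u) z - k' t ω u * gam t (m' t ω u) z| ≤ 2 := by
    intro u t z ω h2 h3
    have h4 := hgb t _ z h2 h3 (hmb t ω u)
    have h5 := hgb t _ z h2 h3 (hmb' t ω u)
    calc _ ≤ |k t ω u * gam t (m t ω u) z| + |k' t ω u * gam t (m' t ω u) z| := abs_sub _ _
      _ = |k t ω u| * |gam t (m t ω u) z| + |k' t ω u| * |gam t (m' t ω u) z| := by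
          rw [abs_mul, abs_mul]
      _ ≤ 1 * 1 + 1 * 1 := add_le_add
          (mul_le_mul (hkb t ω u) h4 (abs_nonneg _) zero_le_one)
          (mul_le_mul (hkb' t ω u) h5 (abs_nonneg _) zero_le_one)
      _ = 2 := by norm_num
  have hDb : ∀ t ω, |m t ω o - m' t ω o - c ω| ≤ 2 + Cc := by
    intro t ω
    have h4 := hmb t ω o
    have h5 := hmb' t ω o
    have h6 := hcb ω
    rw [abs_le] at *
    constructor <;> linarith [h4.1, h4.2, h5.1, h5.2, h6.1, h6.2]
  have hmz : Measurable (fun p : (ℝ × unitInterval) × (ι → L1) => (p.1.1, p.2)) :=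
    (measurable_fst.comp measurable_fst).prodMk measurable_snd
  have hform := Isom_formula j hj A
    (fun t ω => (m t ω o - m' t ω o - c ω) ^ 2)
    (fun u t z ω => ((m t ω o - m' t ω o - c ω) +
      (k t ω u * gam t (m t ω u) z - k' t ω u * gam t (m' t ω u) z)) ^ 2)
    ((4 + Cc) ^ 2) hr hrs (by linarith)
    ((((hmm o).sub (hmm' o)).sub (hc.comp measurable_snd)).pow_const 2)
    (by
      intro t ω h2 h3
      rw [abs_pow]
      exact pow_le_pow_left₀ (abs_nonneg _) ((hDb t ω).trans (by linarith)) 2)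
    (by
      intro u
      apply Measurable.pow_const
      apply Measurable.add
      · exact (((hmm o).comp hmz).sub ((hmm' o).comp hmz)).sub (hc.comp measurable_snd)
      · apply Measurable.sub
        · apply Measurable.mul ((hkm u).comp hmz)
          exact measurable_gam.comp (((measurable_fst.comp measurable_fst).prodMk
            ((hmm u).comp hmz)).prodMk (measurable_snd.comp measurable_fst))
        · apply Measurable.mul ((hkm' u).comp hmz)
          exact measurable_gam.comp (((measurable_fst.comp measurable_fst).prodMk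
            ((hmm' u).comp hmz)).prodMk (measurable_snd.comp measurable_fst)))
    (by
      intro u t z ω h2 h3
      rw [abs_pow]
      apply pow_le_pow_left₀ (abs_nonneg _)
      have h4 := hDb t ω
      have h5 := hδb u t z ω h2 h3
      exact (abs_add_le _ _).trans (by linarith))
    (by
      intro ω t s' h2 h3 h4 h5
      have h6 : Isom_f G θ W j x₀ s' ω = Isom_f G θ W j x₀ t ω :=
        fld_const G θ W (x₀ ω) (fun v => ω (j v)) h3 (fun w hw => h5 w (hWA hw))
      have h7 : Isom_f G θ' W' j x₀' s' ω = Isom_f G θ' W' j x₀' t ω :=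
        fld_const G θ' W' (x₀' ω) (fun v => ω (j v)) h3 (fun w hw => h5 w (hWA' hw))
      simp only [hmdef, hmdef']
      rw [h6, h7])
    (by
      intro ω v hv s' h2 h3 h4 h5
      have h6 := Isom_step G h0 h1 x₀ ω v o (h4.trans hs) h3 (fun w hw => h5 w (hWA hw))
      have h7 := Isom_step G h0' h1' x₀' ω v o (h4.trans hs) h3 (fun w hw => h5 w (hWA' hw))
      simp only [hmdef, hmdef', hkdef, hkdef']
      rw [h6, h7]
      congr 1
      ring)
    (by
      intro u t ω l h2 h3 h4 h5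
      rw [hinv u t ω l h4 h5, hinv' u t ω l h4 h5, hcinv ω u l (h2.trans h4) (h2.trans h5)])
    (by
      intro u t z ω l h2 h3 h4 h5
      rw [hinv u t ω l h4 h5, hinv' u t ω l h4 h5, hinv u t ω l h4 h5, hinv' u t ω l h4 h5,
        hinvk u t ω l h4 h5, hinvk' u t ω l h4 h5, hcinv ω u l (h2.trans h4) (h2.trans h5)])
  rw [hform]
  -- the bound for each vertex
  set g : V → ℝ → ℝ := fun u t =>
    (1000 * t ^ 2 * ∫ ω, (k t ω u - k' t ω u) ^ 2 ∂(Isom_mu ι) +
      1000 * t ^ 4 * ∫ ω, k' t ω u ^ 2 * (m t ω u - m' t ω u) ^ 2 ∂(Isom_mu ι)) with hg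
  have hq1b : ∀ u t ω, (k t ω u - k' t ω u) ^ 2 ≤ 4 := by
    intro u t ω
    have h4 := abs_le.1 (hkb t ω u)
    have h5 := abs_le.1 (hkb' t ω u)
    have : |k t ω u - k' t ω u| ≤ 2 := by
      rw [abs_le]; constructor <;> linarith [h4.1, h4.2, h5.1, h5.2]
    calc (k t ω u - k' t ω u) ^ 2 = |k t ω u - k' t ω u| ^ 2 := (sq_abs _).symm
      _ ≤ 2 ^ 2 := pow_le_pow_left₀ (abs_nonneg _) this 2
      _ = 4 := by norm_num
  have hq2b : ∀ u t ω, k' t ω u ^ 2 * (m t ω u - m' t ω u) ^ 2 ≤ 4 := by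
    intro u t ω
    have h4 := abs_le.1 (hmb t ω u)
    have h5 := abs_le.1 (hmb' t ω u)
    have h6 : |m t ω u - m' t ω u| ≤ 2 := by
      rw [abs_le]; constructor <;> linarith [h4.1, h4.2, h5.1, h5.2]
    have h7 : (m t ω u - m' t ω u) ^ 2 ≤ 4 := by
      calc (m t ω u - m' t ω u) ^ 2 = |m t ω u - m' t ω u| ^ 2 := (sq_abs _).symm
        _ ≤ 2 ^ 2 := pow_le_pow_left₀ (abs_nonneg _) h6 2
        _ = 4 := by norm_num
    have h8 : k' t ω u ^ 2 ≤ 1 := by
      calc k' t ω u ^ 2 = |k' t ω u| ^ 2 := (sq_abs _).symm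
        _ ≤ 1 ^ 2 := pow_le_pow_left₀ (abs_nonneg _) (hkb' t ω u) 2
        _ = 1 := by norm_num
    calc _ ≤ 1 * 4 := mul_le_mul h8 h7 (sq_nonneg _) zero_le_one
      _ = 4 := by norm_num
  have hq1m : ∀ u, Measurable (fun p : ℝ × (ι → L1) => (k p.1 p.2 u - k' p.1 p.2 u) ^ 2) :=
    fun u => ((hkm u).sub (hkm' u)).pow_const 2
  have hq2m : ∀ u, Measurable (fun p : ℝ × (ι → L1) =>
      k' p.1 p.2 u ^ 2 * (m p.1 p.2 u - m' p.1 p.2 u) ^ 2) :=
    fun u => ((hkm' u).pow_const 2).mul (((hmm u).sub (hmm' u)).pow_const 2)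
  have hi1 : ∀ u t, Integrable (fun ω => (k t ω u - k' t ω u) ^ 2) (Isom_mu ι) := by
    intro u t
    apply Integrable.of_bound
      ((hq1m u).comp (measurable_const.prodMk measurable_id)).aestronglyMeasurable 4
    filter_upwards with ω
    simp only [Function.comp_def, id]
    rw [Real.norm_eq_abs, abs_of_nonneg (sq_nonneg _)]
    exact hq1b u t ω
  have hi2 : ∀ u t, Integrable (fun ω => k' t ω u ^ 2 * (m t ω u - m' t ω u) ^ 2)
      (Isom_mu ι) := by
    intro u t
    apply Integrable.of_bound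
      ((hq2m u).comp (measurable_const.prodMk measurable_id)).aestronglyMeasurable 4
    filter_upwards with ω
    simp only [Function.comp_def, id]
    rw [Real.norm_eq_abs, abs_of_nonneg (by positivity)]
    exact hq2b u t ω
  have hsm1 : ∀ u, StronglyMeasurable (fun t => ∫ ω, (k t ω u - k' t ω u) ^ 2 ∂(Isom_mu ι)) :=
    fun u => (hq1m u).stronglyMeasurable.integral_prod_right
  have hsm2 : ∀ u, StronglyMeasurable (fun t =>
      ∫ ω, k' t ω u ^ 2 * (m t ω u - m' t ω u) ^ 2 ∂(Isom_mu ι)) :=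
    fun u => (hq2m u).stronglyMeasurable.integral_prod_right
  have hgm : ∀ u, Measurable (g u) := by
    intro u
    simp only [hg]
    exact (((measurable_id.pow_const 2).const_mul 1000).mul (hsm1 u).measurable).add
      (((measurable_id.pow_const 4).const_mul 1000).mul (hsm2 u).measurable)
  have hgi : ∀ u, IntervalIntegrable (g u) volume r s := by
    intro u
    rw [intervalIntegrable_iff_integrableOn_Ioc_of_le hrs]
    apply Measure.integrableOn_of_bounded (M := 8000) (by simp) (hgm u).aestronglyMeasurable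
    rw [ae_restrict_iff' measurableSet_Ioc]
    filter_upwards with t ht
    have ht0 : 0 ≤ t := hr.trans ht.1.le
    have ht1 : t ≤ 1 := by linarith [ht.2]
    have e1 : ∫ ω, (k t ω u - k' t ω u) ^ 2 ∂(Isom_mu ι) ≤ 4 := by
      calc _ ≤ ∫ ω, (4 : ℝ) ∂(Isom_mu ι) := integral_mono (hi1 u t) (integrable_const _) (hq1b u t)
        _ = 4 := by simp
    have e2 : ∫ ω, k' t ω u ^ 2 * (m t ω u - m' t ω u) ^ 2 ∂(Isom_mu ι) ≤ 4 := by
      calc _ ≤ ∫ ω, (4 : ℝ) ∂(Isom_mu ι) := integral_mono (hi2 u t) (integrable_const _) (hq2b u t)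
        _ = 4 := by simp
    have e3 : 0 ≤ ∫ ω, (k t ω u - k' t ω u) ^ 2 ∂(Isom_mu ι) :=
      integral_nonneg (fun ω => sq_nonneg _)
    have e4 : 0 ≤ ∫ ω, k' t ω u ^ 2 * (m t ω u - m' t ω u) ^ 2 ∂(Isom_mu ι) :=
      integral_nonneg (fun ω => by positivity)
    have e5 : t ^ 2 ≤ 1 := pow_le_one₀ ht0 ht1
    have e6 : t ^ 4 ≤ 1 := pow_le_one₀ ht0 ht1
    simp only [hg]
    rw [Real.norm_eq_abs, abs_of_nonneg (by positivity)]
    have e7 := mul_le_mul e5 e1 e3 zero_le_one
    have e8 := mul_le_mul e6 e2 e4 zero_le_one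
    linarith
  have hmono : ∀ u ∈ A, (∫ t in r..s, ∫ ω, (∫ z : unitInterval,
      (((m t (Function.update ω (j u) Isom_l1) o - m' t (Function.update ω (j u) Isom_l1) o -
        c (Function.update ω (j u) Isom_l1)) +
      (k t (Function.update ω (j u) Isom_l1) u *
        gam t (m t (Function.update ω (j u) Isom_l1) u) z -
        k' t (Function.update ω (j u) Isom_l1) u *
        gam t (m' t (Function.update ω (j u) Isom_l1) u) z)) ^ 2 -
      (m t (Function.update ω (j u) Isom_l1) o - m' t (Function.update ω (j u) Isom_l1) o -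
        c (Function.update ω (j u) Isom_l1)) ^ 2)) ∂(Isom_mu ι)) ≤ ∫ t in r..s, g u t := by
    intro u _
    rw [intervalIntegral.integral_of_le hrs, intervalIntegral.integral_of_le hrs]
    apply integral_mono_of_nonneg
    · rw [EventuallyLE, ae_restrict_iff' measurableSet_Ioc]
      filter_upwards with t ht
      apply integral_nonneg
      intro ω
      exact (Isom_visit (hr.trans ht.1.le) (ht.2.trans hs) (hmb t _ u) (hmb' t _ u)).1
    · exact (intervalIntegrable_iff_integrableOn_Ioc_of_le hrs).1 (hgi u)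
    · rw [EventuallyLE, ae_restrict_iff' measurableSet_Ioc]
      filter_upwards with t ht
      have ht0 : 0 ≤ t := hr.trans ht.1.le
      have ht1 : t ≤ 1 / 2 := ht.2.trans hs
      -- Ψ
      set Ψ : (ι → L1) → ℝ := fun ω => 8 * t ^ 2 * (k t ω u - k' t ω u) ^ 2 +
        128 * t ^ 4 * (k' t ω u ^ 2 * (m t ω u - m' t ω u) ^ 2) with hΨ
      have hΨm : Measurable Ψ :=
        (((hq1m u).comp (measurable_const.prodMk measurable_id)).const_mul _).add
          (((hq2m u).comp (measurable_const.prodMk measurable_id)).const_mul _)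
      have hΨ0 : ∀ ω, 0 ≤ Ψ ω := by
        intro ω
        simp only [hΨ]
        positivity
      have hΨb : ∀ ω, Ψ ω ≤ 8 * t ^ 2 * 4 + 128 * t ^ 4 * 4 := by
        intro ω
        simp only [hΨ]
        apply add_le_add
        · exact mul_le_mul_of_nonneg_left (hq1b u t ω) (by positivity)
        · exact mul_le_mul_of_nonneg_left (hq2b u t ω) (by positivity)
      have hres := Isom_resample (j u) ht0 ht1 Ψ hΨm hΨ0 hΨb (by
        intro ω l h2 h3
        simp only [hΨ]
        rw [hinv u t ω l h2 h3, hinv' u t ω l h2 h3, hinvk u t ω l h2 h3, hinvk' u t ω l h2 h3])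
      have hmu : Measurable (fun ω : ι → L1 => Function.update ω (j u) Isom_l1) :=
        (Isom_measurable_update (j u)).comp (measurable_id.prodMk measurable_const)
      have hint : Integrable (fun ω => Ψ (Function.update ω (j u) Isom_l1)) (Isom_mu ι) := by
        apply Integrable.of_bound (hΨm.comp hmu).aestronglyMeasurable
          (8 * t ^ 2 * 4 + 128 * t ^ 4 * 4)
        filter_upwards with ω
        rw [Real.norm_eq_abs, Function.comp_def, abs_of_nonneg (hΨ0 _)]
        exact hΨb _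
      have hle1 : ∫ ω, (∫ z : unitInterval,
          (((m t (Function.update ω (j u) Isom_l1) o - m' t (Function.update ω (j u) Isom_l1) o -
            c (Function.update ω (j u) Isom_l1)) +
          (k t (Function.update ω (j u) Isom_l1) u *
            gam t (m t (Function.update ω (j u) Isom_l1) u) z -
            k' t (Function.update ω (j u) Isom_l1) u *
            gam t (m' t (Function.update ω (j u) Isom_l1) u) z)) ^ 2 -
          (m t (Function.update ω (j u) Isom_l1) o - m' t (Function.update ω (j u) Isom_l1) o -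
            c (Function.update ω (j u) Isom_l1)) ^ 2)) ∂(Isom_mu ι) ≤
          ∫ ω, Ψ (Function.update ω (j u) Isom_l1) ∂(Isom_mu ι) := by
        apply integral_mono_of_nonneg
        · filter_upwards with ω
          exact (Isom_visit ht0 ht1 (hmb t _ u) (hmb' t _ u)).1
        · exact hint
        · filter_upwards with ω
          exact (Isom_visit ht0 ht1 (hmb t _ u) (hmb' t _ u)).2
      have hΨi : ∫ ω, Ψ ω ∂(Isom_mu ι) = 8 * t ^ 2 * ∫ ω, (k t ω u - k' t ω u) ^ 2 ∂(Isom_mu ι) +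
          128 * t ^ 4 * ∫ ω, k' t ω u ^ 2 * (m t ω u - m' t ω u) ^ 2 ∂(Isom_mu ι) := by
        simp only [hΨ]
        rw [integral_add ((hi1 u t).const_mul _) ((hi2 u t).const_mul _), integral_const_mul,
          integral_const_mul]
      have e3 : 0 ≤ ∫ ω, (k t ω u - k' t ω u) ^ 2 ∂(Isom_mu ι) :=
        integral_nonneg (fun ω => sq_nonneg _)
      have e4 : 0 ≤ ∫ ω, k' t ω u ^ 2 * (m t ω u - m' t ω u) ^ 2 ∂(Isom_mu ι) :=
        integral_nonneg (fun ω => by positivity)
      refine (hle1.trans hres).trans ?_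
      rw [hΨi]
      simp only [hg]
      have e5 : 0 ≤ t ^ 2 * ∫ ω, (k t ω u - k' t ω u) ^ 2 ∂(Isom_mu ι) := by positivity
      have e6 : 0 ≤ t ^ 4 * ∫ ω, k' t ω u ^ 2 * (m t ω u - m' t ω u) ^ 2 ∂(Isom_mu ι) := by
        positivity
      nlinarith
  have hfin : ∑ u ∈ A, ∫ t in r..s, g u t = ∫ t in r..s, ∑ u ∈ A, g u t :=
    (intervalIntegral.integral_finsetSum (fun u _ => hgi u)).symm
  calc _ ≤ ∫ ω, (m r ω o - m' r ω o - c ω) ^ 2 ∂(Isom_mu ι) + ∑ u ∈ A, ∫ t in r..s, g u t := by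
        gcongr with u hu
        exact hmono u hu
    _ = _ := by rw [hfin]

end sys

section M4c
variable {V : Type*} (G : SimpleGraph V)

theorem Isom_X_eq (θ : ℝ) (W : Finset V) (k : ℕ) {ω ω' : Lab V}
    (h : ∀ v, ∀ i < k, ω (v, i) = ω' (v, i)) : X G θ W ω k = X G θ W ω' k := by
  induction k with
  | zero => rfl
  | succ k ih =>
    simp only [X]
    have h2 : rnd k ω = rnd k ω' := by
      funext v
      exact h v k (by omega)
    rw [ih (fun v i hi => h v i (by omega)), h2]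

theorem Isom_j_injective (k : ℕ) : Function.Injective (fun v : V => (v, k)) :=
  fun _ _ h => (Prod.mk.inj h).1

theorem Isom_X_update [DecidableEq (V × ℕ)] (θ : ℝ) (W : Finset V) (k : ℕ) (ω : Lab V) (v : V)
    (l : L1) : X G θ W (Function.update ω (v, k) l) k = X G θ W ω k := by
  apply Isom_X_eq
  intro w i hi
  rw [Function.update_of_ne]
  intro h
  have := (Prod.mk.inj h).2
  omega

open Classical in
theorem pair_isometry {θ θ' : ℝ} (h0 : 0 ≤ θ) (h1 : θ < 1) (h0' : 0 ≤ θ') (h1' : θ' < 1)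
    (W W' : Finset V) (k : ℕ) {s : ℝ} (hs : 0 ≤ s) (hs' : s ≤ 1 / 2) (o : V) :
    ∫ ω, (M G θ W k s o ω - M G θ' W' k s o ω) ^ 2 ∂(labM V) ≤
      ∫ ω, (M G θ W k 0 o ω - M G θ' W' k 0 o ω) ^ 2 ∂(labM V) +
      ∫ r in (0 : ℝ)..s, ∑ u ∈ W ∪ W',
        (1000 * r ^ 2 * ∫ ω, (K G θ W k r o u ω - K G θ' W' k r o u ω) ^ 2 ∂(labM V) +
        1000 * r ^ 4 * ∫ ω, K G θ' W' k r o u ω ^ 2 *
          (M G θ W k r u ω - M G θ' W' k r u ω) ^ 2 ∂(labM V)) := by
  have h := Isom_general (ι := V × ℕ) G h0 h1 h0' h1' W W' (W ∪ W') Finset.subset_union_left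
    Finset.subset_union_right (Isom_j_injective k) (Process_measurable_X G θ W k)
    (Process_measurable_X G θ' W' k) (fun ω v l => Isom_X_update G θ W k ω v l)
    (fun ω v l => Isom_X_update G θ' W' k ω v l) (c := fun _ => 0) measurable_const
    (Cc := 0) (fun _ => by simp) le_rfl hs hs' (fun _ _ _ _ _ => rfl) o
  simp only [sub_zero] at h
  exact h

open Classical in
/-- the isometry between two times, for a pair. -/
theorem pair_isometry' {θ θ' : ℝ} (h0 : 0 ≤ θ) (h1 : θ < 1) (h0' : 0 ≤ θ') (h1' : θ' < 1)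
    (W W' : Finset V) (k : ℕ) {r s : ℝ} (hr : 0 ≤ r) (hrs : r ≤ s) (hs' : s ≤ 1 / 2) (o : V) :
    ∫ ω, (M G θ W k s o ω - M G θ' W' k s o ω) ^ 2 ∂(labM V) ≤
      ∫ ω, (M G θ W k r o ω - M G θ' W' k r o ω) ^ 2 ∂(labM V) +
      ∫ t in r..s, ∑ u ∈ W ∪ W',
        (1000 * t ^ 2 * ∫ ω, (K G θ W k t o u ω - K G θ' W' k t o u ω) ^ 2 ∂(labM V) +
        1000 * t ^ 4 * ∫ ω, K G θ' W' k t o u ω ^ 2 *
          (M G θ W k t u ω - M G θ' W' k t u ω) ^ 2 ∂(labM V)) := by
  have h := Isom_general (ι := V × ℕ) G h0 h1 h0' h1' W W' (W ∪ W') Finset.subset_union_left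
    Finset.subset_union_right (Isom_j_injective k) (Process_measurable_X G θ W k)
    (Process_measurable_X G θ' W' k) (fun ω v l => Isom_X_update G θ W k ω v l)
    (fun ω v l => Isom_X_update G θ' W' k ω v l) (c := fun _ => 0) measurable_const
    (Cc := 0) (fun _ => by simp) hr hrs hs' (fun _ _ _ _ _ => rfl) o
  simp only [sub_zero] at h
  exact h

open Classical in
/-- the field at time `t` of round `k` does not depend on later labels of that round. -/
theorem Isom_P_update (θ : ℝ) (W : Finset V) (k : ℕ) {t : ℝ} {ω : Lab V} {u : V} {l : L1}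
    (h : t ≤ ((ω (u, k)).1 : ℝ)) (h' : t ≤ (l.1 : ℝ)) :
    P G θ W k t (Function.update ω (u, k) l) = P G θ W k t ω :=
  Isom_f_update (ι := V × ℕ) G (θ := θ) (W := W) (j := fun v => (v, k)) (Isom_j_injective k)
    (x₀ := fun ω => X G θ W ω k) (fun ω v l => Isom_X_update G θ W k ω v l) h h'

open Classical in
theorem self_isometry {θ : ℝ} (h0 : 0 ≤ θ) (h1 : θ < 1)
    (W : Finset V) (k : ℕ) {r s : ℝ} (hr : 0 ≤ r) (hrs : r ≤ s) (hs' : s ≤ 1 / 2) (o : V) :
    ∫ ω, (M G θ W k s o ω - M G θ W k r o ω) ^ 2 ∂(labM V) ≤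
      ∫ t in r..s, ∑ u ∈ W, (1000 * t ^ 2 * ∫ ω, K G θ W k t o u ω ^ 2 ∂(labM V)) := by
  have hcm : Measurable (fun ω : Lab V => M G θ W k r o ω - M G θ ∅ k r o ω) :=
    ((measurable_M G h0 h1 W k o).comp (measurable_const.prodMk measurable_id)).sub
      ((measurable_M G h0 h1 ∅ k o).comp (measurable_const.prodMk measurable_id))
  have h := Isom_general (ι := V × ℕ) G h0 h1 h0 h1 W ∅ W (Finset.Subset.refl W)
    (Finset.empty_subset W) (Isom_j_injective k) (Process_measurable_X G θ W k)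
    (Process_measurable_X G θ ∅ k) (fun ω v l => Isom_X_update G θ W k ω v l)
    (fun ω v l => Isom_X_update G θ ∅ k ω v l)
    (c := fun ω => M G θ W k r o ω - M G θ ∅ k r o ω) hcm
    (Cc := 2) (fun ω => by
      have h4 := abs_le.1 (abs_mg_le G h0 h1 W (P G θ W k r ω) o)
      have h5 := abs_le.1 (abs_mg_le G h0 h1 ∅ (P G θ ∅ k r ω) o)
      simp only [M]
      rw [abs_le]; constructor <;> linarith [h4.1, h4.2, h5.1, h5.2]) hr hrs hs'
    (fun ω u l h2 h3 => by
      simp only [M]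
      rw [Isom_P_update G θ W k h2 h3, Isom_P_update G θ ∅ k h2 h3]) o
  have e0 : ∀ t (ω : Lab V), mg G θ ∅ (Isom_f G θ ∅ (fun v => (v, k)) (fun ω => X G θ ∅ ω k) t ω) o
      = M G θ ∅ k r o ω := by
    intro t ω
    simp only [M]
    apply mg_congr
    intro v hv
    exact absurd hv (Finset.notMem_empty v)
  have e1 : ∀ t (ω : Lab V) u,
      cv G θ ∅ (Isom_f G θ ∅ (fun v => (v, k)) (fun ω => X G θ ∅ ω k) t ω) o u = 0 := by
    intro t ω u
    exact cv_eq_zero G h0 h1 ∅ _ o (Finset.notMem_empty u)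
  have e2 : ∀ t (ω : Lab V) v,
      mg G θ W (Isom_f G θ W (fun v => (v, k)) (fun ω => X G θ W ω k) t ω) v = M G θ W k t v ω :=
    fun _ _ _ => rfl
  have e3 : ∀ t (ω : Lab V) u,
      cv G θ W (Isom_f G θ W (fun v => (v, k)) (fun ω => X G θ W ω k) t ω) o u
        = K G θ W k t o u ω := fun _ _ _ => rfl
  simp only [e0, e1, e2, e3] at h
  have e4 : ∀ ω : Lab V, (M G θ W k s o ω - M G θ ∅ k r o ω -
      (M G θ W k r o ω - M G θ ∅ k r o ω)) ^ 2 = (M G θ W k s o ω - M G θ W k r o ω) ^ 2 := by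
    intro ω; ring
  have e5 : ∀ ω : Lab V, (M G θ W k r o ω - M G θ ∅ k r o ω -
      (M G θ W k r o ω - M G θ ∅ k r o ω)) ^ 2 = 0 := by
    intro ω; ring
  simp only [e4, e5, integral_zero, zero_add, sub_zero, ne_eq, OfNat.ofNat_ne_zero,
    not_false_eq_true, zero_pow, zero_mul, mul_zero, add_zero] at h
  exact h

/-- martingale property of one round. -/
theorem round_mean {θ : ℝ} (h0 : 0 ≤ θ) (h1 : θ < 1) (W : Finset V) (x₀ : V → ℝ) {s : ℝ}
    (hs : 0 ≤ s) (hs' : s ≤ 1 / 2) (v : V) :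
    ∫ ω : V → L1, mg G θ W (fld G θ W x₀ ω s) v
      ∂(Measure.infinitePi (fun _ : V => (volume : Measure L1))) = mg G θ W x₀ v := by
  classical
  have h := Isom_mart (ι := V) G h0 h1 W (j := fun v => v) (fun _ _ h => h)
    (x₀ := fun _ => x₀) measurable_const (fun _ _ _ => rfl) (c := fun _ => 1) measurable_const
    (Cc := 1) (fun _ => by simp) le_rfl hs hs' (fun _ _ _ _ _ => rfl) v
  simp only [mul_one] at h
  have e1 : ∀ ω : V → L1, Isom_f G θ W (fun v => v) (fun _ => x₀) 0 ω = x₀ :=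
    fun ω => fld_zero G θ W x₀ _ le_rfl
  simp only [e1] at h
  rw [integral_const] at h
  simp at h
  exact h

open Classical in
/-- martingale property inside one round of the full process, tested against a function of the
past. -/
theorem M_mart {θ : ℝ} (h0 : 0 ≤ θ) (h1 : θ < 1) (W : Finset V) (k : ℕ) {c : Lab V → ℝ}
    (hc : Measurable c) {Cc : ℝ} (hcb : ∀ ω, |c ω| ≤ Cc) {r s : ℝ} (hr : 0 ≤ r) (hrs : r ≤ s)
    (hs : s ≤ 1 / 2)
    (hcinv : ∀ (ω : Lab V) (u : V) (l : L1), r ≤ ((ω (u, k)).1 : ℝ) → r ≤ (l.1 : ℝ) →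
      c (Function.update ω (u, k) l) = c ω) (o : V) :
    ∫ ω, M G θ W k s o ω * c ω ∂(labM V) = ∫ ω, M G θ W k r o ω * c ω ∂(labM V) :=
  Isom_mart (ι := V × ℕ) G h0 h1 W (Isom_j_injective k) (Process_measurable_X G θ W k)
    (fun ω v l => Isom_X_update G θ W k ω v l) hc hcb hr hrs hs hcinv o

end M4c

end

end Crest.Agent.Lib.Row160
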