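import Crest.Agent.Lib.Row160.TreeAut0

/-!
M6b: regular trees: rays, spheres, sphere sums.
-/

set_option autoImplicit false

namespace Crest.Agent.Lib.Row160

open SimpleGraph

section tree

variable {V : Type*} {G : SimpleGraph V} [G.LocallyFinite] {d : ℕ}

omit [G.LocallyFinite] in
private lemma ta_isGeo_of_dist {p : ℕ → V} (hadj : ∀ i, G.Adj (p i) (p (i + 1)))
    (hdist : ∀ i, G.dist (p 0) (p i) = i) (k : ℕ) : IsGeo G k p := by
  refine ⟨fun i _ => hadj i, fun i _ h => ?_⟩
  have h1 := hdist i
  have h2 := hdist (i + 2)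
  rw [← h, h1] at h2
  omega

private lemma ta_children_nonempty (hT : G.IsTree) (hd : 3 ≤ d) (hreg : G.IsRegularOfDegree d)
    (o v : V) : (children G o v).Nonempty := by
  apply Set.nonempty_of_ncard_ne_zero
  by_cases h : v = o
  · subst h
    rw [ncard_children_root hreg]
    omega
  · rw [ncard_children hT hreg h]
    omega

/-- a geodesic can be extended to an infinite one. -/
theorem exists_ray_extend (hT : G.IsTree) (hd : 3 ≤ d) (hreg : G.IsRegularOfDegree d) {k : ℕ}
    {p : ℕ → V} (hp : IsGeo G k p) : ∃ p' : ℕ → V, (∀ i ≤ k, p' i = p i) ∧ ∀ k, IsGeo G k p' := by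
  classical
  choose c hc using fun v => ta_children_nonempty hT hd hreg (p 0) v
  let p' : ℕ → V := fun i => Nat.rec (p 0) (fun j q => if j + 1 ≤ k then p (j + 1) else c q) i
  have h0 : p' 0 = p 0 := rfl
  have hs : ∀ j, p' (j + 1) = if j + 1 ≤ k then p (j + 1) else c (p' j) := fun j => rfl
  have hle : ∀ i ≤ k, p' i = p i := by
    intro i hi
    cases i with
    | zero => rfl
    | succ j => rw [hs, if_pos hi]
  have hdist : ∀ i, G.dist (p' 0) (p' i) = i ∧ G.Adj (p' i) (p' (i + 1)) := by
    have hD : ∀ i, G.dist (p' 0) (p' i) = i := by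
      intro i
      induction i with
      | zero => simp
      | succ j ih =>
        by_cases hj : j + 1 ≤ k
        · rw [h0, hle _ hj]
          exact hp.dist_zero hT _ hj
        · rw [hs, if_neg hj]
          have := (hc (p' j)).2
          rw [h0] at ih ⊢
          rw [this, ih]
    intro i
    refine ⟨hD i, ?_⟩
    by_cases hj : i + 1 ≤ k
    · rw [hle _ hj, hle _ (by omega)]
      exact hp.1 i (by omega)
    · rw [hs, if_neg hj]
      exact (hc (p' i)).1
  exact ⟨p', hle, ta_isGeo_of_dist (fun i => (hdist i).2) (fun i => (hdist i).1)⟩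

theorem exists_ray (hT : G.IsTree) (hd : 3 ≤ d) (hreg : G.IsRegularOfDegree d) (v : V) :
    ∃ p : ℕ → V, p 0 = v ∧ ∀ k, IsGeo G k p := by
  obtain ⟨p', h1, h2⟩ := exists_ray_extend hT hd hreg (k := 0) (p := fun _ => v)
    ⟨fun i hi => absurd hi (Nat.not_lt_zero _), fun i hi => absurd hi (by omega)⟩
  exact ⟨p', h1 0 le_rfl, h2⟩

omit [G.LocallyFinite] in
private lemma ta_sphere_zero (hT : G.IsTree) (v : V) : {w | G.dist v w = 0} = {v} := by
  ext w
  simp only [Set.mem_ofPred_eq, Set.mem_singleton_iff]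
  constructor
  · intro h
    exact ((hT.connected.dist_eq_zero_iff).1 h).symm
  · rintro rfl
    simp

omit [G.LocallyFinite] in
private lemma ta_sphere_succ (hT : G.IsTree) (v : V) (k : ℕ) :
    {w | G.dist v w = k + 1} = ⋃ u ∈ {u | G.dist v u = k}, children G v u := by
  ext w
  simp only [Set.mem_ofPred_eq, Set.mem_iUnion, exists_prop]
  constructor
  · intro h
    have hne : w ≠ v := by
      rintro rfl
      simp at h
    refine ⟨par G v w, ?_, mem_children_par hT hne⟩
    have := (par_spec hT v hne).2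
    omega
  · rintro ⟨u, hu, hw⟩
    rw [hw.2, hu]

theorem finite_sphere (hT : G.IsTree) (v : V) (k : ℕ) : {w | G.dist v w = k}.Finite := by
  induction k with
  | zero => rw [ta_sphere_zero hT]; exact Set.finite_singleton v
  | succ k ih =>
    rw [ta_sphere_succ hT]
    exact ih.biUnion (fun u _ => children_finite v u)

private lemma ta_ncard_biUnion {α β : Type*} {s : Set α} (hs : s.Finite) {f : α → Set β}
    (hf : ∀ a ∈ s, (f a).Finite) (hdisj : ∀ a ∈ s, ∀ b ∈ s, a ≠ b → Disjoint (f a) (f b))
    {c : ℕ} (hc : ∀ a ∈ s, (f a).ncard = c) :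
    (⋃ a ∈ s, f a).ncard = s.ncard * c := by
  classical
  induction s, hs using Set.Finite.induction_on with
  | empty => simp
  | @insert a s ha hs ih =>
    have h1 : (f a).Finite := hf a (Set.mem_insert _ _)
    have h2 : (⋃ x ∈ s, f x).Finite := hs.biUnion (fun b hb => hf b (Set.mem_insert_of_mem _ hb))
    have h3 : Disjoint (f a) (⋃ x ∈ s, f x) := by
      rw [Set.disjoint_iUnion₂_right]
      intro b hb
      exact hdisj a (Set.mem_insert _ _) b (Set.mem_insert_of_mem _ hb)
        (fun h => ha (h ▸ hb))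
    rw [Set.biUnion_insert, Set.ncard_union_eq h3 h1 h2, Set.ncard_insert_of_notMem ha hs,
      ih (fun b hb => hf b (Set.mem_insert_of_mem _ hb))
        (fun b hb b' hb' => hdisj b (Set.mem_insert_of_mem _ hb) b' (Set.mem_insert_of_mem _ hb'))
        (fun b hb => hc b (Set.mem_insert_of_mem _ hb)),
      hc a (Set.mem_insert _ _)]
    ring

omit [G.LocallyFinite] in
private lemma ta_children_disjoint (hT : G.IsTree) (o : V) {u u' : V} (h : u ≠ u') :
    Disjoint (children G o u) (children G o u') := by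
  rw [Set.disjoint_left]
  intro w hw hw'
  apply h
  rw [← par_of_mem_children hT hw, ← par_of_mem_children hT hw']

theorem card_sphere (hT : G.IsTree) (hd : 3 ≤ d) (hreg : G.IsRegularOfDegree d) (v : V) (k : ℕ) :
    {w | G.dist v w = k + 1}.ncard = d * (d - 1) ^ k := by
  induction k with
  | zero =>
    rw [ta_sphere_succ hT, ta_sphere_zero hT]
    simp only [Set.mem_singleton_iff, Set.iUnion_iUnion_eq_left, pow_zero, mul_one]
    exact ncard_children_root hreg v
  | succ k ih =>
    rw [ta_sphere_succ hT, ta_ncard_biUnion (finite_sphere hT v (k + 1))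
      (fun u _ => children_finite v u) (fun u _ u' _ h => ta_children_disjoint hT v h)
      (c := d - 1), ih, pow_succ, mul_assoc]
    intro u hu
    apply ncard_children hT hreg
    rintro rfl
    simp at hu

theorem card_sphere_le (hT : G.IsTree) (hd : 3 ≤ d) (hreg : G.IsRegularOfDegree d) (v : V)
    (k : ℕ) : {w | G.dist v w = k}.ncard ≤ 2 * (d - 1) ^ k := by
  cases k with
  | zero =>
    rw [ta_sphere_zero hT]
    simp
  | succ k =>
    rw [card_sphere hT hd hreg, pow_succ]
    calc d * (d - 1) ^ k ≤ (2 * (d - 1)) * (d - 1) ^ k :=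
          Nat.mul_le_mul_right _ (by omega)
      _ = 2 * ((d - 1) ^ k * (d - 1)) := by ring

/-- number of vertices at distance `k` of `o` whose geodesic from `o` passes through `z`. -/
theorem card_sphere_through_le (hT : G.IsTree) (hd : 3 ≤ d) (hreg : G.IsRegularOfDegree d)
    (o z : V) (k : ℕ) : {u | G.dist o u = G.dist o z + k ∧ G.dist z u = k}.ncard ≤
      2 * (d - 1) ^ k := by
  refine le_trans (Set.ncard_le_ncard ?_ (finite_sphere hT z k)) (card_sphere_le hT hd hreg z k)
  intro u hu
  exact hu.2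

omit [G.LocallyFinite] in
/-- the distance to `u` along a geodesic first decreases, then increases. -/
theorem IsGeo.exists_turn (hT : G.IsTree) {n : ℕ} {p : ℕ → V} (hp : IsGeo G n p) (u : V) :
    ∃ i ≤ n, (∀ t ≤ i, G.dist u (p t) + t = G.dist u (p 0)) ∧
      ∀ t, i ≤ t → t ≤ n → G.dist u (p t) = G.dist u (p i) + (t - i) := by
  induction n with
  | zero =>
    refine ⟨0, le_rfl, ?_, ?_⟩
    · intro t ht
      obtain rfl : t = 0 := by omega
      simp
    · intro t _ ht
      obtain rfl : t = 0 := by omega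
      simp
  | succ n ih =>
    obtain ⟨i, hi, h1, h2⟩ := ih ⟨fun j hj => hp.1 j (by omega), fun j hj => hp.2 j (by omega)⟩
    rcases dist_succ_of_adj hT u (hp.1 n (by omega)) with h | h
    · -- decreasing at the last step
      -- then i = n
      have hin : i = n := by
        by_contra hne
        have hlt : i < n := by omega
        have h3 := h2 (n - 1) (by omega) (by omega)
        have h4 := h2 n (by omega) le_rfl
        have hadj := hp.1 (n - 1) (by omega)
        have hn1 : n - 1 + 1 = n := by omega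
        rw [hn1] at hadj
        have := parent_unique hT u hadj (hp.1 n (by omega)).symm (by omega) h
        have hne2 := hp.2 (n - 1) (by omega)
        have hn2 : n - 1 + 2 = n + 1 := by omega
        rw [hn2] at hne2
        exact hne2 this
      subst hin
      refine ⟨i + 1, le_rfl, ?_, ?_⟩
      · intro t ht
        rcases Nat.lt_or_ge t (i + 1) with h5 | h5
        · exact h1 t (by omega)
        · obtain rfl : t = i + 1 := by omega
          have := h1 i le_rfl
          omega
      · intro t h5 h6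
        obtain rfl : t = i + 1 := by omega
        simp
    · refine ⟨i, by omega, h1, ?_⟩
      intro t h5 h6
      rcases Nat.lt_or_ge t (n + 1) with h7 | h7
      · exact h2 t h5 (by omega)
      · obtain rfl : t = n + 1 := by omega
        have := h2 n (by omega) le_rfl
        omega

/-- Schur weights: `∑_{u ∈ S_j(q)} b^{(d(q,v)-d(u,v))/2} ≤ 2 (j+1) b^{j/2}` with `b = d - 1`. -/
theorem schur_sphere (hT : G.IsTree) (hd : 3 ≤ d) (hreg : G.IsRegularOfDegree d) (q v : V)
    (j : ℕ) : ∑ u ∈ (finite_sphere hT q j).toFinset,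
      Real.sqrt ((d : ℝ) - 1) ^ ((G.dist q v : ℤ) - (G.dist u v : ℤ)) ≤
      2 * (j + 1) * Real.sqrt ((d : ℝ) - 1) ^ (j : ℕ) := by
  classical
  obtain ⟨p, hp0, hpn, hadj, hdist⟩ := exists_geodesic hT q v
  set n := G.dist q v with hn
  set r := Real.sqrt ((d : ℝ) - 1) with hr
  have hd' : (0 : ℝ) < (d : ℝ) - 1 := by
    have : (3 : ℝ) ≤ d := by exact_mod_cast hd
    linarith
  have hrpos : 0 < r := Real.sqrt_pos.2 hd'
  have hr2 : r ^ 2 = (d : ℝ) - 1 := Real.sq_sqrt hd'.le
  have hgeo : IsGeo G n p := by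
    refine ⟨hadj, fun i hi h => ?_⟩
    have h1 := hdist i (by omega)
    have h2 := hdist (i + 2) hi
    rw [← h, h1] at h2
    omega
  have hturn : ∀ u, G.dist q u = j → ∃ i, i ≤ n ∧ i ≤ j ∧ G.dist (p i) u = j - i ∧
      (n : ℤ) - (G.dist u v : ℤ) = 2 * (i : ℤ) - j := by
    intro u hu
    obtain ⟨i, hi, h1, h2⟩ := hgeo.exists_turn hT u
    have h3 := h1 i le_rfl
    have h4 := h2 n hi le_rfl
    rw [hp0] at h3
    rw [hpn] at h4
    rw [dist_comm (u := u) (v := q), hu] at h3
    refine ⟨i, hi, by omega, by rw [dist_comm]; omega, ?_⟩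
    omega
  have hex : ∀ u, ∃ i, G.dist q u = j → (i ≤ n ∧ i ≤ j ∧ G.dist (p i) u = j - i ∧
      (n : ℤ) - (G.dist u v : ℤ) = 2 * (i : ℤ) - j) := by
    intro u
    by_cases hu : G.dist q u = j
    · obtain ⟨i, hi⟩ := hturn u hu
      exact ⟨i, fun _ => hi⟩
    · exact ⟨0, fun h => absurd h hu⟩
  choose I hI using hex
  set S := (finite_sphere hT q j).toFinset with hS
  have hmem : ∀ u ∈ S, G.dist q u = j := by
    intro u hu
    simpa [hS] using hu
  have hmaps : ∀ u ∈ S, I u ∈ Finset.range (j + 1) := by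
    intro u hu
    have := (hI u (hmem u hu)).2.1
    simp only [Finset.mem_range]
    omega
  rw [← Finset.sum_fiberwise_of_maps_to hmaps]
  have hbound : ∀ i ∈ Finset.range (j + 1), ∑ u ∈ S with I u = i,
      r ^ ((n : ℤ) - (G.dist u v : ℤ)) ≤ 2 * r ^ j := by
    intro i hi
    have hij : i ≤ j := by
      simp only [Finset.mem_range] at hi
      omega
    have h1 : ∑ u ∈ S with I u = i, r ^ ((n : ℤ) - (G.dist u v : ℤ)) =
        ∑ u ∈ S with I u = i, r ^ (2 * (i : ℤ) - j) := by
      apply Finset.sum_congr rfl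
      intro u hu
      rw [Finset.mem_filter] at hu
      rw [(hI u (hmem u hu.1)).2.2.2, hu.2]
    rw [h1, Finset.sum_const, nsmul_eq_mul]
    have hcard : ((S.filter (fun u => I u = i)).card : ℝ) ≤ 2 * ((d : ℝ) - 1) ^ (j - i) := by
      have h2 : (S.filter (fun u => I u = i)).card ≤ {w | G.dist (p i) w = j - i}.ncard := by
        rw [← Set.ncard_coe_finset]
        apply Set.ncard_le_ncard _ (finite_sphere hT _ _)
        intro u hu
        simp only [Finset.coe_filter, Set.mem_ofPred_eq] at hu
        have := (hI u (hmem u hu.1)).2.2.1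
        rw [hu.2] at this
        exact this
      have h3 := h2.trans (card_sphere_le hT hd hreg (p i) (j - i))
      have h4 : ((S.filter (fun u => I u = i)).card : ℝ) ≤ ((2 * (d - 1) ^ (j - i) : ℕ) : ℝ) := by
        exact_mod_cast h3
      refine h4.trans (le_of_eq ?_)
      push_cast
      rw [Nat.cast_sub (by omega)]
      simp
    have h5 : ((d : ℝ) - 1) ^ (j - i) * r ^ (2 * (i : ℤ) - j) = r ^ j := by
      rw [← hr2, ← pow_mul, ← zpow_natCast r (2 * (j - i)), ← zpow_add₀ hrpos.ne',
        ← zpow_natCast r j]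
      congr 1
      push_cast [Nat.cast_sub hij]
      ring
    calc ((S.filter (fun u => I u = i)).card : ℝ) * r ^ (2 * (i : ℤ) - j)
        ≤ (2 * ((d : ℝ) - 1) ^ (j - i)) * r ^ (2 * (i : ℤ) - j) :=
          mul_le_mul_of_nonneg_right hcard (zpow_pos hrpos _).le
      _ = 2 * (((d : ℝ) - 1) ^ (j - i) * r ^ (2 * (i : ℤ) - j)) := by ring
      _ = 2 * r ^ j := by rw [h5]
  refine (Finset.sum_le_sum hbound).trans (le_of_eq ?_)
  rw [Finset.sum_const, Finset.card_range, nsmul_eq_mul]
  push_cast
  ring

theorem countable_V (hT : G.IsTree) : Countable V := by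
  obtain ⟨v⟩ := hT.connected.nonempty
  have h : (Set.univ : Set V) = ⋃ k : ℕ, {w | G.dist v w = k} := by
    ext w
    simp
  rw [← Set.countable_univ_iff, h]
  exact Set.countable_iUnion (fun k => (finite_sphere hT v k).countable)

end tree

end Crest.Agent.Lib.Row160
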