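import Crest.Agent.Lib.Row160.Win
import Crest.Agent.Lib.Row160.EdgeFun
import Crest.Agent.Lib.Row160.TreeMetric
import Crest.Agent.Lib.Row160.TreeAut
import Crest.Agent.Lib.Row160.TreeWin
import Crest.Agent.Lib.Row160.Process
import Crest.Agent.Lib.Row160.Isometry

/-!
Row 160, M5: windows convergence for `(d-1) θ² < 1` and infinite volume.
-/

set_option autoImplicit false
set_option linter.unusedSectionVars false
set_option linter.unusedVariables false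
open MeasureTheory Filter Topology

namespace Crest.Agent.Lib.Row160

section M5
variable {V : Type*} {G : SimpleGraph V}

/-! ### path weights of sequences -/

/-- path weight of a sequence of magnetisations. -/
private noncomputable def lim_Ks (θ : ℝ) (a : ℕ → ℝ) (j : ℕ) : ℝ :=
  (1 - a 0 ^ 2) * ∏ i ∈ Finset.range j, Ge θ (a i) (a (i + 1))

private lemma lim_Ks_nonneg {θ : ℝ} (h0 : 0 ≤ θ) (h1 : θ < 1) {a : ℕ → ℝ} (ha : ∀ i, |a i| ≤ 1)
    (j : ℕ) : 0 ≤ lim_Ks θ a j := by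
  unfold lim_Ks
  refine mul_nonneg ?_ (Finset.prod_nonneg fun i _ => Ge_nonneg h0 h1 (ha _) (ha _))
  have := ha 0
  have : a 0 ^ 2 ≤ 1 := by rw [← sq_abs]; nlinarith [abs_nonneg (a 0)]
  linarith

private lemma lim_Ks_le {θ : ℝ} (h0 : 0 ≤ θ) (h1 : θ < 1) {a : ℕ → ℝ} (ha : ∀ i, |a i| ≤ 1)
    (j : ℕ) : lim_Ks θ a j ≤ θ ^ j := by
  unfold lim_Ks
  have h2 : ∏ i ∈ Finset.range j, Ge θ (a i) (a (i + 1)) ≤ θ ^ j := by
    calc ∏ i ∈ Finset.range j, Ge θ (a i) (a (i + 1)) ≤ ∏ _i ∈ Finset.range j, θ :=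
          Finset.prod_le_prod (fun i _ => Ge_nonneg h0 h1 (ha _) (ha _))
            (fun i _ => Ge_le h0 h1 (ha _) (ha _))
      _ = θ ^ j := by simp
  have h3 : 0 ≤ ∏ i ∈ Finset.range j, Ge θ (a i) (a (i + 1)) :=
    Finset.prod_nonneg fun i _ => Ge_nonneg h0 h1 (ha _) (ha _)
  nlinarith [sq_nonneg (a 0)]

private lemma lim_abs_Ks_le {θ : ℝ} (h0 : 0 ≤ θ) (h1 : θ < 1) {a : ℕ → ℝ} (ha : ∀ i, |a i| ≤ 1)
    (j : ℕ) : |lim_Ks θ a j| ≤ θ ^ j := by
  rw [abs_of_nonneg (lim_Ks_nonneg h0 h1 ha j)]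
  exact lim_Ks_le h0 h1 ha j

private lemma lim_Ks_lip {θ : ℝ} (h0 : 0 ≤ θ) (h1 : θ < 1) : ∃ C : ℝ, 0 < C ∧
    ∀ (a c : ℕ → ℝ) (j : ℕ), (∀ i, |a i| ≤ 1) → (∀ i, |c i| ≤ 1) →
      |lim_Ks θ a j - lim_Ks θ c j| ≤ C * θ ^ j * ∑ i ∈ Finset.range (j + 1), |a i - c i| := by
  obtain ⟨C₀, hC₀, hG⟩ := Ge_lip (θ₁ := θ) h1
  refine ⟨2 + 2 * C₀, by positivity, ?_⟩
  intro a c j ha hc
  have key : |lim_Ks θ a j - lim_Ks θ c j| ≤
      θ ^ j * (2 * |a 0 - c 0| + C₀ * ∑ i ∈ Finset.range j, (|a i - c i| + |a (i + 1) - c (i + 1)|)) := by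
    induction j with
    | zero =>
      simp only [lim_Ks, Finset.range_zero, Finset.prod_empty, Finset.sum_empty, pow_zero]
      have h2 : (1 - a 0 ^ 2) * 1 - (1 - c 0 ^ 2) * 1 = (c 0 - a 0) * (c 0 + a 0) := by ring
      rw [h2, abs_mul, abs_sub_comm (c 0) (a 0)]
      have h3 : |c 0 + a 0| ≤ 2 := (abs_add_le _ _).trans (by linarith [ha 0, hc 0])
      nlinarith [abs_nonneg (a 0 - c 0)]
    | succ j ih =>
      have e1 : ∀ b : ℕ → ℝ, lim_Ks θ b (j + 1) = lim_Ks θ b j * Ge θ (b j) (b (j + 1)) := by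
        intro b
        unfold lim_Ks
        rw [Finset.prod_range_succ]
        ring
      rw [e1 a, e1 c]
      have e2 : lim_Ks θ a j * Ge θ (a j) (a (j + 1)) - lim_Ks θ c j * Ge θ (c j) (c (j + 1)) =
          (lim_Ks θ a j - lim_Ks θ c j) * Ge θ (a j) (a (j + 1)) +
          lim_Ks θ c j * (Ge θ (a j) (a (j + 1)) - Ge θ (c j) (c (j + 1))) := by ring
      rw [e2]
      have h4 : |Ge θ (a j) (a (j + 1))| ≤ θ := by
        rw [abs_of_nonneg (Ge_nonneg h0 h1 (ha _) (ha _))]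
        exact Ge_le h0 h1 (ha _) (ha _)
      have h5 := hG θ (a j) (a (j + 1)) (c j) (c (j + 1)) h0 le_rfl (ha _) (ha _) (hc _) (hc _)
      have h6 := lim_abs_Ks_le h0 h1 hc j
      calc |(lim_Ks θ a j - lim_Ks θ c j) * Ge θ (a j) (a (j + 1)) +
            lim_Ks θ c j * (Ge θ (a j) (a (j + 1)) - Ge θ (c j) (c (j + 1)))|
          ≤ |lim_Ks θ a j - lim_Ks θ c j| * |Ge θ (a j) (a (j + 1))| +
            |lim_Ks θ c j| * |Ge θ (a j) (a (j + 1)) - Ge θ (c j) (c (j + 1))| := by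
            rw [← abs_mul, ← abs_mul]; exact abs_add_le _ _
        _ ≤ θ ^ j * (2 * |a 0 - c 0| +
              C₀ * ∑ i ∈ Finset.range j, (|a i - c i| + |a (i + 1) - c (i + 1)|)) * θ +
            θ ^ j * (C₀ * θ * (|a j - c j| + |a (j + 1) - c (j + 1)|)) := by
            gcongr
        _ = _ := by
            rw [Finset.sum_range_succ, pow_succ]
            ring
  refine key.trans ?_
  have h7 : ∑ i ∈ Finset.range j, (|a i - c i| + |a (i + 1) - c (i + 1)|) ≤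
      2 * ∑ i ∈ Finset.range (j + 1), |a i - c i| := by
    rw [Finset.sum_add_distrib]
    have h8 := Finset.sum_range_succ (fun i => |a i - c i|) j
    have h9 := Finset.sum_range_succ' (fun i => |a i - c i|) j
    have := abs_nonneg (a 0 - c 0)
    have := abs_nonneg (a j - c j)
    linarith
  have h10 : |a 0 - c 0| ≤ ∑ i ∈ Finset.range (j + 1), |a i - c i| :=
    Finset.single_le_sum (f := fun i => |a i - c i|) (fun i _ => abs_nonneg _) (by simp)
  have h11 : 0 ≤ θ ^ j := pow_nonneg h0 j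
  calc _ ≤ θ ^ j * (2 * (∑ i ∈ Finset.range (j + 1), |a i - c i|) +
        C₀ * (2 * ∑ i ∈ Finset.range (j + 1), |a i - c i|)) := by gcongr
    _ = _ := by ring

private lemma lim_measurable_Ks (θ : ℝ) (j : ℕ) : Measurable (fun a : ℕ → ℝ => lim_Ks θ a j) := by
  unfold lim_Ks
  refine Measurable.mul (by fun_prop) (Finset.measurable_prod _ fun i _ => ?_)
  exact (measurable_Ge θ).comp (f := fun a : ℕ → ℝ => (a i, a (i + 1))) (by fun_prop)

/-! ### the magnetisation at zero field vanishes -/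

private lemma lim_sp_sdiff [DecidableEq V] {W A : Finset V} {v : V} (hv : v ∈ W) :
    sp (W \ A) v = - sp A v := by
  unfold sp
  by_cases h : v ∈ A
  · simp [h]
  · simp [h, hv]

private lemma lim_wt_sdiff [DecidableEq V] (θ : ℝ) (W : Finset V) (A : Finset V) :
    wt G θ W (fun _ => 0) (W \ A) = wt G θ W (fun _ => 0) A := by
  classical
  unfold wt
  congr 1
  · refine Finset.prod_congr rfl fun e he => ?_
    replace he := (Finset.mem_filter.mp he).1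
    induction e with
    | _ u v =>
      rw [Finset.mk_mem_sym2_iff] at he
      simp only [Sym2.map_mk, Sym2.mk_isDiag_iff, Finset.mem_sdiff, he.1, he.2, true_and,
        decide_not]
      by_cases h1 : u ∈ A <;> by_cases h2 : v ∈ A <;> simp [h1, h2]
  · refine Finset.prod_congr rfl fun v _ => ?_
    simp

private lemma lim_mg_zero {θ : ℝ} {W : Finset V} {v : V} (hv : v ∈ W) :
    mg G θ W (fun _ => 0) v = 0 := by
  classical
  unfold mg av
  have h : ∑ A ∈ W.powerset, wt G θ W (fun _ => 0) A * sp A v =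
      ∑ A ∈ W.powerset, wt G θ W (fun _ => 0) A * (- sp A v) := by
    refine Finset.sum_nbij' (fun A => W \ A) (fun A => W \ A) ?_ ?_ ?_ ?_ ?_
    · intro A _; simp
    · intro A _; simp
    · intro A hA; simp only [Finset.mem_powerset] at hA; simp [Finset.inter_eq_right.2 hA]
    · intro A hA; simp only [Finset.mem_powerset] at hA; simp [Finset.inter_eq_right.2 hA]
    · intro A hA
      rw [lim_wt_sdiff, lim_sp_sdiff hv]
      simp
  have h2 : ∑ A ∈ W.powerset, wt G θ W (fun _ => 0) A * sp A v = 0 := by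
    have h3 : ∑ A ∈ W.powerset, wt G θ W (fun _ => 0) A * (- sp A v) =
      - ∑ A ∈ W.powerset, wt G θ W (fun _ => 0) A * sp A v := by
      rw [← Finset.sum_neg_distrib]
      exact Finset.sum_congr rfl fun A _ => by ring
    linarith
  rw [h2, zero_div]

/-! ### auxiliary integration facts -/

private lemma lim_intervalIntegral_mono {f g : ℝ → ℝ} {a b : ℝ} (hab : a ≤ b)
    (hf : ∀ x, a ≤ x → x ≤ b → 0 ≤ f x) (hg : IntervalIntegrable g volume a b)
    (h : ∀ x, a ≤ x → x ≤ b → f x ≤ g x) : ∫ x in a..b, f x ≤ ∫ x in a..b, g x := by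
  rw [intervalIntegral.integral_of_le hab, intervalIntegral.integral_of_le hab]
  refine integral_mono_of_nonneg ?_ ?_ ?_
  · exact (ae_restrict_iff' measurableSet_Ioc).2 (ae_of_all _ fun x hx => hf x hx.1.le hx.2)
  · exact (intervalIntegrable_iff_integrableOn_Ioc_of_le hab).1 hg
  · exact (ae_restrict_iff' measurableSet_Ioc).2 (ae_of_all _ fun x hx => h x hx.1.le hx.2)

private lemma lim_integrable {f : Lab V → ℝ} (hm : Measurable f) (C : ℝ) (hb : ∀ ω, |f ω| ≤ C) :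
    Integrable f (labM V) :=
  Integrable.of_bound hm.aestronglyMeasurable C (ae_of_all _ fun ω => by
    rw [Real.norm_eq_abs]; exact hb ω)

private lemma lim_measurable_M {θ : ℝ} (h0 : 0 ≤ θ) (h1 : θ < 1) (W : Finset V) (k : ℕ) (s : ℝ)
    (v : V) : Measurable (fun ω => M G θ W k s v ω) :=
  (measurable_M G h0 h1 W k v).comp (f := fun ω => (s, ω)) (by fun_prop)

private lemma lim_abs_M_le_one {θ : ℝ} (h0 : 0 ≤ θ) (h1 : θ < 1) (W : Finset V) (k : ℕ) (s : ℝ)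
    (v : V) (ω : Lab V) : |M G θ W k s v ω| ≤ 1 := abs_mg_le G h0 h1 W _ v

private lemma lim_M_succ_zero (θ : ℝ) (W : Finset V) (k : ℕ) (v : V) (ω : Lab V) :
    M G θ W (k + 1) 0 v ω = M G θ W k (1 / 2) v ω := by
  unfold M
  rw [P_succ_zero]

private lemma lim_M_zero_zero (θ : ℝ) {W : Finset V} {v : V} (hv : v ∈ W) (ω : Lab V) :
    M G θ W 0 0 v ω = 0 := by
  unfold M P
  rw [fld_zero G θ W _ _ le_rfl]
  exact lim_mg_zero hv

private lemma lim_geo {r : ℝ} (hr : 0 ≤ r) (hr1 : r < 1) :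
    Summable (fun j : ℕ => ((j : ℝ) + 1) ^ 2 * r ^ j) := by
  have hn : ‖r‖ < 1 := by rw [Real.norm_eq_abs, abs_of_nonneg hr]; exact hr1
  have h0 := summable_pow_mul_geometric_of_norm_lt_one 0 hn
  have h1 := summable_pow_mul_geometric_of_norm_lt_one 1 hn
  have h2 := summable_pow_mul_geometric_of_norm_lt_one 2 hn
  refine ((h2.add (h1.mul_left 2)).add h0).congr fun j => ?_
  ring

section tree
variable [G.LocallyFinite] {d : ℕ}

omit [G.LocallyFinite] in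
private lemma lim_dm1 (hd : 3 ≤ d) : (2 : ℝ) ≤ (d : ℝ) - 1 := by
  have : (3 : ℝ) ≤ d := by exact_mod_cast hd
  linarith

private lemma lim_sum_sphere (hT : G.IsTree) (hd : 3 ≤ d) (hreg : G.IsRegularOfDegree d) (o : V)
    (W : Finset V) {f : V → ℝ} {F : ℕ → ℝ} (hF0 : ∀ j, 0 ≤ F j)
    (hF : Summable (fun j => 2 * ((d : ℝ) - 1) ^ j * F j))
    (hf : ∀ u ∈ W, f u ≤ F (G.dist o u)) :
    ∑ u ∈ W, f u ≤ ∑' j : ℕ, 2 * ((d : ℝ) - 1) ^ j * F j := by
  classical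
  have hb : (0 : ℝ) ≤ (d : ℝ) - 1 := by linarith [lim_dm1 hd]
  calc ∑ u ∈ W, f u ≤ ∑ u ∈ W, F (G.dist o u) := Finset.sum_le_sum hf
    _ = ∑ j ∈ W.image (G.dist o), (W.filter (fun u => G.dist o u = j)).card • F j :=
        Finset.sum_comp F (G.dist o)
    _ ≤ ∑ j ∈ W.image (G.dist o), 2 * ((d : ℝ) - 1) ^ j * F j := by
        refine Finset.sum_le_sum fun j _ => ?_
        rw [nsmul_eq_mul]
        refine mul_le_mul_of_nonneg_right ?_ (hF0 j)
        have h1 : (W.filter (fun u => G.dist o u = j)).card ≤ 2 * (d - 1) ^ j := by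
          refine le_trans ?_ (card_sphere_le hT hd hreg o j)
          rw [← Set.ncard_coe_finset]
          exact Set.ncard_le_ncard (by intro u hu; simpa using (Finset.mem_filter.mp hu).2)
            (finite_sphere hT o j)
        have h2 : ((W.filter (fun u => G.dist o u = j)).card : ℝ) ≤ ((2 * (d - 1) ^ j : ℕ) : ℝ) := by
          exact_mod_cast h1
        refine h2.trans (le_of_eq ?_)
        push_cast [Nat.cast_sub (by omega : 1 ≤ d)]
        ring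
    _ ≤ ∑' j, 2 * ((d : ℝ) - 1) ^ j * F j :=
        hF.sum_le_tsum _ (fun j _ => mul_nonneg (by positivity) (hF0 j))

/-- the weights of the spheres. -/
private lemma lim_summable_sphere (hd : 3 ≤ d) {t ρ : ℝ} (hρ0 : 0 < ρ)
    (hρ : ((d : ℝ) - 1) * t ^ 2 < ρ) :
    Summable (fun j : ℕ => 2 * ((d : ℝ) - 1) ^ j *
      (((j : ℝ) + 1) ^ 2 * t ^ (2 * j) * (ρ ^ j)⁻¹)) := by
  have hb : (0 : ℝ) ≤ (d : ℝ) - 1 := by linarith [lim_dm1 hd]
  have h1 : ((d : ℝ) - 1) * t ^ 2 / ρ < 1 := by rw [div_lt_one hρ0]; exact hρ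
  have h2 : 0 ≤ ((d : ℝ) - 1) * t ^ 2 / ρ := by positivity
  refine ((lim_geo h2 h1).mul_left 2).congr fun j => ?_
  rw [div_pow, mul_pow, ← pow_mul]
  field_simp

/-- balls contained in the window. -/
private def lim_N (G : SimpleGraph V) (W : Finset V) (v : V) (n : ℕ) : Prop :=
  ∀ w, G.dist v w ≤ n → w ∈ W

omit [G.LocallyFinite] in
private lemma lim_N_mem {W : Finset V} {v : V} {n : ℕ} (h : lim_N G W v n) : v ∈ W :=
  h v (by simp)

omit [G.LocallyFinite] in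
private lemma lim_K_eq (hT : G.IsTree) {θ : ℝ} (h0 : 0 ≤ θ) (h1 : θ < 1) {W : Finset V}
    (hW : Conv G W) (k : ℕ) (r : ℝ) {j : ℕ} {q : ℕ → V} (hq : IsGeo G j q) (hq0 : q 0 ∈ W)
    (hqj : q j ∈ W) (ω : Lab V) :
    K G θ W k r (q 0) (q j) ω = lim_Ks θ (fun i => M G θ W k r (q i) ω) j := by
  unfold K
  rw [cv_eq_Kp hT h0 h1 hW _ hq hq0 hqj]
  rfl

omit [G.LocallyFinite] in
private lemma lim_abs_K_le (hT : G.IsTree) {θ : ℝ} (h0 : 0 ≤ θ) (h1 : θ < 1) {W : Finset V}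
    (hW : Conv G W) (k : ℕ) (r : ℝ) (o u : V) (ω : Lab V) :
    |K G θ W k r o u ω| ≤ θ ^ G.dist o u := by
  have h := cv_nonneg_le hT h0 h1 hW (P G θ W k r ω) o u
  unfold K
  rw [abs_of_nonneg h.1]
  exact h.2

omit [G.LocallyFinite] in
/-- the integrand of the pair isometry for two nested windows. -/
private lemma lim_integrand (hT : G.IsTree)
    {θ ρ : ℝ} (h0 : 0 ≤ θ) (h1 : θ < 1) (hρ0 : 0 < ρ) (hρ1 : ρ < 1) : ∃ C : ℝ, 0 < C ∧
    ∀ (W W' : Finset V), Conv G W → Conv G W' → W ⊆ W' → ∀ (k : ℕ) (r B : ℝ), 0 ≤ r →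
    r ≤ 1 / 2 → 0 ≤ B →
    (∀ v n, lim_N G W v n →
      ∫ ω, (M G θ W k r v ω - M G θ W' k r v ω) ^ 2 ∂(labM V) ≤ B * ρ ^ n) →
    ∀ o n, lim_N G W o n → ∀ u ∈ W',
        (1000 * r ^ 2 * ∫ ω, (K G θ W k r o u ω - K G θ W' k r o u ω) ^ 2 ∂(labM V) +
        1000 * r ^ 4 * ∫ ω, K G θ W' k r o u ω ^ 2 *
          (M G θ W k r u ω - M G θ W' k r u ω) ^ 2 ∂(labM V)) ≤
      C * (B + 1) * ρ ^ n * (((G.dist o u : ℝ) + 1) ^ 2 * θ ^ (2 * G.dist o u) *
        (ρ ^ G.dist o u)⁻¹) := by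
  obtain ⟨C₁, hC₁, hlip⟩ := lim_Ks_lip h0 h1
  refine ⟨1000 * C₁ ^ 2 + 5000, by positivity, ?_⟩
  intro W W' hW hW' hWW' k r B hr hr' hB he o n hN u hu'
  have hr2 : r ^ 2 ≤ 1 := by nlinarith
  have hr4 : r ^ 4 ≤ 1 := by
    have : r ^ 4 = (r ^ 2) ^ 2 := by ring
    rw [this]; nlinarith [sq_nonneg r]
  have hθ0 : ∀ j : ℕ, 0 ≤ θ ^ j := fun j => pow_nonneg h0 j
  have hρp : ∀ j : ℕ, 0 < ρ ^ j := fun j => pow_pos hρ0 j
  have hoW : o ∈ W := lim_N_mem hN
  set j := G.dist o u with hj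
  have hmM := fun (W : Finset V) (v : V) => lim_measurable_M (G := G) h0 h1 W k r v
  have hbM := fun (W : Finset V) (v : V) (ω : Lab V) => lim_abs_M_le_one (G := G) h0 h1 W k r v ω
  -- integrability
  have hΔint : ∀ v : V, Integrable (fun ω => (M G θ W k r v ω - M G θ W' k r v ω) ^ 2)
      (labM V) := by
    intro v
    refine lim_integrable (((hmM W v).sub (hmM W' v)).pow_const 2) 4 fun ω => ?_
    have h3 := abs_le.1 (hbM W v ω)
    have h4 := abs_le.1 (hbM W' v ω)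
    rw [abs_of_nonneg (sq_nonneg _)]
    nlinarith
  have hΔ4 : ∀ v ω, (M G θ W k r v ω - M G θ W' k r v ω) ^ 2 ≤ 4 := by
    intro v ω
    have h3 := abs_le.1 (hbM W v ω)
    have h4 := abs_le.1 (hbM W' v ω)
    nlinarith
  -- bound for the second term in terms of the first moment
  have hK2 : ∀ ω, K G θ W' k r o u ω ^ 2 ≤ θ ^ (2 * j) := by
    intro ω
    have h3 := lim_abs_K_le hT h0 h1 hW' k r o u ω
    rw [← sq_abs, pow_mul']
    exact pow_le_pow_left₀ (abs_nonneg _) h3 2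
  have hsec : ∫ ω, K G θ W' k r o u ω ^ 2 *
          (M G θ W k r u ω - M G θ W' k r u ω) ^ 2 ∂(labM V) ≤
        θ ^ (2 * j) * ∫ ω, (M G θ W k r u ω - M G θ W' k r u ω) ^ 2 ∂(labM V) := by
    rw [← integral_const_mul]
    refine integral_mono_of_nonneg (ae_of_all _ fun ω => by positivity)
      ((hΔint u).const_mul _) (ae_of_all _ fun ω => ?_)
    exact mul_le_mul_of_nonneg_right (hK2 ω) (sq_nonneg _)
  have hsec0 : 0 ≤ ∫ ω, K G θ W' k r o u ω ^ 2 *
          (M G θ W k r u ω - M G θ W' k r u ω) ^ 2 ∂(labM V) :=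
    integral_nonneg fun ω => by positivity
  have hfir0 : 0 ≤ ∫ ω, (K G θ W k r o u ω - K G θ W' k r o u ω) ^ 2 ∂(labM V) :=
    integral_nonneg fun ω => by positivity
  have hj1 : (1 : ℝ) ≤ ((j : ℝ) + 1) ^ 2 := by
    have : (0 : ℝ) ≤ j := Nat.cast_nonneg j
    nlinarith
  by_cases hu : u ∈ W
  · -- inside
    obtain ⟨q, hq, hq0, hqj⟩ := exists_isGeo hT o u
    rw [← hj] at hq hqj
    have hqW : ∀ i ≤ j, q i ∈ W := by
      intro i hi
      refine hW (q 0) (by rw [hq0]; exact hoW) (q j) (by rw [hqj]; exact hu) (q i) ?_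
      rw [hq.dist_eq hT (Nat.zero_le i) hi, hq.dist_eq hT hi le_rfl,
        hq.dist_eq hT (Nat.zero_le j) le_rfl]
      omega
    have hNq : ∀ i ≤ j, lim_N G W (q i) (n - i) := by
      intro i hi w hw
      by_cases hin : i ≤ n
      · refine hN w ?_
        have h3 := hT.connected.dist_triangle (u := o) (v := q i) (w := w)
        have h4 := hq.dist_eq hT (Nat.zero_le i) hi
        rw [hq0] at h4
        omega
      · have h5 : G.dist (q i) w = 0 := by omega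
        have h6 := (hT.connected.dist_eq_zero_iff).1 h5
        rw [← h6]
        exact hqW i hi
    have heq : ∀ i ≤ j, ∫ ω, (M G θ W k r (q i) ω - M G θ W' k r (q i) ω) ^ 2 ∂(labM V) ≤
        B * ρ ^ n * (ρ ^ j)⁻¹ := by
      intro i hi
      refine (he (q i) (n - i) (hNq i hi)).trans ?_
      rw [mul_assoc]
      refine mul_le_mul_of_nonneg_left ?_ hB
      rw [← div_eq_mul_inv, le_div_iff₀ (hρp j), ← pow_add]
      exact pow_le_pow_of_le_one hρ0.le hρ1.le (by omega)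
    have hfir : ∫ ω, (K G θ W k r o u ω - K G θ W' k r o u ω) ^ 2 ∂(labM V) ≤
        C₁ ^ 2 * θ ^ (2 * j) * ((j : ℝ) + 1) ^ 2 * (B * ρ ^ n * (ρ ^ j)⁻¹) := by
      have hpt : ∀ ω, (K G θ W k r o u ω - K G θ W' k r o u ω) ^ 2 ≤
          C₁ ^ 2 * θ ^ (2 * j) * ((j : ℝ) + 1) * ∑ i ∈ Finset.range (j + 1),
            (M G θ W k r (q i) ω - M G θ W' k r (q i) ω) ^ 2 := by
        intro ω
        have e1 : K G θ W k r o u ω = lim_Ks θ (fun i => M G θ W k r (q i) ω) j := by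
          rw [← lim_K_eq hT h0 h1 hW k r hq (by rw [hq0]; exact hoW) (by rw [hqj]; exact hu) ω,
            hq0, hqj]
        have e2 : K G θ W' k r o u ω = lim_Ks θ (fun i => M G θ W' k r (q i) ω) j := by
          rw [← lim_K_eq hT h0 h1 hW' k r hq (by rw [hq0]; exact hWW' hoW)
            (by rw [hqj]; exact hWW' hu) ω, hq0, hqj]
        have h3 := hlip (fun i => M G θ W k r (q i) ω) (fun i => M G θ W' k r (q i) ω) j
          (fun i => hbM W _ ω) (fun i => hbM W' _ ω)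
        have h4 : (∑ i ∈ Finset.range (j + 1),
            |M G θ W k r (q i) ω - M G θ W' k r (q i) ω|) ^ 2 ≤
            ((j : ℝ) + 1) * ∑ i ∈ Finset.range (j + 1),
              (M G θ W k r (q i) ω - M G θ W' k r (q i) ω) ^ 2 := by
          have h5 := sq_sum_le_card_mul_sum_sq (s := Finset.range (j + 1))
            (f := fun i => |M G θ W k r (q i) ω - M G θ W' k r (q i) ω|)
          simp only [Finset.card_range, sq_abs] at h5
          push_cast at h5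
          exact h5
        rw [e1, e2, ← sq_abs]
        calc _ ≤ (C₁ * θ ^ j * ∑ i ∈ Finset.range (j + 1),
              |M G θ W k r (q i) ω - M G θ W' k r (q i) ω|) ^ 2 :=
              pow_le_pow_left₀ (abs_nonneg _) h3 2
          _ = C₁ ^ 2 * θ ^ (2 * j) * (∑ i ∈ Finset.range (j + 1),
              |M G θ W k r (q i) ω - M G θ W' k r (q i) ω|) ^ 2 := by
              rw [mul_pow, mul_pow, pow_mul']
          _ ≤ C₁ ^ 2 * θ ^ (2 * j) * (((j : ℝ) + 1) * ∑ i ∈ Finset.range (j + 1),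
              (M G θ W k r (q i) ω - M G θ W' k r (q i) ω) ^ 2) :=
              mul_le_mul_of_nonneg_left h4 (by positivity)
          _ = _ := by ring
      calc _ ≤ ∫ ω, C₁ ^ 2 * θ ^ (2 * j) * ((j : ℝ) + 1) * ∑ i ∈ Finset.range (j + 1),
            (M G θ W k r (q i) ω - M G θ W' k r (q i) ω) ^ 2 ∂(labM V) := by
            refine integral_mono_of_nonneg (ae_of_all _ fun ω => sq_nonneg _) ?_
              (ae_of_all _ hpt)
            exact (integrable_finsetSum _ fun i _ => hΔint (q i)).const_mul _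
        _ = C₁ ^ 2 * θ ^ (2 * j) * ((j : ℝ) + 1) * ∑ i ∈ Finset.range (j + 1),
            ∫ ω, (M G θ W k r (q i) ω - M G θ W' k r (q i) ω) ^ 2 ∂(labM V) := by
            rw [integral_const_mul, integral_finsetSum _ fun i _ => hΔint (q i)]
        _ ≤ C₁ ^ 2 * θ ^ (2 * j) * ((j : ℝ) + 1) * ∑ i ∈ Finset.range (j + 1),
            (B * ρ ^ n * (ρ ^ j)⁻¹) := by
            refine mul_le_mul_of_nonneg_left (Finset.sum_le_sum fun i hi => heq i ?_)
              (by positivity)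
            exact Nat.lt_succ_iff.1 (Finset.mem_range.1 hi)
        _ = _ := by
            rw [Finset.sum_const, Finset.card_range, nsmul_eq_mul]
            push_cast
            ring
    have hsec' : ∫ ω, (M G θ W k r u ω - M G θ W' k r u ω) ^ 2 ∂(labM V) ≤
        B * ρ ^ n * (ρ ^ j)⁻¹ := by
      have := heq j le_rfl
      rwa [hqj] at this
    set X := B * ρ ^ n * (ρ ^ j)⁻¹ with hX
    have hX0 : 0 ≤ X := by positivity
    have hY0 : 0 ≤ ρ ^ n * (ρ ^ j)⁻¹ := by positivity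
    calc _ ≤ 1000 * 1 * (C₁ ^ 2 * θ ^ (2 * j) * ((j : ℝ) + 1) ^ 2 * X) +
          1000 * 1 * (θ ^ (2 * j) * X) := by
          gcongr
          exact hsec.trans (mul_le_mul_of_nonneg_left hsec' (by positivity))
      _ ≤ 1000 * 1 * (C₁ ^ 2 * θ ^ (2 * j) * ((j : ℝ) + 1) ^ 2 * X) +
          1000 * 1 * (θ ^ (2 * j) * X) * ((j : ℝ) + 1) ^ 2 := by
          have : 0 ≤ 1000 * 1 * (θ ^ (2 * j) * X) := by positivity
          nlinarith
      _ = (1000 * C₁ ^ 2 + 1000) * (θ ^ (2 * j) * ((j : ℝ) + 1) ^ 2) * X := by ring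
      _ ≤ (1000 * C₁ ^ 2 + 5000) * (θ ^ (2 * j) * ((j : ℝ) + 1) ^ 2) *
          (X + ρ ^ n * (ρ ^ j)⁻¹) := by gcongr <;> linarith
      _ = _ := by rw [hX]; ring
  · -- outside
    have hjn : n ≤ j := by
      by_contra hcon
      exact hu (hN u (by omega))
    have hK0 : ∀ ω, K G θ W k r o u ω = 0 := fun ω => cv_eq_zero G h0 h1 W _ o hu
    have hfir : ∫ ω, (K G θ W k r o u ω - K G θ W' k r o u ω) ^ 2 ∂(labM V) ≤ θ ^ (2 * j) := by
      calc _ ≤ ∫ _ω : Lab V, θ ^ (2 * j) ∂(labM V) := by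
            refine integral_mono_of_nonneg (ae_of_all _ fun ω => sq_nonneg _)
              (integrable_const _) (ae_of_all _ fun ω => ?_)
            simp only [hK0, zero_sub, neg_sq]
            exact hK2 ω
        _ = _ := by simp
    have hsec' : ∫ ω, (M G θ W k r u ω - M G θ W' k r u ω) ^ 2 ∂(labM V) ≤ 4 := by
      calc _ ≤ ∫ _ω : Lab V, (4 : ℝ) ∂(labM V) :=
            integral_mono (hΔint u) (integrable_const _) (hΔ4 u)
        _ = _ := by simp
    have hY1 : 1 ≤ ρ ^ n * (ρ ^ j)⁻¹ := by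
      rw [← div_eq_mul_inv, one_le_div (hρp j)]
      exact pow_le_pow_of_le_one hρ0.le hρ1.le hjn
    calc _ ≤ 1000 * 1 * (θ ^ (2 * j)) + 1000 * 1 * (θ ^ (2 * j) * 4) := by
          gcongr
          exact hsec.trans (mul_le_mul_of_nonneg_left hsec' (by positivity))
      _ = 5000 * (1 * (θ ^ (2 * j) * 1)) := by ring
      _ ≤ (1000 * C₁ ^ 2 + 5000) * ((B + 1) * (θ ^ (2 * j) * ((j : ℝ) + 1) ^ 2)) *
          (ρ ^ n * (ρ ^ j)⁻¹) := by
          have h7 : (1 : ℝ) * (θ ^ (2 * j) * 1) ≤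
              ((B + 1) * (θ ^ (2 * j) * ((j : ℝ) + 1) ^ 2)) := by
            gcongr
            linarith
          have h8 : (0 : ℝ) ≤ (B + 1) * (θ ^ (2 * j) * ((j : ℝ) + 1) ^ 2) := by positivity
          have h9 : 5000 * (1 * (θ ^ (2 * j) * 1)) ≤ (1000 * C₁ ^ 2 + 5000) *
              ((B + 1) * (θ ^ (2 * j) * ((j : ℝ) + 1) ^ 2)) :=
            mul_le_mul (by nlinarith [sq_nonneg C₁]) h7 (by positivity) (by positivity)
          calc _ ≤ _ := h9
            _ ≤ _ := le_mul_of_one_le_right (by positivity) hY1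
      _ = _ := by ring

omit [G.LocallyFinite] in
private lemma lim_theta_lt_one (hd : 3 ≤ d) {θ : ℝ} (h0 : 0 ≤ θ)
    (hθ : ((d : ℝ) - 1) * θ ^ 2 < 1) : θ < 1 := by
  have := lim_dm1 hd
  by_contra hcon
  have h2 : 1 ≤ θ ^ 2 := by nlinarith
  nlinarith

/-- one Gronwall step. -/
private lemma lim_step (hT : G.IsTree) (hd : 3 ≤ d) (hreg : G.IsRegularOfDegree d)
    {θ ρ : ℝ} (h0 : 0 ≤ θ) (h1 : θ < 1) (hρ0 : 0 < ρ) (hρ1 : ρ < 1)
    (hρ : ((d : ℝ) - 1) * θ ^ 2 < ρ) : ∃ C : ℝ, 0 < C ∧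
    ∀ (W W' : Finset V), Conv G W → Conv G W' → W ⊆ W' → ∀ (k : ℕ) (A B lam : ℝ),
    0 ≤ A → 0 ≤ B → 0 < lam →
    (∀ v n, lim_N G W v n →
      ∫ ω, (M G θ W k 0 v ω - M G θ W' k 0 v ω) ^ 2 ∂(labM V) ≤ A * ρ ^ n) →
    (∀ r, 0 ≤ r → r ≤ 1 / 2 → ∀ v n, lim_N G W v n →
      ∫ ω, (M G θ W k r v ω - M G θ W' k r v ω) ^ 2 ∂(labM V) ≤ B * Real.exp (lam * r) * ρ ^ n) →
    (∀ r, 0 ≤ r → r ≤ 1 / 2 → ∀ v n, lim_N G W v n →
      ∫ ω, (M G θ W k r v ω - M G θ W' k r v ω) ^ 2 ∂(labM V) ≤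
        (A + C + C * B / lam) * Real.exp (lam * r) * ρ ^ n) := by
  classical
  obtain ⟨C, hC, hint⟩ := lim_integrand (G := G) hT h0 h1 hρ0 hρ1
  have hsum := lim_summable_sphere hd (t := θ) hρ0 hρ
  have hb : (0 : ℝ) ≤ (d : ℝ) - 1 := by linarith [lim_dm1 hd]
  set S := ∑' j : ℕ, 2 * ((d : ℝ) - 1) ^ j * (((j : ℝ) + 1) ^ 2 * θ ^ (2 * j) * (ρ ^ j)⁻¹)
    with hS
  have hS0 : 0 ≤ S := tsum_nonneg fun j => by positivity
  refine ⟨C * S + 1, by positivity, ?_⟩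
  intro W W' hW hW' hWW' k A B lam hA hB hlam hA0 hB0 s hs hs' o n hN
  have hρn : 0 < ρ ^ n := pow_pos hρ0 n
  refine (pair_isometry G h0 h1 h0 h1 W W' k hs hs' o).trans ?_
  have e1 := hA0 o n hN
  have e2 : (∫ r in (0 : ℝ)..s, ∑ u ∈ W ∪ W',
        (1000 * r ^ 2 * ∫ ω, (K G θ W k r o u ω - K G θ W' k r o u ω) ^ 2 ∂(labM V) +
        1000 * r ^ 4 * ∫ ω, K G θ W' k r o u ω ^ 2 *
          (M G θ W k r u ω - M G θ W' k r u ω) ^ 2 ∂(labM V))) ≤
      ∫ r in (0 : ℝ)..s, (C * (B * Real.exp (lam * r) + 1) * ρ ^ n) * S := by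
    refine lim_intervalIntegral_mono hs ?_ ?_ ?_
    · intro r hr _
      refine Finset.sum_nonneg fun u _ => ?_
      have i1 : 0 ≤ ∫ ω, (K G θ W k r o u ω - K G θ W' k r o u ω) ^ 2 ∂(labM V) :=
        integral_nonneg fun ω => by positivity
      have i2 : 0 ≤ ∫ ω, K G θ W' k r o u ω ^ 2 *
          (M G θ W k r u ω - M G θ W' k r u ω) ^ 2 ∂(labM V) :=
        integral_nonneg fun ω => by positivity
      positivity
    · apply Continuous.intervalIntegrable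
      fun_prop
    · intro r hr hrs
      have hr' : r ≤ 1 / 2 := hrs.trans hs'
      rw [Finset.union_eq_right.2 hWW']
      have h3 := hint W W' hW hW' hWW' k r (B * Real.exp (lam * r)) hr hr' (by positivity)
        (fun v n hv => hB0 r hr hr' v n hv) o n hN
      have h4 := lim_sum_sphere hT hd hreg o W'
        (F := fun j => C * (B * Real.exp (lam * r) + 1) * ρ ^ n *
          (((j : ℝ) + 1) ^ 2 * θ ^ (2 * j) * (ρ ^ j)⁻¹))
        (fun j => by positivity)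
        ((hsum.mul_left (C * (B * Real.exp (lam * r) + 1) * ρ ^ n)).congr fun j => by ring)
        h3
      refine h4.trans (le_of_eq ?_)
      rw [hS, ← tsum_mul_left]
      exact tsum_congr fun j => by ring
  have e3 : (∫ r in (0 : ℝ)..s, (C * (B * Real.exp (lam * r) + 1) * ρ ^ n) * S) =
      C * S * ρ ^ n * (B * ((Real.exp (lam * s) - 1) / lam) + s) := by
    have i1 : (∫ r in (0 : ℝ)..s, Real.exp (lam * r)) = (Real.exp (lam * s) - 1) / lam := by
      rw [intervalIntegral.integral_comp_mul_left (fun x => Real.exp x) hlam.ne']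
      rw [integral_exp]
      simp [div_eq_inv_mul]
    have i2 : (fun r => (C * (B * Real.exp (lam * r) + 1) * ρ ^ n) * S) =
        fun r => C * S * ρ ^ n * B * Real.exp (lam * r) + C * S * ρ ^ n := by
      funext r; ring
    rw [i2, intervalIntegral.integral_add
      (by apply Continuous.intervalIntegrable; fun_prop)
      (by apply Continuous.intervalIntegrable; fun_prop),
      intervalIntegral.integral_const_mul, i1, intervalIntegral.integral_const]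
    simp only [sub_zero, smul_eq_mul]
    ring
  have hE : 1 ≤ Real.exp (lam * s) := Real.one_le_exp (by positivity)
  calc _ ≤ A * ρ ^ n + C * S * ρ ^ n * (B * ((Real.exp (lam * s) - 1) / lam) + s) := by
        rw [← e3]; exact add_le_add e1 e2
    _ ≤ A * ρ ^ n + C * S * ρ ^ n * (B * (Real.exp (lam * s) / lam) + 1) := by
        gcongr
        · linarith
        · linarith
    _ = (A + C * S + C * S * B / lam * Real.exp (lam * s)) * ρ ^ n := by ring
    _ ≤ (A * Real.exp (lam * s) + C * S * Real.exp (lam * s) +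
          C * S * B / lam * Real.exp (lam * s)) * ρ ^ n := by
        have g1 : A ≤ A * Real.exp (lam * s) := le_mul_of_one_le_right hA hE
        have g2 : C * S ≤ C * S * Real.exp (lam * s) :=
          le_mul_of_one_le_right (by positivity) hE
        exact mul_le_mul_of_nonneg_right (by linarith) hρn.le
    _ = (A + C * S + C * S * B / lam) * Real.exp (lam * s) * ρ ^ n := by ring
    _ ≤ _ := by
        have g3 : C * S * B / lam ≤ (C * S + 1) * B / lam := by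
          gcongr
          linarith
        refine mul_le_mul_of_nonneg_right (mul_le_mul_of_nonneg_right ?_ (Real.exp_pos _).le)
          hρn.le
        linarith

/-- windows convergence with an explicit rate. -/
private lemma lim_winRate_aux (hT : G.IsTree) (hd : 3 ≤ d) (hreg : G.IsRegularOfDegree d)
    {θ ρ : ℝ} (h0 : 0 ≤ θ) (h1 : θ < 1) (hρ0 : 0 < ρ) (hρ1 : ρ < 1)
    (hρ : ((d : ℝ) - 1) * θ ^ 2 < ρ) (k : ℕ) : ∃ C : ℝ, 0 < C ∧
    ∀ (W W' : Finset V), Conv G W → Conv G W' → W ⊆ W' → ∀ r, 0 ≤ r → r ≤ 1 / 2 →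
    ∀ v n, lim_N G W v n →
      ∫ ω, (M G θ W k r v ω - M G θ W' k r v ω) ^ 2 ∂(labM V) ≤ C * ρ ^ n := by
  obtain ⟨C, hC, hstep⟩ := lim_step (G := G) hT hd hreg h0 h1 hρ0 hρ1 hρ
  -- induction step
  have main : ∀ (k : ℕ) (A : ℝ), 0 ≤ A →
      (∀ (W W' : Finset V), Conv G W → Conv G W' → W ⊆ W' → ∀ v n, lim_N G W v n →
        ∫ ω, (M G θ W k 0 v ω - M G θ W' k 0 v ω) ^ 2 ∂(labM V) ≤ A * ρ ^ n) →
      ∃ C : ℝ, 0 < C ∧
      ∀ (W W' : Finset V), Conv G W → Conv G W' → W ⊆ W' → ∀ r, 0 ≤ r → r ≤ 1 / 2 →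
      ∀ v n, lim_N G W v n →
      ∫ ω, (M G θ W k r v ω - M G θ W' k r v ω) ^ 2 ∂(labM V) ≤ C * ρ ^ n := by
    intro k A hA hA0
    refine ⟨2 * (A + C) * Real.exp (2 * C), by positivity, ?_⟩
    intro W W' hW hW' hWW'
    set lam := 2 * C with hlam
    have hlam0 : 0 < lam := by positivity
    -- trivial bound
    set B₀ := 4 * (ρ ^ W.card)⁻¹ with hB₀
    have hB₀0 : 0 ≤ B₀ := by positivity
    have hall : ∀ m : ℕ, ∀ r, 0 ≤ r → r ≤ 1 / 2 → ∀ v n, lim_N G W v n →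
        ∫ ω, (M G θ W k r v ω - M G θ W' k r v ω) ^ 2 ∂(labM V) ≤
          (2 * (A + C) + B₀ * (1 / 2) ^ m) * Real.exp (lam * r) * ρ ^ n := by
      intro m
      induction m with
      | zero =>
        intro r hr hr' v n hN
        have i1 : ∫ ω, (M G θ W k r v ω - M G θ W' k r v ω) ^ 2 ∂(labM V) ≤ 4 := by
          calc _ ≤ ∫ _ω : Lab V, (4 : ℝ) ∂(labM V) := by
                refine integral_mono_of_nonneg (ae_of_all _ fun ω => sq_nonneg _)
                  (integrable_const _) (ae_of_all _ fun ω => ?_)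
                have h3 := abs_le.1 (lim_abs_M_le_one (G := G) h0 h1 W k r v ω)
                have h4 := abs_le.1 (lim_abs_M_le_one (G := G) h0 h1 W' k r v ω)
                simp only
                nlinarith
            _ = _ := by simp
        have i2 : n ≤ W.card := by
          obtain ⟨p, hp0, hp⟩ := exists_ray hT hd hreg v
          have h5 : (Finset.range (n + 1)).card ≤ W.card := by
            refine Finset.card_le_card_of_injOn p ?_ ?_
            · intro i hi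
              refine hN (p i) ?_
              have := (hp i).dist_eq hT (Nat.zero_le i) le_rfl
              rw [hp0] at this
              have := Finset.mem_range.1 (Finset.mem_coe.1 hi)
              omega
            · intro i _ i' _ h
              rcases Nat.lt_trichotomy i i' with hlt | heq | hgt
              · have h6 := (hp i').dist_eq hT hlt.le le_rfl
                simp only [h, SimpleGraph.dist_self] at h6
                omega
              · exact heq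
              · have h6 := (hp i).dist_eq hT hgt.le le_rfl
                simp only [h, SimpleGraph.dist_self] at h6
                omega
          rw [Finset.card_range] at h5
          omega
        have i3 : 4 ≤ B₀ * ρ ^ n := by
          rw [hB₀, mul_assoc]
          have h7 : 1 ≤ (ρ ^ W.card)⁻¹ * ρ ^ n := by
            rw [inv_mul_eq_div, one_le_div (by positivity)]
            exact pow_le_pow_of_le_one hρ0.le hρ1.le i2
          linarith
        have hE : 1 ≤ Real.exp (lam * r) := Real.one_le_exp (by positivity)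
        have hρn : 0 < ρ ^ n := pow_pos hρ0 n
        calc _ ≤ (4 : ℝ) := i1
          _ ≤ B₀ * ρ ^ n := i3
          _ = B₀ * 1 * ρ ^ n := by ring
          _ ≤ (2 * (A + C) + B₀ * (1 / 2) ^ 0) * Real.exp (lam * r) * ρ ^ n := by
              gcongr
              simp only [pow_zero, mul_one]
              linarith
      | succ m ih =>
        have h3 := hstep W W' hW hW' hWW' k A (2 * (A + C) + B₀ * (1 / 2) ^ m) lam hA
          (by positivity) hlam0 (hA0 W W' hW hW' hWW') ih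
        intro r hr hr' v n hN
        refine (h3 r hr hr' v n hN).trans (le_of_eq ?_)
        have h4 : A + C + C * (2 * (A + C) + B₀ * (1 / 2) ^ m) / lam =
            2 * (A + C) + B₀ * (1 / 2) ^ (m + 1) := by
          rw [hlam, pow_succ]
          field_simp
          ring
        rw [h4]
    intro r hr hr' v n hN
    have hlim : Tendsto (fun m : ℕ => (2 * (A + C) + B₀ * (1 / 2) ^ m) * Real.exp (lam * r) * ρ ^ n)
        atTop (𝓝 ((2 * (A + C) + B₀ * 0) * Real.exp (lam * r) * ρ ^ n)) := by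
      have h5 : Tendsto (fun m : ℕ => ((1 : ℝ) / 2) ^ m) atTop (𝓝 0) :=
        tendsto_pow_atTop_nhds_zero_of_lt_one (by norm_num) (by norm_num)
      exact (((h5.const_mul B₀).const_add (2 * (A + C))).mul_const _).mul_const _
    refine (ge_of_tendsto' hlim fun m => hall m r hr hr' v n hN).trans ?_
    have hρn : 0 < ρ ^ n := pow_pos hρ0 n
    rw [mul_zero, add_zero]
    gcongr
    nlinarith
  induction k with
  | zero =>
    refine main 0 0 le_rfl ?_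
    intro W W' hW hW' hWW' v n hN
    have hv := lim_N_mem hN
    simp [lim_M_zero_zero θ hv, lim_M_zero_zero θ (hWW' hv)]
  | succ k ih =>
    obtain ⟨C', hC', h⟩ := ih
    refine main (k + 1) C' hC'.le ?_
    intro W W' hW hW' hWW' v n hN
    simp only [lim_M_succ_zero]
    exact h W W' hW hW' hWW' (1 / 2) (by norm_num) le_rfl v n hN

theorem exists_winRate (hT : G.IsTree) (hd : 3 ≤ d) (hreg : G.IsRegularOfDegree d) {θ : ℝ}
    (h0 : 0 ≤ θ) (hθ : ((d : ℝ) - 1) * θ ^ 2 < 1) (k : ℕ) :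
    ∃ C ρ : ℝ, WinRate G θ k C ρ := by
  have h1 := lim_theta_lt_one hd h0 hθ
  have hb : (0 : ℝ) ≤ (d : ℝ) - 1 := by linarith [lim_dm1 hd]
  have hx : 0 ≤ ((d : ℝ) - 1) * θ ^ 2 := by positivity
  obtain ⟨C, hC, h⟩ := lim_winRate_aux hT hd hreg (ρ := (((d : ℝ) - 1) * θ ^ 2 + 1) / 2) h0 h1
    (by linarith) (by linarith) (by linarith) k
  refine ⟨C, _, hC, (by linarith : 0 < (((d : ℝ) - 1) * θ ^ 2 + 1) / 2), by linarith, ?_⟩
  intro W W' v n s hW hW' hWW' hN hs hs'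
  exact h W W' hW hW' hWW' s hs hs' v n hN

/-! ### infinite volume -/

theorem measurable_Mi (hT : G.IsTree) {θ : ℝ} (h0 : 0 ≤ θ) (h1 : θ < 1) (k : ℕ) (v : V) :
    Measurable (fun p : ℝ × Lab V => Mi G θ k p.1 v p.2) :=
  Measurable.limsup fun n => measurable_M G h0 h1 (ball G v n) k v

theorem Mi_map (hT : G.IsTree) (θ : ℝ) (k : ℕ) (s : ℝ) :
    Eqv1 G (fun v ω => Mi G θ k s v ω) := by
  intro g v ω
  simp only [Mi]
  congr 1
  funext n
  rw [← ball_map hT g v n, M_map]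

theorem abs_M_le (hT : G.IsTree) (hreg : G.IsRegularOfDegree d) {θ : ℝ} (h0 : 0 ≤ θ)
    (h1 : θ < 1) (W : Finset V) {v : V} (hv : v ∈ W) (k : ℕ) {s : ℝ} (hs : 0 ≤ s)
    (hs' : s ≤ 1 / 2) (ω : Lab V) : |M G θ W k s v ω| ≤ rk d k θ :=
  abs_mg_le_tanh G h0 h1 W _ hv (abs_P_le G h0 h1 W k hs hs' ω v) (hreg v).le

private lemma lim_abs_limsup_le {u : ℕ → ℝ} {C : ℝ} (h : ∀ᶠ n in atTop, |u n| ≤ C) :
    |limsup u atTop| ≤ C := by
  have hb1 : IsBoundedUnder (· ≤ ·) atTop u :=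
    ⟨C, by rw [eventually_map]; exact h.mono fun n hn => (abs_le.1 hn).2⟩
  have hb2 : IsBoundedUnder (· ≥ ·) atTop u :=
    ⟨-C, by rw [eventually_map]; exact h.mono fun n hn => (abs_le.1 hn).1⟩
  rw [abs_le]
  constructor
  · exact le_limsup_of_frequently_le (h.mono fun n hn => (abs_le.1 hn).1).frequently hb1
  · exact limsup_le_of_le hb2.isCoboundedUnder_le (h.mono fun n hn => (abs_le.1 hn).2)

theorem abs_Mi_le (hT : G.IsTree) (hreg : G.IsRegularOfDegree d) {θ : ℝ} (h0 : 0 ≤ θ)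
    (h1 : θ < 1) (v : V) (k : ℕ) {s : ℝ} (hs : 0 ≤ s)
    (hs' : s ≤ 1 / 2) (ω : Lab V) : |Mi G θ k s v ω| ≤ rk d k θ :=
  lim_abs_limsup_le (Eventually.of_forall fun n =>
    abs_M_le hT hreg h0 h1 _ ((mem_ball hT).2 (by simp)) k hs hs' ω)

private lemma lim_abs_Mi_le_one {θ : ℝ} (h0 : 0 ≤ θ) (h1 : θ < 1) (k : ℕ) (s : ℝ)
    (v : V) (ω : Lab V) : |Mi G θ k s v ω| ≤ 1 :=
  lim_abs_limsup_le (Eventually.of_forall fun _ => lim_abs_M_le_one h0 h1 _ k s v ω)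

private lemma lim_measurable_Mi {θ : ℝ} (h0 : 0 ≤ θ) (h1 : θ < 1) (k : ℕ) (s : ℝ)
    (v : V) : Measurable (fun ω => Mi G θ k s v ω) :=
  Measurable.limsup fun n => lim_measurable_M h0 h1 (ball G v n) k s v

theorem Mi_succ_zero (θ : ℝ) (k : ℕ) (v : V) (ω : Lab V) :
    Mi G θ (k + 1) 0 v ω = Mi G θ k (1 / 2) v ω := by
  simp only [Mi, lim_M_succ_zero]

theorem Mi_zero_zero (hT : G.IsTree) {θ : ℝ} (h0 : 0 ≤ θ) (h1 : θ < 1) (v : V) (ω : Lab V) :
    Mi G θ 0 0 v ω = 0 := by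
  have : (fun n => M G θ (ball G v n) 0 0 v ω) = fun _ => 0 := by
    funext n
    exact lim_M_zero_zero θ ((mem_ball hT).2 (by simp)) ω
  simp only [Mi, this]
  exact limsup_const _

private lemma lim_abs_le_of_sq {x a : ℝ} (ha : 0 < a) : |x| ≤ (a + a⁻¹ * x ^ 2) / 2 := by
  have h1 : 0 ≤ a⁻¹ * (a - |x|) ^ 2 := by positivity
  have h2 : a⁻¹ * (a - |x|) ^ 2 = a - 2 * |x| + a⁻¹ * x ^ 2 := by
    rw [sub_sq, sq_abs]
    field_simp
  linarith

private lemma lim_integral_abs_le {f : Lab V → ℝ} (hm : Measurable f) {B : ℝ}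
    (hb : ∀ ω, |f ω| ≤ B) {a C : ℝ} (ha : 0 < a) (h : ∫ ω, f ω ^ 2 ∂(labM V) ≤ C * a ^ 2) :
    ∫ ω, |f ω| ∂(labM V) ≤ (1 + C) * a := by
  have hB : 0 ≤ B := by
    by_contra hcon
    obtain ⟨ω⟩ : Nonempty (Lab V) := inferInstance
    exact absurd ((abs_nonneg _).trans (hb ω)) hcon
  have hi : Integrable (fun ω => f ω ^ 2) (labM V) :=
    lim_integrable (hm.pow_const 2) (B ^ 2) fun ω => by
      rw [abs_of_nonneg (sq_nonneg _), ← sq_abs]
      exact pow_le_pow_left₀ (abs_nonneg _) (hb ω) 2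
  calc ∫ ω, |f ω| ∂(labM V) ≤ ∫ ω, (a + a⁻¹ * f ω ^ 2) / 2 ∂(labM V) := by
        refine integral_mono_of_nonneg (ae_of_all _ fun ω => abs_nonneg _) ?_
          (ae_of_all _ fun ω => lim_abs_le_of_sq ha)
        exact ((integrable_const a).add (hi.const_mul _)).div_const 2
    _ = (a + a⁻¹ * ∫ ω, f ω ^ 2 ∂(labM V)) / 2 := by
        rw [integral_div, integral_add (integrable_const a) (hi.const_mul _),
          integral_const_mul]
        simp
    _ ≤ (a + a⁻¹ * (C * a ^ 2)) / 2 := by gcongr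
    _ = (1 + C) / 2 * a := by field_simp
    _ ≤ (1 + C) * a := by
        have h0 : 0 ≤ C * a ^ 2 := (integral_nonneg fun ω => sq_nonneg _).trans h
        have h1 : 0 ≤ C := by
          by_contra hcon
          have : C * a ^ 2 < 0 := mul_neg_of_neg_of_pos (by linarith) (by positivity)
          linarith
        nlinarith

private lemma lim_ae_tendsto (hT : G.IsTree) (hd : 3 ≤ d) (hreg : G.IsRegularOfDegree d)
    {θ : ℝ} (h0 : 0 ≤ θ) (hθ : ((d : ℝ) - 1) * θ ^ 2 < 1) (k : ℕ) {s : ℝ} (hs : 0 ≤ s)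
    (hs' : s ≤ 1 / 2) (v : V) :
    ∀ᵐ ω ∂(labM V), Tendsto (fun n => M G θ (ball G v n) k s v ω) atTop
      (𝓝 (Mi G θ k s v ω)) := by
  have h1 := lim_theta_lt_one hd h0 hθ
  obtain ⟨C, ρ, hC, hρ0, hρ1, hW⟩ := exists_winRate hT hd hreg h0 hθ k
  set σ := √ρ with hσ
  have hσ0 : 0 < σ := Real.sqrt_pos.2 hρ0
  have hσ1 : σ < 1 := by rw [hσ, Real.sqrt_lt' one_pos]; simpa using hρ1
  have hσ2 : σ ^ 2 = ρ := Real.sq_sqrt hρ0.le
  have hmono : ∀ {n m : ℕ}, n ≤ m → ball G v n ⊆ ball G v m := by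
    intro n m hnm w hw
    rw [mem_ball hT] at hw ⊢
    exact hw.trans hnm
  have hcau : ∀ N n m : ℕ, N ≤ n → n ≤ m →
      ∫ ω, |M G θ (ball G v n) k s v ω - M G θ (ball G v m) k s v ω| ∂(labM V) ≤
        (1 + C) * σ ^ N := by
    intro N n m hNn hnm
    refine lim_integral_abs_le (B := 2)
      (f := fun ω => M G θ (ball G v n) k s v ω - M G θ (ball G v m) k s v ω)
      ((lim_measurable_M h0 h1 _ k s v).sub (lim_measurable_M h0 h1 _ k s v)) ?_
      (pow_pos hσ0 N) ?_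
    · intro ω
      have h3 := abs_le.1 (lim_abs_M_le_one (G := G) h0 h1 (ball G v n) k s v ω)
      have h4 := abs_le.1 (lim_abs_M_le_one (G := G) h0 h1 (ball G v m) k s v ω)
      rw [abs_le]
      constructor <;> linarith
    · refine (hW (ball G v n) (ball G v m) v N s (conv_ball hT v n) (conv_ball hT v m)
        (hmono hnm) ?_ hs hs').trans (le_of_eq ?_)
      · intro w hw
        exact (mem_ball hT).2 (hw.trans hNn)
      · rw [← hσ2, ← pow_mul, ← pow_mul, mul_comm 2 N]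
  have hae := Lp.ae_tendsto_of_cauchy_eLpNorm (μ := labM V) (p := 1)
    (f := fun n ω => M G θ (ball G v n) k s v ω)
    (B := fun N => ENNReal.ofReal ((2 + C) * σ ^ N))
    (fun n => (lim_measurable_M h0 h1 _ k s v).aestronglyMeasurable) le_rfl
    (((summable_geometric_of_lt_one hσ0.le hσ1).mul_left (2 + C)).tsum_ofReal_ne_top) ?_
  · filter_upwards [hae] with ω hω
    obtain ⟨l, hl⟩ := hω
    have : Mi G θ k s v ω = l := hl.limsup_eq
    rw [this]
    exact hl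
  · have hkey : ∀ N n m : ℕ, N ≤ n → n ≤ m → eLpNorm ((fun ω => M G θ (ball G v n) k s v ω) -
        fun ω => M G θ (ball G v m) k s v ω) 1 (labM V) <
        ENNReal.ofReal ((2 + C) * σ ^ N) := by
      intro N n m hn hm
      rw [eLpNorm_one_eq_lintegral_enorm]
      have hint : Integrable ((fun ω => M G θ (ball G v n) k s v ω) -
          fun ω => M G θ (ball G v m) k s v ω) (labM V) := by
        refine Integrable.sub ?_ ?_
        · exact lim_integrable (lim_measurable_M h0 h1 _ k s v) 1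
            fun ω => lim_abs_M_le_one h0 h1 _ k s v ω
        · exact lim_integrable (lim_measurable_M h0 h1 _ k s v) 1
            fun ω => lim_abs_M_le_one h0 h1 _ k s v ω
      rw [← ofReal_integral_norm_eq_lintegral_enorm hint]
      refine (ENNReal.ofReal_lt_ofReal_iff (by positivity)).2 ?_
      refine lt_of_le_of_lt (hcau N n m hn hm) ?_
      have : 0 < σ ^ N := pow_pos hσ0 N
      nlinarith
    intro N n m hn hm
    rcases le_total n m with h | h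
    · exact hkey N n m hn h
    · rw [eLpNorm_sub_comm]
      exact hkey N m n hm h

private lemma lim_MiRate_aux (hT : G.IsTree) (hd : 3 ≤ d) (hreg : G.IsRegularOfDegree d)
    {θ ρ : ℝ} (h0 : 0 ≤ θ) (hθ : ((d : ℝ) - 1) * θ ^ 2 < 1) (hρ0 : 0 < ρ) (hρ1 : ρ < 1)
    (hρ : ((d : ℝ) - 1) * θ ^ 2 < ρ) (k : ℕ) : ∃ C : ℝ, 0 < C ∧
    ∀ (W : Finset V), Conv G W → ∀ r, 0 ≤ r → r ≤ 1 / 2 → ∀ v n, lim_N G W v n →
      ∫ ω, (M G θ W k r v ω - Mi G θ k r v ω) ^ 2 ∂(labM V) ≤ C * ρ ^ n := by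
  have h1 := lim_theta_lt_one hd h0 hθ
  obtain ⟨C, hC, hW⟩ := lim_winRate_aux (G := G) hT hd hreg h0 h1 hρ0 hρ1 hρ k
  refine ⟨C, hC, ?_⟩
  intro W hWc r hr hr' v n hN
  have hlim : Tendsto (fun m => ∫ ω, (M G θ W k r v ω - M G θ (ball G v m) k r v ω) ^ 2
      ∂(labM V)) atTop (𝓝 (∫ ω, (M G θ W k r v ω - Mi G θ k r v ω) ^ 2 ∂(labM V))) := by
    refine tendsto_integral_of_dominated_convergence (fun _ => 4) ?_ (integrable_const _) ?_ ?_
    · intro m
      exact (((lim_measurable_M h0 h1 _ k r v).sub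
        (lim_measurable_M h0 h1 _ k r v)).pow_const 2).aestronglyMeasurable
    · intro m
      refine ae_of_all _ fun ω => ?_
      have h3 := abs_le.1 (lim_abs_M_le_one (G := G) h0 h1 W k r v ω)
      have h4 := abs_le.1 (lim_abs_M_le_one (G := G) h0 h1 (ball G v m) k r v ω)
      rw [Real.norm_eq_abs, abs_of_nonneg (sq_nonneg _)]
      nlinarith
    · filter_upwards [lim_ae_tendsto hT hd hreg h0 hθ k hr hr' v] with ω hω
      exact (hω.const_sub _).pow 2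
  refine le_of_tendsto hlim ?_
  filter_upwards [eventually_ge_atTop (W.sup (G.dist v))] with m hm
  refine hW W (ball G v m) hWc (conv_ball hT v m) ?_ r hr hr' v n hN
  intro w hw
  rw [mem_ball hT]
  exact (Finset.le_sup (f := G.dist v) hw).trans hm

/-- L² approximation of `Mi` by windows. -/
theorem exists_MiRate (hT : G.IsTree) (hd : 3 ≤ d) (hreg : G.IsRegularOfDegree d) {θ : ℝ}
    (h0 : 0 ≤ θ) (hθ : ((d : ℝ) - 1) * θ ^ 2 < 1) (k : ℕ) :
    ∃ C ρ : ℝ, 0 < C ∧ 0 < ρ ∧ ρ < 1 ∧ ∀ (W : Finset V) (v : V) (n : ℕ) (s : ℝ), Conv G W →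
    (∀ w, G.dist v w ≤ n → w ∈ W) → 0 ≤ s → s ≤ 1 / 2 →
    ∫ ω, (M G θ W k s v ω - Mi G θ k s v ω) ^ 2 ∂(labM V) ≤ C * ρ ^ n := by
  have h1 := lim_theta_lt_one hd h0 hθ
  have hb : (0 : ℝ) ≤ (d : ℝ) - 1 := by linarith [lim_dm1 hd]
  have hx : 0 ≤ ((d : ℝ) - 1) * θ ^ 2 := by positivity
  obtain ⟨C, hC, h⟩ := lim_MiRate_aux hT hd hreg (ρ := (((d : ℝ) - 1) * θ ^ 2 + 1) / 2) h0 hθ
    (by linarith) (by linarith) (by linarith) k
  refine ⟨C, _, hC, (by linarith : 0 < (((d : ℝ) - 1) * θ ^ 2 + 1) / 2), by linarith, ?_⟩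
  intro W v n s hW hN hs hs'
  exact h W hW s hs hs' v n hN

/-! ### functionals of pairs of sequences -/

private structure lim_Fun (t C : ℝ) (Φ : ℕ → (ℕ → ℝ) → (ℕ → ℝ) → ℝ) : Prop where
  C_pos : 0 < C
  meas : ∀ j, Measurable (fun z : (ℕ → ℝ) × (ℕ → ℝ) => Φ j z.1 z.2)
  nonneg : ∀ j a a', 0 ≤ Φ j a a'
  le : ∀ j (a a' : ℕ → ℝ), (∀ i, |a i| ≤ 1) → (∀ i, |a' i| ≤ 1) → Φ j a a' ≤ C * t ^ (2 * j)
  lip : ∀ j (a a' c c' : ℕ → ℝ), (∀ i, |a i| ≤ 1) → (∀ i, |a' i| ≤ 1) → (∀ i, |c i| ≤ 1) →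
    (∀ i, |c' i| ≤ 1) → |Φ j a a' - Φ j c c'| ≤
      C * t ^ (2 * j) * ∑ i ∈ Finset.range (j + 1), (|a i - c i| + |a' i - c' i|)

private lemma lim_sq_sub_sq_le {x y D B : ℝ} (hD : |x - y| ≤ D) (hx : |x| ≤ B) (hy : |y| ≤ B) :
    |x ^ 2 - y ^ 2| ≤ D * (2 * B) := by
  have h1 : x ^ 2 - y ^ 2 = (x - y) * (x + y) := by ring
  rw [h1, abs_mul]
  have h2 : |x + y| ≤ 2 * B := (abs_add_le _ _).trans (by linarith)
  exact mul_le_mul hD h2 (abs_nonneg _) ((abs_nonneg _).trans hD)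

private lemma lim_fun1 {θ θ' t : ℝ} (h0 : 0 ≤ θ) (h0' : 0 ≤ θ') (ht : θ ≤ t) (ht' : θ' ≤ t)
    (h1 : t < 1) : ∃ C : ℝ, lim_Fun t C
      (fun j a a' => (lim_Ks θ a j - lim_Ks θ' a' j) ^ 2) := by
  obtain ⟨C₁, hC₁, hl₁⟩ := lim_Ks_lip h0 (ht.trans_lt h1)
  obtain ⟨C₂, hC₂, hl₂⟩ := lim_Ks_lip h0' (ht'.trans_lt h1)
  have ht0 : 0 ≤ t := h0.trans ht
  have hpw : ∀ j, θ ^ j ≤ t ^ j := fun j => pow_le_pow_left₀ h0 ht j
  have hpw' : ∀ j, θ' ^ j ≤ t ^ j := fun j => pow_le_pow_left₀ h0' ht' j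
  have hbd : ∀ j (a a' : ℕ → ℝ), (∀ i, |a i| ≤ 1) → (∀ i, |a' i| ≤ 1) →
      |lim_Ks θ a j - lim_Ks θ' a' j| ≤ t ^ j := by
    intro j a a' ha ha'
    have e1 := lim_Ks_nonneg h0 (ht.trans_lt h1) ha j
    have e2 := lim_Ks_le h0 (ht.trans_lt h1) ha j
    have e3 := lim_Ks_nonneg h0' (ht'.trans_lt h1) ha' j
    have e4 := lim_Ks_le h0' (ht'.trans_lt h1) ha' j
    have e5 := hpw j
    have e6 := hpw' j
    rw [abs_le]
    constructor <;> linarith
  refine ⟨2 * (C₁ + C₂) + 1, by positivity, ?_, fun j a a' => sq_nonneg _, ?_, ?_⟩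
  · intro j
    exact (((lim_measurable_Ks θ j).comp measurable_fst).sub
      ((lim_measurable_Ks θ' j).comp measurable_snd)).pow_const 2
  · intro j a a' ha ha'
    have e1 := hbd j a a' ha ha'
    rw [← sq_abs, pow_mul']
    have e2 := pow_le_pow_left₀ (abs_nonneg _) e1 2
    have e3 : 0 ≤ (t ^ j) ^ 2 := by positivity
    nlinarith
  · intro j a a' c c' ha ha' hc hc'
    have hS0 : 0 ≤ ∑ i ∈ Finset.range (j + 1), (|a i - c i| + |a' i - c' i|) :=
      Finset.sum_nonneg fun i _ => by positivity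
    have e1 : |(lim_Ks θ a j - lim_Ks θ' a' j) - (lim_Ks θ c j - lim_Ks θ' c' j)| ≤
        (C₁ + C₂) * t ^ j * ∑ i ∈ Finset.range (j + 1), (|a i - c i| + |a' i - c' i|) := by
      have e2 := hl₁ a c j ha hc
      have e3 := hl₂ a' c' j ha' hc'
      have e4 : ∑ i ∈ Finset.range (j + 1), |a i - c i| ≤
          ∑ i ∈ Finset.range (j + 1), (|a i - c i| + |a' i - c' i|) :=
        Finset.sum_le_sum fun i _ => le_add_of_nonneg_right (abs_nonneg _)
      have e5 : ∑ i ∈ Finset.range (j + 1), |a' i - c' i| ≤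
          ∑ i ∈ Finset.range (j + 1), (|a i - c i| + |a' i - c' i|) :=
        Finset.sum_le_sum fun i _ => le_add_of_nonneg_left (abs_nonneg _)
      have e6 : (lim_Ks θ a j - lim_Ks θ' a' j) - (lim_Ks θ c j - lim_Ks θ' c' j) =
          (lim_Ks θ a j - lim_Ks θ c j) - (lim_Ks θ' a' j - lim_Ks θ' c' j) := by ring
      rw [e6]
      calc _ ≤ |lim_Ks θ a j - lim_Ks θ c j| + |lim_Ks θ' a' j - lim_Ks θ' c' j| := abs_sub _ _
        _ ≤ C₁ * θ ^ j * (∑ i ∈ Finset.range (j + 1), |a i - c i|) +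
            C₂ * θ' ^ j * (∑ i ∈ Finset.range (j + 1), |a' i - c' i|) := add_le_add e2 e3
        _ ≤ C₁ * t ^ j * (∑ i ∈ Finset.range (j + 1), (|a i - c i| + |a' i - c' i|)) +
            C₂ * t ^ j * (∑ i ∈ Finset.range (j + 1), (|a i - c i| + |a' i - c' i|)) := by
            gcongr
        _ = _ := by ring
    refine (lim_sq_sub_sq_le e1 (hbd j a a' ha ha') (hbd j c c' hc hc')).trans ?_
    have e7 : 0 ≤ t ^ (2 * j) * ∑ i ∈ Finset.range (j + 1), (|a i - c i| + |a' i - c' i|) := by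
      positivity
    have e8 : (C₁ + C₂) * t ^ j * (∑ i ∈ Finset.range (j + 1), (|a i - c i| + |a' i - c' i|)) *
        (2 * t ^ j) = 2 * (C₁ + C₂) *
          (t ^ (2 * j) * ∑ i ∈ Finset.range (j + 1), (|a i - c i| + |a' i - c' i|)) := by
      rw [pow_mul']
      ring
    rw [e8, mul_assoc (2 * (C₁ + C₂) + 1)]
    exact mul_le_mul_of_nonneg_right (by linarith) e7

private lemma lim_fun2 {θ' t : ℝ} (h0' : 0 ≤ θ') (ht' : θ' ≤ t)
    (h1 : t < 1) : ∃ C : ℝ, lim_Fun t C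
      (fun j a a' => lim_Ks θ' a' j ^ 2 * (a j - a' j) ^ 2) := by
  obtain ⟨C₂, hC₂, hl₂⟩ := lim_Ks_lip h0' (ht'.trans_lt h1)
  have ht0 : 0 ≤ t := h0'.trans ht'
  have hpw' : ∀ j, θ' ^ j ≤ t ^ j := fun j => pow_le_pow_left₀ h0' ht' j
  have hK : ∀ j (a' : ℕ → ℝ), (∀ i, |a' i| ≤ 1) → |lim_Ks θ' a' j| ≤ t ^ j :=
    fun j a' ha' => (lim_abs_Ks_le h0' (ht'.trans_lt h1) ha' j).trans (hpw' j)
  have hd2 : ∀ j (a a' : ℕ → ℝ), (∀ i, |a i| ≤ 1) → (∀ i, |a' i| ≤ 1) → |a j - a' j| ≤ 2 := by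
    intro j a a' ha ha'
    have e1 := abs_le.1 (ha j)
    have e2 := abs_le.1 (ha' j)
    rw [abs_le]
    constructor <;> linarith
  have hbd : ∀ j (a a' : ℕ → ℝ), (∀ i, |a i| ≤ 1) → (∀ i, |a' i| ≤ 1) →
      |lim_Ks θ' a' j * (a j - a' j)| ≤ 2 * t ^ j := by
    intro j a a' ha ha'
    rw [abs_mul, mul_comm]
    exact mul_le_mul (hd2 j a a' ha ha') (hK j a' ha') (abs_nonneg _) (by norm_num)
  refine ⟨4 * (2 * C₂ + 1), by positivity, ?_, fun j a a' => by positivity, ?_, ?_⟩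
  · intro j
    refine (((lim_measurable_Ks θ' j).comp measurable_snd).pow_const 2).mul ?_
    fun_prop
  · intro j a a' ha ha'
    have e1 := hbd j a a' ha ha'
    have e2 := pow_le_pow_left₀ (abs_nonneg _) e1 2
    rw [sq_abs, mul_pow, mul_pow] at e2
    refine e2.trans ?_
    rw [pow_mul']
    have e3 : 0 ≤ (t ^ j) ^ 2 := by positivity
    nlinarith
  · intro j a a' c c' ha ha' hc hc'
    have hS0 : 0 ≤ ∑ i ∈ Finset.range (j + 1), (|a i - c i| + |a' i - c' i|) :=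
      Finset.sum_nonneg fun i _ => by positivity
    have e1 : |lim_Ks θ' a' j * (a j - a' j) - lim_Ks θ' c' j * (c j - c' j)| ≤
        (2 * C₂ + 1) * t ^ j * ∑ i ∈ Finset.range (j + 1), (|a i - c i| + |a' i - c' i|) := by
      have e3 := hl₂ a' c' j ha' hc'
      have e5 : ∑ i ∈ Finset.range (j + 1), |a' i - c' i| ≤
          ∑ i ∈ Finset.range (j + 1), (|a i - c i| + |a' i - c' i|) :=
        Finset.sum_le_sum fun i _ => le_add_of_nonneg_left (abs_nonneg _)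
      have e6 : lim_Ks θ' a' j * (a j - a' j) - lim_Ks θ' c' j * (c j - c' j) =
          (lim_Ks θ' a' j - lim_Ks θ' c' j) * (a j - a' j) +
          lim_Ks θ' c' j * ((a j - c j) - (a' j - c' j)) := by ring
      have e7 : |(a j - c j) - (a' j - c' j)| ≤
          ∑ i ∈ Finset.range (j + 1), (|a i - c i| + |a' i - c' i|) := by
        refine (abs_sub _ _).trans ?_
        exact Finset.single_le_sum (f := fun i => |a i - c i| + |a' i - c' i|)
          (fun i _ => by positivity) (by simp)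
      rw [e6]
      calc _ ≤ |lim_Ks θ' a' j - lim_Ks θ' c' j| * |a j - a' j| +
            |lim_Ks θ' c' j| * |(a j - c j) - (a' j - c' j)| := by
            rw [← abs_mul, ← abs_mul]; exact abs_add_le _ _
        _ ≤ (C₂ * t ^ j * ∑ i ∈ Finset.range (j + 1), (|a i - c i| + |a' i - c' i|)) * 2 +
            t ^ j * ∑ i ∈ Finset.range (j + 1), (|a i - c i| + |a' i - c' i|) := by
            refine add_le_add (mul_le_mul ?_ (hd2 j a a' ha ha') (abs_nonneg _) (by positivity))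
              (mul_le_mul (hK j c' hc') e7 (abs_nonneg _) (by positivity))
            refine e3.trans ?_
            gcongr
        _ = _ := by ring
    have e9 := lim_sq_sub_sq_le e1 (hbd j a a' ha ha') (hbd j c c' hc hc')
    simp only [← mul_pow]
    refine e9.trans (le_of_eq ?_)
    rw [pow_mul']
    ring

private lemma lim_fun3 {θ : ℝ} (h0 : 0 ≤ θ) (h1 : θ < 1) : ∃ C : ℝ, lim_Fun θ C
      (fun j a _ => lim_Ks θ a j ^ 2) := by
  obtain ⟨C₁, hC₁, hl₁⟩ := lim_Ks_lip h0 h1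
  refine ⟨2 * C₁ + 1, by positivity, ?_, fun j a a' => sq_nonneg _, ?_, ?_⟩
  · intro j
    exact ((lim_measurable_Ks θ j).comp measurable_fst).pow_const 2
  · intro j a a' ha ha'
    have e1 := lim_abs_Ks_le h0 h1 ha j
    rw [← sq_abs, pow_mul']
    have e2 := pow_le_pow_left₀ (abs_nonneg _) e1 2
    have e3 : 0 ≤ (θ ^ j) ^ 2 := by positivity
    nlinarith
  · intro j a a' c c' ha ha' hc hc'
    have e4 : ∑ i ∈ Finset.range (j + 1), |a i - c i| ≤
        ∑ i ∈ Finset.range (j + 1), (|a i - c i| + |a' i - c' i|) :=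
      Finset.sum_le_sum fun i _ => le_add_of_nonneg_right (abs_nonneg _)
    refine (lim_sq_sub_sq_le (hl₁ a c j ha hc) (lim_abs_Ks_le h0 h1 ha j)
      (lim_abs_Ks_le h0 h1 hc j)).trans ?_
    calc _ = 2 * C₁ * θ ^ (2 * j) * ∑ i ∈ Finset.range (j + 1), |a i - c i| := by
          rw [pow_mul']; ring
      _ ≤ 2 * C₁ * θ ^ (2 * j) * ∑ i ∈ Finset.range (j + 1), (|a i - c i| + |a' i - c' i|) := by
          gcongr
      _ ≤ _ := by
          have hS0 : 0 ≤ ∑ i ∈ Finset.range (j + 1), (|a i - c i| + |a' i - c' i|) :=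
            Finset.sum_nonneg fun i _ => by positivity
          gcongr
          linarith

omit [G.LocallyFinite] in
private lemma lim_Fun.congr {t C : ℝ} {Φ : ℕ → (ℕ → ℝ) → (ℕ → ℝ) → ℝ} (hΦ : lim_Fun t C Φ)
    {j : ℕ} {a a' c c' : ℕ → ℝ} (ha : ∀ i, |a i| ≤ 1) (ha' : ∀ i, |a' i| ≤ 1)
    (hc : ∀ i, |c i| ≤ 1) (hc' : ∀ i, |c' i| ≤ 1) (h : ∀ i ≤ j, a i = c i)
    (h' : ∀ i ≤ j, a' i = c' i) : Φ j a a' = Φ j c c' := by
  have e1 := hΦ.lip j a a' c c' ha ha' hc hc'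
  have e2 : ∑ i ∈ Finset.range (j + 1), (|a i - c i| + |a' i - c' i|) = 0 := by
    refine Finset.sum_eq_zero fun i hi => ?_
    have hi' : i ≤ j := Nat.lt_succ_iff.1 (Finset.mem_range.1 hi)
    rw [h i hi', h' i hi']
    simp
  rw [e2, mul_zero] at e1
  have e3 := abs_nonneg (Φ j a a' - Φ j c c')
  exact sub_eq_zero.1 (abs_eq_zero.1 (le_antisymm e1 e3))

/-- the expectation of the functional in infinite volume. -/
private noncomputable def lim_EF (G : SimpleGraph V) (θ θ' : ℝ) (k : ℕ)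
    (Φ : ℕ → (ℕ → ℝ) → (ℕ → ℝ) → ℝ) (p : ℕ → V) (r : ℝ) (j : ℕ) : ℝ :=
  ∫ ω, Φ j (fun i => Mi G θ k r (p i) ω) (fun i => Mi G θ' k r (p i) ω) ∂(labM V)

private lemma lim_EF_nonneg {t C : ℝ} {Φ : ℕ → (ℕ → ℝ) → (ℕ → ℝ) → ℝ} (hΦ : lim_Fun t C Φ)
    (θ θ' : ℝ) (k : ℕ) (p : ℕ → V) (r : ℝ) (j : ℕ) : 0 ≤ lim_EF G θ θ' k Φ p r j :=
  integral_nonneg fun _ => hΦ.nonneg j _ _

private lemma lim_EF_le {t C : ℝ} {Φ : ℕ → (ℕ → ℝ) → (ℕ → ℝ) → ℝ} (hΦ : lim_Fun t C Φ)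
    {θ θ' : ℝ} (h0 : 0 ≤ θ) (h1 : θ < 1) (h0' : 0 ≤ θ') (h1' : θ' < 1)
    (k : ℕ) (p : ℕ → V) (r : ℝ) (j : ℕ) : lim_EF G θ θ' k Φ p r j ≤ C * t ^ (2 * j) := by
  unfold lim_EF
  calc _ ≤ ∫ _ω : Lab V, C * t ^ (2 * j) ∂(labM V) := by
        refine integral_mono_of_nonneg (ae_of_all _ fun ω => hΦ.nonneg j _ _)
          (integrable_const _) (ae_of_all _ fun ω => ?_)
        exact hΦ.le j _ _ (fun i => lim_abs_Mi_le_one h0 h1 k r _ ω)
          (fun i => lim_abs_Mi_le_one h0' h1' k r _ ω)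
    _ = _ := by simp

private lemma lim_summable_EF (hd : 3 ≤ d) {t C : ℝ} (ht0 : 0 ≤ t)
    (ht : ((d : ℝ) - 1) * t ^ 2 < 1) {Φ : ℕ → (ℕ → ℝ) → (ℕ → ℝ) → ℝ} (hΦ : lim_Fun t C Φ)
    {θ θ' : ℝ} (h0 : 0 ≤ θ) (h1 : θ < 1) (h0' : 0 ≤ θ') (h1' : θ' < 1)
    (k : ℕ) (p : ℕ → V) (r : ℝ) :
    Summable (fun j : ℕ => 2 * ((d : ℝ) - 1) ^ j * lim_EF G θ θ' k Φ p r j) := by
  have hb : (0 : ℝ) ≤ (d : ℝ) - 1 := by linarith [lim_dm1 hd]
  have hx : 0 ≤ ((d : ℝ) - 1) * t ^ 2 := by positivity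
  refine Summable.of_nonneg_of_le (fun j => mul_nonneg (by positivity)
    (lim_EF_nonneg hΦ θ θ' k p r j)) (fun j => ?_)
    ((summable_geometric_of_lt_one hx ht).mul_left (2 * C))
  calc 2 * ((d : ℝ) - 1) ^ j * lim_EF G θ θ' k Φ p r j ≤
        2 * ((d : ℝ) - 1) ^ j * (C * t ^ (2 * j)) :=
        mul_le_mul_of_nonneg_left (lim_EF_le hΦ h0 h1 h0' h1' k p r j) (by positivity)
    _ = 2 * C * (((d : ℝ) - 1) * t ^ 2) ^ j := by rw [mul_pow, pow_mul]; ring

private lemma lim_tsum_EF_le (hd : 3 ≤ d) {t C : ℝ} (ht0 : 0 ≤ t)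
    (ht : ((d : ℝ) - 1) * t ^ 2 < 1) {Φ : ℕ → (ℕ → ℝ) → (ℕ → ℝ) → ℝ} (hΦ : lim_Fun t C Φ)
    {θ θ' : ℝ} (h0 : 0 ≤ θ) (h1 : θ < 1) (h0' : 0 ≤ θ') (h1' : θ' < 1)
    (k : ℕ) (p : ℕ → V) (r : ℝ) :
    ∑' j : ℕ, 2 * ((d : ℝ) - 1) ^ j * lim_EF G θ θ' k Φ p r j ≤
      ∑' j : ℕ, 2 * C * (((d : ℝ) - 1) * t ^ 2) ^ j := by
  have hb : (0 : ℝ) ≤ (d : ℝ) - 1 := by linarith [lim_dm1 hd]
  have hx : 0 ≤ ((d : ℝ) - 1) * t ^ 2 := by positivity
  refine Summable.tsum_le_tsum (fun j => ?_) (lim_summable_EF hd ht0 ht hΦ h0 h1 h0' h1' k p r)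
    ((summable_geometric_of_lt_one hx ht).mul_left (2 * C))
  calc 2 * ((d : ℝ) - 1) ^ j * lim_EF G θ θ' k Φ p r j ≤
        2 * ((d : ℝ) - 1) ^ j * (C * t ^ (2 * j)) :=
        mul_le_mul_of_nonneg_left (lim_EF_le hΦ h0 h1 h0' h1' k p r j) (by positivity)
    _ = 2 * C * (((d : ℝ) - 1) * t ^ 2) ^ j := by rw [mul_pow, pow_mul]; ring

private lemma lim_measurable_seq (hT : G.IsTree) {θ : ℝ} (h0 : 0 ≤ θ) (h1 : θ < 1) (k : ℕ)
    (p : ℕ → V) : Measurable (fun z : ℝ × Lab V => fun i => Mi G θ k z.1 (p i) z.2) :=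
  measurable_pi_lambda _ fun i => measurable_Mi hT h0 h1 k (p i)

private lemma lim_measurable_tsum_EF (hT : G.IsTree) (hd : 3 ≤ d) {t C : ℝ} (ht0 : 0 ≤ t)
    (ht : ((d : ℝ) - 1) * t ^ 2 < 1) {Φ : ℕ → (ℕ → ℝ) → (ℕ → ℝ) → ℝ} (hΦ : lim_Fun t C Φ)
    {θ θ' : ℝ} (h0 : 0 ≤ θ) (h1 : θ < 1) (h0' : 0 ≤ θ') (h1' : θ' < 1)
    (k : ℕ) (p : ℕ → V) :
    Measurable (fun r => ∑' j : ℕ, 2 * ((d : ℝ) - 1) ^ j * lim_EF G θ θ' k Φ p r j) := by
  have hm : ∀ j, Measurable (fun r => lim_EF G θ θ' k Φ p r j) := by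
    intro j
    have h2 : Measurable (Function.uncurry fun (r : ℝ) (ω : Lab V) =>
        Φ j (fun i => Mi G θ k r (p i) ω) (fun i => Mi G θ' k r (p i) ω)) :=
      (hΦ.meas j).comp ((lim_measurable_seq hT h0 h1 k p).prodMk
        (lim_measurable_seq hT h0' h1' k p))
    exact (h2.stronglyMeasurable.integral_prod_right (ν := labM V)).measurable
  refine measurable_of_tendsto_metrizable
    (f := fun n r => ∑ j ∈ Finset.range n, 2 * ((d : ℝ) - 1) ^ j * lim_EF G θ θ' k Φ p r j)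
    (fun n => Finset.measurable_sum _ fun j _ => (hm j).const_mul _) ?_
  exact tendsto_pi_nhds.2 fun r =>
    (lim_summable_EF hd ht0 ht hΦ h0 h1 h0' h1' k p r).hasSum.tendsto_sum_nat

/-- all paths of the same length give the same expectation. -/
private lemma lim_EF_path (hT : G.IsTree) (hd : 3 ≤ d) (hreg : G.IsRegularOfDegree d) {t C : ℝ}
    {Φ : ℕ → (ℕ → ℝ) → (ℕ → ℝ) → ℝ} (hΦ : lim_Fun t C Φ)
    {θ θ' : ℝ} (h0 : 0 ≤ θ) (h1 : θ < 1) (h0' : 0 ≤ θ') (h1' : θ' < 1)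
    (k : ℕ) {p q : ℕ → V} (r : ℝ) {j : ℕ} (hp : IsGeo G j p) (hq : IsGeo G j q) :
    lim_EF G θ θ' k Φ q r j = lim_EF G θ θ' k Φ p r j := by
  obtain ⟨g, hg⟩ := exists_aut hT hd hreg hp hq
  unfold lim_EF
  have e1 : ∀ ω, Φ j (fun i => Mi G θ k r (q i) ω) (fun i => Mi G θ' k r (q i) ω) =
      Φ j (fun i => Mi G θ k r (p i) (act g ω)) (fun i => Mi G θ' k r (p i) (act g ω)) := by
    intro ω
    refine hΦ.congr (fun i => lim_abs_Mi_le_one h0 h1 k r _ ω)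
      (fun i => lim_abs_Mi_le_one h0' h1' k r _ ω)
      (fun i => lim_abs_Mi_le_one h0 h1 k r _ _) (fun i => lim_abs_Mi_le_one h0' h1' k r _ _)
      ?_ ?_
    · intro i hi
      rw [← hg i hi]
      exact Mi_map hT θ k r g (p i) ω
    · intro i hi
      rw [← hg i hi]
      exact Mi_map hT θ' k r g (p i) ω
  simp only [e1]
  have hm : Measurable (fun ω => Φ j (fun i => Mi G θ k r (p i) ω)
      (fun i => Mi G θ' k r (p i) ω)) :=
    (hΦ.meas j).comp (f := fun ω => ((fun i => Mi G θ k r (p i) ω),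
      (fun i => Mi G θ' k r (p i) ω))) ((measurable_pi_lambda _ fun i =>
        lim_measurable_Mi h0 h1 k r (p i)).prodMk (measurable_pi_lambda _ fun i =>
        lim_measurable_Mi h0' h1' k r (p i)))
  have hmp := measurePreserving_act (G := G) g
  have e2 := integral_map (μ := labM V) hmp.measurable.aemeasurable (f := fun ω =>
    Φ j (fun i => Mi G θ k r (p i) ω) (fun i => Mi G θ' k r (p i) ω))
    hm.aestronglyMeasurable
  rw [hmp.map_eq] at e2
  exact e2.symm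

/-- finite volume sums are bounded by the infinite volume sums along a fixed ray. -/
private lemma lim_main (hT : G.IsTree) (hd : 3 ≤ d) (hreg : G.IsRegularOfDegree d) {t C : ℝ}
    (ht : ((d : ℝ) - 1) * t ^ 2 < 1) {Φ : ℕ → (ℕ → ℝ) → (ℕ → ℝ) → ℝ} (hΦ : lim_Fun t C Φ)
    {θ θ' : ℝ} (h0 : 0 ≤ θ) (h0' : 0 ≤ θ') (hθt : θ ≤ t) (hθt' : θ' ≤ t)
    (k : ℕ) {p : ℕ → V} (hp : ∀ k, IsGeo G k p) :
    ∃ K σ : ℝ, 0 < K ∧ 0 < σ ∧ σ < 1 ∧ ∀ (n : ℕ) (r : ℝ), 0 ≤ r → r ≤ 1 / 2 → ∀ f : V → ℝ,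
      (∀ u ∈ ball G (p 0) n, ∀ q, IsGeo G (G.dist (p 0) u) q → q 0 = p 0 →
        q (G.dist (p 0) u) = u → f u = ∫ ω, Φ (G.dist (p 0) u)
          (fun i => M G θ (ball G (p 0) n) k r (q i) ω)
          (fun i => M G θ' (ball G (p 0) n) k r (q i) ω) ∂(labM V)) →
      ∑ u ∈ ball G (p 0) n, f u ≤
        ∑' j : ℕ, 2 * ((d : ℝ) - 1) ^ j * lim_EF G θ θ' k Φ p r j + K * σ ^ n := by
  have ht0 : 0 ≤ t := h0.trans hθt
  have hb : (0 : ℝ) ≤ (d : ℝ) - 1 := by linarith [lim_dm1 hd]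
  have hx : 0 ≤ ((d : ℝ) - 1) * t ^ 2 := by positivity
  have hθ : ((d : ℝ) - 1) * θ ^ 2 ≤ ((d : ℝ) - 1) * t ^ 2 := by gcongr
  have hθ' : ((d : ℝ) - 1) * θ' ^ 2 ≤ ((d : ℝ) - 1) * t ^ 2 := by gcongr
  have h1 := lim_theta_lt_one hd h0 (hθ.trans_lt ht)
  have h1' := lim_theta_lt_one hd h0' (hθ'.trans_lt ht)
  obtain ⟨ρ, hρ⟩ : ∃ ρ : ℝ, ρ = (((d : ℝ) - 1) * t ^ 2 + 1) / 2 := ⟨_, rfl⟩
  have hρ0 : 0 < ρ := by rw [hρ]; linarith
  have hρ1 : ρ < 1 := by rw [hρ]; linarith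
  have hρt : ((d : ℝ) - 1) * t ^ 2 < ρ := by rw [hρ]; linarith
  obtain ⟨C₁, hC₁, hM₁⟩ := lim_MiRate_aux (G := G) hT hd hreg h0 (hθ.trans_lt ht) hρ0 hρ1
    (hθ.trans_lt hρt) k
  obtain ⟨C₂, hC₂, hM₂⟩ := lim_MiRate_aux (G := G) hT hd hreg h0' (hθ'.trans_lt ht) hρ0 hρ1
    (hθ'.trans_lt hρt) k
  obtain ⟨σ, hσ⟩ : ∃ σ : ℝ, σ = √ρ := ⟨_, rfl⟩
  have hσ0 : 0 < σ := by rw [hσ]; exact Real.sqrt_pos.2 hρ0
  have hσ1 : σ < 1 := by rw [hσ, Real.sqrt_lt' one_pos]; simpa using hρ1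
  have hσ2 : σ ^ 2 = ρ := by rw [hσ]; exact Real.sq_sqrt hρ0.le
  have hσt : ((d : ℝ) - 1) * t ^ 2 < σ := by nlinarith
  have hsum := lim_summable_sphere hd (t := t) hσ0 hσt
  obtain ⟨S, hS⟩ : ∃ S : ℝ, S = ∑' j : ℕ, 2 * ((d : ℝ) - 1) ^ j *
    (((j : ℝ) + 1) ^ 2 * t ^ (2 * j) * (σ ^ j)⁻¹) := ⟨_, rfl⟩
  have hS0 : 0 ≤ S := by rw [hS]; exact tsum_nonneg fun j => by positivity
  have hC := hΦ.C_pos
  refine ⟨C * (2 + C₁ + C₂) * S + 1, σ, by positivity, hσ0, hσ1, ?_⟩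
  intro n r hr hr' f hf
  have hσn : 0 < σ ^ n := pow_pos hσ0 n
  set W := ball G (p 0) n with hW
  have hWc : Conv G W := conv_ball hT _ _
  have hpt : ∀ u ∈ W, f u ≤ lim_EF G θ θ' k Φ p r (G.dist (p 0) u) +
      C * (2 + C₁ + C₂) * σ ^ n * (((G.dist (p 0) u : ℝ) + 1) ^ 2 * t ^ (2 * G.dist (p 0) u) *
        (σ ^ G.dist (p 0) u)⁻¹) := by
    intro u hu
    obtain ⟨q, hq, hq0, hqj⟩ := exists_isGeo hT (p 0) u
    rw [hf u hu q hq hq0 hqj]
    have hjn : G.dist (p 0) u ≤ n := (mem_ball hT).1 hu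
    set j := G.dist (p 0) u with hj
    rw [← lim_EF_path hT hd hreg hΦ h0 h1 h0' h1' k r (hp j) hq]
    have hN : ∀ i ≤ j, lim_N G W (q i) (n - j) := by
      intro i hi w hw
      rw [hW, mem_ball hT]
      have h3 := hT.connected.dist_triangle (u := p 0) (v := q i) (w := w)
      have h4 := hq.dist_eq hT (Nat.zero_le i) hi
      rw [hq0] at h4
      omega
    have hd1 : ∀ i ≤ j, ∫ ω, |M G θ W k r (q i) ω - Mi G θ k r (q i) ω| ∂(labM V) ≤
        (1 + C₁) * σ ^ (n - j) := by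
      intro i hi
      refine lim_integral_abs_le (B := 2)
        (f := fun ω => M G θ W k r (q i) ω - Mi G θ k r (q i) ω)
        ((lim_measurable_M h0 h1 _ k r _).sub (lim_measurable_Mi h0 h1 k r _)) ?_
        (pow_pos hσ0 _) ?_
      · intro ω
        have h3 := abs_le.1 (lim_abs_M_le_one (G := G) h0 h1 W k r (q i) ω)
        have h4 := abs_le.1 (lim_abs_Mi_le_one (G := G) h0 h1 k r (q i) ω)
        rw [abs_le]
        constructor <;> linarith
      · refine (hM₁ W hWc r hr hr' (q i) (n - j) (hN i hi)).trans (le_of_eq ?_)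
        rw [← hσ2, ← pow_mul, ← pow_mul, mul_comm 2 (n - j)]
    have hd2 : ∀ i ≤ j, ∫ ω, |M G θ' W k r (q i) ω - Mi G θ' k r (q i) ω| ∂(labM V) ≤
        (1 + C₂) * σ ^ (n - j) := by
      intro i hi
      refine lim_integral_abs_le (B := 2)
        (f := fun ω => M G θ' W k r (q i) ω - Mi G θ' k r (q i) ω)
        ((lim_measurable_M h0' h1' _ k r _).sub (lim_measurable_Mi h0' h1' k r _)) ?_
        (pow_pos hσ0 _) ?_
      · intro ω
        have h3 := abs_le.1 (lim_abs_M_le_one (G := G) h0' h1' W k r (q i) ω)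
        have h4 := abs_le.1 (lim_abs_Mi_le_one (G := G) h0' h1' k r (q i) ω)
        rw [abs_le]
        constructor <;> linarith
      · refine (hM₂ W hWc r hr hr' (q i) (n - j) (hN i hi)).trans (le_of_eq ?_)
        rw [← hσ2, ← pow_mul, ← pow_mul, mul_comm 2 (n - j)]
    -- integrability
    have hi1 : ∀ i, Integrable (fun ω => |M G θ W k r (q i) ω - Mi G θ k r (q i) ω|)
        (labM V) := fun i =>
      ((lim_integrable (lim_measurable_M h0 h1 W k r (q i)) 1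
        fun ω => lim_abs_M_le_one h0 h1 W k r (q i) ω).sub
      (lim_integrable (lim_measurable_Mi h0 h1 k r (q i)) 1
        fun ω => lim_abs_Mi_le_one h0 h1 k r (q i) ω)).abs
    have hi2 : ∀ i, Integrable (fun ω => |M G θ' W k r (q i) ω - Mi G θ' k r (q i) ω|)
        (labM V) := fun i =>
      ((lim_integrable (lim_measurable_M h0' h1' W k r (q i)) 1
        fun ω => lim_abs_M_le_one h0' h1' W k r (q i) ω).sub
      (lim_integrable (lim_measurable_Mi h0' h1' k r (q i)) 1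
        fun ω => lim_abs_Mi_le_one h0' h1' k r (q i) ω)).abs
    have hi12 : ∀ i, Integrable (fun ω => |M G θ W k r (q i) ω - Mi G θ k r (q i) ω| +
        |M G θ' W k r (q i) ω - Mi G θ' k r (q i) ω|) (labM V) := fun i => (hi1 i).add (hi2 i)
    have hmI : Measurable (fun ω => Φ j (fun i => Mi G θ k r (q i) ω)
        (fun i => Mi G θ' k r (q i) ω)) :=
      (hΦ.meas j).comp (f := fun ω => ((fun i => Mi G θ k r (q i) ω),
        (fun i => Mi G θ' k r (q i) ω))) ((measurable_pi_lambda _ fun i =>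
          lim_measurable_Mi h0 h1 k r (q i)).prodMk (measurable_pi_lambda _ fun i =>
          lim_measurable_Mi h0' h1' k r (q i)))
    have hiI : Integrable (fun ω => Φ j (fun i => Mi G θ k r (q i) ω)
        (fun i => Mi G θ' k r (q i) ω)) (labM V) := by
      refine lim_integrable hmI (C * t ^ (2 * j)) fun ω => ?_
      rw [abs_of_nonneg (hΦ.nonneg j _ _)]
      exact hΦ.le j _ _ (fun i => lim_abs_Mi_le_one h0 h1 k r _ ω)
        (fun i => lim_abs_Mi_le_one h0' h1' k r _ ω)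
    calc ∫ ω, Φ j (fun i => M G θ W k r (q i) ω) (fun i => M G θ' W k r (q i) ω) ∂(labM V)
        ≤ ∫ ω, (Φ j (fun i => Mi G θ k r (q i) ω) (fun i => Mi G θ' k r (q i) ω) +
          C * t ^ (2 * j) * ∑ i ∈ Finset.range (j + 1),
            (|M G θ W k r (q i) ω - Mi G θ k r (q i) ω| +
              |M G θ' W k r (q i) ω - Mi G θ' k r (q i) ω|)) ∂(labM V) := by
          refine integral_mono_of_nonneg (ae_of_all _ fun ω => hΦ.nonneg j _ _) ?_
            (ae_of_all _ fun ω => ?_)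
          · exact hiI.add ((integrable_finsetSum _ fun i _ => hi12 i).const_mul _)
          · have e1 := hΦ.lip j (fun i => M G θ W k r (q i) ω) (fun i => M G θ' W k r (q i) ω)
              (fun i => Mi G θ k r (q i) ω) (fun i => Mi G θ' k r (q i) ω)
              (fun i => lim_abs_M_le_one h0 h1 W k r _ ω)
              (fun i => lim_abs_M_le_one h0' h1' W k r _ ω)
              (fun i => lim_abs_Mi_le_one h0 h1 k r _ ω)
              (fun i => lim_abs_Mi_le_one h0' h1' k r _ ω)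
            have e2 := (abs_le.1 e1).2
            simp only at e2 ⊢
            linarith
      _ = lim_EF G θ θ' k Φ q r j + C * t ^ (2 * j) * ∑ i ∈ Finset.range (j + 1),
            (∫ ω, |M G θ W k r (q i) ω - Mi G θ k r (q i) ω| ∂(labM V) +
              ∫ ω, |M G θ' W k r (q i) ω - Mi G θ' k r (q i) ω| ∂(labM V)) := by
          rw [integral_add hiI ((integrable_finsetSum _ fun i _ => hi12 i).const_mul _),
            integral_const_mul, integral_finsetSum _ fun i _ => hi12 i]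
          have e0 : ∀ i, ∫ ω, (|M G θ W k r (q i) ω - Mi G θ k r (q i) ω| +
              |M G θ' W k r (q i) ω - Mi G θ' k r (q i) ω|) ∂(labM V) =
              ∫ ω, |M G θ W k r (q i) ω - Mi G θ k r (q i) ω| ∂(labM V) +
              ∫ ω, |M G θ' W k r (q i) ω - Mi G θ' k r (q i) ω| ∂(labM V) :=
            fun i => integral_add (hi1 i) (hi2 i)
          simp only [e0]
          rfl
      _ ≤ lim_EF G θ θ' k Φ q r j + C * t ^ (2 * j) * ∑ _i ∈ Finset.range (j + 1),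
            ((1 + C₁) * σ ^ (n - j) + (1 + C₂) * σ ^ (n - j)) := by
          have e3 : ∑ i ∈ Finset.range (j + 1),
            (∫ ω, |M G θ W k r (q i) ω - Mi G θ k r (q i) ω| ∂(labM V) +
              ∫ ω, |M G θ' W k r (q i) ω - Mi G θ' k r (q i) ω| ∂(labM V)) ≤
              ∑ _i ∈ Finset.range (j + 1), ((1 + C₁) * σ ^ (n - j) + (1 + C₂) * σ ^ (n - j)) := by
            refine Finset.sum_le_sum fun i hi => ?_
            have hi' : i ≤ j := Nat.lt_succ_iff.1 (Finset.mem_range.1 hi)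
            exact add_le_add (hd1 i hi') (hd2 i hi')
          have e4 : 0 ≤ C * t ^ (2 * j) := by positivity
          have e5 := mul_le_mul_of_nonneg_left e3 e4
          linarith
      _ = lim_EF G θ θ' k Φ q r j + C * (2 + C₁ + C₂) * σ ^ n *
            (((j : ℝ) + 1) * t ^ (2 * j) * (σ ^ j)⁻¹) := by
          rw [Finset.sum_const, Finset.card_range, nsmul_eq_mul, pow_sub₀ σ hσ0.ne' hjn]
          push_cast
          ring
      _ ≤ _ := by
          have e6 : ((j : ℝ) + 1) ≤ ((j : ℝ) + 1) ^ 2 := by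
            have : (0 : ℝ) ≤ j := Nat.cast_nonneg j
            nlinarith
          gcongr
  have h4 := lim_sum_sphere hT hd hreg (p 0) W
    (F := fun j => lim_EF G θ θ' k Φ p r j + C * (2 + C₁ + C₂) * σ ^ n *
      (((j : ℝ) + 1) ^ 2 * t ^ (2 * j) * (σ ^ j)⁻¹))
    (fun j => add_nonneg (lim_EF_nonneg hΦ θ θ' k p r j) (by positivity))
    (((lim_summable_EF hd ht0 ht hΦ h0 h1 h0' h1' k p r).add
      (hsum.mul_left (C * (2 + C₁ + C₂) * σ ^ n))).congr fun j => by ring)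
    hpt
  refine h4.trans ?_
  have e7 : ∑' j : ℕ, 2 * ((d : ℝ) - 1) ^ j * (lim_EF G θ θ' k Φ p r j +
      C * (2 + C₁ + C₂) * σ ^ n * (((j : ℝ) + 1) ^ 2 * t ^ (2 * j) * (σ ^ j)⁻¹)) =
      ∑' j : ℕ, 2 * ((d : ℝ) - 1) ^ j * lim_EF G θ θ' k Φ p r j +
        C * (2 + C₁ + C₂) * σ ^ n * S := by
    rw [hS, ← tsum_mul_left, ← (lim_summable_EF hd ht0 ht hΦ h0 h1 h0' h1' k p r).tsum_add
      (hsum.mul_left (C * (2 + C₁ + C₂) * σ ^ n))]
    exact tsum_congr fun j => by ring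
  rw [e7]
  nlinarith

private lemma lim_ball_mem_zero (hT : G.IsTree) (v : V) (n : ℕ) : v ∈ ball G v n :=
  (mem_ball hT).2 (by simp)

/-- convergence of the left-hand sides. -/
private lemma lim_tendsto_sq (hT : G.IsTree) (hd : 3 ≤ d) (hreg : G.IsRegularOfDegree d)
    {θ θ' : ℝ} (h0 : 0 ≤ θ) (hθ : ((d : ℝ) - 1) * θ ^ 2 < 1) (h0' : 0 ≤ θ')
    (hθ' : ((d : ℝ) - 1) * θ' ^ 2 < 1) (k : ℕ) {s s' : ℝ}
    (hs : 0 ≤ s) (hs1 : s ≤ 1 / 2) (hs' : 0 ≤ s') (hs1' : s' ≤ 1 / 2) (v : V) :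
    Tendsto (fun n => ∫ ω, (M G θ (ball G v n) k s v ω - M G θ' (ball G v n) k s' v ω) ^ 2
      ∂(labM V)) atTop (𝓝 (∫ ω, (Mi G θ k s v ω - Mi G θ' k s' v ω) ^ 2 ∂(labM V))) := by
  have h1 := lim_theta_lt_one hd h0 hθ
  have h1' := lim_theta_lt_one hd h0' hθ'
  refine tendsto_integral_of_dominated_convergence (fun _ => 4) ?_ (integrable_const _) ?_ ?_
  · intro m
    exact (((lim_measurable_M h0 h1 _ k s v).sub
      (lim_measurable_M h0' h1' _ k s' v)).pow_const 2).aestronglyMeasurable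
  · intro m
    refine ae_of_all _ fun ω => ?_
    have h3 := abs_le.1 (lim_abs_M_le_one (G := G) h0 h1 (ball G v m) k s v ω)
    have h4 := abs_le.1 (lim_abs_M_le_one (G := G) h0' h1' (ball G v m) k s' v ω)
    rw [Real.norm_eq_abs, abs_of_nonneg (sq_nonneg _)]
    nlinarith
  · filter_upwards [lim_ae_tendsto hT hd hreg h0 hθ k hs hs1 v,
      lim_ae_tendsto hT hd hreg h0' hθ' k hs' hs1' v] with ω hω hω'
    exact (hω.sub hω').pow 2

private lemma lim_bdd_intervalIntegrable {f : ℝ → ℝ} (hf : Measurable f) {a b D : ℝ}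
    (hab : a ≤ b) (hD : ∀ x, a ≤ x → x ≤ b → |f x| ≤ D) : IntervalIntegrable f volume a b := by
  rw [intervalIntegrable_iff_integrableOn_Ioc_of_le hab]
  refine Integrable.of_bound hf.aestronglyMeasurable D ?_
  exact (ae_restrict_iff' measurableSet_Ioc).2 (ae_of_all _ fun x hx => by
    rw [Real.norm_eq_abs]; exact hD x hx.1.le hx.2)

/-- pair isometry in infinite volume, along a fixed geodesic ray. -/
theorem pair_isometry_inf (hT : G.IsTree) (hd : 3 ≤ d) (hreg : G.IsRegularOfDegree d)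
    {θ θ' : ℝ} (h0 : 0 ≤ θ) (hθ : ((d : ℝ) - 1) * θ ^ 2 < 1) (h0' : 0 ≤ θ')
    (hθ' : ((d : ℝ) - 1) * θ' ^ 2 < 1) {p : ℕ → V} (hp : ∀ k, IsGeo G k p) (k : ℕ) {s : ℝ}
    (hs : 0 ≤ s) (hs' : s ≤ 1 / 2) :
    ∫ ω, (Mi G θ k s (p 0) ω - Mi G θ' k s (p 0) ω) ^ 2 ∂(labM V) ≤
      ∫ ω, (Mi G θ k 0 (p 0) ω - Mi G θ' k 0 (p 0) ω) ^ 2 ∂(labM V) +
      ∫ r in (0 : ℝ)..s,
        (1000 * r ^ 2 * ∑' j : ℕ, 2 * ((d : ℝ) - 1) ^ j *
          ∫ ω, (Kp θ (fun v => Mi G θ k r v ω) p j -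
            Kp θ' (fun v => Mi G θ' k r v ω) p j) ^ 2 ∂(labM V) +
        1000 * r ^ 4 * ∑' j : ℕ, 2 * ((d : ℝ) - 1) ^ j *
          ∫ ω, Kp θ' (fun v => Mi G θ' k r v ω) p j ^ 2 *
            (Mi G θ k r (p j) ω - Mi G θ' k r (p j) ω) ^ 2 ∂(labM V)) := by
  classical
  have hb : (0 : ℝ) ≤ (d : ℝ) - 1 := by linarith [lim_dm1 hd]
  obtain ⟨t, hθt, hθt', ht⟩ : ∃ t : ℝ, θ ≤ t ∧ θ' ≤ t ∧ ((d : ℝ) - 1) * t ^ 2 < 1 := by
    rcases le_total θ θ' with h | h
    · exact ⟨θ', h, le_rfl, hθ'⟩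
    · exact ⟨θ, le_rfl, h, hθ⟩
  have ht0 : 0 ≤ t := h0.trans hθt
  have ht1 := lim_theta_lt_one hd ht0 ht
  have h1 : θ < 1 := hθt.trans_lt ht1
  have h1' : θ' < 1 := hθt'.trans_lt ht1
  obtain ⟨C₁, hF₁⟩ := lim_fun1 h0 h0' hθt hθt' ht1
  obtain ⟨C₂, hF₂⟩ := lim_fun2 h0' hθt' ht1
  obtain ⟨K₁, σ₁, hK₁, hσ₁0, hσ₁1, hm₁⟩ :=
    lim_main hT hd hreg ht hF₁ h0 h0' hθt hθt' k hp
  obtain ⟨K₂, σ₂, hK₂, hσ₂0, hσ₂1, hm₂⟩ :=
    lim_main hT hd hreg ht hF₂ h0 h0' hθt hθt' k hp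
  set Φ₁ : ℕ → (ℕ → ℝ) → (ℕ → ℝ) → ℝ := fun j a a' => (lim_Ks θ a j - lim_Ks θ' a' j) ^ 2
    with hΦ₁
  set Φ₂ : ℕ → (ℕ → ℝ) → (ℕ → ℝ) → ℝ := fun j a a' => lim_Ks θ' a' j ^ 2 * (a j - a' j) ^ 2
    with hΦ₂
  -- the integrand
  set I : ℝ → ℝ := fun r =>
    (1000 * r ^ 2 * ∑' j : ℕ, 2 * ((d : ℝ) - 1) ^ j * lim_EF G θ θ' k Φ₁ p r j +
      1000 * r ^ 4 * ∑' j : ℕ, 2 * ((d : ℝ) - 1) ^ j * lim_EF G θ θ' k Φ₂ p r j) with hI
  have hgoal : (∫ r in (0 : ℝ)..s,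
        (1000 * r ^ 2 * ∑' j : ℕ, 2 * ((d : ℝ) - 1) ^ j *
          ∫ ω, (Kp θ (fun v => Mi G θ k r v ω) p j -
            Kp θ' (fun v => Mi G θ' k r v ω) p j) ^ 2 ∂(labM V) +
        1000 * r ^ 4 * ∑' j : ℕ, 2 * ((d : ℝ) - 1) ^ j *
          ∫ ω, Kp θ' (fun v => Mi G θ' k r v ω) p j ^ 2 *
            (Mi G θ k r (p j) ω - Mi G θ' k r (p j) ω) ^ 2 ∂(labM V))) =
      ∫ r in (0 : ℝ)..s, I r := rfl
  rw [hgoal]
  have hImeas : Measurable I := by
    refine Measurable.add ?_ ?_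
    · exact (by fun_prop : Measurable fun r : ℝ => 1000 * r ^ 2).mul
        (lim_measurable_tsum_EF hT hd ht0 ht hF₁ h0 h1 h0' h1' k p)
    · exact (by fun_prop : Measurable fun r : ℝ => 1000 * r ^ 4).mul
        (lim_measurable_tsum_EF hT hd ht0 ht hF₂ h0 h1 h0' h1' k p)
  have hs₁ : ∀ r, 0 ≤ ∑' j : ℕ, 2 * ((d : ℝ) - 1) ^ j * lim_EF G θ θ' k Φ₁ p r j := fun r =>
    tsum_nonneg fun j => mul_nonneg (by positivity) (lim_EF_nonneg hF₁ θ θ' k p r j)
  have hs₂ : ∀ r, 0 ≤ ∑' j : ℕ, 2 * ((d : ℝ) - 1) ^ j * lim_EF G θ θ' k Φ₂ p r j := fun r =>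
    tsum_nonneg fun j => mul_nonneg (by positivity) (lim_EF_nonneg hF₂ θ θ' k p r j)
  have hIint : IntervalIntegrable I volume 0 s := by
    refine lim_bdd_intervalIntegrable hImeas hs (D :=
      1000 * 1 * (∑' j : ℕ, 2 * C₁ * (((d : ℝ) - 1) * t ^ 2) ^ j) +
      1000 * 1 * (∑' j : ℕ, 2 * C₂ * (((d : ℝ) - 1) * t ^ 2) ^ j)) ?_
    intro r hr hrs
    have hr' : r ≤ 1 := hrs.trans (hs'.trans (by norm_num))
    have e1 := lim_tsum_EF_le hd ht0 ht hF₁ h0 h1 h0' h1' k p r (G := G)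
    have e2 := lim_tsum_EF_le hd ht0 ht hF₂ h0 h1 h0' h1' k p r (G := G)
    have e3 := hs₁ r
    have e4 := hs₂ r
    have e5 : r ^ 2 ≤ 1 := pow_le_one₀ hr hr'
    have e6 : r ^ 4 ≤ 1 := pow_le_one₀ hr hr'
    have e7 : 0 ≤ I r := by simp only [hI]; positivity
    rw [abs_of_nonneg e7]
    simp only [hI]
    gcongr
  -- the inequality for the windows
  have key : ∀ n : ℕ,
      ∫ ω, (M G θ (ball G (p 0) n) k s (p 0) ω - M G θ' (ball G (p 0) n) k s (p 0) ω) ^ 2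
        ∂(labM V) ≤
      ∫ ω, (M G θ (ball G (p 0) n) k 0 (p 0) ω - M G θ' (ball G (p 0) n) k 0 (p 0) ω) ^ 2
        ∂(labM V) + ((∫ r in (0 : ℝ)..s, I r) + s * (1000 * (K₁ * σ₁ ^ n + K₂ * σ₂ ^ n))) := by
    intro n
    refine (pair_isometry G h0 h1 h0' h1' (ball G (p 0) n) (ball G (p 0) n) k hs hs'
      (p 0)).trans ?_
    refine add_le_add le_rfl ?_
    have e0 : (∫ r in (0 : ℝ)..s, I r) + s * (1000 * (K₁ * σ₁ ^ n + K₂ * σ₂ ^ n)) =
        ∫ r in (0 : ℝ)..s, (I r + 1000 * (K₁ * σ₁ ^ n + K₂ * σ₂ ^ n)) := by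
      rw [intervalIntegral.integral_add hIint intervalIntegrable_const,
        intervalIntegral.integral_const]
      simp
    rw [e0]
    refine lim_intervalIntegral_mono hs ?_ (hIint.add intervalIntegrable_const) ?_
    · intro r hr _
      refine Finset.sum_nonneg fun u _ => ?_
      have i1 : 0 ≤ ∫ ω, (K G θ (ball G (p 0) n) k r (p 0) u ω -
          K G θ' (ball G (p 0) n) k r (p 0) u ω) ^ 2 ∂(labM V) :=
        integral_nonneg fun ω => by positivity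
      have i2 : 0 ≤ ∫ ω, K G θ' (ball G (p 0) n) k r (p 0) u ω ^ 2 *
          (M G θ (ball G (p 0) n) k r u ω - M G θ' (ball G (p 0) n) k r u ω) ^ 2 ∂(labM V) :=
        integral_nonneg fun ω => by positivity
      positivity
    · intro r hr hrs
      have hr' : r ≤ 1 / 2 := hrs.trans hs'
      have hr1 : r ≤ 1 := hr'.trans (by norm_num)
      rw [Finset.union_self, Finset.sum_add_distrib, ← Finset.mul_sum, ← Finset.mul_sum]
      have hKe : ∀ {ϑ : ℝ}, 0 ≤ ϑ → ϑ < 1 → ∀ u ∈ ball G (p 0) n, ∀ q : ℕ → V,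
          IsGeo G (G.dist (p 0) u) q → q 0 = p 0 → q (G.dist (p 0) u) = u → ∀ ω : Lab V,
          K G ϑ (ball G (p 0) n) k r (p 0) u ω =
            lim_Ks ϑ (fun i => M G ϑ (ball G (p 0) n) k r (q i) ω) (G.dist (p 0) u) := by
        intro ϑ hϑ0 hϑ1 u hu q hq hq0 hqj ω
        rw [← lim_K_eq hT hϑ0 hϑ1 (conv_ball hT _ _) k r hq
          (by rw [hq0]; exact lim_ball_mem_zero hT _ _) (by rw [hqj]; exact hu) ω, hq0, hqj]
      have f1 := hm₁ n r hr hr' (fun u => ∫ ω, (K G θ (ball G (p 0) n) k r (p 0) u ω -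
          K G θ' (ball G (p 0) n) k r (p 0) u ω) ^ 2 ∂(labM V)) (by
        intro u hu q hq hq0 hqj
        simp only [hKe h0 h1 u hu q hq hq0 hqj, hKe h0' h1' u hu q hq hq0 hqj])
      have f2 := hm₂ n r hr hr' (fun u => ∫ ω, K G θ' (ball G (p 0) n) k r (p 0) u ω ^ 2 *
          (M G θ (ball G (p 0) n) k r u ω - M G θ' (ball G (p 0) n) k r u ω) ^ 2
            ∂(labM V)) (by
        intro u hu q hq hq0 hqj
        simp only [hKe h0' h1' u hu q hq hq0 hqj, hqj])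
      have e5 : r ^ 2 ≤ 1 := pow_le_one₀ hr hr1
      have e6 : r ^ 4 ≤ 1 := pow_le_one₀ hr hr1
      have g1 : 0 ≤ K₁ * σ₁ ^ n := by positivity
      have g2 : 0 ≤ K₂ * σ₂ ^ n := by positivity
      have g3 : 1000 * r ^ 2 * (K₁ * σ₁ ^ n) ≤ 1000 * 1 * (K₁ * σ₁ ^ n) := by gcongr
      have g4 : 1000 * r ^ 4 * (K₂ * σ₂ ^ n) ≤ 1000 * 1 * (K₂ * σ₂ ^ n) := by gcongr
      have g5 := mul_le_mul_of_nonneg_left f1 (by positivity : (0 : ℝ) ≤ 1000 * r ^ 2)
      have g6 := mul_le_mul_of_nonneg_left f2 (by positivity : (0 : ℝ) ≤ 1000 * r ^ 4)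
      rw [mul_add] at g5 g6
      simp only [hI]
      linarith
  have hL := lim_tendsto_sq hT hd hreg h0 hθ h0' hθ' k hs hs' hs hs' (p 0)
  have hR := lim_tendsto_sq hT hd hreg h0 hθ h0' hθ' k le_rfl (by norm_num : (0 : ℝ) ≤ 1 / 2)
    le_rfl (by norm_num : (0 : ℝ) ≤ 1 / 2) (p 0)
  have hσ₁ : Tendsto (fun n : ℕ => σ₁ ^ n) atTop (𝓝 0) :=
    tendsto_pow_atTop_nhds_zero_of_lt_one hσ₁0.le hσ₁1
  have hσ₂ : Tendsto (fun n : ℕ => σ₂ ^ n) atTop (𝓝 0) :=
    tendsto_pow_atTop_nhds_zero_of_lt_one hσ₂0.le hσ₂1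
  have hE : Tendsto (fun n : ℕ => (∫ r in (0 : ℝ)..s, I r) +
      s * (1000 * (K₁ * σ₁ ^ n + K₂ * σ₂ ^ n))) atTop
      (𝓝 ((∫ r in (0 : ℝ)..s, I r) + s * (1000 * (K₁ * 0 + K₂ * 0)))) :=
    ((((hσ₁.const_mul K₁).add (hσ₂.const_mul K₂)).const_mul 1000).const_mul s).const_add _
  have := le_of_tendsto_of_tendsto' hL (hR.add hE) key
  simpa using this

theorem self_isometry_inf (hT : G.IsTree) (hd : 3 ≤ d) (hreg : G.IsRegularOfDegree d)
    {θ : ℝ} (h0 : 0 ≤ θ) (hθ : ((d : ℝ) - 1) * θ ^ 2 < 1)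
    {p : ℕ → V} (hp : ∀ k, IsGeo G k p) (k : ℕ) {r s : ℝ}
    (hr : 0 ≤ r) (hrs : r ≤ s) (hs' : s ≤ 1 / 2) :
    ∫ ω, (Mi G θ k s (p 0) ω - Mi G θ k r (p 0) ω) ^ 2 ∂(labM V) ≤
      ∫ t in r..s, 1000 * t ^ 2 * ∑' j : ℕ, 2 * ((d : ℝ) - 1) ^ j *
          ∫ ω, Kp θ (fun v => Mi G θ k t v ω) p j ^ 2 ∂(labM V) := by
  classical
  have hb : (0 : ℝ) ≤ (d : ℝ) - 1 := by linarith [lim_dm1 hd]
  have h1 := lim_theta_lt_one hd h0 hθ
  obtain ⟨C, hF⟩ := lim_fun3 h0 h1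
  obtain ⟨K₁, σ, hK₁, hσ0, hσ1, hm⟩ := lim_main hT hd hreg hθ hF h0 h0 le_rfl le_rfl k hp
  set Φ : ℕ → (ℕ → ℝ) → (ℕ → ℝ) → ℝ := fun j a _ => lim_Ks θ a j ^ 2 with hΦ
  set I : ℝ → ℝ := fun t =>
    1000 * t ^ 2 * ∑' j : ℕ, 2 * ((d : ℝ) - 1) ^ j * lim_EF G θ θ k Φ p t j with hI
  have hgoal : (∫ t in r..s, 1000 * t ^ 2 * ∑' j : ℕ, 2 * ((d : ℝ) - 1) ^ j *
          ∫ ω, Kp θ (fun v => Mi G θ k t v ω) p j ^ 2 ∂(labM V)) = ∫ t in r..s, I t := rfl
  rw [hgoal]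
  have hImeas : Measurable I := (by fun_prop : Measurable fun t : ℝ => 1000 * t ^ 2).mul
    (lim_measurable_tsum_EF hT hd h0 hθ hF h0 h1 h0 h1 k p)
  have hs₁ : ∀ t, 0 ≤ ∑' j : ℕ, 2 * ((d : ℝ) - 1) ^ j * lim_EF G θ θ k Φ p t j := fun t =>
    tsum_nonneg fun j => mul_nonneg (by positivity) (lim_EF_nonneg hF θ θ k p t j)
  have hIint : IntervalIntegrable I volume r s := by
    refine lim_bdd_intervalIntegrable hImeas hrs (D :=
      1000 * 1 * (∑' j : ℕ, 2 * C * (((d : ℝ) - 1) * θ ^ 2) ^ j)) ?_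
    intro t ht hts
    have ht0 : 0 ≤ t := hr.trans ht
    have ht' : t ≤ 1 := hts.trans (hs'.trans (by norm_num))
    have e1 := lim_tsum_EF_le hd h0 hθ hF h0 h1 h0 h1 k p t (G := G)
    have e3 := hs₁ t
    have e5 : t ^ 2 ≤ 1 := pow_le_one₀ ht0 ht'
    have e7 : 0 ≤ I t := by simp only [hI]; positivity
    rw [abs_of_nonneg e7]
    simp only [hI]
    gcongr
  have key : ∀ n : ℕ,
      ∫ ω, (M G θ (ball G (p 0) n) k s (p 0) ω - M G θ (ball G (p 0) n) k r (p 0) ω) ^ 2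
        ∂(labM V) ≤ (∫ t in r..s, I t) + (s - r) * (1000 * (K₁ * σ ^ n)) := by
    intro n
    refine (self_isometry G h0 h1 (ball G (p 0) n) k hr hrs hs' (p 0)).trans ?_
    have e0 : (∫ t in r..s, I t) + (s - r) * (1000 * (K₁ * σ ^ n)) =
        ∫ t in r..s, (I t + 1000 * (K₁ * σ ^ n)) := by
      rw [intervalIntegral.integral_add hIint intervalIntegrable_const,
        intervalIntegral.integral_const]
      simp
    rw [e0]
    refine lim_intervalIntegral_mono hrs ?_ (hIint.add intervalIntegrable_const) ?_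
    · intro t _ _
      refine Finset.sum_nonneg fun u _ => ?_
      have i1 : 0 ≤ ∫ ω, K G θ (ball G (p 0) n) k t (p 0) u ω ^ 2 ∂(labM V) :=
        integral_nonneg fun ω => by positivity
      positivity
    · intro t ht hts
      have ht0 : 0 ≤ t := hr.trans ht
      have ht' : t ≤ 1 / 2 := hts.trans hs'
      have ht1 : t ≤ 1 := ht'.trans (by norm_num)
      rw [← Finset.mul_sum]
      have f1 := hm n t ht0 ht' (fun u => ∫ ω, K G θ (ball G (p 0) n) k t (p 0) u ω ^ 2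
          ∂(labM V)) (by
        intro u hu q hq hq0 hqj
        have hKe : ∀ ω : Lab V, K G θ (ball G (p 0) n) k t (p 0) u ω =
            lim_Ks θ (fun i => M G θ (ball G (p 0) n) k t (q i) ω) (G.dist (p 0) u) := by
          intro ω
          rw [← lim_K_eq hT h0 h1 (conv_ball hT _ _) k t hq
            (by rw [hq0]; exact lim_ball_mem_zero hT _ _) (by rw [hqj]; exact hu) ω, hq0, hqj]
        simp only [hKe])
      have e5 : t ^ 2 ≤ 1 := pow_le_one₀ ht0 ht1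
      have g1 : 0 ≤ K₁ * σ ^ n := by positivity
      have g3 : 1000 * t ^ 2 * (K₁ * σ ^ n) ≤ 1000 * 1 * (K₁ * σ ^ n) := by gcongr
      have g5 := mul_le_mul_of_nonneg_left f1 (by positivity : (0 : ℝ) ≤ 1000 * t ^ 2)
      rw [mul_add] at g5
      simp only [hI]
      linarith
  have hL := lim_tendsto_sq hT hd hreg h0 hθ h0 hθ k (hr.trans hrs) hs' hr (hrs.trans hs') (p 0)
  have hσ : Tendsto (fun n : ℕ => σ ^ n) atTop (𝓝 0) :=
    tendsto_pow_atTop_nhds_zero_of_lt_one hσ0.le hσ1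
  have hE : Tendsto (fun n : ℕ => (∫ t in r..s, I t) + (s - r) * (1000 * (K₁ * σ ^ n))) atTop
      (𝓝 ((∫ t in r..s, I t) + (s - r) * (1000 * (K₁ * 0)))) :=
    (((hσ.const_mul K₁).const_mul 1000).const_mul (s - r)).const_add _
  have := le_of_tendsto_of_tendsto' hL hE key
  simpa using this

end tree

end M5

end Crest.Agent.Lib.Row160
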