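import Crest.Agent.Lib.Row160.BridgeD
import Crest.Agent.Lib.Row160.Law
import Crest.Agent.Lib.Row160.Limit
import Crest.Agent.Lib.Row160.ExpMom

/-!
Row 160, chunk M9, part E: law at the root and moments in infinite volume.
-/

set_option autoImplicit false

open MeasureTheory Filter Topology

namespace Crest.Agent.Lib.Row160

namespace Br

variable {V : Type*} {G : SimpleGraph V}

theorem measurable_mg [Countable V] {θ : ℝ} (h0 : 0 ≤ θ) (h1 : θ < 1) (W : Finset V) (v : V) :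
    Measurable (fun x : V → ℝ => mg G θ W x v) :=
  (continuous_mg G h0 h1 W v).measurable

/-- summable `L²` rates give a.e. convergence. -/
theorem ae_tendsto_of_rate {F : ℕ → Lab V → ℝ} {f : Lab V → ℝ} {C ρ : ℝ}
    (hρ0 : 0 < ρ) (hρ : ρ < 1) (hm : ∀ n, Measurable (F n)) (hf : Measurable f)
    (hb : ∀ n ω, |F n ω| ≤ 1) (hbf : ∀ ω, |f ω| ≤ 1) {a : ℕ}
    (h : ∀ n, ∫ ω, (F (n + a) ω - f ω) ^ 2 ∂(labM V) ≤ C * ρ ^ n) :
    ∀ᵐ ω ∂(labM V), Tendsto (fun n => F n ω) atTop (𝓝 (f ω)) := by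
  have hint : ∀ n, Integrable (fun ω => (F (n + a) ω - f ω) ^ 2) (labM V) := fun n =>
    Integrable.of_bound (((hm _).sub hf).pow_const 2).aestronglyMeasurable 4
      (Eventually.of_forall fun ω => by
        rw [Real.norm_eq_abs, abs_of_nonneg (sq_nonneg _)]
        have h1 := abs_le.1 (hb (n + a) ω)
        have h2 := abs_le.1 (hbf ω)
        nlinarith)
  have hl : ∀ n, ∫⁻ ω, ENNReal.ofReal ((F (n + a) ω - f ω) ^ 2) ∂(labM V)
      ≤ ENNReal.ofReal (C * ρ ^ n) := by
    intro n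
    rw [← ofReal_integral_eq_lintegral_ofReal (hint n) (Eventually.of_forall fun ω => sq_nonneg _)]
    exact ENNReal.ofReal_le_ofReal (h n)
  have hC : 0 ≤ C := by
    have := h 0
    rw [pow_zero, mul_one] at this
    exact (integral_nonneg fun ω => sq_nonneg _).trans this
  have hsum : ∑' n, ∫⁻ ω, ENNReal.ofReal ((F (n + a) ω - f ω) ^ 2) ∂(labM V) ≠ ⊤ := by
    refine ne_top_of_le_ne_top ?_ (ENNReal.tsum_le_tsum hl)
    rw [← ENNReal.ofReal_tsum_of_nonneg (fun n => by positivity)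
      ((summable_geometric_of_lt_one hρ0.le hρ).mul_left C)]
    exact ENNReal.ofReal_ne_top
  have hmm : ∀ n, Measurable (fun ω => ENNReal.ofReal ((F (n + a) ω - f ω) ^ 2)) := fun n =>
    (((hm _).sub hf).pow_const 2).ennreal_ofReal
  rw [← lintegral_tsum (fun n => (hmm n).aemeasurable)] at hsum
  have hae := ae_lt_top (Measurable.ennreal_tsum fun n => hmm n) hsum
  filter_upwards [hae] with ω hω
  have h1 := ENNReal.tendsto_atTop_zero_of_tsum_ne_top hω.ne
  have h2 : Tendsto (fun n => (F (n + a) ω - f ω) ^ 2) atTop (𝓝 0) := by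
    have h3 := (ENNReal.tendsto_toReal ENNReal.zero_ne_top).comp h1
    rw [ENNReal.toReal_zero] at h3
    refine h3.congr fun n => ?_
    exact ENNReal.toReal_ofReal (sq_nonneg _)
  have h4 : Tendsto (fun n => |F (n + a) ω - f ω|) atTop (𝓝 0) := by
    have h5 := (Real.continuous_sqrt.tendsto 0).comp h2
    rw [Real.sqrt_zero] at h5
    refine h5.congr fun n => ?_
    exact Real.sqrt_sq_eq_abs _
  have h6 : Tendsto (fun n => F (n + a) ω) atTop (𝓝 (f ω)) := by
    rw [tendsto_iff_norm_sub_tendsto_zero]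
    exact h4
  exact (tendsto_add_atTop_iff_nat a).1 h6

open Classical in
theorem Lw_ball [G.LocallyFinite] (hT : G.IsTree) (θ : ℝ) (k : ℕ) (s : ℝ) (n : ℕ) (y : V)
    (ω : Lab V) : Lw G θ (ball G y (n + 1)) k s ω =
      (lik k s ω y 1 * ∏ c ∈ G.neighborFinset y, mixL G θ k s n 1 y c ω +
        lik k s ω y (-1) * ∏ c ∈ G.neighborFinset y, mixL G θ k s n (-1) y c ω) / 2 := by
  rw [Lw_eq_RR θ _ k s ω y, ball_succ_eq hT, RR_children hT θ k s n y ω
    (fun c hc g => RR_Tn hT θ k s n ω hc g) _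
    (fun c hc => (SimpleGraph.mem_neighborFinset _ _ _).1 hc)]
  simp only [one_mul]

end Br

section
variable {V : Type*} {G : SimpleGraph V} [G.LocallyFinite] {d : ℕ}

/-- law of the magnetisation at the centre of a ball. -/
theorem law_root (hT : G.IsTree) (hd : 3 ≤ d) (hreg : G.IsRegularOfDegree d) {θ : ℝ}
    (h0 : 0 ≤ θ) (h1 : θ < 1) (k : ℕ) {s : ℝ} (hs : 0 ≤ s) (hs' : s ≤ 1 / 2) (n : ℕ) (y : V)
    {f : ℝ → ℝ} (hf : Measurable f) (hb : ∀ R : ℝ, ∃ C, ∀ x, |x| ≤ R → |f x| ≤ C) :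
    ∫ ω, f (Real.artanh (M G θ (ball G y (n + 1)) k s y ω)) ∂(labM V) =
      ∫ x, f x ∂(rootLaw (own k s) θ (d - 1) n) := by
  classical
  have : Countable V := countable_V hT
  have sr := SymLaw.rootLaw (symLaw_own k hs hs') h0 h1 (d - 1) n
  have := sr.1
  obtain ⟨B, hB⟩ : ∃ B, B = ((k + 1) * Real.artanh (1 / 2) + (((d - 1 : ℕ) : ℝ) + 1) * Real.artanh θ) :=
    ⟨_, rfl⟩
  have hdd : ((d - 1 : ℕ) : ℝ) + 1 = d := by
    rw [Nat.cast_sub (by omega)]; push_cast; ring
  rw [← hB] at sr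
  obtain ⟨C, hC⟩ := hb B
  have hms : MeasurableSet (Set.Icc (-B) B) := measurableSet_Icc
  obtain ⟨fB, hfB⟩ : ∃ fB, fB = (Set.Icc (-B) B).indicator f := ⟨_, rfl⟩
  have hfBm : Measurable fB := hfB ▸ hf.indicator hms
  have hfBb : ∀ x, |fB x| ≤ max C 0 := fun x => by
    rw [hfB]
    by_cases hx : x ∈ Set.Icc (-B) B
    · rw [Set.indicator_of_mem hx]
      exact (hC x (abs_le.2 hx)).trans (le_max_left _ _)
    · rw [Set.indicator_of_notMem hx, abs_zero]
      exact le_max_right _ _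
  have hfBe : ∀ x, |x| ≤ B → fB x = f x := fun x hx => by
    rw [hfB, Set.indicator_of_mem (show x ∈ Set.Icc (-B) B from abs_le.1 hx)]
  -- BP at the root
  have hBP : ∀ x : V → ℝ, Real.artanh (mg G θ (ball G y (n + 1)) x y) = x y +
      ∑ c ∈ G.neighborFinset y, psi θ (Real.artanh (mg G θ (Tn G n y c) x c)) := fun x => by
    rw [mg_ball_succ hT h0 h1 n y x, Real.artanh_tanh]
  have hbd : ∀ x : V → ℝ, |x y| ≤ (k + 1) * Real.artanh (1 / 2) →
      |Real.artanh (mg G θ (ball G y (n + 1)) x y)| ≤ B := by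
    intro x hx
    rw [hBP, hB, hdd]
    refine (abs_add_le _ _).trans (add_le_add hx ?_)
    refine (Finset.abs_sum_le_sum_abs _ _).trans ?_
    refine (Finset.sum_le_sum fun c _ => abs_psi_le_artanh h0 h1 _).trans ?_
    rw [Finset.sum_const, nsmul_eq_mul, show (G.neighborFinset y).card = d from hreg y]
  have e1 : ∀ ω, f (Real.artanh (M G θ (ball G y (n + 1)) k s y ω)) =
      fB (Real.artanh (mg G θ (ball G y (n + 1)) (P G θ (ball G y (n + 1)) k s ω) y)) := by
    intro ω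
    rw [hfBe]
    · rfl
    · exact hbd _ (abs_P_le G h0 h1 _ k hs hs' ω y)
  simp_rw [e1]
  rw [law_P G h0 h1 (ball G y (n + 1)) (Zw_zero hT h0 h1 _) k hs hs'
    (F := fun x => fB (Real.artanh (mg G θ (ball G y (n + 1)) x y)))
    (hfBm.comp (Br.measurable_artanh.comp (Br.measurable_mg h0 h1 _ y)))
    ⟨_, fun x => hfBb _⟩
    (fun x x' h => by
      show fB (Real.artanh (mg G θ (ball G y (n + 1)) x y)) = fB (Real.artanh (mg G θ (ball G y (n + 1)) x' y))
      rw [mg_congr G _ h])]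
  -- the planted laws
  have hlaw : ∀ {σ : ℝ}, (σ = 1 ∨ σ = -1) →
      ∫ ω, fB (Real.artanh (mg G θ (ball G y (n + 1)) (free k s ω) y)) *
        (lik k s ω y σ * ∏ c ∈ G.neighborFinset y, Br.mixL G θ k s n σ y c ω) ∂(labM V) =
      ∫ x, fB x * (1 + σ * Real.tanh x) ∂(rootLaw (own k s) θ (d - 1) n) := by
    intro σ hσ
    have h2 := Br.lawOf_children hT h0 h1 k hs hs' n (d - 1) y hσ
      (fun c hc σ hσ => Br.lawOf_cavity hT hreg h0 h1 k hs hs' n hc hσ)
      (G.neighborFinset y) (fun c hc => (SimpleGraph.mem_neighborFinset _ _ _).1 hc)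
    have hcard : (G.neighborFinset y).card = d - 1 + 1 := by
      have : (G.neighborFinset y).card = d := hreg y
      omega
    rw [hcard] at h2
    have h3 := h2.law fB hfBm ⟨_, hfBb⟩
    rw [show rootLaw (own k s) θ (d - 1) n = star (own k s)
      (starpow ((kap (own k s) θ (d - 1) n).map (psi θ)) (d - 1 + 1)) from rfl, ← h3]
    congr 1
    funext ω
    rw [hBP]
    rfl
  have hLaw1 := hlaw (σ := 1) (Or.inl rfl)
  have hLaw2 := hlaw (σ := -1) (Or.inr rfl)
  simp_rw [Br.Lw_ball hT]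
  have gL : ∀ {σ : ℝ}, (σ = 1 ∨ σ = -1) → Integrable (fun ω =>
      fB (Real.artanh (mg G θ (ball G y (n + 1)) (free k s ω) y)) *
        (lik k s ω y σ * ∏ c ∈ G.neighborFinset y, Br.mixL G θ k s n σ y c ω)) (labM V) := by
    intro σ hσ
    have h2 := Br.lawOf_children hT h0 h1 k hs hs' n (d - 1) y hσ
      (fun c hc σ hσ => Br.lawOf_cavity hT hreg h0 h1 k hs hs' n hc hσ)
      (G.neighborFinset y) (fun c hc => (SimpleGraph.mem_neighborFinset _ _ _).1 hc)
    have g3 := (h2.gh.comp hfBm fun R => ⟨_, fun x _ => hfBb x⟩).mul h2.gL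
    refine g3.integrable.congr (Eventually.of_forall fun ω => ?_)
    beta_reduce
    rw [hBP]
    rfl
  have e4 : ∀ ω, fB (Real.artanh (mg G θ (ball G y (n + 1)) (free k s ω) y)) *
      ((lik k s ω y 1 * ∏ c ∈ G.neighborFinset y, Br.mixL G θ k s n 1 y c ω +
        lik k s ω y (-1) * ∏ c ∈ G.neighborFinset y, Br.mixL G θ k s n (-1) y c ω) / 2)
      = (1 / 2) * (fB (Real.artanh (mg G θ (ball G y (n + 1)) (free k s ω) y)) *
          (lik k s ω y 1 * ∏ c ∈ G.neighborFinset y, Br.mixL G θ k s n 1 y c ω)) +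
        (1 / 2) * (fB (Real.artanh (mg G θ (ball G y (n + 1)) (free k s ω) y)) *
          (lik k s ω y (-1) * ∏ c ∈ G.neighborFinset y, Br.mixL G θ k s n (-1) y c ω)) :=
    fun ω => by ring
  simp_rw [e4]
  rw [integral_add ((gL (Or.inl rfl)).const_mul _) ((gL (Or.inr rfl)).const_mul _),
    integral_const_mul, integral_const_mul, hLaw1, hLaw2, ← integral_const_mul,
    ← integral_const_mul, ← integral_add]
  · apply integral_congr_ae
    have h3 : ∀ᵐ x ∂(rootLaw (own k s) θ (d - 1) n), x ∈ Set.Icc (-B) B := by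
      rw [ae_iff]
      exact sr.2.2
    filter_upwards [h3] with x hx
    rw [hfBe x (abs_le.2 hx)]
    ring
  · refine Integrable.const_mul (Integrable.of_bound (C := max C 0 * 2) ?_
      (Eventually.of_forall fun x => ?_)) _
    · exact (hfBm.mul (measurable_const.add
        (measurable_const.mul Br.continuous_tanh.measurable))).aestronglyMeasurable
    · rw [norm_mul, Real.norm_eq_abs, Real.norm_eq_abs]
      refine mul_le_mul (hfBb _) ?_ (abs_nonneg _) ((abs_nonneg _).trans (hfBb 0))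
      have := abs_lt.1 (Br.abs_tanh_lt x)
      rw [abs_le]; constructor <;> linarith
  · refine Integrable.const_mul (Integrable.of_bound (C := max C 0 * 2) ?_
      (Eventually.of_forall fun x => ?_)) _
    · exact (hfBm.mul (measurable_const.add
        (measurable_const.mul Br.continuous_tanh.measurable))).aestronglyMeasurable
    · rw [norm_mul, Real.norm_eq_abs, Real.norm_eq_abs]
      refine mul_le_mul (hfBb _) ?_ (abs_nonneg _) ((abs_nonneg _).trans (hfBb 0))
      have := abs_lt.1 (Br.abs_tanh_lt x)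
      rw [abs_le]; constructor <;> linarith

end

namespace Br

variable {V : Type*} {G : SimpleGraph V} [G.LocallyFinite] {d : ℕ}

theorem theta_lt_one (hd : 3 ≤ d) {θ : ℝ} (h0 : 0 ≤ θ) (hθ : ((d : ℝ) - 1) * θ ^ 2 < 1) :
    θ < 1 := by
  by_contra hcon
  have h1 : 1 ≤ θ := not_lt.1 hcon
  have h2 : (3 : ℝ) ≤ d := by exact_mod_cast hd
  nlinarith

theorem measurable_M' {V : Type*} (G : SimpleGraph V) {θ : ℝ} (h0 : 0 ≤ θ) (h1 : θ < 1)
    (W : Finset V) (k : ℕ) (s : ℝ) (v : V) :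
    Measurable (fun ω : Lab V => M G θ W k s v ω) := by
  have h := measurable_M G h0 h1 W k v
  have h2 := h.comp (measurable_prodMk_left (x := s))
  exact h2

theorem measurable_Mi' (hT : G.IsTree) {θ : ℝ} (h0 : 0 ≤ θ) (h1 : θ < 1)
    (k : ℕ) (s : ℝ) (v : V) : Measurable (fun ω : Lab V => Mi G θ k s v ω) := by
  have h := measurable_Mi hT h0 h1 k v
  have h2 := h.comp (measurable_prodMk_left (x := s))
  exact h2

/-- a.e. convergence of the windows `ball z n`. -/
theorem ae_tendsto_ball (hT : G.IsTree) (hd : 3 ≤ d) (hreg : G.IsRegularOfDegree d) {θ : ℝ}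
    (h0 : 0 ≤ θ) (hθ : ((d : ℝ) - 1) * θ ^ 2 < 1) (k : ℕ) {s : ℝ} (hs : 0 ≤ s) (hs' : s ≤ 1 / 2)
    (z v : V) : ∀ᵐ ω ∂(labM V), Tendsto (fun n => M G θ (ball G z n) k s v ω) atTop
      (𝓝 (Mi G θ k s v ω)) := by
  have h1 := theta_lt_one hd h0 hθ
  obtain ⟨C, ρ, hC, hρ0, hρ1, H⟩ := exists_MiRate hT hd hreg h0 hθ k
  have m1 : ∀ n, Measurable (fun ω => M G θ (ball G z n) k s v ω) := fun n =>
    measurable_M' G h0 h1 (ball G z n) k s v
  have m2 : Measurable (fun ω => Mi G θ k s v ω) := measurable_Mi' hT h0 h1 k s v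
  have b1 : ∀ n ω, |M G θ (ball G z n) k s v ω| ≤ 1 := fun n ω =>
    abs_mg_le G h0 h1 (ball G z n) (P G θ (ball G z n) k s ω) v
  have b2 : ∀ ω, |Mi G θ k s v ω| ≤ 1 := fun ω =>
    (abs_Mi_le hT hreg h0 h1 v k hs hs' ω).trans (Real.tanh_lt_one _).le
  have hr : ∀ n, ∫ ω, (M G θ (ball G z (n + G.dist z v)) k s v ω - Mi G θ k s v ω) ^ 2
      ∂(labM V) ≤ C * ρ ^ n := by
    intro n
    refine H (ball G z (n + G.dist z v)) v n s (conv_ball hT z _) (fun w hw => ?_) hs hs'
    rw [mem_ball hT]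
    have := hT.connected.dist_triangle (u := z) (v := v) (w := w)
    omega
  exact ae_tendsto_of_rate (F := fun n ω => M G θ (ball G z n) k s v ω)
    (f := fun ω => Mi G θ k s v ω) (C := C) (ρ := ρ) (a := G.dist z v) hρ0 hρ1 m1 m2 b1 b2 hr

end Br

section
variable {V : Type*} {G : SimpleGraph V} [G.LocallyFinite] {d : ℕ}

/-- OUTPUT 1: moments in infinite volume. -/
theorem moments_Mi (hT : G.IsTree) (hd : 3 ≤ d) (hreg : G.IsRegularOfDegree d) (p : ℕ) :
    ∃ C : ℝ, 0 < C ∧ ∀ (θ s : ℝ) (v : V), 0 ≤ θ → ((d : ℝ) - 1) * θ ^ 2 < 1 → 0 < s →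
    s ≤ 1 / 2 → ∫ ω, Mi G θ 0 s v ω ^ (2 * p) ∂(labM V) ≤ C * qs s ^ p := by
  obtain ⟨C, hC, H⟩ := moments_rootLaw (b := d - 1) (by omega) p
  refine ⟨C, hC, fun θ s v h0 hθ hs hs' => ?_⟩
  have h1 := Br.theta_lt_one hd h0 hθ
  have hdd : ((d - 1 : ℕ) : ℝ) = (d : ℝ) - 1 := by
    rw [Nat.cast_sub (by omega)]; push_cast; ring
  have hae := Br.ae_tendsto_ball hT hd hreg h0 hθ 0 hs.le hs' v v
  have m1 : ∀ n, Measurable (fun ω => M G θ (ball G v n) 0 s v ω) := fun n =>
    Br.measurable_M' G h0 h1 (ball G v n) 0 s v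
  have hlim : Tendsto (fun n => ∫ ω, M G θ (ball G v n) 0 s v ω ^ (2 * p) ∂(labM V)) atTop
      (𝓝 (∫ ω, Mi G θ 0 s v ω ^ (2 * p) ∂(labM V))) := by
    refine tendsto_integral_of_dominated_convergence (fun _ => 1) (fun n => ?_)
      (integrable_const _) (fun n => Eventually.of_forall fun ω => ?_) ?_
    · exact ((m1 n).pow_const _).aestronglyMeasurable
    · rw [norm_pow, Real.norm_eq_abs]
      exact pow_le_one₀ (abs_nonneg _)
        (abs_mg_le G h0 h1 (ball G v n) (P G θ (ball G v n) 0 s ω) v)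
    · filter_upwards [hae] with ω hω
      exact hω.pow _
  have hle : ∀ n, ∫ ω, M G θ (ball G v (n + 1)) 0 s v ω ^ (2 * p) ∂(labM V) ≤ C * qs s ^ p := by
    intro n
    refine le_trans ?_ (H θ s n h0 (by rw [hdd]; exact hθ.le) hs hs')
    have sr := SymLaw.rootLaw (symLaw_own 0 hs.le hs') h0 h1 (d - 1) n
    have := sr.1
    have e1 : ∀ ω, M G θ (ball G v (n + 1)) 0 s v ω ^ (2 * p) =
        Real.tanh (Real.artanh (M G θ (ball G v (n + 1)) 0 s v ω)) ^ (2 * p) := by
      intro ω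
      congr 1
      unfold M
      rw [mg_ball_succ hT h0 h1 n v, Real.artanh_tanh]
    simp_rw [e1]
    rw [law_root hT hd hreg h0 h1 0 hs.le hs' n v (f := fun x => Real.tanh x ^ (2 * p))
      (Br.continuous_tanh.measurable.pow_const _)
      (fun R => ⟨1, fun x _ => by
        rw [abs_pow]
        exact pow_le_one₀ (abs_nonneg _) (Br.abs_tanh_lt x).le⟩)]
    have hsupp : ∀ᵐ x ∂(rootLaw (own 0 s) θ (d - 1) n), x ∈ Set.Icc
        (-((((0 : ℕ) : ℝ) + 1) * Real.artanh (1 / 2) + (((d - 1 : ℕ) : ℝ) + 1) * Real.artanh θ))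
        ((((0 : ℕ) : ℝ) + 1) * Real.artanh (1 / 2) + (((d - 1 : ℕ) : ℝ) + 1) * Real.artanh θ) := by
      rw [ae_iff]
      exact sr.2.2
    refine integral_mono_ae ?_ ?_ (Eventually.of_forall fun x => ?_)
    · exact Integrable.of_bound (Br.continuous_tanh.measurable.pow_const _).aestronglyMeasurable 1
        (Eventually.of_forall fun x => by
          rw [norm_pow, Real.norm_eq_abs]
          exact pow_le_one₀ (abs_nonneg _) (Br.abs_tanh_lt x).le)
    · refine Integrable.of_bound (measurable_id.pow_const _).aestronglyMeasurable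
        (((((0 : ℕ) : ℝ) + 1) * Real.artanh (1 / 2) + (((d - 1 : ℕ) : ℝ) + 1) * Real.artanh θ)
          ^ (2 * p)) ?_
      filter_upwards [hsupp] with x hx
      rw [norm_pow, Real.norm_eq_abs]
      exact pow_le_pow_left₀ (abs_nonneg _) (abs_le.2 hx) _
    · show Real.tanh x ^ (2 * p) ≤ x ^ (2 * p)
      rw [pow_mul, pow_mul]
      refine pow_le_pow_left₀ (sq_nonneg _) ?_ _
      rw [sq_le_sq]
      rw [Real.tanh_eq_sinh_div_cosh, abs_div, abs_of_pos (Real.cosh_pos x),
        div_le_iff₀ (Real.cosh_pos x)]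
      rw [Real.abs_sinh, ← Real.cosh_abs x]
      have hx : 0 ≤ |x| := abs_nonneg x
      obtain ⟨t, ht⟩ : ∃ t, t = |x| := ⟨_, rfl⟩
      rw [← ht] at hx ⊢
      -- sinh t ≤ t cosh t
      have hmono : MonotoneOn (fun t : ℝ => t * Real.cosh t - Real.sinh t) (Set.Ici 0) := by
        refine monotoneOn_of_deriv_nonneg (convex_Ici 0) ?_ ?_ ?_
        · exact ((continuous_id.mul Real.continuous_cosh).sub Real.continuous_sinh).continuousOn
        · exact ((differentiable_id.mul Real.differentiable_cosh).sub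
            Real.differentiable_sinh).differentiableOn
        · intro t ht
          rw [interior_Ici] at ht
          have hd1 : HasDerivAt (fun t : ℝ => t * Real.cosh t - Real.sinh t)
              (1 * Real.cosh t + t * Real.sinh t - Real.cosh t) t :=
            ((hasDerivAt_id t).mul (Real.hasDerivAt_cosh t)).sub (Real.hasDerivAt_sinh t)
          rw [hd1.deriv]
          have : 0 ≤ t * Real.sinh t := mul_nonneg (le_of_lt ht) (Real.sinh_nonneg_iff.2 (le_of_lt ht))
          linarith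
      have := hmono (Set.mem_Ici.2 le_rfl) (Set.mem_Ici.2 hx) hx
      simp only [Real.sinh_zero, zero_mul, sub_zero] at this
      linarith
  exact le_of_tendsto (hlim.comp (tendsto_add_atTop_nat 1))
    (Eventually.of_forall fun n => hle n)

end

end Crest.Agent.Lib.Row160
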