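import Crest.Agent.Lib.Row160.ExpMom

/-!
Row 160 (S0241), chunk M8d: the gain lemma.
-/

set_option autoImplicit false
open MeasureTheory Filter Topology

namespace Crest.Agent.Lib.Row160

namespace GainAux

lemma tanh_strictMono : StrictMono Real.tanh := by
  intro x y hxy
  by_contra hc
  push Not at hc
  have h1 := Real.artanh_le_artanh (x := Real.tanh y) (y := Real.tanh x)
    (Real.neg_one_lt_tanh y) (Real.tanh_lt_one x) hc
  rw [Real.artanh_tanh, Real.artanh_tanh] at h1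
  linarith

lemma measurable_tanh : Measurable Real.tanh := by
  have h : Real.tanh = fun x => Real.sinh x / Real.cosh x := by
    funext x
    exact Real.tanh_eq_sinh_div_cosh x
  rw [h]
  exact Real.measurable_sinh.div Real.measurable_cosh

lemma measurable_artanh : Measurable Real.artanh := by
  unfold Real.artanh
  fun_prop

lemma abs_tanh (x : ℝ) : |Real.tanh x| = Real.tanh |x| := by
  rcases le_total 0 x with h | h
  · have : 0 ≤ Real.tanh x := by
      have := tanh_strictMono.monotone h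
      rwa [Real.tanh_zero] at this
    rw [abs_of_nonneg h, abs_of_nonneg this]
  · have : Real.tanh x ≤ 0 := by
      have := tanh_strictMono.monotone h
      rwa [Real.tanh_zero] at this
    rw [abs_of_nonpos h, abs_of_nonpos this, Real.tanh_neg]

lemma tanh_sq_le {a b : ℝ} (h : a ^ 2 ≤ b ^ 2) : Real.tanh a ^ 2 ≤ Real.tanh b ^ 2 := by
  have h1 : |a| ≤ |b| := sq_le_sq.mp h
  rw [sq_le_sq, abs_tanh, abs_tanh]
  exact tanh_strictMono.monotone h1

lemma tanh_le_self {x : ℝ} (hx : 0 ≤ x) : Real.tanh x ≤ x := by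
  -- `x ≤ artanh`-type inequality: `t ≤ artanh t` for `t = tanh x`.
  set t := Real.tanh x with ht
  have ht0 : 0 ≤ t := by
    have := tanh_strictMono.monotone hx
    rwa [Real.tanh_zero] at this
  have ht1 : t < 1 := Real.tanh_lt_one x
  have h1 : x = 1 / 2 * Real.log ((1 + t) / (1 - t)) := by
    rw [← Real.artanh_eq_half_log ⟨by linarith, ht1.le⟩, ht, Real.artanh_tanh]
  have h2 : Real.log ((1 + t) / (1 - t)) = Real.log (1 + t) - Real.log (1 - t) :=
    Real.log_div (by linarith) (by linarith)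
  have h3 : Real.log (1 + t) - Real.log (1 - t) ≥ 2 * t := by
    have h4 := Real.hasSum_log_sub_log_of_abs_lt_one (x := t) (by rw [abs_of_nonneg ht0]; exact ht1)
    have h5 := le_hasSum h4 0 (fun k _ => by positivity)
    simp at h5
    linarith
  rw [h1, h2]
  linarith

lemma tanh_sq_le_sq (x : ℝ) : Real.tanh x ^ 2 ≤ x ^ 2 := by
  rw [sq_le_sq, abs_tanh]
  exact tanh_le_self (abs_nonneg x)

lemma tanh_psi {θ : ℝ} (h0 : 0 ≤ θ) (h1 : θ < 1) (h : ℝ) :
    Real.tanh (psi θ h) = θ * Real.tanh h := by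
  unfold psi
  have h2 := Real.abs_tanh_lt_one h
  have h3 : |θ * Real.tanh h| < 1 := by
    rw [abs_mul, abs_of_nonneg h0]
    nlinarith [abs_nonneg (Real.tanh h)]
  rw [abs_lt] at h3
  exact Real.tanh_artanh h3

lemma psi_neg {θ : ℝ} (h0 : 0 ≤ θ) (h1 : θ < 1) (h : ℝ) : psi θ (-h) = -psi θ h := by
  apply Real.tanh_injective
  rw [Real.tanh_neg, tanh_psi h0 h1, tanh_psi h0 h1, Real.tanh_neg]
  ring

/-- ratio `g_θ / θ` in `[0,1]`. -/
lemma ratio_eq {θ : ℝ} (h0 : 0 < θ) (M : ℝ) : gg θ M / θ = (1 - M ^ 2) / (1 - θ ^ 2 * M ^ 2) := by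
  unfold gg
  field_simp

lemma ratio_nonneg {θ : ℝ} (h0 : 0 < θ) (h1 : θ < 1) {M : ℝ} (hM : M ^ 2 < 1) :
    0 ≤ gg θ M / θ := by
  rw [ratio_eq h0]
  have h3 : θ ^ 2 * M ^ 2 < 1 := by nlinarith [sq_nonneg M, sq_nonneg θ]
  exact div_nonneg (by linarith) (by linarith)

lemma ratio_le {θ : ℝ} (h0 : 0 < θ) (h1 : 2 * θ ^ 2 ≤ 1) {M y : ℝ} (hM : M ^ 2 < 1)
    (hy : 0 ≤ y) (hyM : y ≤ M ^ 2) : gg θ M / θ ≤ 1 - y / 2 := by
  rw [ratio_eq h0]
  have h3 : θ ^ 2 * M ^ 2 < 1 := by nlinarith [sq_nonneg M, sq_nonneg θ]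
  rw [div_le_iff₀ (by linarith)]
  nlinarith [mul_nonneg hy (mul_nonneg (sq_nonneg θ) (sq_nonneg M)),
    mul_nonneg (sq_nonneg θ) (sq_nonneg M), sq_nonneg M, sq_nonneg θ,
    mul_nonneg (sub_nonneg.2 h1) (sq_nonneg M)]

lemma ratio_le_one {θ : ℝ} (h0 : 0 < θ) (h1 : 2 * θ ^ 2 ≤ 1) {M : ℝ} (hM : M ^ 2 < 1) :
    gg θ M / θ ≤ 1 := by
  have := ratio_le h0 h1 hM le_rfl (sq_nonneg M)
  linarith

end GainAux

namespace GainAux

/-- reflection does not change integrals w.r.t. a symmetric law. -/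
lemma integral_refl {B : ℝ} {κ : Measure ℝ} (h : SymLaw B κ) (f : ℝ → ℝ)
    (hf : Measurable f) : ∫ x, f (-x) ∂κ = ∫ x, f x ∂κ := by
  conv_rhs => rw [← h.2.1]
  rw [integral_map (by fun_prop) (by exact hf.aestronglyMeasurable)]

lemma integral_tanh {B : ℝ} {κ : Measure ℝ} (h : SymLaw B κ) : ∫ x, Real.tanh x ∂κ = 0 := by
  have h1 := integral_refl h Real.tanh measurable_tanh
  simp only [Real.tanh_neg] at h1
  rw [MeasureTheory.integral_neg] at h1
  linarith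

lemma integrable_bdd {B : ℝ} {κ : Measure ℝ} (h : SymLaw B κ) {f : ℝ → ℝ}
    (hf : Measurable f) {C : ℝ} (hb : ∀ x, |f x| ≤ C) : Integrable f κ := by
  have := h.1
  exact Integrable.of_bound hf.aestronglyMeasurable C (Eventually.of_forall hb)

lemma measurable_psi (θ : ℝ) : Measurable (psi θ) := by
  unfold psi
  exact measurable_artanh.comp (measurable_tanh.const_mul θ)

lemma measurable_gg (θ : ℝ) : Measurable (gg θ) := by
  unfold gg
  fun_prop

/-- the main estimate. -/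
lemma core {B : ℝ} {κ : Measure ℝ} (hκ : SymLaw B κ) {θ : ℝ} (h0 : 0 < θ)
    (h2 : 2 * θ ^ 2 ≤ 1) (lam : ℕ) (r σ : ℝ) (hσ : σ = 1 ∨ σ = -1) (g : ℝ → ℝ)
    (hgm : Measurable g) (hg0 : ∀ h, 0 ≤ g h)
    (hg1 : ∀ h, g h ≤ 1 - (1 - θ ^ 2 * Real.tanh h ^ 2 / 2) ^ (2 * lam))
    (hge : ∀ h, g (-h) = g h) :
    ∫ h, (gg θ (Real.tanh (r + psi θ h)) / θ) ^ (2 * lam) * (1 + σ * (θ * Real.tanh h)) ∂κ ≤
      1 - 1 / 8 * ∫ h, g h ∂κ := by
  have hprob := hκ.1
  have h1 : θ < 1 := by nlinarith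
  have hθ : θ ≤ 3 / 4 := by nlinarith
  set f : ℝ → ℝ := fun h => (gg θ (Real.tanh (r + psi θ h)) / θ) ^ (2 * lam) with hf
  have hfm : Measurable f := by
    have := measurable_gg θ
    have := measurable_tanh
    have := measurable_psi θ
    fun_prop
  have hrat0 : ∀ h, 0 ≤ gg θ (Real.tanh (r + psi θ h)) / θ := fun h =>
    ratio_nonneg h0 h1 (Real.tanh_sq_lt_one _)
  have hrat1 : ∀ h, gg θ (Real.tanh (r + psi θ h)) / θ ≤ 1 := fun h =>
    ratio_le_one h0 h2 (Real.tanh_sq_lt_one _)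
  have hf0 : ∀ h, 0 ≤ f h := fun h => pow_nonneg (hrat0 h) _
  have hf1 : ∀ h, f h ≤ 1 := fun h => pow_le_one₀ (hrat0 h) (hrat1 h)
  -- the pair estimate
  have hy : ∀ h, 0 ≤ θ ^ 2 * Real.tanh h ^ 2 ∧ θ ^ 2 * Real.tanh h ^ 2 ≤ 1 := fun h => by
    have := Real.tanh_sq_lt_one h
    constructor
    · positivity
    · nlinarith [sq_nonneg (Real.tanh h)]
  have hone : ∀ h, 0 ≤ r * psi θ h → f h ≤ 1 - g h := by
    intro h hr
    have h3 : Real.tanh (psi θ h) ^ 2 ≤ Real.tanh (r + psi θ h) ^ 2 :=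
      tanh_sq_le (by nlinarith [sq_nonneg r])
    rw [tanh_psi h0.le h1, mul_pow] at h3
    have h4 : gg θ (Real.tanh (r + psi θ h)) / θ ≤ 1 - θ ^ 2 * Real.tanh h ^ 2 / 2 :=
      ratio_le h0 h2 (Real.tanh_sq_lt_one _) (hy h).1 h3
    have h5 : f h ≤ (1 - θ ^ 2 * Real.tanh h ^ 2 / 2) ^ (2 * lam) :=
      pow_le_pow_left₀ (hrat0 h) h4 _
    have h6 := hg1 h
    linarith
  have hpair : ∀ h, g h ≤ (1 - f h) + (1 - f (-h)) := by
    intro h
    rcases le_total 0 (r * psi θ h) with hr | hr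
    · have := hone h hr
      have := hf1 (-h)
      linarith
    · have h3 : 0 ≤ r * psi θ (-h) := by
        rw [psi_neg h0.le h1]
        linarith
      have h4 := hone (-h) h3
      rw [hge] at h4
      have := hf1 h
      linarith
  have hf_abs : ∀ h, |f h| ≤ 1 := fun h => abs_le.2 ⟨by linarith [hf0 h], hf1 h⟩
  have hint_f : Integrable f κ := integrable_bdd hκ hfm hf_abs
  have hint_fr : Integrable (fun h => f (-h)) κ :=
    integrable_bdd hκ (hfm.comp measurable_neg) (fun h => hf_abs (-h))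
  have hg_le : ∀ h, g h ≤ 1 := fun h => by
    have h3 := hg1 h
    have h4 : 0 ≤ (1 - θ ^ 2 * Real.tanh h ^ 2 / 2) ^ (2 * lam) :=
      pow_nonneg (by linarith [(hy h).2]) _
    linarith
  have hint_g : Integrable g κ :=
    integrable_bdd hκ hgm (fun h => abs_le.2 ⟨by linarith [hg0 h], hg_le h⟩)
  have hT : Integrable Real.tanh κ :=
    integrable_bdd hκ measurable_tanh (fun h => (Real.abs_tanh_lt_one h).le)
  -- pointwise bound of the integrand
  have hσT : ∀ h, 1 / 4 ≤ 1 + σ * (θ * Real.tanh h) := by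
    intro h
    have h3 := Real.neg_one_lt_tanh h
    have h4 := Real.tanh_lt_one h
    rcases hσ with hσ | hσ <;> subst hσ <;> nlinarith
  have hpt : ∀ h, f h * (1 + σ * (θ * Real.tanh h)) ≤
      (1 + σ * θ * Real.tanh h) - 1 / 4 * (1 - f h) := by
    intro h
    have h3 := hσT h
    have h4 := hf1 h
    nlinarith
  have hgoal : ∫ h, f h * (1 + σ * (θ * Real.tanh h)) ∂κ ≤
      ∫ h, ((1 + σ * θ * Real.tanh h) - 1 / 4 * (1 - f h)) ∂κ := by
    refine integral_mono ?_ ?_ hpt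
    · refine Integrable.bdd_mul (c := 1) ?_ hfm.aestronglyMeasurable (Eventually.of_forall hf_abs)
      exact (integrable_const _).add ((hT.const_mul θ).const_mul σ)
    · exact ((integrable_const _).add (hT.const_mul (σ * θ))).sub
        (((integrable_const _).sub hint_f).const_mul _)
  have hi1 : Integrable (fun h => σ * θ * Real.tanh h) κ := hT.const_mul (σ * θ)
  have hi2 : Integrable (fun h => 1 + σ * θ * Real.tanh h) κ := (integrable_const _).add hi1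
  have hi3 : Integrable (fun h => 1 - f h) κ := (integrable_const _).sub hint_f
  have hi4 : Integrable (fun h => 1 / 4 * (1 - f h)) κ := hi3.const_mul _
  have hi5 : Integrable (fun h => 1 - f (-h)) κ := (integrable_const _).sub hint_fr
  have hcomp : ∫ h, ((1 + σ * θ * Real.tanh h) - 1 / 4 * (1 - f h)) ∂κ =
      1 - 1 / 4 * (1 - ∫ h, f h ∂κ) := by
    rw [integral_sub hi2 hi4, integral_add (integrable_const _) hi1, integral_const_mul,
      integral_const_mul, integral_sub (integrable_const _) hint_f, integral_tanh hκ]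
    simp
  have hsym : ∫ h, f (-h) ∂κ = ∫ h, f h ∂κ := integral_refl hκ f hfm
  have hpi : ∫ h, g h ∂κ ≤ 2 * (1 - ∫ h, f h ∂κ) := by
    have h3 : ∫ h, g h ∂κ ≤ ∫ h, ((1 - f h) + (1 - f (-h))) ∂κ :=
      integral_mono hint_g (hi3.add hi5) hpair
    rw [integral_add hi3 hi5, integral_sub (integrable_const _) hint_f,
      integral_sub (integrable_const _) hint_fr, hsym] at h3
    simp at h3
    linarith
  have : ∫ h, f h * (1 + σ * (θ * Real.tanh h)) ∂κ ≤ 1 - 1 / 8 * ∫ h, g h ∂κ := by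
    linarith
  exact this

/-- `e^{-x} ≤ 1 - x + x²/2` for `x ≥ 0`. -/
lemma exp_neg_le {x : ℝ} (hx : 0 ≤ x) : Real.exp (-x) ≤ 1 - x + x ^ 2 / 2 := by
  have h1 := Real.quadratic_le_exp_of_nonneg hx
  have h2 : (1 - x + x ^ 2 / 2) * (1 + x + x ^ 2 / 2) ≥ 1 := by nlinarith [sq_nonneg (x ^ 2)]
  have h3 : 0 < 1 - x + x ^ 2 / 2 := by nlinarith [sq_nonneg (x - 1)]
  have h4 : Real.exp (-x) * Real.exp x = 1 := by
    rw [← Real.exp_add]; simp
  have h5 : 0 < Real.exp x := Real.exp_pos x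
  have h6 : (1 - x + x ^ 2 / 2) * Real.exp x ≥ 1 := by nlinarith
  by_contra hc
  push Not at hc
  nlinarith

lemma pow_le_exp {y : ℝ} (h1 : y ≤ 1) (lam : ℕ) :
    (1 - y / 2) ^ (2 * lam) ≤ Real.exp (-(lam * y)) := by
  have h2 : 1 - y / 2 ≤ Real.exp (-(y / 2)) := by
    have := Real.add_one_le_exp (-(y / 2))
    linarith
  calc (1 - y / 2) ^ (2 * lam) ≤ (Real.exp (-(y / 2))) ^ (2 * lam) :=
        pow_le_pow_left₀ (by linarith) h2 _
    _ = Real.exp (-(lam * y)) := by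
        rw [← Real.exp_nat_mul]
        congr 1
        push_cast
        ring

lemma integrable_pow4 {B : ℝ} {κ : Measure ℝ} (h : SymLaw B κ) :
    Integrable (fun x : ℝ => x ^ 4) κ := by
  have := h.1
  refine Integrable.of_bound (by fun_prop) (B ^ 4) ?_
  have h1 : ∀ᵐ x ∂κ, x ∈ Set.Icc (-B) B := by
    rw [ae_iff]
    exact h.2.2
  filter_upwards [h1] with x hx
  rw [Real.norm_eq_abs, abs_of_nonneg (by positivity)]
  have h2 : x ^ 2 ≤ B ^ 2 := sq_le_sq' hx.1 hx.2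
  calc x ^ 4 = (x ^ 2) ^ 2 := by ring
    _ ≤ (B ^ 2) ^ 2 := pow_le_pow_left₀ (by positivity) h2 2
    _ = B ^ 4 := by ring

end GainAux

open GainAux

theorem gain_zero {b : ℕ} (hb : 2 ≤ b) : ∃ c₀ : ℝ, 0 < c₀ ∧ c₀ < 1 ∧ ∀ s : ℝ, 0 < s →
    s ≤ 1 / 2 → ∃ n₀ : ℕ, ∀ (θ : ℝ) (n lam : ℕ) (r σ : ℝ), n₀ ≤ n → 0 < θ → 1 ≤ 4 * b * θ ^ 2 →
    b * θ ^ 2 ≤ 1 → 1 - b * θ ^ 2 ≤ qs s → 1 ≤ lam * qs s → (σ = 1 ∨ σ = -1) →
    ∫ h, (gg θ (Real.tanh (r + psi θ h)) / θ) ^ (2 * lam) * (1 + σ * (θ * Real.tanh h))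
      ∂(kap (own 0 s) θ b n) ≤ c₀ := by
  have hb' : (2 : ℝ) ≤ b := by exact_mod_cast hb
  obtain ⟨c, hc, hc'⟩ := qq_kap_ge hb
  obtain ⟨C, hC, hC'⟩ := moments_kap hb 2
  -- `C₁ = C + 4 b c`
  set C₁ : ℝ := C + 4 * b * c with hC₁
  have hC₁pos : 0 < C₁ := by positivity
  have hXpos : 0 < c ^ 2 / (2 * C₁) := by positivity
  refine ⟨max (1 / 2) (1 - 1 / 8 * (c ^ 2 / (2 * C₁))), by positivity,
    max_lt (by norm_num) (by linarith), ?_⟩
  intro s hs hs'
  obtain ⟨n₀, hn₀⟩ := hc' s hs hs'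
  refine ⟨n₀, ?_⟩
  intro θ n lam r σ hn h0 hθ4 hbθ hqs hlam hσ
  refine le_trans ?_ (le_max_right _ _)
  have h2 : 2 * θ ^ 2 ≤ 1 := by nlinarith [sq_nonneg θ]
  have h1 : θ < 1 := by nlinarith
  have hq := hn₀ θ n hn h0.le hbθ hqs
  have hm := hC' θ s n h0.le hbθ hs hs'
  have hlaw : SymLaw (((0 : ℕ) + 1) * Real.artanh (1 / 2) + b * Real.artanh θ)
      (kap (own 0 s) θ b n) :=
    (symLaw_own 0 hs.le hs').kap h0.le h1 b n
  set κ := kap (own 0 s) θ b n with hκ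
  have hprob := hlaw.1
  have hqspos : 0 < qs s := by
    unfold qs
    positivity
  -- scale
  set a : ℝ := 1 / (4 * b * qs s) with ha
  have hapos : 0 < a := by positivity
  set τ : ℝ := 4 * b * c / C₁ with hτ
  have hτ0 : 0 < τ := by positivity
  have hτ1 : τ ≤ 1 := by
    rw [hτ, div_le_one hC₁pos, hC₁]
    linarith
  set g : ℝ → ℝ := fun h => 1 - Real.exp (-(τ * (a * Real.tanh h ^ 2))) with hg
  have hgm : Measurable g := by
    have := measurable_tanh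
    fun_prop
  have hu : ∀ h, 0 ≤ τ * (a * Real.tanh h ^ 2) := fun h => by positivity
  have hg0 : ∀ h, 0 ≤ g h := fun h => by
    have : Real.exp (-(τ * (a * Real.tanh h ^ 2))) ≤ 1 := Real.exp_le_one_iff.2 (by linarith [hu h])
    simp only [hg]
    linarith
  have hyle : ∀ h, θ ^ 2 * Real.tanh h ^ 2 ≤ 1 := fun h => by
    have := Real.tanh_sq_lt_one h
    nlinarith [sq_nonneg (Real.tanh h)]
  have hg1 : ∀ h, g h ≤ 1 - (1 - θ ^ 2 * Real.tanh h ^ 2 / 2) ^ (2 * lam) := by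
    intro h
    have h3 := pow_le_exp (y := θ ^ 2 * Real.tanh h ^ 2) (hyle h) lam
    have h4 : τ * (a * Real.tanh h ^ 2) ≤ lam * (θ ^ 2 * Real.tanh h ^ 2) := by
      have h5 : a ≤ lam * θ ^ 2 := by
        rw [ha, div_le_iff₀ (by positivity)]
        calc (1 : ℝ) ≤ (lam * qs s) * (4 * b * θ ^ 2) := by nlinarith
          _ = lam * θ ^ 2 * (4 * b * qs s) := by ring
      have h6 : τ * (a * Real.tanh h ^ 2) ≤ a * Real.tanh h ^ 2 := by
        have : 0 ≤ a * Real.tanh h ^ 2 := by positivity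
        nlinarith
      calc τ * (a * Real.tanh h ^ 2) ≤ a * Real.tanh h ^ 2 := h6
        _ ≤ (lam * θ ^ 2) * Real.tanh h ^ 2 := by
            exact mul_le_mul_of_nonneg_right h5 (sq_nonneg _)
        _ = lam * (θ ^ 2 * Real.tanh h ^ 2) := by ring
    have h7 : Real.exp (-(lam * (θ ^ 2 * Real.tanh h ^ 2))) ≤
        Real.exp (-(τ * (a * Real.tanh h ^ 2))) := Real.exp_le_exp.2 (by linarith)
    simp only [hg]
    linarith
  have hge : ∀ h, g (-h) = g h := by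
    intro h
    simp only [hg, Real.tanh_neg]
    congr 3
    ring_nf
  refine (core hlaw h0 h2 lam r σ hσ g hgm hg0 hg1 hge).trans ?_
  -- lower bound of `∫ g`
  have hT2 : Integrable (fun h => Real.tanh h ^ 2) κ :=
    integrable_bdd hlaw (measurable_tanh.pow_const 2) (C := 1) (fun h => by
      rw [abs_of_nonneg (sq_nonneg _)]
      exact (Real.tanh_sq_lt_one h).le)
  have h44 : Integrable (fun h : ℝ => h ^ 4) κ := integrable_pow4 hlaw
  have hpt : ∀ h, τ * a * Real.tanh h ^ 2 - (τ * a) ^ 2 / 2 * h ^ 4 ≤ g h := by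
    intro h
    have h3 := exp_neg_le (hu h)
    have h4 : Real.tanh h ^ 4 ≤ h ^ 4 := by
      have := tanh_sq_le_sq h
      calc Real.tanh h ^ 4 = (Real.tanh h ^ 2) ^ 2 := by ring
        _ ≤ (h ^ 2) ^ 2 := pow_le_pow_left₀ (by positivity) this 2
        _ = h ^ 4 := by ring
    have h5 : (τ * (a * Real.tanh h ^ 2)) ^ 2 / 2 ≤ (τ * a) ^ 2 / 2 * h ^ 4 := by
      calc (τ * (a * Real.tanh h ^ 2)) ^ 2 / 2 = (τ * a) ^ 2 / 2 * Real.tanh h ^ 4 := by ring
        _ ≤ _ := mul_le_mul_of_nonneg_left h4 (by positivity)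
    simp only [hg]
    linarith
  have hint_g : Integrable g κ := integrable_bdd hlaw hgm (C := 1) (fun h => by
    rw [abs_of_nonneg (hg0 h)]
    simp only [hg]
    linarith [Real.exp_pos (-(τ * (a * Real.tanh h ^ 2)))])
  have h3 : ∫ h, (τ * a * Real.tanh h ^ 2 - (τ * a) ^ 2 / 2 * h ^ 4) ∂κ ≤ ∫ h, g h ∂κ :=
    integral_mono ((hT2.const_mul _).sub (h44.const_mul _)) hint_g hpt
  rw [integral_sub (hT2.const_mul _) (h44.const_mul _), integral_const_mul,
    integral_const_mul] at h3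
  have hq' : c * qs s ≤ ∫ h, Real.tanh h ^ 2 ∂κ := hq
  have hm' : ∫ h, h ^ 4 ∂κ ≤ C * qs s ^ 2 := by
    have := hm
    norm_num at this
    exact this
  have h5 : τ * a * (c * qs s) = c ^ 2 / C₁ := by
    rw [hτ, ha]
    field_simp
  have h6 : (τ * a) ^ 2 / 2 * (C₁ * qs s ^ 2) = c ^ 2 / (2 * C₁) := by
    rw [hτ, ha]
    field_simp
  have h7 : τ * a * (c * qs s) ≤ τ * a * ∫ h, Real.tanh h ^ 2 ∂κ :=
    mul_le_mul_of_nonneg_left hq' (by positivity)
  have h8 : (τ * a) ^ 2 / 2 * ∫ h, h ^ 4 ∂κ ≤ (τ * a) ^ 2 / 2 * (C₁ * qs s ^ 2) := by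
    refine mul_le_mul_of_nonneg_left (hm'.trans ?_) (by positivity)
    refine mul_le_mul_of_nonneg_right ?_ (by positivity)
    rw [hC₁]
    have : 0 ≤ 4 * b * c := by positivity
    linarith
  have h9 : c ^ 2 / (2 * C₁) ≤ ∫ h, g h ∂κ := by
    have : c ^ 2 / C₁ = 2 * (c ^ 2 / (2 * C₁)) := by field_simp
    linarith
  linarith

theorem gain_pos {b : ℕ} (hb : 2 ≤ b) {k : ℕ} (hk : 1 ≤ k) : ∃ c₀ : ℝ, 0 < c₀ ∧ c₀ < 1 ∧
    ∀ (s θ : ℝ) (n lam : ℕ) (r σ : ℝ), 0 ≤ s →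
    s ≤ 1 / 2 → 0 < θ → 1 ≤ 4 * b * θ ^ 2 →
    b * θ ^ 2 ≤ 1 → 1 ≤ lam → (σ = 1 ∨ σ = -1) →
    ∫ h, (gg θ (Real.tanh (r + psi θ h)) / θ) ^ (2 * lam) * (1 + σ * (θ * Real.tanh h))
      ∂(kap (own k s) θ b n) ≤ c₀ := by
  have hb' : (2 : ℝ) ≤ b := by exact_mod_cast hb
  have hXpos : 0 < 1 / (8 * b : ℝ) * (1 / 72) := by positivity
  refine ⟨max (1 / 2) (1 - 1 / 8 * (1 / (8 * b : ℝ) * (1 / 72))), by positivity,
    max_lt (by norm_num) (by linarith), ?_⟩
  intro s θ n lam r σ hs hs' h0 hθ4 hbθ hlam hσ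
  refine le_trans ?_ (le_max_right _ _)
  have h2 : 2 * θ ^ 2 ≤ 1 := by nlinarith [sq_nonneg θ]
  have h1 : θ < 1 := by nlinarith
  have hown := symLaw_own k hs hs'
  have hlaw := hown.kap h0.le h1 b n
  have hq : 1 / 72 ≤ qq (kap (own k s) θ b n) :=
    (qq_own_ge hk hs hs').trans (qq_kap_ge_own hown h0.le h1 b n)
  set κ := kap (own k s) θ b n with hκ
  have hprob := hlaw.1
  set g : ℝ → ℝ := fun h => 1 / (8 * b : ℝ) * Real.tanh h ^ 2 with hg
  have hgm : Measurable g := by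
    have := measurable_tanh
    fun_prop
  have hg0 : ∀ h, 0 ≤ g h := fun h => by positivity
  have hg1 : ∀ h, g h ≤ 1 - (1 - θ ^ 2 * Real.tanh h ^ 2 / 2) ^ (2 * lam) := by
    intro h
    have hT := Real.tanh_sq_lt_one h
    have hT0 := sq_nonneg (Real.tanh h)
    have h3 : 0 ≤ 1 - θ ^ 2 * Real.tanh h ^ 2 / 2 := by nlinarith
    have h4 : 1 - θ ^ 2 * Real.tanh h ^ 2 / 2 ≤ 1 := by
      have : 0 ≤ θ ^ 2 * Real.tanh h ^ 2 := by positivity
      linarith
    have h5 : (1 - θ ^ 2 * Real.tanh h ^ 2 / 2) ^ (2 * lam) ≤ 1 - θ ^ 2 * Real.tanh h ^ 2 / 2 :=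
      pow_le_of_le_one h3 h4 (by omega)
    have h6 : 1 / (8 * b : ℝ) ≤ θ ^ 2 / 2 := by
      rw [div_le_iff₀ (by positivity)]
      nlinarith
    have h7 : g h ≤ θ ^ 2 / 2 * Real.tanh h ^ 2 := mul_le_mul_of_nonneg_right h6 hT0
    linarith
  have hge : ∀ h, g (-h) = g h := by
    intro h
    simp only [hg, Real.tanh_neg]
    ring
  refine (core hlaw h0 h2 lam r σ hσ g hgm hg0 hg1 hge).trans ?_
  have h3 : ∫ h, g h ∂κ = 1 / (8 * b : ℝ) * qq κ := by
    simp only [hg, qq]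
    rw [integral_const_mul]
  rw [h3]
  have h4 : 1 / (8 * b : ℝ) * (1 / 72) ≤ 1 / (8 * b : ℝ) * qq κ :=
    mul_le_mul_of_nonneg_left hq (by positivity)
  linarith

end Crest.Agent.Lib.Row160
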