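import Crest.Agent.Lib.Row160.BridgeE
import Crest.Agent.Lib.Row160.Gain

/-!
Row 160, chunk M9, part F: path weights in subtrees.
-/

set_option autoImplicit false

open MeasureTheory Filter Topology

namespace Crest.Agent.Lib.Row160

namespace Br

variable {V : Type*} {G : SimpleGraph V} [G.LocallyFinite] {d : ℕ}

open Classical in
/-- path weights in terms of the cavity magnetisations of the subtrees. -/
noncomputable def Zx (G : SimpleGraph V) [G.LocallyFinite] (b : ℕ) (θ : ℝ) (lam : ℕ) (x : V → ℝ) :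
    ℕ → ℕ → V → V → ℝ
  | 0, _ => fun _ _ => 1
  | (L + 1), D => fun z y => (1 / (b : ℝ)) * ∑ c ∈ (G.neighborFinset y).erase z,
      (gg θ (mg G θ (Tn G (D - 1) y c) x c) / θ) ^ (2 * lam) * Zx G b θ lam x L (D - 1) y c

/-- the vertices of the subtree of a child. -/
theorem Tn_child_eq_filter (hT : G.IsTree) {D : ℕ} {z y c : V} (hzy : G.Adj z y) (hyc : G.Adj y c)
    (hcz : c ≠ z) {W : Finset V}
    (hW : Tn G (D + 1) z y = W.filter (fun w => G.dist z w = G.dist y w + 1)) :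
    Tn G D y c = W.filter (fun w => G.dist y w = G.dist c w + 1) := by
  have side : ∀ w, G.dist y w = G.dist c w + 1 → G.dist z w = G.dist y w + 1 := fun w hw =>
    dist_other_side hT hzy.symm hyc (fun h => hcz h.symm) hw
  ext w
  rw [Finset.mem_filter, mem_Tn hT]
  constructor
  · rintro ⟨h1, h2⟩
    have h3 : w ∈ Tn G (D + 1) z y := by
      rw [mem_Tn hT]
      exact ⟨by omega, side w h2⟩
    rw [hW, Finset.mem_filter] at h3
    exact ⟨h3.1, h2⟩
  · rintro ⟨h1, h2⟩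
    have h3 : w ∈ Tn G (D + 1) z y := by
      rw [hW, Finset.mem_filter]
      exact ⟨h1, side w h2⟩
    rw [mem_Tn hT] at h3
    exact ⟨by omega, h2⟩

open Classical in
theorem Zp_eq_Zx (hT : G.IsTree) {θ : ℝ} (h0 : 0 ≤ θ) (h1 : θ < 1) (b lam : ℕ) (W : Finset V)
    (x : V → ℝ) : ∀ (L D : ℕ), L ≤ D → ∀ {z y : V}, G.Adj z y → y ∈ W →
    Tn G D z y = W.filter (fun w => G.dist z w = G.dist y w + 1) →
    Zp G b θ lam (fun v => mg G θ W x v) L z y = Zx G b θ lam x L D z y := by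
  intro L
  induction L with
  | zero => intro D _ z y _ _ _; rfl
  | succ L ih =>
    intro D hD z y hzy hy hW
    obtain ⟨D', rfl⟩ : ∃ D', D = D' + 1 := ⟨D - 1, by omega⟩
    show (1 / (b : ℝ)) * _ = (1 / (b : ℝ)) * _
    congr 1
    refine Finset.sum_congr (by ext; simp) fun c hc => ?_
    rw [Finset.mem_erase, SimpleGraph.mem_neighborFinset] at hc
    have hfil := Tn_child_eq_filter hT hzy hc.2 hc.1 hW
    have hcW : c ∈ W := by
      have : c ∈ Tn G D' y c := self_mem_Tn hT D' hc.2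
      rw [hfil, Finset.mem_filter] at this
      exact this.1
    rw [Ge_eq_gg hT h0 h1 hc.2 W hy hcW x, ih D' (by omega) hc.2 hcW hfil, ← hfil]
    rfl

/-! ### the weights under the free process -/

/-- the factor of a vertex. -/
noncomputable def aw (G : SimpleGraph V) (θ : ℝ) (lam k : ℕ) (s : ℝ) (D : ℕ) (y c : V)
    (ω : Lab V) : ℝ := (gg θ (mg G θ (Tn G D y c) (free k s ω) c) / θ) ^ (2 * lam)

/-- the weight. -/
noncomputable def Zf (G : SimpleGraph V) [G.LocallyFinite] (b : ℕ) (θ : ℝ) (lam k : ℕ) (s : ℝ)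
    (L D : ℕ) (z y : V) (ω : Lab V) : ℝ := Zx G b θ lam (free k s ω) L D z y

open Classical in
theorem Zf_succ (b : ℕ) (θ : ℝ) (lam k : ℕ) (s : ℝ) (L D : ℕ) (z y : V) (ω : Lab V) :
    Zf G b θ lam k s (L + 1) (D + 1) z y ω = (1 / (b : ℝ)) * ∑ c ∈ (G.neighborFinset y).erase z,
      aw G θ lam k s D y c ω * Zf G b θ lam k s L D y c ω := rfl

theorem gg_div_nonneg {θ : ℝ} (h0 : 0 < θ) (h1 : θ < 1) {m : ℝ} (hm : |m| ≤ 1) :
    0 ≤ gg θ m / θ := div_nonneg (gg_nonneg h0.le h1 hm) h0.le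

theorem gg_div_le_one {θ : ℝ} (h0 : 0 < θ) (h1 : θ < 1) {m : ℝ} (hm : |m| ≤ 1) :
    gg θ m / θ ≤ 1 := by
  rw [div_le_one h0]
  refine (gg_le h0.le h1 hm).trans ?_
  have : Real.exp (-(1 - θ ^ 2) * m ^ 2) ≤ 1 := by
    rw [Real.exp_le_one_iff]
    have h2 : 0 ≤ 1 - θ ^ 2 := by nlinarith
    nlinarith [mul_nonneg h2 (sq_nonneg m)]
  calc θ * Real.exp (-(1 - θ ^ 2) * m ^ 2) ≤ θ * 1 := mul_le_mul_of_nonneg_left this h0.le
    _ = θ := mul_one _

theorem aw_nonneg {θ : ℝ} (h0 : 0 < θ) (h1 : θ < 1) (lam k : ℕ) (s : ℝ) (D : ℕ) (y c : V)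
    (ω : Lab V) : 0 ≤ aw G θ lam k s D y c ω :=
  pow_nonneg (gg_div_nonneg h0 h1 (abs_mg_le G h0.le h1 _ _ c)) _

theorem aw_le_one {θ : ℝ} (h0 : 0 < θ) (h1 : θ < 1) (lam k : ℕ) (s : ℝ) (D : ℕ) (y c : V)
    (ω : Lab V) : aw G θ lam k s D y c ω ≤ 1 :=
  pow_le_one₀ (gg_div_nonneg h0 h1 (abs_mg_le G h0.le h1 _ _ c))
    (gg_div_le_one h0 h1 (abs_mg_le G h0.le h1 _ _ c))

theorem aw_eq (hT : G.IsTree) {θ : ℝ} (h0 : 0 ≤ θ) (h1 : θ < 1) (lam k : ℕ) (s : ℝ) (D : ℕ)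
    {y c : V} (h : G.Adj y c) (ω : Lab V) :
    aw G θ lam k s D y c ω = (gg θ (Real.tanh (hc G θ k s D y c ω)) / θ) ^ (2 * lam) := by
  unfold aw hc
  rw [← mg_Tn_eq_tanh hT h0 h1 D h]

/-- the function of the field. -/
noncomputable def ga (θ : ℝ) (lam : ℕ) (h : ℝ) : ℝ := (gg θ (Real.tanh h) / θ) ^ (2 * lam)

theorem measurable_ga (θ : ℝ) (lam : ℕ) : Measurable (ga θ lam) := by
  have hg : Measurable (gg θ) := by
    unfold gg
    fun_prop
  exact ((hg.comp continuous_tanh.measurable).div_const θ).pow_const _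

theorem ga_nonneg {θ : ℝ} (h0 : 0 < θ) (h1 : θ < 1) (lam : ℕ) (h : ℝ) : 0 ≤ ga θ lam h :=
  pow_nonneg (gg_div_nonneg h0 h1 (abs_tanh_lt h).le) _

theorem ga_le_one {θ : ℝ} (h0 : 0 < θ) (h1 : θ < 1) (lam : ℕ) (h : ℝ) : ga θ lam h ≤ 1 :=
  pow_le_one₀ (gg_div_nonneg h0 h1 (abs_tanh_lt h).le) (gg_div_le_one h0 h1 (abs_tanh_lt h).le)

theorem abs_ga_le {θ : ℝ} (h0 : 0 < θ) (h1 : θ < 1) (lam : ℕ) (h : ℝ) : |ga θ lam h| ≤ 1 := by
  rw [abs_of_nonneg (ga_nonneg h0 h1 lam h)]; exact ga_le_one h0 h1 lam h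

section gd

variable (hT : G.IsTree) (hreg : G.IsRegularOfDegree d) {θ : ℝ} (h0 : 0 < θ) (h1 : θ < 1) (k : ℕ)
  {s : ℝ} (hs : 0 ≤ s) (hs' : s ≤ 1 / 2) (lam : ℕ)
include hT hreg h0 h1 hs hs'

theorem gd_aw (D : ℕ) {y c : V} (h : G.Adj y c) :
    Gd (cd k (Tn G D y c : Set V)) (aw G θ lam k s D y c) := by
  have h2 : aw G θ lam k s D y c = fun ω => ga θ lam (hc G θ k s D y c ω) := by
    funext ω; exact aw_eq hT h0.le h1 lam k s D h ω
  rw [h2]
  exact (gd_hc hT hreg h0.le h1 k hs hs' D h).comp (measurable_ga θ lam)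
    (fun R => ⟨1, fun x _ => abs_ga_le h0 h1 lam x⟩)

omit hreg h0 h1 hs hs' in
theorem cd_child_subset (D : ℕ) {z y c : V} (hzy : G.Adj z y) (hyc : G.Adj y c) (hcz : c ≠ z) :
    cd k (Tn G D y c : Set V) ⊆ cd k (Tn G (D + 1) z y : Set V) := by
  classical
  apply cd_mono
  rw [Tn_succ hT D hzy]
  intro w hw
  rw [Finset.mem_coe, Finset.mem_insert, Finset.mem_biUnion]
  exact Or.inr ⟨c, Finset.mem_erase.2 ⟨hcz, (SimpleGraph.mem_neighborFinset _ _ _).2 hyc⟩, hw⟩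

omit hT hreg hs hs' in
theorem Zf_nonneg (b : ℕ) : ∀ (L D : ℕ), L ≤ D → ∀ (z y : V) (ω : Lab V),
    0 ≤ Zf G b θ lam k s L D z y ω := by
  classical
  intro L
  induction L with
  | zero => intro D _ z y ω; exact zero_le_one
  | succ L ih =>
    intro D hD z y ω
    obtain ⟨D', rfl⟩ : ∃ D', D = D' + 1 := ⟨D - 1, by omega⟩
    rw [Zf_succ]
    exact mul_nonneg (by positivity) (Finset.sum_nonneg fun c _ =>
      mul_nonneg (aw_nonneg h0 h1 lam k s D' y c ω) (ih D' (by omega) y c ω))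

omit hT hs hs' in
theorem Zf_le_one (hd : 3 ≤ d) : ∀ (L D : ℕ), L ≤ D → ∀ {z y : V}, G.Adj z y → ∀ (ω : Lab V),
    Zf G (d - 1) θ lam k s L D z y ω ≤ 1 := by
  classical
  intro L
  induction L with
  | zero => intro D _ z y _ ω; exact le_refl _
  | succ L ih =>
    intro D hD z y hzy ω
    obtain ⟨D', rfl⟩ : ∃ D', D = D' + 1 := ⟨D - 1, by omega⟩
    rw [Zf_succ]
    have hb : (0 : ℝ) < ((d - 1 : ℕ) : ℝ) := by exact_mod_cast (by omega : 0 < d - 1)
    have h2 : ∑ c ∈ (G.neighborFinset y).erase z,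
        aw G θ lam k s D' y c ω * Zf G (d - 1) θ lam k s L D' y c ω ≤ ((d - 1 : ℕ) : ℝ) := by
      calc _ ≤ ∑ c ∈ (G.neighborFinset y).erase z, (1 : ℝ) := by
            refine Finset.sum_le_sum fun c hc => ?_
            rw [Finset.mem_erase, SimpleGraph.mem_neighborFinset] at hc
            exact mul_le_one₀ (aw_le_one h0 h1 lam k s D' y c ω)
              (Zf_nonneg h0 h1 k lam (d - 1) L D' (by omega) y c ω) (ih D' (by omega) hc.2 ω)
        _ = _ := by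
            rw [Finset.sum_const, card_children hreg hzy, nsmul_eq_mul, mul_one]
    calc _ ≤ (1 / ((d - 1 : ℕ) : ℝ)) * ((d - 1 : ℕ) : ℝ) :=
          mul_le_mul_of_nonneg_left h2 (by positivity)
      _ = 1 := by field_simp

theorem gd_Zf (b : ℕ) : ∀ (L D : ℕ), L ≤ D → ∀ {z y : V}, G.Adj z y →
    Gd (cd k (Tn G D z y : Set V)) (Zf G b θ lam k s L D z y) := by
  classical
  intro L
  induction L with
  | zero => intro D _ z y _; exact gd_const _ 1
  | succ L ih =>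
    intro D hD z y hzy
    obtain ⟨D', rfl⟩ : ∃ D', D = D' + 1 := ⟨D - 1, by omega⟩
    have h2 : Zf G b θ lam k s (L + 1) (D' + 1) z y = fun ω => (1 / (b : ℝ)) *
        ∑ c ∈ (G.neighborFinset y).erase z,
          aw G θ lam k s D' y c ω * Zf G b θ lam k s L D' y c ω := by
      funext ω; exact Zf_succ b θ lam k s L D' z y ω
    rw [h2]
    refine (Gd.sum fun c hc => ?_).const_mul _
    rw [Finset.mem_erase, SimpleGraph.mem_neighborFinset] at hc
    exact ((gd_aw hT hreg h0 h1 k hs hs' lam D' hc.2).mul (ih D' (by omega) hc.2)).mono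
      (cd_child_subset hT k D' hzy hc.2 hc.1)

end gd

/-! ### positivity and mass of the planted densities -/

theorem lik_nonneg (k : ℕ) (s : ℝ) (ω : Lab V) (v : V) {σ : ℝ} (hσ : σ = 1 ∨ σ = -1) :
    0 ≤ lik k s ω v σ := by
  have hσ1 : |σ| ≤ 1 := by rcases hσ with h | h <;> rw [h] <;> norm_num
  exact mul_nonneg (Finset.prod_nonneg fun j _ => lq_nonneg (1 / 2) hσ1 (ω (v, j)))
    (lq_nonneg s hσ1 (ω (v, k)))

theorem Lr_nonneg {θ : ℝ} (h0 : 0 ≤ θ) (h1 : θ < 1) (k : ℕ) (s : ℝ) (ω : Lab V) (n : ℕ) :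
    ∀ {σ : ℝ}, (σ = 1 ∨ σ = -1) → ∀ z y : V, 0 ≤ Lr G θ k s ω n σ z y := by
  classical
  induction n with
  | zero => intro σ hσ z y; exact lik_nonneg k s ω y hσ
  | succ n ih =>
    intro σ hσ z y
    rw [Lr_succ]
    refine mul_nonneg (lik_nonneg k s ω y hσ) (Finset.prod_nonneg fun c _ => ?_)
    unfold mixL
    have e1 : 0 ≤ (1 + θ * σ) / 2 := by rcases hσ with h | h <;> rw [h] <;> linarith
    have e2 : 0 ≤ (1 - θ * σ) / 2 := by rcases hσ with h | h <;> rw [h] <;> linarith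
    exact add_nonneg (mul_nonneg e1 (ih (Or.inl rfl) y c)) (mul_nonneg e2 (ih (Or.inr rfl) y c))

theorem mixL_nonneg {θ : ℝ} (h0 : 0 ≤ θ) (h1 : θ < 1) (k : ℕ) (s : ℝ) (n : ℕ) {σ : ℝ}
    (hσ : σ = 1 ∨ σ = -1) (y c : V) (ω : Lab V) : 0 ≤ mixL G θ k s n σ y c ω := by
  unfold mixL
  have e1 : 0 ≤ (1 + θ * σ) / 2 := by rcases hσ with h | h <;> rw [h] <;> linarith
  have e2 : 0 ≤ (1 - θ * σ) / 2 := by rcases hσ with h | h <;> rw [h] <;> linarith
  exact add_nonneg (mul_nonneg e1 (Lr_nonneg h0 h1 k s ω n (Or.inl rfl) y c))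
    (mul_nonneg e2 (Lr_nonneg h0 h1 k s ω n (Or.inr rfl) y c))

section mass

variable (hT : G.IsTree) (hreg : G.IsRegularOfDegree d) {θ : ℝ} (h0 : 0 < θ) (h1 : θ < 1) (k : ℕ)
  {s : ℝ} (hs : 0 ≤ s) (hs' : s ≤ 1 / 2)
include hT hreg h0 h1 hs hs'

theorem gd_mixL (n : ℕ) {y c : V} (h : G.Adj y c) (σ : ℝ) :
    Gd (cd k (Tn G n y c : Set V)) (mixL G θ k s n σ y c) :=
  ((gd_Lr hT hreg h0.le h1 k hs hs' n h (Or.inl rfl)).const_mul _).add
    ((gd_Lr hT hreg h0.le h1 k hs hs' n h (Or.inr rfl)).const_mul _)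

/-- a bound for both spins gives a bound for the mixture. -/
theorem integral_mixL_le {F : Lab V → ℝ} {n : ℕ} {y c : V} (h : G.Adj y c) {T : Set (V × ℕ)}
    (hF : Gd T F) {σ B : ℝ} (hσ : σ = 1 ∨ σ = -1)
    (H : ∀ {τ : ℝ}, (τ = 1 ∨ τ = -1) → ∫ ω, F ω * Lr G θ k s ω n τ y c ∂(labM V) ≤ B) :
    ∫ ω, F ω * mixL G θ k s n σ y c ω ∂(labM V) ≤ B := by
  have g1 := gd_Lr hT hreg h0.le h1 k hs hs' n h (σ := 1) (Or.inl rfl)
  have g2 := gd_Lr hT hreg h0.le h1 k hs hs' n h (σ := -1) (Or.inr rfl)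
  have i1 := ((hF.mono (Set.subset_union_left (t := cd k (Tn G n y c : Set V)))).mul
    (g1.mono (Set.subset_union_right (s := T)))).integrable
  have i2 := ((hF.mono (Set.subset_union_left (t := cd k (Tn G n y c : Set V)))).mul
    (g2.mono (Set.subset_union_right (s := T)))).integrable
  have e : ∀ ω, F ω * mixL G θ k s n σ y c ω =
      ((1 + θ * σ) / 2) * (F ω * Lr G θ k s ω n 1 y c) +
      ((1 - θ * σ) / 2) * (F ω * Lr G θ k s ω n (-1) y c) := by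
    intro ω; unfold mixL; ring
  simp_rw [e]
  rw [integral_add (i1.const_mul _) (i2.const_mul _), integral_const_mul, integral_const_mul]
  have e1 : 0 ≤ (1 + θ * σ) / 2 := by rcases hσ with h | h <;> rw [h] <;> linarith
  have e2 : 0 ≤ (1 - θ * σ) / 2 := by rcases hσ with h | h <;> rw [h] <;> linarith
  have h3 := mul_le_mul_of_nonneg_left (H (Or.inl rfl)) e1
  have h4 := mul_le_mul_of_nonneg_left (H (Or.inr rfl)) e2
  linarith

theorem integral_mixL (n : ℕ) {y c : V} (h : G.Adj y c) (σ : ℝ) :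
    ∫ ω, mixL G θ k s n σ y c ω ∂(labM V) = 1 := by
  have g1 := gd_Lr hT hreg h0.le h1 k hs hs' n h (σ := 1) (Or.inl rfl)
  have g2 := gd_Lr hT hreg h0.le h1 k hs hs' n h (σ := -1) (Or.inr rfl)
  unfold mixL
  rw [integral_add (g1.integrable.const_mul _) (g2.integrable.const_mul _), integral_const_mul,
    integral_const_mul, integral_Lr hT hreg h0.le h1 k hs hs' n h (Or.inl rfl),
    integral_Lr hT hreg h0.le h1 k hs hs' n h (Or.inr rfl)]
  ring

end mass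

end Br

end Crest.Agent.Lib.Row160
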