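import Crest.Agent.Lib.Row160.BridgeF

/-!
Row 160, chunk M9, part G: exponential moments of the path weights.
-/

set_option autoImplicit false

open MeasureTheory Filter Topology

namespace Crest.Agent.Lib.Row160

namespace Br

variable {V : Type*}

/-- one off-path message gives a gain. -/
theorem off_path {S₁ S₂ : Set (V × ℕ)} (hdis : Disjoint S₁ S₂) {R Q : Lab V → ℝ} (gR : Gd S₁ R)
    (gQ : Gd S₁ Q) (hQ : ∀ ω, 0 ≤ Q ω) {σ : ℝ} {κ : Measure ℝ} {h L : Lab V → ℝ}
    (hl : LawOf S₂ σ κ h L) {f : ℝ → ℝ} (hf : Measurable f) {C : ℝ} (hb : ∀ x, |f x| ≤ C)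
    {c₀ : ℝ} (hc : ∀ r, ∫ x, f (r + x) * (1 + σ * Real.tanh x) ∂κ ≤ c₀) :
    ∫ ω, f (R ω + h ω) * L ω * Q ω ∂(labM V) ≤ c₀ * ∫ ω, Q ω ∂(labM V) := by
  obtain ⟨C₁, hC₁⟩ := hl.gL.bdd
  obtain ⟨C₂, hC₂⟩ := gQ.bdd
  have h0C : 0 ≤ C := (abs_nonneg _).trans (hb 0)
  have hmeas : Measurable (fun p : Lab V × Lab V => f (R p.1 + h p.2) * L p.2 * Q p.1) :=
    ((hf.comp ((gR.meas.comp measurable_fst).add (hl.gh.meas.comp measurable_snd))).mul
      (hl.gL.meas.comp measurable_snd)).mul (gQ.meas.comp measurable_fst)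
  have hbd : ∀ ω ω', |f (R ω + h ω') * L ω' * Q ω| ≤ C * C₁ * C₂ := fun ω ω' => by
    rw [abs_mul, abs_mul]
    refine mul_le_mul (mul_le_mul (hb _) (hC₁ ω') (abs_nonneg _) h0C) (hC₂ ω) (abs_nonneg _) ?_
    exact mul_nonneg h0C ((abs_nonneg _).trans (hC₁ ω'))
  have hdiag := integral_diag (S := S₁) (H := fun ω ω' => f (R ω + h ω') * L ω' * Q ω)
    (fun ω₁ ω₂ ω' hq => by
      show f (R ω₁ + h ω') * L ω' * Q ω₁ = f (R ω₂ + h ω') * L ω' * Q ω₂
      rw [gR.dep ω₁ ω₂ hq, gQ.dep ω₁ ω₂ hq])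
    (fun ω ω₁ ω₂ hq => by
      show f (R ω + h ω₁) * L ω₁ * Q ω = f (R ω + h ω₂) * L ω₂ * Q ω
      have h' : ∀ q ∈ S₂, ω₁ q = ω₂ q := fun q hqS => hq q fun hqS' =>
        Set.disjoint_left.1 hdis hqS' hqS
      rw [hl.gh.dep ω₁ ω₂ h', hl.gL.dep ω₁ ω₂ h'])
    hmeas ⟨C * C₁ * C₂, hbd⟩
  have hint : Integrable (fun p : Lab V × Lab V => f (R p.1 + h p.2) * L p.2 * Q p.1)
      ((labM V).prod (labM V)) := Integrable.of_bound hmeas.aestronglyMeasurable (C * C₁ * C₂)
    (Eventually.of_forall fun p => by rw [Real.norm_eq_abs]; exact hbd p.1 p.2)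
  have hint2 := hint.integral_prod_left
  rw [hdiag, ← integral_const_mul]
  refine integral_mono hint2 (gQ.integrable.const_mul c₀) fun ω => ?_
  have := hl.law (fun y => f (R ω + y)) (hf.comp (measurable_const_add _)) ⟨C, fun x => hb _⟩
  beta_reduce
  rw [integral_mul_const, this]
  exact mul_le_mul_of_nonneg_right (hc (R ω)) (hQ ω)

variable {G : SimpleGraph V} [G.LocallyFinite] {d : ℕ}

section est

variable (hT : G.IsTree) (hd : 3 ≤ d) (hreg : G.IsRegularOfDegree d) {θ : ℝ} (h0 : 0 < θ)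
  (h1 : θ < 1) (k : ℕ) {s : ℝ} (hs : 0 ≤ s) (hs' : s ≤ 1 / 2) (lam : ℕ)
include hT hreg h0 h1 hs hs'

open Classical in
/-- factorisation over the root and its children. -/
theorem integral_root_children (n : ℕ) (y : V) {σ : ℝ} (hσ : σ = 1 ∨ σ = -1) (S : Finset V)
    (hS : ∀ c ∈ S, G.Adj y c) {F : V → Lab V → ℝ}
    (hF : ∀ c ∈ S, Gd (cd k (Tn G n y c : Set V)) (F c)) :
    ∫ ω, lik k s ω y σ * ∏ c ∈ S, F c ω ∂(labM V) = ∏ c ∈ S, ∫ ω, F c ω ∂(labM V) := by
  have hdis : Disjoint (cd k ({y} : Set V)) (⋃ c ∈ S, cd k (Tn G n y c : Set V)) := by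
    rw [Set.disjoint_iUnion₂_right]
    exact fun c hc => cd_root_disjoint hT k n (hS c hc)
  have hG : Gd (⋃ c ∈ S, cd k (Tn G n y c : Set V)) (fun ω => ∏ c ∈ S, F c ω) :=
    Gd.prod fun c hc => (hF c hc).mono
      (Set.subset_biUnion_of_mem (u := fun c => cd k (Tn G n y c : Set V)) hc)
  rw [integral_mul_of_disjoint (gd_lik k hs hs' y hσ) hG hdis, integral_lik k hs hs' y hσ, one_mul,
    integral_prod_of_disjoint (S := fun c => cd k (Tn G n y c : Set V)) hF]
  exact (cd_Tn_disjoint hT k n y).subset fun c hc => by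
    rw [Finset.mem_coe, SimpleGraph.mem_neighborFinset]; exact hS c hc

include hd

open Classical in
/-- one step of the recursion for exponential moments. -/
theorem exp_step {a B : ℝ} (ha : 0 ≤ a) (hB : 0 ≤ B) (L D : ℕ) (hLD : L ≤ D)
    (H : ∀ {y c : V}, G.Adj y c → ∀ {τ : ℝ}, (τ = 1 ∨ τ = -1) →
      ∫ ω, Real.exp (a * Zf G (d - 1) θ lam k s L D y c ω) * Lr G θ k s ω D τ y c ∂(labM V) ≤ B)
    {z y : V} (hzy : G.Adj z y) {σ : ℝ} (hσ : σ = 1 ∨ σ = -1) :
    ∫ ω, Real.exp ((((d - 1 : ℕ) : ℝ) * a) * Zf G (d - 1) θ lam k s (L + 1) (D + 1) z y ω) *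
      Lr G θ k s ω (D + 1) σ z y ∂(labM V) ≤ B ^ (d - 1) := by
  have hS : ∀ c ∈ (G.neighborFinset y).erase z, G.Adj y c := fun c hc =>
    (SimpleGraph.mem_neighborFinset _ _ _).1 (Finset.mem_of_mem_erase hc)
  have hb : (0 : ℝ) < ((d - 1 : ℕ) : ℝ) := by exact_mod_cast (by omega : 0 < d - 1)
  have gE : ∀ c, G.Adj y c → Gd (cd k (Tn G D y c : Set V))
      (fun ω => Real.exp (a * Zf G (d - 1) θ lam k s L D y c ω)) := fun c hc =>
    ((gd_Zf hT hreg h0 h1 k hs hs' lam (d - 1) L D hLD hc).const_mul a).comp_cont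
      Real.continuous_exp
  have gF : ∀ c ∈ (G.neighborFinset y).erase z, Gd (cd k (Tn G D y c : Set V))
      (fun ω => Real.exp (a * Zf G (d - 1) θ lam k s L D y c ω) * mixL G θ k s D σ y c ω) :=
    fun c hc => (gE c (hS c hc)).mul (gd_mixL hT hreg h0 h1 k hs hs' D (hS c hc) σ)
  have key := integral_root_children hT hreg h0 h1 k hs hs' D y hσ _ hS gF
  have hle : ∀ ω, Real.exp ((((d - 1 : ℕ) : ℝ) * a) *
      Zf G (d - 1) θ lam k s (L + 1) (D + 1) z y ω) * Lr G θ k s ω (D + 1) σ z y ≤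
      lik k s ω y σ * ∏ c ∈ (G.neighborFinset y).erase z,
        (Real.exp (a * Zf G (d - 1) θ lam k s L D y c ω) * mixL G θ k s D σ y c ω) := by
    intro ω
    rw [Lr_succ, Zf_succ, Finset.prod_mul_distrib, ← Real.exp_sum]
    have e1 : (((d - 1 : ℕ) : ℝ) * a) * (1 / ((d - 1 : ℕ) : ℝ) *
        ∑ c ∈ (G.neighborFinset y).erase z,
          aw G θ lam k s D y c ω * Zf G (d - 1) θ lam k s L D y c ω) =
        ∑ c ∈ (G.neighborFinset y).erase z,
          a * (aw G θ lam k s D y c ω * Zf G (d - 1) θ lam k s L D y c ω) := by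
      rw [← Finset.mul_sum]
      field_simp
    rw [e1]
    have e2 : Real.exp (∑ c ∈ (G.neighborFinset y).erase z,
          a * (aw G θ lam k s D y c ω * Zf G (d - 1) θ lam k s L D y c ω)) ≤
        Real.exp (∑ c ∈ (G.neighborFinset y).erase z,
          a * Zf G (d - 1) θ lam k s L D y c ω) := by
      apply Real.exp_le_exp.2
      refine Finset.sum_le_sum fun c _ => mul_le_mul_of_nonneg_left ?_ ha
      have hz := Zf_nonneg (G := G) h0 h1 k (s := s) lam (d - 1) L D hLD y c ω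
      calc aw G θ lam k s D y c ω * Zf G (d - 1) θ lam k s L D y c ω
          ≤ 1 * Zf G (d - 1) θ lam k s L D y c ω :=
            mul_le_mul_of_nonneg_right (aw_le_one h0 h1 lam k s D y c ω) hz
        _ = _ := one_mul _
    have e3 : 0 ≤ lik k s ω y σ * ∏ c ∈ (G.neighborFinset y).erase z, mixL G θ k s D σ y c ω :=
      mul_nonneg (lik_nonneg k s ω y hσ)
        (Finset.prod_nonneg fun c _ => mixL_nonneg h0.le h1 k s D hσ y c ω)
    calc _ ≤ Real.exp (∑ c ∈ (G.neighborFinset y).erase z,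
          a * Zf G (d - 1) θ lam k s L D y c ω) *
          (lik k s ω y σ * ∏ c ∈ (G.neighborFinset y).erase z, mixL G θ k s D σ y c ω) :=
          mul_le_mul_of_nonneg_right e2 e3
      _ = _ := by ring
  have gL : Integrable (fun ω => Real.exp ((((d - 1 : ℕ) : ℝ) * a) *
      Zf G (d - 1) θ lam k s (L + 1) (D + 1) z y ω) * Lr G θ k s ω (D + 1) σ z y) (labM V) :=
    ((((gd_Zf hT hreg h0 h1 k hs hs' lam (d - 1) (L + 1) (D + 1) (by omega) hzy).const_mul
      _).comp_cont Real.continuous_exp).mul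
        (gd_Lr hT hreg h0.le h1 k hs hs' (D + 1) hzy hσ)).integrable
  have gR : Integrable (fun ω => lik k s ω y σ * ∏ c ∈ (G.neighborFinset y).erase z,
        (Real.exp (a * Zf G (d - 1) θ lam k s L D y c ω) * mixL G θ k s D σ y c ω)) (labM V) :=
    (((gd_lik k hs hs' y hσ).mono (Set.subset_univ _)).mul
      (Gd.prod fun c hc => (gF c hc).mono (Set.subset_univ _))).integrable
  refine (integral_mono gL gR hle).trans ?_
  rw [key]
  calc _ ≤ ∏ _c ∈ (G.neighborFinset y).erase z, B := by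
        refine Finset.prod_le_prod (fun c _ => integral_nonneg fun ω =>
          mul_nonneg (Real.exp_pos _).le (mixL_nonneg h0.le h1 k s D hσ y c ω)) fun c hc => ?_
        exact integral_mixL_le hT hreg h0 h1 k hs hs' (hS c hc) (gE c (hS c hc)) hσ
          (fun hτ => H (hS c hc) hτ)
    _ = B ^ (d - 1) := by rw [Finset.prod_const, card_children hreg hzy]

open Classical in
/-- the gain step. -/
theorem gain_step {c₀ B : ℝ} (hc₀ : 0 ≤ c₀) (L D : ℕ) (hLD : L ≤ D)
    (hgain : ∀ (r σ : ℝ), (σ = 1 ∨ σ = -1) →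
      ∫ h, (gg θ (Real.tanh (r + psi θ h)) / θ) ^ (2 * lam) * (1 + σ * (θ * Real.tanh h))
        ∂(kap (own k s) θ (d - 1) D) ≤ c₀)
    (H : ∀ {y c : V}, G.Adj y c → ∀ {τ : ℝ}, (τ = 1 ∨ τ = -1) →
      ∫ ω, (aw G θ lam k s D y c ω * Zf G (d - 1) θ lam k s L D y c ω) *
        Lr G θ k s ω D τ y c ∂(labM V) ≤ B)
    {z y : V} (hzy : G.Adj z y) {σ : ℝ} (hσ : σ = 1 ∨ σ = -1) :
    ∫ ω, (aw G θ lam k s (D + 1) z y ω * Zf G (d - 1) θ lam k s (L + 1) (D + 1) z y ω) *
      Lr G θ k s ω (D + 1) σ z y ∂(labM V) ≤ c₀ * B := by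
  obtain ⟨ch, hch⟩ : ∃ ch, ch = (G.neighborFinset y).erase z := ⟨_, rfl⟩
  have hS : ∀ c ∈ ch, G.Adj y c := fun c hc =>
    (SimpleGraph.mem_neighborFinset _ _ _).1 (Finset.mem_of_mem_erase (hch ▸ hc))
  have hcard : ch.card = d - 1 := hch ▸ card_children hreg hzy
  have hb : (0 : ℝ) < ((d - 1 : ℕ) : ℝ) := by exact_mod_cast (by omega : 0 < d - 1)
  have ghc : ∀ c, G.Adj y c → Gd (cd k (Tn G D y c : Set V)) (fun ω => psi θ (hc G θ k s D y c ω)) :=
    fun c hcc => (gd_hc hT hreg h0.le h1 k hs hs' D hcc).comp (measurable_psi θ)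
      (fun R => ⟨Real.artanh θ, fun x _ => abs_psi_le_artanh h0.le h1 x⟩)
  -- each path direction
  have hone : ∀ c ∈ ch, ∫ ω, (aw G θ lam k s (D + 1) z y ω *
      (aw G θ lam k s D y c ω * Zf G (d - 1) θ lam k s L D y c ω)) *
      Lr G θ k s ω (D + 1) σ z y ∂(labM V) ≤ c₀ * B := by
    intro c hc
    obtain ⟨w, hw, hwc⟩ : ∃ w ∈ ch, w ≠ c := by
      apply Finset.exists_mem_ne
      omega
    have hcw : c ∈ ch.erase w := Finset.mem_erase.2 ⟨fun h => hwc h.symm, hc⟩
    obtain ⟨S₁, hS₁⟩ : ∃ S₁ : Set (V × ℕ), S₁ = cd k ({y} : Set V) ∪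
      ⋃ c' ∈ ch.erase w, cd k (Tn G D y c' : Set V) := ⟨_, rfl⟩
    have hsub : ∀ c' ∈ ch.erase w, cd k (Tn G D y c' : Set V) ⊆ S₁ := fun c' hc' => by
      rw [hS₁]
      exact (Set.subset_biUnion_of_mem (u := fun c => cd k (Tn G D y c : Set V)) hc').trans
        Set.subset_union_right
    have hsuby : cd k ({y} : Set V) ⊆ S₁ := by rw [hS₁]; exact Set.subset_union_left
    have hdis : Disjoint S₁ (cd k (Tn G D y w : Set V)) := by
      rw [hS₁, Set.disjoint_union_left]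
      refine ⟨cd_root_disjoint hT k D (hS w hw), ?_⟩
      rw [Set.disjoint_iUnion₂_left]
      intro c' hc'
      have hc'2 := Finset.mem_erase.1 hc'
      refine cd_Tn_disjoint hT k D y ?_ ?_ hc'2.1
      · rw [Finset.mem_coe, SimpleGraph.mem_neighborFinset]; exact hS c' hc'2.2
      · rw [Finset.mem_coe, SimpleGraph.mem_neighborFinset]; exact hS w hw
    -- the objects
    have gRR : Gd S₁ (fun ω => free k s ω y + ∑ c' ∈ ch.erase w, psi θ (Br.hc G θ k s D y c' ω)) :=
      ((lawOf_own k hσ hs hs' y).gh.mono hsuby).add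
        (Gd.sum fun c' hc' => (ghc c' (hS c' (Finset.mem_of_mem_erase hc'))).mono (hsub c' hc'))
    have hcadj : G.Adj y c := hS c hc
    have gW : Gd (cd k (Tn G D y c : Set V))
        (fun ω => aw G θ lam k s D y c ω * Zf G (d - 1) θ lam k s L D y c ω) :=
      (gd_aw hT hreg h0 h1 k hs hs' lam D hcadj).mul
        (gd_Zf hT hreg h0 h1 k hs hs' lam (d - 1) L D hLD hcadj)
    have gM : ∀ c' ∈ ch, Gd (cd k (Tn G D y c' : Set V)) (mixL G θ k s D σ y c') := fun c' hc' =>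
      gd_mixL hT hreg h0 h1 k hs hs' D (hS c' hc') σ
    have gQ : Gd S₁ (fun ω => (aw G θ lam k s D y c ω * Zf G (d - 1) θ lam k s L D y c ω) *
        (lik k s ω y σ * ∏ c' ∈ ch.erase w, mixL G θ k s D σ y c' ω)) :=
      (gW.mono (hsub c hcw)).mul (((gd_lik k hs hs' y hσ).mono hsuby).mul
        (Gd.prod fun c' hc' => (gM c' (Finset.mem_of_mem_erase hc')).mono (hsub c' hc')))
    have hQ0 : ∀ ω, 0 ≤ (aw G θ lam k s D y c ω * Zf G (d - 1) θ lam k s L D y c ω) *
        (lik k s ω y σ * ∏ c' ∈ ch.erase w, mixL G θ k s D σ y c' ω) := fun ω =>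
      mul_nonneg (mul_nonneg (aw_nonneg h0 h1 lam k s D y c ω)
        (Zf_nonneg (G := G) h0 h1 k (s := s) lam (d - 1) L D hLD y c ω))
        (mul_nonneg (lik_nonneg k s ω y hσ)
          (Finset.prod_nonneg fun c' _ => mixL_nonneg h0.le h1 k s D hσ y c' ω))
    have sk := SymLaw.kap (symLaw_own k hs hs') h0.le h1 (d - 1) D
    have := sk.1
    have hlw : LawOf (cd k (Tn G D y w : Set V)) σ ((kap (own k s) θ (d - 1) D).map (psi θ))
        (fun ω => psi θ (Br.hc G θ k s D y w ω)) (fun ω => mixL G θ k s D σ y w ω) :=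
      LawOf.mix h0.le h1 (lawOf_cavity hT hreg h0.le h1 k hs hs' D (hS w hw) (Or.inl rfl))
        (lawOf_cavity hT hreg h0.le h1 k hs hs' D (hS w hw) (Or.inr rfl)) sk
    have hcr : ∀ r, ∫ x, ga θ lam (r + x) * (1 + σ * Real.tanh x)
        ∂((kap (own k s) θ (d - 1) D).map (psi θ)) ≤ c₀ := by
      intro r
      rw [integral_map (measurable_psi θ).aemeasurable]
      · refine le_trans (le_of_eq ?_) (hgain r σ hσ)
        congr 1
        funext x
        rw [tanh_psi h0.le h1]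
        rfl
      · exact (((measurable_ga θ lam).comp (measurable_const_add r)).mul (measurable_const.add
          (measurable_const.mul continuous_tanh.measurable))).aestronglyMeasurable
    have hoff := off_path hdis gRR gQ hQ0 hlw (measurable_ga θ lam) (abs_ga_le h0 h1 lam) hcr
    -- rewrite the integrand
    have hch2 : ch = insert w (ch.erase w) := (Finset.insert_erase hw).symm
    have e1 : ∀ ω, (aw G θ lam k s (D + 1) z y ω *
        (aw G θ lam k s D y c ω * Zf G (d - 1) θ lam k s L D y c ω)) *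
        Lr G θ k s ω (D + 1) σ z y =
        ga θ lam ((free k s ω y + ∑ c' ∈ ch.erase w, psi θ (Br.hc G θ k s D y c' ω)) +
          psi θ (Br.hc G θ k s D y w ω)) * mixL G θ k s D σ y w ω *
        ((aw G θ lam k s D y c ω * Zf G (d - 1) θ lam k s L D y c ω) *
        (lik k s ω y σ * ∏ c' ∈ ch.erase w, mixL G θ k s D σ y c' ω)) := by
      intro ω
      have e2 : Lr G θ k s ω (D + 1) σ z y = lik k s ω y σ *
          (mixL G θ k s D σ y w ω * ∏ c' ∈ ch.erase w, mixL G θ k s D σ y c' ω) := by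
        rw [Lr_succ, ← hch]
        congr 1
        exact (Finset.mul_prod_erase ch _ hw).symm
      have e3 : aw G θ lam k s (D + 1) z y ω = ga θ lam ((free k s ω y +
          ∑ c' ∈ ch.erase w, psi θ (Br.hc G θ k s D y c' ω)) + psi θ (Br.hc G θ k s D y w ω)) := by
        rw [aw_eq hT h0.le h1 lam k s (D + 1) hzy ω, hc_succ hT h0.le h1 k s D hzy ω, ← hch,
          ← Finset.sum_erase_add ch _ hw, ← add_assoc]
        rfl
      rw [e2, e3]
      ring
    simp_rw [e1]
    refine hoff.trans (mul_le_mul_of_nonneg_left ?_ hc₀)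
    -- the remaining integral
    have hF : ∀ c' ∈ ch.erase w, Gd (cd k (Tn G D y c' : Set V))
        (fun ω => (if c' = c then aw G θ lam k s D y c ω * Zf G (d - 1) θ lam k s L D y c ω
          else 1) * mixL G θ k s D σ y c' ω) := by
      intro c' hc'
      refine Gd.mul ?_ (gM c' (Finset.mem_of_mem_erase hc'))
      by_cases h : c' = c
      · simp only [h, if_true]; exact gW
      · simp only [h, if_false]; exact gd_const _ 1
    have key := integral_root_children hT hreg h0 h1 k hs hs' D y hσ (ch.erase w)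
      (fun c' hc' => hS c' (Finset.mem_of_mem_erase hc')) hF
    have e4 : ∀ ω, lik k s ω y σ * ∏ c' ∈ ch.erase w,
        ((if c' = c then aw G θ lam k s D y c ω * Zf G (d - 1) θ lam k s L D y c ω
          else 1) * mixL G θ k s D σ y c' ω) =
        (aw G θ lam k s D y c ω * Zf G (d - 1) θ lam k s L D y c ω) *
        (lik k s ω y σ * ∏ c' ∈ ch.erase w, mixL G θ k s D σ y c' ω) := by
      intro ω
      rw [Finset.prod_mul_distrib, Finset.prod_ite_eq' (ch.erase w) c, if_pos hcw]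
      ring
    simp_rw [e4] at key
    rw [key, ← Finset.mul_prod_erase (ch.erase w) _ hcw]
    have e5 : ∏ c' ∈ (ch.erase w).erase c, ∫ ω,
        (if c' = c then aw G θ lam k s D y c ω * Zf G (d - 1) θ lam k s L D y c ω
          else 1) * mixL G θ k s D σ y c' ω ∂(labM V) = 1 := by
      refine Finset.prod_eq_one fun c' hc' => ?_
      have hc'2 := Finset.mem_erase.1 hc'
      simp only [hc'2.1, if_false, one_mul]
      exact integral_mixL hT hreg h0 h1 k hs hs' D
        (hS c' (Finset.mem_of_mem_erase hc'2.2)) σ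
    rw [e5, mul_one]
    simp only [if_true]
    exact integral_mixL_le hT hreg h0 h1 k hs hs' hcadj gW hσ (fun hτ => H hcadj hτ)
  -- average over the directions
  have gtot : ∀ c ∈ ch, Integrable (fun ω => (aw G θ lam k s (D + 1) z y ω *
      (aw G θ lam k s D y c ω * Zf G (d - 1) θ lam k s L D y c ω)) *
      Lr G θ k s ω (D + 1) σ z y) (labM V) := fun c hc =>
    ((((gd_aw hT hreg h0 h1 k hs hs' lam (D + 1) hzy).mono (Set.subset_univ _)).mul
      (((gd_aw hT hreg h0 h1 k hs hs' lam D (hS c hc)).mul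
        (gd_Zf hT hreg h0 h1 k hs hs' lam (d - 1) L D hLD (hS c hc))).mono
          (Set.subset_univ _))).mul
      ((gd_Lr hT hreg h0.le h1 k hs hs' (D + 1) hzy hσ).mono (Set.subset_univ _))).integrable
  have e6 : ∀ ω, (aw G θ lam k s (D + 1) z y ω * Zf G (d - 1) θ lam k s (L + 1) (D + 1) z y ω) *
      Lr G θ k s ω (D + 1) σ z y = (1 / ((d - 1 : ℕ) : ℝ)) * ∑ c ∈ ch,
        (aw G θ lam k s (D + 1) z y ω *
        (aw G θ lam k s D y c ω * Zf G (d - 1) θ lam k s L D y c ω)) *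
        Lr G θ k s ω (D + 1) σ z y := by
    intro ω
    rw [Zf_succ, ← hch, ← Finset.sum_mul, ← Finset.mul_sum]
    ring
  simp_rw [e6]
  rw [integral_const_mul, integral_finsetSum _ gtot]
  calc _ ≤ (1 / ((d - 1 : ℕ) : ℝ)) * ∑ _c ∈ ch, c₀ * B :=
        mul_le_mul_of_nonneg_left (Finset.sum_le_sum hone) (by positivity)
    _ = c₀ * B := by
        rw [Finset.sum_const, hcard, nsmul_eq_mul]
        field_simp

end est

end Br

end Crest.Agent.Lib.Row160
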