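import Crest.Agent.Lib.Row160.Defs

/-!
Row 160, M9 (Z-part): path weights in terms of the cavity magnetisations of the rooted subtrees.
-/

set_option autoImplicit false

namespace Crest.Agent.Lib.Row160

open Classical in
/-- path weights in terms of the cavity magnetisations of the rooted subtrees. -/
noncomputable def Zt {V : Type*} (G : SimpleGraph V) [G.LocallyFinite] (b : ℕ) (θ : ℝ) (lam : ℕ)
    (x : V → ℝ) : ℕ → ℕ → V → V → ℝ
  | 0 => fun _ _ _ => 1
  | (L + 1) => fun n z y => (1 / (b : ℝ)) * ∑ c ∈ (G.neighborFinset y).erase z,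
      (gg θ (mg G θ (Tn G (n - 1) y c) x c) / θ) ^ (2 * lam) *
        Zt G b θ lam x L (n - 1) y c

end Crest.Agent.Lib.Row160
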