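import Crest.Agent.Lib.Row160.BridgeG
import Crest.Agent.Lib.Row160.BridgeZt

/-!
Row 160, chunk M9, part H: exponential moments of the path weights in the rooted subtrees.
-/

set_option autoImplicit false

open MeasureTheory Filter Topology

namespace Crest.Agent.Lib.Row160

namespace Br

theorem exp_le_one_add {x : ℝ} (h0 : 0 ≤ x) (h1 : x ≤ 1) : Real.exp x ≤ 1 + 2 * x := by
  have h2 : Real.exp x ≤ 1 + x + x ^ 2 := by
    have := Real.abs_exp_sub_one_sub_id_le (x := x) (by rw [abs_of_nonneg h0]; exact h1)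
    have := (abs_le.1 this).2
    linarith
  nlinarith

variable {V : Type*} {G : SimpleGraph V} [G.LocallyFinite] {d : ℕ}

theorem Zx_eq_Zt (b : ℕ) (θ : ℝ) (lam : ℕ) (x : V → ℝ) : ∀ (L D : ℕ) (z y : V),
    Zx G b θ lam x L D z y = Zt G b θ lam x L D z y := by
  classical
  intro L
  induction L with
  | zero => intro D z y; rfl
  | succ L ih =>
    intro D z y
    show (1 / (b : ℝ)) * _ = (1 / (b : ℝ)) * _
    congr 1
    refine Finset.sum_congr rfl fun c _ => ?_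
    rw [ih]

section est

variable (hT : G.IsTree) (hd : 3 ≤ d) (hreg : G.IsRegularOfDegree d) {θ : ℝ} (h0 : 0 < θ)
  (h1 : θ < 1) (k : ℕ) {s : ℝ} (hs : 0 ≤ s) (hs' : s ≤ 1 / 2) (lam : ℕ)
include hT hd hreg h0 h1 hs hs'

/-- first moments along a path. -/
theorem path_moment {c₀ : ℝ} (hc₀ : 0 ≤ c₀) (n₀ : ℕ)
    (hgain : ∀ D, n₀ ≤ D → ∀ (r σ : ℝ), (σ = 1 ∨ σ = -1) →
      ∫ h, (gg θ (Real.tanh (r + psi θ h)) / θ) ^ (2 * lam) * (1 + σ * (θ * Real.tanh h))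
        ∂(kap (own k s) θ (d - 1) D) ≤ c₀) :
    ∀ (L D : ℕ), n₀ + L ≤ D → ∀ {y c : V}, G.Adj y c → ∀ {τ : ℝ}, (τ = 1 ∨ τ = -1) →
      ∫ ω, (aw G θ lam k s D y c ω * Zf G (d - 1) θ lam k s L D y c ω) *
        Lr G θ k s ω D τ y c ∂(labM V) ≤ c₀ ^ L := by
  intro L
  induction L with
  | zero =>
    intro D _ y c h τ hτ
    rw [pow_zero, ← integral_Lr hT hreg h0.le h1 k hs hs' D h hτ]
    refine integral_mono (((gd_aw hT hreg h0 h1 k hs hs' lam D h).mul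
      (gd_Zf hT hreg h0 h1 k hs hs' lam (d - 1) 0 D (Nat.zero_le _) h)).mul
      (gd_Lr hT hreg h0.le h1 k hs hs' D h hτ)).integrable
      (gd_Lr hT hreg h0.le h1 k hs hs' D h hτ).integrable fun ω => ?_
    have h2 := Lr_nonneg (G := G) h0.le h1 k s ω D hτ y c
    have h3 : aw G θ lam k s D y c ω * Zf G (d - 1) θ lam k s 0 D y c ω ≤ 1 :=
      mul_le_one₀ (aw_le_one h0 h1 lam k s D y c ω)
        (Zf_nonneg (G := G) h0 h1 k (s := s) lam (d - 1) 0 D (Nat.zero_le _) y c ω)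
        (Zf_le_one hreg h0 h1 k lam hd 0 D (Nat.zero_le _) h ω)
    calc _ ≤ 1 * Lr G θ k s ω D τ y c := mul_le_mul_of_nonneg_right h3 h2
      _ = _ := one_mul _
  | succ L ih =>
    intro D hD y c h τ hτ
    obtain ⟨D', rfl⟩ : ∃ D', D = D' + 1 := ⟨D - 1, by omega⟩
    have := gain_step hT hd hreg h0 h1 k hs hs' lam (c₀ := c₀) (B := c₀ ^ L) hc₀ L D' (by omega)
      (hgain D' (by omega)) (fun {_ _} h' {_} hτ' => ih D' (by omega) h' hτ') h hτ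
    rw [pow_succ']
    exact this

open Classical in
/-- first moment of the weight. -/
theorem Z_moment {c₀ : ℝ} (hc₀ : 0 < c₀) (hc₀' : c₀ ≤ 1) (n₀ : ℕ)
    (hgain : ∀ D, n₀ ≤ D → ∀ (r σ : ℝ), (σ = 1 ∨ σ = -1) →
      ∫ h, (gg θ (Real.tanh (r + psi θ h)) / θ) ^ (2 * lam) * (1 + σ * (θ * Real.tanh h))
        ∂(kap (own k s) θ (d - 1) D) ≤ c₀)
    (L D : ℕ) (hD : n₀ + L ≤ D) {z y : V} (hzy : G.Adj z y) {σ : ℝ} (hσ : σ = 1 ∨ σ = -1) :
      ∫ ω, Zf G (d - 1) θ lam k s L D z y ω * Lr G θ k s ω D σ z y ∂(labM V) ≤ c₀ ^ L / c₀ := by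
  cases L with
  | zero =>
    have h2 : ∀ ω, Zf G (d - 1) θ lam k s 0 D z y ω * Lr G θ k s ω D σ z y
        = Lr G θ k s ω D σ z y := fun ω => one_mul _
    simp_rw [h2]
    rw [integral_Lr hT hreg h0.le h1 k hs hs' D hzy hσ, pow_zero, le_div_iff₀ hc₀, one_mul]
    exact hc₀'
  | succ L =>
    obtain ⟨D', rfl⟩ : ∃ D', D = D' + 1 := ⟨D - 1, by omega⟩
    obtain ⟨ch, hch⟩ : ∃ ch, ch = (G.neighborFinset y).erase z := ⟨_, rfl⟩
    have hS : ∀ c ∈ ch, G.Adj y c := fun c hc =>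
      (SimpleGraph.mem_neighborFinset _ _ _).1 (Finset.mem_of_mem_erase (hch ▸ hc))
    have hcard : ch.card = d - 1 := hch ▸ card_children hreg hzy
    have hb : (0 : ℝ) < ((d - 1 : ℕ) : ℝ) := by exact_mod_cast (by omega : 0 < d - 1)
    have gM : ∀ c' ∈ ch, Gd (cd k (Tn G D' y c' : Set V)) (mixL G θ k s D' σ y c') := fun c' hc' =>
      gd_mixL hT hreg h0 h1 k hs hs' D' (hS c' hc') σ
    have gW : ∀ c ∈ ch, Gd (cd k (Tn G D' y c : Set V))
        (fun ω => aw G θ lam k s D' y c ω * Zf G (d - 1) θ lam k s L D' y c ω) := fun c hc =>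
      (gd_aw hT hreg h0 h1 k hs hs' lam D' (hS c hc)).mul
        (gd_Zf hT hreg h0 h1 k hs hs' lam (d - 1) L D' (by omega) (hS c hc))
    have hone : ∀ c ∈ ch, ∫ ω, (aw G θ lam k s D' y c ω * Zf G (d - 1) θ lam k s L D' y c ω) *
        Lr G θ k s ω (D' + 1) σ z y ∂(labM V) ≤ c₀ ^ L := by
      intro c hc
      have hF : ∀ c' ∈ ch, Gd (cd k (Tn G D' y c' : Set V))
          (fun ω => (if c' = c then aw G θ lam k s D' y c ω * Zf G (d - 1) θ lam k s L D' y c ω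
            else 1) * mixL G θ k s D' σ y c' ω) := by
        intro c' hc'
        refine Gd.mul ?_ (gM c' hc')
        by_cases h : c' = c
        · simp only [h, if_true]; exact gW c hc
        · simp only [h, if_false]; exact gd_const _ 1
      have key := integral_root_children hT hreg h0 h1 k hs hs' D' y hσ ch hS hF
      have e4 : ∀ ω, lik k s ω y σ * ∏ c' ∈ ch,
          ((if c' = c then aw G θ lam k s D' y c ω * Zf G (d - 1) θ lam k s L D' y c ω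
            else 1) * mixL G θ k s D' σ y c' ω) =
          (aw G θ lam k s D' y c ω * Zf G (d - 1) θ lam k s L D' y c ω) *
          Lr G θ k s ω (D' + 1) σ z y := by
        intro ω
        rw [Lr_succ, ← hch, Finset.prod_mul_distrib, Finset.prod_ite_eq' ch c, if_pos hc]
        ring
      simp_rw [e4] at key
      rw [key, ← Finset.mul_prod_erase ch _ hc]
      have e5 : ∏ c' ∈ ch.erase c, ∫ ω,
          (if c' = c then aw G θ lam k s D' y c ω * Zf G (d - 1) θ lam k s L D' y c ω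
            else 1) * mixL G θ k s D' σ y c' ω ∂(labM V) = 1 := by
        refine Finset.prod_eq_one fun c' hc' => ?_
        have hc'2 := Finset.mem_erase.1 hc'
        simp only [hc'2.1, if_false, one_mul]
        exact integral_mixL hT hreg h0 h1 k hs hs' D' (hS c' hc'2.2) σ
      rw [e5, mul_one]
      simp only [if_true]
      exact integral_mixL_le hT hreg h0 h1 k hs hs' (hS c hc) (gW c hc) hσ (fun hτ =>
        path_moment hT hd hreg h0 h1 k hs hs' lam hc₀.le n₀ hgain L D' (by omega) (hS c hc) hτ)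
    have gtot : ∀ c ∈ ch, Integrable (fun ω =>
        (aw G θ lam k s D' y c ω * Zf G (d - 1) θ lam k s L D' y c ω) *
        Lr G θ k s ω (D' + 1) σ z y) (labM V) := fun c hc =>
      (((gW c hc).mono (Set.subset_univ _)).mul
        ((gd_Lr hT hreg h0.le h1 k hs hs' (D' + 1) hzy hσ).mono (Set.subset_univ _))).integrable
    have e6 : ∀ ω, Zf G (d - 1) θ lam k s (L + 1) (D' + 1) z y ω * Lr G θ k s ω (D' + 1) σ z y =
        (1 / ((d - 1 : ℕ) : ℝ)) * ∑ c ∈ ch,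
          (aw G θ lam k s D' y c ω * Zf G (d - 1) θ lam k s L D' y c ω) *
          Lr G θ k s ω (D' + 1) σ z y := by
      intro ω
      rw [Zf_succ, ← hch, ← Finset.sum_mul]
      ring
    simp_rw [e6]
    rw [integral_const_mul, integral_finsetSum _ gtot]
    calc _ ≤ (1 / ((d - 1 : ℕ) : ℝ)) * ∑ _c ∈ ch, c₀ ^ L :=
          mul_le_mul_of_nonneg_left (Finset.sum_le_sum hone) (by positivity)
      _ = c₀ ^ L := by
          rw [Finset.sum_const, hcard, nsmul_eq_mul]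
          field_simp
      _ = c₀ ^ (L + 1) / c₀ := by rw [pow_succ]; field_simp

/-- iterated exponential moments. -/
theorem exp_moment {c₀ : ℝ} (hc₀ : 0 < c₀) (hc₀' : c₀ ≤ 1) (n₀ : ℕ)
    (hgain : ∀ D, n₀ ≤ D → ∀ (r σ : ℝ), (σ = 1 ∨ σ = -1) →
      ∫ h, (gg θ (Real.tanh (r + psi θ h)) / θ) ^ (2 * lam) * (1 + σ * (θ * Real.tanh h))
        ∂(kap (own k s) θ (d - 1) D) ≤ c₀) (L : ℕ) :
    ∀ (j D : ℕ), n₀ + L ≤ D → ∀ {z y : V}, G.Adj z y → ∀ {σ : ℝ}, (σ = 1 ∨ σ = -1) →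
      ∫ ω, Real.exp (((d - 1 : ℕ) : ℝ) ^ j * Zf G (d - 1) θ lam k s (L + j) (D + j) z y ω) *
        Lr G θ k s ω (D + j) σ z y ∂(labM V) ≤
      Real.exp (2 * (c₀ ^ L / c₀)) ^ ((d - 1) ^ j) := by
  intro j
  induction j with
  | zero =>
    intro D hD z y hzy σ hσ
    simp only [pow_zero, one_mul, add_zero, pow_one]
    have gL := gd_Lr hT hreg h0.le h1 k hs hs' D hzy hσ
    have gZ := gd_Zf hT hreg h0 h1 k hs hs' lam (d - 1) L D (by omega) hzy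
    have h2 : ∫ ω, Real.exp (Zf G (d - 1) θ lam k s L D z y ω) * Lr G θ k s ω D σ z y ∂(labM V) ≤
        ∫ ω, (Lr G θ k s ω D σ z y +
          2 * (Zf G (d - 1) θ lam k s L D z y ω * Lr G θ k s ω D σ z y)) ∂(labM V) := by
      refine integral_mono ((gZ.comp_cont Real.continuous_exp).mul gL).integrable
        (gL.add ((gZ.mul gL).const_mul 2)).integrable fun ω => ?_
      have h3 := Lr_nonneg (G := G) h0.le h1 k s ω D hσ z y
      have h4 := exp_le_one_add (Zf_nonneg (G := G) h0 h1 k (s := s) lam (d - 1) L D (by omega) z y ω)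
        (Zf_le_one hreg h0 h1 k lam hd L D (by omega) hzy ω)
      calc _ ≤ (1 + 2 * Zf G (d - 1) θ lam k s L D z y ω) * Lr G θ k s ω D σ z y :=
            mul_le_mul_of_nonneg_right h4 h3
        _ = _ := by ring
    refine h2.trans ?_
    rw [integral_add gL.integrable ((gZ.mul gL).const_mul 2).integrable, integral_const_mul,
      integral_Lr hT hreg h0.le h1 k hs hs' D hzy hσ]
    have h5 := Z_moment hT hd hreg h0 h1 k hs hs' lam hc₀ hc₀' n₀ hgain L D hD hzy hσ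
    have h6 := Real.add_one_le_exp (2 * (c₀ ^ L / c₀))
    linarith
  | succ j ih =>
    intro D hD z y hzy σ hσ
    have := exp_step hT hd hreg h0 h1 k hs hs' lam (a := ((d - 1 : ℕ) : ℝ) ^ j)
      (B := Real.exp (2 * (c₀ ^ L / c₀)) ^ ((d - 1) ^ j)) (by positivity) (by positivity)
      (L + j) (D + j) (by omega) (fun {_ _} h' {_} hτ' => ih D hD h' hτ') hzy hσ
    rw [← pow_mul, ← pow_succ] at this
    rw [pow_succ']
    exact this

end est

/-- choice of the scales. -/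
theorem exists_scale {b : ℕ} (hb : 2 ≤ b) {c₀ : ℝ} (hc₀ : 0 < c₀) (hc₀' : c₀ < 1) :
    ∃ ρ C : ℝ, 1 < ρ ∧ 0 < C ∧ ∀ L' : ℕ, ∃ j L : ℕ, L + j = L' ∧ ρ ^ L' ≤ (b : ℝ) ^ j ∧
      2 * (c₀ ^ L / c₀) * (b : ℝ) ^ j ≤ C := by
  have hb0 : (0 : ℝ) < b := by positivity
  have hb1 : (1 : ℝ) < b := by exact_mod_cast (by omega : 1 < b)
  obtain ⟨m, hm⟩ := exists_pow_lt_of_lt_one (show (0 : ℝ) < 1 / b by positivity) hc₀'
  have hm' : (b : ℝ) * c₀ ^ m ≤ 1 := by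
    have := mul_le_mul_of_nonneg_left hm.le hb0.le
    rwa [mul_one_div_cancel hb0.ne'] at this
  have hm1 : 1 ≤ m := by
    by_contra hcon
    have : m = 0 := by omega
    rw [this, pow_zero, mul_one] at hm'
    linarith
  obtain ⟨ρ, hρ⟩ : ∃ ρ : ℝ, ρ = (b : ℝ) ^ (((m + 1 : ℕ) : ℝ)⁻¹) := ⟨_, rfl⟩
  have hρ1 : 1 < ρ := by
    rw [hρ]
    exact Real.one_lt_rpow hb1 (by positivity)
  have hρm : ρ ^ (m + 1) = b := by
    rw [hρ]
    exact Real.rpow_inv_natCast_pow hb0.le (by omega)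
  refine ⟨ρ, 2 / (c₀ * c₀ ^ (m + 1)), hρ1, by positivity, fun L' => ?_⟩
  rcases Nat.eq_zero_or_pos L' with hL | hL
  · refine ⟨0, 0, by omega, ?_, ?_⟩
    · rw [hL, pow_zero, pow_zero]
    · rw [pow_zero, pow_zero, mul_one]
      have : c₀ ^ (m + 1) ≤ 1 := pow_le_one₀ hc₀.le hc₀'.le
      rw [mul_one_div]
      apply div_le_div_of_nonneg_left (by norm_num) (by positivity)
      nlinarith
  · obtain ⟨j, hj⟩ : ∃ j, j = L' / (m + 1) + 1 := ⟨_, rfl⟩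
    have h1 : L' < (m + 1) * j := by
      rw [hj]
      exact Nat.lt_mul_div_succ L' (by omega)
    have h2 : (m + 1) * (L' / (m + 1)) ≤ L' := Nat.mul_div_le L' (m + 1)
    have h3 : j ≤ L' := by
      rw [hj]
      have : L' / (m + 1) ≤ L' / 2 := Nat.div_le_div_left (by omega) (by norm_num)
      omega
    refine ⟨j, L' - j, by omega, ?_, ?_⟩
    · calc ρ ^ L' ≤ ρ ^ ((m + 1) * j) := pow_le_pow_right₀ hρ1.le h1.le
        _ = (b : ℝ) ^ j := by rw [pow_mul, hρm]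
    · have h4 : m * j ≤ (L' - j) + (m + 1) := by
        have h5 : m * j + j ≤ L' + (m + 1) := by
          calc m * j + j = (m + 1) * (L' / (m + 1)) + (m + 1) := by rw [hj]; ring
            _ ≤ L' + (m + 1) := Nat.add_le_add_right h2 _
        omega
      have h5 : c₀ ^ (L' - j) * c₀ ^ (m + 1) ≤ (c₀ ^ m) ^ j := by
        rw [← pow_add, ← pow_mul]
        exact pow_le_pow_of_le_one hc₀.le hc₀'.le h4
      have h6 : (c₀ ^ m) ^ j * (b : ℝ) ^ j ≤ 1 := by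
        rw [← mul_pow]
        refine pow_le_one₀ (by positivity) ?_
        rw [mul_comm]; exact hm'
      rw [le_div_iff₀ (by positivity)]
      have h7 : 2 * (c₀ ^ (L' - j) / c₀) * (b : ℝ) ^ j * (c₀ * c₀ ^ (m + 1))
          = 2 * ((c₀ ^ (L' - j) * c₀ ^ (m + 1)) * (b : ℝ) ^ j) := by
        field_simp
      rw [h7]
      have h8 : (c₀ ^ (L' - j) * c₀ ^ (m + 1)) * (b : ℝ) ^ j ≤ (c₀ ^ m) ^ j * (b : ℝ) ^ j :=
        mul_le_mul_of_nonneg_right h5 (by positivity)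
      linarith

end Br

section
variable {V : Type*} {G : SimpleGraph V} [G.LocallyFinite] {d : ℕ}

/-- exponential moments in the rooted subtrees, general form. -/
theorem Br.expZt_gen (hT : G.IsTree) (hd : 3 ≤ d) (hreg : G.IsRegularOfDegree d)
    {ρ C c₀ : ℝ} (hc₀ : 0 < c₀) (hc₀' : c₀ < 1)
    (hsc : ∀ L' : ℕ, ∃ j L : ℕ, L + j = L' ∧ ρ ^ L' ≤ ((d - 1 : ℕ) : ℝ) ^ j ∧
      2 * (c₀ ^ L / c₀) * ((d - 1 : ℕ) : ℝ) ^ j ≤ C)
    {θ : ℝ} (h0 : 0 < θ) (h1 : θ < 1) (k : ℕ) {s : ℝ} (hs : 0 ≤ s) (hs' : s ≤ 1 / 2) (lam n₀ : ℕ)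
    (hgain : ∀ D, n₀ ≤ D → ∀ (r σ : ℝ), (σ = 1 ∨ σ = -1) →
      ∫ h, (gg θ (Real.tanh (r + psi θ h)) / θ) ^ (2 * lam) * (1 + σ * (θ * Real.tanh h))
        ∂(kap (own k s) θ (d - 1) D) ≤ c₀)
    (L' n : ℕ) {z y : V} {σ : ℝ} (hzy : G.Adj z y) (hσ : σ = 1 ∨ σ = -1) (hn : n₀ + L' ≤ n) :
    ∫ ω, Real.exp (ρ ^ L' * Zt G (d - 1) θ lam (free k s ω) L' n z y) * Lr G θ k s ω n σ z y
      ∂(labM V) ≤ Real.exp C := by
  obtain ⟨j, L, hL, h2, h3⟩ := hsc L'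
  obtain ⟨D, rfl⟩ : ∃ D, n = D + j := ⟨n - j, by omega⟩
  have hD : n₀ + L ≤ D := by omega
  have h4 := Br.exp_moment hT hd hreg h0 h1 k hs hs' lam hc₀ hc₀'.le n₀ hgain L j D hD hzy hσ
  rw [hL] at h4
  have gL := Br.gd_Lr hT hreg h0.le h1 k hs hs' (D + j) hzy hσ
  have gZ := Br.gd_Zf hT hreg h0 h1 k hs hs' lam (d - 1) L' (D + j) (by omega) hzy
  have h5 : ∫ ω, Real.exp (ρ ^ L' * Zt G (d - 1) θ lam (free k s ω) L' (D + j) z y) *
      Lr G θ k s ω (D + j) σ z y ∂(labM V) ≤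
      ∫ ω, Real.exp (((d - 1 : ℕ) : ℝ) ^ j * Br.Zf G (d - 1) θ lam k s L' (D + j) z y ω) *
        Lr G θ k s ω (D + j) σ z y ∂(labM V) := by
    have e : ∀ ω, Zt G (d - 1) θ lam (free k s ω) L' (D + j) z y =
        Br.Zf G (d - 1) θ lam k s L' (D + j) z y ω := fun ω =>
      (Br.Zx_eq_Zt (d - 1) θ lam (free k s ω) L' (D + j) z y).symm
    simp_rw [e]
    refine integral_mono (((gZ.const_mul _).comp_cont Real.continuous_exp).mul gL).integrable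
      (((gZ.const_mul _).comp_cont Real.continuous_exp).mul gL).integrable fun ω => ?_
    refine mul_le_mul_of_nonneg_right (Real.exp_le_exp.2 ?_)
      (Br.Lr_nonneg (G := G) h0.le h1 k s ω (D + j) hσ z y)
    exact mul_le_mul_of_nonneg_right h2
      (Br.Zf_nonneg (G := G) h0 h1 k (s := s) lam (d - 1) L' (D + j) (by omega) z y ω)
  refine (h5.trans h4).trans ?_
  rw [← Real.exp_nat_mul]
  apply Real.exp_le_exp.2
  push_cast
  rw [mul_comm]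
  exact h3

theorem expZt_zero (hT : G.IsTree) (hd : 3 ≤ d) (hreg : G.IsRegularOfDegree d) :
    ∃ ρ C : ℝ, 1 < ρ ∧ 0 < C ∧ ∀ (θ s : ℝ) (lam L : ℕ), 0 < θ →
    1 ≤ 4 * ((d : ℝ) - 1) * θ ^ 2 → ((d : ℝ) - 1) * θ ^ 2 < 1 → 0 < s → s ≤ 1 / 2 →
    1 - ((d : ℝ) - 1) * θ ^ 2 ≤ qs s → 1 ≤ lam * qs s →
    ∃ n₁ : ℕ, ∀ (n : ℕ) (z y : V) (σ : ℝ), n₁ ≤ n → G.Adj z y → (σ = 1 ∨ σ = -1) →
    ∫ ω, Real.exp (ρ ^ L * Zt G (d - 1) θ lam (free 0 s ω) L n z y) * Lr G θ 0 s ω n σ z y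
      ∂(labM V) ≤ C := by
  obtain ⟨c₀, hc₀, hc₀', H⟩ := gain_zero (b := d - 1) (by omega)
  obtain ⟨ρ, C, hρ, _, hsc⟩ := Br.exists_scale (b := d - 1) (by omega) hc₀ hc₀'
  have hdd : ((d - 1 : ℕ) : ℝ) = (d : ℝ) - 1 := by
    rw [Nat.cast_sub (by omega)]; push_cast; ring
  refine ⟨ρ, Real.exp C, hρ, Real.exp_pos _, fun θ s lam L h0 h4 hθ hs hs' hq hlam => ?_⟩
  obtain ⟨n₀, hn₀⟩ := H s hs hs'
  refine ⟨n₀ + L, fun n z y σ hn hzy hσ => ?_⟩
  exact Br.expZt_gen hT hd hreg hc₀ hc₀' hsc h0 (Br.theta_lt_one hd h0.le hθ) 0 hs.le hs' lam n₀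
    (fun D hD r σ hσ => hn₀ θ D lam r σ hD h0 (by rw [hdd]; exact h4) (by rw [hdd]; exact hθ.le)
      (by rw [hdd]; exact hq) hlam hσ) L n hzy hσ hn

theorem expZt_pos (hT : G.IsTree) (hd : 3 ≤ d) (hreg : G.IsRegularOfDegree d) {k : ℕ}
    (hk : 1 ≤ k) :
    ∃ ρ C : ℝ, 1 < ρ ∧ 0 < C ∧ ∀ (θ s : ℝ) (lam L : ℕ), 0 < θ →
    1 ≤ 4 * ((d : ℝ) - 1) * θ ^ 2 → ((d : ℝ) - 1) * θ ^ 2 < 1 → 0 ≤ s → s ≤ 1 / 2 →
    1 ≤ lam →
    ∀ (n : ℕ) (z y : V) (σ : ℝ), L ≤ n → G.Adj z y → (σ = 1 ∨ σ = -1) →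
    ∫ ω, Real.exp (ρ ^ L * Zt G (d - 1) θ lam (free k s ω) L n z y) * Lr G θ k s ω n σ z y
      ∂(labM V) ≤ C := by
  obtain ⟨c₀, hc₀, hc₀', H⟩ := gain_pos (b := d - 1) (by omega) hk
  obtain ⟨ρ, C, hρ, _, hsc⟩ := Br.exists_scale (b := d - 1) (by omega) hc₀ hc₀'
  have hdd : ((d - 1 : ℕ) : ℝ) = (d : ℝ) - 1 := by
    rw [Nat.cast_sub (by omega)]; push_cast; ring
  refine ⟨ρ, Real.exp C, hρ, Real.exp_pos _, fun θ s lam L h0 h4 hθ hs hs' hlam n z y σ hn hzy hσ => ?_⟩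
  exact Br.expZt_gen hT hd hreg hc₀ hc₀' hsc h0 (Br.theta_lt_one hd h0.le hθ) k hs hs' lam 0
    (fun D _ r σ hσ => H s θ D lam r σ hs hs' h0 (by rw [hdd]; exact h4) (by rw [hdd]; exact hθ.le)
      hlam hσ) L n hzy hσ (by omega)

end

end Crest.Agent.Lib.Row160
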