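import Crest.Agent.Lib.Row160.Law

/-!
Row 160, M9 (Z-part): resampling the labels of a set of vertices, independence.
-/

set_option autoImplicit false
open MeasureTheory Filter Topology MeasureTheory.Measure

namespace Crest.Agent.Lib.Row160.BrZ

open LawAux

variable {V : Type*}

open Classical in
/-- take the labels of the vertices in `T` from `ω'`. -/
noncomputable def mrg (T : Set V) (ω ω' : Lab V) : Lab V := fun q => if q.1 ∈ T then ω' q else ω q

lemma mrg_mem {T : Set V} {ω ω' : Lab V} {q : V × ℕ} (h : q.1 ∈ T) : mrg T ω ω' q = ω' q := by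
  unfold mrg; rw [if_pos h]

lemma mrg_notMem {T : Set V} {ω ω' : Lab V} {q : V × ℕ} (h : q.1 ∉ T) :
    mrg T ω ω' q = ω q := by
  unfold mrg; rw [if_neg h]

lemma measurable_mrg (T : Set V) :
    Measurable (fun p : Lab V × Lab V => mrg T p.1 p.2) := by
  unfold mrg
  refine measurable_pi_lambda _ fun q => ?_
  by_cases hq : q.1 ∈ T
  · simp only [hq, if_true]; fun_prop
  · simp only [hq, if_false]; fun_prop

lemma mp_mrg (T : Set V) :
    MeasurePreserving (fun p : Lab V × Lab V => mrg T p.1 p.2) ((labM V).prod (labM V))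
      (labM V) := by
  classical
  refine ⟨measurable_mrg T, ?_⟩
  refine eq_infinitePi _ fun s t ht => ?_
  rw [Measure.map_apply (measurable_mrg T) (.pi s.countable_toSet fun _ _ => ht _)]
  have hpre : (fun p : Lab V × Lab V => mrg T p.1 p.2) ⁻¹' ((s : Set (V × ℕ)).pi t) =
      (((s.filter (fun q => q.1 ∉ T) : Finset (V × ℕ)) : Set (V × ℕ)).pi t) ×ˢ
      (((s.filter (fun q => q.1 ∈ T) : Finset (V × ℕ)) : Set (V × ℕ)).pi t) := by
    ext p
    simp only [Set.mem_preimage, Set.mem_pi, Finset.mem_coe, Set.mem_prod, Finset.mem_filter]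
    constructor
    · intro h
      refine ⟨fun q hq => ?_, fun q hq => ?_⟩
      · have := h q hq.1
        rwa [mrg_notMem hq.2] at this
      · have := h q hq.1
        rwa [mrg_mem hq.2] at this
    · rintro ⟨h1, h2⟩ q hq
      by_cases hqk : q.1 ∈ T
      · rw [mrg_mem hqk]
        exact h2 q ⟨hq, hqk⟩
      · rw [mrg_notMem hqk]
        exact h1 q ⟨hq, hqk⟩
  rw [hpre, Measure.prod_prod, labM, infinitePi_pi _ (fun i _ => ht i),
    infinitePi_pi _ (fun i _ => ht i), ← Finset.prod_filter_mul_prod_filter_not s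
      (fun q => q.1 ∈ T), mul_comm]

/-- depends only on the labels of the vertices in `T`. -/
def DepV (T : Set V) (f : Lab V → ℝ) : Prop :=
  ∀ ω ω' : Lab V, (∀ q : V × ℕ, q.1 ∈ T → ω q = ω' q) → f ω = f ω'

lemma DepV.mono {T T' : Set V} {f : Lab V → ℝ} (h : DepV T f) (hs : T ⊆ T') : DepV T' f :=
  fun ω ω' hq => h ω ω' fun q hqT => hq q (hs hqT)

lemma DepV.comp {T : Set V} {f : Lab V → ℝ} (h : DepV T f) (g : ℝ → ℝ) :
    DepV T (fun ω => g (f ω)) := fun ω ω' hq => by
  show g (f ω) = g (f ω'); rw [h ω ω' hq]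

lemma DepV.mul {T : Set V} {f g : Lab V → ℝ} (h : DepV T f) (h' : DepV T g) :
    DepV T (fun ω => f ω * g ω) := fun ω ω' hq => by
  show f ω * g ω = f ω' * g ω'; rw [h ω ω' hq, h' ω ω' hq]

lemma DepV.add {T : Set V} {f g : Lab V → ℝ} (h : DepV T f) (h' : DepV T g) :
    DepV T (fun ω => f ω + g ω) := fun ω ω' hq => by
  show f ω + g ω = f ω' + g ω'; rw [h ω ω' hq, h' ω ω' hq]

lemma DepV.const {T : Set V} (c : ℝ) : DepV T (fun _ => c) := fun _ _ _ => rfl

lemma DepV.prod {ι : Type*} {s : Finset ι} {T : Set V} {f : ι → Lab V → ℝ}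
    (h : ∀ c ∈ s, DepV T (f c)) : DepV T (fun ω => ∏ c ∈ s, f c ω) := fun ω ω' hq => by
  refine Finset.prod_congr rfl fun c hc => h c hc ω ω' hq

lemma DepV.sum {ι : Type*} {s : Finset ι} {T : Set V} {f : ι → Lab V → ℝ}
    (h : ∀ c ∈ s, DepV T (f c)) : DepV T (fun ω => ∑ c ∈ s, f c ω) := fun ω ω' hq => by
  refine Finset.sum_congr rfl fun c hc => h c hc ω ω' hq

lemma integral_mrg (T : Set V) {f : Lab V → ℝ} (hf : Measurable f) {C : ℝ}
    (hb : ∀ ω, |f ω| ≤ C) :
    ∫ ω, f ω ∂(labM V) = ∫ ω, ∫ ω', f (mrg T ω ω') ∂(labM V) ∂(labM V) :=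
  integral_mp (mp_mrg T) hf hb

lemma DepV.mrg_eq {T : Set V} {f : Lab V → ℝ} (h : DepV T f) (ω ω' : Lab V) :
    f (mrg T ω ω') = f ω' := h _ _ fun _ hq => mrg_mem hq

lemma DepV.mrg_eq_of_disj {T S : Set V} {f : Lab V → ℝ} (h : DepV S f) (hd : Disjoint S T)
    (ω ω' : Lab V) : f (mrg T ω ω') = f ω :=
  h _ _ fun _ hq => mrg_notMem (Set.disjoint_left.1 hd hq)

lemma integral_mul_depV {S T : Set V} {f g : Lab V → ℝ} (hf : Measurable f) (hg : Measurable g)
    {C C' : ℝ} (hfb : ∀ ω, |f ω| ≤ C) (hgb : ∀ ω, |g ω| ≤ C') (hfS : DepV S f) (hgT : DepV T g)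
    (hd : Disjoint S T) :
    ∫ ω, f ω * g ω ∂(labM V) = (∫ ω, f ω ∂(labM V)) * ∫ ω, g ω ∂(labM V) := by
  have h := integral_mrg T (f := fun ω => f ω * g ω) (hf.mul hg) (C := C * C') (fun ω => by
    rw [abs_mul]; exact mul_le_mul (hfb ω) (hgb ω) (abs_nonneg _) ((abs_nonneg _).trans (hfb ω)))
  rw [h]
  simp only [hfS.mrg_eq_of_disj hd, hgT.mrg_eq, integral_const_mul, integral_mul_const]

lemma integral_prod_depV {ι : Type*} [DecidableEq ι] (s : Finset ι) {T : ι → Set V}
    {f : ι → Lab V → ℝ} (hf : ∀ c ∈ s, Measurable (f c)) (hb : ∃ C, ∀ c ∈ s, ∀ ω, |f c ω| ≤ C)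
    (hd : ∀ c ∈ s, DepV (T c) (f c)) (hdis : (s : Set ι).PairwiseDisjoint T) :
    ∫ ω, ∏ c ∈ s, f c ω ∂(labM V) = ∏ c ∈ s, ∫ ω, f c ω ∂(labM V) := by
  obtain ⟨C, hC⟩ := hb
  induction s using Finset.induction_on with
  | empty => simp
  | insert a s ha ih =>
    rw [Finset.prod_insert ha]
    have h1 : ∫ ω, ∏ c ∈ insert a s, f c ω ∂(labM V) =
        ∫ ω, f a ω * ∏ c ∈ s, f c ω ∂(labM V) := by
      congr 1; funext ω; rw [Finset.prod_insert ha]
    rw [h1]
    have hC0 : ∀ c ∈ insert a s, 0 ≤ C := fun c hc =>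
      (abs_nonneg _).trans (hC c hc (fun _ => (0, 0)))
    have h2 := integral_mul_depV (V := V) (S := T a) (T := ⋃ c ∈ s, T c) (f := f a)
      (g := fun ω => ∏ c ∈ s, f c ω) (hf a (Finset.mem_insert_self _ _))
      (Finset.measurable_fun_prod _ fun c hc => hf c (Finset.mem_insert_of_mem hc))
      (C := C) (C' := C ^ s.card) (hC a (Finset.mem_insert_self _ _)) (fun ω => by
        rw [Finset.abs_prod]
        calc _ ≤ ∏ c ∈ s, C := Finset.prod_le_prod (fun _ _ => abs_nonneg _)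
              fun c hc => hC c (Finset.mem_insert_of_mem hc) ω
          _ = C ^ s.card := by rw [Finset.prod_const])
      (hd a (Finset.mem_insert_self _ _))
      (DepV.prod fun c hc => (hd c (Finset.mem_insert_of_mem hc)).mono
        (Set.subset_biUnion_of_mem (u := fun c => T c) (Finset.mem_coe.2 hc)))
      (by
        rw [Set.disjoint_iUnion₂_right]
        intro c hc
        exact hdis (by simp) (by simp [hc]) (by rintro rfl; exact ha hc))
    rw [h2, ih (fun c hc => hf c (Finset.mem_insert_of_mem hc))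
      (fun c hc => hd c (Finset.mem_insert_of_mem hc))
      (hdis.subset (by simp)) (fun c hc => hC c (Finset.mem_insert_of_mem hc))]

end Crest.Agent.Lib.Row160.BrZ
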