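import Crest.Agent.Lib.Row160.BridgeZ1
import Crest.Agent.Lib.Row160.TreeMetric

/-!
Row 160, M9 (Z-part): the planted densities `Lr`, factorisation.
-/

set_option autoImplicit false
set_option linter.unusedSectionVars false
open MeasureTheory Filter Topology MeasureTheory.Measure

namespace Crest.Agent.Lib.Row160.BrZ

open LawAux

variable {V : Type*} {G : SimpleGraph V} [G.LocallyFinite] {d : ℕ}

lemma lik_nonneg {k : ℕ} {s : ℝ} (hs' : s ≤ 1 / 2) (ω : Lab V) (v : V) {σ : ℝ}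
    (hσ : σ = 1 ∨ σ = -1) : 0 ≤ lik k s ω v σ := by
  rw [lik_eq hs' k ω v hσ]
  exact mul_nonneg (Real.exp_pos _).le (clik_nonneg k s ω v)

lemma integral_lik (k : ℕ) (s : ℝ) (v : V) (σ : ℝ) :
    ∫ ω, lik k s ω v σ ∂(labM V) = 1 := by
  have := integral_prod_lik (V := V) {v} k s (fun _ => σ)
  simpa using this

lemma depV_lik (k : ℕ) (s : ℝ) (v : V) (σ : ℝ) : DepV {v} (fun ω => lik k s ω v σ) := by
  intro ω ω' h
  show lik k s ω v σ = lik k s ω' v σ
  unfold lik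
  have h1 : ∀ j, ω (v, j) = ω' (v, j) := fun j => h (v, j) (by simp)
  simp only [h1]

open Classical in
/-- the mixed density of a child: spin of the parent is `σ`. -/
noncomputable def Lmix (G : SimpleGraph V) [G.LocallyFinite] (θ : ℝ) (k : ℕ) (s : ℝ) (n : ℕ)
    (σ : ℝ) (y c : V) (ω : Lab V) : ℝ :=
  ((1 + θ * σ) / 2) * Lr G θ k s ω n 1 y c + ((1 - θ * σ) / 2) * Lr G θ k s ω n (-1) y c

open Classical in
lemma Lr_succ (θ : ℝ) (k : ℕ) (s : ℝ) (n : ℕ) (σ : ℝ) (z y : V) (ω : Lab V) :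
    Lr G θ k s ω (n + 1) σ z y = lik k s ω y σ * ∏ c ∈ (G.neighborFinset y).erase z,
      Lmix G θ k s n σ y c ω := rfl

lemma Lr_zero (θ : ℝ) (k : ℕ) (s : ℝ) (σ : ℝ) (z y : V) (ω : Lab V) :
    Lr G θ k s ω 0 σ z y = lik k s ω y σ := rfl

section
variable {θ : ℝ} (h0 : 0 ≤ θ) (h1 : θ < 1) {k : ℕ} {s : ℝ} (hs' : s ≤ 1 / 2)
include h0 h1 hs'

lemma Lr_nonneg (n : ℕ) : ∀ (σ : ℝ) (_ : σ = 1 ∨ σ = -1) (z y : V) (ω : Lab V),
    0 ≤ Lr G θ k s ω n σ z y := by
  classical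
  induction n with
  | zero => intro σ hσ z y ω; rw [Lr_zero]; exact lik_nonneg hs' ω y hσ
  | succ n ih =>
    intro σ hσ z y ω
    rw [Lr_succ]
    refine mul_nonneg (lik_nonneg hs' ω y hσ) (Finset.prod_nonneg fun c _ => ?_)
    have h2 : 0 ≤ (1 + θ * σ) / 2 := by rcases hσ with rfl | rfl <;> linarith
    have h3 : 0 ≤ (1 - θ * σ) / 2 := by rcases hσ with rfl | rfl <;> linarith
    exact add_nonneg (mul_nonneg h2 (ih 1 (Or.inl rfl) y c ω))
      (mul_nonneg h3 (ih (-1) (Or.inr rfl) y c ω))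

lemma Lmix_nonneg (n : ℕ) {σ : ℝ} (hσ : σ = 1 ∨ σ = -1) (y c : V) (ω : Lab V) :
    0 ≤ Lmix G θ k s n σ y c ω := by
  have h2 : 0 ≤ (1 + θ * σ) / 2 := by rcases hσ with rfl | rfl <;> linarith
  have h3 : 0 ≤ (1 - θ * σ) / 2 := by rcases hσ with rfl | rfl <;> linarith
  exact add_nonneg (mul_nonneg h2 (Lr_nonneg h0 h1 hs' n 1 (Or.inl rfl) y c ω))
    (mul_nonneg h3 (Lr_nonneg h0 h1 hs' n (-1) (Or.inr rfl) y c ω))

lemma Lr_bdd (hreg : G.IsRegularOfDegree d) (n : ℕ) : ∃ C : ℝ, 1 ≤ C ∧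
    ∀ (σ : ℝ) (_ : σ = 1 ∨ σ = -1) (z y : V) (ω : Lab V), |Lr G θ k s ω n σ z y| ≤ C := by
  classical
  induction n with
  | zero =>
    refine ⟨2 ^ (k + 1), one_le_pow₀ (by norm_num), fun σ hσ z y ω => ?_⟩
    rw [Lr_zero]; exact abs_lik_le k s ω y hσ
  | succ n ih =>
    obtain ⟨C, hC, hb⟩ := ih
    refine ⟨2 ^ (k + 1) * C ^ d, one_le_mul_of_one_le_of_one_le (one_le_pow₀ (by norm_num))
      (one_le_pow₀ hC), fun σ hσ z y ω => ?_⟩
    rw [Lr_succ, abs_mul, Finset.abs_prod]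
    refine mul_le_mul (abs_lik_le k s ω y hσ) ?_ (Finset.prod_nonneg fun _ _ => abs_nonneg _)
      (by positivity)
    calc ∏ c ∈ (G.neighborFinset y).erase z, |Lmix G θ k s n σ y c ω|
        ≤ ∏ c ∈ (G.neighborFinset y).erase z, C := by
          refine Finset.prod_le_prod (fun _ _ => abs_nonneg _) fun c _ => ?_
          have h2 : 0 ≤ (1 + θ * σ) / 2 := by rcases hσ with rfl | rfl <;> linarith
          have h3 : 0 ≤ (1 - θ * σ) / 2 := by rcases hσ with rfl | rfl <;> linarith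
          have e1 := hb 1 (Or.inl rfl) y c ω
          have e2 := hb (-1) (Or.inr rfl) y c ω
          calc |Lmix G θ k s n σ y c ω| ≤ |((1 + θ * σ) / 2) * Lr G θ k s ω n 1 y c| +
                |((1 - θ * σ) / 2) * Lr G θ k s ω n (-1) y c| := abs_add_le _ _
            _ = ((1 + θ * σ) / 2) * |Lr G θ k s ω n 1 y c| +
                ((1 - θ * σ) / 2) * |Lr G θ k s ω n (-1) y c| := by
                rw [abs_mul, abs_mul, abs_of_nonneg h2, abs_of_nonneg h3]
            _ ≤ ((1 + θ * σ) / 2) * C + ((1 - θ * σ) / 2) * C := by gcongr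
            _ = C := by ring
      _ = C ^ ((G.neighborFinset y).erase z).card := by rw [Finset.prod_const]
      _ ≤ C ^ d := by
          refine pow_le_pow_right₀ hC ?_
          refine (Finset.card_erase_le).trans ?_
          rw [SimpleGraph.card_neighborFinset_eq_degree, hreg y]

end

lemma measurable_Lr (θ : ℝ) (k : ℕ) (s : ℝ) (n : ℕ) : ∀ (σ : ℝ) (z y : V),
    Measurable (fun ω => Lr G θ k s ω n σ z y) := by
  classical
  induction n with
  | zero => intro σ z y; exact measurable_lik k s y σ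
  | succ n ih =>
    intro σ z y
    simp only [Lr_succ]
    refine (measurable_lik k s y σ).mul (Finset.measurable_fun_prod _ fun c _ => ?_)
    exact ((ih 1 y c).const_mul _).add ((ih (-1) y c).const_mul _)

lemma measurable_Lmix (θ : ℝ) (k : ℕ) (s : ℝ) (n : ℕ) (σ : ℝ) (y c : V) :
    Measurable (fun ω => Lmix G θ k s n σ y c ω) :=
  ((measurable_Lr θ k s n 1 y c).const_mul _).add ((measurable_Lr θ k s n (-1) y c).const_mul _)

lemma Tn_child_subset (hT : G.IsTree) (n : ℕ) {z y c : V} (hzy : G.Adj z y) (hyc : G.Adj y c)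
    (hc : c ≠ z) : (Tn G n y c : Set V) ⊆ Tn G (n + 1) z y := by
  classical
  rw [Tn_succ hT n hzy]
  intro w hw
  rw [Finset.coe_insert, Finset.coe_biUnion]
  right
  simp only [Set.mem_iUnion]
  refine ⟨c, ?_, hw⟩
  rw [Finset.mem_coe, Finset.mem_erase, SimpleGraph.mem_neighborFinset]
  exact ⟨hc, hyc⟩

lemma root_mem_Tn (hT : G.IsTree) (n : ℕ) {z y : V} (hzy : G.Adj z y) :
    y ∈ (Tn G n z y : Set V) := by
  rw [Finset.mem_coe, mem_Tn hT]
  have : G.dist z y = 1 := SimpleGraph.dist_eq_one_iff_adj.2 hzy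
  simp [this]

lemma depV_Lr (hT : G.IsTree) (θ : ℝ) (k : ℕ) (s : ℝ) (n : ℕ) : ∀ (σ : ℝ) (z y : V)
    (_ : G.Adj z y), DepV (Tn G n z y : Set V) (fun ω => Lr G θ k s ω n σ z y) := by
  classical
  induction n with
  | zero =>
    intro σ z y hzy
    refine (depV_lik k s y σ).mono ?_
    intro w hw
    rw [Set.mem_singleton_iff] at hw
    subst hw
    exact root_mem_Tn hT 0 hzy
  | succ n ih =>
    intro σ z y hzy
    simp only [Lr_succ]
    refine DepV.mul ((depV_lik k s y σ).mono ?_) (DepV.prod fun c hc => ?_)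
    · intro w hw
      rw [Set.mem_singleton_iff] at hw
      subst hw
      exact root_mem_Tn hT _ hzy
    · rw [Finset.mem_erase, SimpleGraph.mem_neighborFinset] at hc
      refine DepV.mono ?_ (Tn_child_subset hT n hzy hc.2 hc.1)
      exact ((ih 1 y c hc.2).comp (fun x => ((1 + θ * σ) / 2) * x)).add
        ((ih (-1) y c hc.2).comp (fun x => ((1 - θ * σ) / 2) * x))

lemma depV_Lmix (hT : G.IsTree) (θ : ℝ) (k : ℕ) (s : ℝ) (n : ℕ) (σ : ℝ) {y c : V}
    (hyc : G.Adj y c) : DepV (Tn G n y c : Set V) (fun ω => Lmix G θ k s n σ y c ω) :=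
  ((depV_Lr hT θ k s n 1 y c hyc).comp (fun x => ((1 + θ * σ) / 2) * x)).add
    ((depV_Lr hT θ k s n (-1) y c hyc).comp (fun x => ((1 - θ * σ) / 2) * x))

lemma children_disj (hT : G.IsTree) (n : ℕ) (y : V) (s : Finset V)
    (hs : s ⊆ G.neighborFinset y) :
    (s : Set V).PairwiseDisjoint (fun c => (Tn G n y c : Set V)) := by
  intro a ha b hb hab
  have := Tn_pairwiseDisjoint hT n y (hs ha) (hs hb) hab
  exact Finset.disjoint_coe.2 this

lemma singleton_disj (hT : G.IsTree) (n : ℕ) {y c : V} (hyc : G.Adj y c) :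
    Disjoint ({y} : Set V) (Tn G n y c : Set V) := by
  rw [Set.disjoint_singleton_left]
  exact fun h => Tn_root_notMem hT n hyc (Finset.mem_coe.1 h)

section
variable {θ : ℝ} (h0 : 0 ≤ θ) (h1 : θ < 1) {k : ℕ} {s : ℝ} (hs' : s ≤ 1 / 2)
include h0 h1 hs'

lemma Lmix_bdd (hreg : G.IsRegularOfDegree d) (n : ℕ) : ∃ C : ℝ, 1 ≤ C ∧
    ∀ (σ : ℝ) (_ : σ = 1 ∨ σ = -1) (y c : V) (ω : Lab V), |Lmix G θ k s n σ y c ω| ≤ C := by
  obtain ⟨C, hC, hb⟩ := Lr_bdd h0 h1 hs' hreg n (G := G) (k := k)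
  refine ⟨C, hC, fun σ hσ y c ω => ?_⟩
  have h2 : 0 ≤ (1 + θ * σ) / 2 := by rcases hσ with rfl | rfl <;> linarith
  have h3 : 0 ≤ (1 - θ * σ) / 2 := by rcases hσ with rfl | rfl <;> linarith
  have e1 := hb 1 (Or.inl rfl) y c ω
  have e2 := hb (-1) (Or.inr rfl) y c ω
  calc |Lmix G θ k s n σ y c ω| ≤ |((1 + θ * σ) / 2) * Lr G θ k s ω n 1 y c| +
        |((1 - θ * σ) / 2) * Lr G θ k s ω n (-1) y c| := abs_add_le _ _
    _ = ((1 + θ * σ) / 2) * |Lr G θ k s ω n 1 y c| +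
        ((1 - θ * σ) / 2) * |Lr G θ k s ω n (-1) y c| := by
        rw [abs_mul, abs_mul, abs_of_nonneg h2, abs_of_nonneg h3]
    _ ≤ ((1 + θ * σ) / 2) * C + ((1 - θ * σ) / 2) * C := by gcongr
    _ = C := by ring

/-- factorisation of the planted expectation over the children. -/
lemma factor (hT : G.IsTree) (hreg : G.IsRegularOfDegree d) (n : ℕ) {σ : ℝ}
    (hσ : σ = 1 ∨ σ = -1) {y : V} {S : Finset V} (hS : S ⊆ G.neighborFinset y)
    {F : V → Lab V → ℝ} (hF : ∀ c, Measurable (F c))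
    (hb : ∃ C, ∀ c ω, |F c ω| ≤ C) (hd : ∀ c ∈ S, DepV (Tn G n y c : Set V) (F c)) :
    ∫ ω, lik k s ω y σ * ∏ c ∈ S, (F c ω * Lmix G θ k s n σ y c ω) ∂(labM V) =
      ∏ c ∈ S, ∫ ω, F c ω * Lmix G θ k s n σ y c ω ∂(labM V) := by
  classical
  obtain ⟨C, hC⟩ := hb
  obtain ⟨C', hC'1, hC'⟩ := Lmix_bdd h0 h1 hs' hreg n (G := G) (k := k)
  have hadj : ∀ c ∈ S, G.Adj y c := fun c hc => by
    have := hS hc
    rwa [SimpleGraph.mem_neighborFinset] at this
  have hmeas : ∀ c, Measurable (fun ω => F c ω * Lmix G θ k s n σ y c ω) := fun c =>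
    (hF c).mul (measurable_Lmix θ k s n σ y c)
  have hbd : ∀ c ω, |F c ω * Lmix G θ k s n σ y c ω| ≤ C * C' := fun c ω => by
    rw [abs_mul]
    exact mul_le_mul (hC c ω) (hC' σ hσ y c ω) (abs_nonneg _) ((abs_nonneg _).trans (hC c ω))
  have hdep : ∀ c ∈ S, DepV (Tn G n y c : Set V) (fun ω => F c ω * Lmix G θ k s n σ y c ω) :=
    fun c hc => (hd c hc).mul (depV_Lmix hT θ k s n σ (hadj c hc))
  have h2 := integral_prod_depV S (T := fun c => (Tn G n y c : Set V))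
    (f := fun c ω => F c ω * Lmix G θ k s n σ y c ω) (fun c _ => hmeas c)
    ⟨C * C', fun c _ ω => hbd c ω⟩ hdep (children_disj hT n y S hS)
  have h3 := integral_mul_depV (V := V) (S := {y}) (T := ⋃ c ∈ S, (Tn G n y c : Set V))
    (f := fun ω => lik k s ω y σ) (g := fun ω => ∏ c ∈ S, (F c ω * Lmix G θ k s n σ y c ω))
    (measurable_lik k s y σ) (Finset.measurable_fun_prod _ fun c _ => hmeas c)
    (fun ω => abs_lik_le k s ω y hσ) (C' := (C * C') ^ S.card) (fun ω => by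
      rw [Finset.abs_prod]
      calc _ ≤ ∏ c ∈ S, (C * C') := Finset.prod_le_prod (fun _ _ => abs_nonneg _)
            fun c _ => hbd c ω
        _ = _ := by rw [Finset.prod_const])
    (depV_lik k s y σ) (DepV.prod fun c hc => (hdep c hc).mono
      (Set.subset_biUnion_of_mem (u := fun c => (Tn G n y c : Set V)) (Finset.mem_coe.2 hc)))
    (by
      rw [Set.disjoint_iUnion₂_right]
      intro c hc
      exact singleton_disj hT n (hadj c hc))
  rw [h3, integral_lik, one_mul]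
  exact h2

/-- total mass. -/
lemma integral_Lr (hT : G.IsTree) (hreg : G.IsRegularOfDegree d) (n : ℕ) :
    ∀ (σ : ℝ) (_ : σ = 1 ∨ σ = -1) (z y : V), ∫ ω, Lr G θ k s ω n σ z y ∂(labM V) = 1 := by
  classical
  induction n with
  | zero => intro σ hσ z y; simp only [Lr_zero]; exact integral_lik k s y σ
  | succ n ih =>
    intro σ hσ z y
    simp only [Lr_succ]
    have h2 := factor h0 h1 hs' hT hreg n (G := G) (k := k) hσ (y := y)
      (S := (G.neighborFinset y).erase z) (Finset.erase_subset _ _) (F := fun _ _ => 1)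
      (fun _ => measurable_const) ⟨1, fun _ _ => by simp⟩ (fun _ _ => DepV.const 1)
    simp only [one_mul] at h2
    rw [h2]
    refine Finset.prod_eq_one fun c _ => ?_
    obtain ⟨C, hC, hb⟩ := Lr_bdd h0 h1 hs' hreg n (G := G) (k := k)
    have hi1 : Integrable (fun ω => Lr G θ k s ω n 1 y c) (labM V) :=
      integrable_bdd (measurable_Lr θ k s n 1 y c) (hb 1 (Or.inl rfl) y c)
    have hi2 : Integrable (fun ω => Lr G θ k s ω n (-1) y c) (labM V) :=
      integrable_bdd (measurable_Lr θ k s n (-1) y c) (hb (-1) (Or.inr rfl) y c)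
    have e1 : ∫ ω, Lmix G θ k s n σ y c ω ∂(labM V) =
        ((1 + θ * σ) / 2) * ∫ ω, Lr G θ k s ω n 1 y c ∂(labM V) +
        ((1 - θ * σ) / 2) * ∫ ω, Lr G θ k s ω n (-1) y c ∂(labM V) := by
      rw [← integral_const_mul, ← integral_const_mul]
      exact integral_add (hi1.const_mul _) (hi2.const_mul _)
    rw [e1, ih 1 (Or.inl rfl), ih (-1) (Or.inr rfl)]
    ring

lemma integral_Lmix (hT : G.IsTree) (hreg : G.IsRegularOfDegree d) (n : ℕ) (σ : ℝ) (y c : V)
    {F : Lab V → ℝ} (hF : Measurable F) {CF : ℝ} (hb : ∀ ω, |F ω| ≤ CF) :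
    ∫ ω, F ω * Lmix G θ k s n σ y c ω ∂(labM V) =
      ((1 + θ * σ) / 2) * ∫ ω, F ω * Lr G θ k s ω n 1 y c ∂(labM V) +
      ((1 - θ * σ) / 2) * ∫ ω, F ω * Lr G θ k s ω n (-1) y c ∂(labM V) := by
  obtain ⟨C, hC, hbL⟩ := Lr_bdd h0 h1 hs' hreg n (G := G) (k := k)
  have hi : ∀ (σ' : ℝ) (_ : σ' = 1 ∨ σ' = -1),
      Integrable (fun ω => F ω * Lr G θ k s ω n σ' y c) (labM V) := fun σ' hσ' =>
    integrable_bdd (hF.mul (measurable_Lr θ k s n σ' y c)) (K := CF * C) (fun ω => by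
      rw [abs_mul]
      exact mul_le_mul (hb ω) (hbL σ' hσ' y c ω) (abs_nonneg _) ((abs_nonneg _).trans (hb ω)))
  rw [← integral_const_mul, ← integral_const_mul,
    ← integral_add ((hi 1 (Or.inl rfl)).const_mul _) ((hi (-1) (Or.inr rfl)).const_mul _)]
  refine integral_congr_ae (Eventually.of_forall fun ω => ?_)
  show F ω * Lmix G θ k s n σ y c ω = _
  unfold Lmix
  ring

end

end Crest.Agent.Lib.Row160.BrZ
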