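import Crest.Agent.Lib.Row160.TreeAut0

/-!
# Covariance decay of factors of iid on regular trees (M7)

For a limit of equivariant block factors `Y` indexed by directed edges, covariances along
non-backtracking paths decay like `(j+1) b^{-j/2}`.

Proof: log-convexity of `s_n = E[Y (X^n Y)]`, where `X = N* N` and `N` is the operator of `k`
non-backtracking steps, and the positive supersolution `b^{-|u|/2}`.
-/

set_option autoImplicit false
open MeasureTheory Filter Topology ProbabilityTheory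

namespace Crest.Agent.Lib.Row160

namespace CovDecay

/-! ### abstract log-convexity -/

lemma logconvex_bound {s : ℕ → ℝ} {K Λ : ℝ} (hΛ : 0 < Λ) (h0 : ∀ n, 0 ≤ s (2 * n))
    (hcs : ∀ n, s n ^ 2 ≤ s 0 * s (2 * n)) (hK : ∀ n, s n ≤ K * Λ ^ n) :
    |s 1| ≤ Λ * s 0 := by
  have hs0 : 0 ≤ s 0 := by simpa using h0 0
  rcases hs0.eq_or_lt with hz | hpos
  · have := hcs 1
    rw [← hz, zero_mul] at this
    have h1 : s 1 = 0 := by nlinarith
    rw [h1, ← hz]
    simp
  · have key : ∀ m : ℕ, |s 1| ^ (2 ^ m) * s 0 ≤ s 0 ^ (2 ^ m) * |s (2 ^ m)| := by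
      intro m
      induction m with
      | zero => simp [mul_comm]
      | succ m ih =>
        have h1 : (|s 1| ^ (2 ^ m) * s 0) ^ 2 ≤ (s 0 ^ (2 ^ m) * |s (2 ^ m)|) ^ 2 :=
          pow_le_pow_left₀ (by positivity) ih 2
        have h2 := hcs (2 ^ m)
        have h3 : s (2 * 2 ^ m) ≤ |s (2 ^ (m + 1))| := by
          rw [pow_succ, mul_comm (2 ^ m)]
          exact le_abs_self _
        have h4 : |s (2 ^ m)| ^ 2 ≤ s 0 * |s (2 ^ (m + 1))| := by
          rw [sq_abs]
          exact h2.trans (mul_le_mul_of_nonneg_left h3 hs0)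
        have h5 : (|s 1| ^ (2 ^ (m + 1)) * s 0) * s 0 ≤
            (s 0 ^ (2 ^ (m + 1)) * |s (2 ^ (m + 1))|) * s 0 := by
          calc (|s 1| ^ (2 ^ (m + 1)) * s 0) * s 0 = (|s 1| ^ (2 ^ m) * s 0) ^ 2 := by
                rw [pow_succ 2 m, pow_mul]; ring
            _ ≤ (s 0 ^ (2 ^ m) * |s (2 ^ m)|) ^ 2 := h1
            _ = (s 0 ^ (2 ^ m)) ^ 2 * |s (2 ^ m)| ^ 2 := by ring
            _ ≤ (s 0 ^ (2 ^ m)) ^ 2 * (s 0 * |s (2 ^ (m + 1))|) :=
                mul_le_mul_of_nonneg_left h4 (by positivity)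
            _ = (s 0 ^ (2 ^ (m + 1)) * |s (2 ^ (m + 1))|) * s 0 := by
                rw [pow_succ 2 m, pow_mul]; ring
        exact le_of_mul_le_mul_right h5 hpos
    by_contra hcon
    rw [not_le] at hcon
    -- ratio > 1
    set r := |s 1| / (Λ * s 0) with hr
    have hden : 0 < Λ * s 0 := mul_pos hΛ hpos
    have hr1 : 1 < r := by
      rw [hr, lt_div_iff₀ hden, one_mul]
      exact hcon
    have hbound : ∀ m : ℕ, r ^ (2 ^ m) ≤ |K| / s 0 := by
      intro m
      have h1 := key m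
      have h2 : |s (2 ^ m)| ≤ |K| * Λ ^ (2 ^ m) := by
        rw [abs_le]
        constructor
        · cases m with
          | zero =>
            -- s 1 ≥ - ..., use hcs
            have h3 := hcs 1
            have h4 : s (2 * 1) ≤ |K| * Λ ^ 2 := (hK 2).trans
              (mul_le_mul_of_nonneg_right (le_abs_self K) (by positivity))
            have h5 : s 0 ≤ |K| := by
              have := hK 0
              simp only [pow_zero, mul_one] at this
              exact this.trans (le_abs_self K)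
            have h6 : s 1 ^ 2 ≤ (|K| * Λ) ^ 2 := by
              calc s 1 ^ 2 ≤ s 0 * s (2 * 1) := h3
                _ ≤ |K| * (|K| * Λ ^ 2) := mul_le_mul h5 h4 (h0 1) (abs_nonneg K)
                _ = (|K| * Λ) ^ 2 := by ring
            have h7 := abs_le_of_sq_le_sq h6 (by positivity)
            simp only [pow_zero, pow_one]
            have := (abs_le.1 h7).1
            linarith
          | succ m =>
            have := h0 (2 ^ m)
            rw [show 2 ^ (m + 1) = 2 * 2 ^ m by ring]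
            have h8 : 0 ≤ |K| * Λ ^ (2 * 2 ^ m) := by positivity
            linarith
        · exact (hK _).trans (mul_le_mul_of_nonneg_right (le_abs_self K) (by positivity))
      rw [hr, div_pow, div_le_div_iff₀ (by positivity) hpos]
      calc |s 1| ^ 2 ^ m * s 0 ≤ s 0 ^ (2 ^ m) * |s (2 ^ m)| := h1
        _ ≤ s 0 ^ (2 ^ m) * (|K| * Λ ^ (2 ^ m)) := mul_le_mul_of_nonneg_left h2 (by positivity)
        _ = |K| * (Λ * s 0) ^ 2 ^ m := by rw [mul_pow]; ring
    have hunb := tendsto_pow_atTop_atTop_of_one_lt hr1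
    have h2pow : Tendsto (fun m : ℕ => 2 ^ m) atTop (atTop : Filter ℕ) :=
      tendsto_pow_atTop_atTop_of_one_lt (by norm_num : (1 : ℕ) < 2)
    have := (hunb.comp h2pow).eventually (eventually_gt_atTop (|K| / s 0))
    obtain ⟨m, hm⟩ := this.exists
    exact absurd (hbound m) (not_le.2 hm)

/-! ### non-backtracking operators on functions of directed edges -/

section op
variable {V : Type*} {G : SimpleGraph V} [G.LocallyFinite]

open Classical in
/-- sum over the continuations of the directed edge `(u,v)`. -/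
noncomputable def N1 (G : SimpleGraph V) [G.LocallyFinite] (φ : V → V → ℝ) : V → V → ℝ :=
  fun u v => ∑ w ∈ (G.neighborFinset v).erase u, φ v w

open Classical in
/-- sum over the predecessors of the directed edge `(x,y)`. -/
noncomputable def N1s (G : SimpleGraph V) [G.LocallyFinite] (φ : V → V → ℝ) : V → V → ℝ :=
  fun x y => ∑ w ∈ (G.neighborFinset x).erase y, φ w x

/-- comparison on directed edges -/
def LE (G : SimpleGraph V) (φ ψ : V → V → ℝ) : Prop := ∀ u v, G.Adj u v → φ u v ≤ ψ u v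

lemma LE.N1 {φ ψ : V → V → ℝ} (h : LE G φ ψ) : LE G (N1 G φ) (N1 G ψ) := by
  classical
  intro u v _
  unfold CovDecay.N1
  refine Finset.sum_le_sum ?_
  intro w hw
  simp only [Finset.mem_erase, SimpleGraph.mem_neighborFinset] at hw
  exact h v w hw.2

lemma LE.N1s {φ ψ : V → V → ℝ} (h : LE G φ ψ) : LE G (N1s G φ) (N1s G ψ) := by
  classical
  intro u v _
  unfold CovDecay.N1s
  refine Finset.sum_le_sum ?_
  intro w hw
  simp only [Finset.mem_erase, SimpleGraph.mem_neighborFinset] at hw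
  exact h w u hw.2.symm

lemma LE.trans {φ ψ χ : V → V → ℝ} (h : LE G φ ψ) (h' : LE G ψ χ) : LE G φ χ :=
  fun u v huv => (h u v huv).trans (h' u v huv)

lemma LE.iterate_N1 {φ ψ : V → V → ℝ} (h : LE G φ ψ) (k : ℕ) :
    LE G ((CovDecay.N1 G)^[k] φ) ((CovDecay.N1 G)^[k] ψ) := by
  induction k generalizing φ ψ with
  | zero => exact h
  | succ k ih =>
    rw [Function.iterate_succ_apply, Function.iterate_succ_apply]
    exact ih h.N1

lemma LE.iterate_N1s {φ ψ : V → V → ℝ} (h : LE G φ ψ) (k : ℕ) :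
    LE G ((CovDecay.N1s G)^[k] φ) ((CovDecay.N1s G)^[k] ψ) := by
  induction k generalizing φ ψ with
  | zero => exact h
  | succ k ih =>
    rw [Function.iterate_succ_apply, Function.iterate_succ_apply]
    exact ih h.N1s

lemma N1_smul (a : ℝ) (φ : V → V → ℝ) :
    N1 G (fun u v => a * φ u v) = fun u v => a * N1 G φ u v := by
  classical
  funext u v
  simp [N1, Finset.mul_sum]

lemma N1s_smul (a : ℝ) (φ : V → V → ℝ) :
    N1s G (fun u v => a * φ u v) = fun u v => a * N1s G φ u v := by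
  classical
  funext u v
  simp [N1s, Finset.mul_sum]

lemma iterate_N1_smul (a : ℝ) (φ : V → V → ℝ) (k : ℕ) :
    (N1 G)^[k] (fun u v => a * φ u v) = fun u v => a * (N1 G)^[k] φ u v := by
  induction k generalizing φ with
  | zero => rfl
  | succ k ih =>
    rw [Function.iterate_succ_apply, Function.iterate_succ_apply, N1_smul, ih]

lemma iterate_N1s_smul (a : ℝ) (φ : V → V → ℝ) (k : ℕ) :
    (N1s G)^[k] (fun u v => a * φ u v) = fun u v => a * (N1s G)^[k] φ u v := by
  induction k generalizing φ with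
  | zero => rfl
  | succ k ih =>
    rw [Function.iterate_succ_apply, Function.iterate_succ_apply, N1s_smul, ih]

open Classical in
/-- weight with factor `c` on the edges pointing towards the root -/
noncomputable def Wu (G : SimpleGraph V) (β : ℝ) (o : V) (c : ℝ) : V → V → ℝ :=
  fun u v => (if G.dist o u = G.dist o v + 1 then c else 1) * β⁻¹ ^ G.dist o u

open Classical in
/-- weight with factor `c` on the edges pointing away from the root -/
noncomputable def Wd (G : SimpleGraph V) (β : ℝ) (o : V) (c : ℝ) : V → V → ℝ :=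
  fun u v => (if G.dist o u = G.dist o v + 1 then 1 else c) * β⁻¹ ^ G.dist o u

section
variable {d : ℕ} (hT : G.IsTree) (hd : 3 ≤ d) (hreg : G.IsRegularOfDegree d) (o : V)
include hT hd hreg

lemma card_erase {u v : V} (h : G.Adj u v) :
    haveI := Classical.decEq V
    (((G.neighborFinset v).erase u).card : ℝ) = (d : ℝ) - 1 := by
  classical
  rw [Finset.card_erase_of_mem (by simpa using h.symm), SimpleGraph.card_neighborFinset_eq_degree,
    hreg v, Nat.cast_sub (by omega)]
  simp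

lemma N1_Wu {c : ℝ} (hc : 1 ≤ c) :
    LE G (N1 G (Wu G (√((d : ℝ) - 1)) o c))
      (fun u v => √((d : ℝ) - 1) * Wu G (√((d : ℝ) - 1)) o (c + ((d : ℝ) - 2)) u v) := by
  classical
  set β := √((d : ℝ) - 1) with hβ
  have hd' : (3 : ℝ) ≤ d := by exact_mod_cast hd
  have hβ0 : 0 < β := Real.sqrt_pos.2 (by linarith)
  have hβ2 : β ^ 2 = (d : ℝ) - 1 := Real.sq_sqrt (by linarith)
  intro u v huv
  have hcard := card_erase hT hd hreg huv
  unfold N1 Wu
  beta_reduce
  rcases dist_succ_of_adj hT o huv with h | h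
  · -- `v` is the parent of `u`
    rw [if_pos h]
    have hle : ∀ w ∈ (G.neighborFinset v).erase u,
        (if G.dist o v = G.dist o w + 1 then c else 1) * β⁻¹ ^ G.dist o v ≤
          (1 + (c - 1) * (if w = par G o v then 1 else 0)) * β⁻¹ ^ G.dist o v := by
      intro w hw
      simp only [Finset.mem_erase, SimpleGraph.mem_neighborFinset] at hw
      refine mul_le_mul_of_nonneg_right ?_ (by positivity)
      by_cases h1 : G.dist o v = G.dist o w + 1
      · rw [if_pos h1, if_pos (par_eq hT o hw.2.symm h1).symm]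
        linarith
      · rw [if_neg h1]
        split_ifs <;> linarith
    calc ∑ w ∈ (G.neighborFinset v).erase u,
        (if G.dist o v = G.dist o w + 1 then c else 1) * β⁻¹ ^ G.dist o v
        ≤ ∑ w ∈ (G.neighborFinset v).erase u,
          (1 + (c - 1) * (if w = par G o v then 1 else 0)) * β⁻¹ ^ G.dist o v :=
          Finset.sum_le_sum hle
      _ = (((d : ℝ) - 1) + (c - 1) * ∑ w ∈ (G.neighborFinset v).erase u,
            (if w = par G o v then (1 : ℝ) else 0)) * β⁻¹ ^ G.dist o v := by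
          rw [← Finset.sum_mul, Finset.sum_add_distrib, ← Finset.mul_sum, Finset.sum_const,
            nsmul_eq_mul, hcard, mul_one]
      _ ≤ (((d : ℝ) - 1) + (c - 1) * 1) * β⁻¹ ^ G.dist o v := by
          refine mul_le_mul_of_nonneg_right ?_ (by positivity)
          have : ∑ w ∈ (G.neighborFinset v).erase u,
            (if w = par G o v then (1 : ℝ) else 0) ≤ 1 := by
            rw [Finset.sum_ite_eq']
            split_ifs <;> norm_num
          nlinarith
      _ = β * ((c + ((d : ℝ) - 2)) * β⁻¹ ^ G.dist o u) := by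
          rw [h, pow_succ]
          field_simp
          ring
  · -- `v` is a child of `u`
    have hne : ¬ (G.dist o u = G.dist o v + 1) := by omega
    rw [if_neg hne]
    have hval : ∀ w ∈ (G.neighborFinset v).erase u,
        (if G.dist o v = G.dist o w + 1 then c else 1) * β⁻¹ ^ G.dist o v =
          β⁻¹ ^ G.dist o v := by
      intro w hw
      simp only [Finset.mem_erase, SimpleGraph.mem_neighborFinset] at hw
      rw [if_neg, one_mul]
      intro h1
      exact hw.1 (parent_unique hT o hw.2.symm huv h1 h)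
    have hb : β * β⁻¹ = 1 := mul_inv_cancel₀ hβ0.ne'
    rw [Finset.sum_congr rfl hval, Finset.sum_const, nsmul_eq_mul, hcard, h, ← hβ2,
      pow_succ β⁻¹]
    apply le_of_eq
    linear_combination (β * β⁻¹ ^ G.dist o u) * hb

lemma N1s_Wd {c : ℝ} (hc : 1 ≤ c) :
    LE G (N1s G (Wd G (√((d : ℝ) - 1)) o c))
      (fun u v => √((d : ℝ) - 1) * Wd G (√((d : ℝ) - 1)) o (c + 1) u v) := by
  classical
  set β := √((d : ℝ) - 1) with hβ
  have hd' : (3 : ℝ) ≤ d := by exact_mod_cast hd
  have hβ0 : 0 < β := Real.sqrt_pos.2 (by linarith)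
  have hβ2 : β ^ 2 = (d : ℝ) - 1 := Real.sq_sqrt (by linarith)
  intro x y hxy
  have hcard := card_erase hT hd hreg hxy.symm
  unfold N1s Wd
  beta_reduce
  rcases dist_succ_of_adj hT o hxy with h | h
  · -- `y` is the parent of `x`
    rw [if_pos h]
    have hval : ∀ w ∈ (G.neighborFinset x).erase y,
        (if G.dist o w = G.dist o x + 1 then 1 else c) * β⁻¹ ^ G.dist o w =
          β⁻¹ ^ (G.dist o x + 1) := by
      intro w hw
      simp only [Finset.mem_erase, SimpleGraph.mem_neighborFinset] at hw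
      have h1 : G.dist o w = G.dist o x + 1 := by
        rcases dist_succ_of_adj hT o hw.2 with h1 | h1
        · exact absurd (parent_unique hT o hw.2.symm hxy.symm h1 h) hw.1
        · exact h1
      rw [if_pos h1, one_mul, h1]
    have hb : β * β⁻¹ = 1 := mul_inv_cancel₀ hβ0.ne'
    rw [Finset.sum_congr rfl hval, Finset.sum_const, nsmul_eq_mul, hcard, ← hβ2, pow_succ β⁻¹]
    apply le_of_eq
    linear_combination (β * β⁻¹ ^ G.dist o x) * hb
  · -- `y` is a child of `x`
    have hne : ¬ (G.dist o x = G.dist o y + 1) := by omega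
    rw [if_neg hne]
    have hle : ∀ w ∈ (G.neighborFinset x).erase y,
        (if G.dist o w = G.dist o x + 1 then 1 else c) * β⁻¹ ^ G.dist o w ≤
          β⁻¹ * β⁻¹ ^ G.dist o x + (if w = par G o x then 1 else 0) * (c * β * β⁻¹ ^ G.dist o x) := by
      intro w hw
      simp only [Finset.mem_erase, SimpleGraph.mem_neighborFinset] at hw
      rcases dist_succ_of_adj hT o hw.2 with h1 | h1
      · have h2 : ¬ (G.dist o w = G.dist o x + 1) := by omega
        rw [if_neg h2, if_pos (par_eq hT o hw.2.symm h1).symm, one_mul, h1, pow_succ]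
        have h3 : β * β⁻¹ = 1 := mul_inv_cancel₀ hβ0.ne'
        have h4 : c * β * (β⁻¹ ^ G.dist o w * β⁻¹) = c * β⁻¹ ^ G.dist o w := by
          linear_combination (c * β⁻¹ ^ G.dist o w) * h3
        rw [h4]
        have : 0 ≤ β⁻¹ * (β⁻¹ ^ G.dist o w * β⁻¹) := by positivity
        linarith
      · rw [if_pos h1, one_mul, h1, pow_succ]
        have : 0 ≤ (if w = par G o x then (1 : ℝ) else 0) * (c * β * β⁻¹ ^ G.dist o x) := by
          have : 0 ≤ c * β * β⁻¹ ^ G.dist o x := by positivity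
          exact mul_nonneg (by split_ifs <;> norm_num) this
        linarith
    calc ∑ w ∈ (G.neighborFinset x).erase y,
        (if G.dist o w = G.dist o x + 1 then 1 else c) * β⁻¹ ^ G.dist o w
        ≤ ∑ w ∈ (G.neighborFinset x).erase y, (β⁻¹ * β⁻¹ ^ G.dist o x +
          (if w = par G o x then 1 else 0) * (c * β * β⁻¹ ^ G.dist o x)) :=
          Finset.sum_le_sum hle
      _ = ((d : ℝ) - 1) * (β⁻¹ * β⁻¹ ^ G.dist o x) + (∑ w ∈ (G.neighborFinset x).erase y,
            (if w = par G o x then (1 : ℝ) else 0)) * (c * β * β⁻¹ ^ G.dist o x) := by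
          rw [Finset.sum_add_distrib, Finset.sum_const, nsmul_eq_mul, hcard, Finset.sum_mul]
      _ ≤ ((d : ℝ) - 1) * (β⁻¹ * β⁻¹ ^ G.dist o x) + 1 * (c * β * β⁻¹ ^ G.dist o x) := by
          have : ∑ w ∈ (G.neighborFinset x).erase y,
            (if w = par G o x then (1 : ℝ) else 0) ≤ 1 := by
            rw [Finset.sum_ite_eq']
            split_ifs <;> norm_num
          have h0 : 0 ≤ c * β * β⁻¹ ^ G.dist o x := by positivity
          nlinarith
      _ = β * ((c + 1) * β⁻¹ ^ G.dist o x) := by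
          rw [← hβ2]
          field_simp
          ring

lemma iterate_N1_Wu (k : ℕ) :
    LE G ((N1 G)^[k] (Wu G (√((d : ℝ) - 1)) o 1))
      (fun u v => √((d : ℝ) - 1) ^ k * Wu G (√((d : ℝ) - 1)) o (1 + k * ((d : ℝ) - 2)) u v) := by
  have hd' : (3 : ℝ) ≤ d := by exact_mod_cast hd
  induction k with
  | zero =>
    intro u v _
    simp
  | succ k ih =>
    rw [Function.iterate_succ_apply']
    refine (ih.N1).trans ?_
    rw [N1_smul]
    intro u v huv
    have h1 := N1_Wu hT hd hreg o (c := 1 + k * ((d : ℝ) - 2)) (by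
      have : 0 ≤ (k : ℝ) * ((d : ℝ) - 2) := by
        apply mul_nonneg (by positivity); linarith
      linarith) u v huv
    calc √((d : ℝ) - 1) ^ k * N1 G (Wu G (√((d : ℝ) - 1)) o (1 + k * ((d : ℝ) - 2))) u v
        ≤ √((d : ℝ) - 1) ^ k * (√((d : ℝ) - 1) *
          Wu G (√((d : ℝ) - 1)) o (1 + k * ((d : ℝ) - 2) + ((d : ℝ) - 2)) u v) :=
          mul_le_mul_of_nonneg_left h1 (by positivity)
      _ = _ := by
          push_cast
          rw [show (1 : ℝ) + k * ((d : ℝ) - 2) + ((d : ℝ) - 2) = 1 + (k + 1) * ((d : ℝ) - 2) by ring]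
          ring

lemma iterate_N1s_Wd (k : ℕ) :
    LE G ((N1s G)^[k] (Wd G (√((d : ℝ) - 1)) o 1))
      (fun u v => √((d : ℝ) - 1) ^ k * Wd G (√((d : ℝ) - 1)) o (1 + k) u v) := by
  have hd' : (3 : ℝ) ≤ d := by exact_mod_cast hd
  induction k with
  | zero =>
    intro u v _
    simp
  | succ k ih =>
    rw [Function.iterate_succ_apply']
    refine (ih.N1s).trans ?_
    rw [N1s_smul]
    intro u v huv
    have h1 := N1s_Wd hT hd hreg o (c := 1 + k) (by
      have : 0 ≤ (k : ℝ) := by positivity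
      linarith) u v huv
    calc √((d : ℝ) - 1) ^ k * N1s G (Wd G (√((d : ℝ) - 1)) o (1 + k)) u v
        ≤ √((d : ℝ) - 1) ^ k * (√((d : ℝ) - 1) *
          Wd G (√((d : ℝ) - 1)) o (1 + k + 1) u v) :=
          mul_le_mul_of_nonneg_left h1 (by positivity)
      _ = _ := by
          push_cast
          rw [show (1 : ℝ) + k + 1 = 1 + (k + 1) by ring]
          ring

end

/-- the operator `X = N* N` for `k` steps. -/
noncomputable def XX (G : SimpleGraph V) [G.LocallyFinite] (k : ℕ) (φ : V → V → ℝ) : V → V → ℝ :=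
  (N1s G)^[k] ((N1 G)^[k] φ)

lemma LE.XX {φ ψ : V → V → ℝ} (h : LE G φ ψ) (k : ℕ) : LE G (XX G k φ) (XX G k ψ) :=
  (h.iterate_N1 k).iterate_N1s k

lemma LE.iterate_XX {φ ψ : V → V → ℝ} (h : LE G φ ψ) (k n : ℕ) :
    LE G ((CovDecay.XX G k)^[n] φ) ((CovDecay.XX G k)^[n] ψ) := by
  induction n generalizing φ ψ with
  | zero => exact h
  | succ n ih =>
    rw [Function.iterate_succ_apply, Function.iterate_succ_apply]
    exact ih (h.XX k)

lemma XX_smul (k : ℕ) (a : ℝ) (φ : V → V → ℝ) :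
    XX G k (fun u v => a * φ u v) = fun u v => a * XX G k φ u v := by
  unfold XX
  rw [iterate_N1_smul, iterate_N1s_smul]

/-- the weight -/
noncomputable def ww (G : SimpleGraph V) (β : ℝ) (o : V) : V → V → ℝ :=
  fun u _ => β⁻¹ ^ G.dist o u

lemma XX_ww {d : ℕ} (hT : G.IsTree) (hd : 3 ≤ d) (hreg : G.IsRegularOfDegree d) (o : V) (k : ℕ) :
    LE G (XX G k (ww G (√((d : ℝ) - 1)) o)) (fun u v =>
      (((d : ℝ) - 1) ^ k * (1 + k) * (1 + k * ((d : ℝ) - 2))) * ww G (√((d : ℝ) - 1)) o u v) := by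
  classical
  set β := √((d : ℝ) - 1) with hβ
  have hd' : (3 : ℝ) ≤ d := by exact_mod_cast hd
  have hβ0 : 0 < β := Real.sqrt_pos.2 (by linarith)
  have hβ2 : β ^ 2 = (d : ℝ) - 1 := Real.sq_sqrt (by linarith)
  have hc : (1 : ℝ) ≤ 1 + k * ((d : ℝ) - 2) := by
    have : 0 ≤ (k : ℝ) * ((d : ℝ) - 2) := by
      apply mul_nonneg (by positivity); linarith
    linarith
  have hk : (1 : ℝ) ≤ 1 + k := by
    have : 0 ≤ (k : ℝ) := by positivity
    linarith
  have h1 : LE G ((N1 G)^[k] (ww G β o))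
      (fun u v => (β ^ k * (1 + k * ((d : ℝ) - 2))) * ww G β o u v) := by
    have h := iterate_N1_Wu hT hd hreg o k
    have h0 : ww G β o = Wu G β o 1 := by
      funext u v
      simp [ww, Wu]
    rw [h0]
    refine h.trans ?_
    intro u v _
    show β ^ k * Wu G β o (1 + k * ((d : ℝ) - 2)) u v ≤
      (β ^ k * (1 + k * ((d : ℝ) - 2))) * Wu G β o 1 u v
    rw [mul_assoc]
    refine mul_le_mul_of_nonneg_left ?_ (by positivity)
    unfold Wu
    have hp : 0 ≤ β⁻¹ ^ G.dist o u := by positivity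
    split_ifs
    · simp
    · rw [one_mul]
      exact le_mul_of_one_le_left hp hc
  have h2 : LE G ((N1s G)^[k] (ww G β o)) (fun u v => (β ^ k * (1 + k)) * ww G β o u v) := by
    have h := iterate_N1s_Wd hT hd hreg o k
    have h0 : ww G β o = Wd G β o 1 := by
      funext u v
      simp [ww, Wd]
    rw [h0]
    refine h.trans ?_
    intro u v _
    show β ^ k * Wd G β o (1 + k) u v ≤ (β ^ k * (1 + k)) * Wd G β o 1 u v
    rw [mul_assoc]
    refine mul_le_mul_of_nonneg_left ?_ (by positivity)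
    unfold Wd
    have hp : 0 ≤ β⁻¹ ^ G.dist o u := by positivity
    split_ifs
    · rw [one_mul]
      exact le_mul_of_one_le_left hp hk
    · simp
  have h3 := h1.iterate_N1s k
  rw [iterate_N1s_smul] at h3
  refine LE.trans h3 ?_
  intro u v huv
  have h4 := h2 u v huv
  calc β ^ k * (1 + k * ((d : ℝ) - 2)) * (N1s G)^[k] (ww G β o) u v
      ≤ β ^ k * (1 + k * ((d : ℝ) - 2)) * ((β ^ k * (1 + k)) * ww G β o u v) :=
        mul_le_mul_of_nonneg_left h4 (by positivity)
    _ = (((d : ℝ) - 1) ^ k * (1 + k) * (1 + k * ((d : ℝ) - 2))) * ww G β o u v := by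
        rw [← hβ2, ← pow_mul, mul_comm 2 k, pow_mul]
        ring

lemma iterate_XX_ww {d : ℕ} (hT : G.IsTree) (hd : 3 ≤ d) (hreg : G.IsRegularOfDegree d) (o : V)
    (k n : ℕ) :
    LE G ((XX G k)^[n] (ww G (√((d : ℝ) - 1)) o)) (fun u v =>
      (((d : ℝ) - 1) ^ k * (1 + k) * (1 + k * ((d : ℝ) - 2))) ^ n *
        ww G (√((d : ℝ) - 1)) o u v) := by
  induction n with
  | zero =>
    intro u v _
    simp
  | succ n ih =>
    rw [Function.iterate_succ_apply']
    refine (ih.XX k).trans ?_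
    rw [XX_smul]
    intro u v huv
    have h := XX_ww hT hd hreg o k u v huv
    have hd' : (3 : ℝ) ≤ d := by exact_mod_cast hd
    have h0 : 0 ≤ (((d : ℝ) - 1) ^ k * (1 + k) * (1 + k * ((d : ℝ) - 2))) := by
      have h1 : 0 ≤ (d : ℝ) - 1 := by linarith
      have h2 : 0 ≤ (d : ℝ) - 2 := by linarith
      positivity
    calc _ ≤ (((d : ℝ) - 1) ^ k * (1 + k) * (1 + k * ((d : ℝ) - 2))) ^ n *
          ((((d : ℝ) - 1) ^ k * (1 + k) * (1 + k * ((d : ℝ) - 2))) *
            ww G (√((d : ℝ) - 1)) o u v) := mul_le_mul_of_nonneg_left h (by positivity)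
      _ = _ := by ring

end op

/-! ### processes -/

section proc
variable {V : Type*} {G : SimpleGraph V}

instance : IsProbabilityMeasure (labM V) := by unfold labM; infer_instance

/-- equivariant bounded measurable functions of directed pairs. -/
structure Good (G : SimpleGraph V) (Y : V → V → Lab V → ℝ) : Prop where
  eqv : Eqv2 G Y
  meas : ∀ u v, Measurable (Y u v)
  bdd : ∃ C, ∀ u v ω, |Y u v ω| ≤ C

lemma mp_act (g : G ≃g G) : MeasurePreserving (act g : Lab V → Lab V) (labM V) (labM V) := by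
  refine ⟨?_, ?_⟩
  · unfold act
    fun_prop
  · have h := MeasureTheory.Measure.map_infinitePi_infinitePi_of_inj
      (P := fun _ : V × ℕ => (volume : Measure L1)) (f := fun q : V × ℕ => (g q.1, q.2))
      (by
        intro q q' h
        simp only [Prod.mk.injEq, EmbeddingLike.apply_eq_iff_eq] at h
        exact Prod.ext h.1 h.2)
    exact h

lemma integral_act (g : G ≃g G) (F : Lab V → ℝ) (hF : Measurable F) :
    ∫ ω, F (act g ω) ∂(labM V) = ∫ ω, F ω ∂(labM V) := by
  rw [← (mp_act g).map_eq, integral_map (mp_act g).measurable.aemeasurable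
    hF.aestronglyMeasurable, (mp_act g).map_eq]

lemma Good.inv {W Z : V → V → Lab V → ℝ} (hW : Good G W) (hZ : Good G Z) (g : G ≃g G)
    (a b c e : V) :
    ∫ ω, W (g a) (g b) ω * Z (g c) (g e) ω ∂(labM V) = ∫ ω, W a b ω * Z c e ω ∂(labM V) := by
  have h : ∀ ω, W (g a) (g b) ω * Z (g c) (g e) ω = (fun ω => W a b ω * Z c e ω) (act g ω) := by
    intro ω
    rw [hW.eqv g a b ω, hZ.eqv g c e ω]
  simp_rw [h]
  exact integral_act g _ ((hW.meas a b).mul (hZ.meas c e))

lemma Good.integrable_mul {W Z : V → V → Lab V → ℝ} (hW : Good G W) (hZ : Good G Z)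
    (a b c e : V) : Integrable (fun ω => W a b ω * Z c e ω) (labM V) := by
  obtain ⟨C, hC⟩ := hW.bdd
  obtain ⟨C', hC'⟩ := hZ.bdd
  refine Integrable.of_bound ((hW.meas a b).mul (hZ.meas c e)).aestronglyMeasurable (C * C') ?_
  filter_upwards with ω
  rw [norm_mul, Real.norm_eq_abs, Real.norm_eq_abs]
  exact mul_le_mul (hC _ _ _) (hC' _ _ _) (abs_nonneg _) ((abs_nonneg _).trans (hC a b ω))

variable [G.LocallyFinite]

/-- `N1` on processes -/
noncomputable def P1 (G : SimpleGraph V) [G.LocallyFinite] (Y : V → V → Lab V → ℝ) :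
    V → V → Lab V → ℝ := fun u v ω => N1 G (fun a b => Y a b ω) u v

/-- `N1s` on processes -/
noncomputable def P1s (G : SimpleGraph V) [G.LocallyFinite] (Y : V → V → Lab V → ℝ) :
    V → V → Lab V → ℝ := fun u v ω => N1s G (fun a b => Y a b ω) u v

lemma erase_map (g : G ≃g G) (u v : V) :
    haveI := Classical.decEq V
    (G.neighborFinset (g v)).erase (g u) =
      ((G.neighborFinset v).erase u).map g.toEquiv.toEmbedding := by
  classical
  ext w
  simp only [Finset.mem_erase, SimpleGraph.mem_neighborFinset, Finset.mem_map]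
  constructor
  · rintro ⟨h1, h2⟩
    refine ⟨g.symm w, ⟨?_, ?_⟩, ?_⟩
    · rintro rfl
      apply h1
      simp
    · have : G.Adj (g v) (g (g.symm w)) := by simpa using h2
      exact g.map_adj_iff.1 this
    · simp
  · rintro ⟨a, ⟨h1, h2⟩, rfl⟩
    refine ⟨?_, ?_⟩
    · intro h
      apply h1
      exact g.injective h
    · exact g.map_adj_iff.2 h2

lemma Good.P1 {Y : V → V → Lab V → ℝ} (hY : Good G Y) {d : ℕ} (hreg : G.IsRegularOfDegree d) :
    Good G (CovDecay.P1 G Y) := by
  classical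
  refine ⟨?_, ?_, ?_⟩
  · intro g u v ω
    show ∑ w ∈ (G.neighborFinset (g v)).erase (g u), Y (g v) w ω =
      ∑ w ∈ (G.neighborFinset v).erase u, Y v w (act g ω)
    rw [erase_map, Finset.sum_map]
    refine Finset.sum_congr rfl ?_
    intro w _
    exact hY.eqv g v w ω
  · intro u v
    show Measurable (fun ω => ∑ w ∈ (G.neighborFinset v).erase u, Y v w ω)
    exact Finset.measurable_sum _ (fun w _ => hY.meas v w)
  · obtain ⟨C, hC⟩ := hY.bdd
    refine ⟨d * C, ?_⟩
    intro u v ω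
    have hC0 : 0 ≤ C := (abs_nonneg _).trans (hC u v ω)
    show |∑ w ∈ (G.neighborFinset v).erase u, Y v w ω| ≤ d * C
    calc |∑ w ∈ (G.neighborFinset v).erase u, Y v w ω|
        ≤ ∑ w ∈ (G.neighborFinset v).erase u, |Y v w ω| := Finset.abs_sum_le_sum_abs _ _
      _ ≤ ∑ w ∈ (G.neighborFinset v).erase u, C := Finset.sum_le_sum (fun w _ => hC v w ω)
      _ = (((G.neighborFinset v).erase u).card : ℝ) * C := by
          rw [Finset.sum_const, nsmul_eq_mul]
      _ ≤ d * C := by
          refine mul_le_mul_of_nonneg_right ?_ hC0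
          have h1 := Finset.card_erase_le (s := G.neighborFinset v) (a := u)
          rw [SimpleGraph.card_neighborFinset_eq_degree, hreg v] at h1
          exact_mod_cast h1

lemma Good.P1s {Y : V → V → Lab V → ℝ} (hY : Good G Y) {d : ℕ} (hreg : G.IsRegularOfDegree d) :
    Good G (CovDecay.P1s G Y) := by
  classical
  refine ⟨?_, ?_, ?_⟩
  · intro g u v ω
    show ∑ w ∈ (G.neighborFinset (g u)).erase (g v), Y w (g u) ω =
      ∑ w ∈ (G.neighborFinset u).erase v, Y w u (act g ω)
    rw [erase_map, Finset.sum_map]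
    refine Finset.sum_congr rfl ?_
    intro w _
    exact hY.eqv g w u ω
  · intro u v
    show Measurable (fun ω => ∑ w ∈ (G.neighborFinset u).erase v, Y w u ω)
    exact Finset.measurable_sum _ (fun w _ => hY.meas w u)
  · obtain ⟨C, hC⟩ := hY.bdd
    refine ⟨d * C, ?_⟩
    intro u v ω
    have hC0 : 0 ≤ C := (abs_nonneg _).trans (hC u v ω)
    show |∑ w ∈ (G.neighborFinset u).erase v, Y w u ω| ≤ d * C
    calc |∑ w ∈ (G.neighborFinset u).erase v, Y w u ω|
        ≤ ∑ w ∈ (G.neighborFinset u).erase v, |Y w u ω| := Finset.abs_sum_le_sum_abs _ _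
      _ ≤ ∑ w ∈ (G.neighborFinset u).erase v, C := Finset.sum_le_sum (fun w _ => hC w u ω)
      _ = (((G.neighborFinset u).erase v).card : ℝ) * C := by
          rw [Finset.sum_const, nsmul_eq_mul]
      _ ≤ d * C := by
          refine mul_le_mul_of_nonneg_right ?_ hC0
          have h1 := Finset.card_erase_le (s := G.neighborFinset u) (a := v)
          rw [SimpleGraph.card_neighborFinset_eq_degree, hreg u] at h1
          exact_mod_cast h1

lemma Good.iterate_P1 {Y : V → V → Lab V → ℝ} (hY : Good G Y) {d : ℕ}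
    (hreg : G.IsRegularOfDegree d) (k : ℕ) : Good G ((CovDecay.P1 G)^[k] Y) := by
  induction k generalizing Y with
  | zero => exact hY
  | succ k ih => rw [Function.iterate_succ_apply]; exact ih (hY.P1 hreg)

lemma Good.iterate_P1s {Y : V → V → Lab V → ℝ} (hY : Good G Y) {d : ℕ}
    (hreg : G.IsRegularOfDegree d) (k : ℕ) : Good G ((CovDecay.P1s G)^[k] Y) := by
  induction k generalizing Y with
  | zero => exact hY
  | succ k ih => rw [Function.iterate_succ_apply]; exact ih (hY.P1s hreg)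

section adj
variable {d : ℕ} (hT : G.IsTree) (hd : 3 ≤ d) (hreg : G.IsRegularOfDegree d)
include hT hd hreg

/-- correlations along non-backtracking 2-paths are all equal. -/
lemma corr_two {W Y : V → V → Lab V → ℝ} (hW : Good G W) (hY : Good G Y) {x y z x' y' z' : V}
    (h1 : G.Adj x y) (h2 : G.Adj y z) (h3 : x ≠ z) (h1' : G.Adj x' y') (h2' : G.Adj y' z')
    (h3' : x' ≠ z') :
    ∫ ω, W x y ω * Y y z ω ∂(labM V) = ∫ ω, W x' y' ω * Y y' z' ω ∂(labM V) := by
  have hg : IsGeo G 2 (fun i => if i = 0 then x else if i = 1 then y else z) := by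
    refine ⟨?_, ?_⟩
    · intro i hi
      interval_cases i
      · simpa using h1
      · simpa using h2
    · intro i hi
      have : i = 0 := by omega
      subst this
      simpa using h3
  have hg' : IsGeo G 2 (fun i => if i = 0 then x' else if i = 1 then y' else z') := by
    refine ⟨?_, ?_⟩
    · intro i hi
      interval_cases i
      · simpa using h1'
      · simpa using h2'
    · intro i hi
      have : i = 0 := by omega
      subst this
      simpa using h3'
  obtain ⟨g, hg⟩ := exists_aut hT hd hreg hg hg'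
  have e0 : g x = x' := by simpa using hg 0 (by norm_num)
  have e1 : g y = y' := by simpa using hg 1 (by norm_num)
  have e2 : g z = z' := by simpa using hg 2 (by norm_num)
  rw [← e0, ← e1, ← e2]
  exact (hW.inv hY g x y y z).symm

/-- the adjoint of `P1` is `P1s`. -/
lemma adj_one {W Y : V → V → Lab V → ℝ} (hW : Good G W) (hY : Good G Y) {u v : V}
    (huv : G.Adj u v) :
    ∫ ω, W u v ω * P1 G Y u v ω ∂(labM V) = ∫ ω, P1s G W u v ω * Y u v ω ∂(labM V) := by
  classical
  have hL : ∫ ω, W u v ω * P1 G Y u v ω ∂(labM V) =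
      ∑ w ∈ (G.neighborFinset v).erase u, ∫ ω, W u v ω * Y v w ω ∂(labM V) := by
    have : ∀ ω, W u v ω * P1 G Y u v ω =
        ∑ w ∈ (G.neighborFinset v).erase u, W u v ω * Y v w ω := by
      intro ω
      show W u v ω * ∑ w ∈ (G.neighborFinset v).erase u, Y v w ω = _
      rw [Finset.mul_sum]
    simp_rw [this]
    exact integral_finsetSum _ (fun w _ => hW.integrable_mul hY u v v w)
  have hR : ∫ ω, P1s G W u v ω * Y u v ω ∂(labM V) =
      ∑ w ∈ (G.neighborFinset u).erase v, ∫ ω, W w u ω * Y u v ω ∂(labM V) := by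
    have : ∀ ω, P1s G W u v ω * Y u v ω =
        ∑ w ∈ (G.neighborFinset u).erase v, W w u ω * Y u v ω := by
      intro ω
      show (∑ w ∈ (G.neighborFinset u).erase v, W w u ω) * Y u v ω = _
      rw [Finset.sum_mul]
    simp_rw [this]
    exact integral_finsetSum _ (fun w _ => hW.integrable_mul hY w u u v)
  rw [hL, hR]
  have hc1 := card_erase hT hd hreg huv
  have hc2 := card_erase hT hd hreg huv.symm
  -- choose a reference value
  have hne : ((G.neighborFinset v).erase u).Nonempty := by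
    rw [← Finset.card_pos]
    have hd' : (3 : ℝ) ≤ d := by exact_mod_cast hd
    have : (0 : ℝ) < (((G.neighborFinset v).erase u).card : ℝ) := by
      rw [hc1]; linarith
    exact_mod_cast this
  obtain ⟨w0, hw0⟩ := hne
  have hw0' := hw0
  simp only [Finset.mem_erase, SimpleGraph.mem_neighborFinset] at hw0'
  have e1 : ∀ w ∈ (G.neighborFinset v).erase u, ∫ ω, W u v ω * Y v w ω ∂(labM V) =
      ∫ ω, W u v ω * Y v w0 ω ∂(labM V) := by
    intro w hw
    simp only [Finset.mem_erase, SimpleGraph.mem_neighborFinset] at hw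
    exact corr_two hT hd hreg hW hY huv hw.2 hw.1.symm huv hw0'.2 hw0'.1.symm
  have e2 : ∀ w ∈ (G.neighborFinset u).erase v, ∫ ω, W w u ω * Y u v ω ∂(labM V) =
      ∫ ω, W u v ω * Y v w0 ω ∂(labM V) := by
    intro w hw
    simp only [Finset.mem_erase, SimpleGraph.mem_neighborFinset] at hw
    exact corr_two hT hd hreg hW hY hw.2.symm huv hw.1 huv hw0'.2 hw0'.1.symm
  rw [Finset.sum_congr rfl e1, Finset.sum_congr rfl e2, Finset.sum_const, Finset.sum_const,
    nsmul_eq_mul, nsmul_eq_mul, hc1, hc2]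

lemma adj_iter {W Y : V → V → Lab V → ℝ} (hW : Good G W) (hY : Good G Y) {u v : V}
    (huv : G.Adj u v) (k : ℕ) :
    ∫ ω, W u v ω * (P1 G)^[k] Y u v ω ∂(labM V) =
      ∫ ω, (P1s G)^[k] W u v ω * Y u v ω ∂(labM V) := by
  induction k generalizing W with
  | zero => rfl
  | succ k ih =>
    rw [Function.iterate_succ_apply', adj_one hT hd hreg hW (hY.iterate_P1 hreg k) huv,
      ih (hW.P1s hreg), Function.iterate_succ_apply]

/-- `X = N* N` on processes -/
noncomputable def PX (G : SimpleGraph V) [G.LocallyFinite] (k : ℕ) (Y : V → V → Lab V → ℝ) :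
    V → V → Lab V → ℝ := (P1s G)^[k] ((P1 G)^[k] Y)

omit hT hd in
lemma Good.PX {Y : V → V → Lab V → ℝ} (hY : Good G Y) (k : ℕ) : Good G (CovDecay.PX G k Y) :=
  (hY.iterate_P1 hreg k).iterate_P1s hreg k

omit hT hd in
lemma Good.iterate_PX {Y : V → V → Lab V → ℝ} (hY : Good G Y) (k n : ℕ) :
    Good G ((CovDecay.PX G k)^[n] Y) := by
  induction n generalizing Y with
  | zero => exact hY
  | succ n ih => rw [Function.iterate_succ_apply]; exact ih (hY.PX hreg k)

lemma PX_inner {W Y : V → V → Lab V → ℝ} (hW : Good G W) (hY : Good G Y) {u v : V}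
    (huv : G.Adj u v) (k : ℕ) :
    ∫ ω, PX G k Y u v ω * W u v ω ∂(labM V) =
      ∫ ω, (P1 G)^[k] Y u v ω * (P1 G)^[k] W u v ω ∂(labM V) :=
  (adj_iter hT hd hreg (hY.iterate_P1 hreg k) hW huv k).symm

lemma PX_symm {W Y : V → V → Lab V → ℝ} (hW : Good G W) (hY : Good G Y) {u v : V}
    (huv : G.Adj u v) (k : ℕ) :
    ∫ ω, PX G k Y u v ω * W u v ω ∂(labM V) = ∫ ω, Y u v ω * PX G k W u v ω ∂(labM V) := by
  rw [PX_inner hT hd hreg hW hY huv k]
  have h := PX_inner hT hd hreg hY hW huv k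
  have e1 : ∫ ω, Y u v ω * PX G k W u v ω ∂(labM V) = ∫ ω, PX G k W u v ω * Y u v ω ∂(labM V) := by
    congr 1; funext ω; ring
  rw [e1, h]
  congr 1; funext ω; ring

lemma PX_iter_symm {W Y : V → V → Lab V → ℝ} (hW : Good G W) (hY : Good G Y) {u v : V}
    (huv : G.Adj u v) (k n : ℕ) :
    ∫ ω, (PX G k)^[n] Y u v ω * W u v ω ∂(labM V) =
      ∫ ω, Y u v ω * (PX G k)^[n] W u v ω ∂(labM V) := by
  induction n generalizing W with
  | zero => rfl
  | succ n ih =>
    rw [Function.iterate_succ_apply', PX_symm hT hd hreg hW (hY.iterate_PX hreg k n) huv,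
      ih (hW.PX hreg k), Function.iterate_succ_apply]

/-- Cauchy-Schwarz for bounded functions. -/
lemma cs_bdd {f g : Lab V → ℝ} (hf : Integrable (fun ω => f ω * f ω) (labM V))
    (hg : Integrable (fun ω => g ω * g ω) (labM V))
    (hfg : Integrable (fun ω => f ω * g ω) (labM V)) :
    (∫ ω, f ω * g ω ∂(labM V)) ^ 2 ≤ (∫ ω, f ω * f ω ∂(labM V)) * ∫ ω, g ω * g ω ∂(labM V) := by
  set A := ∫ ω, f ω * f ω ∂(labM V)
  set B := ∫ ω, f ω * g ω ∂(labM V)
  set C := ∫ ω, g ω * g ω ∂(labM V)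
  have key : ∀ t : ℝ, 0 ≤ A * (t * t) + (2 * B) * t + C := by
    intro t
    have h1 : A * (t * t) + (2 * B) * t + C = ∫ ω, (t * f ω + g ω) ^ 2 ∂(labM V) := by
      have : ∀ ω, (t * f ω + g ω) ^ 2 = (t * t) * (f ω * f ω) + (2 * t) * (f ω * g ω) +
          g ω * g ω := by intro ω; ring
      simp_rw [this]
      rw [integral_add (f := fun ω => (t * t) * (f ω * f ω) + (2 * t) * (f ω * g ω))
        ((hf.const_mul _).add (hfg.const_mul _)) hg,
        integral_add (hf.const_mul _) (hfg.const_mul _), integral_const_mul, integral_const_mul]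
      ring
    rw [h1]
    exact integral_nonneg (fun ω => sq_nonneg _)
  have := discrim_le_zero key
  unfold discrim at this
  nlinarith

end adj

/-! ### independence of far away labels -/

/-- `f` depends only on the labels in `B`. -/
def DepOn (f : Lab V → ℝ) (B : Finset (V × ℕ)) : Prop :=
  ∀ ω ω' : Lab V, (∀ q ∈ B, ω q = ω' q) → f ω = f ω'

omit [G.LocallyFinite] in
lemma factor_DepOn {f : Lab V → ℝ} {B : Finset (V × ℕ)} (hf : Measurable f) (h : DepOn f B) :
    ∃ f' : ((i : B) → L1) → ℝ, Measurable f' ∧ ∀ ω, f ω = f' (fun i : B => ω i) := by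
  classical
  refine ⟨fun η => f (fun q => if hq : q ∈ B then η ⟨q, hq⟩ else (0, 0)), ?_, ?_⟩
  · refine hf.comp ?_
    refine measurable_pi_lambda _ (fun q => ?_)
    by_cases hq : q ∈ B
    · simp only [hq, ↓reduceDIte]
      exact measurable_pi_apply _
    · simp only [hq, ↓reduceDIte]
      exact measurable_const
  · intro ω
    apply h
    intro q hq
    simp [hq]

omit [G.LocallyFinite] in
lemma integral_mul_of_disjoint {f g : Lab V → ℝ} {B B' : Finset (V × ℕ)} (hf : Measurable f)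
    (hg : Measurable g) (hB : DepOn f B) (hB' : DepOn g B') (hd : Disjoint B B') :
    ∫ ω, f ω * g ω ∂(labM V) = (∫ ω, f ω ∂(labM V)) * ∫ ω, g ω ∂(labM V) := by
  obtain ⟨f', hf', hff⟩ := factor_DepOn hf hB
  obtain ⟨g', hg', hgg⟩ := factor_DepOn hg hB'
  have hind : iIndepFun (fun (i : V × ℕ) (ω : Lab V) => ω i) (labM V) := by
    unfold labM
    exact iIndepFun_infinitePi (X := fun _ x => x) (fun _ => measurable_id)
  have h1 := hind.indepFun_finset B B' hd (fun i => measurable_pi_apply i)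
  have h2 := h1.comp hf' hg'
  have h3 := h2.integral_mul_eq_mul_integral
    (hf'.comp (measurable_pi_lambda _ (fun i => measurable_pi_apply _))).aestronglyMeasurable
    (hg'.comp (measurable_pi_lambda _ (fun i => measurable_pi_apply _))).aestronglyMeasurable
  have e1 : f = f' ∘ (fun (a : Lab V) (i : B) => a i) := by funext ω; exact hff ω
  have e2 : g = g' ∘ (fun (a : Lab V) (i : B') => a i) := by funext ω; exact hgg ω
  rw [e1, e2]
  exact h3

/-! ### integrals against a fixed function -/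

lemma int_P1 {Z : Lab V → ℝ} {Y : V → V → Lab V → ℝ}
    (hint : ∀ a b, Integrable (fun ω => Z ω * Y a b ω) (labM V)) :
    ((fun a b => ∫ ω, Z ω * P1 G Y a b ω ∂(labM V)) =
      N1 G (fun a b => ∫ ω, Z ω * Y a b ω ∂(labM V))) ∧
    ∀ a b, Integrable (fun ω => Z ω * P1 G Y a b ω) (labM V) := by
  classical
  have h : ∀ a b ω, Z ω * P1 G Y a b ω = ∑ w ∈ (G.neighborFinset b).erase a, Z ω * Y b w ω := by
    intro a b ω
    show Z ω * ∑ w ∈ (G.neighborFinset b).erase a, Y b w ω = _
    rw [Finset.mul_sum]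
  constructor
  · funext a b
    simp_rw [h]
    rw [integral_finsetSum _ (fun w _ => hint b w)]
    rfl
  · intro a b
    simp_rw [h]
    exact integrable_finsetSum _ (fun w _ => hint b w)

lemma int_P1s {Z : Lab V → ℝ} {Y : V → V → Lab V → ℝ}
    (hint : ∀ a b, Integrable (fun ω => Z ω * Y a b ω) (labM V)) :
    ((fun a b => ∫ ω, Z ω * P1s G Y a b ω ∂(labM V)) =
      N1s G (fun a b => ∫ ω, Z ω * Y a b ω ∂(labM V))) ∧
    ∀ a b, Integrable (fun ω => Z ω * P1s G Y a b ω) (labM V) := by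
  classical
  have h : ∀ a b ω, Z ω * P1s G Y a b ω = ∑ w ∈ (G.neighborFinset a).erase b, Z ω * Y w a ω := by
    intro a b ω
    show Z ω * ∑ w ∈ (G.neighborFinset a).erase b, Y w a ω = _
    rw [Finset.mul_sum]
  constructor
  · funext a b
    simp_rw [h]
    rw [integral_finsetSum _ (fun w _ => hint w a)]
    rfl
  · intro a b
    simp_rw [h]
    exact integrable_finsetSum _ (fun w _ => hint w a)

lemma int_iter_P1 (k : ℕ) : ∀ {Z : Lab V → ℝ} {Y : V → V → Lab V → ℝ}
    (_ : ∀ a b, Integrable (fun ω => Z ω * Y a b ω) (labM V)),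
    ((fun a b => ∫ ω, Z ω * (P1 G)^[k] Y a b ω ∂(labM V)) =
      (N1 G)^[k] (fun a b => ∫ ω, Z ω * Y a b ω ∂(labM V))) ∧
    ∀ a b, Integrable (fun ω => Z ω * (P1 G)^[k] Y a b ω) (labM V) := by
  induction k with
  | zero => intro Z Y h; exact ⟨rfl, h⟩
  | succ k ih =>
    intro Z Y h
    rw [Function.iterate_succ_apply, Function.iterate_succ_apply]
    obtain ⟨h1, h2⟩ := int_P1 (G := G) h
    obtain ⟨h3, h4⟩ := ih h2
    rw [h3, h1]
    exact ⟨rfl, h4⟩

lemma int_iter_P1s (k : ℕ) : ∀ {Z : Lab V → ℝ} {Y : V → V → Lab V → ℝ}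
    (_ : ∀ a b, Integrable (fun ω => Z ω * Y a b ω) (labM V)),
    ((fun a b => ∫ ω, Z ω * (P1s G)^[k] Y a b ω ∂(labM V)) =
      (N1s G)^[k] (fun a b => ∫ ω, Z ω * Y a b ω ∂(labM V))) ∧
    ∀ a b, Integrable (fun ω => Z ω * (P1s G)^[k] Y a b ω) (labM V) := by
  induction k with
  | zero => intro Z Y h; exact ⟨rfl, h⟩
  | succ k ih =>
    intro Z Y h
    rw [Function.iterate_succ_apply, Function.iterate_succ_apply]
    obtain ⟨h1, h2⟩ := int_P1s (G := G) h
    obtain ⟨h3, h4⟩ := ih h2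
    rw [h3, h1]
    exact ⟨rfl, h4⟩

lemma int_PX (k : ℕ) {Z : Lab V → ℝ} {Y : V → V → Lab V → ℝ}
    (h : ∀ a b, Integrable (fun ω => Z ω * Y a b ω) (labM V)) :
    ((fun a b => ∫ ω, Z ω * PX G k Y a b ω ∂(labM V)) =
      XX G k (fun a b => ∫ ω, Z ω * Y a b ω ∂(labM V))) ∧
    ∀ a b, Integrable (fun ω => Z ω * PX G k Y a b ω) (labM V) := by
  obtain ⟨h1, h2⟩ := int_iter_P1 (G := G) k h
  obtain ⟨h3, h4⟩ := int_iter_P1s (G := G) k h2
  unfold PX XX
  rw [h3, h1]
  exact ⟨rfl, h4⟩

lemma int_iter_PX (k n : ℕ) : ∀ {Z : Lab V → ℝ} {Y : V → V → Lab V → ℝ}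
    (_ : ∀ a b, Integrable (fun ω => Z ω * Y a b ω) (labM V)),
    ((fun a b => ∫ ω, Z ω * (PX G k)^[n] Y a b ω ∂(labM V)) =
      (XX G k)^[n] (fun a b => ∫ ω, Z ω * Y a b ω ∂(labM V))) := by
  induction n with
  | zero => intro Z Y h; rfl
  | succ n ih =>
    intro Z Y h
    rw [Function.iterate_succ_apply, Function.iterate_succ_apply]
    obtain ⟨h1, h2⟩ := int_PX (G := G) k h
    rw [ih h2, h1]

section main
variable {d : ℕ} (hT : G.IsTree) (hd : 3 ≤ d) (hreg : G.IsRegularOfDegree d)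
include hT hd hreg

lemma exists_aut_edge {u v u' v' : V} (h : G.Adj u v) (h' : G.Adj u' v') :
    ∃ g : G ≃g G, g u = u' ∧ g v = v' := by
  have hg : IsGeo G 1 (fun i => if i = 0 then u else v) := by
    refine ⟨?_, ?_⟩
    · intro i hi
      interval_cases i
      simpa using h
    · intro i hi
      omega
  have hg' : IsGeo G 1 (fun i => if i = 0 then u' else v') := by
    refine ⟨?_, ?_⟩
    · intro i hi
      interval_cases i
      simpa using h'
    · intro i hi
      omega
  obtain ⟨g, hg⟩ := exists_aut hT hd hreg hg hg'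
  exact ⟨g, by simpa using hg 0 (by norm_num), by simpa using hg 1 (by norm_num)⟩

lemma mean_eq {Y : V → V → Lab V → ℝ} (hY : Good G Y) {u v u' v' : V} (h : G.Adj u v)
    (h' : G.Adj u' v') : ∫ ω, Y u v ω ∂(labM V) = ∫ ω, Y u' v' ω ∂(labM V) := by
  obtain ⟨g, hu, hv⟩ := exists_aut_edge hT hd hreg h h'
  rw [← hu, ← hv]
  simp_rw [hY.eqv g u v]
  exact (integral_act g _ (hY.meas u v)).symm

/-- the `b^k` factor. -/
lemma path_sum {W : V → V → Lab V → ℝ} (hW : Good G W) (k : ℕ) :
    ∀ {Y : V → V → Lab V → ℝ} (_ : Good G Y) (j : ℕ) {p : ℕ → V}, IsGeo G (j + k + 1) p →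
    ∫ ω, W (p 0) (p 1) ω * (P1 G)^[k] Y (p j) (p (j + 1)) ω ∂(labM V) =
      ((d : ℝ) - 1) ^ k * ∫ ω, W (p 0) (p 1) ω * Y (p (j + k)) (p (j + k + 1)) ω ∂(labM V) := by
  classical
  induction k with
  | zero =>
    intro Y hY j p hp
    simp
  | succ k ih =>
    intro Y hY j p hp
    have hZ := hY.iterate_P1 hreg k
    rw [Function.iterate_succ_apply']
    have hL : ∫ ω, W (p 0) (p 1) ω * P1 G ((P1 G)^[k] Y) (p j) (p (j + 1)) ω ∂(labM V) =
        ∑ w ∈ (G.neighborFinset (p (j + 1))).erase (p j),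
          ∫ ω, W (p 0) (p 1) ω * (P1 G)^[k] Y (p (j + 1)) w ω ∂(labM V) := by
      have : ∀ ω, W (p 0) (p 1) ω * P1 G ((P1 G)^[k] Y) (p j) (p (j + 1)) ω =
          ∑ w ∈ (G.neighborFinset (p (j + 1))).erase (p j),
            W (p 0) (p 1) ω * (P1 G)^[k] Y (p (j + 1)) w ω := by
        intro ω
        show W (p 0) (p 1) ω * ∑ w ∈ (G.neighborFinset (p (j + 1))).erase (p j),
          (P1 G)^[k] Y (p (j + 1)) w ω = _
        rw [Finset.mul_sum]
      simp_rw [this]
      exact integral_finsetSum _ (fun w _ => hW.integrable_mul hZ _ _ _ w)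
    have heq : ∀ w ∈ (G.neighborFinset (p (j + 1))).erase (p j),
        ∫ ω, W (p 0) (p 1) ω * (P1 G)^[k] Y (p (j + 1)) w ω ∂(labM V) =
        ∫ ω, W (p 0) (p 1) ω * (P1 G)^[k] Y (p (j + 1)) (p (j + 1 + 1)) ω ∂(labM V) := by
      intro w hw
      simp only [Finset.mem_erase, SimpleGraph.mem_neighborFinset] at hw
      have hp1 : IsGeo G (j + 2) p :=
        ⟨fun i hi => hp.1 i (by omega), fun i hi => hp.2 i (by omega)⟩
      have hp2 : IsGeo G (j + 2) (fun i => if i ≤ j + 1 then p i else w) := by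
        refine ⟨?_, ?_⟩
        · intro i hi
          by_cases h : i + 1 ≤ j + 1
          · have h' : i ≤ j + 1 := by omega
            simp only [h, h', ↓reduceIte]
            exact hp.1 i (by omega)
          · have h' : i = j + 1 := by omega
            subst h'
            simp only [le_refl, ↓reduceIte, h]
            exact hw.2
        · intro i hi
          by_cases h : i + 2 ≤ j + 1
          · have h' : i ≤ j + 1 := by omega
            simp only [h, h', ↓reduceIte]
            exact hp.2 i (by omega)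
          · have h' : i = j := by omega
            subst h'
            have h'' : i ≤ i + 1 := by omega
            simp only [h'', ↓reduceIte, h]
            exact fun h => hw.1 h.symm
      obtain ⟨g, hg⟩ := exists_aut hT hd hreg hp1 hp2
      have g0 : g (p 0) = p 0 := by simpa using hg 0 (by omega)
      have g1 : g (p 1) = p 1 := by simpa using hg 1 (by omega)
      have gj : g (p (j + 1)) = p (j + 1) := by simpa using hg (j + 1) (by omega)
      have gw : g (p (j + 1 + 1)) = w := by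
        have := hg (j + 2) le_rfl
        simpa using this
      have := hW.inv hZ g (p 0) (p 1) (p (j + 1)) (p (j + 1 + 1))
      rw [g0, g1, gj, gw] at this
      exact this
    rw [hL, Finset.sum_congr rfl heq, Finset.sum_const, nsmul_eq_mul,
      card_erase hT hd hreg (hp.1 j (by omega)),
      ih hY (j + 1) (p := p) ⟨fun i hi => hp.1 i (by omega), fun i hi => hp.2 i (by omega)⟩]
    rw [show j + 1 + k = j + (k + 1) by omega]
    ring

/-- a centred block factor has only finitely correlated edges: kernel bound. -/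
lemma kernel_bound {Y : V → V → Lab V → ℝ} (hY : Good G Y) (hfin : ∀ u v, FinDep (Y u v))
    (hmean : ∀ u v, G.Adj u v → ∫ ω, Y u v ω ∂(labM V) = 0) {u v : V} (huv : G.Adj u v) :
    ∃ K : ℝ, 0 ≤ K ∧ LE G (fun a b => ∫ ω, Y u v ω * Y a b ω ∂(labM V))
      (fun a b => K * ww G (√((d : ℝ) - 1)) u a b) := by
  classical
  obtain ⟨B, hB⟩ := hfin u v
  obtain ⟨C, hC⟩ := hY.bdd
  have hd' : (3 : ℝ) ≤ d := by exact_mod_cast hd
  set β := √((d : ℝ) - 1) with hβ
  have hβ0 : 0 < β := Real.sqrt_pos.2 (by linarith)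
  have hβ1 : 1 ≤ β := by
    rw [hβ, Real.one_le_sqrt]
    linarith
  set R := B.sup (fun q => G.dist u q.1) with hR
  refine ⟨C * C * β ^ (2 * R), by have := mul_self_nonneg C; positivity, ?_⟩
  intro a b hab
  show ∫ ω, Y u v ω * Y a b ω ∂(labM V) ≤ C * C * β ^ (2 * R) * β⁻¹ ^ G.dist u a
  by_cases hfar : 2 * R < G.dist u a
  · obtain ⟨g, hgu, hgv⟩ := exists_aut_edge hT hd hreg huv hab
    have hdep : DepOn (Y a b) (B.image (fun q => (g q.1, q.2))) := by
      intro ω ω' h
      rw [← hgu, ← hgv, hY.eqv g u v ω, hY.eqv g u v ω']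
      apply hB
      intro q hq
      exact h (g q.1, q.2) (Finset.mem_image_of_mem _ hq)
    have hdisj : Disjoint B (B.image (fun q => (g q.1, q.2))) := by
      rw [Finset.disjoint_left]
      intro q hq hq'
      rw [Finset.mem_image] at hq'
      obtain ⟨q', hq'B, hq'q⟩ := hq'
      have h1 : G.dist u q.1 ≤ R := Finset.le_sup (f := fun q => G.dist u q.1) hq
      have h2 : G.dist u q'.1 ≤ R := Finset.le_sup (f := fun q => G.dist u q.1) hq'B
      have h3 : G.dist a q.1 = G.dist u q'.1 := by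
        rw [← hq'q, ← hgu]
        exact iso_dist hT.connected g u q'.1
      have h4 := hT.connected.dist_triangle (u := u) (v := q.1) (w := a)
      rw [SimpleGraph.dist_comm (u := q.1) (v := a)] at h4
      omega
    rw [integral_mul_of_disjoint (hY.meas u v) (hY.meas a b) hB hdep hdisj, hmean u v huv,
      zero_mul]
    have := mul_self_nonneg C
    positivity
  · rw [not_lt] at hfar
    have h1 : ∫ ω, Y u v ω * Y a b ω ∂(labM V) ≤ C * C := by
      have h2 : ∀ ω, Y u v ω * Y a b ω ≤ C * C := by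
        intro ω
        have hC0 : 0 ≤ C := (abs_nonneg _).trans (hC u v ω)
        calc Y u v ω * Y a b ω ≤ |Y u v ω * Y a b ω| := le_abs_self _
          _ = |Y u v ω| * |Y a b ω| := abs_mul _ _
          _ ≤ C * C := mul_le_mul (hC _ _ _) (hC _ _ _) (abs_nonneg _) hC0
      calc ∫ ω, Y u v ω * Y a b ω ∂(labM V) ≤ ∫ _ω : Lab V, C * C ∂(labM V) :=
            integral_mono (hY.integrable_mul hY u v a b) (integrable_const _) h2
        _ = C * C := by simp
    have h3 : 1 ≤ β ^ (2 * R) * β⁻¹ ^ G.dist u a := by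
      rw [inv_pow, ← div_eq_mul_inv, one_le_div (by positivity)]
      exact pow_le_pow_right₀ hβ1 hfar
    calc ∫ ω, Y u v ω * Y a b ω ∂(labM V) ≤ C * C * 1 := by rw [mul_one]; exact h1
      _ ≤ C * C * (β ^ (2 * R) * β⁻¹ ^ G.dist u a) :=
          mul_le_mul_of_nonneg_left h3 (mul_self_nonneg C)
      _ = C * C * β ^ (2 * R) * β⁻¹ ^ G.dist u a := by ring

/-- decay for centred block factors. -/
lemma decay_block {Y : V → V → Lab V → ℝ} (hY : Good G Y) (hfin : ∀ u v, FinDep (Y u v))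
    (hmean : ∀ u v, G.Adj u v → ∫ ω, Y u v ω ∂(labM V) = 0) {k : ℕ} {p : ℕ → V}
    (hp : IsGeo G (k + 1) p) :
    |∫ ω, Y (p 0) (p 1) ω * Y (p k) (p (k + 1)) ω ∂(labM V)| ≤
      √((d : ℝ) - 1) * (k + 1) * (√((d : ℝ) - 1))⁻¹ ^ k *
        ∫ ω, Y (p 0) (p 1) ω ^ 2 ∂(labM V) := by
  classical
  have hd' : (3 : ℝ) ≤ d := by exact_mod_cast hd
  set β := √((d : ℝ) - 1) with hβ
  have hβ0 : 0 < β := Real.sqrt_pos.2 (by linarith)
  have hβ2 : β ^ 2 = (d : ℝ) - 1 := Real.sq_sqrt (by linarith)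
  have huv : G.Adj (p 0) (p 1) := hp.1 0 (by omega)
  set u := p 0 with hu
  set v := p 1 with hv
  set Λ := (((d : ℝ) - 1) ^ k * (1 + k) * (1 + k * ((d : ℝ) - 2))) with hΛ
  have hΛ0 : 0 < Λ := by
    have h1 : 0 < (d : ℝ) - 1 := by linarith
    have h2 : 0 < (d : ℝ) - 2 := by linarith
    positivity
  set s : ℕ → ℝ := fun n => ∫ ω, Y u v ω * (PX G k)^[n] Y u v ω ∂(labM V) with hs
  obtain ⟨K, hK0, hK⟩ := kernel_bound hT hd hreg hY hfin hmean huv
  have hsK : ∀ n, s n ≤ (K * ww G β u u v) * Λ ^ n := by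
    intro n
    have h1 := int_iter_PX (G := G) k n (Z := Y u v) (Y := Y)
      (fun a b => hY.integrable_mul hY u v a b)
    have h2 : s n = (XX G k)^[n] (fun a b => ∫ ω, Y u v ω * Y a b ω ∂(labM V)) u v :=
      congrFun (congrFun h1 u) v
    have h3 := hK.iterate_XX k n u v huv
    have h4 : (XX G k)^[n] (fun a b => K * ww G β u a b) =
        fun a b => K * (XX G k)^[n] (ww G β u) a b := by
      have : ∀ n : ℕ, (XX G k)^[n] (fun a b => K * ww G β u a b) =
        fun a b => K * (XX G k)^[n] (ww G β u) a b := by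
        intro n
        induction n with
        | zero => rfl
        | succ n ih => rw [Function.iterate_succ_apply', ih, XX_smul,
            ← Function.iterate_succ_apply' (XX G k)]
      exact this n
    rw [h4] at h3
    have h5 := iterate_XX_ww hT hd hreg u k n u v huv
    rw [h2]
    calc _ ≤ K * (XX G k)^[n] (ww G β u) u v := h3
      _ ≤ K * (Λ ^ n * ww G β u u v) := mul_le_mul_of_nonneg_left h5 hK0
      _ = (K * ww G β u u v) * Λ ^ n := by ring
  have hself : ∀ n, s (2 * n) = ∫ ω, (PX G k)^[n] Y u v ω * (PX G k)^[n] Y u v ω ∂(labM V) := by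
    intro n
    have h1 := PX_iter_symm hT hd hreg (hY.iterate_PX hreg k n) hY huv k n
    rw [h1]
    show ∫ ω, Y u v ω * (PX G k)^[2 * n] Y u v ω ∂(labM V) = _
    rw [two_mul, Function.iterate_add_apply]
  have h0 : ∀ n, 0 ≤ s (2 * n) := by
    intro n
    rw [hself n]
    exact integral_nonneg (fun ω => mul_self_nonneg _)
  have hcs : ∀ n, s n ^ 2 ≤ s 0 * s (2 * n) := by
    intro n
    rw [hself n]
    exact cs_bdd hT hd hreg (hY.integrable_mul hY u v u v)
      ((hY.iterate_PX hreg k n).integrable_mul (hY.iterate_PX hreg k n) u v u v)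
      (hY.integrable_mul (hY.iterate_PX hreg k n) u v u v)
  have h1 := logconvex_bound hΛ0 h0 hcs hsK
  have hs0 : s 0 = ∫ ω, Y u v ω ^ 2 ∂(labM V) := by
    show ∫ ω, Y u v ω * (PX G k)^[0] Y u v ω ∂(labM V) = _
    congr 1; funext ω; simp [sq]
  have hs0' : 0 ≤ s 0 := by simpa using h0 0
  -- the norm of `N^k Y`
  have h2 : ∫ ω, (P1 G)^[k] Y u v ω * (P1 G)^[k] Y u v ω ∂(labM V) = s 1 := by
    rw [← PX_inner hT hd hreg hY hY huv k]
    show _ = ∫ ω, Y u v ω * (PX G k)^[1] Y u v ω ∂(labM V)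
    congr 1; funext ω
    simp [mul_comm]
  have h3 := cs_bdd hT hd hreg (hY.integrable_mul hY u v u v)
      ((hY.iterate_P1 hreg k).integrable_mul (hY.iterate_P1 hreg k) u v u v)
      (hY.integrable_mul (hY.iterate_P1 hreg k) u v u v)
  rw [h2] at h3
  have h4 := path_sum hT hd hreg hY k hY 0 (p := p) (by simpa using hp)
  simp only [zero_add] at h4
  rw [← hu, ← hv] at h4
  rw [h4] at h3
  have h5 : ∫ ω, Y u v ω * Y u v ω ∂(labM V) = s 0 := by
    rw [hs0]; congr 1; funext ω; ring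
  rw [h5] at h3
  set c := ∫ ω, Y u v ω * Y (p k) (p (k + 1)) ω ∂(labM V) with hc
  have h6 : (((d : ℝ) - 1) ^ k * c) ^ 2 ≤ Λ * s 0 ^ 2 := by
    calc (((d : ℝ) - 1) ^ k * c) ^ 2 ≤ s 0 * s 1 := h3
      _ ≤ s 0 * (Λ * s 0) := mul_le_mul_of_nonneg_left ((le_abs_self _).trans h1) hs0'
      _ = Λ * s 0 ^ 2 := by ring
  have h7 : Λ ≤ (β ^ k * (β * (k + 1))) ^ 2 := by
    rw [hΛ, mul_pow, mul_pow, ← pow_mul, mul_comm k 2, pow_mul, hβ2]
    rw [mul_assoc]
    have hb : 0 ≤ ((d : ℝ) - 1) ^ k := by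
      have : 0 ≤ (d : ℝ) - 1 := by linarith
      positivity
    refine mul_le_mul_of_nonneg_left ?_ hb
    have hk : (0 : ℝ) ≤ k := by positivity
    nlinarith
  have h8 : (β ^ k * (β ^ k * c)) ^ 2 ≤ (β ^ k * (β * (k + 1)) * s 0) ^ 2 := by
    have e : ((d : ℝ) - 1) ^ k * c = β ^ k * (β ^ k * c) := by
      rw [← hβ2, ← pow_mul, two_mul, pow_add]
      ring
    rw [← e, mul_pow _ (s 0)]
    exact h6.trans (mul_le_mul_of_nonneg_right h7 (sq_nonneg _))
  have h9 : |β ^ k * (β ^ k * c)| ≤ β ^ k * (β * (k + 1)) * s 0 :=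
    abs_le_of_sq_le_sq h8 (by positivity)
  rw [abs_mul, abs_mul, abs_of_pos (by positivity : 0 < β ^ k), mul_assoc] at h9
  have h10 := le_of_mul_le_mul_left h9 (by positivity : 0 < β ^ k)
  rw [← hs0, inv_pow]
  rw [← div_eq_mul_inv, div_mul_eq_mul_div, le_div_iff₀ (by positivity)]
  linarith

end main

/-! ### passage to the limit -/

omit [G.LocallyFinite] in
lemma approx_mul {a b a' b' : Lab V → ℝ} (ha : Measurable a) (hb : Measurable b)
    (ha' : Measurable a') (hb' : Measurable b') {C C' : ℝ} (hC : ∀ ω, |a ω| ≤ C)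
    (hCb : ∀ ω, |b ω| ≤ C) (hCa' : ∀ ω, |a' ω| ≤ C') (hCb' : ∀ ω, |b' ω| ≤ C') {δ : ℝ}
    (hδ : 0 < δ) (h1 : ∫ ω, (a ω - a' ω) ^ 2 ∂(labM V) ≤ δ ^ 2)
    (h2 : ∫ ω, (b ω - b' ω) ^ 2 ∂(labM V) ≤ δ ^ 2) :
    |∫ ω, a ω * b ω ∂(labM V) - ∫ ω, a' ω * b' ω ∂(labM V)| ≤ δ * (1 + C ^ 2) + δ ^ 2 := by
  have hint : ∀ {f : Lab V → ℝ} (_ : Measurable f) (_ : ∃ D, ∀ ω, |f ω| ≤ D),
      Integrable f (labM V) := by
    intro f hf hD
    obtain ⟨D, hD⟩ := hD
    exact Integrable.of_bound hf.aestronglyMeasurable D (by filter_upwards with ω; exact hD ω)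
  have hbd : ∀ {f g : Lab V → ℝ} {D D' : ℝ} (_ : ∀ ω, |f ω| ≤ D) (_ : ∀ ω, |g ω| ≤ D'),
      ∀ ω, |f ω * g ω| ≤ D * D' := by
    intro f g D D' hf hg ω
    rw [abs_mul]
    exact mul_le_mul (hf ω) (hg ω) (abs_nonneg _) ((abs_nonneg _).trans (hf ω))
  have hbs : ∀ {f g : Lab V → ℝ} {D D' : ℝ} (_ : ∀ ω, |f ω| ≤ D) (_ : ∀ ω, |g ω| ≤ D'),
      ∀ ω, |f ω - g ω| ≤ D + D' := by
    intro f g D D' hf hg ω
    exact (abs_sub _ _).trans (add_le_add (hf ω) (hg ω))
  have iab : Integrable (fun ω => a ω * b ω) (labM V) := hint (ha.mul hb) ⟨_, hbd hC hCb⟩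
  have iab' : Integrable (fun ω => a' ω * b' ω) (labM V) := hint (ha'.mul hb') ⟨_, hbd hCa' hCb'⟩
  have ida : Integrable (fun ω => (a ω - a' ω) ^ 2) (labM V) := by
    refine hint ((ha.sub ha').pow_const 2) ⟨(C + C') ^ 2, fun ω => ?_⟩
    rw [abs_pow]
    exact pow_le_pow_left₀ (abs_nonneg _) (hbs hC hCa' ω) 2
  have idb : Integrable (fun ω => (b ω - b' ω) ^ 2) (labM V) := by
    refine hint ((hb.sub hb').pow_const 2) ⟨(C + C') ^ 2, fun ω => ?_⟩
    rw [abs_pow]
    exact pow_le_pow_left₀ (abs_nonneg _) (hbs hCb hCb' ω) 2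
  rw [← integral_sub iab iab']
  -- pointwise bound
  have hpt : ∀ ω, |a ω * b ω - a' ω * b' ω| ≤
      (1 / (2 * δ) + 1 / 2) * (a ω - a' ω) ^ 2 + (1 / (2 * δ) + 1 / 2) * (b ω - b' ω) ^ 2 +
        δ * C ^ 2 := by
    intro ω
    set x := a ω - a' ω
    set y := b ω - b' ω
    have e : a ω * b ω - a' ω * b' ω = x * b ω + a ω * y - x * y := by
      simp only [x, y]; ring
    rw [e]
    have hb2 : b ω ^ 2 ≤ C ^ 2 := by
      rw [← sq_abs]; exact pow_le_pow_left₀ (abs_nonneg _) (hCb ω) 2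
    have ha2 : a ω ^ 2 ≤ C ^ 2 := by
      rw [← sq_abs]; exact pow_le_pow_left₀ (abs_nonneg _) (hC ω) 2
    have k1 : |x * b ω| ≤ 1 / (2 * δ) * x ^ 2 + δ / 2 * C ^ 2 := by
      have h0 : |x * b ω| ≤ 1 / (2 * δ) * x ^ 2 + δ / 2 * b ω ^ 2 := by
        rw [abs_le]
        have e1 : 1 / (2 * δ) * x ^ 2 + δ / 2 * b ω ^ 2 - x * b ω =
          1 / (2 * δ) * (x - δ * b ω) ^ 2 := by field_simp; ring
        have e2 : 1 / (2 * δ) * x ^ 2 + δ / 2 * b ω ^ 2 + x * b ω =
          1 / (2 * δ) * (x + δ * b ω) ^ 2 := by field_simp; ring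
        have p1 : 0 ≤ 1 / (2 * δ) * (x - δ * b ω) ^ 2 := by positivity
        have p2 : 0 ≤ 1 / (2 * δ) * (x + δ * b ω) ^ 2 := by positivity
        constructor <;> linarith
      have : δ / 2 * b ω ^ 2 ≤ δ / 2 * C ^ 2 := mul_le_mul_of_nonneg_left hb2 (by positivity)
      linarith
    have k2 : |a ω * y| ≤ 1 / (2 * δ) * y ^ 2 + δ / 2 * C ^ 2 := by
      have h0 : |a ω * y| ≤ 1 / (2 * δ) * y ^ 2 + δ / 2 * a ω ^ 2 := by
        rw [abs_le]
        have e1 : 1 / (2 * δ) * y ^ 2 + δ / 2 * a ω ^ 2 - a ω * y =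
          1 / (2 * δ) * (y - δ * a ω) ^ 2 := by field_simp; ring
        have e2 : 1 / (2 * δ) * y ^ 2 + δ / 2 * a ω ^ 2 + a ω * y =
          1 / (2 * δ) * (y + δ * a ω) ^ 2 := by field_simp; ring
        have p1 : 0 ≤ 1 / (2 * δ) * (y - δ * a ω) ^ 2 := by positivity
        have p2 : 0 ≤ 1 / (2 * δ) * (y + δ * a ω) ^ 2 := by positivity
        constructor <;> linarith
      have : δ / 2 * a ω ^ 2 ≤ δ / 2 * C ^ 2 := mul_le_mul_of_nonneg_left ha2 (by positivity)
      linarith
    have k3 : |x * y| ≤ 1 / 2 * x ^ 2 + 1 / 2 * y ^ 2 := by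
      rw [abs_le]
      constructor <;> nlinarith [sq_nonneg (x - y), sq_nonneg (x + y)]
    calc |x * b ω + a ω * y - x * y| ≤ |x * b ω + a ω * y| + |x * y| := abs_sub _ _
      _ ≤ |x * b ω| + |a ω * y| + |x * y| := by linarith [abs_add_le (x * b ω) (a ω * y)]
      _ ≤ _ := by linarith
  calc |∫ ω, (a ω * b ω - a' ω * b' ω) ∂(labM V)|
      ≤ ∫ ω, |a ω * b ω - a' ω * b' ω| ∂(labM V) := abs_integral_le_integral_abs
    _ ≤ ∫ ω, ((1 / (2 * δ) + 1 / 2) * (a ω - a' ω) ^ 2 +
        (1 / (2 * δ) + 1 / 2) * (b ω - b' ω) ^ 2 + δ * C ^ 2) ∂(labM V) := by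
        refine integral_mono (iab.sub iab').abs ?_ hpt
        exact ((ida.const_mul _).add (idb.const_mul _)).add (integrable_const _)
    _ = (1 / (2 * δ) + 1 / 2) * ∫ ω, (a ω - a' ω) ^ 2 ∂(labM V) +
        (1 / (2 * δ) + 1 / 2) * ∫ ω, (b ω - b' ω) ^ 2 ∂(labM V) + δ * C ^ 2 := by
        rw [integral_add (f := fun ω => (1 / (2 * δ) + 1 / 2) * (a ω - a' ω) ^ 2 +
          (1 / (2 * δ) + 1 / 2) * (b ω - b' ω) ^ 2)
          ((ida.const_mul _).add (idb.const_mul _)) (integrable_const _),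
          integral_add (ida.const_mul _) (idb.const_mul _), integral_const_mul,
          integral_const_mul]
        simp
    _ ≤ (1 / (2 * δ) + 1 / 2) * δ ^ 2 + (1 / (2 * δ) + 1 / 2) * δ ^ 2 + δ * C ^ 2 := by
        have hp : 0 ≤ 1 / (2 * δ) + 1 / 2 := by positivity
        have q1 := mul_le_mul_of_nonneg_left h1 hp
        have q2 := mul_le_mul_of_nonneg_left h2 hp
        linarith
    _ = δ * (1 + C ^ 2) + δ ^ 2 := by field_simp; ring

end proc

end CovDecay

open CovDecay in
/-- covariance decay with the explicit constant `√(d-1) (j+1) b^{-j/2}`. -/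
theorem cov_decay_explicit {V : Type*} {G : SimpleGraph V} [G.LocallyFinite] {d : ℕ}
    (hT : G.IsTree) (hd : 3 ≤ d) (hreg : G.IsRegularOfDegree d)
    {Y : V → V → Lab V → ℝ} (hY : BlockLim2 G Y) {p : ℕ → V} {j : ℕ} (hp : IsGeo G (j + 1) p) :
    |∫ ω, Y (p 0) (p 1) ω * Y (p j) (p (j + 1)) ω ∂(labM V) -
      (∫ ω, Y (p 0) (p 1) ω ∂(labM V)) ^ 2| ≤
      √((d : ℝ) - 1) * (j + 1) * (√((d : ℝ) - 1))⁻¹ ^ j *
        ∫ ω, Y (p 0) (p 1) ω ^ 2 ∂(labM V) := by
  classical
  obtain ⟨hE, hM, ⟨C, hC⟩, happ⟩ := hY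
  have hd' : (3 : ℝ) ≤ d := by exact_mod_cast hd
  have hβ0 : 0 < √((d : ℝ) - 1) := Real.sqrt_pos.2 (by linarith)
  set D := √((d : ℝ) - 1) * (j + 1) * (√((d : ℝ) - 1))⁻¹ ^ j with hD
  have hD0 : 0 ≤ D := by positivity
  have hadj : G.Adj (p 0) (p 1) := hp.1 0 (by omega)
  have hadj' : G.Adj (p j) (p (j + 1)) := hp.1 j (by omega)
  have hC0 : 0 ≤ C := by
    have hne : Nonempty (Lab V) := ⟨fun _ => (0, 0)⟩
    exact (abs_nonneg _).trans (hC (p 0) (p 1) hne.some)
  -- bound for each δ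
  have key : ∀ δ : ℝ, 0 < δ → δ ≤ 1 →
      |∫ ω, Y (p 0) (p 1) ω * Y (p j) (p (j + 1)) ω ∂(labM V) -
      (∫ ω, Y (p 0) (p 1) ω ∂(labM V)) ^ 2| ≤
      D * ∫ ω, Y (p 0) (p 1) ω ^ 2 ∂(labM V) +
        ((D + 1) * (2 + C ^ 2) + (4 + 2 * C) * 3) * δ := by
    intro δ hδ hδ1
    obtain ⟨Y', hE', hM', ⟨C', hC'⟩, hF', happ'⟩ := happ (δ ^ 2) (by positivity)
    have hG' : Good G Y' := ⟨hE', hM', ⟨C', hC'⟩⟩
    have h1 := happ' (p 0) (p 1) hadj
    have h2 := happ' (p j) (p (j + 1)) hadj'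
    set a := Y (p 0) (p 1) with ha
    set b := Y (p j) (p (j + 1)) with hb
    set a' := Y' (p 0) (p 1) with ha'
    set b' := Y' (p j) (p (j + 1)) with hb'
    set m' := ∫ ω, a' ω ∂(labM V) with hm'
    set m := ∫ ω, a ω ∂(labM V) with hm
    -- comparison of the three integrals
    have c1 := approx_mul (hM _ _) (hM _ _) (hM' _ _) (hM' _ _) (hC (p 0) (p 1))
      (hC (p j) (p (j + 1))) (hC' (p 0) (p 1)) (hC' (p j) (p (j + 1))) hδ h1 h2
    have c2 := approx_mul (hM _ _) (hM _ _) (hM' _ _) (hM' _ _) (hC (p 0) (p 1))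
      (hC (p 0) (p 1)) (hC' (p 0) (p 1)) (hC' (p 0) (p 1)) hδ h1 h1
    have c3 := approx_mul (C := max C 1) (C' := max C' 1) (a := a) (a' := a')
      (b := fun _ => 1) (b' := fun _ => 1)
      (hM _ _) measurable_const (hM' _ _) measurable_const
      (fun ω => (hC (p 0) (p 1) ω).trans (le_max_left _ _)) (fun ω => by simp)
      (fun ω => (hC' (p 0) (p 1) ω).trans (le_max_left _ _)) (fun ω => by simp) hδ h1
      (by simp; positivity)
    simp only [mul_one] at c3
    -- sharper comparison of means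
    have c4 : |m - m'| ≤ δ := by
      have ia : Integrable a (labM V) := Integrable.of_bound (hM _ _).aestronglyMeasurable C
        (by filter_upwards with ω; exact hC _ _ ω)
      have ia' : Integrable a' (labM V) := Integrable.of_bound (hM' _ _).aestronglyMeasurable C'
        (by filter_upwards with ω; exact hC' _ _ ω)
      have ida : Integrable (fun ω => (a ω - a' ω) ^ 2) (labM V) := by
        refine Integrable.of_bound (((hM _ _).sub (hM' _ _)).pow_const 2).aestronglyMeasurable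
          ((C + C') ^ 2) ?_
        filter_upwards with ω
        rw [Real.norm_eq_abs, abs_pow]
        refine pow_le_pow_left₀ (abs_nonneg _) ?_ 2
        exact (abs_sub _ _).trans (add_le_add (hC _ _ ω) (hC' _ _ ω))
      rw [hm, hm', ← integral_sub ia ia']
      calc |∫ ω, (a ω - a' ω) ∂(labM V)| ≤ ∫ ω, |a ω - a' ω| ∂(labM V) :=
            abs_integral_le_integral_abs
        _ ≤ ∫ ω, (1 / (2 * δ) * (a ω - a' ω) ^ 2 + δ / 2) ∂(labM V) := by
            refine integral_mono (ia.sub ia').abs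
              ((ida.const_mul _).add (integrable_const _)) ?_
            intro ω
            show |a ω - a' ω| ≤ 1 / (2 * δ) * (a ω - a' ω) ^ 2 + δ / 2
            rw [← sq_abs (a ω - a' ω)]
            set t := |a ω - a' ω|
            have e1 : 1 / (2 * δ) * t ^ 2 + δ / 2 - t = 1 / (2 * δ) * (t - δ) ^ 2 := by
              field_simp; ring
            have p1 : 0 ≤ 1 / (2 * δ) * (t - δ) ^ 2 := by positivity
            linarith
        _ = 1 / (2 * δ) * ∫ ω, (a ω - a' ω) ^ 2 ∂(labM V) + δ / 2 := by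
            rw [integral_add (ida.const_mul _) (integrable_const _), integral_const_mul]
            simp
        _ ≤ 1 / (2 * δ) * δ ^ 2 + δ / 2 := by
            have := mul_le_mul_of_nonneg_left h1 (by positivity : 0 ≤ 1 / (2 * δ))
            linarith
        _ = δ := by field_simp; ring
    have hmC : |m| ≤ C := by
      rw [hm]
      calc |∫ ω, a ω ∂(labM V)| ≤ ∫ ω, |a ω| ∂(labM V) := abs_integral_le_integral_abs
        _ ≤ ∫ _ω : Lab V, C ∂(labM V) := by
            refine integral_mono_of_nonneg ?_ (integrable_const _) ?_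
            · filter_upwards with ω; exact abs_nonneg _
            · filter_upwards with ω; exact hC _ _ ω
        _ = C := by simp
    have c5 : |m ^ 2 - m' ^ 2| ≤ δ * (2 * C + 1) := by
      have e : m ^ 2 - m' ^ 2 = (m - m') * (2 * m - (m - m')) := by ring
      rw [e, abs_mul]
      refine mul_le_mul c4 ?_ (abs_nonneg _) hδ.le
      calc |2 * m - (m - m')| ≤ |2 * m| + |m - m'| := abs_sub _ _
        _ ≤ 2 * C + 1 := by
            rw [abs_mul, abs_two]
            linarith
    -- the centred block factor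
    have hG'' : Good G (fun u v ω => Y' u v ω - m') := by
      refine ⟨?_, ?_, ?_⟩
      · intro g u v ω
        show Y' (g u) (g v) ω - m' = Y' u v (act g ω) - m'
        rw [hE' g u v ω]
      · intro u v
        exact (hM' u v).sub measurable_const
      · refine ⟨C' + |m'|, ?_⟩
        intro u v ω
        exact (abs_sub _ _).trans (add_le_add (hC' u v ω) le_rfl)
    have hfin'' : ∀ u v, FinDep (fun ω => Y' u v ω - m') := by
      intro u v
      obtain ⟨B, hB⟩ := hF' u v
      refine ⟨B, ?_⟩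
      intro ω ω' h
      show Y' u v ω - m' = Y' u v ω' - m'
      rw [hB ω ω' h]
    have iY' : ∀ u v, Integrable (Y' u v) (labM V) := by
      intro u v
      exact Integrable.of_bound (hM' _ _).aestronglyMeasurable C'
        (by filter_upwards with ω; exact hC' _ _ ω)
    have hmean'' : ∀ u v, G.Adj u v → ∫ ω, (Y' u v ω - m') ∂(labM V) = 0 := by
      intro u v huv
      rw [integral_sub (iY' u v) (integrable_const _), mean_eq hT hd hreg hG' huv hadj]
      simp [hm', ha']
    have hdec := decay_block hT hd hreg hG'' hfin'' hmean'' hp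
    have i1 : Integrable (fun ω => a' ω * b' ω) (labM V) := hG'.integrable_mul hG' _ _ _ _
    have i2 : Integrable (fun ω => a' ω * a' ω) (labM V) := hG'.integrable_mul hG' _ _ _ _
    have hmb : ∫ ω, b' ω ∂(labM V) = m' := mean_eq hT hd hreg hG' hadj' hadj
    have d0 : ∀ {f g : Lab V → ℝ} (_ : Integrable f (labM V)) (_ : Integrable g (labM V))
        (_ : Integrable (fun ω => f ω * g ω) (labM V)) (_ : ∫ ω, f ω ∂(labM V) = m')
        (_ : ∫ ω, g ω ∂(labM V) = m'),
        ∫ ω, (f ω - m') * (g ω - m') ∂(labM V) = ∫ ω, f ω * g ω ∂(labM V) - m' ^ 2 := by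
      intro f g hf hg hfg hf' hg'
      have e : ∀ ω, (f ω - m') * (g ω - m') =
          f ω * g ω + ((-m') * f ω + ((-m') * g ω + m' ^ 2)) := by
        intro ω; ring
      simp_rw [e]
      have j3 : Integrable (fun ω => (-m') * g ω + m' ^ 2) (labM V) :=
        (hg.const_mul _).add (integrable_const _)
      have j2 : Integrable (fun ω => (-m') * f ω + ((-m') * g ω + m' ^ 2)) (labM V) :=
        (hf.const_mul _).add j3
      rw [integral_add hfg j2, integral_add (hf.const_mul _) j3,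
        integral_add (hg.const_mul _) (integrable_const _), integral_const_mul,
        integral_const_mul, hf', hg']
      simp only [integral_const, probReal_univ, one_smul]
      ring
    have d1 : ∫ ω, (a' ω - m') * (b' ω - m') ∂(labM V) =
        ∫ ω, a' ω * b' ω ∂(labM V) - m' ^ 2 := d0 (iY' _ _) (iY' _ _) i1 rfl hmb
    have d2 : ∫ ω, (a' ω - m') ^ 2 ∂(labM V) ≤ ∫ ω, a' ω * a' ω ∂(labM V) := by
      have h := d0 (iY' _ _) (iY' _ _) i2 rfl rfl
      have e : ∫ ω, (a' ω - m') ^ 2 ∂(labM V) = ∫ ω, (a' ω - m') * (a' ω - m') ∂(labM V) := by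
        congr 1; funext ω; ring
      rw [e, h]
      linarith [sq_nonneg m']
    have d3 : |∫ ω, a' ω * b' ω ∂(labM V) - m' ^ 2| ≤ D * ∫ ω, a' ω * a' ω ∂(labM V) := by
      rw [← d1]
      exact hdec.trans (mul_le_mul_of_nonneg_left d2 hD0)
    have d4 : ∫ ω, a ω * a ω ∂(labM V) = ∫ ω, a ω ^ 2 ∂(labM V) := by
      congr 1; funext ω; ring
    rw [d4] at c2
    have hδ2 : δ ^ 2 ≤ δ := by nlinarith
    have hw : δ * (1 + C ^ 2) + δ ^ 2 ≤ (2 + C ^ 2) * δ := by nlinarith
    have herr : D * (δ * (1 + C ^ 2) + δ ^ 2) + (δ * (1 + C ^ 2) + δ ^ 2) + δ * (2 * C + 1) ≤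
        ((D + 1) * (2 + C ^ 2) + (4 + 2 * C) * 3) * δ := by
      have k1 := mul_le_mul_of_nonneg_left hw hD0
      have k2 : 0 ≤ C * δ := by positivity
      have k3 : ((D + 1) * (2 + C ^ 2) + (4 + 2 * C) * 3) * δ =
        D * ((2 + C ^ 2) * δ) + (2 + C ^ 2) * δ + 12 * δ + 6 * (C * δ) := by ring
      rw [k3]
      have k4 : δ * (2 * C + 1) = 2 * (C * δ) + δ := by ring
      rw [k4]
      linarith
    have f1 : D * ∫ ω, a' ω * a' ω ∂(labM V) ≤
        D * ∫ ω, a ω ^ 2 ∂(labM V) + D * (δ * (1 + C ^ 2) + δ ^ 2) := by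
      rw [← mul_add]
      refine mul_le_mul_of_nonneg_left ?_ hD0
      linarith [(abs_le.1 c2).1]
    clear hdec d0 d1 d2 hmean'' hfin'' hG'' c3 hC' hC happ happ'
    generalize ∫ ω, a ω * b ω ∂(labM V) = X at c1 ⊢
    generalize ∫ ω, a' ω * b' ω ∂(labM V) = X' at c1 d3
    generalize D * ∫ ω, a' ω * a' ω ∂(labM V) = S' at f1 d3
    generalize D * ∫ ω, a ω ^ 2 ∂(labM V) = S at f1 ⊢
    generalize D * (δ * (1 + C ^ 2) + δ ^ 2) = T at f1 herr
    generalize ((D + 1) * (2 + C ^ 2) + (4 + 2 * C) * 3) * δ = T' at herr ⊢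
    have e : X - m ^ 2 = (X - X') + (X' - m' ^ 2) - (m ^ 2 - m' ^ 2) := by ring
    rw [e]
    calc |(X - X') + (X' - m' ^ 2) - (m ^ 2 - m' ^ 2)|
        ≤ |(X - X') + (X' - m' ^ 2)| + |m ^ 2 - m' ^ 2| := abs_sub _ _
      _ ≤ |X - X'| + |X' - m' ^ 2| + |m ^ 2 - m' ^ 2| := by
          linarith [abs_add_le (X - X') (X' - m' ^ 2)]
      _ ≤ S + T' := by linarith
  -- let δ → 0
  refine le_of_forall_pos_le_add ?_
  intro ε hε
  set E := (D + 1) * (2 + C ^ 2) + (4 + 2 * C) * 3 with hEdef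
  have hE0 : 0 < E := by positivity
  have h := key (min 1 (ε / E)) (lt_min one_pos (div_pos hε hE0)) (min_le_left _ _)
  refine h.trans ?_
  have : E * min 1 (ε / E) ≤ ε := by
    calc E * min 1 (ε / E) ≤ E * (ε / E) := mul_le_mul_of_nonneg_left (min_le_right _ _) hE0.le
      _ = ε := by field_simp
  linarith

/-- covariance decay of limits of block factors along non-backtracking paths. -/
theorem cov_decay {V : Type*} {G : SimpleGraph V} [G.LocallyFinite] {d : ℕ}
    (hT : G.IsTree) (hd : 3 ≤ d) (hreg : G.IsRegularOfDegree d) :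
    ∃ C : ℝ, 0 < C ∧ ∀ {Y : V → V → Lab V → ℝ} (_ : BlockLim2 G Y) {p : ℕ → V} {j : ℕ}
      (_ : IsGeo G (j + 1) p),
    |∫ ω, Y (p 0) (p 1) ω * Y (p j) (p (j + 1)) ω ∂(labM V) -
      (∫ ω, Y (p 0) (p 1) ω ∂(labM V)) ^ 2| ≤
      C * (j + 2) * (√((d : ℝ) - 1))⁻¹ ^ j * ∫ ω, Y (p 0) (p 1) ω ^ 2 ∂(labM V) := by
  have hd' : (3 : ℝ) ≤ d := by exact_mod_cast hd
  have hβ0 : 0 < √((d : ℝ) - 1) := Real.sqrt_pos.2 (by linarith)
  refine ⟨√((d : ℝ) - 1), hβ0, ?_⟩
  intro Y hY p j hp
  refine (cov_decay_explicit hT hd hreg hY hp).trans ?_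
  refine mul_le_mul_of_nonneg_right ?_ (integral_nonneg (fun _ => sq_nonneg _))
  refine mul_le_mul_of_nonneg_right ?_ (by positivity)
  refine mul_le_mul_of_nonneg_left ?_ hβ0.le
  linarith

end Crest.Agent.Lib.Row160
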