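import Crest.Agent.Lib.Row160.StatA
import Crest.Agent.Lib.Row160.TreeMetric
import Crest.Agent.Lib.Row160.CovDecay
import Crest.Agent.Lib.Row160.EdgeFun

/-!
Row 160, module M10: homogeneity and averaging over non-backtracking extensions.
-/

set_option autoImplicit false
open MeasureTheory Filter Topology

namespace Crest.Agent.Lib.Row160

variable {V : Type*} {G : SimpleGraph V}

/-- functional of a path of length `n`, equivariant, measurable, bounded. -/
structure PathFun (G : SimpleGraph V) (n : ℕ) (F : (ℕ → V) → Lab V → ℝ) : Prop where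
  loc : ∀ p p' : ℕ → V, (∀ i ≤ n, p i = p' i) → F p = F p'
  eqv : ∀ (g : G ≃g G) (p : ℕ → V) (ω : Lab V), F (fun i => g (p i)) ω = F p (act g ω)
  meas : ∀ p, Measurable (F p)
  bdd : ∃ C, ∀ p, IsGeo G n p → ∀ ω, |F p ω| ≤ C

lemma PathFun.mono {n n' : ℕ} (h : n ≤ n') {F : (ℕ → V) → Lab V → ℝ} (hF : PathFun G n F) :
    PathFun G n' F where
  loc p p' hp := hF.loc p p' fun i hi => hp i (hi.trans h)
  eqv := hF.eqv
  meas := hF.meas
  bdd := by
    obtain ⟨C, hC⟩ := hF.bdd
    exact ⟨C, fun p hp ω => hC p (hp.mono h) ω⟩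

lemma PathFun.mul {n : ℕ} {F F' : (ℕ → V) → Lab V → ℝ} (hF : PathFun G n F)
    (hF' : PathFun G n F') : PathFun G n (fun p ω => F p ω * F' p ω) where
  loc p p' hp := by
    funext ω; rw [hF.loc p p' hp, hF'.loc p p' hp]
  eqv g p ω := by simp only [hF.eqv g p ω, hF'.eqv g p ω]
  meas p := (hF.meas p).mul (hF'.meas p)
  bdd := by
    obtain ⟨C, hC⟩ := hF.bdd
    obtain ⟨C', hC'⟩ := hF'.bdd
    refine ⟨|C| * |C'|, fun p hp ω => ?_⟩
    rw [abs_mul]
    exact mul_le_mul ((hC p hp ω).trans (le_abs_self _)) ((hC' p hp ω).trans (le_abs_self _))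
      (abs_nonneg _) (abs_nonneg _)

lemma PathFun.integrable {n : ℕ} {F : (ℕ → V) → Lab V → ℝ} (hF : PathFun G n F) {p : ℕ → V}
    (hp : IsGeo G n p) : Integrable (F p) (labM V) := by
  obtain ⟨C, hC⟩ := hF.bdd
  exact Integrable.of_bound (hF.meas p).aestronglyMeasurable C
    (Eventually.of_forall fun ω => by rw [Real.norm_eq_abs]; exact hC p hp ω)

section
variable [G.LocallyFinite] {d : ℕ}

/-- homogeneity. -/
lemma PathFun.hom (hT : G.IsTree) (hd : 3 ≤ d) (hreg : G.IsRegularOfDegree d) {n : ℕ}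
    {F : (ℕ → V) → Lab V → ℝ} (hF : PathFun G n F) {p p' : ℕ → V} (hp : IsGeo G n p)
    (hp' : IsGeo G n p') : ∫ ω, F p ω ∂(labM V) = ∫ ω, F p' ω ∂(labM V) := by
  obtain ⟨g, hg⟩ := exists_aut hT hd hreg hp hp'
  have h1 : F p' = F (fun i => g (p i)) := hF.loc _ _ fun i hi => (hg i hi).symm
  rw [h1]
  have h2 : (fun ω => F (fun i => g (p i)) ω) = fun ω => F p (act g ω) := by
    funext ω; exact hF.eqv g p ω
  rw [h2]
  have h3 := CovDecay.mp_act (V := V) g
  rw [← h3.map_eq, integral_map h3.measurable.aemeasurable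
    (h3.map_eq.symm ▸ (hF.meas p).aestronglyMeasurable), h3.map_eq]

/-! ### the weights -/

lemma Zp_congr_Adj (b : ℕ) (θ : ℝ) (lam : ℕ) (m : V → ℝ) (L : ℕ) (z y : V) :
    Zp G b θ lam m (L + 1) z y = open Classical in (1 / (b : ℝ)) *
      ∑ c ∈ (G.neighborFinset y).erase z,
      (Ge θ (m y) (m c) / θ) ^ (2 * lam) * Zp G b θ lam m L y c := rfl

lemma Zp_act (b : ℕ) (θ : ℝ) (lam : ℕ) {m : V → Lab V → ℝ} (hm : Eqv1 G m) (g : G ≃g G)
    (ω : Lab V) (L : ℕ) : ∀ z y : V,
    Zp G b θ lam (fun v => m v ω) L (g z) (g y) =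
      Zp G b θ lam (fun v => m v (act g ω)) L z y := by
  classical
  induction L with
  | zero => intro z y; rfl
  | succ L ih =>
    intro z y
    rw [Zp_congr_Adj, Zp_congr_Adj]
    congr 1
    symm
    refine Finset.sum_bij (fun c _ => g c) ?_ ?_ ?_ ?_
    · intro c hc
      rw [Finset.mem_erase, SimpleGraph.mem_neighborFinset] at hc ⊢
      exact ⟨fun h => hc.1 (g.injective h), g.map_rel_iff.2 hc.2⟩
    · intro c _ c' _ h
      exact g.injective h
    · intro c hc
      rw [Finset.mem_erase, SimpleGraph.mem_neighborFinset] at hc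
      refine ⟨g.symm c, ?_, by simp⟩
      rw [Finset.mem_erase, SimpleGraph.mem_neighborFinset]
      refine ⟨fun h => hc.1 (by rw [← h]; simp), ?_⟩
      have := hc.2
      rw [← g.apply_symm_apply c] at this
      exact g.map_rel_iff.1 this
    · intro c _
      show _ = (Ge θ (m (g y) ω) (m (g c) ω) / θ) ^ (2 * lam) *
        Zp G b θ lam (fun v => m v ω) L (g y) (g c)
      rw [ih, hm g y ω, hm g c ω]

lemma measurable_Zp (b : ℕ) (θ : ℝ) (lam : ℕ) {m : V → Lab V → ℝ} (hm : ∀ v, Measurable (m v))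
    (L : ℕ) : ∀ z y : V, Measurable (fun ω => Zp G b θ lam (fun v => m v ω) L z y) := by
  classical
  induction L with
  | zero => intro z y; exact measurable_const
  | succ L ih =>
    intro z y
    simp only [Zp_congr_Adj]
    refine Measurable.const_mul ?_ _
    refine Finset.measurable_fun_sum _ fun c _ => ?_
    refine Measurable.mul ?_ (ih y c)
    exact (((measurable_Ge θ).comp ((hm y).prodMk (hm c))).div_const _).pow_const _

lemma card_erase (hreg : G.IsRegularOfDegree d) {z y : V} (h : G.Adj z y) :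
    open Classical in ((G.neighborFinset y).erase z).card = d - 1 := by
  classical
  rw [Finset.card_erase_of_mem (by rw [SimpleGraph.mem_neighborFinset]; exact h.symm),
    SimpleGraph.card_neighborFinset_eq_degree, hreg y]

lemma Ge_div_nonneg {θ u v : ℝ} (h0 : 0 < θ) (h1 : θ < 1) (hu : |u| ≤ 1) (hv : |v| ≤ 1) :
    0 ≤ Ge θ u v / θ := div_nonneg (Ge_nonneg h0.le h1 hu hv) h0.le

lemma Ge_div_le_one {θ u v : ℝ} (h0 : 0 < θ) (h1 : θ < 1) (hu : |u| ≤ 1) (hv : |v| ≤ 1) :
    Ge θ u v / θ ≤ 1 := by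
  rw [div_le_one h0]; exact Ge_le h0.le h1 hu hv

lemma Zp_nonneg (b : ℕ) {θ : ℝ} (h0 : 0 < θ) (h1 : θ < 1) (lam : ℕ) {m : V → ℝ}
    (hm : ∀ v, |m v| ≤ 1) (L : ℕ) : ∀ z y : V, 0 ≤ Zp G b θ lam m L z y := by
  classical
  induction L with
  | zero => intro z y; exact zero_le_one
  | succ L ih =>
    intro z y
    rw [Zp_congr_Adj]
    refine mul_nonneg (by positivity) (Finset.sum_nonneg fun c _ => mul_nonneg ?_ (ih y c))
    exact pow_nonneg (Ge_div_nonneg h0 h1 (hm y) (hm c)) _

lemma Zp_le_one (hd : 3 ≤ d) (hreg : G.IsRegularOfDegree d) {θ : ℝ} (h0 : 0 < θ) (h1 : θ < 1)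
    (lam : ℕ) {m : V → ℝ} (hm : ∀ v, |m v| ≤ 1) (L : ℕ) :
    ∀ z y : V, G.Adj z y → Zp G (d - 1) θ lam m L z y ≤ 1 := by
  classical
  induction L with
  | zero => intro z y _; exact le_refl _
  | succ L ih =>
    intro z y hzy
    rw [Zp_congr_Adj]
    have hb : (0 : ℝ) < ((d - 1 : ℕ) : ℝ) := by
      have : 0 < d - 1 := by omega
      exact_mod_cast this
    have h2 : ∑ c ∈ (G.neighborFinset y).erase z,
        (Ge θ (m y) (m c) / θ) ^ (2 * lam) * Zp G (d - 1) θ lam m L y c ≤
        ∑ c ∈ (G.neighborFinset y).erase z, (1 : ℝ) := by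
      refine Finset.sum_le_sum fun c hc => ?_
      rw [Finset.mem_erase, SimpleGraph.mem_neighborFinset] at hc
      exact mul_le_one₀ (pow_le_one₀ (Ge_div_nonneg h0 h1 (hm y) (hm c))
        (Ge_div_le_one h0 h1 (hm y) (hm c))) (Zp_nonneg _ h0 h1 lam hm L y c) (ih y c hc.2)
    rw [Finset.sum_const, card_erase hreg hzy, nsmul_eq_mul, mul_one] at h2
    rw [one_div, inv_mul_le_iff₀ hb, mul_one]
    exact h2

/-- the one-edge weight. -/
noncomputable def wE (θ : ℝ) (lam : ℕ) (m : V → Lab V → ℝ) (u v : V) (ω : Lab V) : ℝ :=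
  (Ge θ (m u ω) (m v ω) / θ) ^ (2 * lam)

lemma pathFun_wE {θ : ℝ} (h0 : 0 < θ) (h1 : θ < 1) (lam : ℕ) {m : V → Lab V → ℝ}
    (hE : Eqv1 G m) (hmm : ∀ v, Measurable (m v)) (hm : ∀ v ω, |m v ω| ≤ 1) {i j n : ℕ}
    (hi : i ≤ n) (hj : j ≤ n) :
    PathFun G n (fun p ω => wE θ lam m (p i) (p j) ω) where
  loc p p' hp := by funext ω; rw [hp i hi, hp j hj]
  eqv g p ω := by simp only [wE, hE g]
  meas p := (((measurable_Ge θ).comp ((hmm _).prodMk (hmm _))).div_const _).pow_const _
  bdd := ⟨1, fun p _ ω => by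
    rw [wE, abs_of_nonneg (pow_nonneg (Ge_div_nonneg h0 h1 (hm _ ω) (hm _ ω)) _)]
    exact pow_le_one₀ (Ge_div_nonneg h0 h1 (hm _ ω) (hm _ ω)) (Ge_div_le_one h0 h1 (hm _ ω) (hm _ ω))⟩

lemma pathFun_Zp (hd : 3 ≤ d) (hreg : G.IsRegularOfDegree d) {θ : ℝ} (h0 : 0 < θ) (h1 : θ < 1)
    (lam : ℕ) {m : V → Lab V → ℝ}
    (hE : Eqv1 G m) (hmm : ∀ v, Measurable (m v)) (hm : ∀ v ω, |m v ω| ≤ 1) {i n : ℕ}
    (hi : i + 1 ≤ n) (L : ℕ) :
    PathFun G n (fun p ω => Zp G (d - 1) θ lam (fun v => m v ω) L (p i) (p (i + 1))) where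
  loc p p' hp := by funext ω; rw [hp i (by omega), hp (i + 1) hi]
  eqv g p ω := Zp_act _ θ lam hE g ω L _ _
  meas p := measurable_Zp _ θ lam hmm L _ _
  bdd := ⟨1, fun p hp ω => by
    rw [abs_of_nonneg (Zp_nonneg _ h0 h1 lam (fun v => hm v ω) L _ _)]
    exact Zp_le_one hd hreg h0 h1 lam (fun v => hm v ω) L _ _ (hp.1 i (by omega))⟩

/-- averaging over the non-backtracking extensions. -/
lemma avg_ext (hT : G.IsTree) (hd : 3 ≤ d) (hreg : G.IsRegularOfDegree d) {θ : ℝ} (h0 : 0 < θ)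
    (h1 : θ < 1) (lam : ℕ) {m : V → Lab V → ℝ}
    (hE : Eqv1 G m) (hmm : ∀ v, Measurable (m v)) (hm : ∀ v ω, |m v ω| ≤ 1) (L : ℕ) :
    ∀ (n : ℕ) (F : (ℕ → V) → Lab V → ℝ) (_ : PathFun G (n + 1) F) (p : ℕ → V)
      (_ : IsGeo G (n + 1 + L) p),
    ∫ ω, F p ω * ∏ l ∈ Finset.range L, wE θ lam m (p (n + 1 + l)) (p (n + 1 + l + 1)) ω
      ∂(labM V) =
    ∫ ω, F p ω * Zp G (d - 1) θ lam (fun v => m v ω) L (p n) (p (n + 1)) ∂(labM V) := by
  classical
  induction L with
  | zero => intro n F hF p hp; simp [Zp]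
  | succ L ih =>
    intro n F hF p hp
    have hF' : PathFun G (n + 1 + 1) (fun p ω => F p ω * wE θ lam m (p (n + 1)) (p (n + 2)) ω) :=
      (hF.mono (by omega)).mul (pathFun_wE h0 h1 lam hE hmm hm (by omega) (by omega))
    have hL : ∀ ω, F p ω * ∏ l ∈ Finset.range (L + 1),
        wE θ lam m (p (n + 1 + l)) (p (n + 1 + l + 1)) ω =
        (F p ω * wE θ lam m (p (n + 1)) (p (n + 2)) ω) *
          ∏ l ∈ Finset.range L, wE θ lam m (p (n + 1 + 1 + l)) (p (n + 1 + 1 + l + 1)) ω := by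
      intro ω
      rw [Finset.prod_range_succ', mul_comm (∏ l ∈ Finset.range L, _), ← mul_assoc]
      congr 1
      refine Finset.prod_congr rfl fun l _ => ?_
      rw [show n + 1 + (l + 1) = n + 1 + 1 + l by omega]
    simp only [hL]
    have h2 := ih (n + 1) _ hF' p (by rw [show n + 1 + 1 + L = n + 1 + (L + 1) by omega]; exact hp)
    rw [h2]
    -- the right-hand side
    have hgeo : IsGeo G (n + 2) p := hp.mono (by omega)
    have hadj : G.Adj (p n) (p (n + 1)) := hgeo.1 n (by omega)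
    have hval : ∀ c ∈ (G.neighborFinset (p (n + 1))).erase (p n),
        ∫ ω, F p ω * (wE θ lam m (p (n + 1)) c ω *
          Zp G (d - 1) θ lam (fun v => m v ω) L (p (n + 1)) c) ∂(labM V) =
        ∫ ω, F p ω * wE θ lam m (p (n + 1)) (p (n + 2)) ω *
          Zp G (d - 1) θ lam (fun v => m v ω) L (p (n + 1)) (p (n + 2)) ∂(labM V) := by
      intro c hc
      rw [Finset.mem_erase, SimpleGraph.mem_neighborFinset] at hc
      have hH : PathFun G (n + 2) (fun p ω => F p ω * wE θ lam m (p (n + 1)) (p (n + 2)) ω *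
          Zp G (d - 1) θ lam (fun v => m v ω) L (p (n + 1)) (p (n + 2))) :=
        hF'.mul (pathFun_Zp hd hreg h0 h1 lam hE hmm hm (by omega) L)
      have hpc : IsGeo G (n + 2) (Function.update p (n + 2) c) := by
        constructor
        · intro i hi
          by_cases h : i = n + 1
          · subst h
            rw [Function.update_of_ne (by omega), Function.update_self]
            exact hc.2
          · rw [Function.update_of_ne (by omega), Function.update_of_ne (by omega)]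
            exact hgeo.1 i hi
        · intro i hi
          by_cases h : i = n
          · subst h
            rw [Function.update_of_ne (by omega), Function.update_self]
            exact fun h => hc.1 h.symm
          · rw [Function.update_of_ne (by omega), Function.update_of_ne (by omega)]
            exact hgeo.2 i hi
      have h3 := hH.hom hT hd hreg hpc hgeo
      have h4 : F (Function.update p (n + 2) c) = F p :=
        hF.loc _ _ fun i hi => Function.update_of_ne (by omega) _ _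
      simp only [Function.update_self, h4,
        Function.update_of_ne (show n + 1 ≠ n + 2 by omega)] at h3
      rw [← h3]
      congr 1; funext ω; ring
    have hb : ((d - 1 : ℕ) : ℝ) ≠ 0 := by
      have : d - 1 ≠ 0 := by omega
      exact_mod_cast this
    have hR : ∀ ω, F p ω * Zp G (d - 1) θ lam (fun v => m v ω) (L + 1) (p n) (p (n + 1)) =
        ∑ c ∈ (G.neighborFinset (p (n + 1))).erase (p n), (1 / ((d - 1 : ℕ) : ℝ)) *
          (F p ω * (wE θ lam m (p (n + 1)) c ω *
          Zp G (d - 1) θ lam (fun v => m v ω) L (p (n + 1)) c)) := by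
      intro ω
      rw [Zp_congr_Adj, mul_left_comm, Finset.mul_sum, Finset.mul_sum]
      rfl
    simp only [hR]
    rw [integral_finsetSum]
    · simp only [integral_const_mul]
      rw [Finset.sum_congr rfl fun c hc => by rw [hval c hc], Finset.sum_const,
        card_erase hreg hadj, nsmul_eq_mul, ← mul_assoc, mul_one_div_cancel hb, one_mul]
    · intro c hc
      rw [Finset.mem_erase, SimpleGraph.mem_neighborFinset] at hc
      refine Integrable.const_mul ?_ _
      obtain ⟨C, hC⟩ := hF.bdd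
      refine Integrable.of_bound (((hF.meas p).mul
        (((((measurable_Ge θ).comp ((hmm _).prodMk (hmm _))).div_const _).pow_const _).mul
        (measurable_Zp _ θ lam hmm L _ _)))).aestronglyMeasurable C
        (Eventually.of_forall fun ω => ?_)
      rw [Real.norm_eq_abs, abs_mul]
      have hw0 : 0 ≤ wE θ lam m (p (n + 1)) c ω :=
        pow_nonneg (Ge_div_nonneg h0 h1 (hm _ ω) (hm _ ω)) _
      have hw1 : wE θ lam m (p (n + 1)) c ω ≤ 1 :=
        pow_le_one₀ (Ge_div_nonneg h0 h1 (hm _ ω) (hm _ ω)) (Ge_div_le_one h0 h1 (hm _ ω) (hm _ ω))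
      have hZ0 := Zp_nonneg (G := G) (d - 1) h0 h1 lam (fun v => hm v ω) L (p (n + 1)) c
      have hZ1 := Zp_le_one hd hreg h0 h1 lam (fun v => hm v ω) L (p (n + 1)) c hc.2
      have h5 : |wE θ lam m (p (n + 1)) c ω *
          Zp G (d - 1) θ lam (fun v => m v ω) L (p (n + 1)) c| ≤ 1 := by
        rw [abs_of_nonneg (mul_nonneg hw0 hZ0)]
        exact mul_le_one₀ hw1 hZ0 hZ1
      calc _ ≤ |F p ω| * 1 := mul_le_mul_of_nonneg_left h5 (abs_nonneg _)
        _ ≤ C := by rw [mul_one]; exact hC p (hp.mono (by omega)) ω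

end

end Crest.Agent.Lib.Row160
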