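import Crest.Agent.Lib.Row160.BridgeZt
import Crest.Agent.Lib.Row160.BridgeZ2
import Crest.Agent.Lib.Row160.StatB
import Crest.Agent.Lib.Row160.Process
import Crest.Agent.Lib.Row160.TreeWin
import Crest.Agent.Lib.Row160.Limit
import Crest.Agent.Lib.Row160.BridgeD

/-!
Row 160, M9 (Z-part): path weights of windows in terms of the rooted subtrees, infinite volume.
-/

set_option autoImplicit false
set_option linter.unusedSectionVars false
open MeasureTheory Filter Topology MeasureTheory.Measure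

namespace Crest.Agent.Lib.Row160.BrZ

open LawAux

variable {V : Type*} {G : SimpleGraph V} [G.LocallyFinite] {d : ℕ}

lemma dist_nest (hT : G.IsTree) {z y c w : V} (hzy : G.Adj z y) (hyc : G.Adj y c) (hc : c ≠ z)
    (hw : G.dist y w = G.dist c w + 1) : G.dist z w = G.dist y w + 1 := by
  have h := dist_child hT (z := w) (y := y) (c := z) (w := c) hzy.symm hc.symm hyc
    (by rw [SimpleGraph.dist_comm (u := w), SimpleGraph.dist_comm (u := w)]; exact hw)
  rwa [SimpleGraph.dist_comm (u := w), SimpleGraph.dist_comm (u := w)] at h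

open Classical in
lemma Zt_succ (b : ℕ) (θ : ℝ) (lam : ℕ) (x : V → ℝ) (L n : ℕ) (z y : V) :
    Zt G b θ lam x (L + 1) n z y = (1 / (b : ℝ)) * ∑ c ∈ (G.neighborFinset y).erase z,
      (gg θ (mg G θ (Tn G (n - 1) y c) x c) / θ) ^ (2 * lam) *
        Zt G b θ lam x L (n - 1) y c := rfl

open Classical in
lemma Zp_eq_Zt (hT : G.IsTree) {θ : ℝ} (h0 : 0 ≤ θ) (h1 : θ < 1) (b lam : ℕ) (W : Finset V)
    (x : V → ℝ) (L : ℕ) : ∀ (n : ℕ) (z y : V), G.Adj z y → L ≤ n →
    W.filter (fun w => G.dist z w = G.dist y w + 1) = Tn G n z y →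
    Zp G b θ lam (fun v => mg G θ W x v) L z y = Zt G b θ lam x L n z y := by
  induction L with
  | zero => intro n z y _ _ _; rfl
  | succ L ih =>
    intro n z y hzy hLn hW
    have hyW : y ∈ W := by
      have h1 : y ∈ Tn G n z y := Finset.mem_coe.1 (root_mem_Tn hT n hzy)
      rw [← hW, Finset.mem_filter] at h1
      exact h1.1
    rw [Zp_congr_Adj, Zt_succ]
    congr 1
    refine Finset.sum_congr rfl fun c hc => ?_
    rw [Finset.mem_erase, SimpleGraph.mem_neighborFinset] at hc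
    have hyc : G.dist y c = 1 := SimpleGraph.dist_eq_one_iff_adj.2 hc.2
    have hW' : W.filter (fun w => G.dist y w = G.dist c w + 1) = Tn G (n - 1) y c := by
      ext w
      rw [Finset.mem_filter, mem_Tn hT]
      constructor
      · rintro ⟨hw, hd⟩
        have h2 := dist_nest hT hzy hc.2 hc.1 hd
        have h3 : w ∈ Tn G n z y := by
          rw [← hW, Finset.mem_filter]; exact ⟨hw, h2⟩
        rw [mem_Tn hT] at h3
        exact ⟨by omega, hd⟩
      · rintro ⟨hw, hd⟩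
        have h2 := dist_nest hT hzy hc.2 hc.1 hd
        have h3 : w ∈ Tn G n z y := by
          rw [mem_Tn hT]; exact ⟨by omega, h2⟩
        rw [← hW, Finset.mem_filter] at h3
        exact ⟨h3.1, hd⟩
    have hcW : c ∈ W := by
      have h3 : c ∈ Tn G (n - 1) y c := Finset.mem_coe.1 (root_mem_Tn hT _ hc.2)
      rw [← hW', Finset.mem_filter] at h3
      exact h3.1
    rw [Ge_eq_gg hT h0 h1 hc.2 W hyW hcW x, hW', ih (n - 1) y c hc.2 (by omega) hW']

lemma Tn_filter (hT : G.IsTree) {n : ℕ} {z y : V} :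
    open Classical in (Tn G n z y).filter (fun w => G.dist z w = G.dist y w + 1) = Tn G n z y := by
  classical
  ext w
  rw [Finset.mem_filter, mem_Tn hT]
  tauto

lemma ball_filter (hT : G.IsTree) {n : ℕ} {z y : V} :
    open Classical in (ball G z (n + 1)).filter (fun w => G.dist z w = G.dist y w + 1) =
      Tn G n z y := by
  classical
  ext w
  rw [Finset.mem_filter, mem_Tn hT, mem_ball hT]
  constructor
  · rintro ⟨h, h'⟩
    exact ⟨by omega, h'⟩
  · rintro ⟨h, h'⟩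
    exact ⟨by omega, h'⟩

lemma measurable_Zp' {α : Type*} [MeasurableSpace α] (b : ℕ) (θ : ℝ) (lam : ℕ) {m : V → α → ℝ}
    (hm : ∀ v, Measurable (m v))
    (L : ℕ) : ∀ z y : V, Measurable (fun ω => Zp G b θ lam (fun v => m v ω) L z y) := by
  classical
  induction L with
  | zero => intro z y; exact measurable_const
  | succ L ih =>
    intro z y
    simp only [Zp_congr_Adj]
    refine Measurable.const_mul ?_ _
    refine Finset.measurable_fun_sum _ fun c _ => ?_
    refine Measurable.mul ?_ (ih y c)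
    exact (((measurable_Ge θ).comp ((hm y).prodMk (hm c))).div_const _).pow_const _

lemma ae_tendsto_of_sq {α : Type*} [MeasurableSpace α] {μ : Measure α} [IsProbabilityMeasure μ]
    {f : ℕ → α → ℝ} {g : α → ℝ} (hf : ∀ N, Measurable (f N)) (hg : Measurable g) {B : ℝ}
    (hB : ∀ N ω, |f N ω - g ω| ≤ B) {C ρ : ℝ} (hρ0 : 0 < ρ) (hρ1 : ρ < 1)
    (hb : ∀ N : ℕ, ∫ ω, (f N ω - g ω) ^ 2 ∂μ ≤ C * ρ ^ N) :
    ∀ᵐ ω ∂μ, Tendsto (fun N => f N ω) atTop (𝓝 (g ω)) := by
  have hm : ∀ N, Measurable (fun ω => (f N ω - g ω) ^ 2) :=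
    fun N => ((hf N).sub hg).pow_const 2
  have hint : ∀ N, Integrable (fun ω => (f N ω - g ω) ^ 2) μ :=
    fun N => integrable_bdd (hm N) (K := B ^ 2) (fun ω => by
      rw [abs_of_nonneg (sq_nonneg _), ← sq_abs]
      exact pow_le_pow_left₀ (abs_nonneg _) (hB N ω) 2)
  have hlin : ∫⁻ ω, ∑' N, ENNReal.ofReal ((f N ω - g ω) ^ 2) ∂μ ≠ ⊤ := by
    rw [lintegral_tsum (fun N => ((hm N).ennreal_ofReal).aemeasurable)]
    have h2 : ∀ N, ∫⁻ ω, ENNReal.ofReal ((f N ω - g ω) ^ 2) ∂μ ≤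
        ENNReal.ofReal (C * ρ ^ N) := fun N => by
      rw [← ofReal_integral_eq_lintegral_ofReal (hint N)
        (Eventually.of_forall fun ω => sq_nonneg _)]
      exact ENNReal.ofReal_le_ofReal (hb N)
    refine ne_top_of_le_ne_top ?_ (ENNReal.tsum_le_tsum h2)
    exact ((summable_geometric_of_lt_one hρ0.le hρ1).mul_left C).tsum_ofReal_ne_top
  have hae := ae_lt_top (Measurable.tsum fun N => (hm N).ennreal_ofReal) hlin
  filter_upwards [hae] with ω hω
  have h3 := ENNReal.tendsto_atTop_zero_of_tsum_ne_top hω.ne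
  have h4 : Tendsto (fun N => (f N ω - g ω) ^ 2) atTop (𝓝 0) := by
    have h5 := (ENNReal.tendsto_toReal ENNReal.zero_ne_top).comp h3
    simp only [Function.comp_def, ENNReal.toReal_ofReal (sq_nonneg _), ENNReal.toReal_zero] at h5
    exact h5
  have h6 : Tendsto (fun N => f N ω - g ω) atTop (𝓝 0) := by
    rw [tendsto_zero_iff_abs_tendsto_zero]
    have h7 := (Real.continuous_sqrt.tendsto 0).comp h4
    simp only [Function.comp_def, Real.sqrt_sq_eq_abs, Real.sqrt_zero] at h7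
    exact h7
  have := h6.add_const (g ω)
  simpa using this

/-- almost sure convergence of the windows. -/
lemma ae_tendsto_ball (hT : G.IsTree) (hd : 3 ≤ d) (hreg : G.IsRegularOfDegree d) {θ : ℝ}
    (h0 : 0 ≤ θ) (h1 : θ < 1) (hθ : ((d : ℝ) - 1) * θ ^ 2 < 1) (k : ℕ) {s : ℝ} (hs : 0 ≤ s)
    (hs' : s ≤ 1 / 2) (z v : V) :
    ∀ᵐ ω ∂(labM V), Tendsto (fun N => M G θ (ball G z N) k s v ω) atTop
      (𝓝 (Mi G θ k s v ω)) := by
  obtain ⟨C, ρ, hC, hρ0, hρ1, hrate⟩ := exists_MiRate hT hd hreg h0 hθ k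
  have hmM : ∀ W : Finset V, Measurable (fun ω => M G θ W k s v ω) := fun W => by
    have h : (fun ω => M G θ W k s v ω) = (fun p : ℝ × Lab V => M G θ W k p.1 v p.2) ∘
      (fun ω => (s, ω)) := rfl
    rw [h]
    exact (measurable_M G h0 h1 W k v).comp measurable_prodMk_left
  have hmMi : Measurable (fun ω => Mi G θ k s v ω) := by
    have h : (fun ω => Mi G θ k s v ω) = (fun p : ℝ × Lab V => Mi G θ k p.1 v p.2) ∘
      (fun ω => (s, ω)) := rfl
    rw [h]
    exact (measurable_Mi hT h0 h1 k v).comp measurable_prodMk_left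
  have h8 : ∀ᵐ ω ∂(labM V), Tendsto (fun N => M G θ (ball G z (N + G.dist z v)) k s v ω) atTop
      (𝓝 (Mi G θ k s v ω)) := by
    refine ae_tendsto_of_sq (fun N => hmM _) hmMi (B := 2) (fun N ω => ?_) hρ0 hρ1 (C := C)
      (fun N => ?_)
    · have e1 : |M G θ (ball G z (N + G.dist z v)) k s v ω| ≤ 1 := abs_mg_le G h0 h1 _ _ _
      have e2 : |Mi G θ k s v ω| ≤ 1 := by
        refine (abs_Mi_le hT hreg h0 h1 v k hs hs' ω).trans ?_
        unfold rk
        exact (abs_lt.1 (Real.abs_tanh_lt_one _)).2.le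
      calc _ ≤ |M G θ (ball G z (N + G.dist z v)) k s v ω| + |Mi G θ k s v ω| := abs_sub _ _
        _ ≤ 1 + 1 := add_le_add e1 e2
        _ = 2 := by norm_num
    · refine hrate (ball G z (N + G.dist z v)) v N s (conv_ball hT z _) (fun w hw => ?_) hs hs'
      rw [mem_ball hT]
      have := hT.connected.dist_triangle (u := z) (v := v) (w := w)
      omega
  filter_upwards [h8] with ω hω
  exact (tendsto_add_atTop_iff_nat (G.dist z v)).1 hω

lemma abs_mg_one {θ : ℝ} (h0 : 0 ≤ θ) (h1 : θ < 1) (W : Finset V) (x : V → ℝ) (v : V) :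
    |mg G θ W x v| ≤ 1 := abs_mg_le G h0 h1 W x v

/-- the exponential moment in a window. -/
lemma win_bound (hT : G.IsTree) (hd : 3 ≤ d) (hreg : G.IsRegularOfDegree d) {θ : ℝ}
    (h0 : 0 < θ) (h1 : θ < 1) (k : ℕ) {s : ℝ} (hs : 0 ≤ s)
    (hs' : s ≤ 1 / 2) (lam L : ℕ) {A C : ℝ} (hA : 0 ≤ A) {z y : V} (hzy : G.Adj z y)
    {n : ℕ} (hLn : L ≤ n) (hfin : ∀ σ : ℝ, σ = 1 ∨ σ = -1 →
      ∫ ω, Real.exp (A * Zt G (d - 1) θ lam (free k s ω) L n z y) * Lr G θ k s ω n σ z y
        ∂(labM V) ≤ C) :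
    ∫ ω, Real.exp (A * Zp G (d - 1) θ lam (fun v => M G θ (ball G z (n + 1)) k s v ω) L z y)
      ∂(labM V) ≤ C := by
  classical
  set W := ball G z (n + 1) with hW
  have hzW : z ∈ W := by rw [hW, mem_ball hT]; simp
  have hWT := ball_filter hT (n := n) (z := z) (y := y)
  have hZb : ∀ (W' : Finset V) (x : V → ℝ),
      0 ≤ Zp G (d - 1) θ lam (fun v => mg G θ W' x v) L z y ∧
      Zp G (d - 1) θ lam (fun v => mg G θ W' x v) L z y ≤ 1 := fun W' x =>
    ⟨Zp_nonneg _ h0 h1 lam (fun v => abs_mg_one h0.le h1 W' x v) L z y,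
      Zp_le_one hd hreg h0 h1 lam (fun v => abs_mg_one h0.le h1 W' x v) L z y hzy⟩
  have hexpb : ∀ t : ℝ, 0 ≤ t → t ≤ 1 → |Real.exp (A * t)| ≤ Real.exp A := fun t _ ht => by
    rw [abs_of_pos (Real.exp_pos _)]
    apply Real.exp_le_exp.2
    nlinarith
  have hmF : Measurable (fun x : V → ℝ =>
      Real.exp (A * Zp G (d - 1) θ lam (fun v => mg G θ W x v) L z y)) :=
    Real.measurable_exp.comp ((measurable_Zp' (G := G) (d - 1) θ lam
      (m := fun v (x : V → ℝ) => mg G θ W x v)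
      (fun v => LawAux.measurable_mg G θ W v) L z y).const_mul A)
  have e1 := law_P G h0.le h1 W (Zw_zero hT h0.le h1 W) k hs hs' hmF
    ⟨Real.exp A, fun x => hexpb _ (hZb W x).1 (hZb W x).2⟩ (fun x x' h => by
      have : (fun v => mg G θ W x v) = (fun v => mg G θ W x' v) := by
        funext v; exact mg_congr G W h v
      simp only [this])
  have e2 : ∀ ω : Lab V, Zp G (d - 1) θ lam (fun v => mg G θ W (free k s ω) v) L z y =
      Zt G (d - 1) θ lam (free k s ω) L n z y := fun ω =>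
    Zp_eq_Zt hT h0.le h1 (d - 1) lam W (free k s ω) L n z y hzy hLn hWT
  have e2' : ∀ x : V → ℝ, Zp G (d - 1) θ lam (fun v => mg G θ (Tn G n z y) x v) L z y =
      Zt G (d - 1) θ lam x L n z y := fun x =>
    Zp_eq_Zt hT h0.le h1 (d - 1) lam (Tn G n z y) x L n z y hzy hLn (Tn_filter hT)
  have hZt : ∀ x : V → ℝ, 0 ≤ Zt G (d - 1) θ lam x L n z y ∧
      Zt G (d - 1) θ lam x L n z y ≤ 1 := fun x => by
    rw [← e2' x]; exact hZb _ x
  have hmZt : Measurable (fun ω : Lab V =>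
      Real.exp (A * Zt G (d - 1) θ lam (free k s ω) L n z y)) := by
    simp only [← e2']
    exact Real.measurable_exp.comp (((measurable_Zp' (G := G) (d - 1) θ lam
      (m := fun v (x : V → ℝ) => mg G θ (Tn G n z y) x v)
      (fun v => LawAux.measurable_mg G θ _ v) L z y).comp
        (LawAux.measurable_free k s)).const_mul A)
  have e3 := integral_mul_Lw_subtree hT h0.le h1 k hs hs' n hzy W (conv_ball hT z (n + 1)) hzW
    hWT.symm hmZt ⟨Real.exp A, fun ω => hexpb _ (hZt _).1 (hZt _).2⟩ (fun ω ω' h => by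
      have : (fun v => mg G θ (Tn G n z y) (free k s ω) v) =
          (fun v => mg G θ (Tn G n z y) (free k s ω') v) := by
        funext v
        refine mg_congr G _ (fun u hu => ?_) v
        unfold free
        have hj : ∀ j ≤ k, ω (u, j) = ω' (u, j) := fun j hj => h u hu j hj
        rw [hj k le_rfl]
        congr 1
        refine Finset.sum_congr rfl fun j hj' => ?_
        rw [hj j (Finset.mem_range.1 hj').le]
      simp only [← e2', this])
  have e4 : ∫ ω, Real.exp (A * Zp G (d - 1) θ lam (fun v => M G θ W k s v ω) L z y) ∂(labM V) =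
      ∫ ω, Real.exp (A * Zt G (d - 1) θ lam (free k s ω) L n z y) *
        ((Lr G θ k s ω n 1 z y + Lr G θ k s ω n (-1) z y) / 2) ∂(labM V) := by
    rw [← e3]
    refine Eq.trans e1 ?_
    refine integral_congr_ae (Eventually.of_forall fun ω => ?_)
    show Real.exp (A * Zp G (d - 1) θ lam (fun v => mg G θ W (free k s ω) v) L z y) * _ = _
    rw [e2]
  rw [e4]
  obtain ⟨K, hK, hbL⟩ := Lr_bdd h0.le h1 hs' hreg n (G := G) (k := k)
  have hi : ∀ (σ : ℝ) (_ : σ = 1 ∨ σ = -1),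
      Integrable (fun ω => Real.exp (A * Zt G (d - 1) θ lam (free k s ω) L n z y) *
        Lr G θ k s ω n σ z y) (labM V) := fun σ hσ =>
    integrable_bdd (hmZt.mul (measurable_Lr θ k s n σ z y)) (K := Real.exp A * K) (fun ω => by
      rw [abs_mul]
      exact mul_le_mul (hexpb _ (hZt _).1 (hZt _).2) (hbL σ hσ z y ω) (abs_nonneg _)
        (Real.exp_pos _).le)
  have e5 : ∫ ω, Real.exp (A * Zt G (d - 1) θ lam (free k s ω) L n z y) *
        ((Lr G θ k s ω n 1 z y + Lr G θ k s ω n (-1) z y) / 2) ∂(labM V) =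
      (∫ ω, Real.exp (A * Zt G (d - 1) θ lam (free k s ω) L n z y) *
        Lr G θ k s ω n 1 z y ∂(labM V) +
      ∫ ω, Real.exp (A * Zt G (d - 1) θ lam (free k s ω) L n z y) *
        Lr G θ k s ω n (-1) z y ∂(labM V)) / 2 := by
    rw [← integral_add (hi 1 (Or.inl rfl)) (hi (-1) (Or.inr rfl)), ← integral_div]
    refine integral_congr_ae (Eventually.of_forall fun ω => ?_)
    show Real.exp (A * Zt G (d - 1) θ lam (free k s ω) L n z y) *
        ((Lr G θ k s ω n 1 z y + Lr G θ k s ω n (-1) z y) / 2) =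
      (Real.exp (A * Zt G (d - 1) θ lam (free k s ω) L n z y) * Lr G θ k s ω n 1 z y +
      Real.exp (A * Zt G (d - 1) θ lam (free k s ω) L n z y) * Lr G θ k s ω n (-1) z y) / 2
    ring
  rw [e5]
  have := hfin 1 (Or.inl rfl)
  have := hfin (-1) (Or.inr rfl)
  linarith

lemma Ge_tendsto {θ : ℝ} (h0 : 0 ≤ θ) (h1 : θ < 1) {a b : ℕ → ℝ} {α β : ℝ}
    (ha : Tendsto a atTop (𝓝 α)) (hb : Tendsto b atTop (𝓝 β)) (hab : ∀ N, |a N| ≤ 1)
    (hbb : ∀ N, |b N| ≤ 1) : Tendsto (fun N => Ge θ (a N) (b N)) atTop (𝓝 (Ge θ α β)) := by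
  have hα : |α| ≤ 1 := le_of_tendsto ha.abs (Eventually.of_forall hab)
  have hβ : |β| ≤ 1 := le_of_tendsto hb.abs (Eventually.of_forall hbb)
  have hmem : (α, β) ∈ (Set.Icc (-1) 1 ×ˢ Set.Icc (-1) 1 : Set (ℝ × ℝ)) :=
    Set.mk_mem_prod (abs_le.1 hα) (abs_le.1 hβ)
  have hcont : ContinuousWithinAt (fun p : ℝ × ℝ => Ge θ p.1 p.2)
    (Set.Icc (-1) 1 ×ˢ Set.Icc (-1) 1) (α, β) := (continuousOn_Ge h0 h1) (α, β) hmem
  have h5 : Tendsto (fun N => (a N, b N)) atTop
      (𝓝[Set.Icc (-1) 1 ×ˢ Set.Icc (-1) 1] (α, β)) :=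
    tendsto_nhdsWithin_iff.2 ⟨ha.prodMk_nhds hb,
      Eventually.of_forall fun N => Set.mk_mem_prod (abs_le.1 (hab N)) (abs_le.1 (hbb N))⟩
  have key : Tendsto ((fun p : ℝ × ℝ => Ge θ p.1 p.2) ∘ (fun N => (a N, b N))) atTop
      (𝓝 ((fun p : ℝ × ℝ => Ge θ p.1 p.2) (α, β))) := Tendsto.comp hcont h5
  exact key

lemma ae_tendsto_Zp (hT : G.IsTree) (hd : 3 ≤ d) (hreg : G.IsRegularOfDegree d) {θ : ℝ}
    (h0 : 0 < θ) (h1 : θ < 1) (hθ : ((d : ℝ) - 1) * θ ^ 2 < 1) (k : ℕ) {s : ℝ} (hs : 0 ≤ s)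
    (hs' : s ≤ 1 / 2) (b lam L : ℕ) (r : V) : ∀ z y : V,
    ∀ᵐ ω ∂(labM V), Tendsto (fun N => Zp G b θ lam (fun v => M G θ (ball G r N) k s v ω) L z y)
      atTop (𝓝 (Zp G b θ lam (fun v => Mi G θ k s v ω) L z y)) := by
  classical
  induction L with
  | zero => intro z y; exact Eventually.of_forall fun ω => tendsto_const_nhds
  | succ L ih =>
    intro z y
    have hc : ∀ᵐ ω ∂(labM V), ∀ c ∈ (G.neighborFinset y).erase z,
        Tendsto (fun N => (Ge θ (M G θ (ball G r N) k s y ω) (M G θ (ball G r N) k s c ω) / θ) ^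
            (2 * lam) * Zp G b θ lam (fun v => M G θ (ball G r N) k s v ω) L y c) atTop
          (𝓝 ((Ge θ (Mi G θ k s y ω) (Mi G θ k s c ω) / θ) ^ (2 * lam) *
            Zp G b θ lam (fun v => Mi G θ k s v ω) L y c)) := by
      rw [Finset.eventually_all]
      intro c _
      filter_upwards [ih y c, ae_tendsto_ball hT hd hreg h0.le h1 hθ k hs hs' r y,
        ae_tendsto_ball hT hd hreg h0.le h1 hθ k hs hs' r c] with ω h2 h3 h4
      have hm : ∀ v N, |M G θ (ball G r N) k s v ω| ≤ 1 := fun v N => by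
        unfold M
        exact abs_mg_one h0.le h1 _ _ _
      exact Tendsto.mul (Tendsto.pow (Tendsto.div_const
        (Ge_tendsto h0.le h1 h3 h4 (hm y) (hm c)) _) _) h2
    filter_upwards [hc] with ω hω
    simp only [Zp_congr_Adj]
    exact (tendsto_finsetSum _ fun c hc => hω c hc).const_mul _

/-- transfer of the planted bound to infinite volume. -/
theorem expZ_of_Zt (hT : G.IsTree) (hd : 3 ≤ d) (hreg : G.IsRegularOfDegree d) {θ : ℝ}
    (h0 : 0 < θ) (hθ : ((d : ℝ) - 1) * θ ^ 2 < 1) (k : ℕ) {s : ℝ} (hs : 0 ≤ s)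
    (hs' : s ≤ 1 / 2) (lam L : ℕ) {A C : ℝ} (hA : 0 ≤ A) {z y : V} (hzy : G.Adj z y)
    (n₀ : ℕ) (hfin : ∀ n, n₀ ≤ n → ∀ σ : ℝ, σ = 1 ∨ σ = -1 →
      ∫ ω, Real.exp (A * Zt G (d - 1) θ lam (free k s ω) L n z y) * Lr G θ k s ω n σ z y
        ∂(labM V) ≤ C) :
    ∫ ω, Real.exp (A * Zp G (d - 1) θ lam (fun v => Mi G θ k s v ω) L z y) ∂(labM V) ≤ C := by
  have h1 : θ < 1 := by
    have hd3 : (3 : ℝ) ≤ d := by exact_mod_cast hd
    by_contra hc
    push Not at hc
    nlinarith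
  have hlim : Tendsto (fun n => ∫ ω, Real.exp (A * Zp G (d - 1) θ lam
      (fun v => M G θ (ball G z n) k s v ω) L z y) ∂(labM V)) atTop
      (𝓝 (∫ ω, Real.exp (A * Zp G (d - 1) θ lam (fun v => Mi G θ k s v ω) L z y)
        ∂(labM V))) := by
    refine tendsto_integral_of_dominated_convergence (fun _ => Real.exp A) (fun n => ?_)
      (integrable_const _) (fun n => Eventually.of_forall fun ω => ?_) ?_
    · refine (Real.measurable_exp.comp ((measurable_Zp' (G := G) (d - 1) θ lam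
        (m := fun v (ω : Lab V) => M G θ (ball G z n) k s v ω)
        (fun v => ?_) L z y).const_mul A)).aestronglyMeasurable
      have h : (fun ω => M G θ (ball G z n) k s v ω) =
        (fun p : ℝ × Lab V => M G θ (ball G z n) k p.1 v p.2) ∘ (fun ω => (s, ω)) := rfl
      rw [h]
      exact (measurable_M G h0.le h1 (ball G z n) k v).comp measurable_prodMk_left
    · rw [Real.norm_eq_abs, abs_of_pos (Real.exp_pos _)]
      apply Real.exp_le_exp.2
      have h2 := Zp_le_one (G := G) hd hreg h0 h1 lam (m := fun v => M G θ (ball G z n) k s v ω)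
        (fun v => by unfold M; exact abs_mg_one h0.le h1 _ _ _) L z y hzy
      calc A * Zp G (d - 1) θ lam (fun v => M G θ (ball G z n) k s v ω) L z y ≤ A * 1 :=
            mul_le_mul_of_nonneg_left h2 hA
        _ = A := mul_one A
    · filter_upwards [ae_tendsto_Zp hT hd hreg h0 h1 hθ k hs hs' (d - 1) lam L z z y] with ω hω
      exact (Real.continuous_exp.tendsto _).comp (hω.const_mul A)
  refine le_of_tendsto hlim ?_
  filter_upwards [eventually_ge_atTop (max n₀ L + 1)] with n hn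
  obtain ⟨m, rfl⟩ : ∃ m, n = m + 1 := ⟨n - 1, by omega⟩
  exact win_bound hT hd hreg h0 h1 k hs hs' lam L hA hzy
    (le_trans (le_max_right _ _) (Nat.succ_le_succ_iff.1 hn))
    (hfin m (le_trans (le_max_left _ _) (Nat.succ_le_succ_iff.1 hn)))

end Crest.Agent.Lib.Row160.BrZ
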