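import Crest.Agent.Lib.Row160.BridgeZ3
import Crest.Agent.Lib.Row160.BridgeH

/-!
Row 160, M9 (Z-part): exponential moments of the path weights in infinite volume.
-/

set_option autoImplicit false
open MeasureTheory Filter Topology

namespace Crest.Agent.Lib.Row160

variable {V : Type*} {G : SimpleGraph V} [G.LocallyFinite] {d : ℕ}

/-- OUTPUT 2: exponential moments of the averaged path weights, round 0. -/
theorem expZ_zero (hT : G.IsTree) (hd : 3 ≤ d) (hreg : G.IsRegularOfDegree d) :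
    ∃ ρ C : ℝ, 1 < ρ ∧ 0 < C ∧ ∀ (θ s : ℝ) (lam L : ℕ) (z y : V), 0 < θ →
    1 ≤ 4 * ((d : ℝ) - 1) * θ ^ 2 → ((d : ℝ) - 1) * θ ^ 2 < 1 → 0 < s → s ≤ 1 / 2 →
    1 - ((d : ℝ) - 1) * θ ^ 2 ≤ qs s → 1 ≤ lam * qs s → G.Adj z y →
    ∫ ω, Real.exp (ρ ^ L * Zp G (d - 1) θ lam (fun v => Mi G θ 0 s v ω) L z y) ∂(labM V) ≤ C := by
  obtain ⟨ρ, C, hρ, hC, h⟩ := expZt_zero hT hd hreg
  refine ⟨ρ, C, hρ, hC, ?_⟩
  intro θ s lam L z y h0 h1 h2 hs hs' hB hlam hzy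
  obtain ⟨n₀, hn⟩ := h θ s lam L h0 h1 h2 hs hs' hB hlam
  exact BrZ.expZ_of_Zt hT hd hreg h0 h2 0 hs.le hs' lam L (by positivity) hzy n₀
    (fun n hn' σ hσ => hn n z y σ hn' hzy hσ)

/-- OUTPUT 2': rounds `k ≥ 1`. -/
theorem expZ_pos (hT : G.IsTree) (hd : 3 ≤ d) (hreg : G.IsRegularOfDegree d) {k : ℕ}
    (hk : 1 ≤ k) :
    ∃ ρ C : ℝ, 1 < ρ ∧ 0 < C ∧ ∀ (θ s : ℝ) (lam L : ℕ) (z y : V), 0 < θ →
    1 ≤ 4 * ((d : ℝ) - 1) * θ ^ 2 → ((d : ℝ) - 1) * θ ^ 2 < 1 → 0 ≤ s → s ≤ 1 / 2 →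
    1 ≤ lam → G.Adj z y →
    ∫ ω, Real.exp (ρ ^ L * Zp G (d - 1) θ lam (fun v => Mi G θ k s v ω) L z y) ∂(labM V) ≤ C := by
  obtain ⟨ρ, C, hρ, hC, h⟩ := expZt_pos hT hd hreg hk
  refine ⟨ρ, C, hρ, hC, ?_⟩
  intro θ s lam L z y h0 h1 h2 hs hs' hlam hzy
  exact BrZ.expZ_of_Zt hT hd hreg h0 h2 k hs hs' lam L (by positivity) hzy L
    (fun n hn' σ hσ => h θ s lam L h0 h1 h2 hs hs' hlam n z y σ hn' hzy hσ)

end Crest.Agent.Lib.Row160
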