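import Mathlib

/-!
Row 160 (S0241), real analysis for the dynamic part of the critical case.
-/

set_option autoImplicit false
open MeasureTheory Filter Topology Set

namespace Crest.Agent.Lib.Row160

/-- Gronwall for a bounded measurable function. -/
theorem gronwall_bdd {T c B : ℝ} (hT : 0 ≤ T) {a e : ℝ → ℝ}
    (ha : Continuous a) (ha0 : ∀ s, 0 ≤ a s) (he : Measurable e)
    (heb : ∀ s, 0 ≤ s → s ≤ T → |e s| ≤ B)
    (h : ∀ s, 0 ≤ s → s ≤ T → e s ≤ c + ∫ r in (0 : ℝ)..s, a r * e r) :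
    e T ≤ c * Real.exp (∫ r in (0 : ℝ)..T, a r) := by
  classical
  set e' : ℝ → ℝ := fun s => if s ∈ Set.Icc 0 T then e s else 0 with he'
  have he'm : Measurable e' := Measurable.ite measurableSet_Icc he measurable_const
  have he'b : ∀ s, |e' s| ≤ |B| := by
    intro s
    by_cases hs : s ∈ Set.Icc 0 T
    · simp only [he', hs, if_true]; exact (heb s hs.1 hs.2).trans (le_abs_self B)
    · simp only [he', hs, if_false, abs_zero]; exact abs_nonneg B
  have hint : ∀ u v : ℝ, IntervalIntegrable (fun r => a r * e' r) volume u v := by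
    intro u v
    have h1 : IntervalIntegrable a volume u v := ha.intervalIntegrable u v
    have h2 : IntervalIntegrable (fun r => a r * e' r) volume u v := by
      rw [intervalIntegrable_iff] at h1 ⊢
      exact h1.mul_bdd (c := |B|) he'm.aestronglyMeasurable
        (Filter.Eventually.of_forall (fun s => by simpa using he'b s))
    exact h2
  set E : ℝ → ℝ := fun s => c + ∫ r in (0 : ℝ)..s, a r * e' r with hE
  have hEc : Continuous E := by
    exact continuous_const.add (intervalIntegral.continuous_primitive hint 0)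
  have heE : ∀ s, 0 ≤ s → s ≤ T → e' s ≤ E s := by
    intro s hs hs'
    have h1 : e' s = e s := by simp [he', hs, hs']
    rw [h1, hE]
    refine (h s hs hs').trans (le_of_eq ?_)
    congr 1
    apply intervalIntegral.integral_congr
    intro r hr
    rw [uIcc_of_le hs] at hr
    have : r ∈ Set.Icc 0 T := ⟨hr.1, hr.2.trans hs'⟩
    simp only [he', this, if_true]
  set F : ℝ → ℝ := fun s => c + ∫ r in (0 : ℝ)..s, a r * E r with hF
  have hF' : ∀ s, HasDerivAt F (a s * E s) s := by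
    intro s
    have := (intervalIntegral.integral_hasDerivAt_right
      ((ha.mul hEc).intervalIntegrable 0 s)
      ((ha.mul hEc).stronglyMeasurableAtFilter volume _) (ha.mul hEc).continuousAt)
    simpa [hF] using this.const_add c
  have hEF : ∀ s, 0 ≤ s → s ≤ T → E s ≤ F s := by
    intro s hs hs'
    simp only [hE, hF]
    apply add_le_add le_rfl
    apply intervalIntegral.integral_mono_on hs (hint 0 s) ((ha.mul hEc).intervalIntegrable 0 s)
    intro r hr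
    exact mul_le_mul_of_nonneg_left (heE r hr.1 (hr.2.trans hs')) (ha0 r)
  set A : ℝ → ℝ := fun s => ∫ r in (0 : ℝ)..s, a r with hA
  have hA' : ∀ s, HasDerivAt A (a s) s := by
    intro s
    exact (intervalIntegral.integral_hasDerivAt_right
      (ha.intervalIntegrable 0 s)
      (ha.stronglyMeasurableAtFilter volume _) ha.continuousAt)
  set G : ℝ → ℝ := fun s => F s * Real.exp (-A s) with hG
  have hG' : ∀ s, HasDerivAt G (a s * E s * Real.exp (-A s) +
      F s * (Real.exp (-A s) * (-a s))) s := by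
    intro s
    exact (hF' s).mul ((hA' s).neg.exp)
  have hanti : AntitoneOn G (Set.Icc 0 T) := by
    apply antitoneOn_of_deriv_nonpos (convex_Icc 0 T)
    · exact fun s _ => (hG' s).continuousAt.continuousWithinAt
    · exact fun s _ => (hG' s).differentiableAt.differentiableWithinAt
    · intro s hs
      rw [interior_Icc] at hs
      rw [(hG' s).deriv]
      have h1 := hEF s hs.1.le hs.2.le
      have h2 : a s * E s * Real.exp (-A s) + F s * (Real.exp (-A s) * (-a s)) =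
        (a s * Real.exp (-A s)) * (E s - F s) := by ring
      rw [h2]
      exact mul_nonpos_of_nonneg_of_nonpos
        (mul_nonneg (ha0 s) (Real.exp_pos _).le) (by linarith)
  have h3 := hanti (left_mem_Icc.2 hT) (right_mem_Icc.2 hT) hT
  have hG0 : G 0 = c := by simp [hG, hF, hA]
  rw [hG0] at h3
  have h4 : F T ≤ c * Real.exp (A T) := by
    have : F T = G T * Real.exp (A T) := by
      simp only [hG]
      rw [mul_assoc, ← Real.exp_add]; simp
    rw [this]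
    exact mul_le_mul_of_nonneg_right h3 (Real.exp_pos _).le
  have h5 := heE T hT le_rfl
  have h6 : e' T = e T := by simp [he', hT]
  rw [h6] at h5
  exact h5.trans ((hEF T hT le_rfl).trans h4)

theorem integral_inv_max {K s₁ : ℝ} (hs₁ : 0 < s₁) (hs : s₁ ≤ 1 / 2) :
    ∫ r in (0 : ℝ)..(1 / 2), K / max r s₁ = K + K * Real.log (1 / (2 * s₁)) := by
  have hc : Continuous (fun r : ℝ => K / max r s₁) := by
    apply continuous_const.div (continuous_id.max continuous_const)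
    intro r
    have : 0 < max r s₁ := lt_max_of_lt_right hs₁
    exact this.ne'
  rw [← intervalIntegral.integral_add_adjacent_intervals (hc.intervalIntegrable 0 s₁)
    (hc.intervalIntegrable s₁ (1 / 2))]
  have h1 : ∫ r in (0 : ℝ)..s₁, K / max r s₁ = K := by
    have : ∫ r in (0 : ℝ)..s₁, K / max r s₁ = ∫ r in (0 : ℝ)..s₁, K / s₁ := by
      apply intervalIntegral.integral_congr
      intro r hr
      rw [uIcc_of_le hs₁.le] at hr
      simp only
      rw [max_eq_right hr.2]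
    rw [this]
    simp only [intervalIntegral.integral_const, sub_zero, smul_eq_mul]
    field_simp
  have h2 : ∫ r in s₁..(1 / 2), K / max r s₁ = K * Real.log (1 / (2 * s₁)) := by
    have : ∫ r in s₁..(1 / 2), K / max r s₁ = ∫ r in s₁..(1 / 2), K * r⁻¹ := by
      apply intervalIntegral.integral_congr
      intro r hr
      rw [uIcc_of_le hs] at hr
      simp only
      rw [max_eq_left hr.1, div_eq_mul_inv]
    rw [this, intervalIntegral.integral_const_mul, integral_inv_of_pos hs₁ (by norm_num)]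
    congr 2
    field_simp
  rw [h1, h2]

/-- the abstract form of the argument: quantitative bound. -/
theorem dyn_key {K : ℝ} (hK : 1 ≤ K) {CN : ℕ → ℝ}
    (hCN : ∀ N, 0 ≤ CN N) {e f : ℝ → ℝ} {τ : ℝ} (hτ0 : 0 ≤ τ) (hem : Measurable e)
    (he0 : ∀ s, 0 ≤ s → s ≤ 1 / 2 → 0 ≤ e s)
    (he1 : ∀ s, 0 ≤ s → s ≤ 1 / 2 → e s ≤ 4)
    (h1 : ∀ (x r : ℝ) (N : ℕ), 1 ≤ x → 0 < r → r ≤ 1 / 2 → f r ≤ K * (1 + x) * e r +
      K * (CN N * r ^ N + x * Real.exp (-x ^ 2) + x * τ))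
    (h2 : ∀ (x r : ℝ), 1 ≤ x → 0 < r → r ≤ 1 / 2 → f r ≤ K * (1 / r + x) * e r +
      K * (x * Real.exp (-x ^ 2) + x * τ))
    (hI : ∀ s, 0 ≤ s → s ≤ 1 / 2 → e s ≤ τ + ∫ r in (0 : ℝ)..s, f r)
    {N : ℕ} (hN : 2 * K ≤ N) {x : ℝ} (hx : 1 ≤ x) : e (1 / 2) ≤
      (K * (CN N * Real.exp (-x ^ 2) + x * Real.exp (-x ^ 2) + x * τ) + τ) *
        Real.exp (2 * K + K * x + x ^ 2 / 2) := by
  set s₁ : ℝ := Real.exp (-(x ^ 2 / (2 * K))) / 2 with hs₁
  have hs₁0 : 0 < s₁ := by positivity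
  have hs₁1 : s₁ ≤ 1 / 2 := by
    have : Real.exp (-(x ^ 2 / (2 * K))) ≤ 1 := by
      rw [Real.exp_le_one_iff]
      have : 0 ≤ x ^ 2 / (2 * K) := by positivity
      linarith
    rw [hs₁]; linarith
  set a : ℝ → ℝ := fun r => K * (1 + x) + K / max r s₁ with ha
  have hmaxpos : ∀ r, 0 < max r s₁ := fun r => lt_max_of_lt_right hs₁0
  have hac : Continuous a := by
    apply continuous_const.add
    apply continuous_const.div (continuous_id.max continuous_const)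
    exact fun r => (hmaxpos r).ne'
  have ha0 : ∀ r, 0 ≤ a r := by
    intro r
    have := hmaxpos r
    simp only [ha]
    positivity
  set c₀ : ℝ := K * (CN N * Real.exp (-x ^ 2) + x * Real.exp (-x ^ 2) + x * τ) with hc₀
  have hc₀0 : 0 ≤ c₀ := by
    have h1 := hCN N
    have h2 := hτ0
    positivity
  have hpow : s₁ ^ N ≤ Real.exp (-x ^ 2) := by
    have e1 : s₁ ≤ Real.exp (-(x ^ 2 / (2 * K))) := by
      rw [hs₁]; have := Real.exp_pos (-(x ^ 2 / (2 * K))); linarith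
    calc s₁ ^ N ≤ Real.exp (-(x ^ 2 / (2 * K))) ^ N := pow_le_pow_left₀ hs₁0.le e1 N
      _ = Real.exp (N * (-(x ^ 2 / (2 * K)))) := by rw [← Real.exp_nat_mul]
      _ ≤ Real.exp (-x ^ 2) := by
        apply Real.exp_le_exp.2
        have : x ^ 2 ≤ N * (x ^ 2 / (2 * K)) := by
          rw [← mul_div_assoc, le_div_iff₀ (by positivity)]
          nlinarith [sq_nonneg x]
        linarith
  have hf : ∀ r, 0 < r → r ≤ 1 / 2 → f r ≤ a r * e r + c₀ := by
    intro r hr hr'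
    have her := he0 r hr.le hr'
    rcases le_or_gt r s₁ with h | h
    · have := h1 x r N hx hr hr'
      have e1 : r ^ N ≤ Real.exp (-x ^ 2) := (pow_le_pow_left₀ hr.le h N).trans hpow
      have e2 : CN N * r ^ N ≤ CN N * Real.exp (-x ^ 2) := mul_le_mul_of_nonneg_left e1 (hCN N)
      have e3 : 0 ≤ K / max r s₁ * e r := mul_nonneg (div_nonneg (by linarith) (hmaxpos r).le) her
      have e4 : K * (CN N * r ^ N + x * Real.exp (-x ^ 2) + x * τ) ≤ c₀ := by
        rw [hc₀]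
        apply mul_le_mul_of_nonneg_left _ (by linarith)
        linarith
      calc f r ≤ _ := this
        _ ≤ K * (1 + x) * e r + c₀ := by linarith
        _ ≤ a r * e r + c₀ := by simp only [ha]; nlinarith
    · have := h2 x r hx hr hr'
      have e1 : max r s₁ = r := max_eq_left h.le
      have e4 : K * (x * Real.exp (-x ^ 2) + x * τ) ≤ c₀ := by
        rw [hc₀]
        apply mul_le_mul_of_nonneg_left _ (by linarith)
        have : 0 ≤ CN N * Real.exp (-x ^ 2) := mul_nonneg (hCN N) (Real.exp_pos _).le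
        linarith
      calc f r ≤ _ := this
        _ ≤ K * (1 / r + x) * e r + c₀ := by linarith
        _ ≤ a r * e r + c₀ := by
          simp only [ha, e1]
          have : K * (1 / r + x) * e r = K / r * e r + K * x * e r := by
            field_simp
          rw [this]
          nlinarith
  have hebd : ∀ s, 0 ≤ s → s ≤ 1 / 2 → |e s| ≤ 4 := by
    intro s hs hs'
    rw [abs_of_nonneg (he0 s hs hs')]; exact he1 s hs hs'
  have hmul : ∀ s, 0 ≤ s → s ≤ 1 / 2 → IntervalIntegrable (fun r => a r * e r) volume 0 s := by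
    intro s hs hs'
    have h1 : IntervalIntegrable a volume 0 s := hac.intervalIntegrable 0 s
    rw [intervalIntegrable_iff] at h1 ⊢
    refine h1.mul_bdd (c := 4) hem.aestronglyMeasurable ?_
    rw [ae_restrict_iff' measurableSet_uIoc]
    refine Filter.Eventually.of_forall (fun r hr => ?_)
    rw [uIoc_of_le hs] at hr
    simpa using hebd r hr.1.le (hr.2.trans hs')
  have hmain : ∀ s, 0 ≤ s → s ≤ 1 / 2 → e s ≤ (c₀ + τ) + ∫ r in (0 : ℝ)..s, a r * e r := by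
    intro s hs hs'
    have hnn : 0 ≤ ∫ r in (0 : ℝ)..s, a r * e r := by
      apply intervalIntegral.integral_nonneg hs
      intro r hr
      exact mul_nonneg (ha0 r) (he0 r hr.1 (hr.2.trans hs'))
    have h3 : ∫ r in (0 : ℝ)..s, f r ≤ c₀ + ∫ r in (0 : ℝ)..s, a r * e r := by
      by_cases hfi : IntervalIntegrable f volume 0 s
      · have h4 : ∫ r in (0 : ℝ)..s, f r ≤ ∫ r in (0 : ℝ)..s, (a r * e r + c₀) := by
          apply intervalIntegral.integral_mono_on_of_le_Ioo hs hfi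
            ((hmul s hs hs').add intervalIntegrable_const)
          intro r hr
          exact hf r hr.1 (hr.2.le.trans hs')
        rw [intervalIntegral.integral_add (hmul s hs hs') intervalIntegrable_const] at h4
        simp only [intervalIntegral.integral_const, sub_zero, smul_eq_mul] at h4
        nlinarith
      · rw [intervalIntegral.integral_undef hfi]
        linarith
    have := hI s hs hs'
    linarith
  have hg := gronwall_bdd (T := 1 / 2) (c := c₀ + τ) (B := 4) (by norm_num) hac ha0 hem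
    hebd hmain
  refine hg.trans ?_
  apply mul_le_mul_of_nonneg_left _ (by linarith [hτ0])
  apply Real.exp_le_exp.2
  have hint : ∫ r in (0 : ℝ)..(1 / 2), a r = K * (1 + x) / 2 + (K + K * Real.log (1 / (2 * s₁))) := by
    simp only [ha]
    rw [intervalIntegral.integral_add intervalIntegrable_const, integral_inv_max hs₁0 hs₁1]
    · simp only [intervalIntegral.integral_const, sub_zero, smul_eq_mul]; ring
    · apply Continuous.intervalIntegrable
      apply continuous_const.div (continuous_id.max continuous_const)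
      exact fun r => (hmaxpos r).ne'
  have hlog : Real.log (1 / (2 * s₁)) = x ^ 2 / (2 * K) := by
    have : 2 * s₁ = Real.exp (-(x ^ 2 / (2 * K))) := by rw [hs₁]; ring
    rw [this, one_div, ← Real.exp_neg, Real.log_exp, neg_neg]
  rw [hint, hlog]
  have : K * (x ^ 2 / (2 * K)) = x ^ 2 / 2 := by field_simp
  rw [this]
  nlinarith

/-- the abstract form of the argument. -/
theorem dyn_abstract {ι : Type*} {l : Filter ι} {K : ℝ} (hK : 1 ≤ K) {CN : ℕ → ℝ}
    (hCN : ∀ N, 0 ≤ CN N) {e f : ι → ℝ → ℝ} (hem : ∀ i, Measurable (e i))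
    (he0 : ∀ i s, 0 ≤ s → s ≤ 1 / 2 → 0 ≤ e i s)
    (he1 : ∀ i s, 0 ≤ s → s ≤ 1 / 2 → e i s ≤ 4)
    (h : ∀ τ : ℝ, 0 < τ → ∀ᶠ i in l, (∀ (x r : ℝ) (N : ℕ), 1 ≤ x → 0 < r → r ≤ 1 / 2 →
        f i r ≤ K * (1 + x) * e i r + K * (CN N * r ^ N + x * Real.exp (-x ^ 2) + x * τ)) ∧
      (∀ (x r : ℝ), 1 ≤ x → 0 < r → r ≤ 1 / 2 →
        f i r ≤ K * (1 / r + x) * e i r + K * (x * Real.exp (-x ^ 2) + x * τ)) ∧
      (∀ s, 0 ≤ s → s ≤ 1 / 2 → e i s ≤ τ + ∫ r in (0 : ℝ)..s, f i r)) :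
    Tendsto (fun i => e i (1 / 2)) l (𝓝 0) := by
  obtain ⟨N, hN⟩ := exists_nat_ge (2 * K)
  -- conclusion
  have hsimp : ∀ x : ℝ, 1 ≤ x → K * (CN N * Real.exp (-x ^ 2) + x * Real.exp (-x ^ 2)) *
      Real.exp (2 * K + K * x + x ^ 2 / 2) ≤
      K * (4 * (CN N + 1)) * Real.exp (2 * K + K ^ 2) * x⁻¹ := by
    intro x hx
    have hx0 : 0 < x := by linarith
    have e1 : CN N * Real.exp (-x ^ 2) + x * Real.exp (-x ^ 2) ≤ (CN N + 1) * x * Real.exp (-x ^ 2) := by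
      have h3 : CN N + x ≤ (CN N + 1) * x := by nlinarith [hCN N]
      have := mul_le_mul_of_nonneg_right h3 (Real.exp_pos (-x ^ 2)).le
      linarith
    have e2 : Real.exp (-x ^ 2) * Real.exp (2 * K + K * x + x ^ 2 / 2) ≤
        Real.exp (2 * K + K ^ 2) * Real.exp (-(x ^ 2 / 4)) := by
      rw [← Real.exp_add, ← Real.exp_add]
      apply Real.exp_le_exp.2
      nlinarith [sq_nonneg (K - x / 2)]
    have e3 : Real.exp (-(x ^ 2 / 4)) ≤ 4 * (x⁻¹ * x⁻¹) := by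
      have h4 : x ^ 2 / 4 ≤ Real.exp (x ^ 2 / 4) := by
        have := Real.add_one_le_exp (x ^ 2 / 4); linarith
      rw [Real.exp_neg]
      have h5 : (Real.exp (x ^ 2 / 4))⁻¹ ≤ (x ^ 2 / 4)⁻¹ := inv_anti₀ (by positivity) h4
      refine h5.trans (le_of_eq ?_)
      field_simp
    have e4 : 0 ≤ (CN N + 1) * x := by have := hCN N; positivity
    calc K * (CN N * Real.exp (-x ^ 2) + x * Real.exp (-x ^ 2)) *
        Real.exp (2 * K + K * x + x ^ 2 / 2)
        ≤ K * ((CN N + 1) * x * Real.exp (-x ^ 2)) * Real.exp (2 * K + K * x + x ^ 2 / 2) := by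
          apply mul_le_mul_of_nonneg_right _ (Real.exp_pos _).le
          exact mul_le_mul_of_nonneg_left e1 (by linarith)
      _ = K * ((CN N + 1) * x) * (Real.exp (-x ^ 2) * Real.exp (2 * K + K * x + x ^ 2 / 2)) := by ring
      _ ≤ K * ((CN N + 1) * x) * (Real.exp (2 * K + K ^ 2) * Real.exp (-(x ^ 2 / 4))) :=
          mul_le_mul_of_nonneg_left e2 (by positivity)
      _ ≤ K * ((CN N + 1) * x) * (Real.exp (2 * K + K ^ 2) * (4 * (x⁻¹ * x⁻¹))) := by
          apply mul_le_mul_of_nonneg_left _ (by positivity)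
          exact mul_le_mul_of_nonneg_left e3 (Real.exp_pos _).le
      _ = K * (4 * (CN N + 1)) * Real.exp (2 * K + K ^ 2) * x⁻¹ := by
          field_simp
  rw [Metric.tendsto_nhds]
  intro ε hε
  set B₀ : ℝ := K * (4 * (CN N + 1)) * Real.exp (2 * K + K ^ 2) with hB₀
  have hB₀0 : 0 ≤ B₀ := by have := hCN N; positivity
  obtain ⟨x, hx1, hx2⟩ : ∃ x : ℝ, 1 ≤ x ∧ B₀ * x⁻¹ < ε / 2 := by
    refine ⟨max 1 (2 * (B₀ + 1) / ε), le_max_left _ _, ?_⟩
    have hpos : 0 < max 1 (2 * (B₀ + 1) / ε) := lt_of_lt_of_le one_pos (le_max_left _ _)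
    rw [← div_eq_mul_inv, div_lt_iff₀ hpos]
    have h5 : 2 * (B₀ + 1) / ε ≤ max 1 (2 * (B₀ + 1) / ε) := le_max_right _ _
    rw [div_le_iff₀ hε] at h5
    nlinarith
  set B₁ : ℝ := (K * x + 1) * Real.exp (2 * K + K * x + x ^ 2 / 2) with hB₁
  have hB₁0 : 0 < B₁ := by positivity
  have hτ0 : 0 < ε / 4 / B₁ := by positivity
  filter_upwards [h _ hτ0] with i hi
  rw [Real.dist_eq, sub_zero, abs_of_nonneg (he0 i _ (by norm_num) le_rfl)]
  refine lt_of_le_of_lt (dyn_key hK hCN hτ0.le (hem i) (he0 i) (he1 i) hi.1 hi.2.1 hi.2.2 hN hx1) ?_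
  have e5 : (K * (CN N * Real.exp (-x ^ 2) + x * Real.exp (-x ^ 2) + x * (ε / 4 / B₁)) +
        ε / 4 / B₁) * Real.exp (2 * K + K * x + x ^ 2 / 2) =
      K * (CN N * Real.exp (-x ^ 2) + x * Real.exp (-x ^ 2)) *
        Real.exp (2 * K + K * x + x ^ 2 / 2) + B₁ * (ε / 4 / B₁) := by
    rw [hB₁]; ring
  rw [e5]
  have e6 := hsimp x hx1
  have e7 : B₁ * (ε / 4 / B₁) = ε / 4 := by field_simp
  linarith

theorem source_small' {τ x y B : ℝ} (hτ : 0 ≤ τ) (hB : 0 ≤ B) (hx : 0 < x) (h1 : y ≤ B * x)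
    (h2 : y * x ^ 5 ≤ B * τ ^ 6) : y ≤ B * τ := by
  rcases le_or_gt x τ with h | h
  · exact h1.trans (mul_le_mul_of_nonneg_left h hB)
  · have h3 : τ ^ 5 ≤ x ^ 5 := pow_le_pow_left₀ hτ h.le 5
    have h4 : B * τ ^ 6 ≤ (B * τ) * x ^ 5 := by
      have : B * τ ^ 6 = (B * τ) * τ ^ 5 := by ring
      rw [this]
      exact mul_le_mul_of_nonneg_left h3 (by positivity)
    have h5 : y * x ^ 5 ≤ (B * τ) * x ^ 5 := h2.trans h4
    exact le_of_mul_le_mul_right h5 (by positivity)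

/-- final arithmetic in round `0`. -/
theorem dyn_final_arith {a g Cy Ct B3 B4 Bz D E Y Y2 τ X ε r rN F : ℝ} (ha : 0 ≤ a) (hg : 0 ≤ g)
    (hCy : 0 ≤ Cy) (hCt : 0 ≤ Ct) (hB3 : 0 ≤ B3) (hB4 : 0 ≤ B4) (hBz : 0 ≤ Bz) (hD : 0 ≤ D)
    (hE : 0 ≤ E) (hτ : 0 ≤ τ) (hX : 1 ≤ X) (hε : 0 ≤ ε) (hr : 0 < r) (hr1 : r ≤ 1) (hrN : 0 ≤ rN)
    (hF : F ≤ a * (E + Y + B3 * τ + B4 * τ + τ + X * (E + Y2 + ε)) + g * (1 + X) * (E + ε))
    (hY2 : Y2 ≤ 2 * Cy * E + 2 * Ct * τ)
    (hYA : Y ≤ 2 * Cy * E + D * rN + 2 * Bz * τ)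
    (hYB : Y ≤ 2 * Cy * (E / r) + 2 * Bz * τ) :
    F ≤ (1 + a * (2 + 2 * Cy) + 2 * g + a * (B3 + B4 + 1 + 2 * Bz + 2 * Ct)) * (1 + X) * E +
      (1 + a * (2 + 2 * Cy) + 2 * g + a * (B3 + B4 + 1 + 2 * Bz + 2 * Ct)) *
        (D * rN + X * ε + X * τ) ∧
    F ≤ (1 + a * (2 + 2 * Cy) + 2 * g + a * (B3 + B4 + 1 + 2 * Bz + 2 * Ct)) * (1 / r + X) * E +
      (1 + a * (2 + 2 * Cy) + 2 * g + a * (B3 + B4 + 1 + 2 * Bz + 2 * Ct)) *
        (X * ε + X * τ) := by
  set K : ℝ := 1 + a * (2 + 2 * Cy) + 2 * g + a * (B3 + B4 + 1 + 2 * Bz + 2 * Ct) with hK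
  have hX0 : 0 < X := by linarith
  have hXY : a * (X * (E + Y2 + ε)) ≤ a * (X * (E + 2 * Cy * E + 2 * Ct * τ + ε)) := by
    apply mul_le_mul_of_nonneg_left _ ha
    apply mul_le_mul_of_nonneg_left _ hX0.le
    linarith
  have hτX : τ ≤ X * τ := by nlinarith
  have hεX : ε ≤ X * ε := by nlinarith
  have p1 : 0 ≤ a * (B3 + B4 + 1 + 2 * Bz + 2 * Ct) := by positivity
  have p2 : a * (2 + 2 * Cy) = a * (1 + 2 * Cy) + a := by ring
  have p3 : 0 ≤ a * (1 + 2 * Cy) := by positivity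
  have k1 : a * (1 + 2 * Cy) + g ≤ K := by linarith
  have k2 : a ≤ K := by linarith
  have k3 : a * (B3 + B4 + 1 + 2 * Bz + 2 * Ct) ≤ K := by linarith
  have k4 : a + 2 * g ≤ K := by linarith
  -- contributions of τ and ε
  have c1 : a * (B3 * τ + B4 * τ + τ + 2 * Bz * τ) + a * (X * (2 * Ct * τ)) ≤ K * (X * τ) := by
    have e1 : a * (B3 * τ + B4 * τ + τ + 2 * Bz * τ) = a * (B3 + B4 + 1 + 2 * Bz) * τ := by ring
    have e2 : a * (B3 + B4 + 1 + 2 * Bz) * τ ≤ a * (B3 + B4 + 1 + 2 * Bz) * (X * τ) :=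
      mul_le_mul_of_nonneg_left hτX (by positivity)
    have e3 : a * (B3 + B4 + 1 + 2 * Bz) * (X * τ) + a * (X * (2 * Ct * τ)) =
      a * (B3 + B4 + 1 + 2 * Bz + 2 * Ct) * (X * τ) := by ring
    have e4 : a * (B3 + B4 + 1 + 2 * Bz + 2 * Ct) * (X * τ) ≤ K * (X * τ) :=
      mul_le_mul_of_nonneg_right k3 (by positivity)
    linarith
  have c2 : a * (X * ε) + g * (1 + X) * ε ≤ K * (X * ε) := by
    have e0 : g * ε ≤ g * (X * ε) := mul_le_mul_of_nonneg_left hεX hg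
    have e1 : g * (1 + X) * ε = g * ε + g * (X * ε) := by ring
    have e2 : (a + 2 * g) * (X * ε) ≤ K * (X * ε) := mul_le_mul_of_nonneg_right k4 (by positivity)
    have e3 : (a + 2 * g) * (X * ε) = a * (X * ε) + 2 * (g * (X * ε)) := by ring
    linarith
  constructor
  · have hY : a * Y ≤ a * (2 * Cy * E + D * rN + 2 * Bz * τ) := mul_le_mul_of_nonneg_left hYA ha
    have c3 : a * (E + 2 * Cy * E + X * (E + 2 * Cy * E)) + g * (1 + X) * E ≤ K * (1 + X) * E := by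
      have : a * (E + 2 * Cy * E + X * (E + 2 * Cy * E)) + g * (1 + X) * E =
        (a * (1 + 2 * Cy) + g) * ((1 + X) * E) := by ring
      rw [this, mul_assoc K]
      exact mul_le_mul_of_nonneg_right k1 (by positivity)
    have c4 : a * (D * rN) ≤ K * (D * rN) := mul_le_mul_of_nonneg_right k2 (by positivity)
    calc F ≤ _ := hF
      _ = a * E + a * Y + a * (B3 * τ + B4 * τ + τ) + a * (X * (E + Y2 + ε)) +
          g * (1 + X) * E + g * (1 + X) * ε := by ring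
      _ ≤ a * E + a * (2 * Cy * E + D * rN + 2 * Bz * τ) + a * (B3 * τ + B4 * τ + τ) +
          a * (X * (E + 2 * Cy * E + 2 * Ct * τ + ε)) + g * (1 + X) * E + g * (1 + X) * ε := by
          linarith
      _ = (a * (E + 2 * Cy * E + X * (E + 2 * Cy * E)) + g * (1 + X) * E) +
          a * (D * rN) + (a * (X * ε) + g * (1 + X) * ε) +
          (a * (B3 * τ + B4 * τ + τ + 2 * Bz * τ) + a * (X * (2 * Ct * τ))) := by ring
      _ ≤ K * (1 + X) * E + K * (D * rN) + K * (X * ε) + K * (X * τ) := by linarith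
      _ = _ := by ring
  · have hY : a * Y ≤ a * (2 * Cy * (E / r) + 2 * Bz * τ) := mul_le_mul_of_nonneg_left hYB ha
    have hEr : E ≤ E / r := by
      rw [le_div_iff₀ hr]; nlinarith
    have hEr0 : 0 ≤ E / r := by positivity
    have c3 : a * (E + 2 * Cy * (E / r) + X * (E + 2 * Cy * E)) + g * (1 + X) * E ≤
        K * (1 / r + X) * E := by
      have e1 : a * (E + 2 * Cy * (E / r) + X * (E + 2 * Cy * E)) + g * (1 + X) * E ≤
        (a * (1 + 2 * Cy) + g) * (E / r + X * E) := by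
        have f1 : a * E ≤ a * (E / r) := mul_le_mul_of_nonneg_left hEr ha
        have f2 : g * E ≤ g * (E / r) := mul_le_mul_of_nonneg_left hEr hg
        have f3 : a * (E + 2 * Cy * (E / r) + X * (E + 2 * Cy * E)) + g * (1 + X) * E =
          a * E + g * E + a * (2 * Cy * (E / r)) + a * (1 + 2 * Cy) * (X * E) + g * (X * E) := by
          ring
        have f4 : (a * (1 + 2 * Cy) + g) * (E / r + X * E) = a * (E / r) + g * (E / r) +
          a * (2 * Cy * (E / r)) + a * (1 + 2 * Cy) * (X * E) + g * (X * E) := by ring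
        linarith
      have e2 : (a * (1 + 2 * Cy) + g) * (E / r + X * E) ≤ K * (E / r + X * E) :=
        mul_le_mul_of_nonneg_right k1 (by positivity)
      have e3 : K * (1 / r + X) * E = K * (E / r + X * E) := by ring
      linarith
    calc F ≤ _ := hF
      _ = a * E + a * Y + a * (B3 * τ + B4 * τ + τ) + a * (X * (E + Y2 + ε)) +
          g * (1 + X) * E + g * (1 + X) * ε := by ring
      _ ≤ a * E + a * (2 * Cy * (E / r) + 2 * Bz * τ) + a * (B3 * τ + B4 * τ + τ) +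
          a * (X * (E + 2 * Cy * E + 2 * Ct * τ + ε)) + g * (1 + X) * E + g * (1 + X) * ε := by
          linarith
      _ = (a * (E + 2 * Cy * (E / r) + X * (E + 2 * Cy * E)) + g * (1 + X) * E) +
          (a * (X * ε) + g * (1 + X) * ε) +
          (a * (B3 * τ + B4 * τ + τ + 2 * Bz * τ) + a * (X * (2 * Ct * τ))) := by ring
      _ ≤ K * (1 / r + X) * E + K * (X * ε) + K * (X * τ) := by linarith
      _ = _ := by ring

theorem fbound_num {C1 C2 Cy Cz Cs Cm Cn B E Y2 b1 Z2 S D Gm τ x ε r q y Δ : ℝ} {N : ℕ} {M : ℝ}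
    (hC1 : 0 < C1) (hC2 : 0 < C2) (hCy : 0 < Cy) (hCz : 0 < Cz) (hCs : 0 < Cs) (hCm : 0 < Cm)
    (hCn : 0 < Cn)
    (hy0 : 0 < y) (hy1 : y ≤ 1) (hr : r = y ^ 2) (hq : q = y ^ 3) (hx : 1 ≤ x) (hε : 0 ≤ ε)
    (hE : 0 ≤ E) (hY20 : 0 ≤ Y2) (hΔ0 : 0 ≤ Δ) (hτ : 0 ≤ τ)
    (hD : D ≤ C1 * (E / q + Y2 / q ^ 2 + b1 ^ 2 / q ^ 3 + S + Δ + x * (E + Y2 + ε)))
    (hG : Gm ≤ C2 * (1 / q + x) * (E + ε))
    (hYA : Y2 ≤ Cy * (E + E) + 2 * Z2)
    (hYB : Y2 ≤ Cy * (r * (E + E) + M / r ^ (2 * N + 1)) + 2 * Z2)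
    (hM : M ≤ 4 * (Cn * q ^ (2 * N + 2)))
    (hZ1 : Z2 ≤ Cz * Δ) (hZ2 : Z2 ≤ Cz * (2 * (Cm * q ^ 2)))
    (hb : |b1| ≤ B * q) (hbτ : b1 ^ 2 ≤ τ ^ 6) (hΔ1 : Δ ≤ τ) (hΔ6 : Δ ≤ τ ^ 6)
    (hS1 : S ≤ Cs / q) (hS2 : S ≤ Cs * Δ / q ^ 3) :
    let a := 1000 * C1
    let g := 1000 * C2
    let Bz := Cz * (2 * Cm) + Cz
    let K := 1 + a * (2 + 2 * Cy) + 2 * g + a * ((B ^ 2 + 1) + Cs + 1 + 2 * Bz + 2 * Cz)
    1000 * r ^ 2 * D + 1000 * r ^ 4 * Gm ≤
      K * (1 + x) * E + K * ((4 * Cy * Cn) * r ^ N + x * ε + x * τ) ∧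
    1000 * r ^ 2 * D + 1000 * r ^ 4 * Gm ≤
      K * (1 / r + x) * E + K * (x * ε + x * τ) := by
  intro a g Bz K
  have hx0 : 0 < x := by linarith
  have hr0 : 0 < r := by rw [hr]; positivity
  have hq0 : 0 < q := by rw [hq]; positivity
  have hr1 : r ≤ 1 := by rw [hr]; exact pow_le_one₀ hy0.le hy1
  have hyne : y ≠ 0 := hy0.ne'
  set T3 : ℝ := b1 ^ 2 / y ^ 5 with hT3
  have hT3b : T3 ≤ (B ^ 2 + 1) * τ := by
    apply source_small' hτ (by positivity) hy0
    · have h1 : b1 ^ 2 ≤ (B * q) ^ 2 := by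
        rw [← sq_abs b1]; exact pow_le_pow_left₀ (abs_nonneg _) hb 2
      rw [hT3, div_le_iff₀ (by positivity)]
      have h2 : (B * q) ^ 2 = B ^ 2 * y * y ^ 5 := by rw [hq]; ring
      have h3 : 0 ≤ 1 * y * y ^ 5 := by positivity
      calc b1 ^ 2 ≤ (B * q) ^ 2 := h1
        _ = B ^ 2 * y * y ^ 5 := h2
        _ ≤ (B ^ 2 + 1) * y * y ^ 5 := by linarith
    · have h1 : T3 * y ^ 5 = b1 ^ 2 := by rw [hT3]; field_simp
      have h2 : 0 ≤ B ^ 2 * τ ^ 6 := by positivity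
      rw [h1]; linarith
  set T4 : ℝ := y ^ 4 * S with hT4
  have hT4b : T4 ≤ Cs * τ := by
    apply source_small' hτ hCs.le hy0
    · have h1 : y ^ 4 * S ≤ y ^ 4 * (Cs / q) := mul_le_mul_of_nonneg_left hS1 (by positivity)
      have h2 : y ^ 4 * (Cs / q) = Cs * y := by rw [hq]; field_simp
      linarith
    · have h1 : y ^ 9 * S ≤ y ^ 9 * (Cs * Δ / q ^ 3) := mul_le_mul_of_nonneg_left hS2 (by positivity)
      have h2 : y ^ 9 * (Cs * Δ / q ^ 3) = Cs * Δ := by rw [hq]; field_simp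
      have h3 : T4 * y ^ 5 = y ^ 9 * S := by rw [hT4]; ring
      have h4 : Cs * Δ ≤ Cs * τ ^ 6 := mul_le_mul_of_nonneg_left hΔ6 hCs.le
      linarith
  have hZr : Z2 / r ≤ Bz * τ := by
    apply source_small' hτ (by positivity) hy0
    · rw [div_le_iff₀ hr0]
      have h2 : Cz * (2 * (Cm * q ^ 2)) = Cz * (2 * Cm) * y ^ 6 := by rw [hq]; ring
      have h3 : y ^ 6 ≤ y * r := by
        rw [hr]
        have : y ^ 3 ≤ 1 := pow_le_one₀ hy0.le hy1
        calc y ^ 6 = y ^ 3 * y ^ 3 := by ring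
          _ ≤ y ^ 3 * 1 := mul_le_mul_of_nonneg_left this (by positivity)
          _ = y * y ^ 2 := by ring
      have h4 : Cz * (2 * Cm) * y ^ 6 ≤ Cz * (2 * Cm) * (y * r) :=
        mul_le_mul_of_nonneg_left h3 (by positivity)
      have h5 : 0 ≤ Cz * (y * r) := by positivity
      have h6 : Bz * y * r = Cz * (2 * Cm) * (y * r) + Cz * (y * r) := by
        simp only [Bz]; ring
      linarith
    · have h1 : Z2 / r * y ^ 5 = Z2 * y ^ 3 := by rw [hr]; field_simp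
      have h2 : Z2 * y ^ 3 ≤ Cz * Δ * y ^ 3 := mul_le_mul_of_nonneg_right hZ1 (by positivity)
      have h3 : Cz * Δ * y ^ 3 ≤ Cz * Δ * 1 :=
        mul_le_mul_of_nonneg_left (pow_le_one₀ hy0.le hy1) (by positivity)
      have h4 : Cz * Δ ≤ Cz * τ ^ 6 := mul_le_mul_of_nonneg_left hΔ6 hCz.le
      have h5 : 0 ≤ Cz * (2 * Cm) * τ ^ 6 := by positivity
      have h6 : Bz * τ ^ 6 = Cz * (2 * Cm) * τ ^ 6 + Cz * τ ^ 6 := by simp only [Bz]; ring
      rw [h1]; linarith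
  -- the bound of the integrand
  have hF : 1000 * r ^ 2 * D + 1000 * r ^ 4 * Gm ≤
      a * (E + Y2 / r + (B ^ 2 + 1) * τ + Cs * τ + τ + x * (E + Y2 + ε)) +
        g * (1 + x) * (E + ε) := by
    have h1 : r ^ 2 * (E / q + Y2 / q ^ 2 + b1 ^ 2 / q ^ 3 + S + Δ + x * (E + Y2 + ε)) =
        y * E + Y2 / r + T3 + T4 + r ^ 2 * Δ + r ^ 2 * (x * (E + Y2 + ε)) := by
      rw [hT3, hT4, hr, hq]; field_simp
    have hyE : y * E ≤ E := by nlinarith
    have hr2 : r ^ 2 ≤ 1 := pow_le_one₀ hr0.le hr1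
    have hrΔ : r ^ 2 * Δ ≤ 1 * Δ := mul_le_mul_of_nonneg_right hr2 hΔ0
    have hrx : r ^ 2 * (x * (E + Y2 + ε)) ≤ 1 * (x * (E + Y2 + ε)) :=
      mul_le_mul_of_nonneg_right hr2 (by positivity)
    have h2 : r ^ 2 * (E / q + Y2 / q ^ 2 + b1 ^ 2 / q ^ 3 + S + Δ + x * (E + Y2 + ε)) ≤
        E + Y2 / r + (B ^ 2 + 1) * τ + Cs * τ + τ + x * (E + Y2 + ε) := by
      rw [h1]; linarith
    have h3 : 1000 * r ^ 2 * D ≤ a * (E + Y2 / r + (B ^ 2 + 1) * τ + Cs * τ + τ +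
        x * (E + Y2 + ε)) := by
      calc 1000 * r ^ 2 * D ≤ 1000 * r ^ 2 * (C1 * (E / q + Y2 / q ^ 2 + b1 ^ 2 / q ^ 3 + S + Δ +
            x * (E + Y2 + ε))) := mul_le_mul_of_nonneg_left hD (by positivity)
        _ = a * (r ^ 2 * (E / q + Y2 / q ^ 2 + b1 ^ 2 / q ^ 3 + S + Δ +
            x * (E + Y2 + ε))) := by simp only [a]; ring
        _ ≤ _ := mul_le_mul_of_nonneg_left h2 (by positivity)
    have h4 : r ^ 4 * ((1 / q + x) * (E + ε)) ≤ (1 + x) * (E + ε) := by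
      have e1 : r ^ 4 * (1 / q + x) = y ^ 5 + r ^ 4 * x := by rw [hr, hq]; field_simp
      have e2 : y ^ 5 ≤ 1 := pow_le_one₀ hy0.le hy1
      have e3 : r ^ 4 * x ≤ 1 * x := mul_le_mul_of_nonneg_right (pow_le_one₀ hr0.le hr1) hx0.le
      have e4 : r ^ 4 * (1 / q + x) ≤ 1 + x := by linarith
      have e5 := mul_le_mul_of_nonneg_right e4 (by positivity : 0 ≤ E + ε)
      linarith
    have h5 : 1000 * r ^ 4 * Gm ≤ g * (1 + x) * (E + ε) := by
      calc 1000 * r ^ 4 * Gm ≤ 1000 * r ^ 4 * (C2 * (1 / q + x) * (E + ε)) :=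
            mul_le_mul_of_nonneg_left hG (by positivity)
        _ = g * (r ^ 4 * ((1 / q + x) * (E + ε))) := by simp only [g]; ring
        _ ≤ g * ((1 + x) * (E + ε)) := mul_le_mul_of_nonneg_left h4 (by positivity)
        _ = _ := by ring
    linarith
  have hY2 : Y2 ≤ 2 * Cy * E + 2 * Cz * τ := by
    have h1 : Cz * Δ ≤ Cz * τ := mul_le_mul_of_nonneg_left hΔ1 hCz.le
    have h2 : Cy * (E + E) = 2 * Cy * E := by ring
    linarith
  have hYA' : Y2 / r ≤ 2 * Cy * E + (4 * Cy * Cn) * r ^ N + 2 * Bz * τ := by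
    have e1 : M / r ^ (2 * N + 1) ≤ 4 * Cn * r ^ (N + 2) := by
      rw [div_le_iff₀ (by positivity)]
      have : 4 * (Cn * q ^ (2 * N + 2)) = 4 * Cn * r ^ (N + 2) * r ^ (2 * N + 1) := by
        rw [hq, hr]
        rw [← pow_mul, ← pow_mul, ← pow_mul, mul_assoc (4 * Cn), ← pow_add]
        rw [show 3 * (2 * N + 2) = 2 * (N + 2) + 2 * (2 * N + 1) by ring]
        ring
      linarith
    have e2 : Y2 / r ≤ (Cy * (r * (E + E) + 4 * Cn * r ^ (N + 2)) + 2 * Z2) / r := by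
      apply div_le_div_of_nonneg_right _ hr0.le
      have := mul_le_mul_of_nonneg_left e1 hCy.le
      linarith
    have e3 : (Cy * (r * (E + E) + 4 * Cn * r ^ (N + 2)) + 2 * Z2) / r =
        2 * Cy * E + 4 * Cy * Cn * r ^ (N + 1) + 2 * (Z2 / r) := by
      rw [show r ^ (N + 2) = r ^ (N + 1) * r by ring]
      field_simp
      ring
    have e4 : r ^ (N + 1) ≤ r ^ N := pow_le_pow_of_le_one hr0.le hr1 (by omega)
    have e5 : 4 * Cy * Cn * r ^ (N + 1) ≤ 4 * Cy * Cn * r ^ N :=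
      mul_le_mul_of_nonneg_left e4 (by positivity)
    linarith
  have hYB' : Y2 / r ≤ 2 * Cy * (E / r) + 2 * Bz * τ := by
    have e2 : Y2 / r ≤ (Cy * (E + E) + 2 * Z2) / r := div_le_div_of_nonneg_right hYA hr0.le
    have e3 : (Cy * (E + E) + 2 * Z2) / r = 2 * Cy * (E / r) + 2 * (Z2 / r) := by ring
    linarith
  exact dyn_final_arith (a := a) (g := g) (Cy := Cy) (Ct := Cz) (B3 := B ^ 2 + 1) (B4 := Cs) (Bz := Bz)
    (D := 4 * Cy * Cn) (by positivity) (by positivity) hCy.le hCz.le (by positivity) hCs.le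
    (by positivity) (by positivity) hE hτ hx hε hr0 hr1 (by positivity : 0 ≤ r ^ N) hF hY2 hYA' hYB'

theorem fbound_num_pos {C1 C2 Cy Cz Cs E Y2 b1 Z2 S D Gm x ε r Δ : ℝ}
    (hC1 : 0 < C1) (hC2 : 0 < C2) (hCy : 0 < Cy) (hCz : 0 < Cz) (hCs : 0 < Cs)
    (hr : 0 ≤ r) (hr1 : r ≤ 1) (hx : 1 ≤ x) (hε : 0 ≤ ε)
    (hE : 0 ≤ E) (hY20 : 0 ≤ Y2) (hΔ0 : 0 ≤ Δ)
    (hD : D ≤ C1 * (E / 1 + Y2 / 1 ^ 2 + b1 ^ 2 / 1 ^ 3 + S + Δ + x * (E + Y2 + ε)))
    (hG : Gm ≤ C2 * (1 / 1 + x) * (E + ε))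
    (hYA : Y2 ≤ Cy * (E + E) + 2 * Z2) (hZ1 : Z2 ≤ Cz * Δ) (hb : b1 ^ 2 ≤ Y2)
    (hS2 : S ≤ Cs * Δ / 1 ^ 3) :
    let a := 1000 * C1
    let g := 1000 * C2
    let K := 1 + a * (2 + 2 * (2 * Cy)) + 2 * g + a * (0 + Cs + 1 + 2 * (2 * Cz) + 2 * Cz)
    1000 * r ^ 2 * D + 1000 * r ^ 4 * Gm ≤ K * (1 + x) * E + K * (x * ε + x * Δ) := by
  intro a g K
  have hx0 : 0 < x := by linarith
  have hF : 1000 * r ^ 2 * D + 1000 * r ^ 4 * Gm ≤
      a * (E + 2 * Y2 + 0 * Δ + Cs * Δ + Δ + x * (E + Y2 + ε)) + g * (1 + x) * (E + ε) := by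
    have h0 : D ≤ C1 * (E + 2 * Y2 + 0 * Δ + Cs * Δ + Δ + x * (E + Y2 + ε)) := by
      refine hD.trans (mul_le_mul_of_nonneg_left ?_ hC1.le)
      simp only [div_one, one_pow] at hS2 ⊢
      linarith
    have h1 : 0 ≤ C1 * (E + 2 * Y2 + 0 * Δ + Cs * Δ + Δ + x * (E + Y2 + ε)) := by positivity
    have h2 : r ^ 2 * D ≤ C1 * (E + 2 * Y2 + 0 * Δ + Cs * Δ + Δ + x * (E + Y2 + ε)) := by
      calc r ^ 2 * D ≤ r ^ 2 * (C1 * (E + 2 * Y2 + 0 * Δ + Cs * Δ + Δ + x * (E + Y2 + ε))) :=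
            mul_le_mul_of_nonneg_left h0 (by positivity)
        _ ≤ 1 * (C1 * (E + 2 * Y2 + 0 * Δ + Cs * Δ + Δ + x * (E + Y2 + ε))) :=
            mul_le_mul_of_nonneg_right (pow_le_one₀ hr hr1) h1
        _ = _ := one_mul _
    have h3 : 0 ≤ C2 * (1 + x) * (E + ε) := by positivity
    have h4 : r ^ 4 * Gm ≤ C2 * (1 + x) * (E + ε) := by
      rw [div_one] at hG
      calc r ^ 4 * Gm ≤ r ^ 4 * (C2 * (1 + x) * (E + ε)) :=
            mul_le_mul_of_nonneg_left hG (by positivity)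
        _ ≤ 1 * (C2 * (1 + x) * (E + ε)) :=
            mul_le_mul_of_nonneg_right (pow_le_one₀ hr hr1) h3
        _ = _ := one_mul _
    simp only [a, g]
    linarith
  have hY2' : 2 * Y2 ≤ 2 * (2 * Cy) * E + 0 * (1 : ℝ) + 2 * (2 * Cz) * Δ := by linarith
  have hY2'' : 2 * Y2 ≤ 2 * (2 * Cy) * (E / 1) + 2 * (2 * Cz) * Δ := by rw [div_one]; linarith
  have hY2 : Y2 ≤ 2 * (2 * Cy) * E + 2 * Cz * Δ := by
    have : 0 ≤ Cy * E := by positivity
    linarith
  have := (dyn_final_arith (a := a) (g := g) (Cy := 2 * Cy) (Ct := Cz) (B3 := 0) (B4 := Cs)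
    (Bz := 2 * Cz) (D := 0) (r := 1) (rN := 1) (by positivity) (by positivity) (by positivity)
    hCz.le le_rfl hCs.le (by positivity) le_rfl hE hΔ0 hx hε one_pos le_rfl zero_le_one hF hY2 hY2'
    hY2'').1
  have h6 : (0 : ℝ) * 1 + x * ε + x * Δ = x * ε + x * Δ := by ring
  rw [h6] at this
  exact this

end Crest.Agent.Lib.Row160
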