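import Crest.Agent.Lib.Row160.EdgeFun
import Crest.Agent.Lib.Row160.DynReal

/-!
Row 160 (S0241), bounds on the edge function increments and source sums used in the dynamic part
of the critical case.
-/

set_option autoImplicit false
open MeasureTheory Filter Topology

namespace Crest.Agent.Lib.Row160

section prob
variable {Ω : Type*} [MeasurableSpace Ω] {μ : Measure Ω} [IsProbabilityMeasure μ]

theorem dyn_int_bdd {f : Ω → ℝ} (hf : Measurable f) {C : ℝ} (h : ∀ ω, |f ω| ≤ C) :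
    Integrable f μ :=
  Integrable.of_bound hf.aestronglyMeasurable C (Filter.Eventually.of_forall h)

theorem dyn_measurable_ell (θ : ℝ) : Measurable (fun p : ℝ × ℝ => ell θ p.1 p.2) := by
  have h : Measurable (fun p : ℝ × ℝ => Ge θ p.1 p.2 / θ) := (measurable_Ge θ).div_const θ
  exact Real.measurable_log.comp h

end prob

theorem dyn_measurable_ell_comp {Ω : Type*} [MeasurableSpace Ω] {u v : Ω → ℝ} (θ : ℝ)
    (hu : Measurable u) (hv : Measurable v) : Measurable (fun ω => ell θ (u ω) (v ω)) := by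
  have h := (dyn_measurable_ell θ).comp (hu.prodMk hv)
  exact h

theorem ell_diff_sq {θ₀ θ₁ R : ℝ} (h0 : 0 < θ₀) (h1 : θ₁ < 1) (hR : R < 1) :
    ∃ C : ℝ, 0 < C ∧ ∀ θ θ' u v u' v' : ℝ, θ₀ ≤ θ → θ ≤ θ₁ → θ₀ ≤ θ' → θ' ≤ θ₁ →
    |u| ≤ R → |v| ≤ R → |u'| ≤ R → |v'| ≤ R →
    (ell θ u v - ell θ' u' v') ^ 2 ≤
      C * (((u - u') ^ 2 + (v - v') ^ 2) * (u ^ 2 + v ^ 2 + u' ^ 2 + v' ^ 2)) +
        2 * (ell θ u' v' - ell θ' u' v') ^ 2 := by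
  obtain ⟨C, hC, hl⟩ := ell_lip h0 h1 hR
  refine ⟨16 * C ^ 2, by positivity, ?_⟩
  intro θ θ' u v u' v' a1 a2 a3 a4 b1 b2 b3 b4
  have h := hl θ u v u' v' a1 a2 b1 b2 b3 b4
  have e1 : (ell θ u v - ell θ u' v') ^ 2 ≤
      (C * (|u - u'| + |v - v'|) * (|u| + |v| + |u'| + |v'|)) ^ 2 := by
    rw [← sq_abs (ell θ u v - ell θ u' v')]
    exact pow_le_pow_left₀ (abs_nonneg _) h 2
  have e2 : (|u - u'| + |v - v'|) ^ 2 ≤ 2 * ((u - u') ^ 2 + (v - v') ^ 2) := by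
    rw [← sq_abs (u - u'), ← sq_abs (v - v')]
    nlinarith [sq_nonneg (|u - u'| - |v - v'|)]
  have e3 : (|u| + |v| + |u'| + |v'|) ^ 2 ≤ 4 * (u ^ 2 + v ^ 2 + u' ^ 2 + v' ^ 2) := by
    rw [← sq_abs u, ← sq_abs v, ← sq_abs u', ← sq_abs v']
    nlinarith [sq_nonneg (|u| - |v|), sq_nonneg (|u| - |u'|), sq_nonneg (|u| - |v'|),
      sq_nonneg (|v| - |u'|), sq_nonneg (|v| - |v'|), sq_nonneg (|u'| - |v'|)]
  have e4 : (C * (|u - u'| + |v - v'|) * (|u| + |v| + |u'| + |v'|)) ^ 2 ≤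
      8 * C ^ 2 * (((u - u') ^ 2 + (v - v') ^ 2) * (u ^ 2 + v ^ 2 + u' ^ 2 + v' ^ 2)) := by
    have : (|u - u'| + |v - v'|) ^ 2 * (|u| + |v| + |u'| + |v'|) ^ 2 ≤
        (2 * ((u - u') ^ 2 + (v - v') ^ 2)) * (4 * (u ^ 2 + v ^ 2 + u' ^ 2 + v' ^ 2)) :=
      mul_le_mul e2 e3 (by positivity) (by positivity)
    calc _ = C ^ 2 * ((|u - u'| + |v - v'|) ^ 2 * (|u| + |v| + |u'| + |v'|) ^ 2) := by ring
      _ ≤ C ^ 2 * ((2 * ((u - u') ^ 2 + (v - v') ^ 2)) * (4 * (u ^ 2 + v ^ 2 + u' ^ 2 + v' ^ 2))) :=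
        mul_le_mul_of_nonneg_left this (by positivity)
      _ = _ := by ring
  have e5 : (ell θ u v - ell θ' u' v') ^ 2 ≤ 2 * (ell θ u v - ell θ u' v') ^ 2 +
      2 * (ell θ u' v' - ell θ' u' v') ^ 2 := by
    nlinarith [sq_nonneg ((ell θ u v - ell θ u' v') - (ell θ u' v' - ell θ' u' v'))]
  linarith

/-- threshold argument. -/
theorem threshold {A a x : ℝ} (hA : 0 < A) (ha : a ≤ 4) (ha0 : 0 ≤ a) (n : ℕ) :
    a * x ^ 2 ≤ A * a + 4 * (x ^ (2 * n + 2) / A ^ n) := by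
  rcases le_or_gt (x ^ 2) A with h | h
  · have h1 : a * x ^ 2 ≤ A * a := by nlinarith
    have h2 : 0 ≤ x ^ (2 * n + 2) / A ^ n := by
      have : 0 ≤ x ^ (2 * n + 2) := by
        rw [show 2 * n + 2 = 2 * (n + 1) by ring, pow_mul]; positivity
      positivity
    linarith
  · have h1 : x ^ 2 * A ^ n ≤ x ^ (2 * n + 2) := by
      have : A ^ n ≤ (x ^ 2) ^ n := pow_le_pow_left₀ hA.le h.le n
      calc x ^ 2 * A ^ n ≤ x ^ 2 * (x ^ 2) ^ n := mul_le_mul_of_nonneg_left this (sq_nonneg x)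
        _ = x ^ (2 * n + 2) := by rw [← pow_mul]; ring
    have h2 : x ^ 2 ≤ x ^ (2 * n + 2) / A ^ n := by
      rw [le_div_iff₀ (by positivity)]; exact h1
    have h3 : a * x ^ 2 ≤ 4 * x ^ 2 := mul_le_mul_of_nonneg_right ha (sq_nonneg x)
    have h4 : 0 ≤ A * a := by positivity
    linarith

section y2
variable {V : Type*}

theorem y2_bound {θ₀ θ₁ R : ℝ} (h0 : 0 < θ₀) (h1 : θ₁ < 1) (hR : R < 1) :
    ∃ C : ℝ, 0 < C ∧ ∀ (θ θ' : ℝ) (μ : Measure (Lab V)) [IsProbabilityMeasure μ]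
    (u v u' v' : Lab V → ℝ), θ₀ ≤ θ → θ ≤ θ₁ → θ₀ ≤ θ' → θ' ≤ θ₁ →
    Measurable u → Measurable v → Measurable u' → Measurable v' →
    (∀ ω, |u ω| ≤ R) → (∀ ω, |v ω| ≤ R) → (∀ ω, |u' ω| ≤ R) → (∀ ω, |v' ω| ≤ R) →
    (∫ ω, (ell θ (u ω) (v ω) - ell θ' (u' ω) (v' ω)) ^ 2 ∂μ ≤
      C * (∫ ω, (u ω - u' ω) ^ 2 ∂μ + ∫ ω, (v ω - v' ω) ^ 2 ∂μ) +
      2 * ∫ ω, (ell θ (u' ω) (v' ω) - ell θ' (u' ω) (v' ω)) ^ 2 ∂μ) ∧
    ∀ (A : ℝ) (n : ℕ), 0 < A →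
    ∫ ω, (ell θ (u ω) (v ω) - ell θ' (u' ω) (v' ω)) ^ 2 ∂μ ≤
      C * (A * (∫ ω, (u ω - u' ω) ^ 2 ∂μ + ∫ ω, (v ω - v' ω) ^ 2 ∂μ) +
        (∫ ω, u ω ^ (2 * n + 2) ∂μ + ∫ ω, v ω ^ (2 * n + 2) ∂μ + ∫ ω, u' ω ^ (2 * n + 2) ∂μ +
          ∫ ω, v' ω ^ (2 * n + 2) ∂μ) / A ^ n) +
      2 * ∫ ω, (ell θ (u' ω) (v' ω) - ell θ' (u' ω) (v' ω)) ^ 2 ∂μ := by
  obtain ⟨C, hC, hl⟩ := ell_diff_sq h0 h1 hR
  obtain ⟨CB, hCB, hb⟩ := ell_bound h0 h1 hR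
  refine ⟨8 * C, by positivity, ?_⟩
  intro θ θ' μ _ u v u' v' a1 a2 a3 a4 hu hv hu' hv' b1 b2 b3 b4
  have hsq : ∀ x : ℝ, |x| ≤ R → x ^ 2 ≤ 1 := by
    intro x hx
    rw [← sq_abs]
    have := abs_nonneg x
    nlinarith
  have hdsq : ∀ x y : ℝ, |x| ≤ R → |y| ≤ R → (x - y) ^ 2 ≤ 4 := by
    intro x y hx hy
    have h1 := hsq x hx
    have h2 := hsq y hy
    nlinarith [sq_nonneg (x + y)]
  have hellb : ∀ (t x y : ℝ), θ₀ ≤ t → t ≤ θ₁ → |x| ≤ R → |y| ≤ R → |ell t x y| ≤ 2 * CB := by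
    intro t x y t1 t2 hx hy
    have := hb t x y t1 t2 hx hy
    have h1 := hsq x hx
    have h2 := hsq y hy
    nlinarith
  have iY : Integrable (fun ω => (ell θ (u ω) (v ω) - ell θ' (u' ω) (v' ω)) ^ 2) μ := by
    apply dyn_int_bdd (((dyn_measurable_ell_comp θ hu hv).sub (dyn_measurable_ell_comp θ' hu' hv')).pow_const 2)
      (C := (4 * CB) ^ 2)
    intro ω
    rw [abs_of_nonneg (sq_nonneg _), ← sq_abs]
    apply pow_le_pow_left₀ (abs_nonneg _)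
    have h1 := hellb θ _ _ a1 a2 (b1 ω) (b2 ω)
    have h2 := hellb θ' _ _ a3 a4 (b3 ω) (b4 ω)
    have h3 := abs_sub (ell θ (u ω) (v ω)) (ell θ' (u' ω) (v' ω))
    refine h3.trans ?_
    linarith
  have iZ : Integrable (fun ω => (ell θ (u' ω) (v' ω) - ell θ' (u' ω) (v' ω)) ^ 2) μ := by
    apply dyn_int_bdd (((dyn_measurable_ell_comp θ hu' hv').sub (dyn_measurable_ell_comp θ' hu' hv')).pow_const 2)
      (C := (4 * CB) ^ 2)
    intro ω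
    rw [abs_of_nonneg (sq_nonneg _), ← sq_abs]
    apply pow_le_pow_left₀ (abs_nonneg _)
    have h1 := hellb θ _ _ a1 a2 (b3 ω) (b4 ω)
    have h2 := hellb θ' _ _ a3 a4 (b3 ω) (b4 ω)
    have h3 := abs_sub (ell θ (u' ω) (v' ω)) (ell θ' (u' ω) (v' ω))
    refine h3.trans ?_
    linarith
  have iu : Integrable (fun ω => (u ω - u' ω) ^ 2) μ := by
    apply dyn_int_bdd ((hu.sub hu').pow_const 2) (C := 4)
    intro ω
    rw [abs_of_nonneg (sq_nonneg _)]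
    exact hdsq _ _ (b1 ω) (b3 ω)
  have iv : Integrable (fun ω => (v ω - v' ω) ^ 2) μ := by
    apply dyn_int_bdd ((hv.sub hv').pow_const 2) (C := 4)
    intro ω
    rw [abs_of_nonneg (sq_nonneg _)]
    exact hdsq _ _ (b2 ω) (b4 ω)
  have ip : ∀ (w : Lab V → ℝ), Measurable w → (∀ ω, |w ω| ≤ R) → ∀ n : ℕ,
      Integrable (fun ω => w ω ^ (2 * n + 2)) μ := by
    intro w hw hwR n
    apply dyn_int_bdd (hw.pow_const _) (C := 1)
    intro ω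
    rw [abs_pow]
    exact pow_le_one₀ (abs_nonneg _) ((hwR ω).trans hR.le)
  have ZC := integral_nonneg (μ := μ) (f := fun ω => (u ω - u' ω) ^ 2) (fun ω => sq_nonneg _)
  have ZD := integral_nonneg (μ := μ) (f := fun ω => (v ω - v' ω) ^ 2) (fun ω => sq_nonneg _)
  have iuv : Integrable (fun ω => (u ω - u' ω) ^ 2 + (v ω - v' ω) ^ 2) μ := iu.add iv
  have iZ2 : Integrable (fun ω => 2 * (ell θ (u' ω) (v' ω) - ell θ' (u' ω) (v' ω)) ^ 2) μ :=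
    iZ.const_mul 2
  constructor
  · have iR : Integrable (fun ω => 4 * C * ((u ω - u' ω) ^ 2 + (v ω - v' ω) ^ 2)) μ :=
      iuv.const_mul _
    have h : ∫ ω, (ell θ (u ω) (v ω) - ell θ' (u' ω) (v' ω)) ^ 2 ∂μ ≤
        ∫ ω, (4 * C * ((u ω - u' ω) ^ 2 + (v ω - v' ω) ^ 2) +
          2 * (ell θ (u' ω) (v' ω) - ell θ' (u' ω) (v' ω)) ^ 2) ∂μ := by
      apply integral_mono iY (iR.add iZ2)
      intro ω
      have h := hl θ θ' (u ω) (v ω) (u' ω) (v' ω) a1 a2 a3 a4 (b1 ω) (b2 ω) (b3 ω) (b4 ω)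
      have e1 := hsq _ (b1 ω)
      have e2 := hsq _ (b2 ω)
      have e3 := hsq _ (b3 ω)
      have e4 := hsq _ (b4 ω)
      have e5 : 0 ≤ (u ω - u' ω) ^ 2 + (v ω - v' ω) ^ 2 := by positivity
      have e6 : ((u ω - u' ω) ^ 2 + (v ω - v' ω) ^ 2) * (u ω ^ 2 + v ω ^ 2 + u' ω ^ 2 + v' ω ^ 2) ≤
          ((u ω - u' ω) ^ 2 + (v ω - v' ω) ^ 2) * 4 :=
        mul_le_mul_of_nonneg_left (by linarith) e5
      have e7 := mul_le_mul_of_nonneg_left e6 hC.le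
      show (ell θ (u ω) (v ω) - ell θ' (u' ω) (v' ω)) ^ 2 ≤
        4 * C * ((u ω - u' ω) ^ 2 + (v ω - v' ω) ^ 2) +
          2 * (ell θ (u' ω) (v' ω) - ell θ' (u' ω) (v' ω)) ^ 2
      linarith
    refine h.trans ?_
    rw [integral_add iR iZ2, integral_const_mul, integral_const_mul, integral_add iu iv]
    nlinarith
  · intro A n hA
    have iR1 : Integrable (fun ω => A * ((u ω - u' ω) ^ 2 + (v ω - v' ω) ^ 2)) μ :=
      iuv.const_mul _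
    have iu1 : Integrable (fun ω => u ω ^ (2 * n + 2) + v ω ^ (2 * n + 2)) μ :=
      (ip u hu b1 n).add (ip v hv b2 n)
    have iu2 : Integrable (fun ω => u ω ^ (2 * n + 2) + v ω ^ (2 * n + 2) +
      u' ω ^ (2 * n + 2)) μ := iu1.add (ip u' hu' b3 n)
    have iu3 : Integrable (fun ω => u ω ^ (2 * n + 2) + v ω ^ (2 * n + 2) +
      u' ω ^ (2 * n + 2) + v' ω ^ (2 * n + 2)) μ := iu2.add (ip v' hv' b4 n)
    have iu4 : Integrable (fun ω => (u ω ^ (2 * n + 2) + v ω ^ (2 * n + 2) +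
      u' ω ^ (2 * n + 2) + v' ω ^ (2 * n + 2)) * (A ^ n)⁻¹) μ := iu3.mul_const _
    have iR2 : Integrable (fun ω => A * ((u ω - u' ω) ^ 2 + (v ω - v' ω) ^ 2) +
      (u ω ^ (2 * n + 2) + v ω ^ (2 * n + 2) +
      u' ω ^ (2 * n + 2) + v' ω ^ (2 * n + 2)) * (A ^ n)⁻¹) μ := iR1.add iu4
    have iR : Integrable (fun ω => 8 * C * (A * ((u ω - u' ω) ^ 2 + (v ω - v' ω) ^ 2) +
      (u ω ^ (2 * n + 2) + v ω ^ (2 * n + 2) +
      u' ω ^ (2 * n + 2) + v' ω ^ (2 * n + 2)) * (A ^ n)⁻¹)) μ := iR2.const_mul _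
    have h : ∫ ω, (ell θ (u ω) (v ω) - ell θ' (u' ω) (v' ω)) ^ 2 ∂μ ≤
        ∫ ω, (8 * C * (A * ((u ω - u' ω) ^ 2 + (v ω - v' ω) ^ 2) +
          (u ω ^ (2 * n + 2) + v ω ^ (2 * n + 2) + u' ω ^ (2 * n + 2) + v' ω ^ (2 * n + 2)) *
            (A ^ n)⁻¹) +
          2 * (ell θ (u' ω) (v' ω) - ell θ' (u' ω) (v' ω)) ^ 2) ∂μ := by
      apply integral_mono iY (iR.add iZ2)
      intro ω
      have h := hl θ θ' (u ω) (v ω) (u' ω) (v' ω) a1 a2 a3 a4 (b1 ω) (b2 ω) (b3 ω) (b4 ω)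
      have g1 := hdsq _ _ (b1 ω) (b3 ω)
      have g2 := hdsq _ _ (b2 ω) (b4 ω)
      have t1 : ∀ x, ((u ω - u' ω) ^ 2 + (v ω - v' ω) ^ 2) * x ^ 2 ≤
          A * ((u ω - u' ω) ^ 2 + (v ω - v' ω) ^ 2) + 8 * (x ^ (2 * n + 2) / A ^ n) := by
        intro x
        have k1 := threshold hA g1 (sq_nonneg _) n (x := x)
        have k2 := threshold hA g2 (sq_nonneg _) n (x := x)
        nlinarith
      have s1 := t1 (u ω)
      have s2 := t1 (v ω)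
      have s3 := t1 (u' ω)
      have s4 := t1 (v' ω)
      have e5 : 0 ≤ (u ω - u' ω) ^ 2 + (v ω - v' ω) ^ 2 := by positivity
      have e6 : ((u ω - u' ω) ^ 2 + (v ω - v' ω) ^ 2) * (u ω ^ 2 + v ω ^ 2 + u' ω ^ 2 + v' ω ^ 2) ≤
          8 * (A * ((u ω - u' ω) ^ 2 + (v ω - v' ω) ^ 2) +
          (u ω ^ (2 * n + 2) + v ω ^ (2 * n + 2) + u' ω ^ (2 * n + 2) + v' ω ^ (2 * n + 2)) *
            (A ^ n)⁻¹) := by
        have k3 : (u ω ^ (2 * n + 2) + v ω ^ (2 * n + 2) + u' ω ^ (2 * n + 2) +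
            v' ω ^ (2 * n + 2)) * (A ^ n)⁻¹ = u ω ^ (2 * n + 2) / A ^ n + v ω ^ (2 * n + 2) / A ^ n +
            u' ω ^ (2 * n + 2) / A ^ n + v' ω ^ (2 * n + 2) / A ^ n := by
          simp only [div_eq_mul_inv]; ring
        rw [k3]
        have k4 : 0 ≤ A * ((u ω - u' ω) ^ 2 + (v ω - v' ω) ^ 2) := by positivity
        linarith
      have e7 := mul_le_mul_of_nonneg_left e6 hC.le
      show (ell θ (u ω) (v ω) - ell θ' (u' ω) (v' ω)) ^ 2 ≤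
        8 * C * (A * ((u ω - u' ω) ^ 2 + (v ω - v' ω) ^ 2) +
          (u ω ^ (2 * n + 2) + v ω ^ (2 * n + 2) + u' ω ^ (2 * n + 2) + v' ω ^ (2 * n + 2)) *
            (A ^ n)⁻¹) +
          2 * (ell θ (u' ω) (v' ω) - ell θ' (u' ω) (v' ω)) ^ 2
      linarith
    refine h.trans (le_of_eq ?_)
    rw [integral_add iR iZ2, integral_const_mul, integral_const_mul, integral_add iR1 iu4,
      integral_const_mul, integral_add iu iv, integral_mul_const,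
      integral_add iu2 (ip v' hv' b4 n), integral_add iu1 (ip u' hu' b3 n),
      integral_add (ip u hu b1 n) (ip v hv b2 n), div_eq_mul_inv]

end y2

section zb
variable {V : Type*}

theorem ell_integrable {θ₀ θ₁ R : ℝ} (h0 : 0 < θ₀) (h1 : θ₁ < 1) (hR : R < 1) {t : ℝ}
    {μ : Measure (Lab V)} [IsProbabilityMeasure μ] {u v : Lab V → ℝ} (e1 : θ₀ ≤ t) (e2 : t ≤ θ₁)
    (hu : Measurable u) (hv : Measurable v) (hub : ∀ ω, |u ω| ≤ R) (hvb : ∀ ω, |v ω| ≤ R) :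
    Integrable (fun ω => ell t (u ω) (v ω)) μ := by
  obtain ⟨Cb, hCb, hb⟩ := ell_bound h0 h1 hR
  apply dyn_int_bdd (dyn_measurable_ell_comp t hu hv) (C := 2 * Cb)
  intro ω
  refine (hb t _ _ e1 e2 (hub ω) (hvb ω)).trans ?_
  have f1 : u ω ^ 2 ≤ 1 := by rw [← sq_abs]; have := hub ω; have := abs_nonneg (u ω); nlinarith
  have f2 : v ω ^ 2 ≤ 1 := by rw [← sq_abs]; have := hvb ω; have := abs_nonneg (v ω); nlinarith
  nlinarith

theorem pow_integrable {R : ℝ} (hR : R < 1) {μ : Measure (Lab V)} [IsProbabilityMeasure μ]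
    {w : Lab V → ℝ} (hw : Measurable w) (hwR : ∀ ω, |w ω| ≤ R) (n : ℕ) :
    Integrable (fun ω => w ω ^ n) μ := by
  apply dyn_int_bdd (hw.pow_const _) (C := 1)
  intro ω
  rw [abs_pow]
  exact pow_le_one₀ (abs_nonneg _) ((hwR ω).trans hR.le)

theorem z2_bound {θ₀ θ₁ R : ℝ} (h0 : 0 < θ₀) (h1 : θ₁ < 1) (hR : R < 1) :
    ∃ C : ℝ, 0 < C ∧ ∀ (θ θ' : ℝ) (μ : Measure (Lab V)) [IsProbabilityMeasure μ]
    (u v : Lab V → ℝ), θ₀ ≤ θ → θ ≤ θ₁ → θ₀ ≤ θ' → θ' ≤ θ₁ →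
    Measurable u → Measurable v → (∀ ω, |u ω| ≤ R) → (∀ ω, |v ω| ≤ R) →
    ∫ ω, (ell θ (u ω) (v ω) - ell θ' (u ω) (v ω)) ^ 2 ∂μ ≤ C * (θ - θ') ^ 2 ∧
    ∫ ω, (ell θ (u ω) (v ω) - ell θ' (u ω) (v ω)) ^ 2 ∂μ ≤
      C * (∫ ω, u ω ^ 4 ∂μ + ∫ ω, v ω ^ 4 ∂μ) := by
  obtain ⟨Cb, hCb, hb⟩ := ell_bound h0 h1 hR
  obtain ⟨Ct, hCt, ht⟩ := ell_theta h0 h1 hR
  refine ⟨Ct ^ 2 + 8 * Cb ^ 2, by positivity, ?_⟩
  intro θ θ' μ _ u v a1 a2 a3 a4 hu hv hub hvb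
  constructor
  · have h1 : ∫ ω, (ell θ (u ω) (v ω) - ell θ' (u ω) (v ω)) ^ 2 ∂μ ≤
        ∫ ω : Lab V, Ct ^ 2 * (θ - θ') ^ 2 ∂μ := by
      apply integral_mono_of_nonneg (Filter.Eventually.of_forall (fun ω => sq_nonneg _))
        (integrable_const _)
      apply Filter.Eventually.of_forall
      intro ω
      simp only
      rw [← mul_pow, ← sq_abs (ell θ _ _ - _), ← sq_abs (Ct * (θ - θ'))]
      apply pow_le_pow_left₀ (abs_nonneg _)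
      rw [abs_mul, abs_of_pos hCt]
      exact ht θ θ' _ _ a1 a2 a3 a4 (hub ω) (hvb ω)
    have h2 : ∫ ω : Lab V, Ct ^ 2 * (θ - θ') ^ 2 ∂μ = Ct ^ 2 * (θ - θ') ^ 2 := by simp
    rw [h2] at h1
    have h3 : 0 ≤ 8 * Cb ^ 2 * (θ - θ') ^ 2 := by positivity
    linarith
  · have i1 := pow_integrable (μ := μ) hR hu hub 4
    have i2 := pow_integrable (μ := μ) hR hv hvb 4
    have i3 : Integrable (fun ω => 8 * Cb ^ 2 * (u ω ^ 4 + v ω ^ 4)) μ := (i1.add i2).const_mul _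
    have h1 : ∫ ω, (ell θ (u ω) (v ω) - ell θ' (u ω) (v ω)) ^ 2 ∂μ ≤
        ∫ ω : Lab V, 8 * Cb ^ 2 * (u ω ^ 4 + v ω ^ 4) ∂μ := by
      apply integral_mono_of_nonneg (Filter.Eventually.of_forall (fun ω => sq_nonneg _)) i3
      apply Filter.Eventually.of_forall
      intro ω
      have g1 := hb θ (u ω) (v ω) a1 a2 (hub ω) (hvb ω)
      have g2 := hb θ' (u ω) (v ω) a3 a4 (hub ω) (hvb ω)
      have g3 := abs_sub (ell θ (u ω) (v ω)) (ell θ' (u ω) (v ω))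
      have g4 : |ell θ (u ω) (v ω) - ell θ' (u ω) (v ω)| ≤ 2 * Cb * (u ω ^ 2 + v ω ^ 2) := by
        linarith
      have g5 : (ell θ (u ω) (v ω) - ell θ' (u ω) (v ω)) ^ 2 ≤
        (2 * Cb * (u ω ^ 2 + v ω ^ 2)) ^ 2 := by
        rw [← sq_abs (ell θ _ _ - _)]
        exact pow_le_pow_left₀ (abs_nonneg _) g4 2
      show (ell θ (u ω) (v ω) - ell θ' (u ω) (v ω)) ^ 2 ≤ 8 * Cb ^ 2 * (u ω ^ 4 + v ω ^ 4)
      refine g5.trans ?_
      have g6 : (u ω ^ 2 + v ω ^ 2) ^ 2 ≤ 2 * (u ω ^ 4 + v ω ^ 4) := by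
        nlinarith [sq_nonneg (u ω ^ 2 - v ω ^ 2)]
      have g7 := mul_le_mul_of_nonneg_left g6 (by positivity : 0 ≤ 4 * Cb ^ 2)
      calc (2 * Cb * (u ω ^ 2 + v ω ^ 2)) ^ 2
          = 4 * Cb ^ 2 * (u ω ^ 2 + v ω ^ 2) ^ 2 := by ring
        _ ≤ 4 * Cb ^ 2 * (2 * (u ω ^ 4 + v ω ^ 4)) := g7
        _ = _ := by ring
    rw [integral_const_mul, integral_add i1 i2] at h1
    have n1 : 0 ≤ ∫ ω, u ω ^ 4 ∂μ := integral_nonneg (fun ω => by positivity)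
    have n2 : 0 ≤ ∫ ω, v ω ^ 4 ∂μ := integral_nonneg (fun ω => by positivity)
    have n3 : 0 ≤ Ct ^ 2 * (∫ ω, u ω ^ 4 ∂μ + ∫ ω, v ω ^ 4 ∂μ) := by positivity
    linarith

theorem b1_bound {θ₀ θ₁ R : ℝ} (h0 : 0 < θ₀) (h1 : θ₁ < 1) (hR : R < 1) :
    ∃ C : ℝ, 0 < C ∧ ∀ (θ θ' : ℝ) (μ : Measure (Lab V)) [IsProbabilityMeasure μ]
    (u v u' v' : Lab V → ℝ), θ₀ ≤ θ → θ ≤ θ₁ → θ₀ ≤ θ' → θ' ≤ θ₁ →
    Measurable u → Measurable v → Measurable u' → Measurable v' →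
    (∀ ω, |u ω| ≤ R) → (∀ ω, |v ω| ≤ R) → (∀ ω, |u' ω| ≤ R) → (∀ ω, |v' ω| ≤ R) →
    ∫ ω, (ell θ (u ω) (v ω) - ell θ' (u' ω) (v' ω)) ∂μ =
      ∫ ω, ell θ (u ω) (v ω) ∂μ - ∫ ω, ell θ' (u' ω) (v' ω) ∂μ ∧
    |∫ ω, (ell θ (u ω) (v ω) - ell θ' (u' ω) (v' ω)) ∂μ| ≤
      C * (∫ ω, u ω ^ 2 ∂μ + ∫ ω, v ω ^ 2 ∂μ + ∫ ω, u' ω ^ 2 ∂μ + ∫ ω, v' ω ^ 2 ∂μ) := by
  obtain ⟨Cb, hCb, hb⟩ := ell_bound h0 h1 hR
  refine ⟨Cb, hCb, ?_⟩
  intro θ θ' μ _ u v u' v' a1 a2 a3 a4 hu hv hu' hv' b1 b2 b3 b4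
  have i1 := ell_integrable (μ := μ) h0 h1 hR a1 a2 hu hv b1 b2
  have i2 := ell_integrable (μ := μ) h0 h1 hR a3 a4 hu' hv' b3 b4
  have key : ∀ (t : ℝ) (w z : Lab V → ℝ), θ₀ ≤ t → t ≤ θ₁ → Measurable w → Measurable z →
      (∀ ω, |w ω| ≤ R) → (∀ ω, |z ω| ≤ R) →
      |∫ ω, ell t (w ω) (z ω) ∂μ| ≤ Cb * (∫ ω, w ω ^ 2 ∂μ + ∫ ω, z ω ^ 2 ∂μ) := by
    intro t w z e1 e2 hw hz hwb hzb
    have j1 := pow_integrable (μ := μ) hR hw hwb 2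
    have j2 := pow_integrable (μ := μ) hR hz hzb 2
    have j3 : Integrable (fun ω => Cb * (w ω ^ 2 + z ω ^ 2)) μ := (j1.add j2).const_mul _
    have h1 : |∫ ω, ell t (w ω) (z ω) ∂μ| ≤ ∫ ω, Cb * (w ω ^ 2 + z ω ^ 2) ∂μ := by
      rw [← Real.norm_eq_abs]
      apply norm_integral_le_of_norm_le j3
      apply Filter.Eventually.of_forall
      intro ω
      rw [Real.norm_eq_abs]
      exact hb t _ _ e1 e2 (hwb ω) (hzb ω)
    rwa [integral_const_mul, integral_add j1 j2] at h1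
  have hsub : ∫ ω, (ell θ (u ω) (v ω) - ell θ' (u' ω) (v' ω)) ∂μ =
      ∫ ω, ell θ (u ω) (v ω) ∂μ - ∫ ω, ell θ' (u' ω) (v' ω) ∂μ := integral_sub i1 i2
  refine ⟨hsub, ?_⟩
  rw [hsub]
  have k1 := key θ u v a1 a2 hu hv b1 b2
  have k2 := key θ' u' v' a3 a4 hu' hv' b3 b4
  have k3 := abs_sub (∫ ω, ell θ (u ω) (v ω) ∂μ) (∫ ω, ell θ' (u' ω) (v' ω) ∂μ)
  linarith

end zb

theorem hasSum_exp_neg {y : ℝ} (hy : 0 < y) :
    Summable (fun j : ℕ => Real.exp (-y * j)) ∧ ∑' j : ℕ, Real.exp (-y * j) ≤ (1 + y) / y := by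
  have h1 : ∀ j : ℕ, Real.exp (-y * j) = Real.exp (-y) ^ j := by
    intro j; rw [← Real.exp_nat_mul]; congr 1; ring
  have hlt : Real.exp (-y) < 1 := by rw [Real.exp_lt_one_iff]; linarith
  have hpos := Real.exp_pos (-y)
  simp only [h1]
  refine ⟨summable_geometric_of_lt_one hpos.le hlt, ?_⟩
  rw [tsum_geometric_of_lt_one hpos.le hlt]
  have h2 : Real.exp (-y) ≤ 1 / (1 + y) := by
    rw [Real.exp_neg, ← one_div]
    apply one_div_le_one_div_of_le (by linarith)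
    have := Real.add_one_le_exp y; linarith
  have h3 : y / (1 + y) ≤ 1 - Real.exp (-y) := by
    have : y / (1 + y) = 1 - 1 / (1 + y) := by field_simp; ring
    linarith
  rw [← one_div, show (1 + y) / y = 1 / (y / (1 + y)) by rw [one_div_div]]
  exact one_div_le_one_div_of_le (by positivity) h3

theorem sum_source {c : ℝ} (hc : 0 < c) : ∃ C : ℝ, 0 < C ∧ ∀ q t : ℝ, 0 < q → q ≤ 1 → 0 ≤ t →
    ∑' j : ℕ, min 1 ((j : ℝ) ^ 2 * t) * Real.exp (-c * q * j) ≤ C / q ∧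
    ∑' j : ℕ, min 1 ((j : ℝ) ^ 2 * t) * Real.exp (-c * q * j) ≤ C * t / q ^ 3 := by
  refine ⟨(1 + c) / c + 16 * (1 + c) / c ^ 3, by positivity, ?_⟩
  intro q t hq hq1 ht
  have hy : 0 < c * q := by positivity
  obtain ⟨s1, s2⟩ := hasSum_exp_neg hy
  have hy2 : 0 < c * q / 2 := by positivity
  obtain ⟨s3, s4⟩ := hasSum_exp_neg hy2
  have hbd : ∀ j : ℕ, min 1 ((j : ℝ) ^ 2 * t) * Real.exp (-c * q * j) ≤ Real.exp (-(c * q) * j) := by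
    intro j
    have h1 : min 1 ((j : ℝ) ^ 2 * t) ≤ 1 := min_le_left _ _
    have h2 := Real.exp_pos (-(c * q) * j)
    have h3 : -c * q * j = -(c * q) * j := by ring
    rw [h3]
    nlinarith
  have hnn : ∀ j : ℕ, 0 ≤ min 1 ((j : ℝ) ^ 2 * t) * Real.exp (-c * q * j) := by
    intro j
    apply mul_nonneg _ (Real.exp_pos _).le
    apply le_min zero_le_one; positivity
  have hs : Summable (fun j : ℕ => min 1 ((j : ℝ) ^ 2 * t) * Real.exp (-c * q * j)) :=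
    Summable.of_nonneg_of_le hnn hbd s1
  constructor
  · have h1 : ∑' j : ℕ, min 1 ((j : ℝ) ^ 2 * t) * Real.exp (-c * q * j) ≤ (1 + c * q) / (c * q) :=
      (hs.tsum_le_tsum hbd s1).trans s2
    refine h1.trans ?_
    have h2 : (1 + c * q) / (c * q) ≤ (1 + c) / c / q := by
      rw [div_div]
      apply div_le_div_of_nonneg_right _ (by positivity)
      nlinarith
    have h3 : 0 ≤ 16 * (1 + c) / c ^ 3 / q := by positivity
    have h4 : ((1 + c) / c + 16 * (1 + c) / c ^ 3) / q =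
      (1 + c) / c / q + 16 * (1 + c) / c ^ 3 / q := by rw [add_div]
    rw [h4]; linarith
  · have hbd2 : ∀ j : ℕ, min 1 ((j : ℝ) ^ 2 * t) * Real.exp (-c * q * j) ≤
        (8 * t / (c * q) ^ 2) * Real.exp (-(c * q / 2) * j) := by
      intro j
      have h1 : min 1 ((j : ℝ) ^ 2 * t) ≤ (j : ℝ) ^ 2 * t := min_le_right _ _
      have h3 : -c * q * j = -(c * q / 2) * j + -(c * q / 2) * j := by ring
      have h4 : (j : ℝ) ^ 2 * Real.exp (-(c * q / 2) * j) ≤ 8 / (c * q) ^ 2 := by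
        set z : ℝ := c * q / 2 * j with hz
        have hz0 : 0 ≤ z := by positivity
        have h5 : z ^ 2 / 2 ≤ Real.exp z := by
          have := Real.quadratic_le_exp_of_nonneg hz0; linarith
        have h6 : z ^ 2 * Real.exp (-z) ≤ 2 := by
          rw [Real.exp_neg, ← div_eq_mul_inv, div_le_iff₀ (Real.exp_pos z)]; linarith
        have h7 : (j : ℝ) ^ 2 = z ^ 2 * (4 / (c * q) ^ 2) := by
          rw [hz]; field_simp; norm_num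
        have h8 : -(c * q / 2) * (j : ℝ) = -z := by rw [hz]; ring
        rw [h8, h7]
        have h9 : 0 ≤ 4 / (c * q) ^ 2 := by positivity
        calc z ^ 2 * (4 / (c * q) ^ 2) * Real.exp (-z)
            = z ^ 2 * Real.exp (-z) * (4 / (c * q) ^ 2) := by ring
          _ ≤ 2 * (4 / (c * q) ^ 2) := mul_le_mul_of_nonneg_right h6 h9
          _ = 8 / (c * q) ^ 2 := by ring
      rw [h3, Real.exp_add]
      calc min 1 ((j : ℝ) ^ 2 * t) * (Real.exp (-(c * q / 2) * j) * Real.exp (-(c * q / 2) * j))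
          ≤ (j : ℝ) ^ 2 * t * (Real.exp (-(c * q / 2) * j) * Real.exp (-(c * q / 2) * j)) :=
            mul_le_mul_of_nonneg_right h1 (by positivity)
        _ = t * Real.exp (-(c * q / 2) * j) * ((j : ℝ) ^ 2 * Real.exp (-(c * q / 2) * j)) := by ring
        _ ≤ t * Real.exp (-(c * q / 2) * j) * (8 / (c * q) ^ 2) :=
            mul_le_mul_of_nonneg_left h4 (by positivity)
        _ = _ := by ring
    have h1 := hs.tsum_le_tsum hbd2 (s3.mul_left _)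
    rw [tsum_mul_left] at h1
    have h2 : 8 * t / (c * q) ^ 2 * ∑' j : ℕ, Real.exp (-(c * q / 2) * j) ≤
        8 * t / (c * q) ^ 2 * ((1 + c * q / 2) / (c * q / 2)) :=
      mul_le_mul_of_nonneg_left s4 (by positivity)
    refine (h1.trans h2).trans ?_
    have h3 : 8 * t / (c * q) ^ 2 * ((1 + c * q / 2) / (c * q / 2)) =
        16 * (1 + c * q / 2) * t / (c ^ 3 * q ^ 3) := by
      field_simp; ring
    rw [h3]
    have h4 : ((1 + c) / c + 16 * (1 + c) / c ^ 3) * t / q ^ 3 =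
        (1 + c) / c * t / q ^ 3 + 16 * (1 + c) * t / (c ^ 3 * q ^ 3) := by
      field_simp
    rw [h4]
    have h5 : 0 ≤ (1 + c) / c * t / q ^ 3 := by positivity
    have h6 : 16 * (1 + c * q / 2) * t / (c ^ 3 * q ^ 3) ≤ 16 * (1 + c) * t / (c ^ 3 * q ^ 3) := by
      apply div_le_div_of_nonneg_right _ (by positivity)
      apply mul_le_mul_of_nonneg_right _ ht
      nlinarith
    linarith

end Crest.Agent.Lib.Row160
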