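import Crest.Agent.Lib.Row160.DynSys
import Crest.Agent.Lib.Row160.EdgeFun

/-!
Row 160, dynamic part: compactness (a subsequence along which `β(s)` converges uniformly).
-/

set_option autoImplicit false
set_option linter.unusedSectionVars false
open MeasureTheory Filter Topology

namespace Crest.Agent.Lib.Row160

variable {V : Type*} {G : SimpleGraph V} [G.LocallyFinite] {d : ℕ}

/-- mean of `ℓ` along the first edge of `p`. -/
noncomputable def beta (G : SimpleGraph V) (p : ℕ → V) (θ : ℝ) (k : ℕ) (s : ℝ) : ℝ :=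
  ∫ ω, ell θ (Mi G θ k s (p 0) ω) (Mi G θ k s (p 1) ω) ∂(labM V)

instance DynCpt_prob : IsProbabilityMeasure (labM V) := by
  unfold labM
  infer_instance

/-- the parameter range. -/
private lemma dynCpt_range (hd : 3 ≤ d) {θc : ℝ} (hc0 : 0 < θc)
    (hc : ((d : ℝ) - 1) * θc ^ 2 = 1) {θ : ℝ} (h1 : θc / 2 ≤ θ) (h2 : θ < θc) :
    0 < θ ∧ 1 ≤ 4 * ((d : ℝ) - 1) * θ ^ 2 ∧ ((d : ℝ) - 1) * θ ^ 2 < 1 ∧ θ < 1 := by
  have hd3 : (3 : ℝ) ≤ d := by exact_mod_cast hd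
  have h0 : 0 < θ := by linarith
  have hd1 : 0 < (d : ℝ) - 1 := by linarith
  refine ⟨h0, ?_, ?_, ?_⟩
  · have : θc ^ 2 ≤ 4 * θ ^ 2 := by nlinarith
    nlinarith
  · have : θ ^ 2 < θc ^ 2 := by nlinarith
    nlinarith
  · have : θ ^ 2 < θc ^ 2 := by nlinarith
    by_contra h
    push Not at h
    nlinarith

private lemma dynCpt_thc_lt (hd : 3 ≤ d) {θc : ℝ} (hc0 : 0 < θc)
    (hc : ((d : ℝ) - 1) * θc ^ 2 = 1) : θc < 1 := by
  have hd3 : (3 : ℝ) ≤ d := by exact_mod_cast hd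
  by_contra h
  push Not at h
  nlinarith

/-- Lipschitz bound in time of the second moment of the increments, uniform in `θ`. -/
private lemma dynCpt_increment (hT : G.IsTree) (hd : 3 ≤ d) (hreg : G.IsRegularOfDegree d)
    (k : ℕ) : ∃ C : ℝ, 0 < C ∧ ∀ (p : ℕ → V) (_ : ∀ k, IsGeo G k p) (θ r s : ℝ), 0 < θ →
      1 ≤ 4 * ((d : ℝ) - 1) * θ ^ 2 → ((d : ℝ) - 1) * θ ^ 2 < 1 → 0 ≤ r → r ≤ s → s ≤ 1 / 2 →
      ∫ ω, (Mi G θ k s (p 0) ω - Mi G θ k r (p 0) ω) ^ 2 ∂(labM V) ≤ C * (s - r) := by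
  have hd3 : (3 : ℝ) ≤ d := by exact_mod_cast hd
  -- the bound of the integrand
  obtain ⟨C, hC, hbd⟩ : ∃ C : ℝ, 0 < C ∧ ∀ (p : ℕ → V) (_ : ∀ k, IsGeo G k p) (θ t : ℝ), 0 < θ →
      1 ≤ 4 * ((d : ℝ) - 1) * θ ^ 2 → ((d : ℝ) - 1) * θ ^ 2 < 1 → 0 ≤ t → t ≤ 1 / 2 →
      1000 * t ^ 2 * ∑' j : ℕ, 2 * ((d : ℝ) - 1) ^ j *
        ∫ ω, Kp θ (fun v => Mi G θ k t v ω) p j ^ 2 ∂(labM V) ≤ C := by
    rcases Nat.eq_zero_or_pos k with rfl | hk
    · obtain ⟨r, ρ, C0, hr, hρ, hC0, hsys⟩ := sys_Mi_zero (G := G) hT hd hreg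
      obtain ⟨C', hC', hst⟩ := static_sum hT hd hreg hr hρ hC0
      refine ⟨1000 * C', by positivity, ?_⟩
      intro p hp θ t hθ0 hθ1 hθ2 ht ht2
      rcases eq_or_lt_of_le ht with h0 | ht0
      · rw [← h0]
        simp
        positivity
      · have hq0 : 0 < qs t := by
          unfold qs
          positivity
        have hq1 : qs t ≤ 1 := by
          unfold qs
          rw [Real.sqrt_le_iff]
          have : t ^ 3 ≤ 1 ^ 3 := pow_le_pow_left₀ ht (by linarith) 3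
          exact ⟨by norm_num, by simpa using this⟩
        obtain ⟨lam, hlam1, hlam2, hlam3⟩ : ∃ lam : ℕ, 1 ≤ lam ∧ 1 ≤ lam * qs t ∧
            ((lam : ℝ) - 1) * qs t ≤ 2 := by
          refine ⟨⌈1 / qs t⌉₊, ?_, ?_, ?_⟩
          · rw [Nat.one_le_ceil_iff]
            positivity
          · have := Nat.le_ceil (1 / qs t)
            rw [div_le_iff₀ hq0] at this
            exact this
          · have := Nat.ceil_lt_add_one (show 0 ≤ 1 / qs t by positivity)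
            have h3 : ((⌈1 / qs t⌉₊ : ℝ) - 1) ≤ 1 / qs t := by linarith
            calc ((⌈1 / qs t⌉₊ : ℝ) - 1) * qs t ≤ 1 / qs t * qs t :=
                  mul_le_mul_of_nonneg_right h3 hq0.le
              _ = 1 := by field_simp
              _ ≤ 2 := by norm_num
        have h4 := hst θ (qs t) lam (fun v ω => Mi G θ 0 t v ω) p hq0 hq1 hlam1 hlam3
          (hsys θ t lam hθ0 hθ1 hθ2 ht0 ht2 hlam2) hp
        have h5 : t ^ 2 ≤ qs t := by
          unfold qs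
          apply Real.le_sqrt_of_sq_le
          have h6 : t ^ 4 ≤ t ^ 3 := by
            apply pow_le_pow_of_le_one ht (by linarith) (by norm_num)
          calc (t ^ 2) ^ 2 = t ^ 4 := by ring
            _ ≤ t ^ 3 := h6
        calc 1000 * t ^ 2 * ∑' j : ℕ, 2 * ((d : ℝ) - 1) ^ j *
              ∫ ω, Kp θ (fun v => Mi G θ 0 t v ω) p j ^ 2 ∂(labM V)
            ≤ 1000 * t ^ 2 * (C' / qs t) := mul_le_mul_of_nonneg_left h4 (by positivity)
          _ ≤ 1000 * qs t * (C' / qs t) := by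
              apply mul_le_mul_of_nonneg_right _ (by positivity)
              linarith
          _ = 1000 * C' := by field_simp
    · obtain ⟨r, ρ, C0, hr, hρ, hC0, hsys⟩ := sys_Mi_pos (G := G) hT hd hreg hk
      obtain ⟨C', hC', hst⟩ := static_sum hT hd hreg hr hρ hC0
      refine ⟨1000 * C', by positivity, ?_⟩
      intro p hp θ t hθ0 hθ1 hθ2 ht ht2
      have h4 := hst θ 1 1 (fun v ω => Mi G θ k t v ω) p one_pos le_rfl le_rfl (by norm_num)
        (hsys θ t hθ0 hθ1 hθ2 ht ht2) hp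
      rw [div_one] at h4
      have h5 : t ^ 2 ≤ 1 := by nlinarith
      calc 1000 * t ^ 2 * ∑' j : ℕ, 2 * ((d : ℝ) - 1) ^ j *
              ∫ ω, Kp θ (fun v => Mi G θ k t v ω) p j ^ 2 ∂(labM V)
            ≤ 1000 * t ^ 2 * C' := mul_le_mul_of_nonneg_left h4 (by positivity)
        _ ≤ 1000 * C' := by nlinarith
  refine ⟨C, hC, ?_⟩
  intro p hp θ r s hθ0 hθ1 hθ2 hr hrs hs
  refine (self_isometry_inf hT hd hreg hθ0.le hθ2 hp k hr hrs hs).trans ?_
  have h1 := intervalIntegral.norm_integral_le_of_norm_le_const (a := r) (b := s) (C := C)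
    (f := fun t => 1000 * t ^ 2 * ∑' j : ℕ, 2 * ((d : ℝ) - 1) ^ j *
        ∫ ω, Kp θ (fun v => Mi G θ k t v ω) p j ^ 2 ∂(labM V)) (by
      intro t ht
      rw [Set.uIoc_of_le hrs] at ht
      have h2 : 0 ≤ 1000 * t ^ 2 * ∑' j : ℕ, 2 * ((d : ℝ) - 1) ^ j *
          ∫ ω, Kp θ (fun v => Mi G θ k t v ω) p j ^ 2 ∂(labM V) := by
        apply mul_nonneg (by positivity)
        apply tsum_nonneg
        intro j
        apply mul_nonneg
        · have : 0 ≤ (d : ℝ) - 1 := by linarith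
          positivity
        · exact integral_nonneg (fun ω => sq_nonneg _)
      rw [Real.norm_of_nonneg h2]
      exact hbd p hp θ t hθ0 hθ1 hθ2 (hr.trans ht.1.le) (ht.2.trans hs))
  rw [abs_of_nonneg (by linarith : 0 ≤ s - r)] at h1
  exact (le_abs_self _).trans h1

/-- uniform bound of `β`. -/
private lemma dynCpt_bound (hT : G.IsTree) (hd : 3 ≤ d) (hreg : G.IsRegularOfDegree d)
    {θc : ℝ} (hc0 : 0 < θc) (hc : ((d : ℝ) - 1) * θc ^ 2 = 1) (p : ℕ → V) (k : ℕ) :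
    ∃ B : ℝ, 0 ≤ B ∧ ∀ θ s : ℝ, θc / 2 ≤ θ → θ < θc → 0 ≤ s → s ≤ 1 / 2 →
      |beta G p θ k s| ≤ B := by
  obtain ⟨r, hr0, hr1, hr⟩ := exists_rbar hd k
  obtain ⟨C, hC, hell⟩ := ell_bound (θ₀ := θc / 2) (θ₁ := θc) (r := r) (by linarith)
    (dynCpt_thc_lt hd hc0 hc) hr1
  refine ⟨C * 2, by positivity, ?_⟩
  intro θ s h1 h2 hs hs2
  obtain ⟨hθ0, -, hθ2, hθ3⟩ := dynCpt_range hd hc0 hc h1 h2
  unfold beta
  have h3 : ∀ ω : Lab V, ‖ell θ (Mi G θ k s (p 0) ω) (Mi G θ k s (p 1) ω)‖ ≤ C * 2 := by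
    intro ω
    have a0 := (abs_Mi_le hT hreg hθ0.le hθ3 (p 0) k hs hs2 ω).trans (hr θ hθ0.le hθ2)
    have a1 := (abs_Mi_le hT hreg hθ0.le hθ3 (p 1) k hs hs2 ω).trans (hr θ hθ0.le hθ2)
    rw [Real.norm_eq_abs]
    refine (hell θ _ _ h1 h2.le a0 a1).trans ?_
    apply mul_le_mul_of_nonneg_left _ hC.le
    have b0 : Mi G θ k s (p 0) ω ^ 2 ≤ 1 := by
      rw [sq_le_one_iff_abs_le_one]
      linarith
    have b1 : Mi G θ k s (p 1) ω ^ 2 ≤ 1 := by
      rw [sq_le_one_iff_abs_le_one]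
      linarith
    linarith
  have h4 := norm_integral_le_of_norm_le_const (μ := labM V) (Eventually.of_forall h3)
  simpa using h4

/-- modulus of continuity of `β`. -/
private lemma dynCpt_holder (hT : G.IsTree) (hd : 3 ≤ d) (hreg : G.IsRegularOfDegree d)
    {θc : ℝ} (hc0 : 0 < θc) (hc : ((d : ℝ) - 1) * θc ^ 2 = 1) {p : ℕ → V}
    (hp : ∀ k, IsGeo G k p) (k : ℕ) :
    ∃ B : ℝ, 0 ≤ B ∧ ∀ θ r s : ℝ, θc / 2 ≤ θ → θ < θc → 0 ≤ r → r ≤ s → s ≤ 1 / 2 →
      |beta G p θ k s - beta G p θ k r| ≤ B * √(s - r) := by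
  obtain ⟨rb, hr0, hr1, hrb⟩ := exists_rbar hd k
  obtain ⟨C, hC, hell⟩ := ell_lip (θ₀ := θc / 2) (θ₁ := θc) (r := rb) (by linarith)
    (dynCpt_thc_lt hd hc0 hc) hr1
  obtain ⟨C1, hC1, hinc⟩ := dynCpt_increment (G := G) hT hd hreg k
  refine ⟨8 * C * √C1, by positivity, ?_⟩
  intro θ r s h1 h2 hr hrs hs
  obtain ⟨hθ0, hθ1, hθ2, hθ3⟩ := dynCpt_range hd hc0 hc h1 h2
  have hr2 : r ≤ 1 / 2 := hrs.trans hs
  have hs0 : 0 ≤ s := hr.trans hrs
  -- shifted ray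
  have hp' : ∀ k, IsGeo G k (fun i => p (i + 1)) := by
    intro k
    have := hp (k + 1)
    refine ⟨fun i hi => this.1 (i + 1) (by omega), fun i hi => ?_⟩
    exact this.2 (i + 1) (by omega)
  have bound : ∀ (v : V) (t : ℝ), 0 ≤ t → t ≤ 1 / 2 → ∀ ω, |Mi G θ k t v ω| ≤ rb :=
    fun v t ht ht2 ω => (abs_Mi_le hT hreg hθ0.le hθ3 v k ht ht2 ω).trans (hrb θ hθ0.le hθ2)
  have meas : ∀ (v : V) (t : ℝ), Measurable (fun ω => Mi G θ k t v ω) :=
    fun v t => measurable_Mi_s hT hθ0.le hθ3 k t v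
  -- first moments from second moments
  have first : ∀ v : V, (∫ ω, (Mi G θ k s v ω - Mi G θ k r v ω) ^ 2 ∂(labM V)) ≤ C1 * (s - r) →
      Integrable (fun ω => |Mi G θ k s v ω - Mi G θ k r v ω|) (labM V) ∧
      ∫ ω, |Mi G θ k s v ω - Mi G θ k r v ω| ∂(labM V) ≤ √C1 * √(s - r) := by
    intro v hv
    have hm : Measurable (fun ω => |Mi G θ k s v ω - Mi G θ k r v ω|) :=
      ((meas v s).sub (meas v r)).abs
    have hb : ∀ ω, |Mi G θ k s v ω - Mi G θ k r v ω| ≤ 2 := by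
      intro ω
      have b1 := abs_le.1 (bound v s hs0 hs ω)
      have b2 := abs_le.1 (bound v r hr hr2 ω)
      rw [abs_le]
      constructor <;> linarith [b1.1, b1.2, b2.1, b2.2]
    have hL2 : MemLp (fun ω => |Mi G θ k s v ω - Mi G θ k r v ω|) 2 (labM V) :=
      MemLp.of_bound hm.aestronglyMeasurable 2 (Eventually.of_forall (fun ω => by
        rw [Real.norm_eq_abs, abs_abs]
        exact hb ω))
    have hint := hL2.integrable (by norm_num)
    refine ⟨hint, ?_⟩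
    have hvar := ProbabilityTheory.variance_nonneg
      (fun ω => |Mi G θ k s v ω - Mi G θ k r v ω|) (labM V)
    rw [ProbabilityTheory.variance_eq_sub hL2] at hvar
    rw [← Real.sqrt_mul hC1.le]
    apply Real.le_sqrt_of_sq_le
    have h5 : ∫ ω, |Mi G θ k s v ω - Mi G θ k r v ω| ^ 2 ∂(labM V) =
        ∫ ω, (Mi G θ k s v ω - Mi G θ k r v ω) ^ 2 ∂(labM V) := by
      simp_rw [sq_abs]
    simp only [Pi.pow_apply] at hvar
    rw [h5] at hvar
    linarith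
  obtain ⟨i0, f0⟩ := first (p 0) (hinc p hp θ r s hθ0 hθ1 hθ2 hr hrs hs)
  obtain ⟨i1, f1⟩ := first (p 1) (hinc _ hp' θ r s hθ0 hθ1 hθ2 hr hrs hs)
  unfold beta
  -- integrability of `ell`
  have hellm : Measurable (fun q : ℝ × ℝ => ell θ q.1 q.2) := by
    unfold ell
    exact Real.measurable_log.comp ((measurable_Ge θ).div_const θ)
  obtain ⟨C2, hC2, hell2⟩ := ell_bound (θ₀ := θc / 2) (θ₁ := θc) (r := rb) (by linarith)
    (dynCpt_thc_lt hd hc0 hc) hr1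
  have hi : ∀ t : ℝ, 0 ≤ t → t ≤ 1 / 2 → Integrable (fun ω =>
      ell θ (Mi G θ k t (p 0) ω) (Mi G θ k t (p 1) ω)) (labM V) := by
    intro t ht ht2
    apply Integrable.of_bound
      (hellm.comp ((meas (p 0) t).prodMk (meas (p 1) t))).aestronglyMeasurable (C2 * 2)
    apply Eventually.of_forall
    intro ω
    rw [Real.norm_eq_abs]
    refine (hell2 θ _ _ h1 h2.le (bound _ t ht ht2 ω) (bound _ t ht ht2 ω)).trans ?_
    apply mul_le_mul_of_nonneg_left _ hC2.le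
    have b0 : Mi G θ k t (p 0) ω ^ 2 ≤ 1 := by
      rw [sq_le_one_iff_abs_le_one]
      linarith [bound (p 0) t ht ht2 ω]
    have b1 : Mi G θ k t (p 1) ω ^ 2 ≤ 1 := by
      rw [sq_le_one_iff_abs_le_one]
      linarith [bound (p 1) t ht ht2 ω]
    linarith
  rw [← integral_sub (hi s hs0 hs) (hi r hr hr2)]
  refine (abs_integral_le_integral_abs).trans ?_
  calc ∫ ω, |ell θ (Mi G θ k s (p 0) ω) (Mi G θ k s (p 1) ω) -
        ell θ (Mi G θ k r (p 0) ω) (Mi G θ k r (p 1) ω)| ∂(labM V)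
      ≤ ∫ ω, 4 * C * (|Mi G θ k s (p 0) ω - Mi G θ k r (p 0) ω| +
          |Mi G θ k s (p 1) ω - Mi G θ k r (p 1) ω|) ∂(labM V) := by
        apply integral_mono_of_nonneg (Eventually.of_forall (fun ω => abs_nonneg _))
          ((i0.add i1).const_mul _)
        apply Eventually.of_forall
        intro ω
        have a0 := bound (p 0) s hs0 hs ω
        have a1 := bound (p 1) s hs0 hs ω
        have a2 := bound (p 0) r hr hr2 ω
        have a3 := bound (p 1) r hr hr2 ω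
        refine (hell θ _ _ _ _ h1 h2.le a0 a1 a2 a3).trans ?_
        have e0 := abs_nonneg (Mi G θ k s (p 0) ω - Mi G θ k r (p 0) ω)
        have e1 := abs_nonneg (Mi G θ k s (p 1) ω - Mi G θ k r (p 1) ω)
        have e2 : |Mi G θ k s (p 0) ω| + |Mi G θ k s (p 1) ω| + |Mi G θ k r (p 0) ω| +
          |Mi G θ k r (p 1) ω| ≤ 4 := by linarith
        calc _ ≤ C * (|Mi G θ k s (p 0) ω - Mi G θ k r (p 0) ω| +
                |Mi G θ k s (p 1) ω - Mi G θ k r (p 1) ω|) * 4 :=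
              mul_le_mul_of_nonneg_left e2 (by positivity)
          _ = _ := by
              simp only [Pi.add_apply]
              ring
    _ = 4 * C * ((∫ ω, |Mi G θ k s (p 0) ω - Mi G θ k r (p 0) ω| ∂(labM V)) +
          ∫ ω, |Mi G θ k s (p 1) ω - Mi G θ k r (p 1) ω| ∂(labM V)) := by
        rw [integral_const_mul, integral_add i0 i1]
    _ ≤ 4 * C * (√C1 * √(s - r) + √C1 * √(s - r)) :=
        mul_le_mul_of_nonneg_left (add_le_add f0 f1) (by positivity)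
    _ = 8 * C * √C1 * √(s - r) := by ring

theorem exists_subseq (hT : G.IsTree) (hd : 3 ≤ d) (hreg : G.IsRegularOfDegree d)
    {θc : ℝ} (hc0 : 0 < θc) (hc : ((d : ℝ) - 1) * θc ^ 2 = 1) {p : ℕ → V}
    (hp : ∀ k, IsGeo G k p) :
    ∃ θs : ℕ → ℝ, (∀ j, θc / 2 ≤ θs j ∧ θs j < θc) ∧ Tendsto θs atTop (𝓝 θc) ∧
      ∀ (k : ℕ) (e : ℝ), 0 < e → ∃ J, ∀ i j, J ≤ i → J ≤ j → ∀ s ∈ Set.Icc (0 : ℝ) (1 / 2),
        |beta G p (θs i) k s - beta G p (θs j) k s| ≤ e := by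
  -- an initial sequence
  set θ0 : ℕ → ℝ := fun n => θc * (1 - 1 / ((n : ℝ) + 2)) with hθ0
  have hr0 : ∀ n, θc / 2 ≤ θ0 n ∧ θ0 n < θc := by
    intro n
    have h1 : 1 / ((n : ℝ) + 2) ≤ 1 / 2 := by
      apply one_div_le_one_div_of_le (by norm_num)
      have : (0 : ℝ) ≤ n := Nat.cast_nonneg n
      linarith
    have h2 : 0 < 1 / ((n : ℝ) + 2) := by positivity
    simp only [hθ0]
    constructor
    · nlinarith
    · nlinarith
  have hlim0 : Tendsto θ0 atTop (𝓝 θc) := by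
    have h1 : Tendsto (fun n : ℕ => 1 / ((n : ℝ) + 2)) atTop (𝓝 0) := by
      have h2 := (tendsto_one_div_add_atTop_nhds_zero_nat (𝕜 := ℝ)).comp (tendsto_add_atTop_nat 1)
      refine h2.congr (fun n => ?_)
      simp only [Function.comp]
      push_cast
      ring
    have h3 : Tendsto (fun n : ℕ => θc * (1 - 1 / ((n : ℝ) + 2))) atTop (𝓝 (θc * (1 - 0))) :=
      (h1.const_sub 1).const_mul θc
    rw [sub_zero, mul_one] at h3
    exact h3
  choose B hB0 hB using fun k => dynCpt_bound (G := G) hT hd hreg hc0 hc p k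
  choose H hH0 hH using fun k => dynCpt_holder (G := G) hT hd hreg hc0 hc hp k
  -- grid
  set g : ℕ → ℕ → ℝ := fun i N => min ((i : ℝ) / (2 * ((N : ℝ) + 1))) (1 / 2) with hg
  have hg0 : ∀ i N, 0 ≤ g i N := fun i N => le_min (by positivity) (by norm_num)
  have hg1 : ∀ i N, g i N ≤ 1 / 2 := fun i N => min_le_right _ _
  set x : ℕ → (ℕ × ℕ × ℕ) → ℝ := fun n q => beta G p (θ0 n) q.1 (g q.2.1 q.2.2) with hx
  have hcompact : IsCompact (Set.pi Set.univ (fun q : ℕ × ℕ × ℕ => Set.Icc (-(B q.1)) (B q.1))) :=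
    isCompact_univ_pi (fun q => isCompact_Icc)
  obtain ⟨a, -, φ, hφ, hlim⟩ := hcompact.tendsto_subseq (x := x) (by
    intro n q _
    exact abs_le.1 (hB q.1 (θ0 n) _ (hr0 n).1 (hr0 n).2 (hg0 _ _) (hg1 _ _)))
  refine ⟨θ0 ∘ φ, fun j => hr0 (φ j), hlim0.comp hφ.tendsto_atTop, ?_⟩
  intro k e he
  -- mesh
  obtain ⟨N, hN⟩ : ∃ N : ℕ, H k * √(1 / (2 * ((N : ℝ) + 1))) ≤ e / 3 := by
    have h1 : Tendsto (fun N : ℕ => H k * √(1 / (2 * ((N : ℝ) + 1)))) atTop (𝓝 (H k * √0)) := by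
      apply Tendsto.const_mul
      apply (Real.continuous_sqrt.tendsto 0).comp
      have h2 := (tendsto_one_div_add_atTop_nhds_zero_nat (𝕜 := ℝ)).const_mul (1 / 2)
      rw [mul_zero] at h2
      refine h2.congr (fun n => ?_)
      field_simp
    rw [Real.sqrt_zero, mul_zero] at h1
    obtain ⟨N, hN⟩ := (h1.eventually_lt_const (show 0 < e / 3 by positivity)).exists
    exact ⟨N, hN.le⟩
  -- pointwise Cauchy on the grid
  have hpt : ∀ i : ℕ, ∃ J, ∀ j ≥ J, |x (φ j) (k, i, N) - a (k, i, N)| < e / 6 := by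
    intro i
    have h1 : Tendsto (fun j => x (φ j) (k, i, N)) atTop (𝓝 (a (k, i, N))) :=
      (tendsto_pi_nhds.1 hlim) (k, i, N)
    rw [Metric.tendsto_atTop] at h1
    exact h1 (e / 6) (by positivity)
  choose J hJ using hpt
  refine ⟨(Finset.range (N + 2)).sup J, ?_⟩
  intro i j hi hj s hs
  -- nearest grid point
  set m : ℕ := ⌊s * (2 * ((N : ℝ) + 1))⌋₊ with hm
  have hNpos : (0 : ℝ) < 2 * ((N : ℝ) + 1) := by positivity
  have hm1 : (m : ℝ) ≤ s * (2 * ((N : ℝ) + 1)) := Nat.floor_le (by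
    have := hs.1
    positivity)
  have hm2 : s * (2 * ((N : ℝ) + 1)) < m + 1 := Nat.lt_floor_add_one _
  have hm3 : m < N + 2 := by
    have : (m : ℝ) ≤ N + 1 := by
      have h2 := hs.2
      nlinarith
    have : m ≤ N + 1 := by exact_mod_cast this
    omega
  have hgm : g m N = (m : ℝ) / (2 * ((N : ℝ) + 1)) := by
    simp only [hg]
    apply min_eq_left
    rw [div_le_iff₀ hNpos]
    have h2 := hs.2
    nlinarith
  have hgs : g m N ≤ s := by
    rw [hgm, div_le_iff₀ hNpos]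
    exact hm1
  have hsg : s - g m N ≤ 1 / (2 * ((N : ℝ) + 1)) := by
    rw [hgm, sub_le_iff_le_add, ← add_div, le_div_iff₀ hNpos]
    linarith
  have hc1 : ∀ n, |beta G p (θ0 n) k s - beta G p (θ0 n) k (g m N)| ≤ e / 3 := by
    intro n
    refine (hH k (θ0 n) (g m N) s (hr0 n).1 (hr0 n).2 (hg0 _ _) hgs hs.2).trans ?_
    refine le_trans ?_ hN
    apply mul_le_mul_of_nonneg_left _ (hH0 k)
    exact Real.sqrt_le_sqrt hsg
  have hJm : J m ≤ (Finset.range (N + 2)).sup J := Finset.le_sup (Finset.mem_range.2 hm3)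
  have c1 := hJ m i (hJm.trans hi)
  have c2 := hJ m j (hJm.trans hj)
  simp only [hx] at c1 c2
  have d1 := hc1 (φ i)
  have d2 := hc1 (φ j)
  simp only [Function.comp]
  rw [abs_le] at d1 d2 ⊢
  rw [abs_lt] at c1 c2
  constructor <;> linarith [d1.1, d1.2, d2.1, d2.2, c1.1, c1.2, c2.1, c2.2]

end Crest.Agent.Lib.Row160
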