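import Crest.Agent.Lib.Row160.Static
import Crest.Agent.Lib.Row160.Process
import Crest.Agent.Lib.Row160.Limit
import Crest.Agent.Lib.Row160.BridgeZ4

/-!
Row 160, dynamic part: the infinite volume processes are systems in the sense of `Sys`.
-/

set_option autoImplicit false
set_option linter.unusedSectionVars false
open MeasureTheory Filter Topology

namespace Crest.Agent.Lib.Row160

variable {V : Type*} {G : SimpleGraph V} [G.LocallyFinite] {d : ℕ}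

lemma DynSys_lt_one (hd : 3 ≤ d) {θ : ℝ} (h0 : 0 ≤ θ) (hθ : ((d : ℝ) - 1) * θ ^ 2 < 1) :
    θ < 1 := by
  have hd3 : (3 : ℝ) ≤ d := by exact_mod_cast hd
  by_contra hc
  push Not at hc
  nlinarith

lemma measurable_Mi_s (hT : G.IsTree) {θ : ℝ} (h0 : 0 ≤ θ) (h1 : θ < 1) (k : ℕ) (s : ℝ) (v : V) :
    Measurable (fun ω => Mi G θ k s v ω) := by
  have h : (fun ω => Mi G θ k s v ω) = (fun p : ℝ × Lab V => Mi G θ k p.1 v p.2) ∘
      (fun ω => (s, ω)) := rfl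
  rw [h]
  exact (measurable_Mi hT h0 h1 k v).comp measurable_prodMk_left

lemma measurable_M_s {θ : ℝ} (h0 : 0 ≤ θ) (h1 : θ < 1) (W : Finset V) (k : ℕ) (s : ℝ) (v : V) :
    Measurable (fun ω => M G θ W k s v ω) := by
  have h : (fun ω => M G θ W k s v ω) = (fun p : ℝ × Lab V => M G θ W k p.1 v p.2) ∘
      (fun ω => (s, ω)) := rfl
  rw [h]
  exact (measurable_M G h0 h1 W k v).comp measurable_prodMk_left

theorem blockLim1_Mi (hT : G.IsTree) (hd : 3 ≤ d) (hreg : G.IsRegularOfDegree d) {θ : ℝ}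
    (h0 : 0 ≤ θ) (hθ : ((d : ℝ) - 1) * θ ^ 2 < 1) (k : ℕ) {s : ℝ} (hs : 0 ≤ s)
    (hs2 : s ≤ 1 / 2) : BlockLim1 G (fun v ω => Mi G θ k s v ω) := by
  have h1 := DynSys_lt_one hd h0 hθ
  refine ⟨Mi_map hT θ k s, fun v => ?_, ⟨rk d k θ, fun v ω => abs_Mi_le hT hreg h0 h1 v k hs hs2 ω⟩,
    ?_⟩
  · exact measurable_Mi_s hT h0 h1 k s v
  · intro ε hε
    obtain ⟨C, ρ, hC, hρ0, hρ1, hrate⟩ := exists_MiRate hT hd hreg h0 hθ k
    obtain ⟨n, hn⟩ : ∃ n : ℕ, C * ρ ^ n ≤ ε := by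
      obtain ⟨n, hn⟩ := exists_pow_lt_of_lt_one (show 0 < ε / C by positivity) hρ1
      refine ⟨n, ?_⟩
      rw [lt_div_iff₀ hC] at hn
      linarith
    refine ⟨fun v ω => M G θ (ball G v n) k s v ω, ?_, fun v => ?_, ⟨1, fun v ω => ?_⟩,
      fun v => ?_, fun v => ?_⟩
    · intro g v ω
      show M G θ (ball G (g v) n) k s (g v) ω = M G θ (ball G v n) k s v (act g ω)
      rw [← ball_map hT g v n]
      exact M_map G θ g (ball G v n) k s v ω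
    · exact measurable_M_s h0 h1 (ball G v n) k s v
    · exact abs_mg_le G h0 h1 _ _ _
    · exact finDep_M G θ (ball G v n) k s ((mem_ball hT).2 (by simp))
    · refine le_trans (le_of_eq ?_) ((hrate (ball G v n) v n s (conv_ball hT v n)
        (fun w hw => (mem_ball hT).2 hw) hs hs2).trans hn)
      refine integral_congr_ae (Eventually.of_forall fun ω => ?_)
      show (Mi G θ k s v ω - M G θ (ball G v n) k s v ω) ^ 2 =
        (M G θ (ball G v n) k s v ω - Mi G θ k s v ω) ^ 2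
      ring

lemma DynSys_tanh_strictMono : StrictMono Real.tanh := by
  intro x y hxy
  have := Real.tanh_injective
  rw [Real.tanh_eq_sinh_div_cosh, Real.tanh_eq_sinh_div_cosh,
    div_lt_div_iff₀ (Real.cosh_pos x) (Real.cosh_pos y)]
  have h := Real.sinh_pos_iff.2 (sub_pos.2 hxy)
  rw [Real.sinh_sub] at h
  linarith

lemma DynSys_tanh_lt_one (x : ℝ) : Real.tanh x < 1 := by
  rw [Real.tanh_eq_sinh_div_cosh, div_lt_one (Real.cosh_pos x)]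
  have := Real.cosh_sub_sinh x
  have := Real.exp_pos (-x)
  linarith

lemma DynSys_artanh_mono {x y : ℝ} (hx : 0 ≤ x) (hxy : x ≤ y) (hy : y < 1) :
    Real.artanh x ≤ Real.artanh y :=
  Real.artanh_le_artanh (by linarith) hy hxy

theorem exists_rbar (hd : 3 ≤ d) (k : ℕ) : ∃ r : ℝ, 0 < r ∧ r < 1 ∧ ∀ θ : ℝ, 0 ≤ θ →
    ((d : ℝ) - 1) * θ ^ 2 < 1 → rk d k θ ≤ r := by
  have hd3 : (3 : ℝ) ≤ d := by exact_mod_cast hd
  refine ⟨Real.tanh ((k + 1) * Real.artanh (1 / 2) + d * Real.artanh (3 / 4)), ?_,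
    DynSys_tanh_lt_one _, ?_⟩
  · have h1 : 0 < Real.artanh (1 / 2) := Real.artanh_pos ⟨by norm_num, by norm_num⟩
    have h2 : 0 < Real.artanh (3 / 4) := Real.artanh_pos ⟨by norm_num, by norm_num⟩
    have : Real.tanh 0 < Real.tanh ((k + 1) * Real.artanh (1 / 2) + d * Real.artanh (3 / 4)) :=
      DynSys_tanh_strictMono (by positivity)
    simpa using this
  · intro θ h0 hθ
    unfold rk
    apply DynSys_tanh_strictMono.monotone
    have hle : θ ≤ 3 / 4 := by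
      by_contra hc
      push Not at hc
      nlinarith
    have := DynSys_artanh_mono h0 hle (by norm_num)
    gcongr

theorem sys_Mi_zero (hT : G.IsTree) (hd : 3 ≤ d) (hreg : G.IsRegularOfDegree d) :
    ∃ r ρ C : ℝ, r < 1 ∧ 1 < ρ ∧ 0 < C ∧ ∀ (θ s : ℝ) (lam : ℕ), 0 < θ →
      1 ≤ 4 * ((d : ℝ) - 1) * θ ^ 2 → ((d : ℝ) - 1) * θ ^ 2 < 1 → 0 < s → s ≤ 1 / 2 →
      1 ≤ lam * qs s → Sys G (d - 1) θ (qs s) r ρ C lam (fun v ω => Mi G θ 0 s v ω) := by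
  obtain ⟨r, hr0, hr1, hr⟩ := exists_rbar hd 0
  obtain ⟨ρ, C, hρ, hC, hexp⟩ := expZ_zero hT hd hreg
  have hdc : ((d - 1 : ℕ) : ℝ) = (d : ℝ) - 1 := by
    rw [Nat.cast_sub (by omega)]; simp
  refine ⟨r, ρ, C, hr1, hρ, hC, ?_⟩
  intro θ s lam hθ0 hθ1 hθ2 hs hs2 hlam
  have h1 := DynSys_lt_one hd hθ0.le hθ2
  refine ⟨hθ0, by rw [hdc]; exact hθ1, by rw [hdc]; exact hθ2,
    blockLim1_Mi hT hd hreg hθ0.le hθ2 0 hs.le hs2,
    fun v ω => (abs_Mi_le hT hreg hθ0.le h1 v 0 hs.le hs2 ω).trans (hr θ hθ0.le hθ2), ?_⟩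
  intro hB L z y hzy
  rw [hdc] at hB
  exact hexp θ s lam L z y hθ0 hθ1 hθ2 hs hs2 hB hlam hzy

theorem sys_Mi_pos (hT : G.IsTree) (hd : 3 ≤ d) (hreg : G.IsRegularOfDegree d) {k : ℕ}
    (hk : 1 ≤ k) :
    ∃ r ρ C : ℝ, r < 1 ∧ 1 < ρ ∧ 0 < C ∧ ∀ (θ s : ℝ), 0 < θ →
      1 ≤ 4 * ((d : ℝ) - 1) * θ ^ 2 → ((d : ℝ) - 1) * θ ^ 2 < 1 → 0 ≤ s → s ≤ 1 / 2 →
      Sys G (d - 1) θ 1 r ρ C 1 (fun v ω => Mi G θ k s v ω) := by
  obtain ⟨r, hr0, hr1, hr⟩ := exists_rbar hd k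
  obtain ⟨ρ, C, hρ, hC, hexp⟩ := expZ_pos hT hd hreg hk
  have hdc : ((d - 1 : ℕ) : ℝ) = (d : ℝ) - 1 := by
    rw [Nat.cast_sub (by omega)]; simp
  refine ⟨r, ρ, C, hr1, hρ, hC, ?_⟩
  intro θ s hθ0 hθ1 hθ2 hs hs2
  have h1 := DynSys_lt_one hd hθ0.le hθ2
  refine ⟨hθ0, by rw [hdc]; exact hθ1, by rw [hdc]; exact hθ2,
    blockLim1_Mi hT hd hreg hθ0.le hθ2 k hs hs2,
    fun v ω => (abs_Mi_le hT hreg hθ0.le h1 v k hs hs2 ω).trans (hr θ hθ0.le hθ2), ?_⟩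
  intro _ L z y hzy
  exact hexp θ s 1 L z y hθ0 hθ1 hθ2 hs hs2 le_rfl hzy

end Crest.Agent.Lib.Row160
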