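import Crest.Agent.Lib.Row160.DynCpt
import Crest.Agent.Lib.Row160.DynBound

/-!
Row 160 (S0241), dynamic part of the critical case: `critical_cauchy`.
-/

set_option autoImplicit false
open MeasureTheory Filter Topology

namespace Crest.Agent.Lib.Row160

variable {V : Type*} {G : SimpleGraph V} [G.LocallyFinite] {d : ℕ}

/-- expectations of equivariant functions do not depend on the vertex. -/
theorem integral_eqv1 (hT : G.IsTree) (hd : 3 ≤ d) (hreg : G.IsRegularOfDegree d)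
    {F : V → Lab V → ℝ} (hF : Eqv1 G F) (hm : ∀ v, Measurable (F v)) (v w : V) :
    ∫ ω, F v ω ∂(labM V) = ∫ ω, F w ω ∂(labM V) := by
  have hp : IsGeo G 0 (fun _ : ℕ => v) := ⟨fun i hi => absurd hi (by omega), fun i hi => absurd hi (by omega)⟩
  have hp' : IsGeo G 0 (fun _ : ℕ => w) := ⟨fun i hi => absurd hi (by omega), fun i hi => absurd hi (by omega)⟩
  obtain ⟨g, hg⟩ := exists_aut hT hd hreg hp hp'
  have hg0 : g v = w := hg 0 le_rfl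
  have h1 : ∀ ω, F w ω = F v (act g ω) := by
    intro ω; rw [← hg0]; exact hF g v ω
  have hmp := measurePreserving_act (V := V) (G := G) g
  calc ∫ ω, F v ω ∂(labM V) = ∫ ω, F v ω ∂((labM V).map (act g)) := by rw [hmp.map_eq]
    _ = ∫ ω, F v (act g ω) ∂(labM V) :=
      integral_map hmp.measurable.aemeasurable (hm v).aestronglyMeasurable
    _ = ∫ ω, F w ω ∂(labM V) := by simp only [h1]

/-- the L² distance of two systems at a vertex. -/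
theorem e_const (hT : G.IsTree) (hd : 3 ≤ d) (hreg : G.IsRegularOfDegree d) {θ θ' : ℝ}
    (h0 : 0 ≤ θ) (h1 : θ < 1) (h0' : 0 ≤ θ') (h1' : θ' < 1) (k : ℕ) (s : ℝ) (v w : V) :
    ∫ ω, (Mi G θ k s v ω - Mi G θ' k s v ω) ^ 2 ∂(labM V) =
      ∫ ω, (Mi G θ k s w ω - Mi G θ' k s w ω) ^ 2 ∂(labM V) := by
  apply integral_eqv1 hT hd hreg (F := fun v ω => (Mi G θ k s v ω - Mi G θ' k s v ω) ^ 2)
  · intro g v ω
    have e1 := Mi_map hT θ k s g v ω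
    have e2 := Mi_map hT θ' k s g v ω
    simp only at e1 e2 ⊢
    rw [e1, e2]
  · intro v
    have m1 := (measurable_Mi hT h0 h1 k v).comp (measurable_prodMk_left (x := s))
    have m2 := (measurable_Mi hT h0' h1' k v).comp (measurable_prodMk_left (x := s))
    exact (m1.sub m2).pow_const 2

theorem measurable_Mi_right (hT : G.IsTree) {θ : ℝ} (h0 : 0 ≤ θ) (h1 : θ < 1) (k : ℕ) (s : ℝ)
    (v : V) : Measurable (fun ω => Mi G θ k s v ω) := by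
  have h := (measurable_Mi hT h0 h1 k v).comp (measurable_prodMk_left (x := s))
  exact h

theorem thc_lt_one (hd : 3 ≤ d) {θc : ℝ} (hc : ((d : ℝ) - 1) * θc ^ 2 = 1) :
    θc < 1 := by
  have h3 : (3 : ℝ) ≤ d := by exact_mod_cast hd
  nlinarith [sq_nonneg (θc - 1)]

theorem range_facts (hd : 3 ≤ d) {θc θ : ℝ} (hc0 : 0 < θc) (hc : ((d : ℝ) - 1) * θc ^ 2 = 1)
    (t1 : θc / 2 ≤ θ) (t2 : θ < θc) : 0 < θ ∧ θ < 1 ∧ 1 ≤ 4 * ((d : ℝ) - 1) * θ ^ 2 ∧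
      ((d : ℝ) - 1) * θ ^ 2 < 1 := by
  have hd3 : (3 : ℝ) ≤ d := by exact_mod_cast hd
  have hθc1 := thc_lt_one hd hc
  have hθ0 : 0 < θ := by linarith
  refine ⟨hθ0, by linarith, ?_, ?_⟩
  · have h1 : (θc / 2) ^ 2 ≤ θ ^ 2 := pow_le_pow_left₀ (by positivity) t1 2
    have h2 : 4 * ((d : ℝ) - 1) * (θc / 2) ^ 2 = 1 := by
      have : 4 * ((d : ℝ) - 1) * (θc / 2) ^ 2 = ((d : ℝ) - 1) * θc ^ 2 := by ring
      rw [this, hc]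
    have h3 : 4 * ((d : ℝ) - 1) * (θc / 2) ^ 2 ≤ 4 * ((d : ℝ) - 1) * θ ^ 2 :=
      mul_le_mul_of_nonneg_left h1 (by linarith)
    linarith
  · have h1 : θ ^ 2 < θc ^ 2 := pow_lt_pow_left₀ t2 hθ0.le (by norm_num)
    have h3 : ((d : ℝ) - 1) * θ ^ 2 < ((d : ℝ) - 1) * θc ^ 2 :=
      mul_lt_mul_of_pos_left h1 (by linarith)
    linarith

/-- the integrand of the isometry. -/
noncomputable def FF (G : SimpleGraph V) (d : ℕ) (p : ℕ → V) (θ θ' : ℝ) (k : ℕ) (r : ℝ) : ℝ :=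
  1000 * r ^ 2 * ∑' j : ℕ, 2 * ((d : ℝ) - 1) ^ j *
          ∫ ω, (Kp θ (fun v => Mi G θ k r v ω) p j -
            Kp θ' (fun v => Mi G θ' k r v ω) p j) ^ 2 ∂(labM V) +
        1000 * r ^ 4 * ∑' j : ℕ, 2 * ((d : ℝ) - 1) ^ j *
          ∫ ω, Kp θ' (fun v => Mi G θ' k r v ω) p j ^ 2 *
            (Mi G θ k r (p j) ω - Mi G θ' k r (p j) ω) ^ 2 ∂(labM V)

theorem qs_eq {s : ℝ} (hs : 0 ≤ s) : qs s = s * √s := by
  unfold qs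
  rw [show s ^ 3 = s ^ 2 * s by ring, Real.sqrt_mul (sq_nonneg s), Real.sqrt_sq hs]

set_option maxHeartbeats 1000000 in
theorem fbound_zero (hT : G.IsTree) (hd : 3 ≤ d) (hreg : G.IsRegularOfDegree d) {θc : ℝ}
    (hc0 : 0 < θc) (hc : ((d : ℝ) - 1) * θc ^ 2 = 1) :
    ∃ K : ℝ, 1 ≤ K ∧ ∃ CN : ℕ → ℝ, (∀ N, 0 ≤ CN N) ∧
    ∀ (p : ℕ → V) (θ θ' r x τ : ℝ), (∀ k, IsGeo G k p) →
    θc / 2 ≤ θ → θ < θc → θc / 2 ≤ θ' → θ' < θc → 0 < r → r ≤ 1 / 2 → 1 ≤ x → 0 ≤ τ →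
    (θ - θ') ^ 2 ≤ τ → (θ - θ') ^ 2 ≤ τ ^ 6 → (beta G p θ 0 r - beta G p θ' 0 r) ^ 2 ≤ τ ^ 6 →
    (∀ N, FF G d p θ θ' 0 r ≤
      K * (1 + x) * ∫ ω, (Mi G θ 0 r (p 0) ω - Mi G θ' 0 r (p 0) ω) ^ 2 ∂(labM V) +
      K * (CN N * r ^ N + x * Real.exp (-x ^ 2) + x * τ)) ∧
    FF G d p θ θ' 0 r ≤
      K * (1 / r + x) * ∫ ω, (Mi G θ 0 r (p 0) ω - Mi G θ' 0 r (p 0) ω) ^ 2 ∂(labM V) +
      K * (x * Real.exp (-x ^ 2) + x * τ) := by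
  have hθc1 := thc_lt_one hd hc
  obtain ⟨R, ρ, C, hR, hρ, hC, hsys⟩ := sys_Mi_zero hT hd hreg
  obtain ⟨C1, c, hC1, hcpos, hmain⟩ := static_main hT hd hreg hR hρ hC
  obtain ⟨C2, hC2, hgam⟩ := static_gamma hT hd hreg hR hρ hC
  have hθ0 : 0 < θc / 2 := by positivity
  obtain ⟨Cy, hCy, hy⟩ := y2_bound (V := V) hθ0 hθc1 hR
  obtain ⟨Cz, hCz, hz⟩ := z2_bound (V := V) hθ0 hθc1 hR
  obtain ⟨Cb, hCb, hb⟩ := b1_bound (V := V) hθ0 hθc1 hR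
  have hmom := moments_Mi hT hd hreg
  choose Cm hCm hm using hmom
  obtain ⟨Cs, hCs, hsum⟩ := sum_source hcpos
  have hnum := fun (N : ℕ) (E Y2 b1 Z2 S D Gm τ x ε r q y Δ M : ℝ) =>
    fbound_num (C1 := C1) (C2 := C2) (Cy := Cy) (Cz := Cz) (Cs := Cs) (Cm := Cm 2)
      (Cn := Cm (2 * N + 2)) (B := 4 * Cb * Cm 1) (E := E) (Y2 := Y2) (b1 := b1) (Z2 := Z2)
      (S := S) (D := D) (Gm := Gm) (τ := τ) (x := x) (ε := ε) (r := r) (q := q) (y := y) (Δ := Δ)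
      (N := N) (M := M) hC1 hC2 hCy hCz hCs (hCm 2) (hCm (2 * N + 2))
  simp only at hnum
  set K : ℝ := 1 + 1000 * C1 * (2 + 2 * Cy) + 2 * (1000 * C2) +
    1000 * C1 * ((4 * Cb * Cm 1) ^ 2 + 1 + Cs + 1 + 2 * (Cz * (2 * Cm 2) + Cz) + 2 * Cz) with hK
  have hCm2 := hCm 2
  refine ⟨K, ?_, fun N => 4 * Cy * Cm (2 * N + 2), fun N => ?_, ?_⟩
  · have h1 : 0 ≤ 1000 * C1 * (2 + 2 * Cy) := by positivity
    have h2 : 0 ≤ 1000 * C1 * ((4 * Cb * Cm 1) ^ 2 + 1 + Cs + 1 + 2 * (Cz * (2 * Cm 2) + Cz) +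
      2 * Cz) := by positivity
    rw [hK]; linarith
  · have := hCm (2 * N + 2); positivity
  intro p θ θ' r x τ hp t1 t2 t1' t2' hr hr' hx hτ hΔ1 hΔ6 hβ6
  obtain ⟨hθpos, hθ1, hge, hsub⟩ := range_facts hd hc0 hc t1 t2
  obtain ⟨hθ'pos, hθ'1, hge', hsub'⟩ := range_facts hd hc0 hc t1' t2'
  have hq0 : 0 < qs r := qs_pos hr
  have hq2 : qs r ^ 2 = r ^ 3 := qs_sq hr.le
  have hypos : 0 < √r := Real.sqrt_pos.2 hr
  have hyr : r = √r ^ 2 := (Real.sq_sqrt hr.le).symm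
  have hqy3 : qs r = √r ^ 3 := by
    rw [qs_eq hr.le]
    calc r * √r = √r ^ 2 * √r := by rw [← hyr]
      _ = √r ^ 3 := by ring
  have hy1 : √r ≤ 1 := Real.sqrt_le_iff.2 ⟨zero_le_one, by linarith⟩
  have hq1 : qs r ≤ 1 := by rw [hqy3]; exact pow_le_one₀ hypos.le hy1
  obtain ⟨lam, hlam1, hlamq, hlamq'⟩ : ∃ lam : ℕ, 1 ≤ lam ∧ 1 ≤ lam * qs r ∧
      ((lam : ℝ) - 1) * qs r ≤ 2 := by
    refine ⟨⌈1 / qs r⌉₊, Nat.one_le_ceil_iff.2 (by positivity), ?_, ?_⟩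
    · have : 1 / qs r ≤ ⌈1 / qs r⌉₊ := Nat.le_ceil _
      rw [div_le_iff₀ hq0] at this; exact this
    · have h1 : (⌈1 / qs r⌉₊ : ℝ) < 1 / qs r + 1 := Nat.ceil_lt_add_one (by positivity)
      have h2 : ((⌈1 / qs r⌉₊ : ℝ) - 1) * qs r ≤ (1 / qs r) * qs r :=
        mul_le_mul_of_nonneg_right (by linarith) hq0.le
      have h3 : (1 / qs r) * qs r = 1 := by field_simp
      linarith
  have hS := hsys θ r lam hθpos hge hsub hr hr' hlamq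
  have hS' := hsys θ' r lam hθ'pos hge' hsub' hr hr' hlamq
  have hε0 : 0 < Real.exp (-x ^ 2) := Real.exp_pos _
  have hε1 : Real.exp (-x ^ 2) ≤ Real.exp (-1) := by
    apply Real.exp_le_exp.2; nlinarith
  have hlogε : √(Real.log (1 / Real.exp (-x ^ 2))) = x := by
    rw [one_div, ← Real.exp_neg, Real.log_exp, neg_neg]
    exact Real.sqrt_sq (by linarith)
  have hM := hmain θ θ' (qs r) (Real.exp (-x ^ 2)) lam _ _ p hq0 hq1 hlam1 hlamq' hS hS' hp hε0 hε1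
  have hG := hgam θ θ' (qs r) (Real.exp (-x ^ 2)) lam _ _ p hq0 hq1 hlam1 hlamq' hS hS' hp hε0 hε1
  simp only [hlogε] at hM hG
  have hmm : ∀ v, Measurable (fun ω => Mi G θ 0 r v ω) :=
    fun v => measurable_Mi_right hT hθpos.le hθ1 0 r v
  have hmm' : ∀ v, Measurable (fun ω => Mi G θ' 0 r v ω) :=
    fun v => measurable_Mi_right hT hθ'pos.le hθ'1 0 r v
  have hmb : ∀ v ω, |Mi G θ 0 r v ω| ≤ R := fun v ω => hS.bound v ω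
  have hmb' : ∀ v ω, |Mi G θ' 0 r v ω| ≤ R := fun v ω => hS'.bound v ω
  have hE1 : ∫ ω, (Mi G θ 0 r (p 1) ω - Mi G θ' 0 r (p 1) ω) ^ 2 ∂(labM V) =
      ∫ ω, (Mi G θ 0 r (p 0) ω - Mi G θ' 0 r (p 0) ω) ^ 2 ∂(labM V) :=
    e_const hT hd hreg hθpos.le hθ1 hθ'pos.le hθ'1 0 r (p 1) (p 0)
  have hE0 : 0 ≤ ∫ ω, (Mi G θ 0 r (p 0) ω - Mi G θ' 0 r (p 0) ω) ^ 2 ∂(labM V) :=
    integral_nonneg (fun ω => sq_nonneg _)
  have hY20 : 0 ≤ ∫ ω, (ell θ (Mi G θ 0 r (p 0) ω) (Mi G θ 0 r (p 1) ω) -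
    ell θ' (Mi G θ' 0 r (p 0) ω) (Mi G θ' 0 r (p 1) ω)) ^ 2 ∂(labM V) :=
    integral_nonneg (fun ω => sq_nonneg _)
  obtain ⟨hyA, hyB⟩ := hy θ θ' (labM V) _ _ _ _ t1 t2.le t1' t2'.le
    (hmm (p 0)) (hmm (p 1)) (hmm' (p 0)) (hmm' (p 1)) (hmb (p 0)) (hmb (p 1)) (hmb' (p 0))
    (hmb' (p 1))
  rw [hE1] at hyA hyB
  obtain ⟨hz1, hz2⟩ := hz θ θ' (labM V) _ _ t1 t2.le t1' t2'.le (hmm' (p 0)) (hmm' (p 1))
    (hmb' (p 0)) (hmb' (p 1))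
  obtain ⟨hb1, hb2⟩ := hb θ θ' (labM V) _ _ _ _ t1 t2.le t1' t2'.le
    (hmm (p 0)) (hmm (p 1)) (hmm' (p 0)) (hmm' (p 1)) (hmb (p 0)) (hmb (p 1)) (hmb' (p 0))
    (hmb' (p 1))
  have hz2' : ∫ ω, (ell θ (Mi G θ' 0 r (p 0) ω) (Mi G θ' 0 r (p 1) ω) -
      ell θ' (Mi G θ' 0 r (p 0) ω) (Mi G θ' 0 r (p 1) ω)) ^ 2 ∂(labM V) ≤
      Cz * (2 * (Cm 2 * qs r ^ 2)) := by
    have h2 := hm 2 θ' r (p 0) hθ'pos.le hsub' hr hr'
    have h3 := hm 2 θ' r (p 1) hθ'pos.le hsub' hr hr'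
    refine hz2.trans (mul_le_mul_of_nonneg_left ?_ hCz.le)
    have h4 : (2 * 2 : ℕ) = 4 := rfl
    rw [h4] at h2 h3
    linarith
  have hb2' : |∫ ω, (ell θ (Mi G θ 0 r (p 0) ω) (Mi G θ 0 r (p 1) ω) -
      ell θ' (Mi G θ' 0 r (p 0) ω) (Mi G θ' 0 r (p 1) ω)) ∂(labM V)| ≤ 4 * Cb * Cm 1 * qs r := by
    have h0 := hm 1 θ r (p 0) hθpos.le hsub hr hr'
    have h1 := hm 1 θ r (p 1) hθpos.le hsub hr hr'
    have h2 := hm 1 θ' r (p 0) hθ'pos.le hsub' hr hr'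
    have h3 := hm 1 θ' r (p 1) hθ'pos.le hsub' hr hr'
    have h4 : (2 * 1 : ℕ) = 2 := rfl
    rw [h4, pow_one] at h0 h1 h2 h3
    refine hb2.trans ?_
    calc Cb * (_ + _ + _ + _) ≤ Cb * (Cm 1 * qs r + Cm 1 * qs r + Cm 1 * qs r + Cm 1 * qs r) :=
          mul_le_mul_of_nonneg_left (by linarith) hCb.le
      _ = 4 * Cb * Cm 1 * qs r := by ring
  have hbτ : (∫ ω, (ell θ (Mi G θ 0 r (p 0) ω) (Mi G θ 0 r (p 1) ω) -
      ell θ' (Mi G θ' 0 r (p 0) ω) (Mi G θ' 0 r (p 1) ω)) ∂(labM V)) ^ 2 ≤ τ ^ 6 := by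
    rw [hb1]; exact hβ6
  obtain ⟨hs1, hs2⟩ := hsum (qs r) ((θ - θ') ^ 2) hq0 hq1 (sq_nonneg _)
  have key := fun N : ℕ => hnum N _ _ _ _ _ _ _ τ x (Real.exp (-x ^ 2)) r (qs r) (√r)
    ((θ - θ') ^ 2) _ hypos hy1 hyr hqy3 hx hε0.le hE0 hY20 (sq_nonneg _) hτ hM hG hyA
    (hyB r (2 * N + 1) hr) (by
      have h0 := hm (2 * N + 2) θ r (p 0) hθpos.le hsub hr hr'
      have h1 := hm (2 * N + 2) θ r (p 1) hθpos.le hsub hr hr'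
      have h2 := hm (2 * N + 2) θ' r (p 0) hθ'pos.le hsub' hr hr'
      have h3 := hm (2 * N + 2) θ' r (p 1) hθ'pos.le hsub' hr hr'
      have h4 : 2 * (2 * N + 1) + 2 = 2 * (2 * N + 2) := by ring
      rw [h4]
      linarith) hz1 hz2' hb2' hbτ hΔ1 hΔ6 hs1 hs2
  exact ⟨fun N => (key N).1, (key 0).2⟩

theorem sq_integral_le {f : Lab V → ℝ} {C : ℝ} (hf : Measurable f) (hb : ∀ ω, |f ω| ≤ C) :
    (∫ ω, f ω ∂(labM V)) ^ 2 ≤ ∫ ω, f ω ^ 2 ∂(labM V) := by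
  set c : ℝ := ∫ ω, f ω ∂(labM V) with hc
  have i1 : Integrable f (labM V) := dyn_int_bdd hf hb
  have i2 : Integrable (fun ω => f ω ^ 2) (labM V) := by
    apply dyn_int_bdd (hf.pow_const 2) (C := C ^ 2)
    intro ω
    rw [abs_pow]
    exact pow_le_pow_left₀ (abs_nonneg _) (hb ω) 2
  have h1 : 0 ≤ ∫ ω, (f ω - c) ^ 2 ∂(labM V) := integral_nonneg (fun ω => sq_nonneg _)
  have h2 : ∫ ω, (f ω - c) ^ 2 ∂(labM V) = ∫ ω, f ω ^ 2 ∂(labM V) - c ^ 2 := by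
    have h3 : ∀ ω, (f ω - c) ^ 2 = (f ω ^ 2 - 2 * c * f ω) + c ^ 2 := fun ω => by ring
    simp only [h3]
    have i3 : Integrable (fun ω => 2 * c * f ω) (labM V) := i1.const_mul _
    have i4 : Integrable (fun ω => f ω ^ 2 - 2 * c * f ω) (labM V) := i2.sub i3
    rw [integral_add i4 (integrable_const _), integral_sub i2 i3, integral_const_mul, ← hc]
    simp
    ring
  linarith

set_option maxHeartbeats 1000000 in
theorem fbound_pos (hT : G.IsTree) (hd : 3 ≤ d) (hreg : G.IsRegularOfDegree d) {θc : ℝ}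
    (hc0 : 0 < θc) (hc : ((d : ℝ) - 1) * θc ^ 2 = 1) {k : ℕ} (hk : 1 ≤ k) :
    ∃ K : ℝ, 1 ≤ K ∧
    ∀ (p : ℕ → V) (θ θ' r x : ℝ), (∀ k, IsGeo G k p) →
    θc / 2 ≤ θ → θ < θc → θc / 2 ≤ θ' → θ' < θc → 0 ≤ r → r ≤ 1 / 2 → 1 ≤ x →
    FF G d p θ θ' k r ≤
      K * (1 + x) * ∫ ω, (Mi G θ k r (p 0) ω - Mi G θ' k r (p 0) ω) ^ 2 ∂(labM V) +
      K * (x * Real.exp (-x ^ 2) + x * (θ - θ') ^ 2) := by
  have hθc1 := thc_lt_one hd hc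
  obtain ⟨R, ρ, C, hR, hρ, hC, hsys⟩ := sys_Mi_pos hT hd hreg hk
  obtain ⟨C1, c, hC1, hcpos, hmain⟩ := static_main hT hd hreg hR hρ hC
  obtain ⟨C2, hC2, hgam⟩ := static_gamma hT hd hreg hR hρ hC
  have hθ0 : 0 < θc / 2 := by positivity
  obtain ⟨Cy, hCy, hy⟩ := y2_bound (V := V) hθ0 hθc1 hR
  obtain ⟨Cz, hCz, hz⟩ := z2_bound (V := V) hθ0 hθc1 hR
  obtain ⟨Cb, hCb, hb⟩ := ell_bound hθ0 hθc1 hR
  obtain ⟨Cs, hCs, hsum⟩ := sum_source hcpos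
  have hnum := fun (E Y2 b1 Z2 S D Gm x ε r Δ : ℝ) =>
    fbound_num_pos (C1 := C1) (C2 := C2) (Cy := Cy) (Cz := Cz) (Cs := Cs)
      (E := E) (Y2 := Y2) (b1 := b1) (Z2 := Z2)
      (S := S) (D := D) (Gm := Gm) (x := x) (ε := ε) (r := r) (Δ := Δ)
      hC1 hC2 hCy hCz hCs
  simp only at hnum
  set K : ℝ := 1 + 1000 * C1 * (2 + 2 * (2 * Cy)) + 2 * (1000 * C2) +
    1000 * C1 * (0 + Cs + 1 + 2 * (2 * Cz) + 2 * Cz) with hK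
  refine ⟨K, ?_, ?_⟩
  · have h1 : 0 ≤ 1000 * C1 * (2 + 2 * (2 * Cy)) := by positivity
    have h2 : 0 ≤ 1000 * C1 * (0 + Cs + 1 + 2 * (2 * Cz) + 2 * Cz) := by positivity
    rw [hK]; linarith
  intro p θ θ' r x hp t1 t2 t1' t2' hr hr' hx
  obtain ⟨hθpos, hθ1, hge, hsub⟩ := range_facts hd hc0 hc t1 t2
  obtain ⟨hθ'pos, hθ'1, hge', hsub'⟩ := range_facts hd hc0 hc t1' t2'
  have hS := hsys θ r hθpos hge hsub hr hr'
  have hS' := hsys θ' r hθ'pos hge' hsub' hr hr'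
  have hε0 : 0 < Real.exp (-x ^ 2) := Real.exp_pos _
  have hε1 : Real.exp (-x ^ 2) ≤ Real.exp (-1) := by
    apply Real.exp_le_exp.2; nlinarith
  have hlogε : √(Real.log (1 / Real.exp (-x ^ 2))) = x := by
    rw [one_div, ← Real.exp_neg, Real.log_exp, neg_neg]
    exact Real.sqrt_sq (by linarith)
  have hlam : (((1 : ℕ) : ℝ) - 1) * 1 ≤ 2 := by norm_num
  have hM := hmain θ θ' 1 (Real.exp (-x ^ 2)) 1 _ _ p one_pos le_rfl le_rfl hlam hS hS' hp hε0 hε1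
  have hG := hgam θ θ' 1 (Real.exp (-x ^ 2)) 1 _ _ p one_pos le_rfl le_rfl hlam hS hS' hp hε0 hε1
  simp only [hlogε] at hM hG
  have hmm : ∀ v, Measurable (fun ω => Mi G θ k r v ω) :=
    fun v => measurable_Mi_right hT hθpos.le hθ1 k r v
  have hmm' : ∀ v, Measurable (fun ω => Mi G θ' k r v ω) :=
    fun v => measurable_Mi_right hT hθ'pos.le hθ'1 k r v
  have hmb : ∀ v ω, |Mi G θ k r v ω| ≤ R := fun v ω => hS.bound v ω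
  have hmb' : ∀ v ω, |Mi G θ' k r v ω| ≤ R := fun v ω => hS'.bound v ω
  have hE1 : ∫ ω, (Mi G θ k r (p 1) ω - Mi G θ' k r (p 1) ω) ^ 2 ∂(labM V) =
      ∫ ω, (Mi G θ k r (p 0) ω - Mi G θ' k r (p 0) ω) ^ 2 ∂(labM V) :=
    e_const hT hd hreg hθpos.le hθ1 hθ'pos.le hθ'1 k r (p 1) (p 0)
  have hE0 : 0 ≤ ∫ ω, (Mi G θ k r (p 0) ω - Mi G θ' k r (p 0) ω) ^ 2 ∂(labM V) :=
    integral_nonneg (fun ω => sq_nonneg _)
  have hY20 : 0 ≤ ∫ ω, (ell θ (Mi G θ k r (p 0) ω) (Mi G θ k r (p 1) ω) -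
    ell θ' (Mi G θ' k r (p 0) ω) (Mi G θ' k r (p 1) ω)) ^ 2 ∂(labM V) :=
    integral_nonneg (fun ω => sq_nonneg _)
  obtain ⟨hyA, -⟩ := hy θ θ' (labM V) _ _ _ _ t1 t2.le t1' t2'.le
    (hmm (p 0)) (hmm (p 1)) (hmm' (p 0)) (hmm' (p 1)) (hmb (p 0)) (hmb (p 1)) (hmb' (p 0))
    (hmb' (p 1))
  rw [hE1] at hyA
  obtain ⟨hz1, -⟩ := hz θ θ' (labM V) _ _ t1 t2.le t1' t2'.le (hmm' (p 0)) (hmm' (p 1))
    (hmb' (p 0)) (hmb' (p 1))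
  have hsq : ∀ x : ℝ, |x| ≤ R → x ^ 2 ≤ 1 := by
    intro x hx
    rw [← sq_abs]
    have := abs_nonneg x
    nlinarith
  have hb1 := sq_integral_le (V := V) (C := 4 * Cb)
    ((dyn_measurable_ell_comp θ (hmm (p 0)) (hmm (p 1))).sub
      (dyn_measurable_ell_comp θ' (hmm' (p 0)) (hmm' (p 1)))) (by
    intro ω
    have h1 := hb θ _ _ t1 t2.le (hmb (p 0) ω) (hmb (p 1) ω)
    have h2 := hb θ' _ _ t1' t2'.le (hmb' (p 0) ω) (hmb' (p 1) ω)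
    have g1 := hsq _ (hmb (p 0) ω)
    have g2 := hsq _ (hmb (p 1) ω)
    have g3 := hsq _ (hmb' (p 0) ω)
    have g4 := hsq _ (hmb' (p 1) ω)
    refine (abs_sub _ _).trans ?_
    have e1 : Cb * (Mi G θ k r (p 0) ω ^ 2 + Mi G θ k r (p 1) ω ^ 2) ≤ Cb * 2 :=
      mul_le_mul_of_nonneg_left (by linarith) hCb.le
    have e2 : Cb * (Mi G θ' k r (p 0) ω ^ 2 + Mi G θ' k r (p 1) ω ^ 2) ≤ Cb * 2 :=
      mul_le_mul_of_nonneg_left (by linarith) hCb.le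
    linarith)
  obtain ⟨-, hs2⟩ := hsum 1 ((θ - θ') ^ 2) one_pos le_rfl (sq_nonneg _)
  exact hnum _ _ _ _ _ _ _ x (Real.exp (-x ^ 2)) r ((θ - θ') ^ 2) hr (by linarith) hx hε0.le
    hE0 hY20 (sq_nonneg _) hM hG hyA hz1 hb1 hs2

theorem rk_lt_one (d k : ℕ) (θ : ℝ) : rk d k θ < 1 := by
  unfold rk
  exact Real.tanh_lt_one _

theorem measurable_e (hT : G.IsTree) {θ θ' : ℝ} (h0 : 0 ≤ θ) (h1 : θ < 1) (h0' : 0 ≤ θ')
    (h1' : θ' < 1) (k : ℕ) (v : V) :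
    Measurable (fun s : ℝ => ∫ ω, (Mi G θ k s v ω - Mi G θ' k s v ω) ^ 2 ∂(labM V)) := by
  have m1 := measurable_Mi hT h0 h1 k v
  have m2 := measurable_Mi hT h0' h1' k v
  have m3 : Measurable (fun p : ℝ × Lab V => (Mi G θ k p.1 v p.2 - Mi G θ' k p.1 v p.2) ^ 2) :=
    (m1.sub m2).pow_const 2
  exact (m3.stronglyMeasurable.integral_prod_right' (ν := labM V)).measurable

theorem e_le_four (hT : G.IsTree) (hreg : G.IsRegularOfDegree d) {θ θ' : ℝ} (h0 : 0 ≤ θ)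
    (h1 : θ < 1) (h0' : 0 ≤ θ') (h1' : θ' < 1) (k : ℕ) (v : V) {s : ℝ} (hs : 0 ≤ s)
    (hs' : s ≤ 1 / 2) :
    ∫ ω, (Mi G θ k s v ω - Mi G θ' k s v ω) ^ 2 ∂(labM V) ≤ 4 := by
  have h : ∫ ω, (Mi G θ k s v ω - Mi G θ' k s v ω) ^ 2 ∂(labM V) ≤
      ∫ ω : Lab V, (4 : ℝ) ∂(labM V) := by
    apply integral_mono_of_nonneg (Filter.Eventually.of_forall (fun ω => sq_nonneg _))
      (integrable_const _)
    apply Filter.Eventually.of_forall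
    intro ω
    simp only
    have a1 := (abs_le.1 ((abs_Mi_le hT hreg h0 h1 v k hs hs' ω).trans (rk_lt_one d k θ).le))
    have a2 := (abs_le.1 ((abs_Mi_le hT hreg h0' h1' v k hs hs' ω).trans (rk_lt_one d k θ').le))
    nlinarith [a1.1, a1.2, a2.1, a2.2]
  simpa using h

theorem pair_FF (hT : G.IsTree) (hd : 3 ≤ d) (hreg : G.IsRegularOfDegree d)
    {θ θ' : ℝ} (h0 : 0 ≤ θ) (hθ : ((d : ℝ) - 1) * θ ^ 2 < 1) (h0' : 0 ≤ θ')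
    (hθ' : ((d : ℝ) - 1) * θ' ^ 2 < 1) {p : ℕ → V} (hp : ∀ k, IsGeo G k p) (k : ℕ) {s : ℝ}
    (hs : 0 ≤ s) (hs' : s ≤ 1 / 2) :
    ∫ ω, (Mi G θ k s (p 0) ω - Mi G θ' k s (p 0) ω) ^ 2 ∂(labM V) ≤
      ∫ ω, (Mi G θ k 0 (p 0) ω - Mi G θ' k 0 (p 0) ω) ^ 2 ∂(labM V) +
      ∫ r in (0 : ℝ)..s, FF G d p θ θ' k r :=
  pair_isometry_inf hT hd hreg h0 hθ h0' hθ' hp k hs hs'

theorem cauchy_of_subseq (hT : G.IsTree) (hd : 3 ≤ d) (hreg : G.IsRegularOfDegree d) {θc : ℝ}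
    (hc0 : 0 < θc) (hc : ((d : ℝ) - 1) * θc ^ 2 = 1) {p : ℕ → V} (hp : ∀ k, IsGeo G k p)
    {θs : ℕ → ℝ} (hθs : ∀ j, θc / 2 ≤ θs j ∧ θs j < θc) (hlim : Tendsto θs atTop (𝓝 θc))
    (hβ : ∀ e : ℝ, 0 < e → ∃ J : ℕ, ∀ i j, J ≤ i → J ≤ j → ∀ s ∈ Set.Icc (0 : ℝ) (1 / 2),
      |beta G p (θs i) 0 s - beta G p (θs j) 0 s| ≤ e) (k : ℕ) :
    Tendsto (fun q : ℕ × ℕ =>
      ∫ ω, (Mi G (θs q.1) k (1 / 2) (p 0) ω - Mi G (θs q.2) k (1 / 2) (p 0) ω) ^ 2 ∂(labM V))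
      (atTop ×ˢ atTop) (𝓝 0) := by
  have hr := fun j => range_facts hd hc0 hc (hθs j).1 (hθs j).2
  have hΔ : Tendsto (fun q : ℕ × ℕ => (θs q.1 - θs q.2) ^ 2) (atTop ×ˢ atTop) (𝓝 0) := by
    have h1 : Tendsto (fun q : ℕ × ℕ => θs q.1) (atTop ×ˢ atTop) (𝓝 θc) :=
      hlim.comp tendsto_fst
    have h2 : Tendsto (fun q : ℕ × ℕ => θs q.2) (atTop ×ˢ atTop) (𝓝 θc) :=
      hlim.comp tendsto_snd
    have h3 := (h1.sub h2).pow 2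
    simpa using h3
  have hΔe : ∀ e : ℝ, 0 < e → ∀ᶠ q : ℕ × ℕ in atTop ×ˢ atTop, (θs q.1 - θs q.2) ^ 2 ≤ e := by
    intro e he
    filter_upwards [hΔ.eventually (gt_mem_nhds he)] with q hq using hq.le
  have hJ : ∀ J : ℕ, ∀ᶠ q : ℕ × ℕ in atTop ×ˢ atTop, J ≤ q.1 ∧ J ≤ q.2 := by
    intro J
    exact (tendsto_fst.eventually (eventually_ge_atTop J)).and
      (tendsto_snd.eventually (eventually_ge_atTop J))
  induction k with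
  | zero =>
    obtain ⟨K, hK, CN, hCN, hF⟩ := fbound_zero hT hd hreg hc0 hc
    refine dyn_abstract (l := atTop ×ˢ atTop) hK hCN
      (e := fun (q : ℕ × ℕ) s => ∫ ω, (Mi G (θs q.1) 0 s (p 0) ω - Mi G (θs q.2) 0 s (p 0) ω) ^ 2
        ∂(labM V)) (f := fun (q : ℕ × ℕ) r => FF G d p (θs q.1) (θs q.2) 0 r)
      (fun q => measurable_e hT (hr q.1).1.le (hr q.1).2.1 (hr q.2).1.le (hr q.2).2.1 0 (p 0))
      (fun q s _ _ => integral_nonneg (fun ω => sq_nonneg _))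
      (fun q s hs hs' => e_le_four hT hreg (hr q.1).1.le (hr q.1).2.1 (hr q.2).1.le
        (hr q.2).2.1 0 (p 0) hs hs') ?_
    intro τ hτ
    obtain ⟨J, hJβ⟩ := hβ (τ ^ 3) (by positivity)
    filter_upwards [hΔe τ hτ, hΔe (τ ^ 6) (by positivity), hJ J] with q h1 h2 h3
    have hβ6 : ∀ r : ℝ, 0 < r → r ≤ 1 / 2 →
        (beta G p (θs q.1) 0 r - beta G p (θs q.2) 0 r) ^ 2 ≤ τ ^ 6 := by
      intro r hr0 hr1
      have h4 := hJβ q.1 q.2 h3.1 h3.2 r ⟨hr0.le, hr1⟩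
      calc (beta G p (θs q.1) 0 r - beta G p (θs q.2) 0 r) ^ 2
          = |beta G p (θs q.1) 0 r - beta G p (θs q.2) 0 r| ^ 2 := (sq_abs _).symm
        _ ≤ (τ ^ 3) ^ 2 := pow_le_pow_left₀ (abs_nonneg _) h4 2
        _ = τ ^ 6 := by ring
    refine ⟨?_, ?_, ?_⟩
    · intro x r N hx hr0 hr1
      exact (hF p (θs q.1) (θs q.2) r x τ hp (hθs _).1 (hθs _).2 (hθs _).1 (hθs _).2 hr0 hr1 hx
        hτ.le h1 h2 (hβ6 r hr0 hr1)).1 N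
    · intro x r hx hr0 hr1
      exact (hF p (θs q.1) (θs q.2) r x τ hp (hθs _).1 (hθs _).2 (hθs _).1 (hθs _).2 hr0 hr1 hx
        hτ.le h1 h2 (hβ6 r hr0 hr1)).2
    · intro s hs hs'
      have h5 := pair_FF hT hd hreg (hr q.1).1.le (hr q.1).2.2.2 (hr q.2).1.le (hr q.2).2.2.2 hp 0
        hs hs'
      have h6 : ∫ ω, (Mi G (θs q.1) 0 0 (p 0) ω - Mi G (θs q.2) 0 0 (p 0) ω) ^ 2 ∂(labM V) = 0 := by
        simp only [Mi_zero_zero hT (hr q.1).1.le (hr q.1).2.1,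
          Mi_zero_zero hT (hr q.2).1.le (hr q.2).2.1]
        simp
      rw [h6] at h5
      linarith
  | succ k ih =>
    obtain ⟨K, hK, hF⟩ := fbound_pos hT hd hreg hc0 hc (k := k + 1) (by omega)
    refine dyn_abstract (l := atTop ×ˢ atTop) hK (CN := fun _ => 0) (fun _ => le_rfl)
      (e := fun (q : ℕ × ℕ) s => ∫ ω, (Mi G (θs q.1) (k + 1) s (p 0) ω -
        Mi G (θs q.2) (k + 1) s (p 0) ω) ^ 2
        ∂(labM V)) (f := fun (q : ℕ × ℕ) r => FF G d p (θs q.1) (θs q.2) (k + 1) r)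
      (fun q => measurable_e hT (hr q.1).1.le (hr q.1).2.1 (hr q.2).1.le (hr q.2).2.1 (k + 1) (p 0))
      (fun q s _ _ => integral_nonneg (fun ω => sq_nonneg _))
      (fun q s hs hs' => e_le_four hT hreg (hr q.1).1.le (hr q.1).2.1 (hr q.2).1.le
        (hr q.2).2.1 (k + 1) (p 0) hs hs') ?_
    intro τ hτ
    filter_upwards [hΔe τ hτ, ih.eventually (gt_mem_nhds hτ)] with q h1 h2
    have hK0 : 0 ≤ K := by linarith
    have hx' : ∀ x r : ℝ, 1 ≤ x → 0 < r → r ≤ 1 / 2 → FF G d p (θs q.1) (θs q.2) (k + 1) r ≤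
        K * (1 + x) * ∫ ω, (Mi G (θs q.1) (k + 1) r (p 0) ω -
          Mi G (θs q.2) (k + 1) r (p 0) ω) ^ 2 ∂(labM V) +
        K * (x * Real.exp (-x ^ 2) + x * τ) := by
      intro x r hx hr0 hr1
      refine (hF p (θs q.1) (θs q.2) r x hp (hθs _).1 (hθs _).2 (hθs _).1 (hθs _).2 hr0.le hr1
        hx).trans ?_
      have e1 : x * (θs q.1 - θs q.2) ^ 2 ≤ x * τ := mul_le_mul_of_nonneg_left h1 (by linarith)
      have e2 := mul_le_mul_of_nonneg_left e1 hK0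
      linarith
    refine ⟨?_, ?_, ?_⟩
    · intro x r N hx hr0 hr1
      have := hx' x r hx hr0 hr1
      rw [zero_mul, zero_add]
      exact this
    · intro x r hx hr0 hr1
      refine (hx' x r hx hr0 hr1).trans ?_
      have e1 : (1 : ℝ) ≤ 1 / r := by rw [le_div_iff₀ hr0]; linarith
      have e2 : 0 ≤ ∫ ω, (Mi G (θs q.1) (k + 1) r (p 0) ω -
          Mi G (θs q.2) (k + 1) r (p 0) ω) ^ 2 ∂(labM V) := integral_nonneg (fun ω => sq_nonneg _)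
      have e3 : K * (1 + x) ≤ K * (1 / r + x) := mul_le_mul_of_nonneg_left (by linarith) hK0
      have e4 := mul_le_mul_of_nonneg_right e3 e2
      linarith
    · intro s hs hs'
      have h5 := pair_FF hT hd hreg (hr q.1).1.le (hr q.1).2.2.2 (hr q.2).1.le (hr q.2).2.2.2 hp
        (k + 1) hs hs'
      simp only [Mi_succ_zero] at h5
      linarith

/-- OUTPUT: Cauchy property in the critical case. -/
theorem critical_cauchy (hT : G.IsTree) (hd : 3 ≤ d) (hreg : G.IsRegularOfDegree d) {θc : ℝ}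
    (hc0 : 0 < θc) (hc : ((d : ℝ) - 1) * θc ^ 2 = 1) :
    ∃ θs : ℕ → ℝ, (∀ j, 0 ≤ θs j) ∧ (∀ j, ((d : ℝ) - 1) * θs j ^ 2 < 1) ∧
      Tendsto θs atTop (𝓝 θc) ∧ ∀ (k : ℕ) (v : V), Tendsto (fun q : ℕ × ℕ =>
      ∫ ω, (Mi G (θs q.1) k (1 / 2) v ω - Mi G (θs q.2) k (1 / 2) v ω) ^ 2 ∂(labM V))
      (atTop ×ˢ atTop) (𝓝 0) := by
  obtain ⟨v₀⟩ : Nonempty V := hT.connected.nonempty
  obtain ⟨p, -, hp⟩ := exists_ray hT hd hreg v₀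
  obtain ⟨θs, hθs, hlim, hβ⟩ := exists_subseq hT hd hreg hc0 hc hp
  have hr := fun j => range_facts hd hc0 hc (hθs j).1 (hθs j).2
  refine ⟨θs, fun j => (hr j).1.le, fun j => (hr j).2.2.2, hlim, ?_⟩
  intro k v
  have h := cauchy_of_subseq hT hd hreg hc0 hc hp hθs hlim (hβ 0) k
  refine h.congr ?_
  intro q
  exact e_const hT hd hreg (hr q.1).1.le (hr q.1).2.1 (hr q.2).1.le (hr q.2).2.1 k (1 / 2) (p 0) v

end Crest.Agent.Lib.Row160
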