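import Crest.Agent.Lib.Row160.Defs

/-!
Row 160 (S0241), chunk M11: final assembly.
-/

set_option autoImplicit false
open MeasureTheory Filter Topology

namespace Crest.Agent.Lib.Row160

section M11
universe u

/-- all labels of one vertex from one uniform variable. -/
theorem exists_labelMap : ∃ φ : unitInterval → (ℕ → L1), Measurable φ ∧
    (volume : Measure unitInterval).map φ =
      Measure.infinitePi (fun _ : ℕ => (volume : Measure L1)) :=
  MeasureTheory.Measure.exists_measurable_map_eq _

/-- the labels of all rounds from the labels in `[0,1]`. -/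
private noncomputable def Lam {V : Type u} (φ : unitInterval → (ℕ → L1)) (x : V → unitInterval) :
    Lab V :=
  fun q => φ (x q.1) q.2

private theorem measurable_Lam {V : Type u} {φ : unitInterval → (ℕ → L1)} (hφ : Measurable φ) :
    Measurable (Lam φ : (V → unitInterval) → Lab V) := by
  unfold Lam
  exact measurable_pi_lambda _ fun q =>
    (measurable_pi_apply q.2).comp (hφ.comp (measurable_pi_apply q.1))

private theorem map_Lam {V : Type u} {φ : unitInterval → (ℕ → L1)} (hφ : Measurable φ)
    (hφ' : (volume : Measure unitInterval).map φ =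
      Measure.infinitePi (fun _ : ℕ => (volume : Measure L1))) :
    (Crest.ProbabilityR.Labels.labelMeasure V).map (Lam φ) = labM V := by
  have h1 : (Lam φ : (V → unitInterval) → Lab V) =
      (MeasurableEquiv.curry V ℕ L1).symm ∘ (fun x v => φ (x v)) := by
    funext x q
    rfl
  have h2 : Measurable (fun (x : V → unitInterval) v => φ (x v)) :=
    measurable_pi_lambda _ fun v => hφ.comp (measurable_pi_apply v)
  rw [h1, ← Measure.map_map (MeasurableEquiv.measurable _) h2,
    Crest.ProbabilityR.Labels.labelMeasure,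
    Measure.infinitePi_map_pi (μ := fun _ : V => (volume : Measure unitInterval))
      (f := fun _ => φ) (fun _ => hφ)]
  simp only [hφ']
  rw [Measure.infinitePi_map_curry_symm (fun (_ : V) (_ : ℕ) => (volume : Measure L1))]
  rfl

private theorem Lam_comp {V : Type u} {G : SimpleGraph V} (φ : unitInterval → (ℕ → L1))
    (g : G ≃g G) (x : V → unitInterval) : Lam φ (x ∘ ⇑g) = act g (Lam φ x) := by
  funext q
  rfl

private instance instProbLabM (V : Type u) : IsProbabilityMeasure (labM V) := by
  unfold labM; infer_instance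

/-- a.e. convergence of a sequence of functions with fast `L²` increments. -/
private theorem ae_tendsto_of_sq {V : Type u} (f : ℕ → Lab V → ℝ) (hm : ∀ j, Measurable (f j))
    (hb : ∀ j ω, |f j ω| ≤ 1)
    (hC : ∀ j, ∫ ω, (f (j + 1) ω - f j ω) ^ 2 ∂(labM V) ≤ (1 / 4) ^ j) :
    ∀ᵐ ω ∂(labM V), Tendsto (fun j => f j ω) atTop (𝓝 (limsup (fun j => f j ω) atTop)) := by
  have hint : ∀ j, ∫ ω, |f (j + 1) ω - f j ω| ∂(labM V) ≤ (1 / 2) ^ j := by
    intro j
    have hmj : Measurable (fun ω => f (j + 1) ω - f j ω) := (hm _).sub (hm _)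
    have hbj : ∀ ω, |f (j + 1) ω - f j ω| ≤ 2 := fun ω => by
      have h1 := hb (j + 1) ω
      have h2 := hb j ω
      rw [abs_le] at *
      constructor <;> linarith
    have hi1 : Integrable (fun ω => |f (j + 1) ω - f j ω|) (labM V) :=
      Integrable.of_bound (hmj.abs.aestronglyMeasurable) 2
        (ae_of_all _ fun ω => by rw [Real.norm_eq_abs, abs_abs]; exact hbj ω)
    have hi2 : Integrable (fun ω => (f (j + 1) ω - f j ω) ^ 2) (labM V) :=
      Integrable.of_bound ((hmj.pow_const 2).aestronglyMeasurable) 4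
        (ae_of_all _ fun ω => by
          rw [Real.norm_eq_abs, abs_pow]
          have := hbj ω
          nlinarith [abs_nonneg (f (j + 1) ω - f j ω)])
    have hmono : ∫ ω, |f (j + 1) ω - f j ω| ∂(labM V) ≤
        ∫ ω, ((1 / 2) ^ j / 2 + 2 ^ j / 2 * (f (j + 1) ω - f j ω) ^ 2) ∂(labM V) := by
      refine integral_mono hi1 ((integrable_const _).add (hi2.const_mul _)) fun ω => ?_
      set a := |f (j + 1) ω - f j ω| with ha
      have e1 : (f (j + 1) ω - f j ω) ^ 2 = a ^ 2 := by rw [ha, sq_abs]
      show a ≤ (1 / 2) ^ j / 2 + 2 ^ j / 2 * (f (j + 1) ω - f j ω) ^ 2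
      rw [e1]
      have h3 : (0 : ℝ) < 2 ^ j := by positivity
      have h4 : ((1 : ℝ) / 2) ^ j = (2 ^ j)⁻¹ := by rw [one_div, inv_pow]
      rw [h4]
      have h5 : (2 : ℝ) ^ j * (2 ^ j)⁻¹ = 1 := mul_inv_cancel₀ h3.ne'
      have h6 : 0 ≤ (2 : ℝ) ^ j * (a - (2 ^ j)⁻¹) ^ 2 := by positivity
      have h7 : (2 : ℝ) ^ j * (a - (2 ^ j)⁻¹) ^ 2 =
          2 ^ j * a ^ 2 - 2 * a * (2 ^ j * (2 ^ j)⁻¹) + (2 ^ j * (2 ^ j)⁻¹) * (2 ^ j)⁻¹ := by ring
      rw [h7, h5] at h6
      linarith
    refine hmono.trans ?_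
    rw [integral_add (integrable_const _) (hi2.const_mul _), integral_const, integral_const_mul]
    simp only [probReal_univ, smul_eq_mul, one_mul]
    have h8 : (2 : ℝ) ^ j / 2 * ∫ ω, (f (j + 1) ω - f j ω) ^ 2 ∂(labM V) ≤
        (2 : ℝ) ^ j / 2 * (1 / 4) ^ j := by
      apply mul_le_mul_of_nonneg_left (hC j) (by positivity)
    have h9 : (2 : ℝ) ^ j * (1 / 4) ^ j = (1 / 2) ^ j := by
      rw [← mul_pow]; norm_num
    linarith
  have hlint : ∑' j, ∫⁻ ω, ENNReal.ofReal |f (j + 1) ω - f j ω| ∂(labM V) ≠ ⊤ := by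
    have hle : ∀ j, ∫⁻ ω, ENNReal.ofReal |f (j + 1) ω - f j ω| ∂(labM V) ≤
        ENNReal.ofReal ((1 / 2) ^ j) := by
      intro j
      have hmj : Measurable (fun ω => f (j + 1) ω - f j ω) := (hm _).sub (hm _)
      have hbj : ∀ ω, |f (j + 1) ω - f j ω| ≤ 2 := fun ω => by
        have h1 := hb (j + 1) ω
        have h2 := hb j ω
        rw [abs_le] at *
        constructor <;> linarith
      have hi1 : Integrable (fun ω => |f (j + 1) ω - f j ω|) (labM V) :=
        Integrable.of_bound (hmj.abs.aestronglyMeasurable) 2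
          (ae_of_all _ fun ω => by rw [Real.norm_eq_abs, abs_abs]; exact hbj ω)
      rw [← ofReal_integral_eq_lintegral_ofReal hi1 (ae_of_all _ fun ω => abs_nonneg _)]
      exact ENNReal.ofReal_le_ofReal (hint j)
    refine ne_top_of_le_ne_top ?_ (ENNReal.tsum_le_tsum hle)
    rw [← ENNReal.ofReal_tsum_of_nonneg (fun n => by positivity)
      (summable_geometric_of_lt_one (by norm_num) (by norm_num))]
    exact ENNReal.ofReal_ne_top
  have hmj : ∀ j, AEMeasurable (fun ω => ENNReal.ofReal |f (j + 1) ω - f j ω|) (labM V) :=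
    fun j => (((hm (j + 1)).sub (hm j)).abs.ennreal_ofReal).aemeasurable
  rw [← lintegral_tsum hmj] at hlint
  have hae := ae_lt_top' (AEMeasurable.tsum hmj) hlint
  filter_upwards [hae] with ω hω
  have hsum : Summable (fun j => |f (j + 1) ω - f j ω|) := by
    have := ENNReal.summable_toReal hω.ne
    refine this.congr fun j => ?_
    rw [ENNReal.toReal_ofReal (abs_nonneg _)]
  have hcs : CauchySeq (fun j => f j ω) := by
    apply cauchySeq_of_summable_dist
    refine hsum.congr fun j => ?_
    rw [Real.dist_eq, abs_sub_comm]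
  obtain ⟨l, hl⟩ := cauchySeq_tendsto_of_complete hcs
  rwa [hl.limsup_eq]

/-- abstract criterion. -/
theorem factor_of_approx {V : Type u} (G : SimpleGraph V) [Countable V] {θ : ℝ}
    (F : ℕ → V → Lab V → ℝ) (hE : ∀ j, Eqv1 G (F j)) (hm : ∀ j v, Measurable (F j v))
    (hb : ∀ j v ω, |F j v ω| ≤ 1)
    (hC : ∀ j v, ∫ ω, (F (j + 1) v ω - F j v ω) ^ 2 ∂(labM V) ≤ (1 / 4) ^ j)
    (h1 : ∀ v, Tendsto (fun j => ∫ ω, (1 - F j v ω ^ 2) ∂(labM V)) atTop (𝓝 0))
    (hl : ∀ (S : Finset V) (η : V → Bool), (G.induce (S : Set V)).Connected →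
      Tendsto (fun j => ∫ ω, ∏ v ∈ S, (1 + (if η v then 1 else -1) * F j v ω) / 2 ∂(labM V)) atTop
        (𝓝 (Crest.ProbabilityR.TreeIsing.isingWeight G θ S η))) :
    ∃ Φ : (V → unitInterval) → (V → Bool),
      Measurable Φ ∧
      (∀ (g : G ≃g G) (x : V → unitInterval), Φ (x ∘ ⇑g) = Φ x ∘ ⇑g) ∧
      ∀ (S : Finset V) (η : V → Bool), (G.induce (S : Set V)).Connected →
        (Crest.ProbabilityR.Labels.labelMeasure V).map Φ {σ | ∀ v ∈ S, σ v = η v} =
          ENNReal.ofReal (Crest.ProbabilityR.TreeIsing.isingWeight G θ S η) := by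
  classical
  obtain ⟨φ, hφ, hφ'⟩ := exists_labelMap
  set Fi : V → Lab V → ℝ := fun v ω => limsup (fun j => F j v ω) atTop with hFi
  have hFim : ∀ v, Measurable (Fi v) := fun v => Measurable.limsup (fun j => hm j v)
  have hFiE : ∀ (g : G ≃g G) (v : V) (ω : Lab V), Fi (g v) ω = Fi v (act g ω) := by
    intro g v ω
    simp only [hFi]
    congr 1
    funext j
    exact hE j g v ω
  have hae : ∀ v, ∀ᵐ ω ∂(labM V), Tendsto (fun j => F j v ω) atTop (𝓝 (Fi v ω)) := fun v =>
    ae_tendsto_of_sq (fun j => F j v) (fun j => hm j v) (fun j ω => hb j v ω) (fun j => hC j v)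
  have hpm : ∀ v, ∀ᵐ ω ∂(labM V), Fi v ω ^ 2 = 1 := by
    intro v
    have hlim : Tendsto (fun j => ∫ ω, (1 - F j v ω ^ 2) ∂(labM V)) atTop
        (𝓝 (∫ ω, (1 - Fi v ω ^ 2) ∂(labM V))) := by
      apply tendsto_integral_of_dominated_convergence (fun _ => (1 : ℝ))
      · intro j
        exact (measurable_const.sub ((hm j v).pow_const 2)).aestronglyMeasurable
      · exact integrable_const _
      · intro j
        refine ae_of_all _ fun ω => ?_
        rw [Real.norm_eq_abs, abs_le]
        have h := hb j v ω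
        have h2 : F j v ω ^ 2 ≤ 1 := by
          rw [← sq_abs]; nlinarith [abs_nonneg (F j v ω)]
        constructor <;> nlinarith [sq_nonneg (F j v ω)]
      · filter_upwards [hae v] with ω hω
        exact tendsto_const_nhds.sub (hω.pow 2)
    have h0 : ∫ ω, (1 - Fi v ω ^ 2) ∂(labM V) = 0 := tendsto_nhds_unique hlim (h1 v)
    have hle : ∀ᵐ ω ∂(labM V), |Fi v ω| ≤ 1 := by
      filter_upwards [hae v] with ω hω
      exact le_of_tendsto hω.abs (Eventually.of_forall fun j => hb j v ω)
    have hnn : 0 ≤ᵐ[labM V] fun ω => 1 - Fi v ω ^ 2 := by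
      filter_upwards [hle] with ω hω
      show (0 : ℝ) ≤ 1 - Fi v ω ^ 2
      have h2 : Fi v ω ^ 2 ≤ 1 := by
        rw [← sq_abs]; nlinarith [abs_nonneg (Fi v ω)]
      linarith
    have hint : Integrable (fun ω => 1 - Fi v ω ^ 2) (labM V) := by
      refine Integrable.of_bound
        ((measurable_const.sub ((hFim v).pow_const 2)).aestronglyMeasurable) 1 ?_
      filter_upwards [hle] with ω hω
      have h2 : Fi v ω ^ 2 ≤ 1 := by
        rw [← sq_abs]; nlinarith [abs_nonneg (Fi v ω)]
      rw [Real.norm_eq_abs, abs_le]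
      constructor <;> nlinarith [sq_nonneg (Fi v ω)]
    have := (integral_eq_zero_iff_of_nonneg_ae hnn hint).1 h0
    filter_upwards [this] with ω hω
    have hω' : 1 - Fi v ω ^ 2 = 0 := hω
    linarith
  set Ψ : Lab V → V → Bool := fun ω v => decide (0 < Fi v ω) with hΨ
  have hΨm : Measurable Ψ := by
    refine measurable_pi_lambda _ fun v => ?_
    have hset : MeasurableSet {ω : Lab V | 0 < Fi v ω} := measurableSet_lt measurable_const (hFim v)
    have h2 : (fun ω => decide (0 < Fi v ω)) =
        (fun ω => if ω ∈ {ω : Lab V | 0 < Fi v ω} then true else false) := by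
      funext ω
      by_cases h : 0 < Fi v ω
      · simp [h]
      · simp [h]
    simp only [hΨ]
    rw [h2]
    exact Measurable.ite hset measurable_const measurable_const
  refine ⟨fun x => Ψ (Lam φ x), hΨm.comp (measurable_Lam hφ), ?_, ?_⟩
  · intro g x
    funext v
    show decide (0 < Fi v (Lam φ (x ∘ ⇑g))) = decide (0 < Fi (g v) (Lam φ x))
    rw [Lam_comp, hFiE]
  · intro S η hS
    have hms : MeasurableSet {σ : V → Bool | ∀ v ∈ S, σ v = η v} := by
      have : {σ : V → Bool | ∀ v ∈ S, σ v = η v} = ⋂ v ∈ S, (fun σ : V → Bool => σ v) ⁻¹' {η v} := by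
        ext σ
        simp
      rw [this]
      exact S.measurableSet_biInter fun v _ => measurable_pi_apply v (measurableSet_singleton _)
    have e1 : (Crest.ProbabilityR.Labels.labelMeasure V).map (fun x => Ψ (Lam φ x))
        {σ | ∀ v ∈ S, σ v = η v} = labM V {ω | ∀ v ∈ S, Ψ ω v = η v} := by
      have e2 := Measure.map_apply (μ := Crest.ProbabilityR.Labels.labelMeasure V)
        (hΨm.comp (measurable_Lam hφ)) hms
      have e3 := Measure.map_apply (μ := Crest.ProbabilityR.Labels.labelMeasure V)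
        (measurable_Lam hφ) (hΨm hms)
      rw [map_Lam hφ hφ'] at e3
      exact e2.trans e3.symm
    rw [e1]
    have hmE : MeasurableSet {ω : Lab V | ∀ v ∈ S, Ψ ω v = η v} := hΨm hms
    have hae' : ∀ᵐ ω ∂(labM V), ∀ v, Tendsto (fun j => F j v ω) atTop (𝓝 (Fi v ω)) ∧
        Fi v ω ^ 2 = 1 := by
      rw [ae_all_iff]
      intro v
      filter_upwards [hae v, hpm v] with ω h1 h2
      exact ⟨h1, h2⟩
    have hlim : Tendsto
        (fun j => ∫ ω, ∏ v ∈ S, (1 + (if η v then 1 else -1) * F j v ω) / 2 ∂(labM V)) atTop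
        (𝓝 (∫ ω, Set.indicator {ω : Lab V | ∀ v ∈ S, Ψ ω v = η v} (fun _ => (1 : ℝ)) ω
          ∂(labM V))) := by
      apply tendsto_integral_of_dominated_convergence (fun _ => (1 : ℝ))
      · intro j
        refine Measurable.aestronglyMeasurable ?_
        refine Finset.measurable_prod _ fun v _ => ?_
        exact (measurable_const.add ((hm j v).const_mul _)).div_const 2
      · exact integrable_const _
      · intro j
        refine ae_of_all _ fun ω => ?_
        rw [Real.norm_eq_abs, Finset.abs_prod]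
        refine Finset.prod_le_one (fun v _ => abs_nonneg _) fun v _ => ?_
        have h := abs_le.1 (hb j v ω)
        rw [abs_le]
        split_ifs <;> constructor <;> linarith [h.1, h.2]
      · filter_upwards [hae'] with ω hω
        have hprod : Tendsto (fun j => ∏ v ∈ S, (1 + (if η v then (1:ℝ) else -1) * F j v ω) / 2)
            atTop (𝓝 (∏ v ∈ S, (1 + (if η v then (1:ℝ) else -1) * Fi v ω) / 2)) := by
          refine tendsto_finsetProd _ fun v _ => ?_
          exact (tendsto_const_nhds.add ((hω v).1.const_mul _)).div_const 2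
        have heq : (∏ v ∈ S, (1 + (if η v then (1:ℝ) else -1) * Fi v ω) / 2) =
            Set.indicator {ω : Lab V | ∀ v ∈ S, Ψ ω v = η v} (fun _ => (1 : ℝ)) ω := by
          have hfac : ∀ v, (1 + (if η v then (1:ℝ) else -1) * Fi v ω) / 2 =
              if Ψ ω v = η v then 1 else 0 := by
            intro v
            have h2 := (hω v).2
            have h3 : Fi v ω = 1 ∨ Fi v ω = -1 := by
              rcases mul_eq_zero.1 (show (Fi v ω - 1) * (Fi v ω + 1) = 0 by linarith) with h | h
              · left; linarith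
              · right; linarith
            simp only [hΨ]
            rcases h3 with h3 | h3 <;> cases hη : η v <;> simp [h3]
          simp only [hfac]
          by_cases hall : ∀ v ∈ S, Ψ ω v = η v
          · rw [Set.indicator_of_mem (show ω ∈ {ω : Lab V | ∀ v ∈ S, Ψ ω v = η v} from hall)]
            exact Finset.prod_eq_one fun v hv => by rw [if_pos (hall v hv)]
          · rw [Set.indicator_of_notMem (show ω ∉ {ω : Lab V | ∀ v ∈ S, Ψ ω v = η v} from hall)]
            push Not at hall
            obtain ⟨v, hv, hne⟩ := hall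
            exact Finset.prod_eq_zero hv (by rw [if_neg hne])
        rw [← heq]
        exact hprod
    have heq := tendsto_nhds_unique hlim (hl S η hS)
    rw [integral_indicator_const _ hmE, smul_eq_mul, mul_one] at heq
    rw [← heq, ofReal_measureReal]

end M11

end Crest.Agent.Lib.Row160
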