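import Crest.Agent.Lib.Row160.Final
import Crest.Agent.Lib.Row160.Dynamic
import Crest.Agent.Lib.Row160.BridgeZ3

/-!
Row 160 (S0241), M11: reduction of the theorem to the Cauchy property.
-/

set_option autoImplicit false
open MeasureTheory Filter Topology

namespace Crest.Agent.Lib.Row160

namespace Fin2

open LawAux

universe u
variable {V : Type u} {G : SimpleGraph V} [G.LocallyFinite] {d : ℕ}

lemma M_succ_zero (θ : ℝ) (W : Finset V) (k : ℕ) (v : V) (ω : Lab V) :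
    M G θ W (k + 1) 0 v ω = M G θ W k (1 / 2) v ω := by
  unfold M; rw [P_succ_zero]

/-- orthogonality of the increments between rounds, in a window. -/
lemma win_orth {θ : ℝ} (h0 : 0 ≤ θ) (h1 : θ < 1) (W : Finset V) (k n : ℕ) (v : V) :
    ∫ ω, M G θ W (k + n) (1 / 2) v ω * M G θ W k (1 / 2) v ω ∂(labM V) =
      ∫ ω, M G θ W k (1 / 2) v ω * M G θ W k (1 / 2) v ω ∂(labM V) := by
  classical
  induction n with
  | zero => rfl
  | succ n ih =>
    rw [← ih]
    have h := M_mart (G := G) h0 h1 W (k + n + 1) (c := fun ω => M G θ W k (1 / 2) v ω)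
      (measurable_M_s h0 h1 W k (1 / 2) v) (Cc := 1) (fun ω => abs_mg_le G h0 h1 _ _ _)
      (r := 0) (s := 1 / 2) le_rfl (by norm_num) le_rfl (fun ω u l _ _ => by
        show M G θ W k (1 / 2) v _ = M G θ W k (1 / 2) v ω
        rw [← M_succ_zero, ← M_succ_zero]
        unfold M P
        rw [fld_zero G θ W _ _ le_rfl, fld_zero G θ W _ _ le_rfl]
        rw [Isom_X_eq (G := G) θ W (k + 1) (ω := Function.update ω (u, k + n + 1) l) (ω' := ω)]
        intro w i hi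
        rw [Function.update_of_ne]
        intro h
        have := (Prod.mk.inj h).2
        omega) v
    simp only [M_succ_zero] at h
    exact h

lemma integrable_M_mul {θ : ℝ} (h0 : 0 ≤ θ) (h1 : θ < 1) (W : Finset V) (k k' : ℕ) (s s' : ℝ)
    (v : V) : Integrable (fun ω => M G θ W k s v ω * M G θ W k' s' v ω) (labM V) :=
  integrable_bdd ((measurable_M_s h0 h1 W k s v).mul (measurable_M_s h0 h1 W k' s' v)) (K := 1 * 1)
    (fun ω => by
      rw [abs_mul]
      exact mul_le_mul (abs_mg_le G h0 h1 _ _ _) (abs_mg_le G h0 h1 _ _ _) (abs_nonneg _)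
        zero_le_one)

lemma int_sq_sub {α : Type*} [MeasurableSpace α] {μ : Measure α} {f g : α → ℝ}
    (hf : Integrable (fun ω => f ω * f ω) μ) (hfg : Integrable (fun ω => f ω * g ω) μ)
    (hg : Integrable (fun ω => g ω * g ω) μ) :
    ∫ ω, (f ω - g ω) ^ 2 ∂μ = ∫ ω, f ω * f ω ∂μ - 2 * ∫ ω, f ω * g ω ∂μ +
      ∫ ω, g ω * g ω ∂μ := by
  have e : (fun ω => (f ω - g ω) ^ 2) =
      fun ω => (f ω * f ω - 2 * (f ω * g ω)) + g ω * g ω := by funext ω; ring
  have h1 : Integrable (fun ω => f ω * f ω - 2 * (f ω * g ω)) μ := hf.sub (hfg.const_mul 2)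
  rw [e, integral_add h1 hg, integral_sub hf (hfg.const_mul 2), integral_const_mul]

/-- closeness of different rounds, in a window. -/
lemma win_close {θ : ℝ} (h0 : 0 ≤ θ) (h1 : θ < 1) (W : Finset V) (k n : ℕ) (v : V) :
    ∫ ω, (M G θ W (k + n) (1 / 2) v ω - M G θ W k (1 / 2) v ω) ^ 2 ∂(labM V) ≤
      ∫ ω, (1 - M G θ W k (1 / 2) v ω ^ 2) ∂(labM V) := by
  have hi := integrable_M_mul (G := G) h0 h1 W
  have e1 := int_sq_sub (hi (k + n) (k + n) (1 / 2) (1 / 2) v) (hi (k + n) k (1 / 2) (1 / 2) v)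
    (hi k k (1 / 2) (1 / 2) v)
  have e2 : ∫ ω, (1 - M G θ W k (1 / 2) v ω ^ 2) ∂(labM V) =
      1 - ∫ ω, M G θ W k (1 / 2) v ω * M G θ W k (1 / 2) v ω ∂(labM V) := by
    have : (fun ω => 1 - M G θ W k (1 / 2) v ω ^ 2) =
        (fun ω => 1 - M G θ W k (1 / 2) v ω * M G θ W k (1 / 2) v ω) := by
      funext ω; ring
    rw [this, integral_sub (integrable_const _) (hi _ _ _ _ v)]
    simp
  have e3 : ∫ ω, M G θ W (k + n) (1 / 2) v ω * M G θ W (k + n) (1 / 2) v ω ∂(labM V) ≤ 1 := by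
    calc _ ≤ ∫ _ω, (1 : ℝ) ∂(labM V) := by
          refine integral_mono (hi _ _ _ _ v) (integrable_const _) fun ω => ?_
          have := abs_mg_le G h0 h1 W (P G θ W (k + n) (1 / 2) ω) v
          have h2 : M G θ W (k + n) (1 / 2) v ω ^ 2 ≤ 1 := (sq_le_one_iff_abs_le_one _).2 this
          show M G θ W (k + n) (1 / 2) v ω * M G θ W (k + n) (1 / 2) v ω ≤ 1
          linarith [sq (M G θ W (k + n) (1 / 2) v ω)]
      _ = 1 := by simp
  rw [e1, e2, win_orth h0 h1]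
  linarith

lemma meas_Mi (hT : G.IsTree) {θ : ℝ} (h0 : 0 ≤ θ) (h1 : θ < 1) (k : ℕ) (s : ℝ) (v : V) :
    Measurable (fun ω => Mi G θ k s v ω) := measurable_Mi_s hT h0 h1 k s v

lemma abs_Mi_one (hT : G.IsTree) (hreg : G.IsRegularOfDegree d) {θ : ℝ} (h0 : 0 ≤ θ)
    (h1 : θ < 1) (v : V) (k : ℕ) (ω : Lab V) : |Mi G θ k (1 / 2) v ω| ≤ 1 := by
  refine (abs_Mi_le hT hreg h0 h1 v k (by norm_num) le_rfl ω).trans ?_
  unfold rk
  exact (abs_lt.1 (Real.abs_tanh_lt_one _)).2.le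

/-- dominated convergence for bounded continuous functions of the windows. -/
lemma tendsto_int (hT : G.IsTree) (hd : 3 ≤ d) (hreg : G.IsRegularOfDegree d) {θ : ℝ}
    (h0 : 0 ≤ θ) (h1 : θ < 1) (hθ : ((d : ℝ) - 1) * θ ^ 2 < 1) (z : V) (S : Finset V)
    (ks : Finset ℕ) {F : (ℕ → V → ℝ) → ℝ}
    (hF : Continuous F) (hloc : ∀ x y : ℕ → V → ℝ, (∀ k ∈ ks, ∀ v ∈ S, x k v = y k v) → F x = F y)
    {B : ℝ} (hB : ∀ x : ℕ → V → ℝ, (∀ k v, |x k v| ≤ 1) → |F x| ≤ B)
    (hFm : ∀ N, Measurable (fun ω => F (fun k v => M G θ (ball G z N) k (1 / 2) v ω))) :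
    Tendsto (fun N => ∫ ω, F (fun k v => M G θ (ball G z N) k (1 / 2) v ω) ∂(labM V)) atTop
      (𝓝 (∫ ω, F (fun k v => Mi G θ k (1 / 2) v ω) ∂(labM V))) := by
  have hae : ∀ᵐ ω ∂(labM V), ∀ k ∈ ks, ∀ v ∈ S,
      Tendsto (fun N => M G θ (ball G z N) k (1 / 2) v ω) atTop (𝓝 (Mi G θ k (1 / 2) v ω)) := by
    rw [Finset.eventually_all]
    intro k _
    rw [Finset.eventually_all]
    intro v _
    exact BrZ.ae_tendsto_ball hT hd hreg h0 h1 hθ k (by norm_num) le_rfl z v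
  refine tendsto_integral_of_dominated_convergence (fun _ => B) (fun N =>
    (hFm N).aestronglyMeasurable) (integrable_const _) (fun N => Eventually.of_forall fun ω => ?_) ?_
  · rw [Real.norm_eq_abs]
    exact hB _ fun k v => abs_mg_le G h0 h1 _ _ _
  · filter_upwards [hae] with ω hω
    classical
    have hx : ∀ x : ℕ → V → ℝ, F x = F (fun k v => if k ∈ ks ∧ v ∈ S then x k v else 0) := by
      intro x
      refine hloc _ _ fun k hk v hv => ?_
      rw [if_pos ⟨hk, hv⟩]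
    rw [hx (fun k v => Mi G θ k (1 / 2) v ω)]
    have : (fun N => F (fun k v => M G θ (ball G z N) k (1 / 2) v ω)) = fun N =>
        F (fun k v => if k ∈ ks ∧ v ∈ S then M G θ (ball G z N) k (1 / 2) v ω else 0) := by
      funext N; exact hx _
    rw [this]
    refine (hF.tendsto _).comp ?_
    rw [tendsto_pi_nhds]
    intro k
    rw [tendsto_pi_nhds]
    intro v
    by_cases h : k ∈ ks ∧ v ∈ S
    · simp only [h, and_self, if_true]
      exact hω k h.1 v h.2
    · simp only [h, if_false]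
      exact tendsto_const_nhds

/-- closeness of different rounds. -/
lemma inf_close (hT : G.IsTree) (hd : 3 ≤ d) (hreg : G.IsRegularOfDegree d) {θ : ℝ}
    (h0 : 0 ≤ θ) (h1 : θ < 1) (hθ : ((d : ℝ) - 1) * θ ^ 2 < 1) (k n : ℕ) (v : V) :
    ∫ ω, (Mi G θ (k + n) (1 / 2) v ω - Mi G θ k (1 / 2) v ω) ^ 2 ∂(labM V) ≤
      ∫ ω, (1 - Mi G θ k (1 / 2) v ω ^ 2) ∂(labM V) := by
  have t1 := tendsto_int hT hd hreg h0 h1 hθ v {v} {k + n, k}
    (F := fun x => (x (k + n) v - x k v) ^ 2) (by fun_prop)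
    (fun x y h => by
      have e1 := h (k + n) (by simp) v (by simp)
      have e2 := h k (by simp) v (by simp)
      simp only [e1, e2]) (B := (1 + 1) ^ 2) (fun x hx => by
      rw [abs_of_nonneg (sq_nonneg _), ← sq_abs]
      exact pow_le_pow_left₀ (abs_nonneg _) ((abs_sub _ _).trans (add_le_add (hx _ _) (hx _ _))) 2)
    (fun N => ((measurable_M_s h0 h1 _ _ _ _).sub (measurable_M_s h0 h1 _ _ _ _)).pow_const 2)
  have t2 := tendsto_int hT hd hreg h0 h1 hθ v {v} {k}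
    (F := fun x => (1 - x k v ^ 2)) (by fun_prop)
    (fun x y h => by
      have e2 := h k (by simp) v (by simp)
      simp only [e2]) (B := 1) (fun x hx => by
      have h2 : x k v ^ 2 ≤ 1 := (sq_le_one_iff_abs_le_one _).2 (hx k v)
      rw [abs_of_nonneg (by linarith)]
      linarith [sq_nonneg (x k v)])
    (fun N => measurable_const.sub ((measurable_M_s h0 h1 _ _ _ _).pow_const 2))
  exact le_of_tendsto_of_tendsto t1 t2 (Eventually.of_forall fun N => win_close h0 h1 _ k n v)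

/-- the magnetisation is nearly `±1` after many rounds. -/
lemma inf_one_sub : ∃ c : ℝ, 0 < c ∧ c < 1 ∧ ∀ (V : Type u) (G : SimpleGraph V)
    [G.LocallyFinite] (d : ℕ) (θ : ℝ) (k : ℕ) (v : V),
    G.IsTree → 3 ≤ d → G.IsRegularOfDegree d → 0 ≤ θ → θ < 1 → ((d : ℝ) - 1) * θ ^ 2 < 1 →
    ∫ ω, (1 - Mi G θ k (1 / 2) v ω ^ 2) ∂(labM V) ≤ c ^ k := by
  obtain ⟨c, hc0, hc1, h⟩ := integral_one_sub_sq_le
  refine ⟨c, hc0, hc1, ?_⟩
  intro V G _ d θ k v hT hd hreg h0 h1 hθ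
  have t2 := tendsto_int hT hd hreg h0 h1 hθ v {v} {k}
    (F := fun x => (1 - x k v ^ 2)) (by fun_prop)
    (fun x y h => by
      have e2 := h k (by simp) v (by simp)
      simp only [e2]) (B := 1) (fun x hx => by
      have h2 : x k v ^ 2 ≤ 1 := (sq_le_one_iff_abs_le_one _).2 (hx k v)
      rw [abs_of_nonneg (by linarith)]
      linarith [sq_nonneg (x k v)])
    (fun N => measurable_const.sub ((measurable_M_s h0 h1 _ _ _ _).pow_const 2))
  exact le_of_tendsto t2 (Eventually.of_forall fun N =>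
    h V G θ (ball G v N) k (1 / 2) v h0 h1 (Zw_zero hT h0 h1 _) (by norm_num) le_rfl
      ((mem_ball hT).2 (by simp)))

lemma abs_prod_le_one {ι : Type*} (S : Finset ι) (f : ι → ℝ) (h : ∀ i ∈ S, 0 ≤ f i ∧ f i ≤ 1) :
    |∏ i ∈ S, f i| ≤ 1 := by
  rw [abs_of_nonneg (Finset.prod_nonneg fun i hi => (h i hi).1)]
  exact Finset.prod_le_one (fun i hi => (h i hi).1) fun i hi => (h i hi).2

lemma fac_mem {e x : ℝ} (he : e = 1 ∨ e = -1) (hx : |x| ≤ 1) :
    0 ≤ (1 + e * x) / 2 ∧ (1 + e * x) / 2 ≤ 1 := by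
  have := abs_le.1 hx
  rcases he with rfl | rfl <;> constructor <;> linarith

lemma sgn_cases (b : Bool) : (if b then (1 : ℝ) else -1) = 1 ∨ (if b then (1 : ℝ) else -1) = -1 := by
  cases b <;> simp

/-- the law of the rounded spins in a window. -/
lemma win_law {c : ℝ} (hc : ∀ (V : Type u) (G : SimpleGraph V)
    (θ : ℝ) (W : Finset V) (k : ℕ) (s : ℝ) (v : V), 0 ≤ θ → θ < 1 → Zw G θ W (fun _ => 0) = 1 →
    0 ≤ s → s ≤ 1 / 2 → v ∈ W →
    ∫ ω, (1 - M G θ W k s v ω ^ 2) ∂(labM V) ≤ c ^ k)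
    (hT : G.IsTree) {θ : ℝ} (h0 : 0 ≤ θ) (h1 : θ < 1) (k : ℕ) {W S : Finset V}
    (hW : Conv G W) (hSW : S ⊆ W) (hS : (G.induce (S : Set V)).Connected) (η : V → Bool) :
    |∫ ω, ∏ v ∈ S, (1 + (if η v then 1 else -1) * M G θ W k (1 / 2) v ω) / 2 ∂(labM V) -
      Crest.ProbabilityR.TreeIsing.isingWeight G θ S η| ≤ S.card * c ^ k := by
  classical
  have hZ := Zw_zero hT h0 h1 W
  have e1 := integral_av G h0 h1 W hZ k (s := 1 / 2) (by norm_num) le_rfl
    (fun A => ∏ v ∈ S, (1 + (if η v then 1 else -1) * sp A v) / 2)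
  rw [av_isingWeight hT h0 h1 hW hSW hS η] at e1
  rw [← e1]
  have hm1 : Measurable (fun ω : Lab V =>
      ∏ v ∈ S, (1 + (if η v then 1 else -1) * M G θ W k (1 / 2) v ω) / 2) :=
    Finset.measurable_fun_prod _ fun v _ =>
      ((measurable_const.add ((measurable_M_s h0 h1 W k (1 / 2) v).const_mul _))).div_const 2
  have hb1 : ∀ ω : Lab V,
      |∏ v ∈ S, (1 + (if η v then 1 else -1) * M G θ W k (1 / 2) v ω) / 2| ≤ 1 := fun ω =>
    abs_prod_le_one _ _ fun v _ => fac_mem (sgn_cases _) (abs_mg_le G h0 h1 _ _ _)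
  have hmP : Measurable (fun ω : Lab V => P G θ W k (1 / 2) ω) := by
    have h : (fun ω => P G θ W k (1 / 2) ω) = (fun p : ℝ × Lab V => P G θ W k p.1 p.2) ∘
      (fun ω => ((1 / 2 : ℝ), ω)) := rfl
    rw [h]
    exact (measurable_P G h0 h1 W k).comp measurable_prodMk_left
  have hm2 : Measurable (fun ω : Lab V => av G θ W (P G θ W k (1 / 2) ω)
      (fun A => ∏ v ∈ S, (1 + (if η v then 1 else -1) * sp A v) / 2)) :=
    (LawAux.measurable_av G θ W _).comp hmP
  have hb2 : ∀ ω : Lab V, |av G θ W (P G θ W k (1 / 2) ω)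
      (fun A => ∏ v ∈ S, (1 + (if η v then 1 else -1) * sp A v) / 2)| ≤ 1 := fun ω =>
    (Win_abs_av_le G h0 h1 W _ _).trans ((Win_av_mono G h0 h1 W _ (g := fun _ => 1) fun A =>
      abs_prod_le_one _ _ fun v _ => fac_mem (sgn_cases _) (le_of_eq (Win_abs_sp A v))).trans
        (le_of_eq (Win_av_const G h0 h1 W _ 1)))
  rw [← integral_sub (integrable_bdd hm1 hb1) (integrable_bdd hm2 hb2)]
  have hms : ∀ v, Integrable (fun ω => 1 - M G θ W k (1 / 2) v ω ^ 2) (labM V) := fun v =>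
    integrable_bdd (measurable_const.sub ((measurable_M_s h0 h1 W k (1 / 2) v).pow_const 2))
      (K := 1) fun ω => by
        have h2 : M G θ W k (1 / 2) v ω ^ 2 ≤ 1 :=
          (sq_le_one_iff_abs_le_one _).2 (abs_mg_le G h0 h1 _ _ _)
        rw [abs_of_nonneg (by linarith)]
        linarith [sq_nonneg (M G θ W k (1 / 2) v ω)]
  calc |∫ ω, (∏ v ∈ S, (1 + (if η v then 1 else -1) * M G θ W k (1 / 2) v ω) / 2 -
        av G θ W (P G θ W k (1 / 2) ω)
          (fun A => ∏ v ∈ S, (1 + (if η v then 1 else -1) * sp A v) / 2)) ∂(labM V)|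
      ≤ ∫ ω, |∏ v ∈ S, (1 + (if η v then 1 else -1) * M G θ W k (1 / 2) v ω) / 2 -
        av G θ W (P G θ W k (1 / 2) ω)
          (fun A => ∏ v ∈ S, (1 + (if η v then 1 else -1) * sp A v) / 2)| ∂(labM V) :=
        abs_integral_le_integral_abs
    _ ≤ ∫ ω, ∑ v ∈ S, (1 - M G θ W k (1 / 2) v ω ^ 2) ∂(labM V) := by
        refine integral_mono_of_nonneg (Eventually.of_forall fun ω => abs_nonneg _)
          (integrable_finset_sum _ fun v _ => hms v) (Eventually.of_forall fun ω => ?_)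
        have := av_prod_approx G h0 h1 W (P G θ W k (1 / 2) ω) S η
        show |∏ v ∈ S, (1 + (if η v then 1 else -1) * M G θ W k (1 / 2) v ω) / 2 -
          av G θ W (P G θ W k (1 / 2) ω)
            (fun A => ∏ v ∈ S, (1 + (if η v then 1 else -1) * sp A v) / 2)| ≤ _
        rw [abs_sub_comm]
        exact this
    _ = ∑ v ∈ S, ∫ ω, (1 - M G θ W k (1 / 2) v ω ^ 2) ∂(labM V) :=
        integral_finset_sum _ fun v _ => hms v
    _ ≤ ∑ v ∈ S, c ^ k := Finset.sum_le_sum fun v hv =>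
        hc V G θ W k (1 / 2) v h0 h1 hZ (by norm_num) le_rfl (hSW hv)
    _ = S.card * c ^ k := by rw [Finset.sum_const, nsmul_eq_mul]

/-- the law of the rounded spins in infinite volume. -/
lemma inf_law {c : ℝ} (hc : ∀ (V : Type u) (G : SimpleGraph V)
    (θ : ℝ) (W : Finset V) (k : ℕ) (s : ℝ) (v : V), 0 ≤ θ → θ < 1 → Zw G θ W (fun _ => 0) = 1 →
    0 ≤ s → s ≤ 1 / 2 → v ∈ W →
    ∫ ω, (1 - M G θ W k s v ω ^ 2) ∂(labM V) ≤ c ^ k)
    (hT : G.IsTree) (hd : 3 ≤ d) (hreg : G.IsRegularOfDegree d) {θ : ℝ}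
    (h0 : 0 ≤ θ) (h1 : θ < 1) (hθ : ((d : ℝ) - 1) * θ ^ 2 < 1) (k : ℕ) (S : Finset V)
    (hS : (G.induce (S : Set V)).Connected) (η : V → Bool) :
    |∫ ω, ∏ v ∈ S, (1 + (if η v then 1 else -1) * Mi G θ k (1 / 2) v ω) / 2 ∂(labM V) -
      Crest.ProbabilityR.TreeIsing.isingWeight G θ S η| ≤ S.card * c ^ k := by
  classical
  obtain ⟨z⟩ := hT.connected.nonempty
  have t1 := tendsto_int hT hd hreg h0 h1 hθ z S {k}
    (F := fun x => ∏ v ∈ S, (1 + (if η v then 1 else -1) * x k v) / 2) (by fun_prop)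
    (fun x y h => Finset.prod_congr rfl fun v hv => by rw [h k (by simp) v hv])
    (B := 1) (fun x hx => abs_prod_le_one _ _ fun v _ => fac_mem (sgn_cases _) (hx k v))
    (fun N => Finset.measurable_fun_prod _ fun v _ =>
      ((measurable_const.add ((measurable_M_s h0 h1 _ k (1 / 2) v).const_mul _))).div_const 2)
  have t2 := (t1.sub_const (Crest.ProbabilityR.TreeIsing.isingWeight G θ S η)).abs
  refine le_of_tendsto t2 ?_
  have hN : ∃ N₀, ∀ v ∈ S, G.dist z v ≤ N₀ := ⟨∑ v ∈ S, G.dist z v, fun v hv =>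
    Finset.single_le_sum (f := fun v => G.dist z v) (fun _ _ => Nat.zero_le _) hv⟩
  obtain ⟨N₀, hN₀⟩ := hN
  filter_upwards [eventually_ge_atTop N₀] with N hN
  exact win_law hc hT h0 h1 k (conv_ball hT z N) (fun v hv => (mem_ball hT).2
    ((hN₀ v hv).trans hN)) hS η

lemma continuous_isingWeight (G : SimpleGraph V) (S : Finset V) (η : V → Bool) :
    Continuous (fun θ : ℝ => Crest.ProbabilityR.TreeIsing.isingWeight G θ S η) := by
  unfold Crest.ProbabilityR.TreeIsing.isingWeight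
  refine continuous_const.mul (continuous_finsetProd _ fun e _ => ?_)
  split_ifs <;> fun_prop

lemma exists_index {T : ℕ → ℕ} : ∃ i : ℕ → ℕ, ∀ j, T j ≤ i j ∧ T j ≤ i (j + 1) ∧ j ≤ i j := by
  refine ⟨fun j => (∑ l ∈ Finset.range (j + 1), T l) + j, fun j => ?_⟩
  have h1 : T j ≤ ∑ l ∈ Finset.range (j + 1), T l :=
    Finset.single_le_sum (f := T) (fun _ _ => Nat.zero_le _) (by simp)
  have h2 : T j ≤ ∑ l ∈ Finset.range (j + 1 + 1), T l :=
    Finset.single_le_sum (f := T) (fun _ _ => Nat.zero_le _) (by simp)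
  refine ⟨?_, ?_, ?_⟩
  · show T j ≤ (∑ l ∈ Finset.range (j + 1), T l) + j
    omega
  · show T j ≤ (∑ l ∈ Finset.range (j + 1 + 1), T l) + (j + 1)
    omega
  · show j ≤ (∑ l ∈ Finset.range (j + 1), T l) + j
    omega

end Fin2

universe u

open Crest.Agent.Lib.Row160.Fin2 LawAux in
/-- reduction of the theorem to a Cauchy property. -/
theorem result_of_cauchy' {V : Type u} {G : SimpleGraph V} [G.LocallyFinite] {d : ℕ}
    (hT : G.IsTree) (hd : 3 ≤ d) (hreg : G.IsRegularOfDegree d) {θ : ℝ} (θs : ℕ → ℝ)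
    (hθs : ∀ j, 0 ≤ θs j) (hθs' : ∀ j, ((d : ℝ) - 1) * θs j ^ 2 < 1)
    (hlim : Tendsto θs atTop (𝓝 θ))
    (hC : ∀ (k : ℕ) (v : V), Tendsto (fun q : ℕ × ℕ =>
      ∫ ω, (Mi G (θs q.1) k (1 / 2) v ω - Mi G (θs q.2) k (1 / 2) v ω) ^ 2 ∂(labM V))
      (atTop ×ˢ atTop) (𝓝 0)) :
    ∃ Φ : (V → unitInterval) → (V → Bool),
      Measurable Φ ∧
      (∀ (g : G ≃g G) (x : V → unitInterval), Φ (x ∘ ⇑g) = Φ x ∘ ⇑g) ∧
      ∀ (S : Finset V) (η : V → Bool), (G.induce (S : Set V)).Connected →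
        (Crest.ProbabilityR.Labels.labelMeasure V).map Φ {σ | ∀ v ∈ S, σ v = η v} =
          ENNReal.ofReal (Crest.ProbabilityR.TreeIsing.isingWeight G θ S η) := by
  obtain ⟨c, hc0, hc1, hc⟩ := integral_one_sub_sq_le.{u}
  have h1 : ∀ j, θs j < 1 := fun j => DynSys_lt_one hd (hθs j) (hθs' j)
  obtain ⟨z⟩ := hT.connected.nonempty
  have : Countable V := countable_V hT
  -- rounds
  obtain ⟨m, hm⟩ : ∃ m : ℕ, c ^ m ≤ 1 / 4 := by
    obtain ⟨m, hm⟩ := exists_pow_lt_of_lt_one (show (0 : ℝ) < 1 / 4 by norm_num) hc1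
    exact ⟨m, hm.le⟩
  have hck : ∀ j : ℕ, c ^ (m * (j + 1)) ≤ (1 / 4) ^ (j + 1) := fun j => by
    rw [pow_mul]; exact pow_le_pow_left₀ (by positivity) hm _
  -- thresholds
  have hT1 : ∀ j : ℕ, ∃ T : ℕ, ∀ p q : ℕ, T ≤ p → T ≤ q → ∀ v : V,
      ∫ ω, (Mi G (θs p) (m * (j + 2)) (1 / 2) v ω - Mi G (θs q) (m * (j + 2)) (1 / 2) v ω) ^ 2
        ∂(labM V) ≤ (1 / 4) ^ (j + 1) := by
    intro j
    have h := (hC (m * (j + 2)) z).eventually
      (Iic_mem_nhds (show (0 : ℝ) < (1 / 4) ^ (j + 1) by positivity))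
    rw [prod_atTop_atTop_eq, eventually_atTop] at h
    obtain ⟨⟨a, b⟩, hab⟩ := h
    refine ⟨max a b, fun p q hp hq v => ?_⟩
    rw [e_const hT hd hreg (hθs p) (h1 p) (hθs q) (h1 q) (m * (j + 2)) (1 / 2) v z]
    exact hab (p, q) ⟨(le_max_left a b).trans hp, (le_max_right a b).trans hq⟩
  choose T hT2 using hT1
  obtain ⟨i, hi⟩ := exists_index (T := T)
  have hitop : Tendsto i atTop atTop := tendsto_atTop_mono (fun j => (hi j).2.2) tendsto_id
  have hone : ∀ (j k : ℕ) (v : V), ∫ ω, (1 - Mi G (θs j) k (1 / 2) v ω ^ 2) ∂(labM V) ≤ c ^ k := by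
    intro j k v
    have t2 := tendsto_int hT hd hreg (hθs j) (h1 j) (hθs' j) v {v} {k}
      (F := fun x => (1 - x k v ^ 2)) (by fun_prop)
      (fun x y h => by
        have e2 := h k (by simp) v (by simp)
        simp only [e2]) (B := 1) (fun x hx => by
        have h2 : x k v ^ 2 ≤ 1 := (sq_le_one_iff_abs_le_one _).2 (hx k v)
        rw [abs_of_nonneg (by linarith)]
        linarith [sq_nonneg (x k v)])
      (fun N => measurable_const.sub ((measurable_M_s (hθs j) (h1 j) _ _ _ _).pow_const 2))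
    exact le_of_tendsto t2 (Eventually.of_forall fun N =>
      hc V G (θs j) (ball G v N) k (1 / 2) v (hθs j) (h1 j) (Zw_zero hT (hθs j) (h1 j) _)
        (by norm_num) le_rfl ((mem_ball hT).2 (by simp)))
  refine factor_of_approx G (fun j v ω => Mi G (θs (i j)) (m * (j + 1)) (1 / 2) v ω)
    (fun j => Mi_map hT _ _ _) (fun j v => meas_Mi hT (hθs _) (h1 _) _ _ v)
    (fun j v ω => abs_Mi_one hT hreg (hθs _) (h1 _) v _ ω) (fun j v => ?_) (fun v => ?_)
    (fun S η hS => ?_)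
  · -- consecutive terms
    have e1 := hT2 j (i (j + 1)) (i j) (hi j).2.1 (hi j).1 v
    have e2 := (inf_close hT hd hreg (hθs (i j)) (h1 (i j)) (hθs' (i j)) (m * (j + 1)) m v).trans
      ((hone (i j) (m * (j + 1)) v).trans (hck j))
    have e3 : m * (j + 1) + m = m * (j + 2) := by ring
    rw [e3] at e2
    have hmm : ∀ a b, Integrable (fun ω => (Mi G (θs (i a)) (m * (j + 2)) (1 / 2) v ω -
        Mi G (θs (i j)) (m * b) (1 / 2) v ω) ^ 2) (labM V) := fun a b =>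
      integrable_bdd (((meas_Mi hT (hθs _) (h1 _) _ _ v).sub
        (meas_Mi hT (hθs _) (h1 _) _ _ v)).pow_const 2) (K := (1 + 1) ^ 2) fun ω => by
          rw [abs_of_nonneg (sq_nonneg _), ← sq_abs]
          exact pow_le_pow_left₀ (abs_nonneg _) ((abs_sub _ _).trans
            (add_le_add (abs_Mi_one hT hreg (hθs _) (h1 _) v _ ω)
              (abs_Mi_one hT hreg (hθs _) (h1 _) v _ ω))) 2
    calc ∫ ω, (Mi G (θs (i (j + 1))) (m * (j + 1 + 1)) (1 / 2) v ω -
          Mi G (θs (i j)) (m * (j + 1)) (1 / 2) v ω) ^ 2 ∂(labM V)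
        ≤ ∫ ω, (2 * (Mi G (θs (i (j + 1))) (m * (j + 2)) (1 / 2) v ω -
            Mi G (θs (i j)) (m * (j + 2)) (1 / 2) v ω) ^ 2 +
          2 * (Mi G (θs (i j)) (m * (j + 2)) (1 / 2) v ω -
            Mi G (θs (i j)) (m * (j + 1)) (1 / 2) v ω) ^ 2) ∂(labM V) := by
          refine integral_mono (hmm (j + 1) (j + 1))
            (((hmm (j + 1) (j + 2)).const_mul 2).add ((hmm j (j + 1)).const_mul 2)) fun ω => ?_
          show (Mi G (θs (i (j + 1))) (m * (j + 2)) (1 / 2) v ω -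
            Mi G (θs (i j)) (m * (j + 1)) (1 / 2) v ω) ^ 2 ≤
            2 * (Mi G (θs (i (j + 1))) (m * (j + 2)) (1 / 2) v ω -
            Mi G (θs (i j)) (m * (j + 2)) (1 / 2) v ω) ^ 2 +
            2 * (Mi G (θs (i j)) (m * (j + 2)) (1 / 2) v ω -
            Mi G (θs (i j)) (m * (j + 1)) (1 / 2) v ω) ^ 2
          nlinarith [sq_nonneg ((Mi G (θs (i (j + 1))) (m * (j + 2)) (1 / 2) v ω -
            Mi G (θs (i j)) (m * (j + 2)) (1 / 2) v ω) -
            (Mi G (θs (i j)) (m * (j + 2)) (1 / 2) v ω -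
            Mi G (θs (i j)) (m * (j + 1)) (1 / 2) v ω))]
      _ = 2 * ∫ ω, (Mi G (θs (i (j + 1))) (m * (j + 2)) (1 / 2) v ω -
            Mi G (θs (i j)) (m * (j + 2)) (1 / 2) v ω) ^ 2 ∂(labM V) +
          2 * ∫ ω, (Mi G (θs (i j)) (m * (j + 2)) (1 / 2) v ω -
            Mi G (θs (i j)) (m * (j + 1)) (1 / 2) v ω) ^ 2 ∂(labM V) := by
          rw [integral_add ((hmm (j + 1) (j + 2)).const_mul 2) ((hmm j (j + 1)).const_mul 2),
            integral_const_mul, integral_const_mul]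
      _ ≤ 2 * (1 / 4) ^ (j + 1) + 2 * (1 / 4) ^ (j + 1) := by gcongr
      _ = (1 / 4) ^ j := by ring
  · refine squeeze_zero (fun j => integral_nonneg fun ω => ?_) (fun j => hone (i j) _ v) ?_
    · have h2 : Mi G (θs (i j)) (m * (j + 1)) (1 / 2) v ω ^ 2 ≤ 1 :=
        (sq_le_one_iff_abs_le_one _).2 (abs_Mi_one hT hreg (hθs _) (h1 _) v _ ω)
      show 0 ≤ 1 - Mi G (θs (i j)) (m * (j + 1)) (1 / 2) v ω ^ 2
      linarith
    · refine squeeze_zero (fun j => by positivity) hck ?_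
      exact (tendsto_pow_atTop_nhds_zero_of_lt_one (by norm_num) (by norm_num)).comp
        (tendsto_add_atTop_nat 1)
  · have e1 : ∀ j, |∫ ω, ∏ v ∈ S, (1 + (if η v then 1 else -1) *
        Mi G (θs (i j)) (m * (j + 1)) (1 / 2) v ω) / 2 ∂(labM V) -
        Crest.ProbabilityR.TreeIsing.isingWeight G (θs (i j)) S η| ≤
        S.card * (1 / 4) ^ (j + 1) := fun j =>
      (inf_law hc hT hd hreg (hθs _) (h1 _) (hθs' _) (m * (j + 1)) S hS η).trans
        (mul_le_mul_of_nonneg_left (hck j) (Nat.cast_nonneg _))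
    have e2 : Tendsto (fun j => ∫ ω, ∏ v ∈ S, (1 + (if η v then 1 else -1) *
        Mi G (θs (i j)) (m * (j + 1)) (1 / 2) v ω) / 2 ∂(labM V) -
        Crest.ProbabilityR.TreeIsing.isingWeight G (θs (i j)) S η) atTop (𝓝 0) := by
      refine squeeze_zero_norm e1 ?_
      have := ((tendsto_pow_atTop_nhds_zero_of_lt_one (r := (1 / 4 : ℝ)) (by norm_num)
        (by norm_num)).comp (tendsto_add_atTop_nat 1)).const_mul (S.card : ℝ)
      simpa using this
    have e3 : Tendsto (fun j => Crest.ProbabilityR.TreeIsing.isingWeight G (θs (i j)) S η) atTop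
        (𝓝 (Crest.ProbabilityR.TreeIsing.isingWeight G θ S η)) :=
      ((continuous_isingWeight G S η).tendsto θ).comp (hlim.comp hitop)
    have := e2.add e3
    simpa using this

end Crest.Agent.Lib.Row160
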