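import Crest.Agent.Lib.Row160.Process

/-!
Row 160, M4c, first part: a formula of Palm type for finitely many visits.
-/

set_option autoImplicit false
set_option linter.unusedVariables false

open MeasureTheory Filter Topology

namespace Crest.Agent.Lib.Row160

noncomputable section

/-- product law of labels over an index set. -/
def Isom_mu (ι : Type*) : Measure (ι → L1) :=
  Measure.infinitePi (fun _ : ι => (volume : Measure L1))

instance (ι : Type*) : IsProbabilityMeasure (Isom_mu ι) := by unfold Isom_mu; infer_instance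

/-- a label with `U = 1`. -/
def Isom_l1 : L1 := (1, 0)

theorem Isom_telescope {V : Type*} [DecidableEq V] (A : Finset V) (U : V → ℝ)
    (hU : ∀ u ∈ A, ∀ v ∈ A, U u = U v → u = v) (a : ℝ → ℝ) (b : V → ℝ) (r s₁ : ℝ)
    (hconst : ∀ t s, r ≤ t → t ≤ s → s ≤ s₁ → (∀ w ∈ A, ¬ (t ≤ U w ∧ U w < s)) → a s = a t)
    (hstep : ∀ v ∈ A, ∀ s, r ≤ U v → U v < s → s ≤ s₁ →
      (∀ w ∈ A, U v ≤ U w → U w < s → w = v) → a s = b v) :
    ∀ (n : ℕ) (s : ℝ), r ≤ s → s ≤ s₁ → (A.filter (fun u => r ≤ U u ∧ U u < s)).card = n →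
      a s = a r + ∑ u ∈ A.filter (fun u => r ≤ U u ∧ U u < s), (b u - a (U u)) := by
  intro n
  induction n with
  | zero =>
    intro s hrs hs hcard
    rw [Finset.card_eq_zero] at hcard
    rw [hcard, Finset.sum_empty, add_zero]
    apply hconst r s le_rfl hrs hs
    intro w hw h
    have : w ∈ A.filter (fun u => r ≤ U u ∧ U u < s) := Finset.mem_filter.2 ⟨hw, h⟩
    rw [hcard] at this
    exact absurd this (Finset.notMem_empty _)
  | succ n ih =>
    intro s hrs hs hcard
    have hne : (A.filter (fun u => r ≤ U u ∧ U u < s)).Nonempty := by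
      rw [← Finset.card_pos]; omega
    obtain ⟨v, hv, hmax⟩ := Finset.exists_max_image _ U hne
    have hv' := Finset.mem_filter.1 hv
    have hfil : A.filter (fun u => r ≤ U u ∧ U u < U v) =
        (A.filter (fun u => r ≤ U u ∧ U u < s)).erase v := by
      ext w
      simp only [Finset.mem_filter, Finset.mem_erase]
      constructor
      · rintro ⟨h1, h2, h3⟩
        refine ⟨?_, h1, h2, h3.trans hv'.2.2⟩
        rintro rfl
        exact lt_irrefl _ h3
      · rintro ⟨h1, h2, h3, h4⟩
        refine ⟨h2, h3, ?_⟩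
        have h5 := hmax w (Finset.mem_filter.2 ⟨h2, h3, h4⟩)
        rcases h5.lt_or_eq with h6 | h6
        · exact h6
        · exact absurd (hU w h2 v hv'.1 h6) h1
    have hc : (A.filter (fun u => r ≤ U u ∧ U u < U v)).card = n := by
      rw [hfil, Finset.card_erase_of_mem hv, hcard]
      rfl
    have h1 := ih (U v) hv'.2.1 (hv'.2.2.le.trans hs) hc
    have h2 : a s = b v := by
      apply hstep v hv'.1 s hv'.2.1 hv'.2.2 hs
      intro w hw h3 h4
      have h5 := hmax w (Finset.mem_filter.2 ⟨hw, hv'.2.1.trans h3, h4⟩)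
      exact hU w hw v hv'.1 (le_antisymm h5 h3)
    rw [hfil] at h1
    rw [← Finset.add_sum_erase _ _ hv, h2]
    linarith

theorem Isom_measurable_update {ι : Type*} [DecidableEq ι] (q : ι) :
    Measurable (fun p : (ι → L1) × L1 => Function.update p.1 q p.2) :=
  (Process_measurePreserving_update q).measurable

theorem Isom_integral_update {ι : Type*} [DecidableEq ι] (q : ι) {F : (ι → L1) → ℝ}
    (hF : Measurable F) :
    ∫ ω, F ω ∂(Isom_mu ι) =
      ∫ p : (ι → L1) × L1, F (Function.update p.1 q p.2) ∂((Isom_mu ι).prod volume) := by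
  have h := (Process_measurePreserving_update q).map_eq
  rw [show Isom_mu ι = Measure.infinitePi (fun _ : ι => (volume : Measure L1)) from rfl]
  conv_lhs => rw [← h]
  rw [integral_map (Isom_measurable_update q).aemeasurable hF.aestronglyMeasurable]

theorem Isom_unit_integral (f : ℝ → ℝ) :
    ∫ z : unitInterval, f (z : ℝ) = ∫ x in Set.Icc (0 : ℝ) 1, f x := by
  exact integral_subtype_comap measurableSet_Icc f

theorem Isom_unit_integral' {r s : ℝ} (hr : 0 ≤ r) (hrs : r ≤ s) (hs : s ≤ 1) (f : ℝ → ℝ) :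
    ∫ z : unitInterval, (if r ≤ (z : ℝ) ∧ (z : ℝ) < s then f z else 0) = ∫ t in r..s, f t := by
  rw [Isom_unit_integral (fun x => if r ≤ x ∧ x < s then f x else 0)]
  have h1 : (fun x : ℝ => if r ≤ x ∧ x < s then f x else 0) = (Set.Ico r s).indicator f := by
    funext x
    rw [Set.indicator_apply]
    rfl
  rw [h1, setIntegral_indicator measurableSet_Ico, Set.inter_eq_right.2,
    integral_Ico_eq_integral_Ioc, intervalIntegral.integral_of_le hrs]
  intro x hx
  exact ⟨hr.trans hx.1, hx.2.le.trans hs⟩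

theorem Isom_ae_ne {ι : Type*} {q q' : ι} (h : q ≠ q') :
    ∀ᵐ ω ∂(Isom_mu ι), (ω q).1 ≠ (ω q').1 := by
  classical
  have hmap := (Process_measurePreserving_update q).map_eq
  have hset : MeasurableSet {ω : ι → L1 | (ω q).1 ≠ (ω q').1} := by
    apply MeasurableSet.compl
    apply measurableSet_eq_fun
    · exact measurable_fst.comp (measurable_pi_apply q)
    · exact measurable_fst.comp (measurable_pi_apply q')
  rw [show Isom_mu ι = Measure.infinitePi (fun _ : ι => (volume : Measure L1)) from rfl]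
  rw [← hmap, ae_map_iff (Isom_measurable_update q).aemeasurable hset]
  have h2 : ∀ᵐ p : (ι → L1) × L1 ∂((Measure.infinitePi (fun _ : ι => (volume : Measure L1))).prod
      volume), p.2.1 ≠ (p.1 q').1 := by
    have hs2 : MeasurableSet {p : (ι → L1) × L1 | p.2.1 = (p.1 q').1} := by
      apply measurableSet_eq_fun
      · exact measurable_fst.comp measurable_snd
      · exact measurable_fst.comp ((measurable_pi_apply q').comp measurable_fst)
    rw [ae_iff]
    simp only [ne_eq, not_not]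
    rw [Measure.measure_prod_null hs2]
    filter_upwards with ω
    have h3 : (Prod.mk ω ⁻¹' {p : (ι → L1) × L1 | p.2.1 = (p.1 q').1}) =
        ({(ω q').1} : Set unitInterval) ×ˢ (Set.univ : Set unitInterval) := by
      ext l
      simp
    rw [h3]
    change (volume : Measure (unitInterval × unitInterval)) _ = 0
    rw [Measure.volume_eq_prod, Measure.prod_prod]
    simp
  filter_upwards [h2] with p hp
  rw [Function.update_self, Function.update_of_ne h.symm]
  exact hp

/-- disintegration with respect to the label at `q`. -/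
theorem Isom_disint {ι : Type*} [DecidableEq ι] (q : ι) {r s C : ℝ} (hr : 0 ≤ r) (hrs : r ≤ s)
    (hs : s ≤ 1) (H : ℝ → unitInterval → (ι → L1) → ℝ)
    (hm : Measurable (fun p : (ℝ × unitInterval) × (ι → L1) => H p.1.1 p.1.2 p.2))
    (hb : ∀ t z ω, r ≤ t → t < s → |H t z ω| ≤ C)
    (hinv : ∀ t z ω (l : L1), r ≤ t → t < s → t ≤ ((ω q).1 : ℝ) → t ≤ (l.1 : ℝ) →
      H t z (Function.update ω q l) = H t z ω) :
    ∫ ω, (if r ≤ ((ω q).1 : ℝ) ∧ ((ω q).1 : ℝ) < s then H ((ω q).1 : ℝ) (ω q).2 ω else 0)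
      ∂(Isom_mu ι) =
    ∫ t in r..s, ∫ ω, (∫ z, H t z (Function.update ω q Isom_l1)) ∂(Isom_mu ι) := by
  classical
  have hC : ∀ t : ℝ, r ≤ t → t < s → 0 ≤ C := by
    intro t h1 h2
    exact (abs_nonneg _).trans (hb t 0 (fun _ => Isom_l1) h1 h2)
  set H' : ℝ → unitInterval → (ι → L1) → ℝ :=
    fun t z ω => if r ≤ t ∧ t < s then H t z ω else 0 with hH'
  have hm' : Measurable (fun p : (ℝ × unitInterval) × (ι → L1) => H' p.1.1 p.1.2 p.2) := by
    simp only [hH']
    apply Measurable.ite _ hm measurable_const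
    apply MeasurableSet.inter
    · exact measurableSet_le measurable_const (measurable_fst.comp measurable_fst)
    · exact measurableSet_lt (measurable_fst.comp measurable_fst) measurable_const
  have hb' : ∀ t z ω, |H' t z ω| ≤ |C| := by
    intro t z ω
    simp only [hH']
    by_cases h : r ≤ t ∧ t < s
    · rw [if_pos h]
      exact (hb t z ω h.1 h.2).trans (le_abs_self _)
    · rw [if_neg h, abs_zero]
      exact abs_nonneg _
  have hmF : Measurable (fun ω : ι → L1 => H' ((ω q).1 : ℝ) (ω q).2 ω) := by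
    exact hm'.comp (((measurable_subtype_coe.comp (measurable_fst.comp
      (measurable_pi_apply q))).prodMk (measurable_snd.comp (measurable_pi_apply q))).prodMk
      measurable_id)
  have e1 : ∫ ω, (if r ≤ ((ω q).1 : ℝ) ∧ ((ω q).1 : ℝ) < s then H ((ω q).1 : ℝ) (ω q).2 ω else 0)
      ∂(Isom_mu ι) = ∫ ω, H' ((ω q).1 : ℝ) (ω q).2 ω ∂(Isom_mu ι) := rfl
  rw [e1, Isom_integral_update q hmF]
  have e2 : ∀ p : (ι → L1) × L1,
      H' (((Function.update p.1 q p.2) q).1 : ℝ) ((Function.update p.1 q p.2) q).2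
        (Function.update p.1 q p.2) = H' (p.2.1 : ℝ) p.2.2 (Function.update p.1 q Isom_l1) := by
    intro p
    rw [Function.update_self]
    simp only [hH']
    by_cases h : r ≤ (p.2.1 : ℝ) ∧ (p.2.1 : ℝ) < s
    · rw [if_pos h, if_pos h]
      have h3 := hinv (p.2.1 : ℝ) p.2.2 (Function.update p.1 q Isom_l1) p.2 h.1 h.2
        (by rw [Function.update_self]; exact p.2.1.2.2) le_rfl
      rw [Function.update_idem] at h3
      exact h3
    · rw [if_neg h, if_neg h]
  simp only [e2]
  have hmu : Measurable (fun ω : ι → L1 => Function.update ω q Isom_l1) :=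
    (Isom_measurable_update q).comp (measurable_id.prodMk measurable_const)
  have hmG : Measurable (fun p : (ι → L1) × L1 =>
      H' (p.2.1 : ℝ) p.2.2 (Function.update p.1 q Isom_l1)) := by
    exact hm'.comp (((measurable_subtype_coe.comp (measurable_fst.comp measurable_snd)).prodMk
      (measurable_snd.comp measurable_snd)).prodMk (hmu.comp measurable_fst))
  have hint : Integrable (fun p : (ι → L1) × L1 =>
      H' (p.2.1 : ℝ) p.2.2 (Function.update p.1 q Isom_l1)) ((Isom_mu ι).prod volume) := by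
    apply Integrable.of_bound hmG.aestronglyMeasurable |C|
    filter_upwards with p
    exact hb' _ _ _
  rw [integral_prod_symm _ hint]
  have hint2 : Integrable (fun l : unitInterval × unitInterval =>
      ∫ ω, H' (l.1 : ℝ) l.2 (Function.update ω q Isom_l1) ∂(Isom_mu ι))
      ((volume : Measure unitInterval).prod volume) := by
    have := hint.integral_prod_right
    exact this
  have e3 : ∫ l : L1, ∫ ω, H' (l.1 : ℝ) l.2 (Function.update ω q Isom_l1) ∂(Isom_mu ι) =
      ∫ t : unitInterval, ∫ z : unitInterval,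
        ∫ ω, H' (t : ℝ) z (Function.update ω q Isom_l1) ∂(Isom_mu ι) :=
    integral_prod _ hint2
  rw [e3]
  have e4 : ∀ t : unitInterval, ∫ z : unitInterval,
      ∫ ω, H' (t : ℝ) z (Function.update ω q Isom_l1) ∂(Isom_mu ι) =
      if r ≤ (t : ℝ) ∧ (t : ℝ) < s then
        (fun t : ℝ => ∫ ω, (∫ z, H t z (Function.update ω q Isom_l1)) ∂(Isom_mu ι)) t else 0 := by
    intro t
    by_cases h : r ≤ (t : ℝ) ∧ (t : ℝ) < s
    · rw [if_pos h]
      simp only [hH', if_pos h]
      rw [integral_integral_swap]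
      have hmm : Measurable (fun p : unitInterval × (ι → L1) =>
          H (t : ℝ) p.1 (Function.update p.2 q Isom_l1)) :=
        hm.comp ((measurable_const.prodMk measurable_fst).prodMk (hmu.comp measurable_snd))
      apply Integrable.of_bound hmm.aestronglyMeasurable |C|
      filter_upwards with p
      exact (hb _ _ _ h.1 h.2).trans (le_abs_self _)
    · rw [if_neg h]
      simp only [hH', if_neg h, integral_zero]
  simp only [e4]
  exact Isom_unit_integral' hr hrs hs
    (fun t : ℝ => ∫ ω, (∫ z, H t z (Function.update ω q Isom_l1)) ∂(Isom_mu ι))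

/-- resampling the label of `q` after time `t` costs a factor `2`. -/
theorem Isom_resample {ι : Type*} [DecidableEq ι] (q : ι) {t C : ℝ} (ht : 0 ≤ t)
    (ht' : t ≤ 1 / 2) (Ψ : (ι → L1) → ℝ) (hm : Measurable Ψ) (h0 : ∀ ω, 0 ≤ Ψ ω)
    (hb : ∀ ω, Ψ ω ≤ C)
    (hinv : ∀ ω (l : L1), t ≤ ((ω q).1 : ℝ) → t ≤ (l.1 : ℝ) →
      Ψ (Function.update ω q l) = Ψ ω) :
    ∫ ω, Ψ (Function.update ω q Isom_l1) ∂(Isom_mu ι) ≤ 2 * ∫ ω, Ψ ω ∂(Isom_mu ι) := by
  classical
  have hmu : Measurable (fun ω : ι → L1 => Function.update ω q Isom_l1) :=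
    (Isom_measurable_update q).comp (measurable_id.prodMk measurable_const)
  rw [Isom_integral_update q hm]
  have hmI : Measurable (fun p : (ι → L1) × L1 => (if t ≤ (p.2.1 : ℝ) then (1 : ℝ) else 0)) := by
    apply Measurable.ite _ measurable_const measurable_const
    exact measurableSet_le measurable_const
      (measurable_subtype_coe.comp (measurable_fst.comp measurable_snd))
  have hle : ∫ p : (ι → L1) × L1, Ψ (Function.update p.1 q Isom_l1) *
      (if t ≤ (p.2.1 : ℝ) then (1 : ℝ) else 0) ∂((Isom_mu ι).prod volume) ≤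
      ∫ p : (ι → L1) × L1, Ψ (Function.update p.1 q p.2) ∂((Isom_mu ι).prod volume) := by
    apply integral_mono
    · apply Integrable.of_bound ((hm.comp (hmu.comp measurable_fst)).mul hmI).aestronglyMeasurable
        (|C|)
      filter_upwards with p
      simp only [Function.comp_def, Pi.mul_apply]
      split_ifs
      · rw [mul_one, Real.norm_eq_abs, abs_of_nonneg (h0 _)]
        exact (hb _).trans (le_abs_self _)
      · simp
    · apply Integrable.of_bound (hm.comp (Isom_measurable_update q)).aestronglyMeasurable (|C|)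
      filter_upwards with p
      simp only [Function.comp]
      rw [Real.norm_eq_abs, abs_of_nonneg (h0 _)]
      exact (hb _).trans (le_abs_self _)
    · intro p
      dsimp only
      split_ifs with h
      · rw [mul_one]
        have h3 := hinv (Function.update p.1 q Isom_l1) p.2
          (by rw [Function.update_self]; exact h.trans p.2.1.2.2) h
        rw [Function.update_idem] at h3
        exact h3.ge
      · rw [mul_zero]
        exact h0 _
  have heq : ∫ p : (ι → L1) × L1, Ψ (Function.update p.1 q Isom_l1) *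
      (if t ≤ (p.2.1 : ℝ) then (1 : ℝ) else 0) ∂((Isom_mu ι).prod volume) =
      (∫ ω, Ψ (Function.update ω q Isom_l1) ∂(Isom_mu ι)) *
        ∫ l : L1, (if t ≤ (l.1 : ℝ) then (1 : ℝ) else 0) :=
    integral_prod_mul (fun ω : ι → L1 => Ψ (Function.update ω q Isom_l1))
      (fun l : L1 => (if t ≤ (l.1 : ℝ) then (1 : ℝ) else 0))
  have hl : (1 / 2 : ℝ) ≤ ∫ l : L1, (if t ≤ (l.1 : ℝ) then (1 : ℝ) else 0) := by
    have e1 : ∫ l : L1, (if t ≤ (l.1 : ℝ) then (1 : ℝ) else 0) =
        (∫ x : unitInterval, (if t ≤ (x : ℝ) then (1 : ℝ) else 0)) * ∫ z : unitInterval, (1 : ℝ) := by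
      have := integral_prod_mul (μ := (volume : Measure unitInterval))
        (ν := (volume : Measure unitInterval))
        (fun x : unitInterval => (if t ≤ (x : ℝ) then (1 : ℝ) else 0)) (fun _ => (1 : ℝ))
      simp only [mul_one] at this ⊢
      exact this
    rw [e1]
    have e2 : ∫ x : unitInterval, (if t ≤ (x : ℝ) then (1 : ℝ) else 0) = 1 - t := by
      rw [Isom_unit_integral (fun x => if t ≤ x then (1 : ℝ) else 0)]
      have h1 : (fun x : ℝ => if t ≤ x then (1 : ℝ) else 0) =
          (Set.Ici t).indicator (fun _ => (1 : ℝ)) := by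
        funext x
        rw [Set.indicator_apply]
        rfl
      have h2 : Set.Icc (0 : ℝ) 1 ∩ Set.Ici t = Set.Icc t 1 := by
        ext x
        simp only [Set.mem_inter_iff, Set.mem_Icc, Set.mem_Ici]
        constructor
        · rintro ⟨⟨_, h⟩, h'⟩
          exact ⟨h', h⟩
        · rintro ⟨h, h'⟩
          exact ⟨⟨ht.trans h, h'⟩, h⟩
      rw [h1, setIntegral_indicator measurableSet_Ici, h2]
      simp
      linarith
    rw [e2]
    simp
    linarith
  have hnn : 0 ≤ ∫ ω, Ψ (Function.update ω q Isom_l1) ∂(Isom_mu ι) :=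
    integral_nonneg (fun ω => h0 _)
  rw [heq] at hle
  nlinarith

/-- the Palm formula. -/
theorem Isom_formula {ι V : Type*} [DecidableEq ι] (j : V → ι) (hj : Function.Injective j)
    (A : Finset V) (a : ℝ → (ι → L1) → ℝ) (B : V → ℝ → unitInterval → (ι → L1) → ℝ) (C : ℝ)
    {r s₁ : ℝ} (hr : 0 ≤ r) (hrs : r ≤ s₁) (hs₁ : s₁ ≤ 1)
    (ha : Measurable (fun p : ℝ × (ι → L1) => a p.1 p.2))
    (hab : ∀ t ω, r ≤ t → t ≤ s₁ → |a t ω| ≤ C)
    (hB : ∀ u, Measurable (fun p : (ℝ × unitInterval) × (ι → L1) => B u p.1.1 p.1.2 p.2))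
    (hBb : ∀ u t z ω, r ≤ t → t ≤ s₁ → |B u t z ω| ≤ C)
    (hconst : ∀ ω t s, r ≤ t → t ≤ s → s ≤ s₁ →
      (∀ w ∈ A, ¬ (t ≤ ((ω (j w)).1 : ℝ) ∧ ((ω (j w)).1 : ℝ) < s)) → a s ω = a t ω)
    (hstep : ∀ ω, ∀ v ∈ A, ∀ s, r ≤ ((ω (j v)).1 : ℝ) → ((ω (j v)).1 : ℝ) < s → s ≤ s₁ →
      (∀ w ∈ A, ((ω (j v)).1 : ℝ) ≤ ((ω (j w)).1 : ℝ) → ((ω (j w)).1 : ℝ) < s → w = v) →
      a s ω = B v ((ω (j v)).1 : ℝ) (ω (j v)).2 ω)
    (hinva : ∀ u t ω (l : L1), r ≤ t → t ≤ s₁ → t ≤ ((ω (j u)).1 : ℝ) → t ≤ (l.1 : ℝ) →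
      a t (Function.update ω (j u) l) = a t ω)
    (hinvB : ∀ u t z ω (l : L1), r ≤ t → t ≤ s₁ → t ≤ ((ω (j u)).1 : ℝ) → t ≤ (l.1 : ℝ) →
      B u t z (Function.update ω (j u) l) = B u t z ω) :
    ∫ ω, a s₁ ω ∂(Isom_mu ι) = ∫ ω, a r ω ∂(Isom_mu ι) +
      ∑ u ∈ A, ∫ t in r..s₁, ∫ ω, (∫ z, (B u t z (Function.update ω (j u) Isom_l1) -
        a t (Function.update ω (j u) Isom_l1))) ∂(Isom_mu ι) := by
  classical
  have hdist : ∀ᵐ ω ∂(Isom_mu ι), ∀ u ∈ A, ∀ v ∈ A, ((ω (j u)).1 : ℝ) = ((ω (j v)).1 : ℝ) →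
      u = v := by
    have h1 : ∀ᵐ ω ∂(Isom_mu ι), ∀ u ∈ A, ∀ v ∈ A, u ≠ v → (ω (j u)).1 ≠ (ω (j v)).1 := by
      rw [Filter.eventually_all_finset]
      intro u _
      rw [Filter.eventually_all_finset]
      intro v _
      by_cases huv : u = v
      · filter_upwards with ω h
        exact absurd huv h
      · filter_upwards [Isom_ae_ne (hj.ne huv)] with ω h _
        exact h
    filter_upwards [h1] with ω h u hu v hv huv
    by_contra hne
    exact h u hu v hv hne (Subtype.ext huv)
  have hpt : ∀ᵐ ω ∂(Isom_mu ι), a s₁ ω = a r ω + ∑ u ∈ A,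
      (if r ≤ ((ω (j u)).1 : ℝ) ∧ ((ω (j u)).1 : ℝ) < s₁ then
        (B u ((ω (j u)).1 : ℝ) (ω (j u)).2 ω - a ((ω (j u)).1 : ℝ) ω) else 0) := by
    filter_upwards [hdist] with ω hω
    have h := Isom_telescope A (fun u => ((ω (j u)).1 : ℝ)) hω (fun t => a t ω)
      (fun u => B u ((ω (j u)).1 : ℝ) (ω (j u)).2 ω) r s₁ (hconst ω) (hstep ω) _ s₁ hrs le_rfl rfl
    rw [h, Finset.sum_filter]
  rw [integral_congr_ae hpt]
  have hH : ∀ u, Measurable (fun p : (ℝ × unitInterval) × (ι → L1) =>
      (B u p.1.1 p.1.2 p.2 - a p.1.1 p.2)) := by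
    intro u
    exact (hB u).sub (ha.comp ((measurable_fst.comp measurable_fst).prodMk measurable_snd))
  have hia : Integrable (fun ω => a r ω) (Isom_mu ι) := by
    apply Integrable.of_bound (ha.comp (measurable_const.prodMk measurable_id)).aestronglyMeasurable C
    filter_upwards with ω
    exact hab r ω le_rfl hrs
  have hib : ∀ u ∈ A, Integrable (fun ω =>
      (if r ≤ ((ω (j u)).1 : ℝ) ∧ ((ω (j u)).1 : ℝ) < s₁ then
        (B u ((ω (j u)).1 : ℝ) (ω (j u)).2 ω - a ((ω (j u)).1 : ℝ) ω) else 0)) (Isom_mu ι) := by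
    intro u _
    have hmU : Measurable (fun ω : ι → L1 => ((ω (j u)).1 : ℝ)) :=
      measurable_subtype_coe.comp (measurable_fst.comp (measurable_pi_apply (j u)))
    have hmm : Measurable (fun ω : ι → L1 =>
        (if r ≤ ((ω (j u)).1 : ℝ) ∧ ((ω (j u)).1 : ℝ) < s₁ then
        (B u ((ω (j u)).1 : ℝ) (ω (j u)).2 ω - a ((ω (j u)).1 : ℝ) ω) else 0)) := by
      apply Measurable.ite _ _ measurable_const
      · exact (measurableSet_le measurable_const hmU).inter (measurableSet_lt hmU measurable_const)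
      · exact (hH u).comp ((hmU.prodMk (measurable_snd.comp (measurable_pi_apply (j u)))).prodMk
          measurable_id)
    apply Integrable.of_bound hmm.aestronglyMeasurable (|C| + |C|)
    filter_upwards with ω
    split_ifs with h
    · rw [Real.norm_eq_abs]
      have h1 := hBb u ((ω (j u)).1 : ℝ) (ω (j u)).2 ω h.1 h.2.le
      have h2 := hab ((ω (j u)).1 : ℝ) ω h.1 h.2.le
      exact (abs_sub _ _).trans (add_le_add (h1.trans (le_abs_self _)) (h2.trans (le_abs_self _)))
    · rw [norm_zero]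
      positivity
  rw [integral_add hia (integrable_finsetSum _ hib), integral_finsetSum _ hib]
  congr 1
  apply Finset.sum_congr rfl
  intro u _
  apply Isom_disint (j u) (C := |C| + |C|) hr hrs hs₁
    (fun t z ω => B u t z ω - a t ω) (hH u)
  · intro t z ω h1 h2
    exact (abs_sub _ _).trans (add_le_add ((hBb u t z ω h1 h2.le).trans (le_abs_self _))
      ((hab t ω h1 h2.le).trans (le_abs_self _)))
  · intro t z ω l h1 h2 h3 h4
    rw [hinvB u t z ω l h1 h2.le h3 h4, hinva u t ω l h1 h2.le h3 h4]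

end

end Crest.Agent.Lib.Row160
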