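import Crest.Agent.Lib.Row160.Defs

/-!
Row 160, module M10: analytic tools for the static estimate.
-/

set_option autoImplicit false
open MeasureTheory Filter Topology

namespace Crest.Agent.Lib.Row160

/-- Young's inequality `x y ≤ x log x - x + e^y`. -/
lemma young_xlogx {x y : ℝ} (hx : 0 ≤ x) : x * y ≤ x * Real.log x - x + Real.exp y := by
  rcases hx.eq_or_lt with h | h
  · subst h; simp; positivity
  · have h1 : y - Real.log x + 1 ≤ Real.exp (y - Real.log x) := Real.add_one_le_exp _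
    have h2 : Real.exp (y - Real.log x) = Real.exp y / x := by
      rw [Real.exp_sub, Real.exp_log h]
    rw [h2, le_div_iff₀ h] at h1
    nlinarith

/-- scaled Young. -/
lemma young_scaled {F Z α ε CF : ℝ} (hF : 0 ≤ F) (hFC : F ≤ CF) (hε : 0 < ε) (hCF : 1 ≤ CF)
    (hε1 : ε ≤ Real.exp (-1)) :
    α * (F * Z) ≤ F * (Real.log CF + Real.log (1 / ε)) + ε * Real.exp (α * Z) := by
  have h := young_xlogx (x := F / ε) (y := α * Z) (div_nonneg hF hε.le)
  have h2 : F / ε * Real.log (F / ε) ≤ F / ε * (Real.log CF + Real.log (1 / ε)) := by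
    rcases hF.eq_or_lt with h0 | h0
    · subst h0; simp
    · apply mul_le_mul_of_nonneg_left _ (div_nonneg hF hε.le)
      rw [← Real.log_mul (by linarith) (by positivity)]
      apply Real.log_le_log (by positivity)
      rw [mul_one_div]
      gcongr
  have h3 : F / ε * (α * Z) ≤ F / ε * (Real.log CF + Real.log (1 / ε)) + Real.exp (α * Z) := by
    have : 0 ≤ F / ε := div_nonneg hF hε.le
    linarith
  calc α * (F * Z) = ε * (F / ε * (α * Z)) := by field_simp
    _ ≤ ε * (F / ε * (Real.log CF + Real.log (1 / ε)) + Real.exp (α * Z)) :=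
        mul_le_mul_of_nonneg_left h3 hε.le
    _ = _ := by field_simp

section integral
variable {Ω : Type*} [MeasurableSpace Ω] {μ : Measure Ω} [IsProbabilityMeasure μ]

/-- the entropy inequality in integrated form: `E[F Z] ≤ C₁ √(ℓ₀/α) (E F + ε)`. -/
lemma integral_mul_le_sqrt {F Z : Ω → ℝ} {α ε CF CZ : ℝ} (hFm : Measurable F) (hZm : Measurable Z)
    (hF : ∀ ω, 0 ≤ F ω) (hFC : ∀ ω, F ω ≤ CF) (hZ : ∀ ω, 0 ≤ Z ω) (hZ1 : ∀ ω, Z ω ≤ 1)
    (hα : 1 ≤ α) (hε : 0 < ε) (hε1 : ε ≤ Real.exp (-1)) (hCF : 1 ≤ CF)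
    (hexp : ∫ ω, Real.exp (α * Z ω) ∂μ ≤ CZ) :
    ∫ ω, F ω * Z ω ∂μ ≤
      √((Real.log CF + 1 + CZ) * Real.log (1 / ε) / α) * (∫ ω, F ω ∂μ + ε) := by
  have hFi : Integrable F μ := by
    refine Integrable.of_bound hFm.aestronglyMeasurable CF (Eventually.of_forall fun ω => ?_)
    rw [Real.norm_eq_abs, abs_of_nonneg (hF ω)]; exact hFC ω
  have hEi : Integrable (fun ω => Real.exp (α * Z ω)) μ := by
    refine Integrable.of_bound (Real.measurable_exp.comp (hZm.const_mul α)).aestronglyMeasurable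
      (Real.exp α) (Eventually.of_forall fun ω => ?_)
    rw [Real.norm_eq_abs, abs_of_nonneg (Real.exp_pos _).le]
    apply Real.exp_le_exp.2
    nlinarith [hZ1 ω, hZ ω]
  have hFZi : Integrable (fun ω => F ω * Z ω) μ := by
    refine Integrable.of_bound (hFm.mul hZm).aestronglyMeasurable CF
      (Eventually.of_forall fun ω => ?_)
    rw [Real.norm_eq_abs, abs_of_nonneg (mul_nonneg (hF ω) (hZ ω))]
    nlinarith [hF ω, hFC ω, hZ ω, hZ1 ω]
  have hl0 : 1 ≤ Real.log (1 / ε) := by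
    rw [one_div, Real.log_inv]
    have := Real.log_le_log hε hε1
    rw [Real.log_exp] at this
    linarith
  have hlC : 0 ≤ Real.log CF := Real.log_nonneg hCF
  have hEF : 0 ≤ ∫ ω, F ω ∂μ := integral_nonneg hF
  have hCZ : 0 ≤ CZ := le_trans (integral_nonneg fun ω => (Real.exp_pos _).le) hexp
  -- bound 1
  have hb1 : ∫ ω, F ω * Z ω ∂μ ≤ ∫ ω, F ω ∂μ :=
    integral_mono hFZi hFi fun ω => by
      show F ω * Z ω ≤ F ω
      nlinarith [hF ω, hZ1 ω]
  -- bound 2
  have hb2 : α * ∫ ω, F ω * Z ω ∂μ ≤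
      (∫ ω, F ω ∂μ) * (Real.log CF + Real.log (1 / ε)) + ε * CZ := by
    calc α * ∫ ω, F ω * Z ω ∂μ = ∫ ω, α * (F ω * Z ω) ∂μ := (integral_const_mul _ _).symm
      _ ≤ ∫ ω, (F ω * (Real.log CF + Real.log (1 / ε)) + ε * Real.exp (α * Z ω)) ∂μ :=
          integral_mono (hFZi.const_mul α) ((hFi.mul_const _).add (hEi.const_mul ε))
            fun ω => young_scaled (hF ω) (hFC ω) hε hCF hε1
      _ = (∫ ω, F ω ∂μ) * (Real.log CF + Real.log (1 / ε)) +
          ε * ∫ ω, Real.exp (α * Z ω) ∂μ := by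
          rw [integral_add (hFi.mul_const _) (hEi.const_mul ε), integral_mul_const,
            integral_const_mul]
      _ ≤ _ := by gcongr
  have hb3 : ∫ ω, F ω * Z ω ∂μ ≤
      ((Real.log CF + 1 + CZ) * Real.log (1 / ε) / α) * (∫ ω, F ω ∂μ + ε) := by
    rw [div_mul_eq_mul_div, le_div_iff₀ (by linarith), mul_comm]
    refine hb2.trans ?_
    have h1 : (∫ ω, F ω ∂μ) * (Real.log CF + Real.log (1 / ε)) ≤
        (∫ ω, F ω ∂μ) * ((Real.log CF + 1) * Real.log (1 / ε)) := by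
      apply mul_le_mul_of_nonneg_left _ hEF
      nlinarith
    have h2 : ε * CZ ≤ ε * (CZ * Real.log (1 / ε)) := by
      apply mul_le_mul_of_nonneg_left _ hε.le
      nlinarith
    nlinarith [mul_nonneg (mul_nonneg hCZ (by linarith : (0:ℝ) ≤ Real.log (1 / ε))) hEF,
      mul_nonneg (mul_nonneg (by linarith : (0:ℝ) ≤ Real.log CF + 1)
        (by linarith : (0:ℝ) ≤ Real.log (1 / ε))) hε.le]
  set A := ∫ ω, F ω ∂μ with hA
  set I := ∫ ω, F ω * Z ω ∂μ with hI
  set κ := (Real.log CF + 1 + CZ) * Real.log (1 / ε) / α with hκ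
  have hI0 : 0 ≤ I := integral_nonneg fun ω => mul_nonneg (hF ω) (hZ ω)
  have hκ0 : 0 ≤ κ := by positivity
  have h4 : I ^ 2 ≤ (√κ * (A + ε)) ^ 2 := by
    rw [mul_pow, Real.sq_sqrt hκ0]
    have : I ≤ A + ε := by linarith
    calc I ^ 2 = I * I := by ring
      _ ≤ (κ * (A + ε)) * (A + ε) := by
          apply mul_le_mul hb3 this hI0
          positivity
      _ = κ * (A + ε) ^ 2 := by ring
  exact le_of_sq_le_sq h4 (by positivity)

lemma integral_Z_le {Z : Ω → ℝ} {α CZ : ℝ} (hZm : Measurable Z) (hZ : ∀ ω, 0 ≤ Z ω)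
    (hZ1 : ∀ ω, Z ω ≤ 1) (hα : 0 < α) (hexp : ∫ ω, Real.exp (α * Z ω) ∂μ ≤ CZ) :
    ∫ ω, Z ω ∂μ ≤ CZ / α := by
  have hEi : Integrable (fun ω => Real.exp (α * Z ω)) μ := by
    refine Integrable.of_bound (Real.measurable_exp.comp (hZm.const_mul α)).aestronglyMeasurable
      (Real.exp α) (Eventually.of_forall fun ω => ?_)
    rw [Real.norm_eq_abs, abs_of_nonneg (Real.exp_pos _).le]
    apply Real.exp_le_exp.2
    nlinarith [hZ1 ω, hZ ω]
  have hZi : Integrable Z μ := by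
    refine Integrable.of_bound hZm.aestronglyMeasurable 1
      (Eventually.of_forall fun ω => ?_)
    rw [Real.norm_eq_abs, abs_of_nonneg (hZ ω)]; exact hZ1 ω
  rw [le_div_iff₀ hα, mul_comm, ← integral_const_mul]
  refine (integral_mono (hZi.const_mul α) hEi fun ω => ?_).trans hexp
  show α * Z ω ≤ Real.exp (α * Z ω)
  linarith [Real.add_one_le_exp (α * Z ω)]

end integral

/-- the deterministic weight split. -/
lemma weight_split {κ q c : ℝ} {lam j : ℕ} (hκ0 : 0 ≤ κ) (hκ1 : κ ≤ 1) (hq : 0 < q) (hc : 0 < c)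
    (hlam : 1 ≤ lam) (hlq : ((lam : ℝ) - 1) * q ≤ 2) :
    κ ^ 2 ≤ Real.exp (-c * q * j) + Real.exp (2 * c * j) * κ ^ (2 * lam) := by
  by_cases h : κ ^ 2 ≤ Real.exp (-c * q * j)
  · have : 0 ≤ Real.exp (2 * c * j) * κ ^ (2 * lam) := by positivity
    linarith
  · push Not at h
    obtain ⟨l, rfl⟩ : ∃ l, lam = l + 1 := ⟨lam - 1, by omega⟩
    have h1 : (Real.exp (-c * q * j)) ^ l ≤ (κ ^ 2) ^ l := by
      gcongr
    have h2 : Real.exp (-(2 * c * j)) ≤ (Real.exp (-c * q * j)) ^ l := by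
      rw [← Real.exp_nat_mul]
      apply Real.exp_le_exp.2
      have hl : (l : ℝ) * q ≤ 2 := by
        have : ((l + 1 : ℕ) : ℝ) - 1 = l := by push_cast; ring
        rw [this] at hlq; exact hlq
      have : (l : ℝ) * q * (c * j) ≤ 2 * (c * j) := by
        apply mul_le_mul_of_nonneg_right hl
        positivity
      nlinarith
    have h3 : 1 ≤ Real.exp (2 * c * j) * (κ ^ 2) ^ l := by
      calc (1 : ℝ) = Real.exp (2 * c * j) * Real.exp (-(2 * c * j)) := by
            rw [← Real.exp_add]; simp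
        _ ≤ _ := by gcongr; exact h2.trans h1
    calc κ ^ 2 = 1 * κ ^ 2 := by ring
      _ ≤ (Real.exp (2 * c * j) * (κ ^ 2) ^ l) * κ ^ 2 := by gcongr
      _ = Real.exp (2 * c * j) * κ ^ (2 * (l + 1)) := by ring
      _ ≤ _ := by
        have : 0 ≤ Real.exp (-c * q * j) := (Real.exp_pos _).le
        linarith

end Crest.Agent.Lib.Row160
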