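import Crest.Agent.Lib.Row160.StatB

/-!
Row 160, module M10: path products, both directions, far side bounds.
-/

set_option autoImplicit false
set_option linter.unusedSectionVars false
open MeasureTheory Filter Topology

namespace Crest.Agent.Lib.Row160

variable {V : Type*} {G : SimpleGraph V}

/-- normalised covariance along a path. -/
noncomputable def kk (θ : ℝ) (m : V → ℝ) (p : ℕ → V) (j : ℕ) : ℝ :=
  (1 - m (p 0) ^ 2) * ∏ i ∈ Finset.range j, (Ge θ (m (p i)) (m (p (i + 1))) / θ)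

lemma Kp_eq_kk {θ : ℝ} (h0 : 0 < θ) (m : V → ℝ) (p : ℕ → V) (j : ℕ) :
    Kp θ m p j = θ ^ j * kk θ m p j := by
  unfold Kp kk
  rw [Finset.prod_div_distrib, Finset.prod_const, Finset.card_range]
  field_simp

lemma one_sub_sq_mem {x : ℝ} (h : |x| ≤ 1) : 0 ≤ 1 - x ^ 2 ∧ 1 - x ^ 2 ≤ 1 := by
  have := sq_abs x
  constructor
  · nlinarith [abs_nonneg x]
  · nlinarith [sq_nonneg x]

lemma kk_nonneg {θ : ℝ} (h0 : 0 < θ) (h1 : θ < 1) {m : V → ℝ} (hm : ∀ v, |m v| ≤ 1)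
    (p : ℕ → V) (j : ℕ) : 0 ≤ kk θ m p j :=
  mul_nonneg (one_sub_sq_mem (hm _)).1
    (Finset.prod_nonneg fun i _ => Ge_div_nonneg h0 h1 (hm _) (hm _))

/-- reversal. -/
lemma Kp_reverse_aux (θ : ℝ) (m : V → ℝ) (p : ℕ → V) (j : ℕ) :
    Kp θ m p j = (1 - m (p j) ^ 2) * ∏ i ∈ Finset.range j, Ge θ (m (p (i + 1))) (m (p i)) := by
  induction j with
  | zero => simp [Kp]
  | succ j ih =>
    have h1 : Kp θ m p (j + 1) = Kp θ m p j * Ge θ (m (p j)) (m (p (j + 1))) := by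
      unfold Kp; rw [Finset.prod_range_succ]; ring
    rw [h1, ih, Finset.prod_range_succ]
    have h2 := Ge_symm θ (m (p j)) (m (p (j + 1)))
    linear_combination (∏ i ∈ Finset.range j, Ge θ (m (p (i + 1))) (m (p i))) * h2

lemma Kp_reverse (θ : ℝ) (m : V → ℝ) (p : ℕ → V) (j : ℕ) :
    Kp θ m (fun i => p (j - i)) j = Kp θ m p j := by
  rw [Kp_reverse_aux θ m (fun i => p (j - i)) j]
  simp only [Nat.sub_self]
  unfold Kp
  congr 1
  rw [← Finset.prod_range_reflect]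
  refine Finset.prod_congr rfl fun i hi => ?_
  rw [Finset.mem_range] at hi
  have h1 : j - (j - 1 - i + 1) = i := by omega
  have h2 : j - (j - 1 - i) = i + 1 := by omega
  rw [h1, h2]

lemma kk_reverse {θ : ℝ} (h0 : 0 < θ) (m : V → ℝ) (p : ℕ → V) (j : ℕ) :
    kk θ m (fun i => p (j - i)) j = kk θ m p j := by
  have h := Kp_reverse θ m p j
  rw [Kp_eq_kk h0, Kp_eq_kk h0] at h
  exact mul_left_cancel₀ (pow_ne_zero _ h0.ne') h

/-- the normalised covariance is at most the product of the factors of any subpath. -/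
lemma kk_le_prod {θ : ℝ} (h0 : 0 < θ) (h1 : θ < 1) {m : V → ℝ} (hm : ∀ v, |m v| ≤ 1)
    (p : ℕ → V) {a L j : ℕ} (h : a + L ≤ j) :
    kk θ m p j ≤ ∏ l ∈ Finset.range L, (Ge θ (m (p (a + l))) (m (p (a + l + 1))) / θ) := by
  have e1 : ∏ l ∈ Finset.range L, (Ge θ (m (p (a + l))) (m (p (a + l + 1))) / θ) =
      ∏ i ∈ Finset.Ico a (a + L), (Ge θ (m (p i)) (m (p (i + 1))) / θ) := by
    rw [Finset.prod_Ico_eq_prod_range]
    simp
  rw [e1]
  unfold kk
  have hsub : Finset.Ico a (a + L) ⊆ Finset.range j := by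
    intro i hi
    rw [Finset.mem_Ico] at hi
    rw [Finset.mem_range]; omega
  have h2 : ∏ i ∈ Finset.range j, (Ge θ (m (p i)) (m (p (i + 1))) / θ) ≤
      ∏ i ∈ Finset.Ico a (a + L), (Ge θ (m (p i)) (m (p (i + 1))) / θ) :=
    Finset.prod_le_prod_of_subset_of_le_one hsub
      (fun i _ => Ge_div_nonneg h0 h1 (hm _) (hm _))
      (fun i _ _ => Ge_div_le_one h0 h1 (hm _) (hm _))
  calc _ ≤ 1 * ∏ i ∈ Finset.range j, (Ge θ (m (p i)) (m (p (i + 1))) / θ) := by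
        apply mul_le_mul_of_nonneg_right (one_sub_sq_mem (hm _)).2
        exact Finset.prod_nonneg fun i _ => Ge_div_nonneg h0 h1 (hm _) (hm _)
    _ ≤ _ := by rw [one_mul]; exact h2

lemma kk_le_one {θ : ℝ} (h0 : 0 < θ) (h1 : θ < 1) {m : V → ℝ} (hm : ∀ v, |m v| ≤ 1)
    (p : ℕ → V) (j : ℕ) : kk θ m p j ≤ 1 := by
  have := kk_le_prod h0 h1 hm p (a := 0) (L := 0) (j := j) (by omega)
  simpa using this

lemma measurable_kk (θ : ℝ) {m : V → Lab V → ℝ} (hm : ∀ v, Measurable (m v)) (p : ℕ → V)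
    (j : ℕ) : Measurable (fun ω => kk θ (fun v => m v ω) p j) := by
  unfold kk
  refine Measurable.mul (((hm _).pow_const 2).const_sub 1) ?_
  refine Finset.measurable_fun_prod _ fun i _ => ?_
  exact ((measurable_Ge θ).comp ((hm _).prodMk (hm _))).div_const _

lemma measurable_Kp (θ : ℝ) {m : V → Lab V → ℝ} (hm : ∀ v, Measurable (m v)) (p : ℕ → V)
    (j : ℕ) : Measurable (fun ω => Kp θ (fun v => m v ω) p j) := by
  unfold Kp
  refine Measurable.mul (((hm _).pow_const 2).const_sub 1) ?_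
  refine Finset.measurable_fun_prod _ fun i _ => ?_
  exact (measurable_Ge θ).comp ((hm _).prodMk (hm _))

/-- the hypotheses on one system at a fixed time used by the static estimate. -/
structure Sys (G : SimpleGraph V) [G.LocallyFinite] (b : ℕ) (θ q r ρ C : ℝ) (lam : ℕ)
    (m : V → Lab V → ℝ) : Prop where
  th_pos : 0 < θ
  th_ge : 1 ≤ 4 * b * θ ^ 2
  th_lt : b * θ ^ 2 < 1
  lim : BlockLim1 G m
  bound : ∀ v ω, |m v ω| ≤ r
  expZ : 1 - b * θ ^ 2 ≤ q → ∀ (L : ℕ) (z y : V), G.Adj z y →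
    ∫ ω, Real.exp (ρ ^ L * Zp G b θ lam (fun v => m v ω) L z y) ∂(labM V) ≤ C

section
variable [G.LocallyFinite] {d : ℕ} {θ q r ρ C : ℝ} {lam : ℕ} {m : V → Lab V → ℝ}

lemma Sys.lt_one (hd : 3 ≤ d) (h : Sys G (d - 1) θ q r ρ C lam m) : θ < 1 := by
  have h1 := h.th_lt
  have h2 := h.th_pos
  have hb : (2 : ℝ) ≤ ((d - 1 : ℕ) : ℝ) := by
    have : 2 ≤ d - 1 := by omega
    exact_mod_cast this
  by_contra hc
  push Not at hc
  nlinarith

lemma Sys.abs_le_one (hr : r < 1) (h : Sys G (d - 1) θ q r ρ C lam m) (v : V) (ω : Lab V) :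
    |m v ω| ≤ 1 := (h.bound v ω).trans hr.le

/-- far side bound, forward direction. -/
lemma Sys.far_fwd (hT : G.IsTree) (hd : 3 ≤ d) (hreg : G.IsRegularOfDegree d)
    (hr : r < 1) (hρ : 1 < ρ) (h : Sys G (d - 1) θ q r ρ C lam m) (hB : 1 - (d - 1 : ℕ) * θ ^ 2 ≤ q)
    {ε₀ CF : ℝ} (hε : 0 < ε₀) (hε1 : ε₀ ≤ Real.exp (-1)) (hCF : 1 ≤ CF)
    {Fe : V → V → Lab V → ℝ} (hFE : Eqv2 G Fe) (hFm : ∀ u v, Measurable (Fe u v))
    (hF0 : ∀ u v ω, 0 ≤ Fe u v ω) (hFC : ∀ u v ω, Fe u v ω ≤ CF)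
    {p : ℕ → V} {j i : ℕ} (hp : IsGeo G j p) (hi : i + 1 ≤ j) :
    ∫ ω, Fe (p i) (p (i + 1)) ω * kk θ (fun v => m v ω) p j ^ (2 * lam) ∂(labM V) ≤
      √((Real.log CF + 1 + C) * Real.log (1 / ε₀) / ρ ^ (j - i - 1)) *
        (∫ ω, Fe (p i) (p (i + 1)) ω ∂(labM V) + ε₀) := by
  have h0 := h.th_pos
  have h1 := h.lt_one hd
  have hm1 := h.abs_le_one hr
  have hmm : ∀ v, Measurable (m v) := h.lim.2.1
  set L := j - i - 1 with hL
  -- shifted path
  set p' : ℕ → V := fun l => p (i + l) with hp'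
  have hgeo : IsGeo G (0 + 1 + L) p' := by
    constructor
    · intro l hl; exact hp.1 (i + l) (by omega)
    · intro l hl; exact hp.2 (i + l) (by omega)
  have hPF : PathFun G (0 + 1) (fun p ω => Fe (p 0) (p 1) ω) := by
    constructor
    · intro p p' hpp; funext ω; rw [hpp 0 (by omega), hpp 1 (by omega)]
    · intro g p ω; exact hFE g _ _ ω
    · intro p; exact hFm _ _
    · exact ⟨CF, fun p _ ω => by rw [abs_of_nonneg (hF0 _ _ _)]; exact hFC _ _ _⟩
  have havg := avg_ext hT hd hreg h0 h1 lam h.lim.1 hmm hm1 L 0 _ hPF p' hgeo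
  have hadj : G.Adj (p i) (p (i + 1)) := hp.1 i (by omega)
  have hstep : ∫ ω, Fe (p i) (p (i + 1)) ω * kk θ (fun v => m v ω) p j ^ (2 * lam) ∂(labM V) ≤
      ∫ ω, Fe (p i) (p (i + 1)) ω * Zp G (d - 1) θ lam (fun v => m v ω) L (p i) (p (i + 1))
        ∂(labM V) := by
    have e1 : ∫ ω, Fe (p i) (p (i + 1)) ω *
        Zp G (d - 1) θ lam (fun v => m v ω) L (p i) (p (i + 1)) ∂(labM V) =
        ∫ ω, Fe (p i) (p (i + 1)) ω *
          ∏ l ∈ Finset.range L, wE θ lam m (p (i + 1 + l)) (p (i + 1 + l + 1)) ω ∂(labM V) := by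
      have e2 := havg.symm
      simp only [hp', add_zero, zero_add] at e2
      rw [e2]
      refine integral_congr_ae (Eventually.of_forall fun ω => ?_)
      simp only
      congr 1
      refine Finset.prod_congr rfl fun l _ => ?_
      rw [show i + (1 + l) = i + 1 + l by omega, show i + (1 + l + 1) = i + 1 + l + 1 by omega]
    rw [e1]
    have hb1 : ∀ ω, ∏ l ∈ Finset.range L, wE θ lam m (p (i + 1 + l)) (p (i + 1 + l + 1)) ω =
        (∏ l ∈ Finset.range L, (Ge θ (m (p (i + 1 + l)) ω) (m (p (i + 1 + l + 1)) ω) / θ)) ^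
          (2 * lam) := by
      intro ω
      rw [← Finset.prod_pow]; rfl
    have hkm := measurable_kk θ hmm p j
    refine integral_mono_of_nonneg (Eventually.of_forall fun ω => ?_) ?_
      (Eventually.of_forall fun ω => ?_)
    · exact mul_nonneg (hF0 _ _ _) (pow_nonneg (kk_nonneg h0 h1 (fun v => hm1 v ω) p j) _)
    · refine Integrable.of_bound (C := CF) ?_ (Eventually.of_forall fun ω => ?_)
      · refine ((hFm _ _).mul (Finset.measurable_fun_prod _ fun l _ => ?_)).aestronglyMeasurable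
        exact (((measurable_Ge θ).comp ((hmm _).prodMk (hmm _))).div_const _).pow_const _
      · rw [hb1, Real.norm_eq_abs, abs_mul, abs_of_nonneg (hF0 _ _ _)]
        have hx0 : 0 ≤ ∏ l ∈ Finset.range L,
            (Ge θ (m (p (i + 1 + l)) ω) (m (p (i + 1 + l + 1)) ω) / θ) :=
          Finset.prod_nonneg fun l _ => Ge_div_nonneg h0 h1 (hm1 _ ω) (hm1 _ ω)
        have hx1 : ∏ l ∈ Finset.range L,
            (Ge θ (m (p (i + 1 + l)) ω) (m (p (i + 1 + l + 1)) ω) / θ) ≤ 1 :=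
          Finset.prod_le_one (fun l _ => Ge_div_nonneg h0 h1 (hm1 _ ω) (hm1 _ ω))
            fun l _ => Ge_div_le_one h0 h1 (hm1 _ ω) (hm1 _ ω)
        rw [abs_of_nonneg (pow_nonneg hx0 _)]
        calc _ ≤ CF * 1 := mul_le_mul (hFC _ _ _) (pow_le_one₀ hx0 hx1) (pow_nonneg hx0 _)
              (by linarith)
          _ = CF := mul_one _
    · simp only [hb1]
      refine mul_le_mul_of_nonneg_left ?_ (hF0 _ _ _)
      exact pow_le_pow_left₀ (kk_nonneg h0 h1 (fun v => hm1 v ω) p j)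
        (kk_le_prod h0 h1 (fun v => hm1 v ω) p (by omega)) _
  refine hstep.trans ?_
  exact integral_mul_le_sqrt (hFm _ _) (measurable_Zp _ θ lam hmm L _ _) (hF0 _ _) (hFC _ _)
    (fun ω => Zp_nonneg _ h0 h1 lam (fun v => hm1 v ω) L _ _)
    (fun ω => Zp_le_one hd hreg h0 h1 lam (fun v => hm1 v ω) L _ _ hadj)
    (one_le_pow₀ hρ.le) hε hε1 hCF (h.expZ hB L _ _ hadj)

/-- far side bound, backward direction. -/
lemma Sys.far_bwd (hT : G.IsTree) (hd : 3 ≤ d) (hreg : G.IsRegularOfDegree d)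
    (hr : r < 1) (hρ : 1 < ρ) (h : Sys G (d - 1) θ q r ρ C lam m) (hB : 1 - (d - 1 : ℕ) * θ ^ 2 ≤ q)
    {ε₀ CF : ℝ} (hε : 0 < ε₀) (hε1 : ε₀ ≤ Real.exp (-1)) (hCF : 1 ≤ CF)
    {Fe : V → V → Lab V → ℝ} (hFE : Eqv2 G Fe) (hFm : ∀ u v, Measurable (Fe u v))
    (hF0 : ∀ u v ω, 0 ≤ Fe u v ω) (hFC : ∀ u v ω, Fe u v ω ≤ CF)
    {p : ℕ → V} {j i : ℕ} (hp : IsGeo G j p) (hi : i + 1 ≤ j) :
    ∫ ω, Fe (p (i + 1)) (p i) ω * kk θ (fun v => m v ω) p j ^ (2 * lam) ∂(labM V) ≤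
      √((Real.log CF + 1 + C) * Real.log (1 / ε₀) / ρ ^ i) *
        (∫ ω, Fe (p (i + 1)) (p i) ω ∂(labM V) + ε₀) := by
  have h2 := h.far_fwd hT hd hreg hr hρ hB hε hε1 hCF hFE hFm hF0 hFC (hp.reverse)
    (i := j - i - 1) (by omega)
  simp only [kk_reverse h.th_pos] at h2
  rw [show j - (j - i - 1) = i + 1 by omega, show j - (j - i - 1 + 1) = i by omega,
    Nat.add_sub_cancel] at h2
  exact h2

/-- far side bound without `F`. -/
lemma Sys.far_one (hT : G.IsTree) (hd : 3 ≤ d) (hreg : G.IsRegularOfDegree d)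
    (hr : r < 1) (hρ : 1 < ρ) (h : Sys G (d - 1) θ q r ρ C lam m) (hB : 1 - (d - 1 : ℕ) * θ ^ 2 ≤ q)
    {p : ℕ → V} {j : ℕ} (hp : IsGeo G (j + 1) p) :
    ∫ ω, kk θ (fun v => m v ω) p (j + 1) ^ (2 * lam) ∂(labM V) ≤ C / ρ ^ j := by
  have h0 := h.th_pos
  have h1 := h.lt_one hd
  have hm1 := h.abs_le_one hr
  have hmm : ∀ v, Measurable (m v) := h.lim.2.1
  have hPF : PathFun G (0 + 1) (fun (_ : ℕ → V) (_ : Lab V) => (1 : ℝ)) :=
    ⟨fun _ _ _ => rfl, fun _ _ _ => rfl, fun _ => measurable_const,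
      ⟨1, fun _ _ _ => by simp⟩⟩
  have havg := avg_ext hT hd hreg h0 h1 lam h.lim.1 hmm hm1 j 0 _ hPF p
    (by rw [show 0 + 1 + j = j + 1 by omega]; exact hp)
  simp only [one_mul, zero_add] at havg
  have hadj : G.Adj (p 0) (p 1) := hp.1 0 (by omega)
  have hb1 : ∀ ω, ∏ l ∈ Finset.range j, wE θ lam m (p (1 + l)) (p (1 + l + 1)) ω =
      (∏ l ∈ Finset.range j, (Ge θ (m (p (1 + l)) ω) (m (p (1 + l + 1)) ω) / θ)) ^
        (2 * lam) := by
    intro ω
    rw [← Finset.prod_pow]; rfl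
  calc ∫ ω, kk θ (fun v => m v ω) p (j + 1) ^ (2 * lam) ∂(labM V)
      ≤ ∫ ω, ∏ l ∈ Finset.range j, wE θ lam m (p (1 + l)) (p (1 + l + 1)) ω ∂(labM V) := by
        refine integral_mono_of_nonneg (Eventually.of_forall fun ω => ?_) ?_
          (Eventually.of_forall fun ω => ?_)
        · exact pow_nonneg (kk_nonneg h0 h1 (fun v => hm1 v ω) p _) _
        · refine Integrable.of_bound (C := 1) ?_ (Eventually.of_forall fun ω => ?_)
          · refine (Finset.measurable_fun_prod _ fun l _ => ?_).aestronglyMeasurable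
            exact (((measurable_Ge θ).comp ((hmm _).prodMk (hmm _))).div_const _).pow_const _
          · rw [hb1, Real.norm_eq_abs]
            have hx0 : 0 ≤ ∏ l ∈ Finset.range j,
                (Ge θ (m (p (1 + l)) ω) (m (p (1 + l + 1)) ω) / θ) :=
              Finset.prod_nonneg fun l _ => Ge_div_nonneg h0 h1 (hm1 _ ω) (hm1 _ ω)
            have hx1 : ∏ l ∈ Finset.range j,
                (Ge θ (m (p (1 + l)) ω) (m (p (1 + l + 1)) ω) / θ) ≤ 1 :=
              Finset.prod_le_one (fun l _ => Ge_div_nonneg h0 h1 (hm1 _ ω) (hm1 _ ω))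
                fun l _ => Ge_div_le_one h0 h1 (hm1 _ ω) (hm1 _ ω)
            rw [abs_of_nonneg (pow_nonneg hx0 _)]
            exact pow_le_one₀ hx0 hx1
        · simp only [hb1]
          exact pow_le_pow_left₀ (kk_nonneg h0 h1 (fun v => hm1 v ω) p _)
            (kk_le_prod h0 h1 (fun v => hm1 v ω) p (by omega)) _
    _ = ∫ ω, Zp G (d - 1) θ lam (fun v => m v ω) j (p 0) (p 1) ∂(labM V) := havg
    _ ≤ C / ρ ^ j := integral_Z_le (measurable_Zp _ θ lam hmm j _ _)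
        (fun ω => Zp_nonneg _ h0 h1 lam (fun v => hm1 v ω) j _ _)
        (fun ω => Zp_le_one hd hreg h0 h1 lam (fun v => hm1 v ω) j _ _ hadj)
        (by positivity) (h.expZ hB j _ _ hadj)

end

end Crest.Agent.Lib.Row160
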