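import Crest.Agent.Lib.Row160.StatC

/-!
Row 160, module M10: bounds for the random weights, with decay in the length.
-/

set_option autoImplicit false
set_option linter.unusedSectionVars false
open MeasureTheory Filter Topology

namespace Crest.Agent.Lib.Row160

variable {V : Type*} {G : SimpleGraph V} [G.LocallyFinite] {d : ℕ} {θ q r ρ C : ℝ} {lam : ℕ}
  {m : V → Lab V → ℝ}

/-- `β = ρ^{-1/4}` -/
noncomputable def bet (ρ : ℝ) : ℝ := (√(√ρ))⁻¹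

lemma bet_pos (hρ : 1 < ρ) : 0 < bet ρ := by unfold bet; positivity

lemma bet_lt_one (hρ : 1 < ρ) : bet ρ < 1 := by
  unfold bet
  apply inv_lt_one_of_one_lt₀
  rw [Real.lt_sqrt (by norm_num), one_pow, Real.lt_sqrt (by norm_num), one_pow]
  exact hρ

lemma bet_pow_four (hρ : 1 < ρ) : bet ρ ^ 4 = ρ⁻¹ := by
  unfold bet
  rw [inv_pow, show 4 = 2 * 2 by norm_num, pow_mul, Real.sq_sqrt (Real.sqrt_nonneg _),
    Real.sq_sqrt (by linarith)]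

lemma sqrt_div_pow_le {X : ℝ} (hX : 0 ≤ X) (hρ : 1 < ρ) {L j : ℕ} (h : j ≤ 2 * L + 1) :
    √(X / ρ ^ L) ≤ √X * bet ρ ^ (j - 1) := by
  have hb := bet_pos hρ
  have h1 : √(X / ρ ^ L) = √X * bet ρ ^ (2 * L) := by
    rw [Real.sqrt_div hX]
    have : √(ρ ^ L) = (bet ρ ^ (2 * L))⁻¹ := by
      have h4 := bet_pow_four hρ
      have : ρ ^ L = ((bet ρ ^ (2 * L))⁻¹) ^ 2 := by
        rw [inv_pow, ← pow_mul, show 2 * L * 2 = 4 * L by ring, pow_mul, h4, inv_pow, inv_inv]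
      rw [this, Real.sqrt_sq (by positivity)]
    rw [this, div_inv_eq_mul]
  rw [h1]
  exact mul_le_mul_of_nonneg_left (pow_le_pow_of_le_one hb.le (bet_lt_one hρ).le (by omega))
    (Real.sqrt_nonneg _)

/-- the constant in the far side bounds. -/
noncomputable def DD (CF C ε₀ : ℝ) : ℝ := √((Real.log CF + 1 + C) * Real.log (1 / ε₀))

lemma one_le_log_inv {ε₀ : ℝ} (hε : 0 < ε₀) (hε1 : ε₀ ≤ Real.exp (-1)) :
    1 ≤ Real.log (1 / ε₀) := by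
  rw [one_div, Real.log_inv]
  have := Real.log_le_log hε hε1
  rw [Real.log_exp] at this
  linarith

lemma hom_pair (hT : G.IsTree) (hd : 3 ≤ d) (hreg : G.IsRegularOfDegree d)
    {Fe : V → V → Lab V → ℝ} (hFE : Eqv2 G Fe) (hFm : ∀ u v, Measurable (Fe u v))
    (hFC : ∃ CF, ∀ u v ω, |Fe u v ω| ≤ CF) {p p' : ℕ → V} (hp : IsGeo G 1 p)
    (hp' : IsGeo G 1 p') :
    ∫ ω, Fe (p 0) (p 1) ω ∂(labM V) = ∫ ω, Fe (p' 0) (p' 1) ω ∂(labM V) := by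
  obtain ⟨CF, hCF⟩ := hFC
  have hPF : PathFun G 1 (fun p ω => Fe (p 0) (p 1) ω) := by
    constructor
    · intro p p' hpp; funext ω; rw [hpp 0 (by omega), hpp 1 (by omega)]
    · intro g p ω; exact hFE g _ _ ω
    · intro p; exact hFm _ _
    · exact ⟨CF, fun p _ ω => hCF _ _ _⟩
  exact hPF.hom hT hd hreg hp hp'

lemma geo_shift {j i k : ℕ} {p : ℕ → V} (hp : IsGeo G j p) (h : i + k ≤ j) :
    IsGeo G k (fun l => p (i + l)) :=
  ⟨fun l hl => hp.1 (i + l) (by omega), fun l hl => hp.2 (i + l) (by omega)⟩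

lemma hom_edge (hT : G.IsTree) (hd : 3 ≤ d) (hreg : G.IsRegularOfDegree d)
    {Fe : V → V → Lab V → ℝ} (hFE : Eqv2 G Fe) (hFm : ∀ u v, Measurable (Fe u v))
    (hFC : ∃ CF, ∀ u v ω, |Fe u v ω| ≤ CF) {p : ℕ → V} {i j : ℕ} (hp : IsGeo G j p)
    (hi : i + 1 ≤ j) :
    ∫ ω, Fe (p i) (p (i + 1)) ω ∂(labM V) = ∫ ω, Fe (p 0) (p 1) ω ∂(labM V) :=
  hom_pair hT hd hreg hFE hFm hFC (geo_shift hp hi) (hp.mono (by omega))

lemma hom_edge_rev (hT : G.IsTree) (hd : 3 ≤ d) (hreg : G.IsRegularOfDegree d)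
    {Fe : V → V → Lab V → ℝ} (hFE : Eqv2 G Fe) (hFm : ∀ u v, Measurable (Fe u v))
    (hFC : ∃ CF, ∀ u v ω, |Fe u v ω| ≤ CF) {p : ℕ → V} {i j : ℕ} (hp : IsGeo G j p)
    (hi : i + 1 ≤ j) :
    ∫ ω, Fe (p (i + 1)) (p i) ω ∂(labM V) = ∫ ω, Fe (p 0) (p 1) ω ∂(labM V) := by
  have h1 := (geo_shift hp hi).reverse
  exact hom_pair hT hd hreg hFE hFm hFC h1 (hp.mono (by omega))

lemma hom_vertex (hT : G.IsTree) (hd : 3 ≤ d) (hreg : G.IsRegularOfDegree d)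
    {Fv : V → Lab V → ℝ} (hFE : Eqv1 G Fv) (hFm : ∀ u, Measurable (Fv u))
    (hFC : ∃ CF, ∀ u ω, |Fv u ω| ≤ CF) (u v : V) :
    ∫ ω, Fv u ω ∂(labM V) = ∫ ω, Fv v ω ∂(labM V) := by
  obtain ⟨CF, hCF⟩ := hFC
  have hPF : PathFun G 0 (fun p ω => Fv (p 0) ω) := by
    constructor
    · intro p p' hpp; funext ω; rw [hpp 0 (by omega)]
    · intro g p ω; exact hFE g _ ω
    · intro p; exact hFm _
    · exact ⟨CF, fun p _ ω => hCF _ _⟩
  exact hPF.hom hT hd hreg (p := fun _ => u) (p' := fun _ => v)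
    ⟨fun i hi => by omega, fun i hi => by omega⟩ ⟨fun i hi => by omega, fun i hi => by omega⟩

/-- squares of an edge functional. -/
lemma Sys.far_edge (hT : G.IsTree) (hd : 3 ≤ d) (hreg : G.IsRegularOfDegree d)
    (hr : r < 1) (hρ : 1 < ρ) (hC : 0 ≤ C) (h : Sys G (d - 1) θ q r ρ C lam m)
    (hB : 1 - (d - 1 : ℕ) * θ ^ 2 ≤ q)
    {ε₀ CF : ℝ} (hε : 0 < ε₀) (hε1 : ε₀ ≤ Real.exp (-1)) (hCF : 1 ≤ CF)
    {Fe : V → V → Lab V → ℝ} (hFE : Eqv2 G Fe) (hFm : ∀ u v, Measurable (Fe u v))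
    (hF0 : ∀ u v ω, 0 ≤ Fe u v ω) (hFC : ∀ u v ω, Fe u v ω ≤ CF)
    {p : ℕ → V} {j i : ℕ} (hp : IsGeo G j p) (hi : i + 1 ≤ j) :
    ∫ ω, Fe (p i) (p (i + 1)) ω * kk θ (fun v => m v ω) p j ^ (2 * lam) ∂(labM V) ≤
      DD CF C ε₀ * bet ρ ^ (j - 1) * (∫ ω, Fe (p 0) (p 1) ω ∂(labM V) + ε₀) := by
  have hl0 := one_le_log_inv hε hε1
  have hX : 0 ≤ (Real.log CF + 1 + C) * Real.log (1 / ε₀) := by
    have := Real.log_nonneg hCF
    apply mul_nonneg <;> linarith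
  have hbd : ∃ CF, ∀ u v ω, |Fe u v ω| ≤ CF :=
    ⟨CF, fun u v ω => by rw [abs_of_nonneg (hF0 _ _ _)]; exact hFC _ _ _⟩
  have hI0 : 0 ≤ ∫ ω, Fe (p 0) (p 1) ω ∂(labM V) + ε₀ :=
    add_nonneg (integral_nonneg fun ω => hF0 _ _ _) hε.le
  by_cases hcase : j ≤ 2 * (j - i - 1) + 1
  · have h2 := h.far_fwd hT hd hreg hr hρ hB hε hε1 hCF hFE hFm hF0 hFC hp hi
    rw [hom_edge hT hd hreg hFE hFm hbd hp hi] at h2
    refine h2.trans (mul_le_mul_of_nonneg_right ?_ hI0)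
    exact sqrt_div_pow_le hX hρ hcase
  · have h2 := h.far_bwd hT hd hreg hr hρ hB hε hε1 hCF (Fe := fun u v ω => Fe v u ω)
      (fun g u v ω => hFE g v u ω) (fun u v => hFm v u) (fun u v ω => hF0 v u ω)
      (fun u v ω => hFC v u ω) hp hi
    rw [hom_edge hT hd hreg hFE hFm hbd hp hi] at h2
    refine h2.trans (mul_le_mul_of_nonneg_right ?_ hI0)
    exact sqrt_div_pow_le hX hρ (by omega)

/-- vertex functional at the start. -/
lemma Sys.far_start (hT : G.IsTree) (hd : 3 ≤ d) (hreg : G.IsRegularOfDegree d)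
    (hr : r < 1) (hρ : 1 < ρ) (hC : 0 ≤ C) (h : Sys G (d - 1) θ q r ρ C lam m)
    (hB : 1 - (d - 1 : ℕ) * θ ^ 2 ≤ q)
    {ε₀ CF : ℝ} (hε : 0 < ε₀) (hε1 : ε₀ ≤ Real.exp (-1)) (hCF : 1 ≤ CF)
    {Fv : V → Lab V → ℝ} (hFE : Eqv1 G Fv) (hFm : ∀ u, Measurable (Fv u))
    (hF0 : ∀ u ω, 0 ≤ Fv u ω) (hFC : ∀ u ω, Fv u ω ≤ CF)
    {p : ℕ → V} {j : ℕ} (hp : IsGeo G j p) :
    ∫ ω, Fv (p 0) ω * kk θ (fun v => m v ω) p j ^ (2 * lam) ∂(labM V) ≤
      (1 + DD CF C ε₀) * bet ρ ^ (j - 1) * (∫ ω, Fv (p 0) ω ∂(labM V) + ε₀) := by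
  have hl0 := one_le_log_inv hε hε1
  have hX : 0 ≤ (Real.log CF + 1 + C) * Real.log (1 / ε₀) := by
    have := Real.log_nonneg hCF
    apply mul_nonneg <;> linarith
  have hI0 : 0 ≤ ∫ ω, Fv (p 0) ω ∂(labM V) := integral_nonneg fun ω => hF0 _ _
  have hD : 0 ≤ DD CF C ε₀ := Real.sqrt_nonneg _
  have hb := bet_pos hρ
  rcases Nat.eq_zero_or_pos j with hj | hj
  · subst hj
    have h0 := h.th_pos
    have h1 := h.lt_one hd
    have hm1 := h.abs_le_one hr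
    have : ∫ ω, Fv (p 0) ω * kk θ (fun v => m v ω) p 0 ^ (2 * lam) ∂(labM V) ≤
        ∫ ω, Fv (p 0) ω ∂(labM V) := by
      refine integral_mono_of_nonneg (Eventually.of_forall fun ω => ?_) ?_
        (Eventually.of_forall fun ω => ?_)
      · exact mul_nonneg (hF0 _ _) (pow_nonneg (kk_nonneg h0 h1 (fun v => hm1 v ω) p _) _)
      · exact Integrable.of_bound (C := CF) (hFm _).aestronglyMeasurable
          (Eventually.of_forall fun ω => by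
            rw [Real.norm_eq_abs, abs_of_nonneg (hF0 _ _)]; exact hFC _ _)
      · calc _ ≤ Fv (p 0) ω * 1 := mul_le_mul_of_nonneg_left
              (pow_le_one₀ (kk_nonneg h0 h1 (fun v => hm1 v ω) p _)
                (kk_le_one h0 h1 (fun v => hm1 v ω) p _)) (hF0 _ _)
          _ = _ := mul_one _
    refine this.trans ?_
    simp only [zero_le, Nat.sub_eq_zero_of_le, pow_zero, mul_one]
    nlinarith [mul_nonneg hD hI0, mul_nonneg hD hε.le]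
  · have h2 := h.far_fwd hT hd hreg hr hρ hB hε hε1 hCF (Fe := fun u _ ω => Fv u ω)
      (fun g u _ ω => hFE g u ω) (fun u _ => hFm u) (fun u _ ω => hF0 u ω)
      (fun u _ ω => hFC u ω) hp (i := 0) (by omega)
    refine h2.trans (mul_le_mul_of_nonneg_right ?_ (by linarith))
    have h3 := sqrt_div_pow_le hX hρ (L := j - 0 - 1) (j := j) (by omega)
    refine h3.trans ?_
    apply mul_le_mul_of_nonneg_right _ (by positivity)
    show DD CF C ε₀ ≤ 1 + DD CF C ε₀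
    linarith

/-- vertex functional at the end. -/
lemma Sys.far_end (hT : G.IsTree) (hd : 3 ≤ d) (hreg : G.IsRegularOfDegree d)
    (hr : r < 1) (hρ : 1 < ρ) (hC : 0 ≤ C) (h : Sys G (d - 1) θ q r ρ C lam m)
    (hB : 1 - (d - 1 : ℕ) * θ ^ 2 ≤ q)
    {ε₀ CF : ℝ} (hε : 0 < ε₀) (hε1 : ε₀ ≤ Real.exp (-1)) (hCF : 1 ≤ CF)
    {Fv : V → Lab V → ℝ} (hFE : Eqv1 G Fv) (hFm : ∀ u, Measurable (Fv u))
    (hF0 : ∀ u ω, 0 ≤ Fv u ω) (hFC : ∀ u ω, Fv u ω ≤ CF)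
    {p : ℕ → V} {j : ℕ} (hp : IsGeo G j p) :
    ∫ ω, Fv (p j) ω * kk θ (fun v => m v ω) p j ^ (2 * lam) ∂(labM V) ≤
      (1 + DD CF C ε₀) * bet ρ ^ (j - 1) * (∫ ω, Fv (p 0) ω ∂(labM V) + ε₀) := by
  have h2 := h.far_start hT hd hreg hr hρ hC hB hε hε1 hCF hFE hFm hF0 hFC (hp.reverse)
  simp only [kk_reverse h.th_pos, Nat.sub_zero] at h2
  rw [hom_vertex hT hd hreg hFE hFm ⟨CF, fun u ω => by
    rw [abs_of_nonneg (hF0 _ _)]; exact hFC _ _⟩ (p j) (p 0)] at h2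
  exact h2

/-- no functional. -/
lemma Sys.far_none (hT : G.IsTree) (hd : 3 ≤ d) (hreg : G.IsRegularOfDegree d)
    (hr : r < 1) (hρ : 1 < ρ) (hC : 0 ≤ C) (h : Sys G (d - 1) θ q r ρ C lam m)
    (hB : 1 - (d - 1 : ℕ) * θ ^ 2 ≤ q) {p : ℕ → V} {j : ℕ} (hp : IsGeo G j p) :
    ∫ ω, kk θ (fun v => m v ω) p j ^ (2 * lam) ∂(labM V) ≤ (1 + C) * bet ρ ^ (j - 1) := by
  have h0 := h.th_pos
  have h1 := h.lt_one hd
  have hm1 := h.abs_le_one hr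
  have hb := bet_pos hρ
  rcases Nat.eq_zero_or_pos j with hj | hj
  · subst hj
    have : ∫ ω, kk θ (fun v => m v ω) p 0 ^ (2 * lam) ∂(labM V) ≤
        ∫ _ω : Lab V, (1 : ℝ) ∂(labM V) := by
      refine integral_mono_of_nonneg (Eventually.of_forall fun ω => ?_) (integrable_const _)
        (Eventually.of_forall fun ω => ?_)
      · exact pow_nonneg (kk_nonneg h0 h1 (fun v => hm1 v ω) p _) _
      · exact pow_le_one₀ (kk_nonneg h0 h1 (fun v => hm1 v ω) p _)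
                (kk_le_one h0 h1 (fun v => hm1 v ω) p _)
    refine this.trans ?_
    simp
    linarith
  · obtain ⟨j, rfl⟩ : ∃ j', j = j' + 1 := ⟨j - 1, by omega⟩
    refine (h.far_one hT hd hreg hr hρ hB hp).trans ?_
    have h4 : (ρ ^ j)⁻¹ ≤ bet ρ ^ j := by
      rw [← inv_pow, ← bet_pow_four hρ, ← pow_mul]
      exact pow_le_pow_of_le_one hb.le (bet_lt_one hρ).le (by omega)
    rw [Nat.add_sub_cancel, div_eq_mul_inv]
    have : 0 ≤ bet ρ ^ j := by positivity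
    calc C * (ρ ^ j)⁻¹ ≤ C * bet ρ ^ j := by gcongr
      _ ≤ (1 + C) * bet ρ ^ j := by nlinarith

end Crest.Agent.Lib.Row160
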