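import Crest.Agent.Lib.Row160.StatD

/-!
Row 160, module M10: sums over the levels, `static_sum`, `static_gamma`.
-/

set_option autoImplicit false
set_option linter.unusedSectionVars false
open MeasureTheory Filter Topology

namespace Crest.Agent.Lib.Row160

lemma exp_neg_le_half {y : ℝ} (h0 : 0 ≤ y) (h1 : y ≤ 1) : Real.exp (-y) ≤ 1 - y / 2 := by
  have h2 : 1 + y ≤ Real.exp y := by linarith [Real.add_one_le_exp y]
  rw [Real.exp_neg]
  calc (Real.exp y)⁻¹ ≤ (1 + y)⁻¹ := inv_anti₀ (by linarith) h2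
    _ ≤ 1 - y / 2 := by
      rw [inv_le_iff_one_le_mul₀ (by linarith)]
      nlinarith

lemma pow_mul_exp_le (k : ℕ) {x : ℝ} (hx : 0 < x) (j : ℕ) :
    (j : ℝ) ^ k * Real.exp (-(x * j)) ≤ (k.factorial * (2 / x) ^ k) * Real.exp (-(x / 2)) ^ j := by
  have h1 : (x / 2 * j) ^ k / k.factorial ≤ Real.exp (x / 2 * j) :=
    Real.pow_div_factorial_le_exp _ (by positivity) k
  have hk : (0 : ℝ) < k.factorial := by positivity
  rw [div_le_iff₀ hk] at h1
  have h2 : (j : ℝ) ^ k ≤ k.factorial * (2 / x) ^ k * Real.exp (x / 2 * j) := by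
    have : (j : ℝ) ^ k = (2 / x) ^ k * (x / 2 * j) ^ k := by
      rw [← mul_pow]; congr 1; field_simp
    rw [this]
    calc (2 / x) ^ k * (x / 2 * j) ^ k ≤ (2 / x) ^ k * (Real.exp (x / 2 * j) * k.factorial) := by
          gcongr
      _ = _ := by ring
  calc (j : ℝ) ^ k * Real.exp (-(x * j)) ≤
      (k.factorial * (2 / x) ^ k * Real.exp (x / 2 * j)) * Real.exp (-(x * j)) := by gcongr
    _ = (k.factorial * (2 / x) ^ k) * (Real.exp (x / 2 * j) * Real.exp (-(x * j))) := by ring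
    _ = _ := by
      rw [← Real.exp_add, ← Real.exp_nat_mul]
      congr 2; ring

lemma summable_pow_exp (k : ℕ) {x : ℝ} (hx : 0 < x) :
    Summable (fun j : ℕ => (j : ℝ) ^ k * Real.exp (-(x * j))) := by
  refine Summable.of_nonneg_of_le (fun j => by positivity) (pow_mul_exp_le k hx) ?_
  refine Summable.mul_left _ (summable_geometric_of_lt_one (Real.exp_pos _).le ?_)
  rw [Real.exp_lt_one_iff]; linarith

lemma tsum_pow_exp_le (k : ℕ) {x : ℝ} (hx : 0 < x) (hx1 : x ≤ 1) :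
    ∑' j : ℕ, (j : ℝ) ^ k * Real.exp (-(x * j)) ≤ (4 * k.factorial * 2 ^ k) / x ^ (k + 1) := by
  have hlt : Real.exp (-(x / 2)) < 1 := by rw [Real.exp_lt_one_iff]; linarith
  calc ∑' j : ℕ, (j : ℝ) ^ k * Real.exp (-(x * j)) ≤
      ∑' j : ℕ, (k.factorial * (2 / x) ^ k) * Real.exp (-(x / 2)) ^ j :=
        (summable_pow_exp k hx).tsum_le_tsum (pow_mul_exp_le k hx)
          ((summable_geometric_of_lt_one (Real.exp_pos _).le hlt).mul_left _)
    _ = (k.factorial * (2 / x) ^ k) * (1 - Real.exp (-(x / 2)))⁻¹ := by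
        rw [tsum_mul_left, tsum_geometric_of_lt_one (Real.exp_pos _).le hlt]
    _ ≤ (k.factorial * (2 / x) ^ k) * (4 / x) := by
        gcongr
        have h2 := exp_neg_le_half (y := x / 2) (by linarith) (by linarith)
        have h3 : x / 4 ≤ 1 - Real.exp (-(x / 2)) := by linarith
        calc (1 - Real.exp (-(x / 2)))⁻¹ ≤ (x / 4)⁻¹ := inv_anti₀ (by linarith) h3
          _ = 4 / x := by rw [inv_div]
    _ = _ := by
        rw [div_pow, pow_succ x k]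
        field_simp

/-- `η = ρ^{-1/8}` -/
noncomputable def eta (ρ : ℝ) : ℝ := √(bet ρ)

variable {ρ : ℝ}

lemma eta_pos (hρ : 1 < ρ) : 0 < eta ρ := Real.sqrt_pos.2 (bet_pos hρ)

lemma eta_sq (hρ : 1 < ρ) : eta ρ ^ 2 = bet ρ := Real.sq_sqrt (bet_pos hρ).le

lemma eta_lt_one (hρ : 1 < ρ) : eta ρ < 1 := by
  unfold eta
  rw [Real.sqrt_lt' one_pos, one_pow]
  exact bet_lt_one hρ

/-- the small constant `c₂`. -/
noncomputable def cc (ρ : ℝ) : ℝ := min 1 (-(Real.log (eta ρ)) / 2)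

lemma cc_pos (hρ : 1 < ρ) : 0 < cc ρ := by
  have := Real.log_neg (eta_pos hρ) (eta_lt_one hρ)
  unfold cc
  apply lt_min one_pos
  linarith

lemma cc_le_one : cc ρ ≤ 1 := min_le_left _ _

lemma exp_two_cc_le (hρ : 1 < ρ) : Real.exp (2 * cc ρ) ≤ (eta ρ)⁻¹ := by
  have h1 : cc ρ ≤ -(Real.log (eta ρ)) / 2 := min_le_right _ _
  calc Real.exp (2 * cc ρ) ≤ Real.exp (-(Real.log (eta ρ))) := by
        apply Real.exp_le_exp.2; linarith
    _ = _ := by rw [Real.exp_neg, Real.exp_log (eta_pos hρ)]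

lemma exp_mul_bet_le (hρ : 1 < ρ) (j : ℕ) :
    Real.exp (2 * cc ρ * j) * bet ρ ^ (j - 1) ≤ (eta ρ ^ 2)⁻¹ * eta ρ ^ j := by
  have he := eta_pos hρ
  have he1 := eta_lt_one hρ
  have h1 : Real.exp (2 * cc ρ * j) ≤ (eta ρ)⁻¹ ^ j := by
    rw [mul_comm (2 * cc ρ), Real.exp_nat_mul]
    exact pow_le_pow_left₀ (Real.exp_pos _).le (exp_two_cc_le hρ) _
  rcases Nat.eq_zero_or_pos j with hj | hj
  · subst hj
    simp only [CharP.cast_eq_zero, mul_zero, Real.exp_zero, zero_le, Nat.sub_eq_zero_of_le,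
      pow_zero, mul_one]
    exact (one_le_inv₀ (by positivity)).2 (pow_le_one₀ he.le he1.le)
  · obtain ⟨i, rfl⟩ : ∃ i, j = i + 1 := ⟨j - 1, by omega⟩
    rw [Nat.add_sub_cancel]
    have hbp := bet_pos hρ
    calc _ ≤ (eta ρ)⁻¹ ^ (i + 1) * bet ρ ^ i :=
          mul_le_mul_of_nonneg_right h1 (by positivity)
      _ = (eta ρ ^ 2)⁻¹ * eta ρ ^ (i + 1) := by
          rw [← eta_sq hρ, inv_pow, ← pow_mul]
          field_simp
          ring

lemma summable_pow_eta (hρ : 1 < ρ) (k : ℕ) :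
    Summable (fun j : ℕ => (j : ℝ) ^ k * eta ρ ^ j) :=
  summable_pow_mul_geometric_of_norm_lt_one k (by
    rw [Real.norm_eq_abs, abs_of_pos (eta_pos hρ)]; exact eta_lt_one hρ)

/-- the constants `∑ j^k η^j`. -/
noncomputable def SE (ρ : ℝ) (k : ℕ) : ℝ := ∑' j : ℕ, (j : ℝ) ^ k * eta ρ ^ j

lemma SE_nonneg (hρ : 1 < ρ) (k : ℕ) : 0 ≤ SE ρ k :=
  tsum_nonneg fun j => by have := eta_pos hρ; positivity

variable {V : Type*} {G : SimpleGraph V} [G.LocallyFinite] {d : ℕ} {θ q r C : ℝ} {lam : ℕ}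
  {m : V → Lab V → ℝ}

/-- the weight split in integrated form. -/
lemma Sys.weight_int (hd : 3 ≤ d) (hr : r < 1) (hρ : 1 < ρ)
    (h : Sys G (d - 1) θ q r ρ C lam m) (hq : 0 < q) (hlam : 1 ≤ lam)
    (hlq : ((lam : ℝ) - 1) * q ≤ 2)
    {H : Lab V → ℝ} {CH : ℝ} (hHm : Measurable H) (hH0 : ∀ ω, 0 ≤ H ω) (hHC : ∀ ω, H ω ≤ CH)
    (p : ℕ → V) (j : ℕ) {S : ℝ} (hS0 : 0 ≤ S)
    (hS : 1 - (d - 1 : ℕ) * θ ^ 2 ≤ q →
      Real.exp (2 * cc ρ * j) * ∫ ω, H ω * kk θ (fun v => m v ω) p j ^ (2 * lam) ∂(labM V) ≤ S) :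
    ((d : ℝ) - 1) ^ j * ∫ ω, H ω * Kp θ (fun v => m v ω) p j ^ 2 ∂(labM V) ≤
      Real.exp (-(cc ρ * q * j)) * ∫ ω, H ω ∂(labM V) + S := by
  have h0 := h.th_pos
  have h1 := h.lt_one hd
  have hm1 := h.abs_le_one hr
  have hmm : ∀ v, Measurable (m v) := h.lim.2.1
  have hdc : ((d - 1 : ℕ) : ℝ) = (d : ℝ) - 1 := by
    rw [Nat.cast_sub (by omega)]; simp
  have hbpos : (0 : ℝ) ≤ (d : ℝ) - 1 := by
    rw [← hdc]; positivity
  have hcc := cc_pos hρ
  have hcc1 := cc_le_one (ρ := ρ)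
  have hHi : Integrable H (labM V) := Integrable.of_bound hHm.aestronglyMeasurable CH
    (Eventually.of_forall fun ω => by
      rw [Real.norm_eq_abs, abs_of_nonneg (hH0 _)]; exact hHC _)
  have hkm := measurable_kk θ hmm p j
  have hk0 : ∀ ω, 0 ≤ kk θ (fun v => m v ω) p j := fun ω => kk_nonneg h0 h1 (fun v => hm1 v ω) p j
  have hk1 : ∀ ω, kk θ (fun v => m v ω) p j ≤ 1 := fun ω => kk_le_one h0 h1 (fun v => hm1 v ω) p j
  have hCH : ∀ ω : Lab V, 0 ≤ CH := fun ω => (hH0 ω).trans (hHC ω)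
  have hint : ∀ n : ℕ, Integrable (fun ω => H ω * kk θ (fun v => m v ω) p j ^ n) (labM V) := by
    intro n
    refine Integrable.of_bound (C := CH) (hHm.mul (hkm.pow_const n)).aestronglyMeasurable
      (Eventually.of_forall fun ω => ?_)
    rw [Real.norm_eq_abs, abs_of_nonneg (mul_nonneg (hH0 _) (pow_nonneg (hk0 ω) _))]
    calc _ ≤ CH * 1 := mul_le_mul (hHC _) (pow_le_one₀ (hk0 ω) (hk1 ω)) (pow_nonneg (hk0 ω) _)
          (hCH ω)
      _ = CH := mul_one _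
  have e1 : ((d : ℝ) - 1) ^ j * ∫ ω, H ω * Kp θ (fun v => m v ω) p j ^ 2 ∂(labM V) =
      (((d : ℝ) - 1) * θ ^ 2) ^ j * ∫ ω, H ω * kk θ (fun v => m v ω) p j ^ 2 ∂(labM V) := by
    rw [mul_pow, mul_assoc, ← integral_const_mul ((θ ^ 2) ^ j)]
    congr 1
    refine integral_congr_ae (Eventually.of_forall fun ω => ?_)
    simp only [Kp_eq_kk h0]
    ring
  rw [e1]
  have hI2 : 0 ≤ ∫ ω, H ω * kk θ (fun v => m v ω) p j ^ 2 ∂(labM V) :=
    integral_nonneg fun ω => mul_nonneg (hH0 ω) (sq_nonneg _)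
  have hbt : ((d : ℝ) - 1) * θ ^ 2 < 1 := by rw [← hdc]; exact h.th_lt
  have hbt0 : 0 ≤ ((d : ℝ) - 1) * θ ^ 2 := by positivity
  by_cases hB : 1 - (d - 1 : ℕ) * θ ^ 2 ≤ q
  · calc (((d : ℝ) - 1) * θ ^ 2) ^ j * ∫ ω, H ω * kk θ (fun v => m v ω) p j ^ 2 ∂(labM V)
        ≤ 1 * ∫ ω, H ω * kk θ (fun v => m v ω) p j ^ 2 ∂(labM V) := by
          apply mul_le_mul_of_nonneg_right _ hI2
          exact pow_le_one₀ hbt0 hbt.le
      _ ≤ ∫ ω, (Real.exp (-(cc ρ * q * j)) * H ω + Real.exp (2 * cc ρ * j) *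
            (H ω * kk θ (fun v => m v ω) p j ^ (2 * lam))) ∂(labM V) := by
          rw [one_mul]
          refine integral_mono (hint 2) ((hHi.const_mul _).add ((hint _).const_mul _)) fun ω => ?_
          show H ω * kk θ (fun v => m v ω) p j ^ 2 ≤ _
          have h2 := weight_split (hk0 ω) (hk1 ω) hq hcc hlam hlq (j := j)
          rw [show -cc ρ * q * (j : ℝ) = -(cc ρ * q * j) by ring] at h2
          calc H ω * kk θ (fun v => m v ω) p j ^ 2 ≤ H ω * (Real.exp (-(cc ρ * q * j)) +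
                Real.exp (2 * cc ρ * j) * kk θ (fun v => m v ω) p j ^ (2 * lam)) :=
                mul_le_mul_of_nonneg_left h2 (hH0 ω)
            _ = _ := by ring
      _ = Real.exp (-(cc ρ * q * j)) * ∫ ω, H ω ∂(labM V) + Real.exp (2 * cc ρ * j) *
            ∫ ω, H ω * kk θ (fun v => m v ω) p j ^ (2 * lam) ∂(labM V) := by
          rw [integral_add (hHi.const_mul _) ((hint _).const_mul _), integral_const_mul,
            integral_const_mul]
      _ ≤ _ := by gcongr; exact hS hB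
  · push Not at hB
    rw [hdc] at hB
    have h3 : (((d : ℝ) - 1) * θ ^ 2) ^ j ≤ Real.exp (-(cc ρ * q * j)) := by
      have h4 : ((d : ℝ) - 1) * θ ^ 2 ≤ Real.exp (-(cc ρ * q)) := by
        have : 1 - q ≤ Real.exp (-q) := by linarith [Real.add_one_le_exp (-q)]
        have h5 : Real.exp (-q) ≤ Real.exp (-(cc ρ * q)) := by
          apply Real.exp_le_exp.2; nlinarith
        linarith
      calc _ ≤ Real.exp (-(cc ρ * q)) ^ j := pow_le_pow_left₀ hbt0 h4 _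
        _ = _ := by rw [← Real.exp_nat_mul]; congr 1; ring
    have h6 : ∫ ω, H ω * kk θ (fun v => m v ω) p j ^ 2 ∂(labM V) ≤ ∫ ω, H ω ∂(labM V) := by
      refine integral_mono (hint 2) hHi fun ω => ?_
      calc H ω * kk θ (fun v => m v ω) p j ^ 2 ≤ H ω * 1 :=
            mul_le_mul_of_nonneg_left (pow_le_one₀ (hk0 ω) (hk1 ω)) (hH0 ω)
        _ = H ω := mul_one _
    have hH : 0 ≤ ∫ ω, H ω ∂(labM V) := integral_nonneg hH0
    calc _ ≤ Real.exp (-(cc ρ * q * j)) * ∫ ω, H ω ∂(labM V) :=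
          mul_le_mul h3 h6 hI2 (Real.exp_pos _).le
      _ ≤ _ := by linarith

/-- comparison of real series with nonnegative terms. -/
lemma tsum_le_of_le {f g : ℕ → ℝ} (hf : ∀ j, 0 ≤ f j) (hfg : ∀ j, f j ≤ g j) (hg : Summable g) :
    ∑' j, f j ≤ ∑' j, g j :=
  (Summable.of_nonneg_of_le hf hfg hg).tsum_le_tsum hfg hg

/-- static estimate 0. -/
theorem static_sum (hT : G.IsTree) (hd : 3 ≤ d) (hreg : G.IsRegularOfDegree d)
    {r ρ C : ℝ} (hr : r < 1) (hρ : 1 < ρ) (hC : 0 < C) : ∃ C' : ℝ, 0 < C' ∧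
    ∀ (θ q : ℝ) (lam : ℕ) (m : V → Lab V → ℝ) (p : ℕ → V), 0 < q → q ≤ 1 → 1 ≤ lam →
    ((lam : ℝ) - 1) * q ≤ 2 → Sys G (d - 1) θ q r ρ C lam m → (∀ k, IsGeo G k p) →
    ∑' j : ℕ, 2 * ((d : ℝ) - 1) ^ j *
      ∫ ω, Kp θ (fun v => m v ω) p j ^ 2 ∂(labM V) ≤ C' / q := by
  have hcc := cc_pos hρ
  have he := eta_pos hρ
  have hSE := SE_nonneg hρ 0
  refine ⟨8 / cc ρ + 2 * (1 + C) * (eta ρ ^ 2)⁻¹ * SE ρ 0, by positivity, ?_⟩
  intro θ q lam m p hq hq1 hlam hlq h hp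
  have hdc : (0 : ℝ) ≤ (d : ℝ) - 1 := by
    have : (3 : ℝ) ≤ d := by exact_mod_cast hd
    linarith
  have hx : 0 < cc ρ * q := by positivity
  have hx1 : cc ρ * q ≤ 1 := by nlinarith [cc_le_one (ρ := ρ)]
  have hterm : ∀ j : ℕ, 2 * ((d : ℝ) - 1) ^ j * ∫ ω, Kp θ (fun v => m v ω) p j ^ 2 ∂(labM V) ≤
      2 * ((j : ℝ) ^ 0 * Real.exp (-(cc ρ * q * j))) +
        2 * (1 + C) * (eta ρ ^ 2)⁻¹ * ((j : ℝ) ^ 0 * eta ρ ^ j) := by
    intro j
    have h2 := h.weight_int hd hr hρ hq hlam hlq (H := fun _ => 1) (CH := 1) measurable_const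
      (fun _ => zero_le_one) (fun _ => le_refl _) p j
      (S := (1 + C) * ((eta ρ ^ 2)⁻¹ * eta ρ ^ j)) (by positivity) (by
        intro hB
        simp only [one_mul]
        calc _ ≤ Real.exp (2 * cc ρ * j) * ((1 + C) * bet ρ ^ (j - 1)) := by
              gcongr
              exact h.far_none hT hd hreg hr hρ hC.le hB (hp j)
          _ = (1 + C) * (Real.exp (2 * cc ρ * j) * bet ρ ^ (j - 1)) := by ring
          _ ≤ _ := mul_le_mul_of_nonneg_left (exp_mul_bet_le hρ j) (by linarith))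
    simp only [one_mul, integral_const, probReal_univ, smul_eq_mul, mul_one] at h2
    rw [pow_zero, one_mul, one_mul]
    calc _ = 2 * (((d : ℝ) - 1) ^ j * ∫ ω, Kp θ (fun v => m v ω) p j ^ 2 ∂(labM V)) := by ring
      _ ≤ 2 * (Real.exp (-(cc ρ * q * j)) + (1 + C) * ((eta ρ ^ 2)⁻¹ * eta ρ ^ j)) := by
        gcongr
      _ = _ := by ring
  have hs1 := (summable_pow_exp 0 hx).mul_left 2
  have hs2 := (summable_pow_eta hρ 0).mul_left (2 * (1 + C) * (eta ρ ^ 2)⁻¹)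
  refine (tsum_le_of_le (fun j => ?_) hterm (hs1.add hs2)).trans ?_
  · have : 0 ≤ ∫ ω, Kp θ (fun v => m v ω) p j ^ 2 ∂(labM V) := integral_nonneg fun ω => sq_nonneg _
    positivity
  rw [hs1.tsum_add hs2, tsum_mul_left, tsum_mul_left]
  have h3 := tsum_pow_exp_le 0 hx hx1
  have h4 : ∑' j : ℕ, (j : ℝ) ^ 0 * eta ρ ^ j = SE ρ 0 := rfl
  rw [h4]
  have h5 : 2 * ∑' j : ℕ, (j : ℝ) ^ 0 * Real.exp (-(cc ρ * q * j)) ≤ 8 / cc ρ / q := by
    calc _ ≤ 2 * ((4 * (Nat.factorial 0) * 2 ^ 0) / (cc ρ * q) ^ (0 + 1)) := by gcongr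
      _ = _ := by simp; field_simp; ring
  have h6 : 2 * (1 + C) * (eta ρ ^ 2)⁻¹ * SE ρ 0 ≤ 2 * (1 + C) * (eta ρ ^ 2)⁻¹ * SE ρ 0 / q := by
    rw [le_div_iff₀ hq]
    have : 0 ≤ 2 * (1 + C) * (eta ρ ^ 2)⁻¹ * SE ρ 0 := by positivity
    nlinarith
  rw [add_div]
  linarith

end Crest.Agent.Lib.Row160
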