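import Crest.Agent.Lib.Row160.StatE

/-!
Row 160, module M10: logarithmic differences, covariance sums, `static_gamma`.
-/

set_option autoImplicit false
set_option linter.unusedSectionVars false
open MeasureTheory Filter Topology

namespace Crest.Agent.Lib.Row160

/-! ### (A) logarithmic comparison -/

lemma sub_le_mul_log {x y : ℝ} (hy : 0 < y) (h : y ≤ x) :
    x - y ≤ x * (Real.log x - Real.log y) := by
  have hx : 0 < x := hy.trans_le h
  have h1 : Real.log (y / x) ≤ y / x - 1 := Real.log_le_sub_one_of_pos (by positivity)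
  rw [Real.log_div hy.ne' hx.ne'] at h1
  have h2 : 1 - y / x ≤ Real.log x - Real.log y := by linarith
  calc x - y = x * (1 - y / x) := by field_simp
    _ ≤ _ := by gcongr

lemma sq_sub_le_aux {x y : ℝ} (hy : 0 < y) (h : y ≤ x) :
    (x - y) ^ 2 ≤ min 1 ((Real.log x - Real.log y) ^ 2) * (x ^ 2 + y ^ 2) := by
  have hx : 0 < x := hy.trans_le h
  have h1 := sub_le_mul_log hy h
  have h0 : 0 ≤ x - y := by linarith
  rcases le_total 1 ((Real.log x - Real.log y) ^ 2) with hc | hc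
  · rw [min_eq_left hc, one_mul]
    nlinarith [mul_pos hx hy]
  · rw [min_eq_right hc]
    calc (x - y) ^ 2 ≤ (x * (Real.log x - Real.log y)) ^ 2 := by gcongr
      _ = (Real.log x - Real.log y) ^ 2 * x ^ 2 := by ring
      _ ≤ _ := by
        apply mul_le_mul_of_nonneg_left _ (sq_nonneg _)
        nlinarith [sq_nonneg y]

lemma sq_sub_le_log {x y : ℝ} (hx : 0 < x) (hy : 0 < y) :
    (x - y) ^ 2 ≤ min 1 ((Real.log x - Real.log y) ^ 2) * (x ^ 2 + y ^ 2) := by
  rcases le_total y x with h | h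
  · exact sq_sub_le_aux hy h
  · have := sq_sub_le_aux hx h
    calc (x - y) ^ 2 = (y - x) ^ 2 := by ring
      _ ≤ _ := this
      _ = _ := by
        rw [show (Real.log y - Real.log x) ^ 2 = (Real.log x - Real.log y) ^ 2 by ring,
          add_comm]

lemma min_one_add_sq_le (a b c : ℝ) :
    min 1 ((a + b + c) ^ 2) ≤ 3 * a ^ 2 + 3 * b ^ 2 + 3 * min 1 (c ^ 2) := by
  rcases le_total 1 (c ^ 2) with h | h
  · rw [min_eq_left h]
    calc min 1 ((a + b + c) ^ 2) ≤ 1 := min_le_left _ _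
      _ ≤ _ := by nlinarith [sq_nonneg a, sq_nonneg b]
  · rw [min_eq_right h]
    calc min 1 ((a + b + c) ^ 2) ≤ (a + b + c) ^ 2 := min_le_right _ _
      _ ≤ _ := by nlinarith [sq_nonneg (a - b), sq_nonneg (b - c), sq_nonneg (a - c)]

lemma abs_log_sub_le {a b c : ℝ} (hc : 0 < c) (ha : c ≤ a) (hb : c ≤ b) :
    |Real.log a - Real.log b| ≤ |a - b| / c := by
  have key : ∀ x y : ℝ, c ≤ x → c ≤ y → x ≤ y → Real.log y - Real.log x ≤ (y - x) / c := by
    intro x y hx hy hxy
    have hx0 : 0 < x := by linarith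
    have hy0 : 0 < y := by linarith
    have h1 : Real.log (y / x) ≤ y / x - 1 := Real.log_le_sub_one_of_pos (by positivity)
    rw [Real.log_div hy0.ne' hx0.ne'] at h1
    calc Real.log y - Real.log x ≤ y / x - 1 := h1
      _ = (y - x) / x := by field_simp
      _ ≤ (y - x) / c := by
        apply div_le_div_of_nonneg_left (by linarith) hc hx
  rcases le_total a b with h | h
  · have h1 := key a b ha hb h
    have h2 : Real.log a ≤ Real.log b := Real.log_le_log (by linarith) h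
    rw [abs_of_nonpos (by linarith), abs_of_nonpos (by linarith)]
    have : -(a - b) = b - a := by ring
    rw [this]; linarith
  · have h1 := key b a hb ha h
    have h2 : Real.log b ≤ Real.log a := Real.log_le_log (by linarith) h
    rw [abs_of_nonneg (by linarith), abs_of_nonneg (by linarith)]
    exact h1

variable {V : Type*} {G : SimpleGraph V}

/-! ### (B) decomposition of `log K` -/

lemma log_Kp {θ r : ℝ} (h0 : 0 < θ) (h1 : θ < 1) (hr : r < 1) {m : V → ℝ}
    (hm : ∀ v, |m v| ≤ r) (p : ℕ → V) (j : ℕ) :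
    0 < Kp θ m p j ∧ Real.log (Kp θ m p j) = Real.log (1 - m (p 0) ^ 2) +
      ∑ i ∈ Finset.range j, ell θ (m (p i)) (m (p (i + 1))) + j * Real.log θ := by
  have hm1 : ∀ v, |m v| < 1 := fun v => (hm v).trans_lt hr
  have hs : 0 < 1 - m (p 0) ^ 2 := by
    have := hm1 (p 0)
    have h2 := sq_abs (m (p 0))
    nlinarith [abs_nonneg (m (p 0))]
  have hG : ∀ i, 0 < Ge θ (m (p i)) (m (p (i + 1))) := fun i => Ge_pos h0 h1 (hm1 _) (hm1 _)
  have hpos : 0 < ∏ i ∈ Finset.range j, Ge θ (m (p i)) (m (p (i + 1))) :=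
    Finset.prod_pos fun i _ => hG i
  refine ⟨mul_pos hs hpos, ?_⟩
  unfold Kp
  rw [Real.log_mul hs.ne' hpos.ne', Real.log_prod (fun i _ => (hG i).ne'), add_assoc]
  congr 1
  have : ∀ i ∈ Finset.range j, Real.log (Ge θ (m (p i)) (m (p (i + 1)))) =
      ell θ (m (p i)) (m (p (i + 1))) + Real.log θ := by
    intro i _
    unfold ell
    rw [Real.log_div (hG i).ne' h0.ne']; ring
  rw [Finset.sum_congr rfl this, Finset.sum_add_distrib, Finset.sum_const, Finset.card_range,
    nsmul_eq_mul]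

/-! ### (C) covariance sums -/

section
variable [G.LocallyFinite] {d : ℕ}

/-- `∑_n (n+2) s^n`. -/
noncomputable def TT (s : ℝ) : ℝ := ∑' n : ℕ, ((n : ℝ) + 2) * s ^ n

lemma summable_TT {s : ℝ} (hs : 0 ≤ s) (hs1 : s < 1) :
    Summable (fun n : ℕ => ((n : ℝ) + 2) * s ^ n) := by
  have h1 := summable_pow_mul_geometric_of_norm_lt_one 1 (r := s) (by
    rw [Real.norm_eq_abs, abs_of_nonneg hs]; exact hs1)
  have h2 := (summable_geometric_of_lt_one hs hs1).mul_left 2
  refine (h1.add h2).congr fun n => ?_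
  simp; ring

lemma sum_TT_le {s : ℝ} (hs : 0 ≤ s) (hs1 : s < 1) (i j : ℕ) :
    ∑ l ∈ Finset.range j, (if i ≤ l then (((l - i : ℕ) : ℝ) + 2) * s ^ (l - i) else
      (((i - l : ℕ) : ℝ) + 2) * s ^ (i - l)) ≤ 2 * TT s := by
  have hf0 : ∀ n : ℕ, 0 ≤ ((n : ℝ) + 2) * s ^ n := fun n => by positivity
  have hsum := summable_TT hs hs1
  rw [Finset.sum_ite]
  have h1 : ∑ l ∈ (Finset.range j).filter (fun l => i ≤ l),
      (((l - i : ℕ) : ℝ) + 2) * s ^ (l - i) ≤ TT s := by
    have hinj : Set.InjOn (fun l : ℕ => l - i)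
        (((Finset.range j).filter (fun l => i ≤ l) : Finset ℕ) : Set ℕ) := by
      intro a ha b hb hab
      simp only [Finset.coe_filter, Set.mem_ofPred_eq] at ha hb hab
      omega
    have := Finset.sum_image (f := fun n : ℕ => ((n : ℝ) + 2) * s ^ n) hinj
    rw [← this]
    exact hsum.sum_le_tsum _ fun n _ => hf0 n
  have h2 : ∑ l ∈ (Finset.range j).filter (fun l => ¬ i ≤ l),
      (((i - l : ℕ) : ℝ) + 2) * s ^ (i - l) ≤ TT s := by
    have hinj : Set.InjOn (fun l : ℕ => i - l)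
        (((Finset.range j).filter (fun l => ¬ i ≤ l) : Finset ℕ) : Set ℕ) := by
      intro a ha b hb hab
      simp only [Finset.coe_filter, Set.mem_ofPred_eq] at ha hb hab
      omega
    have := Finset.sum_image (f := fun n : ℕ => ((n : ℝ) + 2) * s ^ n) hinj
    rw [← this]
    exact hsum.sum_le_tsum _ fun n _ => hf0 n
  linarith

/-- variance of sums along a geodesic. -/
lemma sum_sq_le (hT : G.IsTree) (hd : 3 ≤ d) (hreg : G.IsRegularOfDegree d) :
    ∃ C₀ : ℝ, 0 < C₀ ∧ ∀ {Y : V → V → Lab V → ℝ} (_ : BlockLim2 G Y) {p : ℕ → V} {j : ℕ}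
      (_ : IsGeo G (j + 1) p),
      ∫ ω, (∑ i ∈ Finset.range j, Y (p i) (p (i + 1)) ω) ^ 2 ∂(labM V) ≤
        (j : ℝ) ^ 2 * (∫ ω, Y (p 0) (p 1) ω ∂(labM V)) ^ 2 +
          C₀ * j * ∫ ω, Y (p 0) (p 1) ω ^ 2 ∂(labM V) := by
  obtain ⟨C, hC, hcov⟩ := cov_decay hT hd hreg
  set s : ℝ := (√((d : ℝ) - 1))⁻¹ with hs
  have hd2 : (2 : ℝ) ≤ (d : ℝ) - 1 := by
    have : (3 : ℝ) ≤ d := by exact_mod_cast hd
    linarith
  have hs0 : 0 ≤ s := by positivity
  have hs1 : s < 1 := by
    apply inv_lt_one_of_one_lt₀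
    rw [Real.lt_sqrt (by norm_num)]
    linarith
  have hTT : 0 ≤ TT s := tsum_nonneg fun n => by positivity
  refine ⟨2 * C * TT s + 1, by positivity, ?_⟩
  intro Y hY p j hp
  obtain ⟨hYE, hYm, ⟨CY, hCY⟩, _⟩ := id hY
  set b1 := ∫ ω, Y (p 0) (p 1) ω ∂(labM V) with hb1
  set y2 := ∫ ω, Y (p 0) (p 1) ω ^ 2 ∂(labM V) with hy2
  have hy20 : 0 ≤ y2 := integral_nonneg fun ω => sq_nonneg _
  have hint : ∀ u v u' v', Integrable (fun ω => Y u v ω * Y u' v' ω) (labM V) := by
    intro u v u' v'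
    refine Integrable.of_bound (C := CY * CY) ((hYm _ _).mul (hYm _ _)).aestronglyMeasurable
      (Eventually.of_forall fun ω => ?_)
    rw [Real.norm_eq_abs, abs_mul]
    exact mul_le_mul (hCY _ _ _) (hCY _ _ _) (abs_nonneg _) ((abs_nonneg _).trans (hCY u v ω))
  -- one covariance
  have hone : ∀ i l : ℕ, i ≤ l → l + 1 ≤ j →
      ∫ ω, Y (p i) (p (i + 1)) ω * Y (p l) (p (l + 1)) ω ∂(labM V) ≤
        b1 ^ 2 + C * ((((l - i : ℕ) : ℝ) + 2) * s ^ (l - i)) * y2 := by
    intro i l hil hl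
    have hgeo : IsGeo G (l - i + 1) (fun n => p (i + n)) := geo_shift hp (by omega)
    have h1 := hcov hY hgeo
    simp only [add_zero] at h1
    rw [show i + (l - i) = l by omega, show i + (l - i + 1) = l + 1 by omega] at h1
    have e1 : ∫ ω, Y (p i) (p (i + 1)) ω ∂(labM V) = b1 :=
      hom_edge hT hd hreg hYE hYm ⟨CY, hCY⟩ hp (by omega)
    have e2 : ∫ ω, Y (p i) (p (i + 1)) ω ^ 2 ∂(labM V) = y2 :=
      hom_edge hT hd hreg (Fe := fun u v ω => Y u v ω ^ 2) (fun g u v ω => by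
        show Y (g u) (g v) ω ^ 2 = _; rw [hYE g u v ω]) (fun u v => (hYm u v).pow_const 2)
        ⟨CY ^ 2, fun u v ω => by
          rw [abs_pow]; exact pow_le_pow_left₀ (abs_nonneg _) (hCY _ _ _) _⟩ hp (by omega)
    rw [e1, e2] at h1
    have h2 := (abs_le.1 h1).2
    calc _ ≤ b1 ^ 2 + C * (((l - i : ℕ) : ℝ) + 2) * s ^ (l - i) * y2 := by linarith
      _ = _ := by ring
  have hall : ∀ i ∈ Finset.range j, ∀ l ∈ Finset.range j,
      ∫ ω, Y (p i) (p (i + 1)) ω * Y (p l) (p (l + 1)) ω ∂(labM V) ≤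
        b1 ^ 2 + C * y2 * (if i ≤ l then (((l - i : ℕ) : ℝ) + 2) * s ^ (l - i) else
      (((i - l : ℕ) : ℝ) + 2) * s ^ (i - l)) := by
    intro i hi l hl
    rw [Finset.mem_range] at hi hl
    by_cases h : i ≤ l
    · rw [if_pos h]
      refine (hone i l h (by omega)).trans (le_of_eq (by ring))
    · rw [if_neg h]
      have h2 := hone l i (by omega) (by omega)
      rw [integral_congr_ae (Eventually.of_forall fun ω =>
        mul_comm (Y (p l) (p (l + 1)) ω) (Y (p i) (p (i + 1)) ω))] at h2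
      refine h2.trans (le_of_eq (by ring))
  calc ∫ ω, (∑ i ∈ Finset.range j, Y (p i) (p (i + 1)) ω) ^ 2 ∂(labM V)
      = ∑ i ∈ Finset.range j, ∑ l ∈ Finset.range j,
          ∫ ω, Y (p i) (p (i + 1)) ω * Y (p l) (p (l + 1)) ω ∂(labM V) := by
        have : ∀ ω, (∑ i ∈ Finset.range j, Y (p i) (p (i + 1)) ω) ^ 2 =
            ∑ i ∈ Finset.range j, ∑ l ∈ Finset.range j,
              Y (p i) (p (i + 1)) ω * Y (p l) (p (l + 1)) ω := by
          intro ω; rw [sq, Finset.sum_mul_sum]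
        simp only [this]
        rw [integral_finsetSum _ fun i _ => integrable_finsetSum _ fun l _ => hint _ _ _ _]
        refine Finset.sum_congr rfl fun i _ => ?_
        rw [integral_finsetSum _ fun l _ => hint _ _ _ _]
    _ ≤ ∑ i ∈ Finset.range j, ∑ l ∈ Finset.range j,
          (b1 ^ 2 + C * y2 * (if i ≤ l then (((l - i : ℕ) : ℝ) + 2) * s ^ (l - i) else
      (((i - l : ℕ) : ℝ) + 2) * s ^ (i - l))) :=
        Finset.sum_le_sum fun i hi => Finset.sum_le_sum fun l hl => hall i hi l hl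
    _ ≤ ∑ i ∈ Finset.range j, ((j : ℝ) * b1 ^ 2 + C * y2 * (2 * TT s)) := by
        refine Finset.sum_le_sum fun i _ => ?_
        rw [Finset.sum_add_distrib, Finset.sum_const, Finset.card_range, nsmul_eq_mul,
          ← Finset.mul_sum]
        have := sum_TT_le hs0 hs1 i j
        gcongr
    _ = (j : ℝ) ^ 2 * b1 ^ 2 + (2 * C * TT s) * j * y2 := by
        rw [Finset.sum_const, Finset.card_range, nsmul_eq_mul]; ring
    _ ≤ _ := by
        have : 0 ≤ (j : ℝ) * y2 := by positivity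
        nlinarith

end

end Crest.Agent.Lib.Row160
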