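import Crest.Agent.Lib.Row160.StatF

/-!
Row 160, module M10: the log-difference of two systems is a limit of block factors; `static_gamma`.
-/

set_option autoImplicit false
set_option linter.unusedSectionVars false
open MeasureTheory Filter Topology

namespace Crest.Agent.Lib.Row160

lemma measurable_ell (θ : ℝ) : Measurable (fun p : ℝ × ℝ => ell θ p.1 p.2) :=
  Real.measurable_log.comp ((measurable_Ge θ).div_const _)

lemma measurable_ell' (θ : ℝ) {Ω : Type*} [MeasurableSpace Ω] {f g : Ω → ℝ} (hf : Measurable f)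
    (hg : Measurable g) : Measurable (fun ω => ell θ (f ω) (g ω)) := by
  have h : (fun ω => ell θ (f ω) (g ω)) = (fun p : ℝ × ℝ => ell θ p.1 p.2) ∘
      (fun ω => (f ω, g ω)) := rfl
  rw [h]
  exact (measurable_ell θ).comp (hf.prodMk hg)

/-- clipping to `[-r, r]`. -/
noncomputable def clip (r x : ℝ) : ℝ := max (-r) (min x r)

lemma abs_clip_le {r : ℝ} (hr : 0 ≤ r) (x : ℝ) : |clip r x| ≤ r := by
  unfold clip
  rw [abs_le]
  exact ⟨le_max_left _ _, max_le (by linarith) (min_le_right _ _)⟩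

lemma clip_eq {r x : ℝ} (h : |x| ≤ r) : clip r x = x := by
  unfold clip
  rw [abs_le] at h
  rw [min_eq_left h.2, max_eq_right h.1]

lemma abs_clip_sub_le {r x y : ℝ} : |clip r x - clip r y| ≤ |x - y| := by
  unfold clip
  calc |max (-r) (min x r) - max (-r) (min y r)| ≤ |min x r - min y r| := by
        have := abs_max_sub_max_le_abs (min x r) (min y r) (-r)
        rw [max_comm, max_comm (-r)]
        exact this
    _ ≤ |x - y| := by
        have := abs_min_sub_min_le_max x r y r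
        simpa using this

lemma measurable_clip (r : ℝ) : Measurable (clip r) := by
  unfold clip
  exact measurable_const.max (measurable_id.min measurable_const)

variable {V : Type*} {G : SimpleGraph V}

lemma blockLim2_ell_aux {θ₀ θ₁ r : ℝ} (h0 : 0 < θ₀) (h1 : θ₁ < 1) (hr0 : 0 ≤ r) (hr : r < 1)
    {θ : ℝ} (hθ0 : θ₀ ≤ θ) (hθ1 : θ ≤ θ₁) {m : V → Lab V → ℝ} (hm : BlockLim1 G m)
    (hb : ∀ v ω, |m v ω| ≤ r) :
    BlockLim2 G (fun u v ω => ell θ (m u ω) (m v ω)) := by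
  obtain ⟨hE, hmm, _, happ⟩ := hm
  obtain ⟨C, hC, hlip⟩ := ell_lip h0 h1 hr
  obtain ⟨C', hC', hbound⟩ := ell_bound h0 h1 hr
  have hsq : ∀ x : ℝ, |x| ≤ r → x ^ 2 ≤ 1 := by
    intro x hx
    have := sq_abs x
    nlinarith [abs_nonneg x]
  have hbd : ∀ x y : ℝ, |x| ≤ r → |y| ≤ r → |ell θ x y| ≤ 2 * C' := by
    intro x y hx hy
    have := hbound θ x y hθ0 hθ1 hx hy
    nlinarith [hsq x hx, hsq y hy]
  refine ⟨?_, ?_, ⟨2 * C', fun u v ω => hbd _ _ (hb _ _) (hb _ _)⟩, ?_⟩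
  · intro g u v ω
    show ell θ (m (g u) ω) (m (g v) ω) = ell θ (m u (act g ω)) (m v (act g ω))
    rw [hE g u, hE g v]
  · intro u v
    exact measurable_ell' θ (hmm u) (hmm v)
  · intro ε hε
    obtain ⟨m', hE', hmm', ⟨Cm, hCm⟩, hfin, hclose⟩ := happ (ε / (64 * C ^ 2 + 1)) (by positivity)
    have hcl : ∀ u ω, |clip r (m' u ω)| ≤ r := fun u ω => abs_clip_le hr0 _
    refine ⟨fun u v ω => ell θ (clip r (m' u ω)) (clip r (m' v ω)), ?_, ?_,
      ⟨2 * C', fun u v ω => hbd _ _ (hcl _ _) (hcl _ _)⟩, ?_, ?_⟩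
    · intro g u v ω
      show ell θ (clip r (m' (g u) ω)) (clip r (m' (g v) ω)) =
        ell θ (clip r (m' u (act g ω))) (clip r (m' v (act g ω)))
      rw [hE' g u, hE' g v]
    · intro u v
      exact measurable_ell' θ ((measurable_clip r).comp (hmm' u))
        ((measurable_clip r).comp (hmm' v))
    · intro u v
      obtain ⟨B1, hB1⟩ := hfin u
      obtain ⟨B2, hB2⟩ := hfin v
      classical
      refine ⟨B1 ∪ B2, fun ω ω' h => ?_⟩
      show ell θ (clip r (m' u ω)) (clip r (m' v ω)) = ell θ (clip r (m' u ω')) (clip r (m' v ω'))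
      rw [hB1 ω ω' fun q hq => h q (Finset.mem_union_left _ hq),
        hB2 ω ω' fun q hq => h q (Finset.mem_union_right _ hq)]
    · intro u v _
      have hpt : ∀ ω, (ell θ (m u ω) (m v ω) - ell θ (clip r (m' u ω)) (clip r (m' v ω))) ^ 2 ≤
          32 * C ^ 2 * ((m u ω - m' u ω) ^ 2 + (m v ω - m' v ω) ^ 2) := by
        intro ω
        have h2 := hlip θ (m u ω) (m v ω) (clip r (m' u ω)) (clip r (m' v ω)) hθ0 hθ1
          (hb _ _) (hb _ _) (hcl _ _) (hcl _ _)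
        have h3 : |m u ω - clip r (m' u ω)| ≤ |m u ω - m' u ω| := by
          conv_lhs => rw [← clip_eq (hb u ω)]
          exact abs_clip_sub_le
        have h4 : |m v ω - clip r (m' v ω)| ≤ |m v ω - m' v ω| := by
          conv_lhs => rw [← clip_eq (hb v ω)]
          exact abs_clip_sub_le
        have h5 : |m u ω| + |m v ω| + |clip r (m' u ω)| + |clip r (m' v ω)| ≤ 4 := by
          have := hb u ω; have := hb v ω; have := hcl u ω; have := hcl v ω
          linarith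
        have h6 : |ell θ (m u ω) (m v ω) - ell θ (clip r (m' u ω)) (clip r (m' v ω))| ≤
            C * (|m u ω - m' u ω| + |m v ω - m' v ω|) * 4 := by
          refine h2.trans ?_
          gcongr
        calc _ = |ell θ (m u ω) (m v ω) - ell θ (clip r (m' u ω)) (clip r (m' v ω))| ^ 2 :=
              (sq_abs _).symm
          _ ≤ (C * (|m u ω - m' u ω| + |m v ω - m' v ω|) * 4) ^ 2 := by gcongr
          _ = 16 * C ^ 2 * (|m u ω - m' u ω| + |m v ω - m' v ω|) ^ 2 := by ring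
          _ ≤ 16 * C ^ 2 * (2 * (|m u ω - m' u ω| ^ 2 + |m v ω - m' v ω| ^ 2)) := by
              gcongr
              nlinarith [sq_nonneg (|m u ω - m' u ω| - |m v ω - m' v ω|)]
          _ = _ := by rw [sq_abs, sq_abs]; ring
      have hi : ∀ w, Integrable (fun ω => (m w ω - m' w ω) ^ 2) (labM V) := by
        intro w
        refine Integrable.of_bound (C := (1 + |Cm|) ^ 2)
          (((hmm w).sub (hmm' w)).pow_const 2).aestronglyMeasurable
          (Eventually.of_forall fun ω => ?_)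
        rw [Real.norm_eq_abs, abs_pow]
        refine pow_le_pow_left₀ (abs_nonneg _) ?_ _
        have h2 := abs_sub (m w ω) (m' w ω)
        have h3 := hb w ω
        have h4 := (hCm w ω).trans (le_abs_self _)
        linarith
      calc _ ≤ ∫ ω, 32 * C ^ 2 * ((m u ω - m' u ω) ^ 2 + (m v ω - m' v ω) ^ 2) ∂(labM V) :=
            integral_mono_of_nonneg (Eventually.of_forall fun ω => sq_nonneg _)
              (((hi u).add (hi v)).const_mul _) (Eventually.of_forall hpt)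
        _ = 32 * C ^ 2 * (∫ ω, (m u ω - m' u ω) ^ 2 ∂(labM V) +
              ∫ ω, (m v ω - m' v ω) ^ 2 ∂(labM V)) := by
            rw [integral_const_mul, integral_add (hi u) (hi v)]
        _ ≤ 32 * C ^ 2 * (ε / (64 * C ^ 2 + 1) + ε / (64 * C ^ 2 + 1)) := by
            gcongr
            · exact hclose u
            · exact hclose v
        _ = (64 * C ^ 2 / (64 * C ^ 2 + 1)) * ε := by ring
        _ ≤ 1 * ε := by
            gcongr
            rw [div_le_one (by positivity)]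
            linarith
        _ = ε := one_mul _

lemma BlockLim2.sub {Y Y' : V → V → Lab V → ℝ} (h : BlockLim2 G Y) (h' : BlockLim2 G Y') :
    BlockLim2 G (fun u v ω => Y u v ω - Y' u v ω) := by
  obtain ⟨hE, hm, ⟨C, hC⟩, happ⟩ := h
  obtain ⟨hE', hm', ⟨C', hC'⟩, happ'⟩ := h'
  refine ⟨?_, fun u v => (hm u v).sub (hm' u v), ⟨C + C', fun u v ω => ?_⟩, ?_⟩
  · intro g u v ω
    show Y (g u) (g v) ω - Y' (g u) (g v) ω = _
    rw [hE, hE']
  · exact (abs_sub _ _).trans (add_le_add (hC _ _ _) (hC' _ _ _))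
  · intro ε hε
    obtain ⟨Z, hZE, hZm, ⟨CZ, hCZ⟩, hZf, hZ⟩ := happ (ε / 4) (by positivity)
    obtain ⟨Z', hZE', hZm', ⟨CZ', hCZ'⟩, hZf', hZ'⟩ := happ' (ε / 4) (by positivity)
    refine ⟨fun u v ω => Z u v ω - Z' u v ω, ?_, fun u v => (hZm u v).sub (hZm' u v),
      ⟨CZ + CZ', fun u v ω => ?_⟩, ?_, ?_⟩
    · intro g u v ω
      show Z (g u) (g v) ω - Z' (g u) (g v) ω = _
      rw [hZE, hZE']
    · exact (abs_sub _ _).trans (add_le_add (hCZ _ _ _) (hCZ' _ _ _))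
    · intro u v
      obtain ⟨B1, hB1⟩ := hZf u v
      obtain ⟨B2, hB2⟩ := hZf' u v
      classical
      refine ⟨B1 ∪ B2, fun ω ω' h => ?_⟩
      show Z u v ω - Z' u v ω = Z u v ω' - Z' u v ω'
      rw [hB1 ω ω' fun q hq => h q (Finset.mem_union_left _ hq),
        hB2 ω ω' fun q hq => h q (Finset.mem_union_right _ hq)]
    · intro u v huv
      have hi1 : Integrable (fun ω => (Y u v ω - Z u v ω) ^ 2) (labM V) := by
        refine Integrable.of_bound (C := (C + CZ) ^ 2)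
          (((hm u v).sub (hZm u v)).pow_const 2).aestronglyMeasurable
          (Eventually.of_forall fun ω => ?_)
        rw [Real.norm_eq_abs, abs_pow]
        exact pow_le_pow_left₀ (abs_nonneg _)
          ((abs_sub _ _).trans (add_le_add (hC _ _ _) (hCZ _ _ _))) _
      have hi2 : Integrable (fun ω => (Y' u v ω - Z' u v ω) ^ 2) (labM V) := by
        refine Integrable.of_bound (C := (C' + CZ') ^ 2)
          (((hm' u v).sub (hZm' u v)).pow_const 2).aestronglyMeasurable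
          (Eventually.of_forall fun ω => ?_)
        rw [Real.norm_eq_abs, abs_pow]
        exact pow_le_pow_left₀ (abs_nonneg _)
          ((abs_sub _ _).trans (add_le_add (hC' _ _ _) (hCZ' _ _ _))) _
      calc ∫ ω, (Y u v ω - Y' u v ω - (Z u v ω - Z' u v ω)) ^ 2 ∂(labM V)
          ≤ ∫ ω, (2 * (Y u v ω - Z u v ω) ^ 2 + 2 * (Y' u v ω - Z' u v ω) ^ 2) ∂(labM V) := by
            refine integral_mono_of_nonneg (Eventually.of_forall fun ω => sq_nonneg _)
              ((hi1.const_mul 2).add (hi2.const_mul 2)) (Eventually.of_forall fun ω => ?_)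
            show (Y u v ω - Y' u v ω - (Z u v ω - Z' u v ω)) ^ 2 ≤
              2 * (Y u v ω - Z u v ω) ^ 2 + 2 * (Y' u v ω - Z' u v ω) ^ 2
            nlinarith [sq_nonneg ((Y u v ω - Z u v ω) + (Y' u v ω - Z' u v ω))]
        _ = 2 * ∫ ω, (Y u v ω - Z u v ω) ^ 2 ∂(labM V) +
            2 * ∫ ω, (Y' u v ω - Z' u v ω) ^ 2 ∂(labM V) := by
            rw [integral_add (hi1.const_mul 2) (hi2.const_mul 2), integral_const_mul,
              integral_const_mul]
        _ ≤ 2 * (ε / 4) + 2 * (ε / 4) := by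
            gcongr
            · exact hZ u v huv
            · exact hZ' u v huv
        _ = ε := by ring

variable [G.LocallyFinite] {d : ℕ}

/-- bounds on `θ` from `Sys`. -/
lemma Sys.th_bounds (hd : 3 ≤ d) {θ q r ρ C : ℝ} {lam : ℕ} {m : V → Lab V → ℝ}
    (h : Sys G (d - 1) θ q r ρ C lam m) : 1 / (2 * (d : ℝ)) ≤ θ ∧ θ ≤ 3 / 4 := by
  have h1 := h.th_ge
  have h2 := h.th_lt
  have h0 := h.th_pos
  have hdc : ((d - 1 : ℕ) : ℝ) = (d : ℝ) - 1 := by
    rw [Nat.cast_sub (by omega)]; simp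
  rw [hdc] at h1 h2
  have hd3 : (3 : ℝ) ≤ d := by exact_mod_cast hd
  constructor
  · rw [div_le_iff₀ (by positivity)]
    by_contra hc
    push Not at hc
    have h3 : (θ * (2 * d)) ^ 2 < 1 := by
      have : 0 ≤ θ * (2 * d) := by positivity
      nlinarith
    nlinarith [sq_nonneg θ, mul_pos h0 h0]
  · by_contra hc
    push Not at hc
    nlinarith [mul_pos h0 h0]

lemma one_add_DD_le {CF C ε₀ : ℝ} (hε : 0 < ε₀) (hε1 : ε₀ ≤ Real.exp (-1)) (hCF : 1 ≤ CF)
    (hC : 0 ≤ C) :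
    1 + DD CF C ε₀ ≤ (1 + √(Real.log CF + 1 + C)) * √(Real.log (1 / ε₀)) := by
  have hl0 := one_le_log_inv hε hε1
  have h1 : 1 ≤ √(Real.log (1 / ε₀)) := by
    rw [Real.le_sqrt' one_pos]; simpa using hl0
  have hX : 0 ≤ Real.log CF + 1 + C := by
    have := Real.log_nonneg hCF
    linarith
  unfold DD
  rw [Real.sqrt_mul hX]
  nlinarith [Real.sqrt_nonneg (Real.log CF + 1 + C)]

/-- static estimate 1. -/
theorem static_gamma (hT : G.IsTree) (hd : 3 ≤ d) (hreg : G.IsRegularOfDegree d)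
    {r ρ C : ℝ} (hr : r < 1) (hρ : 1 < ρ) (hC : 0 < C) : ∃ C' : ℝ, 0 < C' ∧
    ∀ (θ θ' q ε₀ : ℝ) (lam : ℕ) (m m' : V → Lab V → ℝ) (p : ℕ → V), 0 < q → q ≤ 1 → 1 ≤ lam →
    ((lam : ℝ) - 1) * q ≤ 2 → Sys G (d - 1) θ q r ρ C lam m → Sys G (d - 1) θ' q r ρ C lam m' →
    (∀ k, IsGeo G k p) → 0 < ε₀ → ε₀ ≤ Real.exp (-1) →
    ∑' j : ℕ, 2 * ((d : ℝ) - 1) ^ j *
      ∫ ω, Kp θ' (fun v => m' v ω) p j ^ 2 * (m (p j) ω - m' (p j) ω) ^ 2 ∂(labM V) ≤
    C' * (1 / q + √(Real.log (1 / ε₀))) *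
      (∫ ω, (m (p 0) ω - m' (p 0) ω) ^ 2 ∂(labM V) + ε₀) := by
  have hcc := cc_pos hρ
  have he := eta_pos hρ
  have hSE := SE_nonneg hρ 0
  set A : ℝ := 1 + √(Real.log 4 + 1 + C) with hA
  have hA0 : 0 < A := by positivity
  refine ⟨8 / cc ρ + 2 * A * (eta ρ ^ 2)⁻¹ * SE ρ 0, by positivity, ?_⟩
  intro θ θ' q ε₀ lam m m' p hq hq1 hlam hlq h h' hp hε hε1
  have hdc : (0 : ℝ) ≤ (d : ℝ) - 1 := by
    have : (3 : ℝ) ≤ d := by exact_mod_cast hd
    linarith
  have hx : 0 < cc ρ * q := by positivity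
  have hx1 : cc ρ * q ≤ 1 := by nlinarith [cc_le_one (ρ := ρ)]
  have hmm : ∀ v, Measurable (m v) := h.lim.2.1
  have hmm' : ∀ v, Measurable (m' v) := h'.lim.2.1
  set Fv : V → Lab V → ℝ := fun v ω => (m v ω - m' v ω) ^ 2 with hFv
  have hFE : Eqv1 G Fv := by
    intro g v ω
    show (m (g v) ω - m' (g v) ω) ^ 2 = _
    rw [h.lim.1 g v ω, h'.lim.1 g v ω]
  have hFm : ∀ v, Measurable (Fv v) := fun v => ((hmm v).sub (hmm' v)).pow_const 2
  have hF0 : ∀ v ω, 0 ≤ Fv v ω := fun v ω => sq_nonneg _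
  have hFC : ∀ v ω, Fv v ω ≤ 4 := by
    intro v ω
    have h1 := abs_le.1 (h.abs_le_one hr v ω)
    have h2 := abs_le.1 (h'.abs_le_one hr v ω)
    show (m v ω - m' v ω) ^ 2 ≤ 4
    nlinarith
  set e := ∫ ω, (m (p 0) ω - m' (p 0) ω) ^ 2 ∂(labM V) with he'
  have he0 : 0 ≤ e := integral_nonneg fun ω => sq_nonneg _
  set l := √(Real.log (1 / ε₀)) with hl
  have hDD : 1 + DD 4 C ε₀ ≤ A * l := one_add_DD_le hε hε1 (by norm_num) hC.le
  have hl1 : 0 ≤ l := Real.sqrt_nonneg _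
  have hterm : ∀ j : ℕ, 2 * ((d : ℝ) - 1) ^ j *
      ∫ ω, Kp θ' (fun v => m' v ω) p j ^ 2 * (m (p j) ω - m' (p j) ω) ^ 2 ∂(labM V) ≤
      (2 * e) * ((j : ℝ) ^ 0 * Real.exp (-(cc ρ * q * j))) +
        (2 * (A * l) * (eta ρ ^ 2)⁻¹ * (e + ε₀)) * ((j : ℝ) ^ 0 * eta ρ ^ j) := by
    intro j
    have hS := h'.far_end hT hd hreg hr hρ hC.le (lam := lam)
    have h2 := h'.weight_int hd hr hρ hq hlam hlq (H := Fv (p j)) (CH := 4) (hFm _)
      (hF0 _) (hFC _) p j
      (S := (A * l) * ((eta ρ ^ 2)⁻¹ * eta ρ ^ j) * (e + ε₀)) (by positivity) (by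
        intro hB
        calc _ ≤ Real.exp (2 * cc ρ * j) * ((1 + DD 4 C ε₀) * bet ρ ^ (j - 1) * (e + ε₀)) := by
              apply mul_le_mul_of_nonneg_left _ (Real.exp_pos _).le
              exact hS hB hε hε1 (by norm_num) hFE hFm hF0 hFC (hp j)
          _ = (1 + DD 4 C ε₀) * (Real.exp (2 * cc ρ * j) * bet ρ ^ (j - 1)) * (e + ε₀) := by ring
          _ ≤ _ := by
              have h3 := exp_mul_bet_le hρ j
              have hb := bet_pos hρ
              gcongr)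
    have hhom : ∫ ω, Fv (p j) ω ∂(labM V) = e :=
      hom_vertex hT hd hreg hFE hFm ⟨4, fun u ω => by
        rw [abs_of_nonneg (hF0 _ _)]; exact hFC _ _⟩ _ _
    rw [hhom] at h2
    rw [pow_zero, one_mul, one_mul]
    have hcomm : ∫ ω, Kp θ' (fun v => m' v ω) p j ^ 2 * (m (p j) ω - m' (p j) ω) ^ 2 ∂(labM V) =
        ∫ ω, Fv (p j) ω * Kp θ' (fun v => m' v ω) p j ^ 2 ∂(labM V) :=
      integral_congr_ae (Eventually.of_forall fun ω => mul_comm _ _)
    rw [hcomm]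
    calc _ = 2 * (((d : ℝ) - 1) ^ j *
          ∫ ω, Fv (p j) ω * Kp θ' (fun v => m' v ω) p j ^ 2 ∂(labM V)) := by ring
      _ ≤ 2 * (Real.exp (-(cc ρ * q * j)) * e +
          (A * l) * ((eta ρ ^ 2)⁻¹ * eta ρ ^ j) * (e + ε₀)) := by gcongr
      _ = _ := by ring
  have hs1 := (summable_pow_exp 0 hx).mul_left (2 * e)
  have hs2 := (summable_pow_eta hρ 0).mul_left (2 * (A * l) * (eta ρ ^ 2)⁻¹ * (e + ε₀))
  refine (tsum_le_of_le (fun j => ?_) hterm (hs1.add hs2)).trans ?_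
  · have : 0 ≤ ∫ ω, Kp θ' (fun v => m' v ω) p j ^ 2 * (m (p j) ω - m' (p j) ω) ^ 2 ∂(labM V) :=
      integral_nonneg fun ω => by positivity
    positivity
  rw [hs1.tsum_add hs2, tsum_mul_left, tsum_mul_left]
  have h3 := tsum_pow_exp_le 0 hx hx1
  have h4 : ∑' j : ℕ, (j : ℝ) ^ 0 * eta ρ ^ j = SE ρ 0 := rfl
  rw [h4]
  have h5 : 2 * e * ∑' j : ℕ, (j : ℝ) ^ 0 * Real.exp (-(cc ρ * q * j)) ≤
      8 / cc ρ * (1 / q) * (e + ε₀) := by
    calc _ ≤ 2 * e * ((4 * (Nat.factorial 0) * 2 ^ 0) / (cc ρ * q) ^ (0 + 1)) := by gcongr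
      _ = 8 / cc ρ * (1 / q) * e := by simp; field_simp; ring
      _ ≤ _ := by
        have : 0 ≤ 8 / cc ρ * (1 / q) := by positivity
        nlinarith
  have hB0 : 0 ≤ 2 * A * (eta ρ ^ 2)⁻¹ * SE ρ 0 := by positivity
  have h8 : 0 ≤ 8 / cc ρ := by positivity
  calc _ ≤ 8 / cc ρ * (1 / q) * (e + ε₀) + 2 * (A * l) * (eta ρ ^ 2)⁻¹ * (e + ε₀) * SE ρ 0 :=
        add_le_add h5 (le_refl _)
    _ = (8 / cc ρ * (1 / q) + (2 * A * (eta ρ ^ 2)⁻¹ * SE ρ 0) * l) * (e + ε₀) := by ring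
    _ ≤ ((8 / cc ρ + 2 * A * (eta ρ ^ 2)⁻¹ * SE ρ 0) * (1 / q + l)) * (e + ε₀) := by
        apply mul_le_mul_of_nonneg_right _ (by linarith)
        have : 0 ≤ 1 / q := by positivity
        nlinarith [mul_nonneg h8 hl1, mul_nonneg hB0 this]

end Crest.Agent.Lib.Row160
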