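import Crest.Agent.Lib.Row160.StatG

/-!
Row 160, module M10: `static_main`.
-/

set_option autoImplicit false
set_option linter.unusedSectionVars false
open MeasureTheory Filter Topology

namespace Crest.Agent.Lib.Row160

variable {V : Type*} {G : SimpleGraph V} [G.LocallyFinite] {d : ℕ}

lemma log_one_sub_sq_le {r x y : ℝ} (hr0 : 0 ≤ r) (hr : r < 1) (hx : |x| ≤ r) (hy : |y| ≤ r) :
    (Real.log (1 - x ^ 2) - Real.log (1 - y ^ 2)) ^ 2 ≤ (4 / (1 - r ^ 2) ^ 2) * (x - y) ^ 2 := by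
  have hc : 0 < 1 - r ^ 2 := by nlinarith
  have hx2 : x ^ 2 ≤ r ^ 2 := by rw [← sq_abs x]; gcongr
  have hy2 : y ^ 2 ≤ r ^ 2 := by rw [← sq_abs y]; gcongr
  have h1 := abs_log_sub_le hc (a := 1 - x ^ 2) (b := 1 - y ^ 2) (by linarith) (by linarith)
  have h2 : |1 - x ^ 2 - (1 - y ^ 2)| ≤ 2 * |x - y| := by
    have : 1 - x ^ 2 - (1 - y ^ 2) = -((x + y) * (x - y)) := by ring
    rw [this, abs_neg, abs_mul]
    have h3 : |x + y| ≤ 2 := by
      have := abs_add_le x y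
      linarith
    gcongr
  calc _ = |Real.log (1 - x ^ 2) - Real.log (1 - y ^ 2)| ^ 2 := (sq_abs _).symm
    _ ≤ (2 * |x - y| / (1 - r ^ 2)) ^ 2 := by
        gcongr
        exact h1.trans (by gcongr)
    _ = _ := by rw [div_pow, mul_pow, sq_abs]; ring

/-- pointwise bound of `(K-K')²`. -/
lemma pointwise_log (hd : 3 ≤ d) {θ θ' r : ℝ} (hr0 : 0 ≤ r) (hr : r < 1)
    (hθ : 1 / (2 * (d : ℝ)) ≤ θ) (hθ1 : θ ≤ 3 / 4) (hθ' : 1 / (2 * (d : ℝ)) ≤ θ')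
    (hθ1' : θ' ≤ 3 / 4) {m m' : V → ℝ} (hm : ∀ v, |m v| ≤ r) (hm' : ∀ v, |m' v| ≤ r)
    (p : ℕ → V) (j : ℕ) :
    (Kp θ m p j - Kp θ' m' p j) ^ 2 ≤
      (3 * (4 / (1 - r ^ 2) ^ 2) * (m (p 0) - m' (p 0)) ^ 2 +
        3 * (∑ i ∈ Finset.range j, (ell θ (m (p i)) (m (p (i + 1))) -
          ell θ' (m' (p i)) (m' (p (i + 1))))) ^ 2 +
        12 * (d : ℝ) ^ 2 * min 1 ((j : ℝ) ^ 2 * (θ - θ') ^ 2)) *
      (Kp θ m p j ^ 2 + Kp θ' m' p j ^ 2) := by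
  have hd3 : (3 : ℝ) ≤ d := by exact_mod_cast hd
  have hd0 : 0 < 1 / (2 * (d : ℝ)) := by positivity
  obtain ⟨hK, hlK⟩ := log_Kp (by linarith : 0 < θ) (by linarith) hr hm p j
  obtain ⟨hK', hlK'⟩ := log_Kp (by linarith : 0 < θ') (by linarith) hr hm' p j
  have h1 := sq_sub_le_log hK hK'
  refine h1.trans (mul_le_mul_of_nonneg_right ?_ (by positivity))
  have h2 : Real.log (Kp θ m p j) - Real.log (Kp θ' m' p j) =
      (Real.log (1 - m (p 0) ^ 2) - Real.log (1 - m' (p 0) ^ 2)) +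
      (∑ i ∈ Finset.range j, (ell θ (m (p i)) (m (p (i + 1))) -
          ell θ' (m' (p i)) (m' (p (i + 1))))) + j * (Real.log θ - Real.log θ') := by
    rw [hlK, hlK', Finset.sum_sub_distrib]; ring
  rw [h2]
  refine (min_one_add_sq_le _ _ _).trans ?_
  have h3 := log_one_sub_sq_le hr0 hr (hm (p 0)) (hm' (p 0))
  have h4 : min 1 ((j * (Real.log θ - Real.log θ')) ^ 2) ≤
      4 * (d : ℝ) ^ 2 * min 1 ((j : ℝ) ^ 2 * (θ - θ') ^ 2) := by
    have h5 := abs_log_sub_le hd0 hθ hθ'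
    have h6 : (Real.log θ - Real.log θ') ^ 2 ≤ 4 * (d : ℝ) ^ 2 * (θ - θ') ^ 2 := by
      calc _ = |Real.log θ - Real.log θ'| ^ 2 := (sq_abs _).symm
        _ ≤ (|θ - θ'| / (1 / (2 * (d : ℝ)))) ^ 2 := by gcongr
        _ = 4 * (d : ℝ) ^ 2 * (θ - θ') ^ 2 := by
          rw [div_pow, sq_abs]; field_simp; ring
    have hd2 : (1 : ℝ) ≤ 4 * (d : ℝ) ^ 2 := by nlinarith
    rcases le_total 1 ((j : ℝ) ^ 2 * (θ - θ') ^ 2) with hc | hc
    · rw [min_eq_left hc]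
      exact (min_le_left _ _).trans (by linarith)
    · rw [min_eq_right hc]
      refine (min_le_right _ _).trans ?_
      rw [mul_pow]
      calc (j : ℝ) ^ 2 * (Real.log θ - Real.log θ') ^ 2 ≤
            (j : ℝ) ^ 2 * (4 * (d : ℝ) ^ 2 * (θ - θ') ^ 2) := by gcongr
        _ = _ := by ring
  nlinarith

/-- one-system contribution of level `j`. -/
lemma level_bound (hT : G.IsTree) (hd : 3 ≤ d) (hreg : G.IsRegularOfDegree d)
    {r ρ C CF C₀ : ℝ} (hr : r < 1) (hρ : 1 < ρ) (hC : 0 < C) (hCF : 1 ≤ CF)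
    {θ q δ ε₀ CA : ℝ} {lam : ℕ} {m : V → Lab V → ℝ} (h : Sys G (d - 1) θ q r ρ C lam m)
    (hq : 0 < q) (hlam : 1 ≤ lam) (hlq : ((lam : ℝ) - 1) * q ≤ 2) (hCA : 0 ≤ CA)
    {Fv : V → Lab V → ℝ} (hFE : Eqv1 G Fv) (hFm : ∀ v, Measurable (Fv v))
    (hF0 : ∀ v ω, 0 ≤ Fv v ω) (hFC : ∀ v ω, Fv v ω ≤ 4)
    {Y : V → V → Lab V → ℝ} (hY : BlockLim2 G Y) (hYC : ∀ u v ω, Y u v ω ^ 2 ≤ CF)
    {p : ℕ → V} (hp : ∀ k, IsGeo G k p) (hε : 0 < ε₀) (hε1 : ε₀ ≤ Real.exp (-1))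
    (hvar : ∀ j : ℕ, ∫ ω, (∑ i ∈ Finset.range j, Y (p i) (p (i + 1)) ω) ^ 2 ∂(labM V) ≤
        (j : ℝ) ^ 2 * (∫ ω, Y (p 0) (p 1) ω ∂(labM V)) ^ 2 +
          C₀ * j * ∫ ω, Y (p 0) (p 1) ω ^ 2 ∂(labM V)) (j : ℕ) :
    ((d : ℝ) - 1) ^ j * ∫ ω, (3 * CA * Fv (p 0) ω +
        3 * (∑ i ∈ Finset.range j, Y (p i) (p (i + 1)) ω) ^ 2 +
        12 * (d : ℝ) ^ 2 * min 1 ((j : ℝ) ^ 2 * δ ^ 2)) *
        Kp θ (fun v => m v ω) p j ^ 2 ∂(labM V) ≤
      (3 * CA * (∫ ω, Fv (p 0) ω ∂(labM V)) * ((j : ℝ) ^ 0 * Real.exp (-(cc ρ * q * j))) +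
        3 * (∫ ω, Y (p 0) (p 1) ω ∂(labM V)) ^ 2 * ((j : ℝ) ^ 2 * Real.exp (-(cc ρ * q * j))) +
        3 * C₀ * (∫ ω, Y (p 0) (p 1) ω ^ 2 ∂(labM V)) *
          ((j : ℝ) ^ 1 * Real.exp (-(cc ρ * q * j))) +
        12 * (d : ℝ) ^ 2 * (min 1 ((j : ℝ) ^ 2 * δ ^ 2) * Real.exp (-cc ρ * q * j))) +
      (3 * CA * (1 + DD 4 C ε₀) * (eta ρ ^ 2)⁻¹ * (∫ ω, Fv (p 0) ω ∂(labM V) + ε₀) *
          ((j : ℝ) ^ 0 * eta ρ ^ j) +
        (3 * DD CF C ε₀ * (eta ρ ^ 2)⁻¹ * (∫ ω, Y (p 0) (p 1) ω ^ 2 ∂(labM V) + ε₀) +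
          12 * (d : ℝ) ^ 2 * (1 + C) * (eta ρ ^ 2)⁻¹ * δ ^ 2) *
          ((j : ℝ) ^ 2 * eta ρ ^ j)) := by
  obtain ⟨hYE, hYm, ⟨CY, hCY⟩, _⟩ := id hY
  have h0 := h.th_pos
  have h1 := h.lt_one hd
  have hm1 := h.abs_le_one hr
  have hmm : ∀ v, Measurable (m v) := h.lim.2.1
  have he := eta_pos hρ
  set e := ∫ ω, Fv (p 0) ω ∂(labM V) with hedef
  set b1 := ∫ ω, Y (p 0) (p 1) ω ∂(labM V) with hb1
  set y2 := ∫ ω, Y (p 0) (p 1) ω ^ 2 ∂(labM V) with hy2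
  have he0 : 0 ≤ e := integral_nonneg fun ω => hF0 _ _
  have hy20 : 0 ≤ y2 := integral_nonneg fun ω => sq_nonneg _
  set w : ℝ := min 1 ((j : ℝ) ^ 2 * δ ^ 2) with hw
  have hw0 : 0 ≤ w := le_min zero_le_one (by positivity)
  have hwj : w ≤ (j : ℝ) ^ 2 * δ ^ 2 := min_le_right _ _
  set S : Lab V → ℝ := fun ω => ∑ i ∈ Finset.range j, Y (p i) (p (i + 1)) ω with hS
  have hSm : Measurable S := Finset.measurable_fun_sum _ fun i _ => hYm _ _
  have hSb : ∀ ω, S ω ^ 2 ≤ (j * |CY|) ^ 2 := by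
    intro ω
    rw [← sq_abs (S ω)]
    refine pow_le_pow_left₀ (abs_nonneg _) ?_ _
    calc |S ω| ≤ ∑ i ∈ Finset.range j, |Y (p i) (p (i + 1)) ω| := Finset.abs_sum_le_sum_abs _ _
      _ ≤ ∑ i ∈ Finset.range j, |CY| := Finset.sum_le_sum fun i _ =>
          (hCY _ _ _).trans (le_abs_self _)
      _ = j * |CY| := by rw [Finset.sum_const, Finset.card_range, nsmul_eq_mul]
  set H : Lab V → ℝ := fun ω => 3 * CA * Fv (p 0) ω + 3 * S ω ^ 2 + 12 * (d : ℝ) ^ 2 * w with hH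
  have hHm : Measurable H :=
    (((hFm _).const_mul _).add ((hSm.pow_const 2).const_mul 3)).add_const _
  have hH0 : ∀ ω, 0 ≤ H ω := fun ω => by
    have := hF0 (p 0) ω
    show 0 ≤ 3 * CA * Fv (p 0) ω + 3 * S ω ^ 2 + 12 * (d : ℝ) ^ 2 * w
    positivity
  have hHC : ∀ ω, H ω ≤ 3 * CA * 4 + 3 * (j * |CY|) ^ 2 + 12 * (d : ℝ) ^ 2 * w := by
    intro ω
    have h2 := hFC (p 0) ω
    have h3 := hSb ω
    have : 3 * CA * Fv (p 0) ω ≤ 3 * CA * 4 := by gcongr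
    show 3 * CA * Fv (p 0) ω + 3 * S ω ^ 2 + 12 * (d : ℝ) ^ 2 * w ≤ _
    linarith
  have hFi : Integrable (Fv (p 0)) (labM V) := Integrable.of_bound (hFm _).aestronglyMeasurable 4
    (Eventually.of_forall fun ω => by
      rw [Real.norm_eq_abs, abs_of_nonneg (hF0 _ _)]; exact hFC _ _)
  have hSi : Integrable (fun ω => S ω ^ 2) (labM V) :=
    Integrable.of_bound (hSm.pow_const 2).aestronglyMeasurable _
    (Eventually.of_forall fun ω => by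
      rw [Real.norm_eq_abs, abs_of_nonneg (sq_nonneg _)]; exact hSb ω)
  have hHint : ∫ ω, H ω ∂(labM V) ≤ 3 * CA * e + 3 * ((j : ℝ) ^ 2 * b1 ^ 2 + C₀ * j * y2) +
      12 * (d : ℝ) ^ 2 * w := by
    have e1 : ∫ ω, H ω ∂(labM V) = 3 * CA * e + 3 * ∫ ω, S ω ^ 2 ∂(labM V) +
        12 * (d : ℝ) ^ 2 * w := by
      have hA : Integrable (fun ω => 3 * CA * Fv (p 0) ω + 3 * S ω ^ 2) (labM V) :=
        (hFi.const_mul _).add (hSi.const_mul _)
      have e2 : ∫ ω, H ω ∂(labM V) = ∫ ω, (3 * CA * Fv (p 0) ω + 3 * S ω ^ 2) ∂(labM V) +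
          ∫ _ω : Lab V, (12 * (d : ℝ) ^ 2 * w) ∂(labM V) := integral_add hA (integrable_const _)
      have e3 : ∫ ω, (3 * CA * Fv (p 0) ω + 3 * S ω ^ 2) ∂(labM V) =
          ∫ ω, 3 * CA * Fv (p 0) ω ∂(labM V) + ∫ ω, 3 * S ω ^ 2 ∂(labM V) :=
        integral_add (hFi.const_mul _) (hSi.const_mul _)
      rw [e2, e3, integral_const_mul, integral_const_mul]
      simp [hedef]
    rw [e1]
    have := hvar j
    linarith
  set κ : Lab V → ℝ := fun ω => kk θ (fun v => m v ω) p j ^ (2 * lam) with hκ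
  have hκm : Measurable κ := (measurable_kk θ hmm p j).pow_const _
  have hκ0 : ∀ ω, 0 ≤ κ ω := fun ω => pow_nonneg (kk_nonneg h0 h1 (fun v => hm1 v ω) p j) _
  have hκ1 : ∀ ω, κ ω ≤ 1 := fun ω => pow_le_one₀ (kk_nonneg h0 h1 (fun v => hm1 v ω) p j)
    (kk_le_one h0 h1 (fun v => hm1 v ω) p j)
  have hint : ∀ {F : Lab V → ℝ} {CB : ℝ}, Measurable F → (∀ ω, |F ω| ≤ CB) →
      Integrable (fun ω => F ω * κ ω) (labM V) := by
    intro F CB hFm hFb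
    refine Integrable.of_bound (C := CB) (hFm.mul hκm).aestronglyMeasurable
      (Eventually.of_forall fun ω => ?_)
    rw [Real.norm_eq_abs, abs_mul, abs_of_nonneg (hκ0 ω)]
    calc _ ≤ CB * 1 := mul_le_mul (hFb ω) (hκ1 ω) (hκ0 ω) ((abs_nonneg _).trans (hFb ω))
      _ = CB := mul_one _
  have hi1 : Integrable (fun ω => Fv (p 0) ω * κ ω) (labM V) := hint (hFm _) fun ω => by
    rw [abs_of_nonneg (hF0 _ _)]; exact hFC _ _
  have hi2 : ∀ i, Integrable (fun ω => Y (p i) (p (i + 1)) ω ^ 2 * κ ω) (labM V) := fun i =>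
    hint ((hYm _ _).pow_const 2) fun ω => by
      rw [abs_of_nonneg (sq_nonneg _)]; exact hYC _ _ ω
  have hi3 : Integrable κ (labM V) := Integrable.of_bound (C := 1) hκm.aestronglyMeasurable
    (Eventually.of_forall fun ω => by
      rw [Real.norm_eq_abs, abs_of_nonneg (hκ0 _)]; exact hκ1 _)
  have h2 := h.weight_int hd hr hρ hq hlam hlq hHm hH0 hHC p j
    (S := (3 * CA * (1 + DD 4 C ε₀) * (eta ρ ^ 2)⁻¹ * (e + ε₀) *
          ((j : ℝ) ^ 0 * eta ρ ^ j) +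
        (3 * DD CF C ε₀ * (eta ρ ^ 2)⁻¹ * (y2 + ε₀) +
          12 * (d : ℝ) ^ 2 * (1 + C) * (eta ρ ^ 2)⁻¹ * δ ^ 2) *
          ((j : ℝ) ^ 2 * eta ρ ^ j))) (by
      have : 0 ≤ DD 4 C ε₀ := Real.sqrt_nonneg _
      have : 0 ≤ DD CF C ε₀ := Real.sqrt_nonneg _
      positivity) (by
      intro hB
      have hDD4 : 0 ≤ DD 4 C ε₀ := Real.sqrt_nonneg _
      have hDDF : 0 ≤ DD CF C ε₀ := Real.sqrt_nonneg _
      have g1 : ∫ ω, Fv (p 0) ω * κ ω ∂(labM V) ≤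
          (1 + DD 4 C ε₀) * bet ρ ^ (j - 1) * (e + ε₀) :=
        h.far_start hT hd hreg hr hρ hC.le hB hε hε1 (by norm_num) hFE hFm hF0 hFC (hp j)
      have g2 : ∫ ω, S ω ^ 2 * κ ω ∂(labM V) ≤
          (j : ℝ) ^ 2 * (DD CF C ε₀ * bet ρ ^ (j - 1) * (y2 + ε₀)) := by
        have hpt : ∀ ω, S ω ^ 2 * κ ω ≤
            ∑ i ∈ Finset.range j, (j : ℝ) * (Y (p i) (p (i + 1)) ω ^ 2 * κ ω) := by
          intro ω
          have hcs : S ω ^ 2 ≤ j * ∑ i ∈ Finset.range j, Y (p i) (p (i + 1)) ω ^ 2 := by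
            have := sq_sum_le_card_mul_sum_sq (s := Finset.range j)
              (f := fun i => Y (p i) (p (i + 1)) ω)
            rw [Finset.card_range] at this
            exact this
          calc S ω ^ 2 * κ ω ≤ (j * ∑ i ∈ Finset.range j, Y (p i) (p (i + 1)) ω ^ 2) * κ ω :=
                mul_le_mul_of_nonneg_right hcs (hκ0 ω)
            _ = _ := by rw [Finset.mul_sum, Finset.sum_mul]; refine Finset.sum_congr rfl fun i _ => by ring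
        calc ∫ ω, S ω ^ 2 * κ ω ∂(labM V) ≤
            ∫ ω, ∑ i ∈ Finset.range j, (j : ℝ) * (Y (p i) (p (i + 1)) ω ^ 2 * κ ω) ∂(labM V) :=
              integral_mono_of_nonneg (Eventually.of_forall fun ω =>
                mul_nonneg (sq_nonneg _) (hκ0 ω))
                (integrable_finsetSum _ fun i _ => (hi2 i).const_mul _)
                (Eventually.of_forall hpt)
          _ = ∑ i ∈ Finset.range j, (j : ℝ) *
                ∫ ω, Y (p i) (p (i + 1)) ω ^ 2 * κ ω ∂(labM V) := by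
              rw [integral_finsetSum _ fun i _ => (hi2 i).const_mul _]
              refine Finset.sum_congr rfl fun i _ => integral_const_mul _ _
          _ ≤ ∑ i ∈ Finset.range j, (j : ℝ) * (DD CF C ε₀ * bet ρ ^ (j - 1) * (y2 + ε₀)) := by
              refine Finset.sum_le_sum fun i hi => ?_
              rw [Finset.mem_range] at hi
              refine mul_le_mul_of_nonneg_left ?_ (by positivity)
              exact h.far_edge hT hd hreg hr hρ hC.le hB hε hε1 hCF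
                (Fe := fun u v ω => Y u v ω ^ 2)
                (fun g u v ω => by show Y (g u) (g v) ω ^ 2 = _; rw [hYE g u v ω])
                (fun u v => (hYm u v).pow_const 2) (fun u v ω => sq_nonneg _) hYC (hp j)
                (by omega)
          _ = _ := by
              rw [Finset.sum_const, Finset.card_range, nsmul_eq_mul]; ring
      have g3 : ∫ ω, κ ω ∂(labM V) ≤ (1 + C) * bet ρ ^ (j - 1) :=
        h.far_none hT hd hreg hr hρ hC.le hB (hp j)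
      have hsplit : ∫ ω, H ω * κ ω ∂(labM V) = 3 * CA * ∫ ω, Fv (p 0) ω * κ ω ∂(labM V) +
          3 * ∫ ω, S ω ^ 2 * κ ω ∂(labM V) + 12 * (d : ℝ) ^ 2 * w * ∫ ω, κ ω ∂(labM V) := by
        have hi4 : Integrable (fun ω => S ω ^ 2 * κ ω) (labM V) :=
          hint (hSm.pow_const 2) fun ω => by
            rw [abs_of_nonneg (sq_nonneg _)]; exact hSb ω
        have hA : Integrable (fun ω => 3 * CA * (Fv (p 0) ω * κ ω) + 3 * (S ω ^ 2 * κ ω))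
            (labM V) := (hi1.const_mul _).add (hi4.const_mul _)
        have e2 : ∫ ω, (3 * CA * (Fv (p 0) ω * κ ω) + 3 * (S ω ^ 2 * κ ω) +
            12 * (d : ℝ) ^ 2 * w * κ ω) ∂(labM V) =
            ∫ ω, (3 * CA * (Fv (p 0) ω * κ ω) + 3 * (S ω ^ 2 * κ ω)) ∂(labM V) +
            ∫ ω, 12 * (d : ℝ) ^ 2 * w * κ ω ∂(labM V) := integral_add hA (hi3.const_mul _)
        have e3 : ∫ ω, (3 * CA * (Fv (p 0) ω * κ ω) + 3 * (S ω ^ 2 * κ ω)) ∂(labM V) =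
            ∫ ω, 3 * CA * (Fv (p 0) ω * κ ω) ∂(labM V) + ∫ ω, 3 * (S ω ^ 2 * κ ω) ∂(labM V) :=
          integral_add (hi1.const_mul _) (hi4.const_mul _)
        rw [← integral_const_mul, ← integral_const_mul, ← integral_const_mul, ← e3, ← e2]
        refine integral_congr_ae (Eventually.of_forall fun ω => ?_)
        show (3 * CA * Fv (p 0) ω + 3 * S ω ^ 2 + 12 * (d : ℝ) ^ 2 * w) * κ ω =
          3 * CA * (Fv (p 0) ω * κ ω) + 3 * (S ω ^ 2 * κ ω) + 12 * (d : ℝ) ^ 2 * w * κ ω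
        ring
      have hb := bet_pos hρ
      set E := Real.exp (2 * cc ρ * j) with hE
      have hE0 : 0 ≤ E := (Real.exp_pos _).le
      have hEb : E * bet ρ ^ (j - 1) ≤ (eta ρ ^ 2)⁻¹ * eta ρ ^ j := exp_mul_bet_le hρ j
      rw [hsplit]
      calc E * (3 * CA * ∫ ω, Fv (p 0) ω * κ ω ∂(labM V) +
          3 * ∫ ω, S ω ^ 2 * κ ω ∂(labM V) + 12 * (d : ℝ) ^ 2 * w * ∫ ω, κ ω ∂(labM V))
          ≤ E * (3 * CA * ((1 + DD 4 C ε₀) * bet ρ ^ (j - 1) * (e + ε₀)) +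
            3 * ((j : ℝ) ^ 2 * (DD CF C ε₀ * bet ρ ^ (j - 1) * (y2 + ε₀))) +
            12 * (d : ℝ) ^ 2 * ((j : ℝ) ^ 2 * δ ^ 2) * ((1 + C) * bet ρ ^ (j - 1))) := by
            have hI3 : 0 ≤ ∫ ω, κ ω ∂(labM V) := integral_nonneg hκ0
            refine mul_le_mul_of_nonneg_left ?_ hE0
            refine add_le_add (add_le_add (mul_le_mul_of_nonneg_left g1 (by positivity))
              (mul_le_mul_of_nonneg_left g2 (by norm_num))) (mul_le_mul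
              (mul_le_mul_of_nonneg_left hwj (by positivity)) g3 hI3 (by positivity))
        _ = (3 * CA * (1 + DD 4 C ε₀) * (e + ε₀) + 3 * (j : ℝ) ^ 2 * DD CF C ε₀ * (y2 + ε₀) +
            12 * (d : ℝ) ^ 2 * ((j : ℝ) ^ 2 * δ ^ 2) * (1 + C)) * (E * bet ρ ^ (j - 1)) := by ring
        _ ≤ (3 * CA * (1 + DD 4 C ε₀) * (e + ε₀) + 3 * (j : ℝ) ^ 2 * DD CF C ε₀ * (y2 + ε₀) +
            12 * (d : ℝ) ^ 2 * ((j : ℝ) ^ 2 * δ ^ 2) * (1 + C)) *
              ((eta ρ ^ 2)⁻¹ * eta ρ ^ j) := by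
            apply mul_le_mul_of_nonneg_left hEb
            positivity
        _ = _ := by ring)
  refine h2.trans ?_
  refine add_le_add ?_ (le_refl _)
  calc Real.exp (-(cc ρ * q * j)) * ∫ ω, H ω ∂(labM V) ≤ Real.exp (-(cc ρ * q * j)) *
      (3 * CA * e + 3 * ((j : ℝ) ^ 2 * b1 ^ 2 + C₀ * j * y2) + 12 * (d : ℝ) ^ 2 * w) :=
        mul_le_mul_of_nonneg_left hHint (Real.exp_pos _).le
    _ = _ := by
      rw [show -cc ρ * q * (j : ℝ) = -(cc ρ * q * j) by ring]; ring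

end Crest.Agent.Lib.Row160
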