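import Crest.Agent.Lib.Row160.StatH

/-!
Row 160, module M10: `static_main`.
-/

set_option autoImplicit false
set_option linter.unusedSectionVars false
open MeasureTheory Filter Topology

namespace Crest.Agent.Lib.Row160

variable {V : Type*} {G : SimpleGraph V} [G.LocallyFinite] {d : ℕ}

lemma sq_le_one_of_abs {r x : ℝ} (hr : r < 1) (hx : |x| ≤ r) : x ^ 2 ≤ 1 := by
  have h1 := sq_abs x
  have h2 := abs_nonneg x
  nlinarith

lemma sq_sub_le_four {x y : ℝ} (hx : |x| ≤ 1) (hy : |y| ≤ 1) : (x - y) ^ 2 ≤ 4 := by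
  have h1 := abs_le.1 hx
  have h2 := abs_le.1 hy
  nlinarith

lemma final_arith {k0 k1 k2 kw ka kb kc T : ℝ} (hT : 0 ≤ T) :
    4 * ((k0 * T + k2 * T + k1 * T + kw * T) + (ka * T + (kb * T + kc * T))) ≤
      (4 * (k0 + k1 + k2 + kw + ka + kb + kc) + 1) * T := by
  nlinarith

set_option maxHeartbeats 2000000 in
/-- static estimate 2 (the main one). -/
theorem static_main (hT : G.IsTree) (hd : 3 ≤ d) (hreg : G.IsRegularOfDegree d)
    {r ρ C : ℝ} (hr : r < 1) (hρ : 1 < ρ) (hC : 0 < C) : ∃ C' c : ℝ, 0 < C' ∧ 0 < c ∧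
    ∀ (θ θ' q ε₀ : ℝ) (lam : ℕ) (m m' : V → Lab V → ℝ) (p : ℕ → V), 0 < q → q ≤ 1 → 1 ≤ lam →
    ((lam : ℝ) - 1) * q ≤ 2 → Sys G (d - 1) θ q r ρ C lam m → Sys G (d - 1) θ' q r ρ C lam m' →
    (∀ k, IsGeo G k p) → 0 < ε₀ → ε₀ ≤ Real.exp (-1) →
    let e := ∫ ω, (m (p 0) ω - m' (p 0) ω) ^ 2 ∂(labM V)
    let y2 := ∫ ω, (ell θ (m (p 0) ω) (m (p 1) ω) - ell θ' (m' (p 0) ω) (m' (p 1) ω)) ^ 2 ∂(labM V)
    let b1 := ∫ ω, (ell θ (m (p 0) ω) (m (p 1) ω) - ell θ' (m' (p 0) ω) (m' (p 1) ω)) ∂(labM V)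
    ∑' j : ℕ, 2 * ((d : ℝ) - 1) ^ j *
      ∫ ω, (Kp θ (fun v => m v ω) p j - Kp θ' (fun v => m' v ω) p j) ^ 2 ∂(labM V) ≤
    C' * (e / q + y2 / q ^ 2 + b1 ^ 2 / q ^ 3 +
      (∑' j : ℕ, min 1 (j ^ 2 * (θ - θ') ^ 2) * Real.exp (-c * q * j)) + (θ - θ') ^ 2 +
      √(Real.log (1 / ε₀)) * (e + y2 + ε₀)) := by
  have hd3 : (3 : ℝ) ≤ d := by exact_mod_cast hd
  have hdc : (0 : ℝ) ≤ (d : ℝ) - 1 := by linarith
  have hcc := cc_pos hρ
  have he := eta_pos hρ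
  have hSE0 := SE_nonneg hρ 0
  have hSE2 := SE_nonneg hρ 2
  have hth0 : (0 : ℝ) < 1 / (2 * (d : ℝ)) := by positivity
  obtain ⟨Cb, hCb, hbound⟩ := ell_bound (θ₀ := 1 / (2 * (d : ℝ))) (θ₁ := 3 / 4) hth0 (by norm_num) hr
  obtain ⟨C₀, hC₀, hvar⟩ := sum_sq_le hT hd hreg
  set CF : ℝ := 16 * Cb ^ 2 + 1 with hCFdef
  have hCF : 1 ≤ CF := by nlinarith [sq_nonneg Cb]
  set CA : ℝ := 4 / (1 - r ^ 2) ^ 2 with hCAdef
  have hCA : 0 ≤ CA := by positivity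
  set A4 : ℝ := 1 + √(Real.log 4 + 1 + C) with hA4
  set AF : ℝ := 1 + √(Real.log CF + 1 + C) with hAF
  have hA40 : 0 ≤ A4 := by positivity
  have hAF0 : 0 ≤ AF := by positivity
  set k0 : ℝ := 3 * CA * (4 / cc ρ) with hk0
  set k2 : ℝ := 3 * (32 / cc ρ ^ 3) with hk2
  set k1 : ℝ := 3 * C₀ * (8 / cc ρ ^ 2) with hk1
  set kw : ℝ := 12 * (d : ℝ) ^ 2 with hkw
  set ka : ℝ := 3 * CA * A4 * (eta ρ ^ 2)⁻¹ * SE ρ 0 with hka
  set kb : ℝ := 3 * AF * (eta ρ ^ 2)⁻¹ * SE ρ 2 with hkb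
  set kc : ℝ := 12 * (d : ℝ) ^ 2 * (1 + C) * (eta ρ ^ 2)⁻¹ * SE ρ 2 with hkc
  have hk0' : 0 ≤ k0 := by positivity
  have hk1' : 0 ≤ k1 := by positivity
  have hk2' : 0 ≤ k2 := by positivity
  have hkw' : 0 ≤ kw := by positivity
  have hka' : 0 ≤ ka := by positivity
  have hkb' : 0 ≤ kb := by positivity
  have hkc' : 0 ≤ kc := by positivity
  refine ⟨4 * (k0 + k1 + k2 + kw + ka + kb + kc) + 1, cc ρ, by positivity, hcc, ?_⟩
  intro θ θ' q ε₀ lam m m' p hq hq1 hlam hlq h h' hp hε hε1 e y2 b1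
  have hmm : ∀ v, Measurable (m v) := h.lim.2.1
  have hmm' : ∀ v, Measurable (m' v) := h'.lim.2.1
  have hth := h.th_bounds hd
  have hth' := h'.th_bounds hd
  obtain ⟨ω₀⟩ : Nonempty (Lab V) := ⟨fun _ => (0, 0)⟩
  have hr0 : 0 ≤ r := (abs_nonneg _).trans (h.bound (p 0) ω₀)
  -- the functionals
  set Fv : V → Lab V → ℝ := fun v ω => (m v ω - m' v ω) ^ 2 with hFv
  have hFE : Eqv1 G Fv := by
    intro g v ω
    show (m (g v) ω - m' (g v) ω) ^ 2 = _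
    rw [h.lim.1 g v ω, h'.lim.1 g v ω]
  have hFm : ∀ v, Measurable (Fv v) := fun v => ((hmm v).sub (hmm' v)).pow_const 2
  have hF0 : ∀ v ω, 0 ≤ Fv v ω := fun v ω => sq_nonneg _
  have hFC : ∀ v ω, Fv v ω ≤ 4 := by
    intro v ω
    exact sq_sub_le_four (h.abs_le_one hr v ω) (h'.abs_le_one hr v ω)
  set Y : V → V → Lab V → ℝ := fun u v ω => ell θ (m u ω) (m v ω) - ell θ' (m' u ω) (m' v ω)
    with hYdef
  have hY : BlockLim2 G Y :=
    (blockLim2_ell_aux hth0 (by norm_num) hr0 hr hth.1 hth.2 h.lim h.bound).sub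
      (blockLim2_ell_aux hth0 (by norm_num) hr0 hr hth'.1 hth'.2 h'.lim h'.bound)
  have hell : ∀ (t : ℝ) (x y : ℝ), 1 / (2 * (d : ℝ)) ≤ t → t ≤ 3 / 4 → |x| ≤ r → |y| ≤ r →
      |ell t x y| ≤ 2 * Cb := by
    intro t x y ht ht1 hx hy
    have h1 := hbound t x y ht ht1 hx hy
    have hx2 : x ^ 2 ≤ 1 := sq_le_one_of_abs hr hx
    have hy2 : y ^ 2 ≤ 1 := sq_le_one_of_abs hr hy
    calc |ell t x y| ≤ Cb * (x ^ 2 + y ^ 2) := h1
      _ ≤ Cb * (1 + 1) := by gcongr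
      _ = 2 * Cb := by ring
  have hYC : ∀ u v ω, Y u v ω ^ 2 ≤ CF := by
    intro u v ω
    have h1 := hell θ _ _ hth.1 hth.2 (h.bound u ω) (h.bound v ω)
    have h2 := hell θ' _ _ hth'.1 hth'.2 (h'.bound u ω) (h'.bound v ω)
    have h3 : |Y u v ω| ≤ 4 * Cb := by
      refine (abs_sub _ _).trans ?_
      linarith
    calc Y u v ω ^ 2 = |Y u v ω| ^ 2 := (sq_abs _).symm
      _ ≤ (4 * Cb) ^ 2 := by gcongr
      _ ≤ CF := by rw [hCFdef, mul_pow]; linarith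
  have hvar' : ∀ j : ℕ, ∫ ω, (∑ i ∈ Finset.range j, Y (p i) (p (i + 1)) ω) ^ 2 ∂(labM V) ≤
        (j : ℝ) ^ 2 * (∫ ω, Y (p 0) (p 1) ω ∂(labM V)) ^ 2 +
          C₀ * j * ∫ ω, Y (p 0) (p 1) ω ^ 2 ∂(labM V) := fun j => hvar hY (hp (j + 1))
  have he0 : 0 ≤ e := integral_nonneg fun ω => sq_nonneg _
  have hy20 : 0 ≤ y2 := integral_nonneg fun ω => sq_nonneg _
  set δ := θ - θ' with hδ
  set l := √(Real.log (1 / ε₀)) with hl
  have hl0 : 0 ≤ l := Real.sqrt_nonneg _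
  have hDD4 : 1 + DD 4 C ε₀ ≤ A4 * l := one_add_DD_le hε hε1 (by norm_num) hC.le
  have hDDF : DD CF C ε₀ ≤ AF * l := by
    have := one_add_DD_le hε hε1 hCF hC.le
    linarith
  have hDD40 : 0 ≤ DD 4 C ε₀ := Real.sqrt_nonneg _
  have hDDF0 : 0 ≤ DD CF C ε₀ := Real.sqrt_nonneg _
  have hx : 0 < cc ρ * q := by positivity
  have hx1 : cc ρ * q ≤ 1 := mul_le_one₀ cc_le_one hq.le hq1
  -- series
  set f0 : ℕ → ℝ := fun j => (j : ℝ) ^ 0 * Real.exp (-(cc ρ * q * j)) with hf0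
  set f1 : ℕ → ℝ := fun j => (j : ℝ) ^ 1 * Real.exp (-(cc ρ * q * j)) with hf1
  set f2 : ℕ → ℝ := fun j => (j : ℝ) ^ 2 * Real.exp (-(cc ρ * q * j)) with hf2
  set fw : ℕ → ℝ := fun j => min 1 ((j : ℝ) ^ 2 * δ ^ 2) * Real.exp (-cc ρ * q * j) with hfw
  set g0 : ℕ → ℝ := fun j => (j : ℝ) ^ 0 * eta ρ ^ j with hg0
  set g2 : ℕ → ℝ := fun j => (j : ℝ) ^ 2 * eta ρ ^ j with hg2
  have s0 : Summable f0 := summable_pow_exp 0 hx
  have s1 : Summable f1 := summable_pow_exp 1 hx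
  have s2 : Summable f2 := summable_pow_exp 2 hx
  have t0 : Summable g0 := summable_pow_eta hρ 0
  have t2 : Summable g2 := summable_pow_eta hρ 2
  have hfw0 : ∀ j, 0 ≤ fw j := fun j =>
    mul_nonneg (le_min zero_le_one (by positivity)) (Real.exp_pos _).le
  have sw : Summable fw := by
    refine Summable.of_nonneg_of_le hfw0 (fun j => ?_) s0
    show min 1 ((j : ℝ) ^ 2 * δ ^ 2) * Real.exp (-cc ρ * q * j) ≤
      (j : ℝ) ^ 0 * Real.exp (-(cc ρ * q * j))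
    rw [pow_zero, show -cc ρ * q * (j : ℝ) = -(cc ρ * q * j) by ring]
    exact mul_le_mul_of_nonneg_right (min_le_left _ _) (Real.exp_pos _).le
  set c0 : ℝ := 3 * CA * e with hc0
  set c2 : ℝ := 3 * b1 ^ 2 with hc2
  set c1 : ℝ := 3 * C₀ * y2 with hc1
  set d0 : ℝ := 3 * CA * (1 + DD 4 C ε₀) * (eta ρ ^ 2)⁻¹ * (e + ε₀) with hd0
  set d2 : ℝ := 3 * DD CF C ε₀ * (eta ρ ^ 2)⁻¹ * (y2 + ε₀) +
          12 * (d : ℝ) ^ 2 * (1 + C) * (eta ρ ^ 2)⁻¹ * δ ^ 2 with hd2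
  have hc00 : 0 ≤ c0 := by positivity
  have hc10 : 0 ≤ c1 := by positivity
  have hc20 : 0 ≤ c2 := by positivity
  have hd00 : 0 ≤ d0 := by positivity
  have hd20 : 0 ≤ d2 := by positivity
  have hterm : ∀ j : ℕ, 2 * ((d : ℝ) - 1) ^ j *
      ∫ ω, (Kp θ (fun v => m v ω) p j - Kp θ' (fun v => m' v ω) p j) ^ 2 ∂(labM V) ≤
      4 * ((c0 * f0 j + c2 * f2 j + c1 * f1 j + kw * fw j) + (d0 * g0 j + d2 * g2 j)) := by
    intro j
    have b1' := level_bound hT hd hreg hr hρ hC hCF h hq hlam hlq hCA hFE hFm hF0 hFC hY hYC hp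
      hε hε1 hvar' (δ := δ) j
    have b2' := level_bound hT hd hreg hr hρ hC hCF h' hq hlam hlq hCA hFE hFm hF0 hFC hY hYC hp
      hε hε1 hvar' (δ := δ) j
    set H : Lab V → ℝ := fun ω => 3 * CA * Fv (p 0) ω +
        3 * (∑ i ∈ Finset.range j, Y (p i) (p (i + 1)) ω) ^ 2 +
        12 * (d : ℝ) ^ 2 * min 1 ((j : ℝ) ^ 2 * δ ^ 2) with hH
    have hmeasK : Measurable (fun ω => Kp θ (fun v => m v ω) p j) := measurable_Kp θ hmm p j
    have hmeasK' : Measurable (fun ω => Kp θ' (fun v => m' v ω) p j) := measurable_Kp θ' hmm' p j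
    obtain ⟨hYE, hYm, ⟨CY, hCY⟩, _⟩ := id hY
    have hSm : Measurable (fun ω => ∑ i ∈ Finset.range j, Y (p i) (p (i + 1)) ω) :=
      Finset.measurable_fun_sum _ fun i _ => hYm _ _
    have hHm : Measurable H :=
      (((hFm _).const_mul _).add ((hSm.pow_const 2).const_mul 3)).add_const _
    obtain ⟨CH, hCH⟩ : ∃ CH : ℝ, CH = 3 * CA * 4 + 3 * (j * |CY|) ^ 2 +
        12 * (d : ℝ) ^ 2 * min 1 ((j : ℝ) ^ 2 * δ ^ 2) := ⟨_, rfl⟩
    have hHb : ∀ ω, |H ω| ≤ CH := by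
      rw [hCH]
      intro ω
      have hw0 : 0 ≤ min 1 ((j : ℝ) ^ 2 * δ ^ 2) := le_min zero_le_one (by positivity)
      have hSb : (∑ i ∈ Finset.range j, Y (p i) (p (i + 1)) ω) ^ 2 ≤ (j * |CY|) ^ 2 := by
        rw [← sq_abs]
        refine pow_le_pow_left₀ (abs_nonneg _) ?_ _
        calc _ ≤ ∑ i ∈ Finset.range j, |Y (p i) (p (i + 1)) ω| := Finset.abs_sum_le_sum_abs _ _
          _ ≤ ∑ i ∈ Finset.range j, |CY| := Finset.sum_le_sum fun i _ =>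
              (hCY _ _ _).trans (le_abs_self _)
          _ = j * |CY| := by rw [Finset.sum_const, Finset.card_range, nsmul_eq_mul]
      have h3 := hFC (p 0) ω
      have h4 := hF0 (p 0) ω
      have h5 : 3 * CA * Fv (p 0) ω ≤ 3 * CA * 4 := by gcongr
      show |3 * CA * Fv (p 0) ω + 3 * (∑ i ∈ Finset.range j, Y (p i) (p (i + 1)) ω) ^ 2 +
        12 * (d : ℝ) ^ 2 * min 1 ((j : ℝ) ^ 2 * δ ^ 2)| ≤ _
      rw [abs_of_nonneg (by positivity)]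
      linarith
    have hKb : ∀ (t : ℝ) (mm : V → ℝ), 0 < t → t < 1 → (∀ v, |mm v| ≤ 1) →
        Kp t mm p j ^ 2 ≤ 1 := by
      intro t mm ht ht1 hmm1
      have h1 := kk_nonneg ht ht1 hmm1 p j
      have h2 := kk_le_one ht ht1 hmm1 p j
      rw [Kp_eq_kk ht]
      have h3 : t ^ j ≤ 1 := pow_le_one₀ ht.le ht1.le
      have h4 : 0 ≤ t ^ j := by positivity
      have h5 : t ^ j * kk t mm p j ≤ 1 := mul_le_one₀ h3 h1 h2
      exact pow_le_one₀ (by positivity) h5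
    have hHK : Integrable (fun ω => H ω * Kp θ (fun v => m v ω) p j ^ 2) (labM V) := by
      refine Integrable.of_bound (C := CH * 1) (hHm.mul (hmeasK.pow_const 2)).aestronglyMeasurable
        (Eventually.of_forall fun ω => ?_)
      rw [Real.norm_eq_abs, abs_mul, abs_of_nonneg (sq_nonneg (Kp θ (fun v => m v ω) p j))]
      exact mul_le_mul (hHb ω) (hKb θ _ h.th_pos (h.lt_one hd) fun v => h.abs_le_one hr v ω)
        (sq_nonneg _) ((abs_nonneg _).trans (hHb ω))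
    have hHK' : Integrable (fun ω => H ω * Kp θ' (fun v => m' v ω) p j ^ 2) (labM V) := by
      refine Integrable.of_bound (C := CH * 1) (hHm.mul (hmeasK'.pow_const 2)).aestronglyMeasurable
        (Eventually.of_forall fun ω => ?_)
      rw [Real.norm_eq_abs, abs_mul, abs_of_nonneg (sq_nonneg (Kp θ' (fun v => m' v ω) p j))]
      exact mul_le_mul (hHb ω) (hKb θ' _ h'.th_pos (h'.lt_one hd) fun v => h'.abs_le_one hr v ω)
        (sq_nonneg _) ((abs_nonneg _).trans (hHb ω))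
    have hpt : ∀ ω, (Kp θ (fun v => m v ω) p j - Kp θ' (fun v => m' v ω) p j) ^ 2 ≤
        H ω * Kp θ (fun v => m v ω) p j ^ 2 + H ω * Kp θ' (fun v => m' v ω) p j ^ 2 := by
      intro ω
      have := pointwise_log hd hr0 hr hth.1 hth.2 hth'.1 hth'.2 (m := fun v => m v ω)
        (m' := fun v => m' v ω) (fun v => h.bound v ω) (fun v => h'.bound v ω) p j
      rw [← mul_add]
      exact this
    have hI : ∫ ω, (Kp θ (fun v => m v ω) p j - Kp θ' (fun v => m' v ω) p j) ^ 2 ∂(labM V) ≤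
        ∫ ω, H ω * Kp θ (fun v => m v ω) p j ^ 2 ∂(labM V) +
        ∫ ω, H ω * Kp θ' (fun v => m' v ω) p j ^ 2 ∂(labM V) := by
      rw [← integral_add hHK hHK']
      exact integral_mono_of_nonneg (Eventually.of_forall fun ω => sq_nonneg _) (hHK.add hHK')
        (Eventually.of_forall hpt)
    have hdp : 0 ≤ ((d : ℝ) - 1) ^ j := by positivity
    calc _ ≤ 2 * ((d : ℝ) - 1) ^ j * (∫ ω, H ω * Kp θ (fun v => m v ω) p j ^ 2 ∂(labM V) +
        ∫ ω, H ω * Kp θ' (fun v => m' v ω) p j ^ 2 ∂(labM V)) := by gcongr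
      _ = 2 * (((d : ℝ) - 1) ^ j * ∫ ω, H ω * Kp θ (fun v => m v ω) p j ^ 2 ∂(labM V)) +
          2 * (((d : ℝ) - 1) ^ j * ∫ ω, H ω * Kp θ' (fun v => m' v ω) p j ^ 2 ∂(labM V)) := by
          ring
      _ ≤ 2 * ((c0 * f0 j + c2 * f2 j + c1 * f1 j + kw * fw j) + (d0 * g0 j + d2 * g2 j)) +
          2 * ((c0 * f0 j + c2 * f2 j + c1 * f1 j + kw * fw j) + (d0 * g0 j + d2 * g2 j)) :=
          add_le_add (mul_le_mul_of_nonneg_left b1' (by norm_num))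
            (mul_le_mul_of_nonneg_left b2' (by norm_num))
      _ = _ := by ring
  -- summation
  have hsum1 : Summable (fun j => c0 * f0 j + c2 * f2 j + c1 * f1 j + kw * fw j) :=
    (((s0.mul_left c0).add (s2.mul_left c2)).add (s1.mul_left c1)).add (sw.mul_left kw)
  have hsum2 : Summable (fun j => d0 * g0 j + d2 * g2 j) := (t0.mul_left d0).add (t2.mul_left d2)
  have hmain := tsum_le_of_le (fun j => ?_) hterm ((hsum1.add hsum2).mul_left 4)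
  swap
  · have : 0 ≤ ∫ ω, (Kp θ (fun v => m v ω) p j - Kp θ' (fun v => m' v ω) p j) ^ 2 ∂(labM V) :=
      integral_nonneg fun ω => sq_nonneg _
    positivity
  refine hmain.trans ?_
  have hT1 : ∑' j, (c0 * f0 j + c2 * f2 j + c1 * f1 j + kw * fw j) =
      c0 * ∑' j, f0 j + c2 * ∑' j, f2 j + c1 * ∑' j, f1 j + kw * ∑' j, fw j := by
    rw [(((s0.mul_left c0).add (s2.mul_left c2)).add (s1.mul_left c1)).tsum_add (sw.mul_left kw),
      ((s0.mul_left c0).add (s2.mul_left c2)).tsum_add (s1.mul_left c1),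
      (s0.mul_left c0).tsum_add (s2.mul_left c2), tsum_mul_left, tsum_mul_left, tsum_mul_left,
      tsum_mul_left]
  have hT2 : ∑' j, (d0 * g0 j + d2 * g2 j) = d0 * SE ρ 0 + d2 * SE ρ 2 := by
    rw [(t0.mul_left d0).tsum_add (t2.mul_left d2), tsum_mul_left, tsum_mul_left]
    rfl
  rw [tsum_mul_left, hsum1.tsum_add hsum2, hT1, hT2]
  set W := ∑' j, fw j with hW
  have hW0 : 0 ≤ W := tsum_nonneg hfw0
  have u0 : ∑' j, f0 j ≤ 4 / cc ρ * (1 / q) := by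
    refine (tsum_pow_exp_le 0 hx hx1).trans (le_of_eq ?_)
    simp; field_simp
  have u1 : ∑' j, f1 j ≤ 8 / cc ρ ^ 2 * (1 / q ^ 2) := by
    refine (tsum_pow_exp_le 1 hx hx1).trans (le_of_eq ?_)
    simp; field_simp; norm_num
  have u2 : ∑' j, f2 j ≤ 32 / cc ρ ^ 3 * (1 / q ^ 3) := by
    refine (tsum_pow_exp_le 2 hx hx1).trans (le_of_eq ?_)
    simp; field_simp; norm_num
  set T : ℝ := e / q + y2 / q ^ 2 + b1 ^ 2 / q ^ 3 + W + δ ^ 2 + l * (e + y2 + ε₀) with hTdef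
  have p1 : 0 ≤ e / q := by positivity
  have p2 : 0 ≤ y2 / q ^ 2 := by positivity
  have p3 : 0 ≤ b1 ^ 2 / q ^ 3 := by positivity
  have p4 : 0 ≤ δ ^ 2 := sq_nonneg _
  have p5 : 0 ≤ l * (e + y2 + ε₀) := by positivity
  have hT0 : 0 ≤ T := by positivity
  have v0 : c0 * ∑' j, f0 j ≤ k0 * T := by
    calc _ ≤ c0 * (4 / cc ρ * (1 / q)) := by gcongr
      _ = k0 * (e / q) := by rw [hc0, hk0]; ring
      _ ≤ k0 * T := by gcongr; rw [hTdef]; linarith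
  have v2 : c2 * ∑' j, f2 j ≤ k2 * T := by
    calc _ ≤ c2 * (32 / cc ρ ^ 3 * (1 / q ^ 3)) := by gcongr
      _ = k2 * (b1 ^ 2 / q ^ 3) := by rw [hc2, hk2]; ring
      _ ≤ k2 * T := by gcongr; rw [hTdef]; linarith
  have v1 : c1 * ∑' j, f1 j ≤ k1 * T := by
    calc _ ≤ c1 * (8 / cc ρ ^ 2 * (1 / q ^ 2)) := by gcongr
      _ = k1 * (y2 / q ^ 2) := by rw [hc1, hk1]; ring
      _ ≤ k1 * T := by gcongr; rw [hTdef]; linarith
  have vw : kw * W ≤ kw * T := by gcongr; rw [hTdef]; linarith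
  have va : d0 * SE ρ 0 ≤ ka * T := by
    calc d0 * SE ρ 0 = 3 * CA * (eta ρ ^ 2)⁻¹ * SE ρ 0 * ((1 + DD 4 C ε₀) * (e + ε₀)) := by
          rw [hd0]; ring
      _ ≤ 3 * CA * (eta ρ ^ 2)⁻¹ * SE ρ 0 * ((A4 * l) * (e + y2 + ε₀)) := by
          gcongr
          linarith
      _ = ka * (l * (e + y2 + ε₀)) := by rw [hka]; ring
      _ ≤ ka * T := by gcongr; rw [hTdef]; linarith
  have vb : d2 * SE ρ 2 ≤ kb * T + kc * T := by
    calc d2 * SE ρ 2 = 3 * (eta ρ ^ 2)⁻¹ * SE ρ 2 * (DD CF C ε₀ * (y2 + ε₀)) + kc * δ ^ 2 := by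
          rw [hd2, hkc]; ring
      _ ≤ 3 * (eta ρ ^ 2)⁻¹ * SE ρ 2 * ((AF * l) * (e + y2 + ε₀)) + kc * δ ^ 2 := by
          gcongr
          linarith
      _ = kb * (l * (e + y2 + ε₀)) + kc * δ ^ 2 := by rw [hkb]; ring
      _ ≤ kb * T + kc * T := by
          gcongr
          · rw [hTdef]; linarith
          · rw [hTdef]; linarith
  calc _ ≤ 4 * ((k0 * T + k2 * T + k1 * T + kw * T) + (ka * T + (kb * T + kc * T))) := by
        have : c0 * ∑' j, f0 j + c2 * ∑' j, f2 j + c1 * ∑' j, f1 j + kw * W ≤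
          k0 * T + k2 * T + k1 * T + kw * T := by linarith
        linarith
    _ ≤ (4 * (k0 + k1 + k2 + kw + ka + kb + kc) + 1) * T := final_arith hT0

end Crest.Agent.Lib.Row160
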