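import Crest.Agent.Lib.Row160.Defs

/-!
Geometry of the infinite regular tree: parents, homogeneity (the automorphism group acts
transitively on pairs of vertices at the same distance).
-/

set_option autoImplicit false

namespace Crest.Agent.Lib.Row160

open SimpleGraph

section basic

variable {V : Type*} {G : SimpleGraph V}

lemma dist_succ_of_adj (hT : G.IsTree) (o : V) {v w : V} (h : G.Adj v w) :
    G.dist o v = G.dist o w + 1 ∨ G.dist o w = G.dist o v + 1 :=
  hT.dist_eq_dist_add_one_of_adj o h

lemma parent_unique (hT : G.IsTree) (o : V) {v u u' : V} (h : G.Adj u v) (h' : G.Adj u' v)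
    (hd : G.dist o v = G.dist o u + 1) (hd' : G.dist o v = G.dist o u' + 1) : u = u' := by
  obtain ⟨p, hp, hpl⟩ := hT.connected.exists_path_of_dist o u
  obtain ⟨p', hp', hpl'⟩ := hT.connected.exists_path_of_dist o u'
  have hq : (p.concat h).IsPath := by
    apply Walk.isPath_of_length_eq_dist
    rw [Walk.length_concat, hpl, hd]
  have hq' : (p'.concat h').IsPath := by
    apply Walk.isPath_of_length_eq_dist
    rw [Walk.length_concat, hpl', hd']
  have heq : p.concat h = p'.concat h' := (hT.existsUnique_path o v).unique hq hq'
  have := congrArg Walk.penultimate heq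
  simpa using this

lemma exists_parent (hT : G.IsTree) (o : V) {v : V} (h : v ≠ o) :
    ∃ u, G.Adj u v ∧ G.dist o v = G.dist o u + 1 := by
  obtain ⟨p, hp, hpl⟩ := hT.connected.exists_path_of_dist v o
  cases p with
  | nil => exact absurd rfl h
  | @cons _ u _ hadj q =>
    refine ⟨u, hadj.symm, ?_⟩
    rw [Walk.length_cons] at hpl
    have h1 : G.dist u o ≤ q.length := G.dist_le q
    have h2 := hT.connected.dist_triangle (u := v) (v := u) (w := o)
    have h3 : G.dist v u = 1 := by rw [dist_eq_one_iff_adj]; exact hadj
    rw [dist_comm (u := o) (v := v), dist_comm (u := o) (v := u)]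
    omega

/-- children of `v` when the tree is rooted at `o` -/
def children (G : SimpleGraph V) (o v : V) : Set V := {w | G.Adj v w ∧ G.dist o w = G.dist o v + 1}

/-- the parent of `v` when the tree is rooted at `o` (equal to `o` for `v = o`) -/
noncomputable def par (G : SimpleGraph V) (o v : V) : V := by
  classical exact if h : ∃ u, G.Adj u v ∧ G.dist o v = G.dist o u + 1 then h.choose else o

lemma par_spec (hT : G.IsTree) (o : V) {v : V} (h : v ≠ o) :
    G.Adj (par G o v) v ∧ G.dist o v = G.dist o (par G o v) + 1 := by
  have := exists_parent hT o h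
  unfold par
  rw [dif_pos this]
  exact this.choose_spec

lemma par_eq (hT : G.IsTree) (o : V) {v u : V} (h : G.Adj u v)
    (hd : G.dist o v = G.dist o u + 1) : par G o v = u := by
  have hne : v ≠ o := by
    rintro rfl
    simp at hd
  have := par_spec hT o hne
  exact parent_unique hT o this.1 h this.2 hd

lemma par_of_mem_children (hT : G.IsTree) {o v w : V} (h : w ∈ children G o v) :
    par G o w = v := par_eq hT o h.1 h.2

lemma mem_children_par (hT : G.IsTree) {o v : V} (h : v ≠ o) :
    v ∈ children G o (par G o v) := ⟨(par_spec hT o h).1, (par_spec hT o h).2⟩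

lemma ne_of_mem_children {o v w : V} (h : w ∈ children G o v) : w ≠ o := by
  rintro rfl
  have := h.2
  simp at this

variable [G.LocallyFinite]

lemma children_finite (o v : V) : (children G o v).Finite := by
  refine Set.Finite.subset (G.neighborFinset v).finite_toSet ?_
  intro w hw
  simpa using hw.1

lemma ncard_children_root {d : ℕ} (hreg : G.IsRegularOfDegree d) (o : V) :
    (children G o o).ncard = d := by
  have : children G o o = (G.neighborFinset o : Set V) := by
    ext w
    simp only [children, Set.mem_ofPred_eq, dist_self, zero_add, coe_neighborFinset,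
      mem_neighborSet, and_iff_left_iff_imp]
    intro h
    exact dist_eq_one_iff_adj.2 h
  rw [this, Set.ncard_coe_finset, card_neighborFinset_eq_degree]
  exact hreg o

lemma ncard_children (hT : G.IsTree) {d : ℕ} (hreg : G.IsRegularOfDegree d) {o v : V}
    (h : v ≠ o) : (children G o v).ncard = d - 1 := by
  classical
  have hp := par_spec hT o h
  have : children G o v = ((G.neighborFinset v).erase (par G o v) : Set V) := by
    ext w
    simp only [children, Set.mem_ofPred_eq, Finset.coe_erase, coe_neighborFinset,
      Set.mem_sdiff, mem_neighborSet, Set.mem_singleton_iff]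
    constructor
    · rintro ⟨h1, h2⟩
      refine ⟨h1, ?_⟩
      rintro rfl
      omega
    · rintro ⟨h1, h2⟩
      refine ⟨h1, ?_⟩
      rcases dist_succ_of_adj hT o h1 with h3 | h3
      · exact absurd (parent_unique hT o h1.symm hp.1 h3 hp.2) h2
      · exact h3
  rw [this, Set.ncard_coe_finset, Finset.card_erase_of_mem, card_neighborFinset_eq_degree, hreg v]
  simpa using hp.1.symm

end basic

section iso

lemma iso_dist_le {V V' : Type*} {G : SimpleGraph V} {G' : SimpleGraph V'}
    (hG : G.Connected) (φ : G ≃g G') (x y : V) :
    G'.dist (φ x) (φ y) ≤ G.dist x y := by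
  obtain ⟨p, hp⟩ := hG.exists_walk_length_eq_dist x y
  rw [← hp]
  have := G'.dist_le (p.map φ.toHom)
  simpa using this

lemma iso_dist {V V' : Type*} {G : SimpleGraph V} {G' : SimpleGraph V'}
    (hG : G.Connected) (φ : G ≃g G') (x y : V) :
    G'.dist (φ x) (φ y) = G.dist x y := by
  apply le_antisymm (iso_dist_le hG φ x y)
  have := iso_dist_le ((Iso.connected_iff φ).1 hG) φ.symm (φ x) (φ y)
  simpa using this

lemma exists_bijOn_mark {α β : Type*} [Nonempty β] {A : Set α} {B : Set β} (hA : A.Finite)
    (hB : B.Finite) (h : A.ncard = B.ncard) (a : α) (b : β) :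
    ∃ f : α → β, Set.BijOn f A B ∧ (a ∈ A → b ∈ B → f a = b) := by
  classical
  obtain ⟨f, hf⟩ : ∃ f : α → β, Set.BijOn f A B := by
    obtain ⟨f, hf⟩ := hA.exists_bijOn_of_encard_eq (t := B) (by
      rw [← Set.Finite.cast_ncard_eq hA, ← Set.Finite.cast_ncard_eq hB, h])
    exact ⟨f, hf⟩
  by_cases hab : a ∈ A ∧ b ∈ B
  · refine ⟨fun x => Equiv.swap (f a) b (f x), ?_, ?_⟩
    · have h2 : Set.BijOn (Equiv.swap (f a) b) B B := by
        refine ⟨?_, (Equiv.injective _).injOn, ?_⟩
        · intro x hx
          rcases Equiv.swap_apply_eq_iff.1 (rfl : Equiv.swap (f a) b x = Equiv.swap (f a) b x) with _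
          by_cases h1 : x = f a
          · subst h1
            simpa using hab.2
          · by_cases h2 : x = b
            · subst h2
              simpa using hf.mapsTo hab.1
            · rw [Equiv.swap_apply_of_ne_of_ne h1 h2]
              exact hx
        · intro x hx
          refine ⟨Equiv.swap (f a) b x, ?_, by simp⟩
          by_cases h1 : x = f a
          · subst h1
            simpa using hab.2
          · by_cases h2 : x = b
            · subst h2
              simpa using hf.mapsTo hab.1
            · rw [Equiv.swap_apply_of_ne_of_ne h1 h2]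
              exact hx
      exact h2.comp hf
    · intro _ _
      simp
  · exact ⟨f, hf, fun h1 h2 => absurd ⟨h1, h2⟩ hab⟩

variable {V V' : Type*} {G : SimpleGraph V} {G' : SimpleGraph V'}

/-- the map between two rooted trees determined by choosing maps between children sets -/
noncomputable def isoFun (hT : G.IsTree) (o : V) (o' : V') (e : V → V' → V → V') : V → V' :=
  WellFounded.fix (C := fun _ => V') (measure (fun v => G.dist o v)).wf (fun v F =>
    haveI := Classical.dec (v = o)
    if h : v = o then o' else e (par G o v) (F (par G o v) (by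
      have := (par_spec hT o h).2
      show G.dist o (par G o v) < G.dist o v
      omega)) v)

lemma isoFun_root (hT : G.IsTree) (o : V) (o' : V') (e : V → V' → V → V') :
    isoFun hT o o' e o = o' := by
  unfold isoFun
  rw [WellFounded.fix_eq]
  simp

lemma isoFun_ne (hT : G.IsTree) (o : V) (o' : V') (e : V → V' → V → V') {v : V} (h : v ≠ o) :
    isoFun hT o o' e v = e (par G o v) (isoFun hT o o' e (par G o v)) v := by
  conv_lhs => unfold isoFun
  rw [WellFounded.fix_eq]
  simp only [h, ↓reduceDIte]
  rfl

section
variable (hT : G.IsTree) (hT' : G'.IsTree) (o : V) (o' : V') (e : V → V' → V → V')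
  (he : ∀ v v', G.dist o v = G'.dist o' v' → Set.BijOn (e v v') (children G o v)
    (children G' o' v'))

include he

lemma isoFun_level : ∀ (n : ℕ) (v : V), G.dist o v = n → G'.dist o' (isoFun hT o o' e v) = n := by
  intro n
  induction n with
  | zero =>
    intro v hv
    have : v = o := ((hT.connected.dist_eq_zero_iff).1 hv).symm
    subst this
    rw [isoFun_root, dist_self]
  | succ n ih =>
    intro v hv
    have hne : v ≠ o := by
      rintro rfl
      simp at hv
    have hp := par_spec hT o hne
    have h1 : G.dist o (par G o v) = n := by omega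
    have h2 := ih _ h1
    rw [isoFun_ne hT o o' e hne]
    have := (he (par G o v) (isoFun hT o o' e (par G o v)) (by rw [h1, h2])).mapsTo
      (mem_children_par hT hne)
    rw [this.2, h2]

lemma isoFun_dist (v : V) : G'.dist o' (isoFun hT o o' e v) = G.dist o v :=
  isoFun_level hT o o' e he _ v rfl

lemma isoFun_mem {v : V} (h : v ≠ o) :
    isoFun hT o o' e v ∈ children G' o' (isoFun hT o o' e (par G o v)) := by
  rw [isoFun_ne hT o o' e h]
  exact (he (par G o v) (isoFun hT o o' e (par G o v)) (isoFun_dist hT o o' e he _).symm).mapsTo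
      (mem_children_par hT h)

include hT' in
lemma isoFun_injective : Function.Injective (isoFun hT o o' e) := by
  have key : ∀ (n : ℕ) (v w : V), G.dist o v = n → isoFun hT o o' e v = isoFun hT o o' e w →
      v = w := by
    intro n
    induction n with
    | zero =>
      intro v w hv hvw
      have h1 := isoFun_dist hT o o' e he v
      have h2 := isoFun_dist hT o o' e he w
      rw [← hvw, h1, hv] at h2
      rw [← (hT.connected.dist_eq_zero_iff).1 hv, ← (hT.connected.dist_eq_zero_iff).1 h2.symm]
    | succ n ih =>
      intro v w hv hvw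
      have h1 := isoFun_dist hT o o' e he v
      have h2 := isoFun_dist hT o o' e he w
      rw [← hvw, h1, hv] at h2
      have hv0 : v ≠ o := by
        rintro rfl
        simp at hv
      have hw0 : w ≠ o := by
        rintro rfl
        simp at h2
      have hm1 := isoFun_mem hT o o' e he hv0
      have hm2 := isoFun_mem hT o o' e he hw0
      have hp1 := par_of_mem_children hT' hm1
      have hp2 := par_of_mem_children hT' hm2
      rw [← hvw, hp1] at hp2
      have hpar : par G o v = par G o w := by
        refine ih _ _ ?_ hp2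
        have := (par_spec hT o hv0).2
        omega
      rw [isoFun_ne hT o o' e hv0, isoFun_ne hT o o' e hw0, ← hpar] at hvw
      refine (he (par G o v) (isoFun hT o o' e (par G o v))
        (isoFun_dist hT o o' e he _).symm).injOn (mem_children_par hT hv0) ?_ hvw
      rw [hpar]
      exact mem_children_par hT hw0
  intro v w h
  exact key _ v w rfl h

include hT' in
lemma isoFun_surjective : Function.Surjective (isoFun hT o o' e) := by
  have key : ∀ (n : ℕ) (v' : V'), G'.dist o' v' = n → ∃ v, isoFun hT o o' e v = v' := by
    intro n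
    induction n with
    | zero =>
      intro v' hv
      exact ⟨o, by rw [isoFun_root]; exact (hT'.connected.dist_eq_zero_iff).1 hv⟩
    | succ n ih =>
      intro v' hv
      have hv0 : v' ≠ o' := by
        rintro rfl
        simp at hv
      have hp := par_spec hT' o' hv0
      obtain ⟨u, hu⟩ := ih (par G' o' v') (by omega)
      have hb := he u (par G' o' v') (by rw [← hu, isoFun_dist hT o o' e he])
      obtain ⟨v, hv1, hv2⟩ := hb.surjOn (mem_children_par hT' hv0)
      refine ⟨v, ?_⟩
      have hpar := par_of_mem_children hT hv1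
      rw [isoFun_ne hT o o' e (ne_of_mem_children hv1), hpar, hu, hv2]
  intro v'
  exact key _ v' rfl

include hT' in
lemma isoFun_adj {v w : V} :
    G'.Adj (isoFun hT o o' e v) (isoFun hT o o' e w) ↔ G.Adj v w := by
  have h1 : ∀ {v w : V}, G.Adj v w → G.dist o w = G.dist o v + 1 →
      G'.Adj (isoFun hT o o' e v) (isoFun hT o o' e w) := by
    intro v w hvw hd
    have hw0 : w ≠ o := by
      rintro rfl
      simp at hd
    have hm := isoFun_mem hT o o' e he hw0
    rw [par_eq hT o hvw hd] at hm
    exact hm.1
  have h2 : ∀ {v w : V}, G'.Adj (isoFun hT o o' e v) (isoFun hT o o' e w) →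
      G'.dist o' (isoFun hT o o' e w) = G'.dist o' (isoFun hT o o' e v) + 1 → G.Adj v w := by
    intro v w hvw hd
    have hd2 := hd
    rw [isoFun_dist hT o o' e he, isoFun_dist hT o o' e he] at hd2
    have hw0 : w ≠ o := by
      rintro rfl
      simp at hd2
    have hm := isoFun_mem hT o o' e he hw0
    have h3 := parent_unique hT' o' hm.1 hvw hm.2 hd
    have h4 := isoFun_injective hT hT' o o' e he h3
    rw [← h4]
    exact (par_spec hT o hw0).1
  constructor
  · intro h
    rcases dist_succ_of_adj hT' o' h with h3 | h3
    · exact (h2 h.symm h3).symm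
    · exact h2 h h3
  · intro h
    rcases dist_succ_of_adj hT o h with h3 | h3
    · exact (h1 h.symm h3).symm
    · exact h1 h h3

end

/-- two regular trees with marked geodesics of the same length are isomorphic -/
theorem exists_iso_geodesic [G.LocallyFinite] [G'.LocallyFinite] (hT : G.IsTree)
    (hT' : G'.IsTree) {d : ℕ} (hreg : G.IsRegularOfDegree d) (hreg' : G'.IsRegularOfDegree d)
    {n : ℕ} (γ : ℕ → V) (γ' : ℕ → V')
    (hadj : ∀ i < n, G.Adj (γ i) (γ (i + 1))) (hadj' : ∀ i < n, G'.Adj (γ' i) (γ' (i + 1)))
    (hd : ∀ i ≤ n, G.dist (γ 0) (γ i) = i) (hd' : ∀ i ≤ n, G'.dist (γ' 0) (γ' i) = i) :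
    ∃ φ : G ≃g G', ∀ i ≤ n, φ (γ i) = γ' i := by
  classical
  set o := γ 0 with ho
  set o' := γ' 0 with ho'
  have hne : Nonempty V' := ⟨o'⟩
  have hex : ∀ (v : V) (v' : V'), ∃ f : V → V', G.dist o v = G'.dist o' v' →
      (Set.BijOn f (children G o v) (children G' o' v') ∧
        (γ (G.dist o v + 1) ∈ children G o v → γ' (G.dist o v + 1) ∈ children G' o' v' →
          f (γ (G.dist o v + 1)) = γ' (G.dist o v + 1))) := by
    intro v v'
    by_cases h : G.dist o v = G'.dist o' v'
    · have hcard : (children G o v).ncard = (children G' o' v').ncard := by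
        by_cases hv : v = o
        · subst hv
          rw [dist_self] at h
          have : v' = o' := ((hT'.connected.dist_eq_zero_iff).1 h.symm).symm
          rw [this, ncard_children_root hreg, ncard_children_root hreg']
        · have hv' : v' ≠ o' := by
            rintro rfl
            rw [dist_self] at h
            exact hv ((hT.connected.dist_eq_zero_iff).1 h).symm
          rw [ncard_children hT hreg hv, ncard_children hT' hreg' hv']
      obtain ⟨f, hf1, hf2⟩ := exists_bijOn_mark (children_finite o v) (children_finite o' v')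
        hcard (γ (G.dist o v + 1)) (γ' (G.dist o v + 1))
      exact ⟨f, fun _ => ⟨hf1, hf2⟩⟩
    · exact ⟨fun _ => o', fun h' => absurd h' h⟩
  choose e he using hex
  have heb : ∀ v v', G.dist o v = G'.dist o' v' → Set.BijOn (e v v') (children G o v)
    (children G' o' v') := fun v v' h => (he v v' h).1
  refine ⟨⟨Equiv.ofBijective (isoFun hT o o' e) ⟨isoFun_injective hT hT' o o' e heb,
    isoFun_surjective hT hT' o o' e heb⟩, ?_⟩, ?_⟩
  · intro v w
    exact isoFun_adj hT hT' o o' e heb
  · intro i
    show i ≤ n → isoFun hT o o' e (γ i) = γ' i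
    induction i with
    | zero => intro _; exact isoFun_root hT o o' e
    | succ i ih =>
      intro hi
      have ih' := ih (by omega)
      have hmem : γ (i + 1) ∈ children G o (γ i) :=
        ⟨hadj i (by omega), by rw [hd (i + 1) hi, hd i (by omega)]⟩
      have hmem' : γ' (i + 1) ∈ children G' o' (γ' i) :=
        ⟨hadj' i (by omega), by rw [hd' (i + 1) hi, hd' i (by omega)]⟩
      rw [isoFun_ne hT o o' e (ne_of_mem_children hmem), par_of_mem_children hT hmem, ih']
      have h3 := (he (γ i) (γ' i) (by rw [hd i (by omega), hd' i (by omega)])).2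
      rw [hd i (by omega)] at h3
      exact h3 hmem hmem'

lemma exists_geodesic (hT : G.IsTree) (x y : V) :
    ∃ γ : ℕ → V, γ 0 = x ∧ γ (G.dist x y) = y ∧ (∀ i < G.dist x y, G.Adj (γ i) (γ (i + 1))) ∧
      (∀ i ≤ G.dist x y, G.dist x (γ i) = i) := by
  obtain ⟨p, hp, hpl⟩ := hT.connected.exists_path_of_dist x y
  refine ⟨p.getVert, by simp, by rw [← hpl]; simp, ?_, ?_⟩
  · intro i hi
    exact p.adj_getVert_succ (by omega)
  · intro i hi
    have h1 : G.dist x (p.getVert i) ≤ i := by
      have := G.dist_le (p.take i)
      simpa [Walk.take_length, hpl, hi] using this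
    have h2 : G.dist (p.getVert i) y ≤ G.dist x y - i := by
      have := G.dist_le (p.drop i)
      simpa [Walk.drop_length, hpl] using this
    have h3 := hT.connected.dist_triangle (u := x) (v := p.getVert i) (w := y)
    omega

/-- homogeneity: pairs of vertices at the same distance are related by an automorphism. -/
theorem exists_aut_pair [G.LocallyFinite] (hT : G.IsTree) {d : ℕ} (hreg : G.IsRegularOfDegree d)
    {x y x' y' : V} (h : G.dist x y = G.dist x' y') : ∃ φ : G ≃g G, φ x = x' ∧ φ y = y' := by
  obtain ⟨γ, h0, h1, h2, h3⟩ := exists_geodesic hT x y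
  obtain ⟨γ', h0', h1', h2', h3'⟩ := exists_geodesic hT x' y'
  rw [← h] at h1' h2' h3'
  obtain ⟨φ, hφ⟩ := exists_iso_geodesic hT hT hreg hreg γ γ' h2 h2'
    (by rw [h0]; exact h3) (by rw [h0']; exact h3')
  refine ⟨φ, ?_, ?_⟩
  · rw [← h0, ← h0']
    exact hφ 0 (Nat.zero_le _)
  · rw [← h1', ← hφ _ le_rfl, h1]

/-- any two vertices can be swapped -/
theorem exists_swap [G.LocallyFinite] (hT : G.IsTree) {d : ℕ} (hreg : G.IsRegularOfDegree d)
    (x y : V) : ∃ φ : G ≃g G, φ x = y ∧ φ y = x :=
  exists_aut_pair hT hreg (dist_comm)

/-- distances from the start of a non-backtracking path. -/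
theorem IsGeo.dist_zero (hT : G.IsTree) {k : ℕ} {p : ℕ → V} (hp : IsGeo G k p) :
    ∀ i ≤ k, G.dist (p 0) (p i) = i := by
  intro i
  induction i using Nat.strong_induction_on with
  | _ i ih =>
    intro hi
    match i, ih, hi with
    | 0, _, _ => exact dist_self
    | 1, _, hi => exact dist_eq_one_iff_adj.2 (hp.1 0 (by omega))
    | (n + 2), ih, hi =>
      have h1 := ih (n + 1) (by omega) (by omega)
      have h0 := ih n (by omega) (by omega)
      rcases dist_succ_of_adj hT (p 0) (hp.1 (n + 1) (by omega)) with h | h
      · exfalso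
        refine hp.2 n (by omega) ?_
        exact parent_unique hT (p 0) (hp.1 n (by omega)) (hp.1 (n + 1) (by omega)).symm
          (by rw [h1, h0]) h
      · rw [h, h1]

/-- any two non-backtracking paths of the same length are related by an automorphism. -/
theorem exists_aut [G.LocallyFinite] {d : ℕ} (hT : G.IsTree) (hd : 3 ≤ d)
    (hreg : G.IsRegularOfDegree d) {k : ℕ}
    {p p' : ℕ → V} (hp : IsGeo G k p) (hp' : IsGeo G k p') :
    ∃ g : G ≃g G, ∀ i ≤ k, g (p i) = p' i :=
  exists_iso_geodesic hT hT hreg hreg p p' hp.1 hp'.1 (hp.dist_zero hT) (hp'.dist_zero hT)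

end iso

end Crest.Agent.Lib.Row160
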