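import Crest.Agent.Lib.Row160.Win
import Crest.Agent.Lib.Row160.TreeMetric
import Crest.Agent.Lib.Row160.EdgeFun

/-!
Row 160, M2b: Ising windows on trees.
-/

set_option autoImplicit false
open MeasureTheory Filter Topology

namespace Crest.Agent.Lib.Row160

section M2b
variable {V : Type*} {G : SimpleGraph V}

open Classical in
theorem TreeWin_sum_powerset_union {W₁ W₂ : Finset V} (hd : Disjoint W₁ W₂) (F : Finset V → ℝ) :
    ∑ A ∈ (W₁ ∪ W₂).powerset, F A =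
      ∑ A₁ ∈ W₁.powerset, ∑ A₂ ∈ W₂.powerset, F (A₁ ∪ A₂) := by
  rw [← Finset.sum_product']
  refine Finset.sum_bij' (fun A _ => (A ∩ W₁, A ∩ W₂)) (fun B _ => B.1 ∪ B.2) ?_ ?_ ?_ ?_ ?_
  · intro A _
    simp [Finset.inter_subset_right]
  · intro B hB
    simp only [Finset.mem_product, Finset.mem_powerset] at hB ⊢
    exact Finset.union_subset_union hB.1 hB.2
  · intro A hA
    rw [Finset.mem_powerset] at hA
    change A ∩ W₁ ∪ A ∩ W₂ = A
    rw [← Finset.inter_union_distrib_left, Finset.inter_eq_left.mpr hA]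
  · rintro ⟨A, B⟩ hB
    simp only [Finset.mem_product, Finset.mem_powerset] at hB
    obtain ⟨hA, hB⟩ := hB
    have h1 : Disjoint A W₂ := Disjoint.mono_left hA hd
    have h2 : Disjoint B W₁ := (Disjoint.mono_right hB hd).symm
    ext w
    · simp only [Finset.mem_inter, Finset.mem_union]
      constructor
      · rintro ⟨h | h, h'⟩
        · exact h
        · exact absurd h' (Finset.disjoint_left.mp h2 h)
      · intro h
        exact ⟨Or.inl h, hA h⟩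
    · simp only [Finset.mem_inter, Finset.mem_union]
      constructor
      · rintro ⟨h | h, h'⟩
        · exact absurd h' (Finset.disjoint_left.mp h1 h)
        · exact h
      · intro h
        exact ⟨Or.inr h, hB h⟩
  · intro A hA
    rw [Finset.mem_powerset] at hA
    change F A = F (A ∩ W₁ ∪ A ∩ W₂)
    rw [← Finset.inter_union_distrib_left, Finset.inter_eq_left.mpr hA]

theorem TreeWin_sp_left [DecidableEq V] {W₁ W₂ A₁ A₂ : Finset V} (hd : Disjoint W₁ W₂)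
    (h₂ : A₂ ⊆ W₂) {v : V} (hv : v ∈ W₁) : sp (A₁ ∪ A₂) v = sp A₁ v := by
  have : v ∉ A₂ := fun h => Finset.disjoint_left.mp hd hv (h₂ h)
  unfold sp
  simp [this]

theorem TreeWin_sp_right [DecidableEq V] {W₁ W₂ A₁ A₂ : Finset V} (hd : Disjoint W₁ W₂)
    (h₁ : A₁ ⊆ W₁) {v : V} (hv : v ∈ W₂) : sp (A₁ ∪ A₂) v = sp A₂ v := by
  have : v ∉ A₁ := fun h => Finset.disjoint_left.mp hd (h₁ h) hv
  unfold sp
  simp [this]

open Classical in
/-- factorisation of the weight when a single edge connects the two windows. -/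
theorem TreeWin_wt_union (θ : ℝ) {W₁ W₂ : Finset V} (hd : Disjoint W₁ W₂) {p q : V}
    (hpq : G.Adj p q) (hp : p ∈ W₁) (hq : q ∈ W₂)
    (hE : ∀ u ∈ W₁, ∀ v ∈ W₂, G.Adj u v → u = p ∧ v = q) (x : V → ℝ)
    {A₁ A₂ : Finset V} (h₁ : A₁ ⊆ W₁) (h₂ : A₂ ⊆ W₂) :
    wt G θ (W₁ ∪ W₂) x (A₁ ∪ A₂) =
      wt G θ W₁ x A₁ * wt G θ W₂ x A₂ * (1 + θ * sp A₁ p * sp A₂ q) := by
  have hmem1 : ∀ v ∈ W₁, (v ∈ A₁ ∪ A₂ ↔ v ∈ A₁) := fun v hv => by
    have : v ∉ A₂ := fun h => Finset.disjoint_left.mp hd hv (h₂ h)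
    simp [this]
  have hmem2 : ∀ v ∈ W₂, (v ∈ A₁ ∪ A₂ ↔ v ∈ A₂) := fun v hv => by
    have : v ∉ A₁ := fun h => Finset.disjoint_left.mp hd (h₁ h) hv
    simp [this]
  have hedges : (W₁ ∪ W₂).sym2.filter (fun e => e ∈ G.edgeSet) =
      insert s(p, q) (W₁.sym2.filter (fun e => e ∈ G.edgeSet) ∪
        W₂.sym2.filter (fun e => e ∈ G.edgeSet)) := by
    ext e
    induction e using Sym2.ind with
    | _ a b =>
      simp only [Finset.mem_filter, Finset.mk_mem_sym2_iff, Finset.mem_union, Finset.mem_insert,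
        SimpleGraph.mem_edgeSet]
      constructor
      · rintro ⟨⟨ha | ha, hb | hb⟩, hab⟩
        · exact Or.inr (Or.inl ⟨⟨ha, hb⟩, hab⟩)
        · obtain ⟨rfl, rfl⟩ := hE a ha b hb hab
          exact Or.inl rfl
        · obtain ⟨rfl, rfl⟩ := hE b hb a ha hab.symm
          exact Or.inl Sym2.eq_swap
        · exact Or.inr (Or.inr ⟨⟨ha, hb⟩, hab⟩)
      · rintro (h | ⟨⟨ha, hb⟩, hab⟩ | ⟨⟨ha, hb⟩, hab⟩)
        · rw [Sym2.eq_iff] at h
          rcases h with ⟨rfl, rfl⟩ | ⟨rfl, rfl⟩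
          · exact ⟨⟨Or.inl hp, Or.inr hq⟩, hpq⟩
          · exact ⟨⟨Or.inr hq, Or.inl hp⟩, hpq.symm⟩
        · exact ⟨⟨Or.inl ha, Or.inl hb⟩, hab⟩
        · exact ⟨⟨Or.inr ha, Or.inr hb⟩, hab⟩
  have hdis : Disjoint (W₁.sym2.filter (fun e => e ∈ G.edgeSet))
      (W₂.sym2.filter (fun e => e ∈ G.edgeSet)) := by
    rw [Finset.disjoint_left]
    intro e
    induction e using Sym2.ind with
    | _ a b =>
      simp only [Finset.mem_filter, Finset.mk_mem_sym2_iff]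
      rintro ⟨⟨ha, _⟩, _⟩ ⟨⟨ha', _⟩, _⟩
      exact Finset.disjoint_left.mp hd ha ha'
  have hnot : s(p, q) ∉ (W₁.sym2.filter (fun e => e ∈ G.edgeSet) ∪
        W₂.sym2.filter (fun e => e ∈ G.edgeSet)) := by
    simp only [Finset.mem_union, Finset.mem_filter, Finset.mk_mem_sym2_iff]
    rintro (⟨⟨_, h⟩, _⟩ | ⟨⟨h, _⟩, _⟩)
    · exact Finset.disjoint_left.mp hd h hq
    · exact Finset.disjoint_left.mp hd hp h
  have hpe : (if (Sym2.map (fun v => decide (v ∈ A₁ ∪ A₂)) s(p, q)).IsDiag then 1 + θ else 1 - θ) =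
      1 + θ * sp A₁ p * sp A₂ q := by
    simp only [Sym2.map_mk, Sym2.mk_isDiag_iff, hmem1 p hp, hmem2 q hq]
    unfold sp
    by_cases h : p ∈ A₁ <;> by_cases h' : q ∈ A₂ <;> simp [h, h'] <;> ring
  have hf1 : ∏ e ∈ W₁.sym2 with e ∈ G.edgeSet,
      (if (Sym2.map (fun v => decide (v ∈ A₁ ∪ A₂)) e).IsDiag then 1 + θ else 1 - θ) =
      ∏ e ∈ W₁.sym2 with e ∈ G.edgeSet,
      (if (Sym2.map (fun v => decide (v ∈ A₁)) e).IsDiag then 1 + θ else 1 - θ) := by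
    refine Finset.prod_congr rfl fun e he => ?_
    have : Sym2.map (fun v => decide (v ∈ A₁ ∪ A₂)) e = Sym2.map (fun v => decide (v ∈ A₁)) e := by
      refine Sym2.map_congr fun w hw => ?_
      have hw1 : w ∈ W₁ := (Finset.mem_sym2_iff.mp (Finset.mem_filter.mp he).1) w hw
      simp only [hmem1 w hw1]
    rw [this]
  have hf2 : ∏ e ∈ W₂.sym2 with e ∈ G.edgeSet,
      (if (Sym2.map (fun v => decide (v ∈ A₁ ∪ A₂)) e).IsDiag then 1 + θ else 1 - θ) =
      ∏ e ∈ W₂.sym2 with e ∈ G.edgeSet,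
      (if (Sym2.map (fun v => decide (v ∈ A₂)) e).IsDiag then 1 + θ else 1 - θ) := by
    refine Finset.prod_congr rfl fun e he => ?_
    have : Sym2.map (fun v => decide (v ∈ A₁ ∪ A₂)) e = Sym2.map (fun v => decide (v ∈ A₂)) e := by
      refine Sym2.map_congr fun w hw => ?_
      have hw1 : w ∈ W₂ := (Finset.mem_sym2_iff.mp (Finset.mem_filter.mp he).1) w hw
      simp only [hmem2 w hw1]
    rw [this]
  have hv1 : ∏ v ∈ W₁, (Real.exp (x v * sp (A₁ ∪ A₂) v) / 2) =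
      ∏ v ∈ W₁, (Real.exp (x v * sp A₁ v) / 2) :=
    Finset.prod_congr rfl fun v hv => by rw [TreeWin_sp_left hd h₂ hv]
  have hv2 : ∏ v ∈ W₂, (Real.exp (x v * sp (A₁ ∪ A₂) v) / 2) =
      ∏ v ∈ W₂, (Real.exp (x v * sp A₂ v) / 2) :=
    Finset.prod_congr rfl fun v hv => by rw [TreeWin_sp_right hd h₁ hv]
  unfold wt
  rw [hedges, Finset.prod_insert hnot, Finset.prod_union hdis, hpe, hf1, hf2,
    Finset.prod_union hd, hv1, hv2]
  ring

open Classical in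
/-- the basic identity: unnormalised averages of products. -/
theorem TreeWin_sum_union {θ : ℝ} (h0 : 0 ≤ θ) (h1 : θ < 1)
    {W₁ W₂ : Finset V} (hd : Disjoint W₁ W₂)
    {p q : V} (hpq : G.Adj p q) (hp : p ∈ W₁) (hq : q ∈ W₂)
    (hE : ∀ u ∈ W₁, ∀ v ∈ W₂, G.Adj u v → u = p ∧ v = q) (x : V → ℝ)
    (f f₁ f₂ : Finset V → ℝ)
    (hf : ∀ A₁ ⊆ W₁, ∀ A₂ ⊆ W₂, f (A₁ ∪ A₂) = f₁ A₁ * f₂ A₂) :
    ∑ A ∈ (W₁ ∪ W₂).powerset, wt G θ (W₁ ∪ W₂) x A * f A =
      Zw G θ W₁ x * Zw G θ W₂ x * (av G θ W₁ x f₁ * av G θ W₂ x f₂ +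
        θ * av G θ W₁ x (fun A => sp A p * f₁ A) * av G θ W₂ x (fun A => sp A q * f₂ A)) := by
  have hZ1 := (Zw_pos G h0 h1 W₁ x).ne'
  have hZ2 := (Zw_pos G h0 h1 W₂ x).ne'
  have e1 : Zw G θ W₁ x * Zw G θ W₂ x * (av G θ W₁ x f₁ * av G θ W₂ x f₂ +
        θ * av G θ W₁ x (fun A => sp A p * f₁ A) * av G θ W₂ x (fun A => sp A q * f₂ A)) =
      (∑ A ∈ W₁.powerset, wt G θ W₁ x A * f₁ A) * (∑ A ∈ W₂.powerset, wt G θ W₂ x A * f₂ A) +
      θ * ((∑ A ∈ W₁.powerset, wt G θ W₁ x A * (sp A p * f₁ A)) *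
        (∑ A ∈ W₂.powerset, wt G θ W₂ x A * (sp A q * f₂ A))) := by
    unfold av
    field_simp
  rw [e1, Finset.sum_mul_sum, Finset.sum_mul_sum, Finset.mul_sum, ← Finset.sum_add_distrib]
  rw [TreeWin_sum_powerset_union hd (fun A => wt G θ (W₁ ∪ W₂) x A * f A)]
  refine Finset.sum_congr rfl fun A₁ hA₁ => ?_
  rw [Finset.mul_sum, ← Finset.sum_add_distrib]
  refine Finset.sum_congr rfl fun A₂ hA₂ => ?_
  rw [Finset.mem_powerset] at hA₁ hA₂
  rw [TreeWin_wt_union θ hd hpq hp hq hE x hA₁ hA₂, hf A₁ hA₁ A₂ hA₂]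
  ring

open Classical in
theorem TreeWin_Zw_union {θ : ℝ} (h0 : 0 ≤ θ) (h1 : θ < 1)
    {W₁ W₂ : Finset V} (hd : Disjoint W₁ W₂)
    {p q : V} (hpq : G.Adj p q) (hp : p ∈ W₁) (hq : q ∈ W₂)
    (hE : ∀ u ∈ W₁, ∀ v ∈ W₂, G.Adj u v → u = p ∧ v = q) (x : V → ℝ) :
    Zw G θ (W₁ ∪ W₂) x =
      Zw G θ W₁ x * Zw G θ W₂ x * (1 + θ * mg G θ W₁ x p * mg G θ W₂ x q) := by
  have h := TreeWin_sum_union h0 h1 hd hpq hp hq hE x (fun _ => 1) (fun _ => 1) (fun _ => 1)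
    (fun _ _ _ _ => by norm_num)
  simp only [mul_one, Win_av_const G h0 h1] at h
  exact h

theorem TreeWin_theta_mg {θ : ℝ} (h0 : 0 ≤ θ) (h1 : θ < 1) (W : Finset V) (x : V → ℝ) (v : V) :
    |θ * mg G θ W x v| < 1 := by
  rw [abs_mul, abs_of_nonneg h0]
  have := abs_mg_le G h0 h1 W x v
  nlinarith [abs_nonneg (mg G θ W x v)]

theorem TreeWin_den_pos {θ : ℝ} (h0 : 0 ≤ θ) (h1 : θ < 1) (W₁ W₂ : Finset V) (x : V → ℝ)
    (p q : V) : 0 < 1 + θ * mg G θ W₁ x p * mg G θ W₂ x q := by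
  have := Win_one_add_mul_pos (abs_mg_le G h0 h1 W₁ x p) (TreeWin_theta_mg (G := G) h0 h1 W₂ x q)
  calc _ < _ := this
    _ = _ := by ring

open Classical in
/-- averages of products over the two sides of an edge. -/
theorem TreeWin_av_union {θ : ℝ} (h0 : 0 ≤ θ) (h1 : θ < 1)
    {W₁ W₂ : Finset V} (hd : Disjoint W₁ W₂)
    {p q : V} (hpq : G.Adj p q) (hp : p ∈ W₁) (hq : q ∈ W₂)
    (hE : ∀ u ∈ W₁, ∀ v ∈ W₂, G.Adj u v → u = p ∧ v = q) (x : V → ℝ)
    (f f₁ f₂ : Finset V → ℝ)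
    (hf : ∀ A₁ ⊆ W₁, ∀ A₂ ⊆ W₂, f (A₁ ∪ A₂) = f₁ A₁ * f₂ A₂) :
    av G θ (W₁ ∪ W₂) x f =
      (av G θ W₁ x f₁ * av G θ W₂ x f₂ +
        θ * av G θ W₁ x (fun A => sp A p * f₁ A) * av G θ W₂ x (fun A => sp A q * f₂ A)) /
      (1 + θ * mg G θ W₁ x p * mg G θ W₂ x q) := by
  have hZ1 := (Zw_pos G h0 h1 W₁ x).ne'
  have hZ2 := (Zw_pos G h0 h1 W₂ x).ne'
  have hD := (TreeWin_den_pos (G := G) h0 h1 W₁ W₂ x p q).ne'
  rw [av, TreeWin_sum_union h0 h1 hd hpq hp hq hE x f f₁ f₂ hf,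
    TreeWin_Zw_union h0 h1 hd hpq hp hq hE x]
  rw [mul_div_mul_left _ _ (mul_ne_zero hZ1 hZ2)]

open Classical in
theorem TreeWin_split_data (hT : G.IsTree) {p q : V} (hpq : G.Adj p q)
    (W : Finset V) (hp : p ∈ W) (hq : q ∈ W) :
    W.filter (fun w => G.dist q w = G.dist p w + 1) ∪
      W.filter (fun w => G.dist p w = G.dist q w + 1) = W ∧
    Disjoint (W.filter (fun w => G.dist q w = G.dist p w + 1))
      (W.filter (fun w => G.dist p w = G.dist q w + 1)) ∧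
    p ∈ W.filter (fun w => G.dist q w = G.dist p w + 1) ∧
    q ∈ W.filter (fun w => G.dist p w = G.dist q w + 1) ∧
    ∀ u ∈ W.filter (fun w => G.dist q w = G.dist p w + 1),
      ∀ v ∈ W.filter (fun w => G.dist p w = G.dist q w + 1), G.Adj u v → u = p ∧ v = q := by
  have d1 : G.dist p q = 1 := SimpleGraph.dist_eq_one_iff_adj.2 hpq
  have d2 : G.dist q p = 1 := SimpleGraph.dist_eq_one_iff_adj.2 hpq.symm
  refine ⟨?_, ?_, ?_, ?_, ?_⟩
  · ext w
    simp only [Finset.mem_union, Finset.mem_filter]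
    have := dist_adj_cases hT hpq w
    tauto
  · rw [Finset.disjoint_left]
    intro w h h'
    rw [Finset.mem_filter] at h h'
    have := h.2
    have := h'.2
    omega
  · rw [Finset.mem_filter, d2, SimpleGraph.dist_self]
    exact ⟨hp, rfl⟩
  · rw [Finset.mem_filter, d1, SimpleGraph.dist_self]
    exact ⟨hq, rfl⟩
  · intro u hu v hv huv
    rw [Finset.mem_filter] at hu hv
    exact edge_between_sides hT hpq huv hu.2 hv.2

open Classical in
/-- edge splitting: `W = W₁ ⊔ W₂` where `W₁` is the side of `p` and `W₂` the side of `q`. -/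
theorem Zw_split (hT : G.IsTree) {θ : ℝ} (h0 : 0 ≤ θ) (h1 : θ < 1) {p q : V} (hpq : G.Adj p q)
    (W : Finset V) (hp : p ∈ W) (hq : q ∈ W) (x : V → ℝ) :
    let W₁ := W.filter (fun w => G.dist q w = G.dist p w + 1)
    let W₂ := W.filter (fun w => G.dist p w = G.dist q w + 1)
    Zw G θ W x = Zw G θ W₁ x * Zw G θ W₂ x * (1 + θ * mg G θ W₁ x p * mg G θ W₂ x q) := by
  intro W₁ W₂
  obtain ⟨hU, hd, hp', hq', hE⟩ := TreeWin_split_data hT hpq W hp hq
  have h := TreeWin_Zw_union h0 h1 hd hpq hp' hq' hE x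
  rw [hU] at h
  exact h

open Classical in
/-- averages of products over the two sides of an edge. -/
theorem TreeWin_av_split (hT : G.IsTree) {θ : ℝ} (h0 : 0 ≤ θ) (h1 : θ < 1) {p q : V}
    (hpq : G.Adj p q) (W : Finset V) (hp : p ∈ W) (hq : q ∈ W) (x : V → ℝ)
    (f f₁ f₂ : Finset V → ℝ)
    (hf : ∀ A₁ ⊆ W.filter (fun w => G.dist q w = G.dist p w + 1),
      ∀ A₂ ⊆ W.filter (fun w => G.dist p w = G.dist q w + 1), f (A₁ ∪ A₂) = f₁ A₁ * f₂ A₂) :
    let W₁ := W.filter (fun w => G.dist q w = G.dist p w + 1)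
    let W₂ := W.filter (fun w => G.dist p w = G.dist q w + 1)
    av G θ W x f =
      (av G θ W₁ x f₁ * av G θ W₂ x f₂ +
        θ * av G θ W₁ x (fun A => sp A p * f₁ A) * av G θ W₂ x (fun A => sp A q * f₂ A)) /
      (1 + θ * mg G θ W₁ x p * mg G θ W₂ x q) := by
  intro W₁ W₂
  obtain ⟨hU, hd, hp', hq', hE⟩ := TreeWin_split_data hT hpq W hp hq
  have h := TreeWin_av_union h0 h1 hd hpq hp' hq' hE x f f₁ f₂ hf
  rw [hU] at h
  exact h

open Classical in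
/-- the effect of the side of `q` on functions of the side of `p`. -/
theorem TreeWin_av_left (hT : G.IsTree) {θ : ℝ} (h0 : 0 ≤ θ) (h1 : θ < 1) {p q : V}
    (hpq : G.Adj p q) (W : Finset V) (hp : p ∈ W) (hq : q ∈ W) (x : V → ℝ)
    (f : Finset V → ℝ)
    (hf : ∀ A₁ ⊆ W.filter (fun w => G.dist q w = G.dist p w + 1),
      ∀ A₂ ⊆ W.filter (fun w => G.dist p w = G.dist q w + 1), f (A₁ ∪ A₂) = f A₁) :
    let W₁ := W.filter (fun w => G.dist q w = G.dist p w + 1)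
    let W₂ := W.filter (fun w => G.dist p w = G.dist q w + 1)
    av G θ W x f =
      av G θ W₁ (Function.update x p (x p + Real.artanh (θ * mg G θ W₂ x q))) f := by
  intro W₁ W₂
  obtain ⟨hU, hd, hp', hq', hE⟩ := TreeWin_split_data hT hpq W hp hq
  have h := TreeWin_av_split hT h0 h1 hpq W hp hq x f f (fun _ => 1)
    (fun A₁ h₁ A₂ h₂ => by rw [mul_one]; exact hf A₁ h₁ A₂ h₂)
  simp only [mul_one, Win_av_const G h0 h1] at h
  have h2 := Win_av_update G h0 h1 W₁ x hp' (TreeWin_theta_mg (G := G) h0 h1 W₂ x q) f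
  have hD := TreeWin_den_pos (G := G) h0 h1 W₁ W₂ x p q
  rw [h, div_eq_iff hD.ne']
  have e1 : 1 + mg G θ W₁ x p * (θ * mg G θ W₂ x q) = 1 + θ * mg G θ W₁ x p * mg G θ W₂ x q := by
    ring
  rw [e1] at h2
  rw [h2]
  change _ = av G θ W₁ x f + θ * av G θ W₂ x (fun A => sp A q) * _
  ring

open Classical in
/-- the effect of the side of `q` on the side of `p` is the additional field `artanh (θ M_q)`. -/
theorem mg_split (hT : G.IsTree) {θ : ℝ} (h0 : 0 ≤ θ) (h1 : θ < 1) {p q : V} (hpq : G.Adj p q)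
    (W : Finset V) (hp : p ∈ W) (hq : q ∈ W) (x : V → ℝ) {o : V}
    (ho : G.dist q o = G.dist p o + 1) (hoW : o ∈ W) :
    let W₁ := W.filter (fun w => G.dist q w = G.dist p w + 1)
    let W₂ := W.filter (fun w => G.dist p w = G.dist q w + 1)
    mg G θ W x o = mg G θ W₁ (Function.update x p (x p + Real.artanh (θ * mg G θ W₂ x q))) o := by
  obtain ⟨hU, hd, hp', hq', hE⟩ := TreeWin_split_data hT hpq W hp hq
  exact TreeWin_av_left hT h0 h1 hpq W hp hq x (fun A => sp A o)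
    (fun A₁ _ A₂ h₂ => TreeWin_sp_left hd h₂ (Finset.mem_filter.mpr ⟨hoW, ho⟩))

open Classical in
/-- explicit formulas for the first and second moments in terms of the two sides of an edge. -/
theorem TreeWin_explicit (hT : G.IsTree) {θ : ℝ} (h0 : 0 ≤ θ) (h1 : θ < 1) {p q : V}
    (hpq : G.Adj p q) (W : Finset V) (hp : p ∈ W) (hq : q ∈ W) (x : V → ℝ) {o : V}
    (ho : G.dist q o = G.dist p o + 1) (hoW : o ∈ W) :
    ∃ a b α β : ℝ, |a| ≤ 1 ∧ |b| ≤ 1 ∧ 0 < 1 + θ * a * b ∧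
      b = mg G θ (W.filter (fun w => G.dist p w = G.dist q w + 1)) x q ∧
      mg G θ W x o = (α + θ * β * b) / (1 + θ * a * b) ∧
      mg G θ W x p = (a + θ * b) / (1 + θ * a * b) ∧
      mg G θ W x q = (b + θ * a) / (1 + θ * a * b) ∧
      av G θ W x (fun A => sp A o * sp A p) = (β + θ * α * b) / (1 + θ * a * b) ∧
      av G θ W x (fun A => sp A o * sp A q) = (α * b + θ * β) / (1 + θ * a * b) ∧
      av G θ W x (fun A => sp A p * sp A q) = (a * b + θ) / (1 + θ * a * b) := by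
  obtain ⟨hU, hd, hp', hq', hE⟩ := TreeWin_split_data hT hpq W hp hq
  have ho' : o ∈ W.filter (fun w => G.dist q w = G.dist p w + 1) :=
    Finset.mem_filter.mpr ⟨hoW, ho⟩
  set W₁ := W.filter (fun w => G.dist q w = G.dist p w + 1) with hW₁
  set W₂ := W.filter (fun w => G.dist p w = G.dist q w + 1) with hW₂
  have key := fun f f₁ f₂ hf => TreeWin_av_split hT h0 h1 hpq W hp hq x f f₁ f₂ hf
  simp only [← hW₁, ← hW₂] at key
  have hpp : ∀ A : Finset V, sp A p * sp A p = 1 := fun A => Win_sp_sq A p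
  have hqq : ∀ A : Finset V, sp A q * sp A q = 1 := fun A => Win_sp_sq A q
  refine ⟨mg G θ W₁ x p, mg G θ W₂ x q, mg G θ W₁ x o, av G θ W₁ x (fun A => sp A p * sp A o),
    abs_mg_le G h0 h1 W₁ x p, abs_mg_le G h0 h1 W₂ x q, TreeWin_den_pos h0 h1 W₁ W₂ x p q, rfl,
    ?_, ?_, ?_, ?_, ?_, ?_⟩
  · rw [mg, key (fun A => sp A o) (fun A => sp A o) (fun _ => 1)
      (fun A₁ _ A₂ h₂ => by rw [mul_one]; exact TreeWin_sp_left hd h₂ ho')]
    simp only [mul_one, Win_av_const G h0 h1]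
    rfl
  · rw [mg, key (fun A => sp A p) (fun A => sp A p) (fun _ => 1)
      (fun A₁ _ A₂ h₂ => by rw [mul_one]; exact TreeWin_sp_left hd h₂ hp')]
    simp only [mul_one, Win_av_const G h0 h1, hpp]
    rfl
  · rw [mg, key (fun A => sp A q) (fun _ => 1) (fun A => sp A q)
      (fun A₁ h₁ A₂ _ => by rw [one_mul]; exact TreeWin_sp_right hd h₁ hq')]
    simp only [mul_one, one_mul, Win_av_const G h0 h1, hqq]
    rfl
  · rw [key (fun A => sp A o * sp A p) (fun A => sp A o * sp A p) (fun _ => 1)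
      (fun A₁ _ A₂ h₂ => by
        rw [mul_one, TreeWin_sp_left hd h₂ ho', TreeWin_sp_left hd h₂ hp'])]
    have e1 : (fun A : Finset V => sp A p * (sp A o * sp A p)) = fun A => sp A o := by
      funext A
      calc _ = sp A o * (sp A p * sp A p) := by ring
        _ = _ := by rw [hpp, mul_one]
    have e2 : (fun A : Finset V => sp A o * sp A p) = fun A => sp A p * sp A o := by
      funext A; ring
    simp only [mul_one, Win_av_const G h0 h1, e1]
    rw [e2]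
    rfl
  · rw [key (fun A => sp A o * sp A q) (fun A => sp A o) (fun A => sp A q)
      (fun A₁ h₁ A₂ h₂ => by
        rw [TreeWin_sp_left hd h₂ ho', TreeWin_sp_right hd h₁ hq'])]
    simp only [mul_one, Win_av_const G h0 h1, hqq]
    rfl
  · rw [key (fun A => sp A p * sp A q) (fun A => sp A p) (fun A => sp A q)
      (fun A₁ h₁ A₂ h₂ => by
        rw [TreeWin_sp_left hd h₂ hp', TreeWin_sp_right hd h₁ hq'])]
    simp only [mul_one, Win_av_const G h0 h1, hqq, hpp]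
    rfl

theorem TreeWin_alg1 {a b α β θ D : ℝ} (hD : D ≠ 0) (h : D = 1 + θ * a * b) :
    ((α * b + θ * β) / D - (α + θ * β * b) / D * ((b + θ * a) / D)) *
      (1 - ((a + θ * b) / D) ^ 2) =
    ((β + θ * α * b) / D - (α + θ * β * b) / D * ((a + θ * b) / D)) *
      ((a * b + θ) / D - (a + θ * b) / D * ((b + θ * a) / D)) := by
  have e1 : (α * b + θ * β) / D - (α + θ * β * b) / D * ((b + θ * a) / D) =
      θ * (1 - b ^ 2) * (β - α * a) / D ^ 2 := by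
    field_simp
    rw [h]
    ring
  have e2 : 1 - ((a + θ * b) / D) ^ 2 = (1 - a ^ 2) * (1 - θ ^ 2 * b ^ 2) / D ^ 2 := by
    field_simp
    rw [h]
    ring
  have e3 : (β + θ * α * b) / D - (α + θ * β * b) / D * ((a + θ * b) / D) =
      (β - α * a) * (1 - θ ^ 2 * b ^ 2) / D ^ 2 := by
    field_simp
    rw [h]
    ring
  have e4 : (a * b + θ) / D - (a + θ * b) / D * ((b + θ * a) / D) =
      θ * (1 - a ^ 2) * (1 - b ^ 2) / D ^ 2 := by
    field_simp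
    rw [h]
    ring
  rw [e1, e2, e3, e4]
  ring

theorem TreeWin_alg2 {a b θ D : ℝ} (hD : D ≠ 0) (h : D = 1 + θ * a * b)
    (hb : 1 - θ ^ 2 * b ^ 2 ≠ 0) :
    (a * b + θ) / D - (a + θ * b) / D * ((b + θ * a) / D) =
      (1 - ((a + θ * b) / D) ^ 2) * (θ * (1 - b ^ 2) / (1 - θ ^ 2 * b ^ 2)) := by
  have e2 : 1 - ((a + θ * b) / D) ^ 2 = (1 - a ^ 2) * (1 - θ ^ 2 * b ^ 2) / D ^ 2 := by
    field_simp
    rw [h]
    ring
  have e4 : (a * b + θ) / D - (a + θ * b) / D * ((b + θ * a) / D) =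
      θ * (1 - a ^ 2) * (1 - b ^ 2) / D ^ 2 := by
    field_simp
    rw [h]
    ring
  rw [e2, e4]
  set Q := 1 - θ ^ 2 * b ^ 2 with hQ
  field_simp

/-- `K(o,u) s_p = K(o,p) K(p,u)` for `p` adjacent to `u`, `o` on the side of `p`. -/
theorem cv_mul (hT : G.IsTree) {θ : ℝ} (h0 : 0 ≤ θ) (h1 : θ < 1) {p u : V} (hpu : G.Adj p u)
    (W : Finset V) (hp : p ∈ W) (hu : u ∈ W) (x : V → ℝ) {o : V} (hoW : o ∈ W)
    (ho : G.dist u o = G.dist p o + 1) :
    cv G θ W x o u * (1 - mg G θ W x p ^ 2) = cv G θ W x o p * cv G θ W x p u := by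
  obtain ⟨a, b, α, β, _, _, hD, _, e1, e2, e3, e4, e5, e6⟩ :=
    TreeWin_explicit hT h0 h1 hpu W hp hu x ho hoW
  unfold cv
  rw [e1, e2, e3, e4, e5, e6]
  exact TreeWin_alg1 hD.ne' rfl

/-- the algebraic identity for the edge function. -/
theorem TreeWin_Ge_alg {θ a b : ℝ} (h0 : 0 ≤ θ) (h1 : θ < 1) (ha : |a| ≤ 1) (hb : |b| ≤ 1)
    (hD : 0 < 1 + θ * a * b) :
    Ge θ ((a + θ * b) / (1 + θ * a * b)) ((b + θ * a) / (1 + θ * a * b)) = gg θ b := by
  have ha2 : a ^ 2 ≤ 1 := by rw [← sq_abs]; nlinarith [abs_nonneg a]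
  have hb2 : b ^ 2 ≤ 1 := by rw [← sq_abs]; nlinarith [abs_nonneg b]
  have hθ2 : θ ^ 2 < 1 := by nlinarith
  set D := 1 + θ * a * b with hDdef
  set X := (1 - θ ^ 2 * a ^ 2) * (1 - θ ^ 2 * b ^ 2) with hX
  set Y := θ ^ 2 * (1 - a ^ 2) * (1 - b ^ 2) with hY
  have hXa : 0 < 1 - θ ^ 2 * a ^ 2 := by nlinarith [sq_nonneg θ, sq_nonneg a]
  have hXb : 0 < 1 - θ ^ 2 * b ^ 2 := by nlinarith [sq_nonneg θ, sq_nonneg b]
  have hXpos : 0 < X := mul_pos hXa hXb
  have hT2 : 0 < 1 + θ ^ 2 := by positivity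
  have hN : 1 - 2 * θ / (1 + θ ^ 2) * ((a + θ * b) / D) * ((b + θ * a) / D) =
      (X + Y) / ((1 + θ ^ 2) * D ^ 2) := by
    have hD' : D ≠ 0 := hD.ne'
    rw [eq_div_iff (by positivity)]
    field_simp
    rw [hX, hY, hDdef]
    ring
  have hXY : 0 ≤ X - Y := by
    have : X - Y = (1 - θ ^ 2) * (1 - θ ^ 2 * (a ^ 2 * b ^ 2)) := by rw [hX, hY]; ring
    rw [this]
    have hab : a ^ 2 * b ^ 2 ≤ 1 := by nlinarith [sq_nonneg a, sq_nonneg b]
    have hab0 : 0 ≤ a ^ 2 * b ^ 2 := by positivity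
    apply mul_nonneg (by linarith)
    nlinarith [sq_nonneg θ]
  have hdisc : (1 - 2 * θ / (1 + θ ^ 2) * ((a + θ * b) / D) * ((b + θ * a) / D)) ^ 2 -
      (2 * θ / (1 + θ ^ 2)) ^ 2 * (1 - ((a + θ * b) / D) ^ 2) * (1 - ((b + θ * a) / D) ^ 2) =
      ((X - Y) / ((1 + θ ^ 2) * D ^ 2)) ^ 2 := by
    rw [hN]
    have hD' : D ≠ 0 := hD.ne'
    have e1 : 1 - ((a + θ * b) / D) ^ 2 = (1 - a ^ 2) * (1 - θ ^ 2 * b ^ 2) / D ^ 2 := by
      rw [eq_div_iff (by positivity)]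
      field_simp
      rw [hDdef]
      ring
    have e2 : 1 - ((b + θ * a) / D) ^ 2 = (1 - b ^ 2) * (1 - θ ^ 2 * a ^ 2) / D ^ 2 := by
      rw [eq_div_iff (by positivity)]
      field_simp
      rw [hDdef]
      ring
    rw [e1, e2]
    field_simp
    rw [hX, hY]
    ring
  unfold Ge
  rw [hdisc, Real.sqrt_sq (div_nonneg hXY (by positivity)), hN]
  unfold gg
  have hD' : D ≠ 0 := hD.ne'
  have e2 : 1 - ((b + θ * a) / D) ^ 2 = (1 - b ^ 2) * (1 - θ ^ 2 * a ^ 2) / D ^ 2 := by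
    rw [eq_div_iff (by positivity)]
    field_simp
    rw [hDdef]
    ring
  rw [e2]
  have e3 : (X + Y) / ((1 + θ ^ 2) * D ^ 2) + (X - Y) / ((1 + θ ^ 2) * D ^ 2) =
      2 * X / ((1 + θ ^ 2) * D ^ 2) := by
    rw [← add_div]; ring
  rw [e3, hX]
  field_simp

open Classical in
/-- `G_θ(m_p, m_q)` in terms of the cavity magnetisation of `q`. -/
theorem Ge_eq_gg (hT : G.IsTree) {θ : ℝ} (h0 : 0 ≤ θ) (h1 : θ < 1) {p q : V} (hpq : G.Adj p q)
    (W : Finset V) (hp : p ∈ W) (hq : q ∈ W) (x : V → ℝ) :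
    Ge θ (mg G θ W x p) (mg G θ W x q) =
      gg θ (mg G θ (W.filter (fun w => G.dist p w = G.dist q w + 1)) x q) := by
  have d2 : G.dist q p = 1 := SimpleGraph.dist_eq_one_iff_adj.2 hpq.symm
  obtain ⟨a, b, α, β, ha, hb, hD, hb', e1, e2, e3, e4, e5, e6⟩ :=
    TreeWin_explicit hT h0 h1 hpq W hp hq x (o := p) (by rw [d2, SimpleGraph.dist_self]) hp
  rw [← hb', e2, e3]
  exact TreeWin_Ge_alg h0 h1 ha hb hD

/-- the covariance of an edge is a function of the two magnetisations. -/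
theorem cv_adj (hT : G.IsTree) {θ : ℝ} (h0 : 0 ≤ θ) (h1 : θ < 1) {p q : V} (hpq : G.Adj p q)
    (W : Finset V) (hp : p ∈ W) (hq : q ∈ W) (x : V → ℝ) :
    cv G θ W x p q = (1 - mg G θ W x p ^ 2) * Ge θ (mg G θ W x p) (mg G θ W x q) := by
  have d2 : G.dist q p = 1 := SimpleGraph.dist_eq_one_iff_adj.2 hpq.symm
  obtain ⟨a, b, α, β, ha, hb, hD, hb', e1, e2, e3, e4, e5, e6⟩ :=
    TreeWin_explicit hT h0 h1 hpq W hp hq x (o := p) (by rw [d2, SimpleGraph.dist_self]) hp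
  unfold cv
  rw [e6, e2, e3, TreeWin_Ge_alg h0 h1 ha hb hD]
  have hb2 : b ^ 2 ≤ 1 := by rw [← sq_abs]; nlinarith [abs_nonneg b]
  have hθ2 : θ ^ 2 < 1 := by nlinarith
  have hXb : 0 < 1 - θ ^ 2 * b ^ 2 := by nlinarith [sq_nonneg θ, sq_nonneg b]
  unfold gg
  exact TreeWin_alg2 hD.ne' rfl hXb.ne'

theorem TreeWin_mg_lt (G : SimpleGraph V) {θ : ℝ} (h0 : 0 ≤ θ) (h1 : θ < 1) (W : Finset V)
    (x : V → ℝ) {v : V} (hv : v ∈ W) : |mg G θ W x v| < 1 := by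
  have hZ := Zw_pos G h0 h1 W x
  have h2 : 0 < av G θ W x (fun A => 1 - sp A v) := by
    unfold av
    refine div_pos (Finset.sum_pos' (fun A _ => ?_) ⟨∅, by simp, ?_⟩) hZ
    · refine mul_nonneg (wt_pos G h0 h1 W x A).le ?_
      rcases Win_sp_eq A v with h | h <;> simp only [h] <;> norm_num
    · refine mul_pos (wt_pos G h0 h1 W x ∅) ?_
      unfold sp
      simp
  have h3 : 0 < av G θ W x (fun A => 1 + sp A v) := by
    unfold av
    refine div_pos (Finset.sum_pos' (fun A _ => ?_) ⟨{v}, by simpa using hv, ?_⟩) hZ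
    · refine mul_nonneg (wt_pos G h0 h1 W x A).le ?_
      rcases Win_sp_eq A v with h | h <;> simp only [h] <;> norm_num
    · refine mul_pos (wt_pos G h0 h1 W x {v}) ?_
      unfold sp
      simp
  rw [Win_av_sub, Win_av_const G h0 h1] at h2
  rw [Win_av_add, Win_av_const G h0 h1] at h3
  rw [abs_lt]
  constructor
  · change -1 < av G θ W x (fun A => sp A v)
    linarith
  · change av G θ W x (fun A => sp A v) < 1
    linarith

theorem TreeWin_geo_mem (hT : G.IsTree) {W : Finset V}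
    (hW : Conv G W) {k : ℕ} {p : ℕ → V} (hp : IsGeo G k p) (hp0 : p 0 ∈ W)
    (hpk : p k ∈ W) {i : ℕ} (hi : i ≤ k) : p i ∈ W := by
  refine hW (p 0) hp0 (p k) hpk (p i) ?_
  rw [hp.dist_eq hT (Nat.zero_le i) hi, hp.dist_eq hT hi le_rfl, hp.dist_eq hT (Nat.zero_le k) le_rfl]
  omega

/-- covariance along a geodesic in a convex window. -/
theorem cv_eq_Kp (hT : G.IsTree) {θ : ℝ} (h0 : 0 ≤ θ) (h1 : θ < 1) {W : Finset V}
    (hW : Conv G W) (x : V → ℝ) {k : ℕ} {p : ℕ → V} (hp : IsGeo G k p) (hp0 : p 0 ∈ W)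
    (hpk : p k ∈ W) : cv G θ W x (p 0) (p k) = Kp θ (fun v => mg G θ W x v) p k := by
  induction k with
  | zero =>
    rw [cv_self G h0 h1]
    unfold Kp
    simp
  | succ k ih =>
    have hk : p k ∈ W := TreeWin_geo_mem hT hW hp hp0 hpk (Nat.le_succ k)
    have ih' := ih (hp.mono (Nat.le_succ k)) hk
    have d1 := hp.dist_eq hT (Nat.zero_le k) (Nat.le_succ k)
    have d2 := hp.dist_eq hT (Nat.zero_le (k + 1)) le_rfl
    have h2 := cv_mul hT h0 h1 (hp.1 k (Nat.lt_succ_self k)) W hk hpk x hp0 (by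
      rw [SimpleGraph.dist_comm (u := p (k + 1)), SimpleGraph.dist_comm (u := p k), d1, d2]
      omega)
    rw [cv_adj hT h0 h1 (hp.1 k (Nat.lt_succ_self k)) W hk hpk x, ih'] at h2
    have h3 : (1 - mg G θ W x (p k) ^ 2) ≠ 0 := by
      have := TreeWin_mg_lt G h0 h1 W x hk
      have h4 : mg G θ W x (p k) ^ 2 < 1 := by
        rw [← sq_abs]; nlinarith [abs_nonneg (mg G θ W x (p k))]
      linarith
    have h5 : cv G θ W x (p 0) (p (k + 1)) = Kp θ (fun v => mg G θ W x v) p k *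
        Ge θ (mg G θ W x (p k)) (mg G θ W x (p (k + 1))) := by
      apply mul_right_cancel₀ h3
      rw [h2]
      ring
    rw [h5]
    unfold Kp
    rw [Finset.prod_range_succ]
    ring

theorem cv_nonneg_le (hT : G.IsTree) {θ : ℝ} (h0 : 0 ≤ θ) (h1 : θ < 1) {W : Finset V}
    (hW : Conv G W) (x : V → ℝ) (o u : V) :
    0 ≤ cv G θ W x o u ∧ cv G θ W x o u ≤ θ ^ G.dist o u := by
  by_cases hu : u ∈ W
  · by_cases ho : o ∈ W
    · obtain ⟨p, hp, hp0, hpk⟩ := exists_isGeo hT o u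
      have h2 := cv_eq_Kp hT h0 h1 hW x hp (by rw [hp0]; exact ho) (by rw [hpk]; exact hu)
      rw [hp0, hpk] at h2
      rw [h2]
      unfold Kp
      have hm := abs_mg_le G h0 h1 W x (p 0)
      have hm2 : mg G θ W x (p 0) ^ 2 ≤ 1 := by
        rw [← sq_abs]; nlinarith [abs_nonneg (mg G θ W x (p 0))]
      have hg : ∀ i, 0 ≤ Ge θ (mg G θ W x (p i)) (mg G θ W x (p (i + 1))) ∧
          Ge θ (mg G θ W x (p i)) (mg G θ W x (p (i + 1))) ≤ θ := fun i =>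
        ⟨Ge_nonneg h0 h1 (abs_mg_le G h0 h1 W x _) (abs_mg_le G h0 h1 W x _),
          Ge_le h0 h1 (abs_mg_le G h0 h1 W x _) (abs_mg_le G h0 h1 W x _)⟩
      have hprod0 : 0 ≤ ∏ i ∈ Finset.range (G.dist o u),
          Ge θ (mg G θ W x (p i)) (mg G θ W x (p (i + 1))) :=
        Finset.prod_nonneg fun i _ => (hg i).1
      have hprod1 : ∏ i ∈ Finset.range (G.dist o u),
          Ge θ (mg G θ W x (p i)) (mg G θ W x (p (i + 1))) ≤ θ ^ G.dist o u := by
        calc _ ≤ ∏ _i ∈ Finset.range (G.dist o u), θ :=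
              Finset.prod_le_prod (fun i _ => (hg i).1) fun i _ => (hg i).2
          _ = _ := by rw [Finset.prod_const, Finset.card_range]
      refine ⟨mul_nonneg (by linarith) hprod0, ?_⟩
      calc _ ≤ 1 * ∏ i ∈ Finset.range (G.dist o u),
            Ge θ (mg G θ W x (p i)) (mg G θ W x (p (i + 1))) :=
            mul_le_mul_of_nonneg_right (by nlinarith [sq_nonneg (mg G θ W x (p 0))]) hprod0
        _ ≤ _ := by rw [one_mul]; exact hprod1
    · rw [cv_comm, cv_eq_zero G h0 h1 W x u ho]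
      exact ⟨le_rfl, pow_nonneg h0 _⟩
  · rw [cv_eq_zero G h0 h1 W x o hu]
    exact ⟨le_rfl, pow_nonneg h0 _⟩

end M2b

end Crest.Agent.Lib.Row160
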