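import Crest.Agent.Lib.Row160.TreeWin0

/-!
Row 160, M2b, second part: BP recursion for rooted subtrees and balls, zero field.
-/

set_option autoImplicit false
open MeasureTheory Filter Topology

namespace Crest.Agent.Lib.Row160

section M2b
variable {V : Type*} {G : SimpleGraph V}

open Classical in
theorem TreeWin2_mg_singleton (θ : ℝ) (y : V) (x : V → ℝ) :
    mg G θ {y} x y = Real.tanh (x y) := by
  have hsym : ({y} : Finset V).sym2.filter (fun e => e ∈ G.edgeSet) = ∅ := by
    ext e
    induction e using Sym2.ind with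
    | _ a b =>
      simp only [Finset.mem_filter, Finset.mk_mem_sym2_iff, Finset.mem_singleton,
        SimpleGraph.mem_edgeSet, Finset.notMem_empty, iff_false]
      rintro ⟨⟨rfl, rfl⟩, h⟩
      exact G.loopless.irrefl _ h
  have hw : ∀ A : Finset V, wt G θ {y} x A = Real.exp (x y * sp A y) / 2 := by
    intro A
    unfold wt
    rw [hsym, Finset.prod_empty, one_mul, Finset.prod_singleton]
  have hp : ({y} : Finset V).powerset = {∅, {y}} := by
    rw [← Finset.insert_empty, Finset.powerset_insert]
    simp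
  have hne : (∅ : Finset V) ≠ {y} := (Finset.singleton_ne_empty y).symm
  unfold mg av Zw
  rw [hp, Finset.sum_pair hne, Finset.sum_pair hne]
  have s1 : sp (∅ : Finset V) y = -1 := by unfold sp; simp
  have s2 : sp ({y} : Finset V) y = 1 := by unfold sp; simp
  simp only [hw, s1, s2]
  rw [Real.tanh_eq_sinh_div_cosh, Real.sinh_eq, Real.cosh_eq]
  have e1 : x y * -1 = -x y := by ring
  have e2 : x y * 1 = x y := by ring
  rw [e1, e2]
  have h2 : Real.exp (-x y) / 2 + Real.exp (x y) / 2 =
      (Real.exp (x y) + Real.exp (-x y)) / 2 := by ring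
  rw [h2]
  congr 1
  ring

open Classical in
/-- star recursion: a root `y` with windows `T c` hanging below its neighbours `c ∈ C`. -/
theorem TreeWin2_star {θ : ℝ} (h0 : 0 ≤ θ) (h1 : θ < 1) (y : V) (T : V → Finset V) (C : Finset V)
    (hy : ∀ c ∈ C, y ∉ T c) (hc : ∀ c ∈ C, c ∈ T c) (hadj : ∀ c ∈ C, G.Adj y c)
    (hdis : ∀ c ∈ C, ∀ c' ∈ C, c ≠ c' → Disjoint (T c) (T c'))
    (hyE : ∀ c ∈ C, ∀ v ∈ T c, G.Adj y v → v = c)
    (hE : ∀ c ∈ C, ∀ c' ∈ C, c ≠ c' → ∀ u ∈ T c, ∀ v ∈ T c', ¬ G.Adj u v) (x : V → ℝ) :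
    mg G θ (insert y (C.biUnion T)) x y =
      Real.tanh (x y + ∑ c ∈ C, Real.artanh (θ * mg G θ (T c) x c)) := by
  induction C using Finset.induction_on generalizing x with
  | empty =>
    rw [Finset.biUnion_empty, Finset.sum_empty, add_zero, insert_empty_eq]
    exact TreeWin2_mg_singleton θ y x
  | insert c₀ C hc₀ ih =>
    have ih' := ih (fun c h => hy c (Finset.mem_insert_of_mem h))
      (fun c h => hc c (Finset.mem_insert_of_mem h))
      (fun c h => hadj c (Finset.mem_insert_of_mem h))
      (fun c h c' h' => hdis c (Finset.mem_insert_of_mem h) c' (Finset.mem_insert_of_mem h'))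
      (fun c h => hyE c (Finset.mem_insert_of_mem h))
      (fun c h c' h' => hE c (Finset.mem_insert_of_mem h) c' (Finset.mem_insert_of_mem h'))
    have hm0 : c₀ ∈ insert c₀ C := Finset.mem_insert_self c₀ C
    have hne : ∀ c ∈ C, c ≠ c₀ := fun c h e => hc₀ (e ▸ h)
    set W' := insert y (C.biUnion T) with hW'
    have hset : insert y ((insert c₀ C).biUnion T) = W' ∪ T c₀ := by
      ext w
      simp only [Finset.biUnion_insert, Finset.mem_insert, Finset.mem_union, hW']
      tauto
    have hd : Disjoint W' (T c₀) := by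
      rw [Finset.disjoint_left]
      intro w hw hw'
      rw [hW', Finset.mem_insert, Finset.mem_biUnion] at hw
      rcases hw with rfl | ⟨c, hcC, hwc⟩
      · exact hy c₀ hm0 hw'
      · exact Finset.disjoint_left.mp
          (hdis c (Finset.mem_insert_of_mem hcC) c₀ hm0 (hne c hcC)) hwc hw'
    have hEE : ∀ u ∈ W', ∀ v ∈ T c₀, G.Adj u v → u = y ∧ v = c₀ := by
      intro u hu v hv huv
      rw [hW', Finset.mem_insert, Finset.mem_biUnion] at hu
      rcases hu with rfl | ⟨c, hcC, huc⟩
      · exact ⟨rfl, hyE c₀ hm0 v hv huv⟩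
      · exact absurd huv (hE c (Finset.mem_insert_of_mem hcC) c₀ hm0 (hne c hcC) u huc v hv)
    have hyW : y ∈ W' := Finset.mem_insert_self _ _
    have h := TreeWin_av_union h0 h1 hd (hadj c₀ hm0) hyW (hc c₀ hm0) hEE x
      (fun A => sp A y) (fun A => sp A y) (fun _ => 1)
      (fun A₁ _ A₂ h₂ => by rw [mul_one]; exact TreeWin_sp_left hd h₂ hyW)
    simp only [mul_one, Win_av_const G h0 h1] at h
    have hT := TreeWin_theta_mg (G := G) h0 h1 (T c₀) x c₀
    have h2 := Win_av_update G h0 h1 W' x hyW hT (fun A => sp A y)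
    have hD := TreeWin_den_pos (G := G) h0 h1 W' (T c₀) x y c₀
    have e1 : 1 + mg G θ W' x y * (θ * mg G θ (T c₀) x c₀) =
        1 + θ * mg G θ W' x y * mg G θ (T c₀) x c₀ := by ring
    rw [e1] at h2
    have h3 : mg G θ (W' ∪ T c₀) x y =
        mg G θ W' (Function.update x y (x y + Real.artanh (θ * mg G θ (T c₀) x c₀))) y := by
      rw [mg, h, div_eq_iff hD.ne', mg, h2]
      change _ = av G θ W' x _ + θ * av G θ (T c₀) x (fun A => sp A c₀) * _
      ring
    rw [hset, h3, ih', Function.update_self, Finset.sum_insert hc₀, add_assoc]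
    congr 3
    refine Finset.sum_congr rfl fun c hcC => ?_
    congr 2
    refine mg_congr G (T c) (fun v hv => ?_) c
    have : v ≠ y := fun e => hy c (Finset.mem_insert_of_mem hcC) (e ▸ hv)
    rw [Function.update_of_ne this]

theorem TreeWin2_psi {θ : ℝ} {m : ℝ} (hm : |m| < 1) :
    psi θ (Real.artanh m) = Real.artanh (θ * m) := by
  unfold psi
  rw [Real.tanh_artanh (abs_lt.mp hm)]

/-- no edges between different subtrees. -/
theorem TreeWin2_no_edge (hT : G.IsTree) {y c c' u v : V} (hc : G.Adj y c) (hc' : G.Adj y c')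
    (hne : c ≠ c') (hu : G.dist y u = G.dist c u + 1) (hv : G.dist y v = G.dist c' v + 1) :
    ¬ G.Adj u v := by
  intro huv
  rcases dist_adj_cases hT hc v with h | h
  · apply hne
    refine parent_unique hT v hc.symm hc'.symm ?_ ?_
    · rw [SimpleGraph.dist_comm (u := v), SimpleGraph.dist_comm (u := v)]; exact h
    · rw [SimpleGraph.dist_comm (u := v), SimpleGraph.dist_comm (u := v)]; exact hv
  · obtain ⟨rfl, _⟩ := edge_between_sides hT hc huv.symm h hu
    rw [SimpleGraph.dist_self] at hv
    omega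

theorem TreeWin2_root_edge (hT : G.IsTree) {y c v : V} (hc : G.Adj y c)
    (hv : G.dist y v = G.dist c v + 1) (hyv : G.Adj y v) : v = c := by
  have h1 : G.dist c y = 1 := SimpleGraph.dist_eq_one_iff_adj.2 hc.symm
  have h := edge_between_sides hT hc hyv (by rw [h1, SimpleGraph.dist_self]) hv
  exact h.2

open Classical in
theorem TreeWin2_star_Tn [G.LocallyFinite] (hT : G.IsTree) {θ : ℝ} (h0 : 0 ≤ θ) (h1 : θ < 1)
    (n : ℕ) (y : V) (C : Finset V) (hC : C ⊆ G.neighborFinset y) (x : V → ℝ) :
    mg G θ (insert y (C.biUnion (fun c => Tn G n y c))) x y =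
      Real.tanh (x y + ∑ c ∈ C, psi θ (Real.artanh (mg G θ (Tn G n y c) x c))) := by
  have hadj : ∀ c ∈ C, G.Adj y c := fun c h => (G.mem_neighborFinset y c).mp (hC h)
  have hc : ∀ c ∈ C, c ∈ Tn G n y c := fun c h => by
    rw [mem_Tn hT, SimpleGraph.dist_self, SimpleGraph.dist_eq_one_iff_adj.2 (hadj c h)]
    exact ⟨Nat.zero_le _, rfl⟩
  rw [TreeWin2_star h0 h1 y (fun c => Tn G n y c) C
    (fun c h => Tn_root_notMem hT n (hadj c h)) hc hadj
    (fun c h c' h' hne => Tn_pairwiseDisjoint hT n y (hC h) (hC h') hne)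
    (fun c h v hv hyv => TreeWin2_root_edge hT (hadj c h) ((mem_Tn hT).mp hv).2 hyv)
    (fun c h c' h' hne u hu v hv => TreeWin2_no_edge hT (hadj c h) (hadj c' h') hne
      ((mem_Tn hT).mp hu).2 ((mem_Tn hT).mp hv).2) x]
  congr 2
  exact Finset.sum_congr rfl fun c h => (TreeWin2_psi (TreeWin_mg_lt G h0 h1 _ x (hc c h))).symm

open Classical in
/-- BP recursion for the rooted subtrees. -/
theorem mg_Tn_succ [G.LocallyFinite] (hT : G.IsTree) {θ : ℝ} (h0 : 0 ≤ θ) (h1 : θ < 1) (n : ℕ)
    {z y : V} (h : G.Adj z y) (x : V → ℝ) :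
    mg G θ (Tn G (n + 1) z y) x y = Real.tanh (x y + ∑ c ∈ (G.neighborFinset y).erase z,
      psi θ (Real.artanh (mg G θ (Tn G n y c) x c))) := by
  rw [Tn_succ hT n h]
  exact TreeWin2_star_Tn hT h0 h1 n y _ (Finset.erase_subset _ _) x

open Classical in
theorem TreeWin2_ball_succ [G.LocallyFinite] (hT : G.IsTree) (n : ℕ) (y : V) :
    ball G y (n + 1) = insert y ((G.neighborFinset y).biUnion (fun c => Tn G n y c)) := by
  ext w
  rw [mem_ball hT, Finset.mem_insert, Finset.mem_biUnion]
  simp only [SimpleGraph.mem_neighborFinset, mem_Tn hT]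
  constructor
  · intro h
    rcases eq_or_ne y w with hyw | hyw
    · exact Or.inl hyw.symm
    · right
      obtain ⟨c, hc, hcd⟩ := exists_parent hT w hyw
      rw [SimpleGraph.dist_comm (u := w) (v := y), SimpleGraph.dist_comm (u := w) (v := c)] at hcd
      exact ⟨c, hc.symm, by omega, hcd⟩
  · rintro (rfl | ⟨c, _, h1, h2⟩)
    · rw [SimpleGraph.dist_self]
      omega
    · omega

open Classical in
/-- BP at the centre of a ball. -/
theorem mg_ball_succ [G.LocallyFinite] (hT : G.IsTree) {θ : ℝ} (h0 : 0 ≤ θ) (h1 : θ < 1) (n : ℕ)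
    (y : V) (x : V → ℝ) :
    mg G θ (ball G y (n + 1)) x y = Real.tanh (x y + ∑ c ∈ G.neighborFinset y,
      psi θ (Real.artanh (mg G θ (Tn G n y c) x c))) := by
  rw [TreeWin2_ball_succ hT n y]
  exact TreeWin2_star_Tn hT h0 h1 n y _ (Finset.Subset.refl _) x

/-! ### zero field -/

open Classical in
/-- adding a vertex with at most one neighbour does not change zero field marginals. -/
theorem TreeWin2_add_leaf {θ : ℝ} {W : Finset V} {w : V} (hw : w ∉ W)
    (huniq : ∀ u ∈ W, ∀ v ∈ W, G.Adj u w → G.Adj v w → u = v)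
    (f : Finset V → ℝ) (hf : ∀ A, A ⊆ W → f (insert w A) = f A) :
    ∑ A ∈ (insert w W).powerset, wt G θ (insert w W) (fun _ => 0) A * f A =
      ∑ A ∈ W.powerset, wt G θ W (fun _ => 0) A * f A := by
  have hwt0 : ∀ (U : Finset V) (A : Finset V), wt G θ U (fun _ => 0) A =
      (∏ e ∈ U.sym2 with e ∈ G.edgeSet,
        (if (Sym2.map (fun v => decide (v ∈ A)) e).IsDiag then 1 + θ else 1 - θ)) *
      (1 / 2) ^ U.card := by
    intro U A
    unfold wt
    congr 1
    simp
  rw [Finset.sum_powerset_insert hw, ← Finset.sum_add_distrib]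
  refine Finset.sum_congr rfl fun A hA => ?_
  rw [Finset.mem_powerset] at hA
  rw [hf A hA, ← add_mul]
  congr 1
  have hwA : w ∉ A := fun h => hw (hA h)
  by_cases hex : ∃ p ∈ W, G.Adj p w
  · obtain ⟨p, hp, hpw⟩ := hex
    have hedges : (insert w W).sym2.filter (fun e => e ∈ G.edgeSet) =
        insert s(p, w) (W.sym2.filter (fun e => e ∈ G.edgeSet)) := by
      ext e
      induction e using Sym2.ind with
      | _ a b =>
        simp only [Finset.mem_filter, Finset.mk_mem_sym2_iff, Finset.mem_insert,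
          SimpleGraph.mem_edgeSet]
        constructor
        · rintro ⟨⟨rfl | ha, rfl | hb⟩, hab⟩
          · exact absurd hab (G.loopless.irrefl _)
          · left
            rw [huniq b hb p hp hab.symm hpw]
            exact Sym2.eq_swap
          · left
            rw [huniq a ha p hp hab hpw]
          · exact Or.inr ⟨⟨ha, hb⟩, hab⟩
        · rintro (h | ⟨⟨ha, hb⟩, hab⟩)
          · rw [Sym2.eq_iff] at h
            rcases h with ⟨rfl, rfl⟩ | ⟨rfl, rfl⟩
            · exact ⟨⟨Or.inr hp, Or.inl rfl⟩, hpw⟩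
            · exact ⟨⟨Or.inl rfl, Or.inr hp⟩, hpw.symm⟩
          · exact ⟨⟨Or.inr ha, Or.inr hb⟩, hab⟩
    have hnot : s(p, w) ∉ W.sym2.filter (fun e => e ∈ G.edgeSet) := by
      simp only [Finset.mem_filter, Finset.mk_mem_sym2_iff]
      rintro ⟨⟨_, h⟩, _⟩
      exact hw h
    have hf1 : ∏ e ∈ W.sym2 with e ∈ G.edgeSet,
        (if (Sym2.map (fun v => decide (v ∈ insert w A)) e).IsDiag then 1 + θ else 1 - θ) =
        ∏ e ∈ W.sym2 with e ∈ G.edgeSet,
        (if (Sym2.map (fun v => decide (v ∈ A)) e).IsDiag then 1 + θ else 1 - θ) := by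
      refine Finset.prod_congr rfl fun e he => ?_
      have : Sym2.map (fun v => decide (v ∈ insert w A)) e =
          Sym2.map (fun v => decide (v ∈ A)) e := by
        refine Sym2.map_congr fun v hv => ?_
        have hv1 : v ∈ W := (Finset.mem_sym2_iff.mp (Finset.mem_filter.mp he).1) v hv
        have hvw : v ≠ w := fun e => hw (e ▸ hv1)
        simp [hvw]
      rw [this]
    have hpw' : p ≠ w := fun e => hw (e ▸ hp)
    rw [hwt0, hwt0, hwt0, hedges, Finset.prod_insert hnot, Finset.prod_insert hnot, hf1,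
      Finset.card_insert_of_notMem hw, pow_succ]
    have hs : (if (Sym2.map (fun v => decide (v ∈ A)) s(p, w)).IsDiag then 1 + θ else 1 - θ) +
        (if (Sym2.map (fun v => decide (v ∈ insert w A)) s(p, w)).IsDiag then 1 + θ else 1 - θ) =
        (2 : ℝ) := by
      simp only [Sym2.map_mk, Sym2.mk_isDiag_iff, Finset.mem_insert, hpw', hwA, false_or]
      by_cases h : p ∈ A <;> simp [h] <;> ring
    set P := ∏ e ∈ W.sym2 with e ∈ G.edgeSet,
        (if (Sym2.map (fun v => decide (v ∈ A)) e).IsDiag then 1 + θ else 1 - θ) with hP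
    calc _ = ((if (Sym2.map (fun v => decide (v ∈ A)) s(p, w)).IsDiag then 1 + θ else 1 - θ) +
        (if (Sym2.map (fun v => decide (v ∈ insert w A)) s(p, w)).IsDiag then 1 + θ else 1 - θ)) *
          (P * ((1 / 2) ^ W.card * (1 / 2))) := by ring
      _ = _ := by rw [hs]; ring
  · push Not at hex
    have hedges : (insert w W).sym2.filter (fun e => e ∈ G.edgeSet) =
        W.sym2.filter (fun e => e ∈ G.edgeSet) := by
      ext e
      induction e using Sym2.ind with
      | _ a b =>
        simp only [Finset.mem_filter, Finset.mk_mem_sym2_iff, Finset.mem_insert,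
          SimpleGraph.mem_edgeSet]
        constructor
        · rintro ⟨⟨rfl | ha, rfl | hb⟩, hab⟩
          · exact absurd hab (G.loopless.irrefl _)
          · exact absurd hab.symm (hex b hb)
          · exact absurd hab (hex a ha)
          · exact ⟨⟨ha, hb⟩, hab⟩
        · rintro ⟨⟨ha, hb⟩, hab⟩
          exact ⟨⟨Or.inr ha, Or.inr hb⟩, hab⟩
    have hf1 : ∏ e ∈ W.sym2 with e ∈ G.edgeSet,
        (if (Sym2.map (fun v => decide (v ∈ insert w A)) e).IsDiag then 1 + θ else 1 - θ) =
        ∏ e ∈ W.sym2 with e ∈ G.edgeSet,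
        (if (Sym2.map (fun v => decide (v ∈ A)) e).IsDiag then 1 + θ else 1 - θ) := by
      refine Finset.prod_congr rfl fun e he => ?_
      have : Sym2.map (fun v => decide (v ∈ insert w A)) e =
          Sym2.map (fun v => decide (v ∈ A)) e := by
        refine Sym2.map_congr fun v hv => ?_
        have hv1 : v ∈ W := (Finset.mem_sym2_iff.mp (Finset.mem_filter.mp he).1) v hv
        have hvw : v ≠ w := fun e => hw (e ▸ hv1)
        simp [hvw]
      rw [this]
    rw [hwt0, hwt0, hwt0, hedges, hf1, Finset.card_insert_of_notMem hw, pow_succ]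
    ring

open Classical in
/-- consistency at zero field for parent-closed subsets. -/
theorem TreeWin2_marg (hT : G.IsTree) {θ : ℝ} (h0 : 0 ≤ θ) (h1 : θ < 1) (r : V) (S : Finset V)
    (hS : ∀ c ∈ S, ∀ w, G.Adj w c → G.dist r c = G.dist r w + 1 → w ∈ S)
    (f : Finset V → ℝ) (hf : ∀ A, f (A ∩ S) = f A) :
    ∀ (n : ℕ) (W : Finset V), S ⊆ W → (W \ S).card = n →
    ∑ A ∈ W.powerset, wt G θ W (fun _ => 0) A * f A =
      ∑ A ∈ S.powerset, wt G θ S (fun _ => 0) A * f A := by
  intro n
  induction n with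
  | zero =>
    intro W hSW hcard
    have : W = S := by
      refine Finset.Subset.antisymm ?_ hSW
      rw [Finset.card_eq_zero, Finset.sdiff_eq_empty_iff_subset] at hcard
      exact hcard
    rw [this]
  | succ n ih =>
    intro W hSW hcard
    have hne : (W \ S).Nonempty := by
      rw [← Finset.card_pos, hcard]
      exact Nat.succ_pos n
    obtain ⟨w, hw, hmax⟩ := Finset.exists_max_image (W \ S) (fun v => G.dist r v) hne
    rw [Finset.mem_sdiff] at hw
    have hW : insert w (W.erase w) = W := Finset.insert_erase hw.1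
    have hchild : ∀ u ∈ W, G.Adj u w → G.dist r w = G.dist r u + 1 := by
      intro u hu huw
      rcases dist_succ_of_adj hT r huw with h | h
      · exfalso
        by_cases huS : u ∈ S
        · exact hw.2 (hS u huS w huw.symm h)
        · have := hmax u (Finset.mem_sdiff.mpr ⟨hu, huS⟩)
          omega
      · exact h
    have h2 := TreeWin2_add_leaf (G := G) (θ := θ) (Finset.notMem_erase w W)
      (fun u hu v hv huw hvw => parent_unique hT r huw hvw
        (hchild u (Finset.mem_of_mem_erase hu) huw) (hchild v (Finset.mem_of_mem_erase hv) hvw))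
      f (fun A _ => by
        rw [← hf (insert w A), ← hf A, Finset.insert_inter_of_notMem hw.2])
    rw [hW] at h2
    rw [h2]
    refine ih (W.erase w) ?_ ?_
    · intro v hv
      rw [Finset.mem_erase]
      exact ⟨fun e => hw.2 (e ▸ hv), hSW hv⟩
    · have : (W.erase w) \ S = (W \ S).erase w := by
        ext v
        simp only [Finset.mem_sdiff, Finset.mem_erase]
        tauto
      rw [this, Finset.card_erase_of_mem (Finset.mem_sdiff.mpr hw), hcard]
      rfl

theorem Zw_zero (hT : G.IsTree) {θ : ℝ} (h0 : 0 ≤ θ) (h1 : θ < 1) (W : Finset V) :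
    Zw G θ W (fun _ => 0) = 1 := by
  classical
  obtain ⟨r⟩ := hT.connected.nonempty
  have h := TreeWin2_marg hT h0 h1 r ∅ (fun c hc => absurd hc (Finset.notMem_empty c))
    (fun _ => 1) (fun _ => rfl) _ W (Finset.empty_subset W) rfl
  simp only [mul_one] at h
  unfold Zw
  rw [h]
  unfold wt
  simp

/-- a connected subset of a tree is closed under taking parents with respect to one of its
vertices. -/
theorem TreeWin2_parent_mem (hT : G.IsTree) {S : Finset V}
    (hS : (G.induce (S : Set V)).Connected) {r : V} (hr : r ∈ S) :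
    ∀ c ∈ S, ∀ w, G.Adj w c → G.dist r c = G.dist r w + 1 → w ∈ S := by
  intro c hc w hwc hd
  obtain ⟨p⟩ := hS.preconnected ⟨c, hc⟩ ⟨r, hr⟩
  have hwc1 : G.dist w c = 1 := SimpleGraph.dist_eq_one_iff_adj.2 hwc
  obtain ⟨d, _, hd1, hd2⟩ := p.exists_boundary_dart
    {v | G.dist w (v : V) = G.dist c (v : V) + 1}
    (by simp only [Set.mem_ofPred_eq]; rw [SimpleGraph.dist_self]; exact hwc1)
    (by
      simp only [Set.mem_ofPred_eq]
      rw [SimpleGraph.dist_comm (u := w), SimpleGraph.dist_comm (u := c)]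
      omega)
  simp only [Set.mem_ofPred_eq] at hd1 hd2
  have hadj : G.Adj (d.fst : V) (d.snd : V) := d.adj
  have h3 : G.dist c (d.snd : V) = G.dist w (d.snd : V) + 1 := by
    rcases dist_adj_cases hT hwc (d.snd : V) with h | h
    · exact absurd h hd2
    · exact h
  have h4 := edge_between_sides hT hwc hadj.symm h3 hd1
  rw [← h4.1]
  exact d.snd.2

open Classical in
theorem TreeWin2_card_edges (hT : G.IsTree) {S : Finset V}
    (hS : (G.induce (S : Set V)).Connected) :
    (S.sym2.filter (fun e => e ∈ G.edgeSet)).card + 1 = S.card := by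
  have hT' : (G.induce (S : Set V)).IsTree := ⟨hS, hT.isAcyclic.induce _⟩
  have h := hT'.card_edgeFinset
  have h2 : S.sym2.filter (fun e => e ∈ G.edgeSet) =
      (G.induce (S : Set V)).edgeFinset.map
        (Function.Embedding.subtype (fun v => v ∈ (S : Set V))).sym2Map := by
    ext e
    induction e using Sym2.ind with
    | _ a b =>
      simp only [Finset.mem_filter, Finset.mk_mem_sym2_iff, SimpleGraph.mem_edgeSet,
        Finset.mem_map, SimpleGraph.mem_edgeFinset]
      constructor
      · rintro ⟨⟨ha, hb⟩, hab⟩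
        exact ⟨s(⟨a, ha⟩, ⟨b, hb⟩), hab, rfl⟩
      · rintro ⟨e, he, heq⟩
        induction e using Sym2.ind with
        | _ u v =>
          have heq' : s((u : V), (v : V)) = s(a, b) := heq
          have he' : G.Adj (u : V) (v : V) := he
          rw [Sym2.eq_iff] at heq'
          rcases heq' with ⟨h1, h2⟩ | ⟨h1, h2⟩
          · rw [← h1, ← h2]
            exact ⟨⟨u.2, v.2⟩, he'⟩
          · rw [← h1, ← h2]
            exact ⟨⟨v.2, u.2⟩, he'.symm⟩
  rw [h2, Finset.card_map, h]
  simp

open Classical in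
/-- consistency: the law of the spins in a connected `S ⊆ W` is `isingWeight`. -/
theorem TreeWin2_av_isingWeight (hT : G.IsTree) {θ : ℝ} (h0 : 0 ≤ θ) (h1 : θ < 1)
    {W S : Finset V} (hSW : S ⊆ W) (hS : (G.induce (S : Set V)).Connected) (η : V → Bool) :
    av G θ W (fun _ => 0) (fun A => ∏ v ∈ S, (1 + (if η v then 1 else -1) * sp A v) / 2) =
      Crest.ProbabilityR.TreeIsing.isingWeight G θ S η := by
  obtain ⟨⟨r, hr⟩⟩ := hS.nonempty
  have hsp : ∀ A : Finset V, ∀ v ∈ S, sp (A ∩ S) v = sp A v := by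
    intro A v hv
    unfold sp
    simp [hv]
  have h := TreeWin2_marg hT h0 h1 r S (TreeWin2_parent_mem hT hS hr)
    (fun A => ∏ v ∈ S, (1 + (if η v then 1 else -1) * sp A v) / 2)
    (fun A => Finset.prod_congr rfl fun v hv => by rw [hsp A v hv]) _ W hSW rfl
  rw [av, Zw_zero hT h0 h1, div_one, h]
  -- only the configuration `η` contributes
  set B : Finset V := S.filter (fun v => η v = true) with hB
  have hBS : B ∈ S.powerset := Finset.mem_powerset.mpr (Finset.filter_subset _ _)
  rw [Finset.sum_eq_single_of_mem B hBS]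
  · have h3 : ∏ v ∈ S, (1 + (if η v then 1 else -1) * sp B v) / 2 = (1 : ℝ) := by
      refine Finset.prod_eq_one fun v hv => ?_
      unfold sp
      by_cases hη : η v = true
      · have : v ∈ B := by rw [hB, Finset.mem_filter]; exact ⟨hv, hη⟩
        simp [this, hη]
      · have : v ∉ B := by rw [hB, Finset.mem_filter]; exact fun h => hη h.2
        simp [this, hη]
    rw [h3, mul_one]
    unfold wt Crest.ProbabilityR.TreeIsing.isingWeight
    have h4 : ∏ v ∈ S, (Real.exp ((fun _ : V => (0 : ℝ)) v * sp B v) / 2) =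
        (1 / 2) * ∏ e ∈ S.sym2 with e ∈ G.edgeSet, (1 / 2 : ℝ) := by
      rw [Finset.prod_const, ← pow_succ', TreeWin2_card_edges hT hS]
      simp
    rw [h4, mul_left_comm, ← Finset.prod_mul_distrib]
    congr 1
    refine Finset.prod_congr (by congr) fun e he => ?_
    have h5 : Sym2.map (fun v => decide (v ∈ B)) e = Sym2.map η e := by
      refine Sym2.map_congr fun v hv => ?_
      have hv1 : v ∈ S := (Finset.mem_sym2_iff.mp (Finset.mem_filter.mp he).1) v hv
      rw [hB]
      by_cases hη : η v = true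
      · simp [hv1, hη]
      · simp [hη]
    rw [h5]
    split_ifs <;> ring
  · intro A hA hne
    rw [Finset.mem_powerset] at hA
    have : ∃ v ∈ S, ¬ (v ∈ A ↔ η v = true) := by
      by_contra hcon
      push Not at hcon
      apply hne
      ext v
      rw [hB, Finset.mem_filter]
      constructor
      · intro hv
        exact ⟨hA hv, (hcon v (hA hv)).mp hv⟩
      · rintro ⟨hv, hη⟩
        exact (hcon v hv).mpr hη
    obtain ⟨v, hv, hvn⟩ := this
    rw [Finset.prod_eq_zero hv, mul_zero]
    unfold sp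
    by_cases hη : η v = true
    · have : v ∉ A := fun h => hvn ⟨fun _ => hη, fun _ => h⟩
      simp [this, hη]
    · have : v ∈ A := by
        by_contra hvA
        exact hvn ⟨fun h => absurd h hvA, fun h => absurd h hη⟩
      simp [this, hη]

set_option linter.unusedVariables false in
/-- consistency: the law of the spins in a connected `S ⊆ W` is `isingWeight`. -/
theorem av_isingWeight (hT : G.IsTree) {θ : ℝ} (h0 : 0 ≤ θ) (h1 : θ < 1) {W S : Finset V}
    (hW : Conv G W) (hSW : S ⊆ W) (hS : (G.induce (S : Set V)).Connected) (η : V → Bool) :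
    av G θ W (fun _ => 0) (fun A => ∏ v ∈ S, (1 + (if η v then 1 else -1) * sp A v) / 2) =
      Crest.ProbabilityR.TreeIsing.isingWeight G θ S η :=
  TreeWin2_av_isingWeight hT h0 h1 hSW hS η

end M2b

end Crest.Agent.Lib.Row160
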